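import Crest.Agent.R109.NDefs

/-!
# R109/N: GNS, central vectors, supports, the net of pinchings
-/

set_option autoImplicit false
open Filter Topology
open scoped InnerProductSpace

namespace Crest.Agent.R109
open Crest.Agent.R121

universe u
variable {H : Type u} [NormedAddCommGroup H] [InnerProductSpace ℂ H] [CompleteSpace H]
variable {M : VonNeumannAlgebra H} {A : StarSubalgebra ℂ (Al M)}
variable {K : Type*} [NormedAddCommGroup K] [InnerProductSpace ℂ K] [CompleteSpace K]
variable {κ : Type*} [Fintype κ]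

open scoped ComplexOrder in
/-- GNS with its cyclic vector.  `CStarAlgebra.spectralOrder B`, `spectralOrderedRing`; `ψ` is a
`PositiveLinearMap` (`StarOrderedRing.nonneg_iff` or `CStarAlgebra.nonneg_iff_eq_star_mul_self`),
`K = f.GNS`, `ρ = f.gnsStarAlgHom`, `η = ↑(f.toPreGNS 1)`, `ρ b η = ↑(f.toPreGNS b)`
(see also `R120/Trace.lean`, `exists_gns`). -/
theorem exists_gns {B : Type u} [CStarAlgebra B] (ψ : B →ₗ[ℂ] ℂ)
    (hψ : ∀ b, 0 ≤ (ψ (star b * b)).re ∧ (ψ (star b * b)).im = 0) :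
    ∃ (K : Type u) (_ : NormedAddCommGroup K) (_ : InnerProductSpace ℂ K) (_ : CompleteSpace K)
      (ρ : B →⋆ₐ[ℂ] (K →L[ℂ] K)) (η : K),
      Dense (Set.range fun b => ρ b η) ∧ ∀ b, ⟪η, ρ b η⟫_ℂ = ψ b := by
  let := CStarAlgebra.spectralOrder B
  have := CStarAlgebra.spectralOrderedRing B
  let φ : B →ₚ[ℂ] ℂ := PositiveLinearMap.mk₀ ψ fun x hx => by
    obtain ⟨b, rfl⟩ := CStarAlgebra.nonneg_iff_eq_star_mul_self.1 hx
    exact Complex.nonneg_iff.2 ⟨(hψ b).1, (hψ b).2.symm⟩
  have key : ∀ a, φ.gnsStarAlgHom a ((φ.toPreGNS 1 : φ.PreGNS) : φ.GNS) =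
      ((φ.toPreGNS a : φ.PreGNS) : φ.GNS) := by
    intro a
    change φ.gnsNonUnitalStarAlgHom a _ = _
    rw [PositiveLinearMap.gnsNonUnitalStarAlgHom_apply_coe]
    congr 1
    simp
  refine ⟨φ.GNS, inferInstance, inferInstance, inferInstance, φ.gnsStarAlgHom,
    ((φ.toPreGNS 1 : φ.PreGNS) : φ.GNS), ?_, fun a => ?_⟩
  · simp only [key]
    exact UniformSpace.Completion.denseRange_coe.comp φ.toPreGNS.surjective.denseRange
      (UniformSpace.Completion.continuous_coe _)
  · rw [key, UniformSpace.Completion.inner_coe, PositiveLinearMap.preGNS_inner_def]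
    simp only [PositiveLinearMap.ofPreGNS_toPreGNS, star_one, one_mul]
    rfl

/-- Riesz for a functional dominated by `‖j ·‖`: it factors through `range j`
(`LinearMap.quotKerEquivRange`, `Submodule.liftQ`), extends by `exists_extension_norm_eq`, and
is represented by `InnerProductSpace.toDual`. -/
theorem exists_riesz {V : Type*} [AddCommGroup V] [Module ℂ V] (j : V →ₗ[ℂ] K) (l : V →ₗ[ℂ] ℂ)
    {C : ℝ} (hC : 0 ≤ C) (h : ∀ m, ‖l m‖ ≤ C * ‖j m‖) :
    ∃ v : K, ‖v‖ ≤ C ∧ ∀ m, ⟪v, j m⟫_ℂ = l m := by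
  have hker : LinearMap.ker j ≤ LinearMap.ker l := fun m hm => by
    have h1 := h m
    rw [LinearMap.mem_ker.1 hm, norm_zero, mul_zero] at h1
    exact norm_le_zero_iff.1 h1
  let f₀ : LinearMap.range j →ₗ[ℂ] ℂ :=
    (LinearMap.ker j).liftQ l hker ∘ₗ j.quotKerEquivRange.symm.toLinearMap
  have hf₀ : ∀ m, f₀ ⟨j m, LinearMap.mem_range_self j m⟩ = l m := fun m => by
    have : j.quotKerEquivRange.symm ⟨j m, LinearMap.mem_range_self j m⟩ =
        (LinearMap.ker j).mkQ m := by
      rw [LinearEquiv.symm_apply_eq]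
      exact Subtype.ext (LinearMap.quotKerEquivRange_apply_mk j m).symm
    change (LinearMap.ker j).liftQ l hker (j.quotKerEquivRange.symm _) = _
    rw [this]
    rfl
  have hb : ∀ x : LinearMap.range j, ‖f₀ x‖ ≤ C * ‖x‖ := by
    rintro ⟨_, m, rfl⟩
    rw [hf₀]
    exact h m
  obtain ⟨g, hg, hn⟩ := exists_extension_norm_eq (LinearMap.range j) (f₀.mkContinuous C hb)
  refine ⟨(InnerProductSpace.toDual ℂ K).symm g, ?_, fun m => ?_⟩
  · rw [LinearIsometryEquiv.norm_map, hn]
    exact LinearMap.mkContinuous_norm_le _ hC _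
  · rw [InnerProductSpace.toDual_symm_apply]
    exact (hg ⟨j m, LinearMap.mem_range_self j m⟩).trans (hf₀ m)

variable {ρ : Al M →⋆ₐ[ℂ] (K →L[ℂ] K)} {ζ : K}

/-- `φ(a* m* m a) = φ(m* m a a*)` (`rep_norm_sq`). -/
theorem Cen.norm_sq (h : Cen A ρ ζ) (m : Al M) {a : Al M} (ha : a ∈ A) :
    ‖ρ (m * a) ζ‖ ^ 2 = (⟪ζ, ρ (star m * m * (a * star a)) ζ⟫_ℂ).re := by
  rw [rep_norm_sq, star_mul, mul_assoc, h _ (star_mem ha)]
  simp only [mul_assoc]

/-- `‖m p ζ‖² + ‖m (1 - p) ζ‖² = ‖m ζ‖²` by `Cen.norm_sq`. -/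
theorem Cen.norm_proj_le (h : Cen A ρ ζ) (m : Al M) {p : Al M} (hpA : p ∈ A)
    (hp : IsStarProjection p) : ‖ρ (m * p) ζ‖ ≤ ‖ρ m ζ‖ := by
  have h1 := h.norm_sq m hpA
  have h2 := h.norm_sq m (sub_mem (one_mem A) hpA)
  have h3 := rep_norm_sq ρ m ζ
  rw [proj_star hp, proj_mul_self hp] at h1
  rw [proj_star hp.one_sub, proj_mul_self hp.one_sub, mul_sub (star m * m), mul_one, map_sub,
    sub_apply, inner_sub_right, Complex.sub_re] at h2
  refine (abs_le_of_sq_le_sq' ?_ (norm_nonneg _)).2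
  nlinarith [sq_nonneg ‖ρ (m * (1 - p)) ζ‖]

/-- Centrality can be tested on projections (`Masa.span_induction`). -/
theorem Cen.of_proj (hA : Masa A) (h : ∀ p ∈ A, IsStarProjection p → ∀ m : Al M,
    ⟪ζ, ρ (p * m) ζ⟫_ℂ = ⟪ζ, ρ (m * p) ζ⟫_ℂ) : Cen A ρ ζ := by
  intro a ha m
  let φ : Al M →ₗ[ℂ] ℂ :=
    { toFun := fun x => ⟪ζ, ρ x ζ⟫_ℂ
      map_add' := fun x y => by rw [map_add, add_apply, inner_add_right]
      map_smul' := fun c x => by
        rw [map_smul, smul_apply, inner_smul_right]; rfl }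
  have hφ : Continuous φ := AddMonoidHomClass.continuous_of_bound φ (‖ζ‖ * ‖ζ‖) fun x => by
    refine (norm_inner_le_norm (𝕜 := ℂ) ζ (ρ x ζ)).trans ?_
    nlinarith [rep_norm_le ρ x ζ, norm_nonneg ζ, norm_nonneg x]
  exact hA.span_induction (LinearMap.eqLocus (φ ∘ₗ LinearMap.mulRight ℂ m)
    (φ ∘ₗ LinearMap.mulLeft ℂ m))
    (isClosed_eq (f := fun a : Al M => φ (a * m)) (g := fun a : Al M => φ (m * a))
      (hφ.comp (by fun_prop)) (hφ.comp (by fun_prop))) (fun p hp hp' => h p hp hp' m) ha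

/-- Support.  Take a maximal orthogonal family `S` (`R121.exists_maximal_pairwise`) of nonzero
projections `p` with `ρ p ζ = 0`, `g` its sum (`exists_sumProj`), `e = 1 - g`.  By normality
`‖ρ g ζ‖² = re ⟪ζ, ρ g ζ⟫ = 0`.  If `ρ m ζ = 0` and `b = star (m e) ≠ 0`, `exists_proj_mem_ideal`
gives a nonzero projection `p = b d = star d * (m e)` with `ρ p ζ = 0`, `g p = 0`, so `p ∈ S` by
maximality and `p = g p = 0`.  For a projection `p ∈ A`, `ρ (g p) ζ = 0` (`Cen.norm_proj_le`), so
`g p e = 0`; take adjoints: `p e = e p e = e p`; `Masa.mem_of_comm_proj`. -/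
theorem exists_supp (hA : Masa A) (hn : Nml fun m => ⟪ζ, ρ m ζ⟫_ℂ) (hc : Cen A ρ ζ) :
    ∃ e : Al M, Supp A ρ ζ e := by
  obtain ⟨S, hS, hSp, hmax⟩ := exists_maximal_pairwise
    (fun p : Al M => IsStarProjection p ∧ p ≠ 0 ∧ ρ p ζ = 0) (fun p q => star p * q = 0)
    fun u v h => by simpa using congrArg star h
  have o1 : Pairwise fun i k : S => (i : Al M) * k = 0 := fun i k h => by
    have : star (i : Al M) * k = 0 := hSp i.2 k.2 (Subtype.coe_ne_coe.mpr h)
    rwa [proj_star (hS i i.2).1] at this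
  obtain ⟨g, hg, hs, hgp⟩ := exists_sumProj (fun i : S => (i : Al M)) (fun i => (hS i i.2).1) o1
  have hg0 : ρ g ζ = 0 := by
    have h1 := hn.tendsto (r := 1) (Eventually.of_forall fun s =>
      proj_norm_le (proj_finsum (fun i : S => (hS i i.2).1) o1 s)) hs
    have h2 : ∀ s : Finset S, ⟪ζ, ρ (∑ i ∈ s, (i : Al M)) ζ⟫_ℂ = 0 := fun s => by
      rw [map_sum, sum_apply, Finset.sum_eq_zero fun (i : S) _ => (hS i i.2).2.2,
        inner_zero_right]
    simp only [h2] at h1
    have h3 := tendsto_nhds_unique h1 tendsto_const_nhds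
    have h4 := rep_norm_sq ρ g ζ
    rw [proj_star hg, proj_mul_self hg, h3, Complex.zero_re] at h4
    exact norm_eq_zero.1 (pow_eq_zero_iff two_ne_zero |>.1 h4)
  have hfix : ρ (1 - g) ζ = ζ := by
    rw [map_sub, map_one, sub_apply, hg0, sub_zero]; rfl
  have hge : g * (1 - g) = 0 := by rw [mul_sub, mul_one, proj_mul_self hg, sub_self]
  have hsep : ∀ m : Al M, ρ m ζ = 0 → m * (1 - g) = 0 := by
    intro m hm
    by_contra hne
    obtain ⟨d, hp, hp0⟩ := exists_proj_mem_ideal (star_ne_zero.2 hne)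
    set p := star (m * (1 - g)) * d with hpd
    have e1 : p = star d * (m * (1 - g)) := by
      rw [← proj_star hp, hpd, star_mul, star_star]
    have h1 : ρ p ζ = 0 := by rw [e1, rep_mul, rep_mul, hfix, hm, map_zero]
    have h2 : g * p = 0 := by
      rw [hpd, star_mul, proj_star hg.one_sub, ← mul_assoc, ← mul_assoc, hge, zero_mul, zero_mul]
    have h3 : star p * g = 0 := by
      simpa only [star_mul g, proj_star hg, star_zero] using congrArg star h2
    have h4 : p ∈ S := hmax p ⟨hp, hp0, h1⟩ fun y hy => by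
      have h5 : g * y = y := hgp ⟨y, hy⟩
      rw [← h5, ← mul_assoc, h3, zero_mul]
    exact hp0 ((hgp ⟨p, h4⟩).symm.trans h2)
  refine ⟨1 - g, hA.mem_of_comm_proj fun p hpA hp => ?_, hg.one_sub, hfix, hsep⟩
  have h1 : ρ (g * p) ζ = 0 := by
    have := hc.norm_proj_le g hpA hp
    rwa [hg0, norm_zero, norm_le_zero_iff] at this
  have h2 := hsep _ h1
  have h3 : (1 - g) * (p * g) = 0 := by
    simpa only [star_mul, proj_star hg, proj_star hp, proj_star hg.one_sub, star_zero]
      using congrArg star h2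
  rw [mul_sub, mul_one, sub_eq_zero] at h2
  rw [sub_mul, one_mul, sub_eq_zero, ← mul_assoc, ← h2] at h3
  rw [mul_sub, sub_mul, mul_one, one_mul, h3]

/-- Small at `ζ` implies small at `ξ`.  Otherwise take `m_k` with `‖m_k‖ ≤ 1`,
`‖ρ m_k ζ‖ ≤ 1/(k+1)`, `‖J ξ (m_k e)‖ > δ`; `h` a weak limit of `star m_k * m_k` along
`hyperfilter ℕ` (`exists_WL`).  `‖ρ h ζ‖² = lim ⟪ζ, ρ (star h * (star m_k * m_k)) ζ⟫ = 0`
(`Nml.mul`, `Nml.tendsto`), so `h e = 0`, but
`δ² ≤ lim ⟪J ξ e, J ξ (star m_k * m_k * e)⟫ = ⟪J ξ e, J ξ (h e)⟫ = 0` (`J_adj`). -/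
theorem Supp.small (hn : Nml fun m => ⟪ζ, ρ m ζ⟫_ℂ) {e : Al M} (he : Supp A ρ ζ e) (ξ : κ → H)
    {δ : ℝ} (hδ : 0 < δ) :
    ∃ d > 0, ∀ m : Al M, ‖m‖ ≤ 1 → ‖ρ m ζ‖ ≤ d → ‖J ξ (m * e)‖ ≤ δ := by
  by_contra hcon
  push Not at hcon
  choose m hm1 hm2 hm3 using fun k : ℕ => hcon (1 / ((k : ℝ) + 1)) (by positivity)
  have hb : ∀ k, ‖star (m k) * m k‖ ≤ 1 := fun k => by
    rw [CStarRing.norm_star_mul_self]
    exact mul_le_one₀ (hm1 k) (norm_nonneg _) (hm1 k)
  obtain ⟨h, hh⟩ := exists_WL (hyperfilter ℕ) (fun k => star (m k) * m k) 1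
    (Eventually.of_forall hb)
  have hle : (hyperfilter ℕ : Filter ℕ) ≤ atTop := by
    rw [← Nat.cofinite_eq_atTop]; exact hyperfilter_le_cofinite
  have h0 : ρ h ζ = 0 := by
    have h1 := (hn.mul (star h) 1).tendsto (Eventually.of_forall hb) hh
    simp only [mul_one] at h1
    have h2 : Tendsto (fun k => ⟪ζ, ρ (star h * (star (m k) * m k)) ζ⟫_ℂ) (hyperfilter ℕ)
        (𝓝 0) := by
      refine squeeze_zero_norm (a := fun k : ℕ => ‖ρ h ζ‖ * (1 / ((k : ℝ) + 1))) (fun k => ?_) ?_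
      · rw [rep_mul, rep_mul, ← rep_inner, ← rep_inner]
        refine (norm_inner_le_norm _ _).trans (mul_le_mul ?_ (hm2 k) (norm_nonneg _)
          (norm_nonneg _))
        exact (rep_norm_le ρ _ _).trans (mul_le_of_le_one_left (norm_nonneg _) (hm1 k))
      · simpa using ((tendsto_one_div_add_atTop_nhds_zero_nat (𝕜 := ℝ)).const_mul
          ‖ρ h ζ‖).mono_left hle
    have h3 := tendsto_nhds_unique h1 h2
    have h4 := rep_norm_sq ρ h ζ
    rw [h3, Complex.zero_re] at h4
    exact norm_eq_zero.1 (pow_eq_zero_iff two_ne_zero |>.1 h4)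
  have h1 := (hh.mul_right e).tendsto_inner_J ξ (J ξ e)
  rw [he.sep h h0, map_zero, inner_zero_right] at h1
  have h2 := (Complex.continuous_re.tendsto _).comp h1
  have h3 : δ ^ 2 ≤ (0 : ℂ).re := ge_of_tendsto h2 (Eventually.of_forall fun k => by
    simp only [Function.comp_apply]
    rw [mul_assoc, ← J_adj, inner_self_eq_norm_sq_to_K]
    norm_cast
    exact pow_le_pow_left₀ hδ.le (hm3 k).le 2)
  rw [Complex.zero_re] at h3
  exact absurd h3 (not_le.2 (by positivity))

/-- A partition adapted to finitely many projections.  Induction on `T`: `Ptn.prod` with the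
partition `![p, 1 - p]`, reindexed by `finProdFinEquiv`. -/
theorem exists_adapted (hA : Masa A) (T : Finset (Al M)) :
    ∃ (n : ℕ) (s : Fin n → Al M), Ptn A s ∧ ∀ p ∈ T, p ∈ A → IsStarProjection p →
      ∀ k, s k * p = s k ∨ s k * p = 0 := by
  classical
  induction T using Finset.induction_on with
  | empty =>
    exact ⟨1, fun _ => 1, ⟨fun _ => one_mem _, fun _ => IsStarProjection.one _,
      Subsingleton.pairwise, by simp⟩, by simp⟩
  | insert p T _ ih =>
    obtain ⟨n, s, hs, hT⟩ := ih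
    by_cases hp : p ∈ A ∧ IsStarProjection p
    · obtain ⟨hpA, hp⟩ := hp
      have h1 : p * (1 - p) = 0 := by rw [mul_sub, mul_one, proj_mul_self hp, sub_self]
      have h2 : (1 - p) * p = 0 := by rw [sub_mul, one_mul, proj_mul_self hp, sub_self]
      have hq : Ptn A ![p, 1 - p] := by
        refine ⟨fun i => ?_, fun i => ?_, fun i j hij => ?_, by simp⟩
        · fin_cases i
          exacts [hpA, sub_mem (one_mem _) hpA]
        · fin_cases i
          exacts [hp, hp.one_sub]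
        · fin_cases i <;> fin_cases j
          exacts [absurd rfl hij, h1, h2, absurd rfl hij]
      have hr := hs.prod hA hq
      refine ⟨n * 2, fun k => s (finProdFinEquiv.symm k).1 * ![p, 1 - p] (finProdFinEquiv.symm k).2,
        ⟨fun k => hr.mem _, fun k => hr.proj _, fun k l hkl => hr.orth
          (finProdFinEquiv.symm.injective.ne hkl), ?_⟩, fun q hq' hqA hqp k => ?_⟩
      · exact (finProdFinEquiv.symm.sum_comp
          (fun ik : Fin n × Fin 2 => s ik.1 * ![p, 1 - p] ik.2)).trans hr.sum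
      · beta_reduce
        generalize finProdFinEquiv.symm k = ik
        obtain ⟨i, j⟩ := ik
        rcases Finset.mem_insert.1 hq' with rfl | hqT
        · fin_cases j
          · left
            change s i * q * q = s i * q
            rw [mul_assoc, proj_mul_self hp]
          · right
            change s i * (1 - q) * q = 0
            rw [mul_assoc, h2, mul_zero]
        · rw [mul_assoc, hA.comm _ (hq.mem j) q hqA, ← mul_assoc]
          rcases hT q hqT hqA hqp i with h | h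
          · left; rw [h]
          · right; rw [h, zero_mul]
    · refine ⟨n, s, hs, fun q hq hqA hqp => ?_⟩
      rcases Finset.mem_insert.1 hq with rfl | hqT
      · exact absurd ⟨hqA, hqp⟩ hp
      · exact hT q hqT hqA hqp

/-- Index set `Finset (Al M)`, ultrafilter `fU (Al M)`, partitions from `exists_adapted`;
`E m` = weak limit (`exists_WL`, `Ptn.norm_Ep_le`), linear by `WL.unique`.  For a projection
`p ∈ A`, eventually (`fU_mem`) `Ep s (p m) = Ep s (m p)` and `p * Ep s m = Ep s m * p` (termwise;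
`s k` commutes with `p`).  Hence `E m ∈ A` (`Masa.mem_of_comm_proj`) and `E (p m) = E (m p)`;
`‖E m‖ ≤ ‖m‖` (`WL.norm_le`) and `Masa.span_induction` give centrality. -/
theorem exists_net (hA : Masa A) : Nonempty (Net A) := by
  choose n s hs hT using exists_adapted hA
  choose E₀ hE using fun m : Al M => exists_WL (fU (Al M)) (fun T => Ep (s T) m) ‖m‖
    (Eventually.of_forall fun T => (hs T).norm_Ep_le m)
  let E : Al M →ₗ[ℂ] Al M :=
    { toFun := E₀
      map_add' := fun x y => (hE (x + y)).unique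
        (((hE x).add (hE y)).congr fun T => (Ep_add _ x y).symm)
      map_smul' := fun c x => (hE (c • x)).unique
        (((hE x).smul c).congr fun T => (Ep_smul _ c x).symm) }
  have hEc : Continuous E := AddMonoidHomClass.continuous_of_bound E 1 fun m => by
    rw [one_mul]
    exact (hE m).norm_le (Eventually.of_forall fun T => (hs T).norm_Ep_le m)
  refine ⟨⟨Finset (Al M), fU (Al M), n, s, E, hs, hE, fun m => ?_, fun a ha m => ?_⟩⟩
  · refine hA.mem_of_comm_proj fun p hpA hp => ?_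
    refine ((hE m).mul_left p).unique
      (((hE m).mul_right p).congr' ((fU_mem p).mono fun T hpT => ?_))
    simp only [Ep, Finset.mul_sum, Finset.sum_mul]
    refine Finset.sum_congr rfl fun k _ => ?_
    rw [← mul_assoc, ← mul_assoc, hA.comm p hpA _ ((hs T).mem k), mul_assoc _ (s T k) p]
    rcases hT T p hpT hpA hp k with h | h
    · rw [h]
    · rw [h, mul_zero, zero_mul, zero_mul]
  · refine hA.span_induction (LinearMap.eqLocus (E ∘ₗ LinearMap.mulRight ℂ m)
      (E ∘ₗ LinearMap.mulLeft ℂ m))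
      (isClosed_eq (f := fun a : Al M => E (a * m)) (g := fun a : Al M => E (m * a))
        (hEc.comp (by fun_prop)) (hEc.comp (by fun_prop))) (fun p hpA hp => ?_) ha
    refine (hE (p * m)).unique ((hE (m * p)).congr' ((fU_mem p).mono fun T hpT => ?_))
    refine Finset.sum_congr rfl fun k _ => ?_
    rw [← mul_assoc, ← mul_assoc, mul_assoc _ p (s T k), hA.comm p hpA _ ((hs T).mem k)]
    rcases hT T p hpT hpA hp k with h | h
    · rw [h]
    · rw [h, mul_zero, zero_mul, zero_mul]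

theorem Net.norm_le (N : Net A) (m : Al M) : ‖N.E m‖ ≤ ‖m‖ :=
  (N.lim m).norm_le (Eventually.of_forall fun i => (N.ptn i).norm_Ep_le m)

theorem Net.star_E (N : Net A) (m : Al M) : star (N.E m) = N.E (star m) :=
  ((N.lim m).star.congr fun i => (N.ptn i).star_Ep m).unique (N.lim (star m))

end Crest.Agent.R109
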