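import Crest.Agent.R109.Nor
import Crest.Agent.R109.NGns

/-!
# R109: normalisers with bounded Radon-Nikodym derivatives
-/

set_option autoImplicit false
open Filter Topology
open scoped InnerProductSpace

namespace Crest.Agent.R109
open Crest.Agent.R121

universe u
variable {H : Type u} [NormedAddCommGroup H] [InnerProductSpace ℂ H] [CompleteSpace H]
variable {M : VonNeumannAlgebra H} {A : StarSubalgebra ℂ (Al M)} {ξ : H} {g g' d d' : Al M}

/-- `d ∈ A` is the density of `b ↦ φ(g b g*)`. -/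
def Dens (A : StarSubalgebra ℂ (Al M)) (ξ : H) (g d : Al M) : Prop :=
  d ∈ A ∧ ∀ b ∈ A, ph ξ (g * b * star g) = ph ξ (b * d)

/-- Normalisers with bounded densities in both directions. -/
structure Good (A : StarSubalgebra ℂ (Al M)) (ξ : H) (g : Al M) : Prop where
  nor : Nor A g
  dens : ∃ d, Dens A ξ g d
  dens' : ∃ d, Dens A ξ (star g) d

theorem Dens.unique (h : Std A ξ) (h1 : Dens A ξ g d) (h2 : Dens A ξ g d') : d = d' := by
  exact h.ext_A h1.1 h2.1 fun b hb => (h1.2 b hb).symm.trans (h2.2 b hb)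

theorem Dens.mul (h : Std A ξ) (hg' : Nor A g') (h1 : Dens A ξ g d) (h2 : Dens A ξ g' d') :
    Dens A ξ (g * g') (star g' * d * g' * d') := by
  have hm := hg'.left d h1.1
  refine ⟨mul_mem hm h2.1, fun b hb => ?_⟩
  have e1 : g * g' * b * star (g * g') = g * (g' * b * star g') * star g := by
    simp only [star_mul, mul_assoc]
  have e2 : star g' * (d * (g' * star g')) = star g' * d := by
    rw [h.comm d h1.1 _ hg'.fin_mem, ← mul_assoc, ← mul_assoc]
    congr 1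
    simpa only [star_star] using hg'.pi.star'.fin_mul
  rw [e1, h1.2 _ (hg'.right b hb), ← mul_assoc b, ← h2.2 _ (mul_mem hb hm)]
  simp only [mul_assoc, e2]

theorem Dens.of_proj (h : Std A ξ) {e : Al M} (heA : e ∈ A) (he : IsStarProjection e) :
    Dens A ξ e e := by
  refine ⟨heA, fun b hb => ?_⟩
  rw [proj_star he, h.comm e heA b hb, mul_assoc, proj_mul_self he]

/-- `Dens.mul`, `Dens.of_proj`, `Dens.unique` for `g* g`. -/
theorem Dens.inv (h : Std A ξ) (hg : Nor A g) (h1 : Dens A ξ g d) (h2 : Dens A ξ (star g) d') :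
    star g * d' * g * d = star g * g := by
  exact (Dens.mul h hg h2 h1).unique h (Dens.of_proj h hg.init_mem hg.pi.init)

/-- `Std.exists_sq` (self-adjointness by `ext_A`). -/
theorem Dens.exists_sq (h : Std A ξ) (h1 : Dens A ξ g d) :
    ∃ c ∈ A, IsSelfAdjoint c ∧ d = c * c := by
  refine h.exists_sq h1.1 (h.ext_A (star_mem h1.1) h1.1 fun b hb => ?_) fun b hb => ?_
  · have e1 : b * star d = star (star b * d) := by
      rw [← h.comm d h1.1 _ (star_mem hb), star_mul, star_star]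
    rw [e1, ph_star, ← h1.2 _ (star_mem hb), ← ph_star, ← h1.2 b hb]
    simp only [star_mul, star_star, mul_assoc]
  · have e1 : g * (star b * b) * star g = star (b * star g) * (b * star g) := by
      simp only [star_mul, star_star, mul_assoc]
    rw [← h1.2 _ (mul_mem (star_mem hb) hb), e1, ph_star_mul_self, Complex.ofReal_re]
    positivity

theorem Good.star' (h : Good A ξ g) : Good A ξ (star g) := by
  exact ⟨h.nor.star', h.dens', by rw [star_star]; exact h.dens⟩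

theorem Good.mul (h : Std A ξ) (h1 : Good A ξ g) (h2 : Good A ξ g') : Good A ξ (g * g') := by
  obtain ⟨d₁, a1⟩ := h1.dens
  obtain ⟨d₂, a2⟩ := h2.dens
  obtain ⟨d₃, a3⟩ := h1.dens'
  obtain ⟨d₄, a4⟩ := h2.dens'
  exact ⟨h1.nor.mul h.toMasa h2.nor, ⟨_, a1.mul h h2.nor a2⟩,
    _, by rw [star_mul]; exact a4.mul h h1.nor.star' a3⟩

theorem Good.of_proj (h : Std A ξ) {e : Al M} (heA : e ∈ A) (he : IsStarProjection e) :
    Good A ξ e := by
  exact ⟨Nor.of_proj h.toMasa heA he, ⟨_, Dens.of_proj h heA he⟩,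
    _, by rw [proj_star he]; exact Dens.of_proj h heA he⟩

theorem rn_cont (ζ : H) : Continuous (ph (M := M) ζ) :=
  AddMonoidHomClass.continuous_of_bound (ph (M := M) ζ) (‖ζ‖ * ‖ζ‖) fun x => by
    refine (norm_inner_le_norm (𝕜 := ℂ) ζ (ap x ζ)).trans ?_
    nlinarith [norm_ap_le x ζ, norm_nonneg ζ, norm_nonneg x]

theorem rn_sq (ζ : H) (a : Al M) : (ph ζ (star a * a)).re = ‖ap a ζ‖ ^ 2 :=
  (std_norm_sq a ζ).symm

theorem rn_proj (ζ : H) {q : Al M} (hq : IsStarProjection q) : (ph ζ q).re = ‖ap q ζ‖ ^ 2 := by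
  rw [← rn_sq, proj_star hq, proj_mul_self hq]

theorem rn_smul (ζ : H) (t : ℝ) (a : Al M) : (ph ζ (t • a)).re = t * (ph ζ a).re := by
  rw [← Complex.coe_smul, map_smul, smul_eq_mul, Complex.re_ofReal_mul]

theorem rn_lim {ι : Type*} {F : Filter ι} {x : ι → Al M} {y : Al M} (hx : WL F x y) (ζ : H) :
    Tendsto (fun i => (ph ζ (x i)).re) F (𝓝 (ph ζ y).re) :=
  (Complex.continuous_re.tendsto _).comp (hx ζ ζ)

/-- Domination outside a small projection: a maximal orthogonal family of projections `q ∈ A` with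
`C ‖q ξ‖² < ‖q η‖²`; its sum `q₀` has `C ‖q₀ ξ‖² ≤ ‖η‖²` (as in `R121.exists_dom`);
`f = 1 - q₀`; `Masa.cone_induction`. -/
theorem Std.exists_dom (h : Std A ξ) (η : H) {e : ℝ} (he : 0 < e) :
    ∃ f ∈ A, IsStarProjection f ∧ ‖ap (1 - f) ξ‖ ≤ e ∧ ∃ C : ℝ, 0 ≤ C ∧
      ∀ b ∈ A, ‖ap (b * f) η‖ ^ 2 ≤ C * ‖ap b ξ‖ ^ 2 := by
  obtain ⟨C, hC⟩ : ∃ C, C = (‖η‖ ^ 2 + 1) / e ^ 2 := ⟨_, rfl⟩
  have hC0 : 0 < C := by rw [hC]; positivity
  obtain ⟨S, hS, hSo, hmax⟩ := exists_maximal_pairwise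
    (fun q : Al M => q ∈ A ∧ IsStarProjection q ∧ C * (ph ξ q).re < (ph η q).re)
    (fun x y => star x * y = 0) fun u v h => by simpa using congrArg star h
  have hq : ∀ i : S, IsStarProjection (i : Al M) := fun i => (hS i i.2).2.1
  have ho : Pairwise fun i k : S => (i : Al M) * (k : Al M) = 0 := fun i k hik => by
    have : star (i : Al M) * k = 0 := hSo i.2 k.2 (Subtype.coe_ne_coe.mpr hik)
    rwa [proj_star (hq i)] at this
  obtain ⟨q, hqp, hsum, hqi⟩ := exists_sumProj (fun i : S => (i : Al M)) hq ho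
  have hqA : q ∈ A := h.toMasa.mem_of_WL hsum
    (Eventually.of_forall fun s => sum_mem fun i _ => (hS i i.2).1)
  have hfA : 1 - q ∈ A := sub_mem (one_mem A) hqA
  refine ⟨1 - q, hfA, hqp.one_sub, ?_, C, hC0.le, fun b hb => ?_⟩
  · have h1 : C * (ph ξ q).re ≤ ‖η‖ ^ 2 := by
      refine le_of_tendsto ((rn_lim hsum ξ).const_mul C) (Eventually.of_forall fun s => ?_)
      have b1 := proj_finsum hq ho s
      calc C * (ph ξ (∑ i ∈ s, (i : Al M))).re ≤ (ph η (∑ i ∈ s, (i : Al M))).re := by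
            rw [map_sum, map_sum, Complex.re_sum, Complex.re_sum, Finset.mul_sum]
            exact Finset.sum_le_sum fun i _ => (hS i i.2).2.2.le
        _ ≤ _ := by
            rw [rn_proj η b1]
            exact pow_le_pow_left₀ (norm_nonneg _) (std_proj_le b1 η) 2
    rw [rn_proj ξ hqp, hC, div_mul_eq_mul_div, div_le_iff₀ (by positivity)] at h1
    rw [sub_sub_cancel]
    refine (abs_le_of_sq_le_sq' ?_ he.le).2
    nlinarith [sq_nonneg ‖η‖, sq_nonneg e, sq_nonneg ‖ap q ξ‖]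
  · have e1 : star (b * (1 - q)) * (b * (1 - q)) = star b * b * (1 - q) := by
      rw [star_mul, proj_star hqp.one_sub, mul_assoc, ← mul_assoc (star b),
        h.comm _ hfA _ (mul_mem (mul_mem (star_mem hb) hb) hfA), mul_assoc,
        proj_mul_self hqp.one_sub]
    rw [← rn_sq, ← rn_sq, e1]
    refine h.toMasa.cone_induction (S := {a | (ph η (a * (1 - q))).re ≤ C * (ph ξ a).re}) ?_
      (by simp) (fun a ha b hb => ?_) (fun t ht a ha => ?_) (fun r hrA hr => ?_) hb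
    · exact isClosed_le (Complex.continuous_re.comp ((rn_cont η).comp (by fun_prop)))
        (continuous_const.mul (Complex.continuous_re.comp (rn_cont ξ)))
    · simp only [Set.mem_ofPred_eq, map_add, add_mul, Complex.add_re] at ha hb ⊢
      linarith
    · simp only [Set.mem_ofPred_eq, smul_mul_assoc, map_smul, smul_eq_mul,
        Complex.re_ofReal_mul] at ha ⊢
      nlinarith [mul_le_mul_of_nonneg_left ha ht]
    · have hc := h.comm r hrA _ hfA
      have h1 : IsStarProjection (r * (1 - q)) := hr.mul hqp.one_sub hc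
      have h2 : ∀ y ∈ S, star (r * (1 - q)) * y = 0 := fun y hy => by
        have : q * y = y := hqi ⟨y, hy⟩
        rw [proj_star h1, mul_assoc, sub_mul, one_mul, this, sub_self, mul_zero]
      have h3 : (ph ξ (r * (1 - q))).re ≤ (ph ξ r).re := by
        rw [rn_proj ξ h1, rn_proj ξ hr, hc, ap_mul]
        exact pow_le_pow_left₀ (norm_nonneg _) (std_proj_le hqp.one_sub _) 2
      refine le_trans ?_ (mul_le_mul_of_nonneg_left h3 hC0.le)
      by_contra hlt
      have h4 := h2 _ (hmax _ ⟨mul_mem hrA hfA, h1, not_le.1 hlt⟩ h2)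
      rw [proj_star h1, proj_mul_self h1] at h4
      simp [h4] at hlt

theorem rn_cfc (a : Al M) {f : ℝ → ℝ} (hf : Continuous f) (h0 : ∀ t, 0 ≤ f t) (ζ : H) :
    (ph ζ (cfc f a)).re = ‖ap (cfc (fun t => √(f t)) a) ζ‖ ^ 2 := by
  have hs : star (cfc (fun t => √(f t)) a) = cfc (fun t => √(f t)) a := IsSelfAdjoint.cfc.star_eq
  rw [← rn_sq, hs, ← cfc_mul ..]
  simp only [Real.mul_self_sqrt (h0 _)]

/-- clamping decreases the quadratic functional -/
theorem rn_clamp (h : Masa A) (η : H) {C : ℝ} (hC : 0 ≤ C)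
    (hb : ∀ b ∈ A, ‖ap b η‖ ^ 2 ≤ C * ‖ap b ξ‖ ^ 2) {a : Al M} (ha : a ∈ A)
    (hs : IsSelfAdjoint a) : ∃ c ∈ A, IsSelfAdjoint c ∧ ‖c‖ ≤ C ∧
      (ph ξ (c * c)).re - 2 * (ph η c).re ≤ (ph ξ (a * a)).re - 2 * (ph η a).re := by
  refine ⟨cfc (fun t : ℝ => max 0 (min t C)) a, h.cfc_mem ha _, IsSelfAdjoint.cfc,
    norm_cfc_le hC fun t _ => ?_, ?_⟩
  · rw [Real.norm_of_nonneg (le_max_left _ _)]
    exact max_le hC (min_le_right _ _)
  have e1 : a + cfc (fun t : ℝ => max 0 (-t)) a =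
      cfc (fun t : ℝ => max 0 (min t C)) a + cfc (fun t : ℝ => max 0 (t - C)) a := by
    nth_rewrite 1 [← cfc_id' ℝ a]
    rw [← cfc_add .., ← cfc_add ..]
    refine cfc_congr fun t _ => ?_
    simp only [max_def, min_def]
    split_ifs <;> linarith
  have e2 : a * a = cfc (fun t : ℝ => max 0 (min t C)) a * cfc (fun t : ℝ => max 0 (min t C)) a +
      (2 * C) • cfc (fun t : ℝ => max 0 (t - C)) a +
      cfc (fun t : ℝ => max 0 (t - C) ^ 2 + max 0 (-t) ^ 2) a := by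
    have e : a * a = cfc (fun t : ℝ => t * t) a := by rw [cfc_mul .., cfc_id' ℝ a]
    rw [e, ← cfc_mul .., ← cfc_const_mul .., ← cfc_add .., ← cfc_add ..]
    refine cfc_congr fun t _ => ?_
    simp only [max_def, min_def]
    split_ifs <;> nlinarith
  have h1 := congrArg (fun x => (ph η x).re) e1
  have h2 := congrArg (fun x => (ph ξ x).re) e2
  simp only [map_add, Complex.add_re, rn_smul] at h1 h2
  have h3 := rn_cfc a (f := fun t => max 0 (-t)) (by fun_prop) (fun _ => le_max_left _ _) η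
  have h4 := rn_cfc a (f := fun t => max 0 (t - C) ^ 2 + max 0 (-t) ^ 2) (by fun_prop)
    (fun _ => by positivity) ξ
  have h5 := fun ζ => rn_cfc a (f := fun t => max 0 (t - C)) (by fun_prop)
    (fun _ => le_max_left _ _) ζ
  have h6 := hb _ (h.cfc_mem ha fun t => √(max 0 (t - C)))
  rw [← h5, ← h5] at h6
  have h7 := h3.symm ▸ sq_nonneg ‖ap (cfc (fun t : ℝ => √(max 0 (-t))) a) η‖
  have h8 := h4.symm ▸
    sq_nonneg ‖ap (cfc (fun t : ℝ => √(max 0 (t - C) ^ 2 + max 0 (-t) ^ 2)) a) ξ‖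
  linarith

/-- the quadratic functional has a minimiser -/
theorem rn_min (h : Masa A) (η : H) {C : ℝ} (hC : 0 ≤ C)
    (hb : ∀ b ∈ A, ‖ap b η‖ ^ 2 ≤ C * ‖ap b ξ‖ ^ 2) : ∃ d ∈ A, IsSelfAdjoint d ∧
      ∀ a ∈ A, IsSelfAdjoint a →
      (ph ξ (d * d)).re - 2 * (ph η d).re ≤ (ph ξ (a * a)).re - 2 * (ph η a).re := by
  let F : Al M → ℝ := fun a => (ph ξ (a * a)).re - 2 * (ph η a).re
  let ι := {c : Al M // c ∈ A ∧ IsSelfAdjoint c ∧ ‖c‖ ≤ C}
  have : Nonempty ι := ⟨⟨0, zero_mem A, IsSelfAdjoint.zero _, by simpa using hC⟩⟩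
  have hne : (⨅ c : ι, 𝓟 {c' : ι | F c' ≤ F c}).NeBot := by
    refine iInf_neBot_of_directed' (fun c c' => ?_) fun c => principal_neBot_iff.2 ⟨c, le_refl (F c)⟩
    rcases le_total (F c) (F c') with hc | hc
    · exact ⟨c, le_rfl, principal_mono.2 fun x hx => le_trans hx hc⟩
    · exact ⟨c', principal_mono.2 fun x hx => le_trans hx hc, le_rfl⟩
  let U := Ultrafilter.of (⨅ c : ι, 𝓟 {c' : ι | F c' ≤ F c})
  obtain ⟨d, hd⟩ := exists_WL U (fun c : ι => c.1) C (Eventually.of_forall fun c => c.2.2.2)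
  have hdA : d ∈ A := h.mem_of_WL hd (Eventually.of_forall fun c => c.2.1)
  have hds : IsSelfAdjoint d := hd.star.unique (hd.congr fun c => c.2.2.1.star_eq.symm)
  refine ⟨d, hdA, hds, fun a ha hs => ?_⟩
  obtain ⟨c, h1, h2, h3, h4⟩ := rn_clamp h η hC hb ha hs
  refine le_trans ?_ h4
  have h5 : ∀ᶠ c' : ι in U, F c' ≤ F c :=
    Ultrafilter.of_le _ (iInf_le (fun c : ι => 𝓟 {c' : ι | F c' ≤ F c}) ⟨c, h1, h2, h3⟩
      (mem_principal_self _))
  have h6 := (((rn_lim (hd.mul_left d) ξ).const_mul 2).sub_const (ph ξ (d * d)).re).sub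
    ((rn_lim hd η).const_mul 2)
  refine le_trans (le_of_eq (by ring)) (le_of_tendsto h6 (h5.mono fun c' hc' => le_trans ?_ hc'))
  have h7 := rn_sq ξ (c'.1 - d)
  rw [star_sub, c'.2.2.1.star_eq, hds.star_eq, sub_mul, mul_sub, mul_sub,
    h.comm _ c'.2.1 d hdA] at h7
  simp only [map_sub, Complex.sub_re] at h7
  have h8 := sq_nonneg ‖ap (c'.1 - d) ξ‖
  simp only [F]
  linarith

/-- Radon-Nikodym in `A`. The functional `ψ b = ⟪η, b η⟫` on `A` is bounded by a multiple of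
`‖b ξ‖`; `exists_riesz` and projection on the closure of `A ξ` give `v = lim a_n ξ`, `a_n ∈ A`,
with `⟪v, b ξ⟫ = ψ b`. As `‖a* ξ‖ = ‖a ξ‖` on `A` and `ψ` is hermitian one may take `a_n`
self-adjoint (`‖a ξ - v‖² = ‖a ξ‖² - 2 re ψ a + ‖v‖²`). Clamp: `c_n = cfc (max 0 (min · C)) a_n`,
`a_n - c_n = u - u'` with `u = cfc (· - C)⁺`, `u' = cfc (·)⁻`, `c_n u = C u`, `c_n u' = 0`; then
`re ⟪(a_n - c_n) ξ, c_n ξ - v⟫ = C φ(u) - ψ u + ψ u' ≥ 0`, so `‖c_n ξ - v‖ ≤ ‖a_n ξ - v‖`. A weak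
limit `d` of `c_n` lies in `A` and `d ξ = v`. -/
theorem Std.exists_rn (h : Std A ξ) (η : H) {C : ℝ} (hC : 0 ≤ C)
    (hb : ∀ b ∈ A, ‖ap b η‖ ^ 2 ≤ C * ‖ap b ξ‖ ^ 2) :
    ∃ d ∈ A, ∀ b ∈ A, ph η b = ph ξ (b * d) := by
  obtain ⟨d, hdA, hds, hmin⟩ := rn_min h.toMasa η hC hb
  have him : ∀ (ζ : H) (x : Al M), star x = x → (ph ζ x).im = 0 := fun ζ x hx => by
    rw [← Complex.conj_eq_iff_im, ← ph_star, hx]
  have key : ∀ b ∈ A, star b = b → ph η b = ph ξ (b * d) := by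
    intro b hbA hs
    have hc := h.comm d hdA b hbA
    refine Complex.ext ?_ (by
      rw [him η b hs, him ξ _ (by rw [star_mul, hs, hds.star_eq, hc])])
    have h1 := discrim_le_zero (a := (ph ξ (b * b)).re)
      (b := 2 * ((ph ξ (b * d)).re - (ph η b).re)) (c := 0) fun t => by
        have := hmin (d + t • b) (add_mem hdA (by
          rw [← Complex.coe_smul]; exact SMulMemClass.smul_mem _ hbA))
          (hds.add ((IsSelfAdjoint.all t).smul hs))
        simp only [add_mul, mul_add, smul_mul_assoc, mul_smul_comm, hc, map_add, Complex.add_re,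
          rn_smul] at this
        linarith
    rw [discrim, mul_zero, sub_zero] at h1
    nlinarith
  refine ⟨d, hdA, fun b hbA => ?_⟩
  have h1 := key (b + star b) (add_mem hbA (star_mem hbA)) (by rw [star_add, star_star, add_comm])
  have h2 := key (Complex.I • (b - star b))
    (SMulMemClass.smul_mem _ (sub_mem hbA (star_mem hbA))) (by
      rw [star_smul, star_sub, star_star, Complex.star_def, Complex.conj_I, neg_smul, ← smul_neg,
        neg_sub])
  simp only [add_mul, sub_mul, smul_mul_assoc, map_add, map_smul, map_sub, smul_eq_mul] at h1 h2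
  have h3 := mul_left_cancel₀ Complex.I_ne_zero h2
  linear_combination (h1 + h3) / 2

theorem rn_meet (h : Masa A) {f₁ f₂ : Al M} (a1 : f₁ ∈ A) (a2 : f₂ ∈ A)
    (p1 : IsStarProjection f₁) (p2 : IsStarProjection f₂) {e : ℝ} (b1 : ‖ap (1 - f₁) ξ‖ ≤ e / 2)
    (b2 : ‖ap (1 - f₂) ξ‖ ≤ e / 2) : f₁ * f₂ ∈ A ∧ IsStarProjection (f₁ * f₂) ∧
      ‖ap (1 - f₁ * f₂) ξ‖ ≤ e ∧ ∀ f, f₁ * f₂ * f = f → f₁ * f = f ∧ f₂ * f = f := by
  have hc := h.comm _ a1 _ a2
  refine ⟨mul_mem a1 a2, p1.mul p2 hc, ?_, fun f hf => ⟨?_, ?_⟩⟩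
  · have e1 : 1 - f₁ * f₂ = 1 - f₁ + f₁ * (1 - f₂) := by noncomm_ring
    rw [e1, ap_add, ap_mul]
    linarith [norm_add_le (ap (1 - f₁) ξ) (ap f₁ (ap (1 - f₂) ξ)), std_proj_le p1 (ap (1 - f₂) ξ)]
  · rw [← hf, mul_assoc, proj_mul_self_left p1]
  · rw [← hf, hc, mul_assoc, proj_mul_self_left p2]

theorem rn_one (h : Std A ξ) (hg : Nor A g) {e : ℝ} (he : 0 < e) :
    ∃ f ∈ A, IsStarProjection f ∧ ‖ap (1 - f) ξ‖ ≤ e ∧
      ∀ f' ∈ A, IsStarProjection f' → f * f' = f' → ∃ d, Dens A ξ (f' * g * f') d := by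
  obtain ⟨f, hfA, hf, h1, C, hC, h2⟩ := h.exists_dom (ap (star g) ξ) he
  obtain ⟨d, hd, h3⟩ := h.exists_rn (ap (star (g * f)) ξ) hC fun b hb => by
    rw [star_mul, proj_star hf]
    exact h2 b hb
  have h4 : Dens A ξ (g * f) d := ⟨hd, fun b hb => by
    rw [← h3 b hb, ph_apply, ph_apply, inner_ap_left, star_star]
    rfl⟩
  refine ⟨f, hfA, hf, h1, fun f' hA' hf' hle => ?_⟩
  have := ((Dens.of_proj h hA' hf').mul h (hg.mul h.toMasa (Nor.of_proj h.toMasa hfA hf))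
    h4).mul h (Nor.of_proj h.toMasa hA' hf') (Dens.of_proj h hA' hf')
  rw [mul_assoc f', mul_assoc g, hle, ← mul_assoc f'] at this
  exact ⟨_, this⟩

theorem rn_good (h : Std A ξ) (hg : Nor A g) {e : ℝ} (he : 0 < e) :
    ∃ f ∈ A, IsStarProjection f ∧ ‖ap (1 - f) ξ‖ ≤ e ∧
      ∀ f' ∈ A, IsStarProjection f' → f * f' = f' → Good A ξ (f' * g * f') := by
  obtain ⟨f₁, a1, p1, b1, c1⟩ := rn_one h hg (half_pos he)
  obtain ⟨f₂, a2, p2, b2, c2⟩ := rn_one h hg.star' (half_pos he)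
  obtain ⟨h1, h2, h3, h4⟩ := rn_meet h.toMasa a1 a2 p1 p2 b1 b2
  refine ⟨_, h1, h2, h3, fun f hfA hf hle => ⟨?_, c1 f hfA hf (h4 f hle).1, ?_⟩⟩
  · exact ((Nor.of_proj h.toMasa hfA hf).mul h.toMasa hg).mul h.toMasa
      (Nor.of_proj h.toMasa hfA hf)
  · rw [star_mul, star_mul, proj_star hf, ← mul_assoc]
    exact c2 f hfA hf (h4 f hle).2

/-- `exists_dom`, `exists_rn` for `η = g* ξ` (giving `f₁`) and `η = g ξ` (giving `f₂`):
`g f₁` and `g* f₂` have densities, hence so do `f₂ g f₁` and its adjoint (`Dens.mul`). -/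
theorem Std.exists_good (h : Std A ξ) (hg : Nor A g) {e : ℝ} (he : 0 < e) :
    ∃ f ∈ A, IsStarProjection f ∧ ‖ap (1 - f) ξ‖ ≤ e ∧ Good A ξ (f * g * f) := by
  obtain ⟨f, h1, h2, h3, h4⟩ := rn_good h hg he
  exact ⟨f, h1, h2, h3, h4 f h1 h2 (proj_mul_self h2)⟩

/-- Finite combinations of good normalisers. -/
def FinGood (A : StarSubalgebra ℂ (Al M)) (ξ : H) (x : Al M) : Prop :=
  x ∈ Submodule.span ℂ {m | ∃ a ∈ A, ∃ g, Good A ξ g ∧ a * g = m}

theorem rn_span (h : Std A ξ) {p : Al M} (hp : p ∈ NS h.toMasa) : ∀ e > 0,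
    ∃ f ∈ A, IsStarProjection f ∧ ‖ap (1 - f) ξ‖ ≤ e ∧
      ∀ f' ∈ A, IsStarProjection f' → f * f' = f' → FinGood A ξ (f' * p * f') := by
  rw [mem_NS] at hp
  induction hp using Submodule.span_induction with
  | mem m hm =>
    obtain ⟨a, ha, g, hg, rfl⟩ := hm
    intro e he
    obtain ⟨f, h1, h2, h3, h4⟩ := rn_good h hg he
    refine ⟨f, h1, h2, h3, fun f' hA' hf' hle =>
      Submodule.subset_span ⟨a, ha, _, h4 f' hA' hf' hle, ?_⟩⟩
    rw [← mul_assoc, ← mul_assoc, ← mul_assoc, h.comm a ha f' hA']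
  | zero =>
    intro e he
    refine ⟨1, one_mem A, .one _, by simpa using he.le, fun f' _ _ _ => ?_⟩
    rw [mul_zero, zero_mul]
    exact Submodule.zero_mem _
  | add x y _ _ hx hy =>
    intro e he
    obtain ⟨f₁, a1, p1, b1, c1⟩ := hx _ (half_pos he)
    obtain ⟨f₂, a2, p2, b2, c2⟩ := hy _ (half_pos he)
    obtain ⟨h1, h2, h3, h4⟩ := rn_meet h.toMasa a1 a2 p1 p2 b1 b2
    refine ⟨_, h1, h2, h3, fun f hfA hf hle => ?_⟩
    rw [mul_add, add_mul]
    exact Submodule.add_mem _ (c1 f hfA hf (h4 f hle).1) (c2 f hfA hf (h4 f hle).2)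
  | smul t x _ hx =>
    intro e he
    obtain ⟨f, h1, h2, h3, h4⟩ := hx e he
    refine ⟨f, h1, h2, h3, fun f' hA' hf' hle => ?_⟩
    rw [mul_smul_comm, smul_mul_assoc]
    exact Submodule.smul_mem _ _ (h4 f' hA' hf' hle)

/-- By span induction, for every `e > 0` there is a projection `f ∈ A` with `‖(1 - f) ξ‖ ≤ e` such
that `f' p f'` is `FinGood` for all projections `f' ≤ f` in `A`. Take `x = f p f`;
`(p - f p f) ξ = (1 - f) p ξ + f p (1 - f) ξ`, use `Std.small` at the vector `p ξ`. -/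
theorem Std.exists_finGood (h : Std A ξ) {p : Al M} (hp : p ∈ NS h.toMasa) (hs : IsSelfAdjoint p)
    (h1 : ‖p‖ ≤ 1) {e : ℝ} (he : 0 < e) :
    ∃ x : Al M, FinGood A ξ x ∧ IsSelfAdjoint x ∧ ‖x‖ ≤ 1 ∧ ‖ap (p - x) ξ‖ ≤ e := by
  obtain ⟨δ, hδ, hsm⟩ := h.small (ap p ξ) (half_pos he)
  obtain ⟨f, a1, a2, a3, a4⟩ := rn_span h hp (min δ (e / 2)) (lt_min hδ (half_pos he))
  have hf := proj_norm_le a2
  refine ⟨f * p * f, a4 f a1 a2 (proj_mul_self a2), ?_, ?_, ?_⟩
  · rw [IsSelfAdjoint, star_mul, star_mul, proj_star a2, hs.star_eq, mul_assoc]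
  · exact (_root_.norm_mul_le _ _).trans (mul_le_one₀ ((_root_.norm_mul_le _ _).trans
      (mul_le_one₀ hf (norm_nonneg _) h1)) (norm_nonneg _) hf)
  · have e1 : p - f * p * f = (1 - f) * p + f * (p * (1 - f)) := by noncomm_ring
    have b1 := hsm (1 - f) (proj_norm_le a2.one_sub) (a3.trans (min_le_left _ _))
    have b2 := (std_proj_le a2 (ap p (ap (1 - f) ξ))).trans ((norm_ap_le _ _).trans
      ((mul_le_of_le_one_left (norm_nonneg _) h1).trans (a3.trans (min_le_right _ _))))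
    rw [e1, ap_add, ap_mul, ap_mul, ap_mul]
    linarith [norm_add_le (ap (1 - f) (ap p ξ)) (ap f (ap p (ap (1 - f) ξ)))]

end Crest.Agent.R109
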