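import Crest.Agent.R109.Sp
import Crest.Agent.R109.RN

/-!
# R109: the action of normalisers on the spectrum
-/

set_option autoImplicit false
open Filter Topology MeasureTheory
open scoped InnerProductSpace Classical

namespace Crest.Agent.R109
open Crest.Agent.R121

universe u
variable {H : Type u} [NormedAddCommGroup H] [InnerProductSpace ℂ H] [CompleteSpace H]
variable {M : VonNeumannAlgebra H} {A : StarSubalgebra ℂ (Al M)} {ξ : H}

namespace Sp
variable {X : Type u} [TopologicalSpace X] [MeasurableSpace X] {μ : Measure X} (S : Sp A ξ μ)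

/-- Domain of a normaliser. -/
def dom (g : Al M) : Set X := {ω | S.ev (star g * g) ω = 1}

/-- The point `f ↦ ω (g* f g)`. -/
noncomputable def act (g : Al M) (ω : X) : X :=
  if h : ∃ ω', ∀ f : C(X, ℂ), f ω' = S.ev (star g * S.fn f * g) ω then h.choose else ω

/-- The orbit relation of the good normalisers. -/
def Rel (ω ω' : X) : Prop := ∃ g, Good A ξ g ∧ ω ∈ S.dom g ∧ S.act g ω = ω'

/-- The density of a good normaliser. -/
noncomputable def dens (g : Al M) : Al M := if h : ∃ d, Dens A ξ g d then h.choose else 0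

/-- The Radon-Nikodym cocycle. -/
noncomputable def wt (ω ω' : X) : ℝ :=
  if h : S.Rel ω ω' then (S.ev (dens (A := A) (ξ := ξ) h.choose) ω).re else 1

variable [CompactSpace X] [T2Space X] {g g' : Al M} {ω : X}

omit [CompactSpace X] [T2Space X] in
theorem dom_clopen (hg : Nor A g) : IsClopen (S.dom g) := by
  exact S.isClopen_ev hg.init_mem hg.pi.init

theorem act_spec (hg : Nor A g) (hω : ω ∈ S.dom g) (f : C(X, ℂ)) :
    f (S.act g ω) = S.ev (star g * S.fn f * g) ω := by
  have h1 : S.ev (star g * g) ω = 1 := hω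
  let χ : C(X, ℂ) →ₐ[ℂ] ℂ :=
    { toFun := fun f => S.ev (star g * S.fn f * g) ω
      map_one' := by rw [map_one, mul_one, h1]
      map_mul' := fun f f' => by
        rw [map_mul S.fn, hg.conj_mul S.std.toMasa (S.mem f) (S.mem f'),
          S.ev_mul_left (hg.left _ (S.mem f))]
      map_zero' := by simp
      map_add' := fun f f' => by simp [mul_add, add_mul]
      commutes' := fun c => by
        rw [Algebra.algebraMap_eq_smul_one, map_smul, map_one, mul_smul_comm, smul_mul_assoc,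
          mul_one, map_smul, ContinuousMap.smul_apply, h1, Algebra.algebraMap_eq_smul_one] }
  have h : ∃ ω', ∀ f : C(X, ℂ), f ω' = S.ev (star g * S.fn f * g) ω := by
    obtain ⟨ω', h⟩ := exists_point χ
    exact ⟨ω', fun f => (h f).symm⟩
  rw [act, dif_pos h]
  exact h.choose_spec f

/-- `f ↦ ev (g* f g) ω` is a character of `C(X, ℂ)` (`Nor.conj_mul`, `exists_point`). -/
theorem ev_act (hg : Nor A g) (hω : ω ∈ S.dom g) {a : Al M} (ha : a ∈ A) :
    S.ev a (S.act g ω) = S.ev (star g * a * g) ω := by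
  have := S.act_spec hg hω (S.ev a)
  rwa [S.fn_ev_of_mem ha] at this

/-- The same for all `m` (`E_conj`, `ev_E`). -/
theorem ev_act' (hg : Nor A g) (hω : ω ∈ S.dom g) (m : Al M) :
    S.ev m (S.act g ω) = S.ev (star g * m * g) ω := by
  rw [← S.ev_E m, S.ev_act hg hω (S.std.E_mem m), ← S.std.E_conj hg, S.ev_E]

omit [CompactSpace X] [T2Space X] in
theorem ev_eq_zero_of_notMem (hg : Nor A g) (hω : ω ∉ S.dom g) (m : Al M) :
    S.ev (m * g) ω = 0 ∧ S.ev (star g * m) ω = 0 := by
  have h0 : S.ev (star g * g) ω = 0 := (S.ev_proj hg.init_mem hg.pi.init ω).resolve_right hω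
  constructor
  · rw [← hg.pi.mul_init, ← mul_assoc, S.ev_mul_right hg.init_mem, h0, mul_zero]
  · have e : star g * m = star g * g * (star g * m) := by
      rw [← mul_assoc]
      congr 1
      simpa only [star_star] using hg.pi.star'.fin_mul.symm
    rw [e, S.ev_mul_left hg.init_mem, h0, zero_mul]

theorem act_cont (hg : Nor A g) : ContinuousOn (S.act g) (S.dom g) := by
  exact continuousOn_of_forall fun f =>
    (S.ev (star g * S.fn f * g)).continuous.continuousOn.congr fun ω hω => S.act_spec hg hω f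

omit [CompactSpace X] [T2Space X] in
theorem mem_dom_one (ω : X) : ω ∈ S.dom 1 := by
  change S.ev (star 1 * 1) ω = 1
  rw [star_one, mul_one, S.ev_one]

theorem act_one (ω : X) : S.act 1 ω = ω := by
  refine point_ext fun f => ?_
  rw [S.act_spec (Nor.of_proj S.std.toMasa (one_mem A) (.one _)) (S.mem_dom_one ω), star_one,
    one_mul, mul_one, S.ev_fn]

theorem mem_dom_mul (hg : Nor A g) (hg' : Nor A g') :
    ω ∈ S.dom (g' * g) ↔ ω ∈ S.dom g ∧ S.act g ω ∈ S.dom g' := by
  have e : star (g' * g) * (g' * g) = star g * (star g' * g') * g := by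
    simp only [star_mul, mul_assoc]
  change S.ev (star (g' * g) * (g' * g)) ω = 1 ↔ _ ∧ S.ev (star g' * g') (S.act g ω) = 1
  rw [e]
  by_cases hω : ω ∈ S.dom g
  · rw [S.ev_act hg hω hg'.init_mem]
    exact (and_iff_right hω).symm
  · rw [(S.ev_eq_zero_of_notMem hg hω _).1]
    simp [hω]

theorem act_mul (hg : Nor A g) (hg' : Nor A g') (hω : ω ∈ S.dom (g' * g)) :
    S.act (g' * g) ω = S.act g' (S.act g ω) := by
  obtain ⟨h1, h2⟩ := (S.mem_dom_mul hg hg').1 hω
  refine point_ext fun f => ?_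
  rw [S.act_spec (hg'.mul S.std.toMasa hg) hω, S.act_spec hg' h2, S.ev_act' hg h1]
  simp only [star_mul, mul_assoc]

theorem act_mem (hg : Nor A g) (hω : ω ∈ S.dom g) : S.act g ω ∈ S.dom (star g) := by
  change S.ev (star (star g) * star g) (S.act g ω) = 1
  rw [S.ev_act' hg hω, star_star, mul_assoc, hg.pi.fin_mul]
  exact hω

theorem act_inv (hg : Nor A g) (hω : ω ∈ S.dom g) : S.act (star g) (S.act g ω) = ω := by
  have h1 : S.ev (star g * g) ω = 1 := hω
  refine point_ext fun f => ?_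
  have e : star g * (star (star g) * S.fn f * star g) * g =
      star g * g * (S.fn f * (star g * g)) := by simp only [star_star, mul_assoc]
  rw [S.act_spec hg.star' (S.act_mem hg hω), S.ev_act' hg hω, e, S.ev_mul_left hg.init_mem,
    S.ev_mul_right hg.init_mem, h1, one_mul, mul_one, S.ev_fn]

/-- Fixed points. With `e` from `exists_fix`, `u = g e ∈ A`, `u* u = e`: if `ev e ω = 1` then
`ev (g* a g) ω = ev (u* a u) ω = ev a ω`. Conversely let `ω ∈ dom g` be fixed and `ev e ω = 0`;
with `f` from `frolik` for `e' = g* g - e`, the values at `ω` of `f`, `g* f g`, `g f g*` agree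
(`ev_act`), the product of the first two is `0`, so all vanish, and `e' (1 - f) ..` has value
`1`, a contradiction. -/
theorem exists_fix (hg : Nor A g) : ∃ e ∈ A, IsStarProjection e ∧ star g * g * e = e ∧
    g * e ∈ A ∧ S.std.E g = g * e ∧ ∀ ω, S.ev e ω = 1 ↔ ω ∈ S.dom g ∧ S.act g ω = ω := by
  have hA := S.std.toMasa
  obtain ⟨e, heA, he, hpe, hge, hE, hlast⟩ := S.std.exists_fix hg
  refine ⟨e, heA, he, hpe, hge, hE, fun ω => ⟨fun h => ?_, fun ⟨hω, hfix⟩ => ?_⟩⟩
  · have hω : ω ∈ S.dom g := by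
      have := congrArg (fun m => S.ev m ω) hpe
      simp only [S.ev_mul_right heA, h, mul_one] at this
      exact this
    refine ⟨hω, point_ext fun f => ?_⟩
    have e1 : star g * S.fn f * g * e = e * S.fn f := by
      rw [mul_assoc, mul_assoc, hA.comm _ (S.mem f) _ hge, ← mul_assoc, ← mul_assoc, hpe]
    have := congrArg (fun m => S.ev m ω) e1
    simp only [S.ev_mul_right heA, S.ev_mul_left heA, h, mul_one, one_mul, S.ev_fn] at this
    rw [S.act_spec hg hω, this]
  · by_contra h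
    have h0 : S.ev e ω = 0 := (S.ev_proj heA he ω).resolve_right h
    have h1 : S.ev (star g * g) ω = 1 := hω
    obtain ⟨f, hfA, -, hf1, hf2⟩ := hA.frolik hg (sub_mem hg.init_mem heA)
      (proj_sub hg.pi.init he hpe) (by rw [mul_sub, proj_mul_self hg.pi.init, hpe]) hlast
    have a1 : S.ev (star g * f * g) ω = S.ev f ω := by rw [← S.ev_act hg hω hfA, hfix]
    have a2 : S.ev (g * f * star g) ω = S.ev f ω := by
      have b1 := S.act_mem hg hω
      have b2 := S.act_inv hg hω
      rw [hfix] at b1 b2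
      have := S.ev_act hg.star' b1 hfA
      rw [b2, star_star] at this
      exact this.symm
    have a3 : S.ev f ω = 0 := by
      have := congrArg (fun m => S.ev m ω) hf1
      simp only [S.ev_mul_left hfA, a1, map_zero, ContinuousMap.zero_apply] at this
      exact mul_self_eq_zero.1 this
    have := congrArg (fun m => S.ev m ω) hf2
    simp only [S.ev_mul_right (sub_mem (one_mem A) (hg.right f hfA)),
      S.ev_mul_right (sub_mem (one_mem A) (hg.left f hfA)),
      S.ev_mul_right (sub_mem (one_mem A) hfA), map_sub, ContinuousMap.sub_apply, S.ev_one, a1, a2,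
      a3, h0, h1, map_zero, ContinuousMap.zero_apply] at this
    simp at this

theorem coin_iff (hg : Nor A g) (hg' : Nor A g') :
    (ω ∈ S.dom g ∧ ω ∈ S.dom g' ∧ S.act g ω = S.act g' ω) ↔
      ω ∈ S.dom (star g' * g) ∧ S.act (star g' * g) ω = ω := by
  constructor
  · rintro ⟨h1, h2, h⟩
    have h3 : ω ∈ S.dom (star g' * g) :=
      (S.mem_dom_mul hg hg'.star').2 ⟨h1, h ▸ S.act_mem hg' h2⟩
    exact ⟨h3, by rw [S.act_mul hg hg'.star' h3, h, S.act_inv hg' h2]⟩
  · rintro ⟨h3, h⟩
    obtain ⟨h1, h2⟩ := (S.mem_dom_mul hg hg'.star').1 h3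
    rw [S.act_mul hg hg'.star' h3] at h
    have a1 := S.act_mem hg'.star' h2
    have a2 := S.act_inv hg'.star' h2
    rw [h, star_star] at a1 a2
    exact ⟨h1, a1, a2.symm⟩

theorem coin_clopen (hg : Nor A g) (hg' : Nor A g') :
    IsClopen {ω | ω ∈ S.dom g ∧ ω ∈ S.dom g' ∧ S.act g ω = S.act g' ω} := by
  obtain ⟨e, heA, he, -, -, -, h⟩ := S.exists_fix (hg'.star'.mul S.std.toMasa hg)
  have := S.isClopen_ev heA he
  rwa [Set.ext fun ω => ((S.coin_iff hg hg').trans (h ω).symm :
    ω ∈ {ω | ω ∈ S.dom g ∧ ω ∈ S.dom g' ∧ S.act g ω = S.act g' ω} ↔ ω ∈ {ω | S.ev e ω = 1})]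

/-- Two normalisers with the same germ differ by a local unitary of `A` (`exists_fix` for
`g'* g`, `Nor.mul_eq_of_le`). -/
theorem exists_germ (hg : Nor A g) (hg' : Nor A g') (h1 : ω ∈ S.dom g) (h2 : ω ∈ S.dom g')
    (h : S.act g ω = S.act g' ω) : ∃ e ∈ A, ∃ u ∈ A, IsStarProjection e ∧ S.ev e ω = 1 ∧
      star u * u = e ∧ g * e = g' * u ∧ S.ev (star g' * g) ω = S.ev u ω ∧ ‖S.ev u ω‖ = 1 := by
  have hA := S.std.toMasa
  obtain ⟨e, heA, he, hpe, hge, hE, hf⟩ := S.exists_fix (hg'.star'.mul hA hg)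
  have h3 := (hf ω).2 ((S.coin_iff hg hg').1 ⟨h1, h2, h⟩)
  have h4 : star (star g' * g * e) * (star g' * g * e) = e := by
    rw [star_mul, proj_star he, mul_assoc, ← mul_assoc (star (star g' * g)), hpe, proj_mul_self he]
  refine ⟨e, heA, _, hge, he, h3, h4, hg.mul_eq_of_le hA hg' heA he hpe, by rw [← hE, S.ev_E], ?_⟩
  have h5 := congrArg (fun m => S.ev m ω) h4
  simp only [S.ev_mul_right hge, S.ev_star, h3] at h5
  have h6 := congrArg norm h5
  rw [norm_mul, Complex.norm_conj, norm_one] at h6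
  nlinarith [norm_nonneg (S.ev (star g' * g * e) ω)]

theorem ev_ne_zero (hg : Nor A g) (h : S.ev g ω ≠ 0) : ω ∈ S.dom g ∧ S.act g ω = ω := by
  obtain ⟨e, heA, -, -, -, hE, hf⟩ := S.exists_fix hg
  refine (hf ω).1 (mul_left_cancel₀ h ?_)
  rw [← S.ev_mul_right heA, ← hE, S.ev_E, mul_one]

theorem rel_equiv : Equivalence S.Rel := by
  refine ⟨fun ω => ⟨1, Good.of_proj S.std (one_mem A) (.one _), S.mem_dom_one ω, S.act_one ω⟩,
    ?_, ?_⟩
  · rintro ω _ ⟨g, hg, hω, rfl⟩
    exact ⟨star g, hg.star', S.act_mem hg.nor hω, S.act_inv hg.nor hω⟩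
  · rintro ω _ _ ⟨g, hg, hω, rfl⟩ ⟨g', hg', hω', rfl⟩
    have h := (S.mem_dom_mul hg.nor hg'.nor).2 ⟨hω, hω'⟩
    exact ⟨g' * g, hg'.mul S.std hg, h, S.act_mul hg.nor hg'.nor h⟩

omit [CompactSpace X] [T2Space X] in
theorem dens_spec (hg : Good A ξ g) : Dens A ξ g (dens (A := A) (ξ := ξ) g) := by
  rw [dens, dif_pos hg.dens]
  exact hg.dens.choose_spec

theorem act_dens_germ {d d' : Al M} (hg : Nor A g) (hg' : Nor A g') (h1 : ω ∈ S.dom g)
    (h2 : ω ∈ S.dom g') (h : S.act g ω = S.act g' ω) (hd : Dens A ξ g d) (hd' : Dens A ξ g' d') :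
    S.ev d ω = S.ev d' ω := by
  have hA := S.std.toMasa
  obtain ⟨e, heA, u, huA, he, h3, h4, h5, -, -⟩ := S.exists_germ hg hg' h1 h2 h
  have hu : Nor A u := ⟨PI.of_init (h4 ▸ he),
    fun a ha => mul_mem (mul_mem (star_mem huA) ha) huA,
    fun a ha => mul_mem (mul_mem huA ha) (star_mem huA)⟩
  have hud : Dens A ξ u e := ⟨heA, fun b hb => by
    rw [hA.comm u huA b hb, mul_assoc, hA.comm u huA _ (star_mem huA), h4]⟩
  have a1 := hd.mul S.std (Nor.of_proj hA heA he) (Dens.of_proj S.std heA he)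
  have a2 := hd'.mul S.std hu hud
  rw [← h5] at a2
  have a3 := a1.unique S.std a2
  rw [hA.comm _ (star_mem huA) _ hd'.1, mul_assoc d', h4, proj_star he] at a3
  have := congrArg (fun m => S.ev m ω) a3
  simpa only [S.ev_mul_right heA, S.ev_mul_left heA, h3, mul_one, one_mul] using this

omit [CompactSpace X] [T2Space X] in
theorem act_dens_nonneg {d : Al M} (hd : Dens A ξ g d) (ω : X) :
    0 ≤ (S.ev d ω).re ∧ (S.ev d ω).im = 0 := by
  obtain ⟨c, -, hc, rfl⟩ := hd.exists_sq S.std
  simpa only [hc.star_eq] using S.ev_nonneg c ω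

/-- `exists_germ`: `g e` and `g' e` have the same density (`u b u* = b e`), namely
`e * dens g = e * dens g'` (`Dens.mul`, `Dens.unique`). -/
theorem wt_act (hg : Good A ξ g) (hω : ω ∈ S.dom g) :
    (S.wt ω (S.act g ω) : ℂ) = S.ev (dens (A := A) (ξ := ξ) g) ω := by
  have h : S.Rel ω (S.act g ω) := ⟨g, hg, hω, rfl⟩
  obtain ⟨a1, a2, a3⟩ := h.choose_spec
  rw [wt, dif_pos h, S.act_dens_germ a1.nor hg.nor a2 hω a3 (dens_spec a1) (dens_spec hg)]
  exact Complex.ext rfl (S.act_dens_nonneg (dens_spec hg) ω).2.symm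

/-- `Dens.exists_sq`, `Dens.inv`. -/
theorem wt_pos (ω ω' : X) : 0 < S.wt ω ω' := by
  by_cases h : S.Rel ω ω'
  · obtain ⟨g, hg, hω, rfl⟩ := h
    have h1 : S.ev (star g * g) ω = 1 := hω
    have a1 := S.wt_act hg hω
    have a2 := congrArg (fun m => S.ev m ω)
      ((dens_spec hg).inv S.std hg.nor (dens_spec hg.star'))
    simp only [S.ev_mul_right (dens_spec hg).1, h1, ← a1] at a2
    have a3 := (S.act_dens_nonneg (dens_spec hg) ω).1
    rw [← a1, Complex.ofReal_re] at a3
    refine lt_of_le_of_ne a3 fun h0 => ?_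
    rw [← h0] at a2
    simp at a2
  · rw [wt, dif_neg h]
    exact one_pos

theorem wt_self (ω : X) : S.wt ω ω = 1 := by
  have hg : Good A ξ 1 := Good.of_proj S.std (one_mem A) (.one _)
  have := S.wt_act hg (S.mem_dom_one ω)
  rw [S.act_one, (dens_spec hg).unique S.std (Dens.of_proj S.std (one_mem A) (.one _)),
    S.ev_one] at this
  exact_mod_cast this

theorem wt_coc (hg : Good A ξ g) (hg' : Good A ξ g') (h1 : ω ∈ S.dom g)
    (h2 : S.act g ω ∈ S.dom g') : S.wt ω (S.act g' (S.act g ω)) =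
      S.wt ω (S.act g ω) * S.wt (S.act g ω) (S.act g' (S.act g ω)) := by
  have h := (S.mem_dom_mul hg.nor hg'.nor).2 ⟨h1, h2⟩
  have a1 := S.wt_act (hg'.mul S.std hg) h
  rw [S.act_mul hg.nor hg'.nor h, (dens_spec (hg'.mul S.std hg)).unique S.std
    ((dens_spec hg').mul S.std hg.nor (dens_spec hg)), S.ev_mul_right (dens_spec hg).1,
    ← S.ev_act' hg.nor h1, ← S.wt_act hg h1, ← S.wt_act hg' h2, mul_comm] at a1
  exact_mod_cast a1

theorem wt_cont (hg : Good A ξ g) : ContinuousOn (fun ω => S.wt ω (S.act g ω)) (S.dom g) := by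
  exact (Complex.continuous_re.comp
    (S.ev (dens (A := A) (ξ := ξ) g)).continuous).continuousOn.congr fun ω hω => by
      simp only [Function.comp_apply, ← S.wt_act hg hω, Complex.ofReal_re]

/-- With `a = fn F`: `∫_{dom g*} F = φ(g g* a) = φ(g (g* a g) g*) = φ(g* a g * dens g)`, and
`ev (g* a g)` vanishes off `dom g`. -/
theorem mtp [BorelSpace X] [IsFiniteMeasure μ] (hg : Good A ξ g) (F : X → ℝ) (hF : Continuous F) :
    ∫ ω in S.dom (star g), F ω ∂μ = ∫ ω in S.dom g, S.wt ω (S.act g ω) * F (S.act g ω) ∂μ := by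
  have hA := S.std.toMasa
  have hn := hg.nor
  obtain ⟨f, hf⟩ : ∃ f : C(X, ℂ), ∀ ω, f ω = (F ω : ℝ) :=
    ⟨⟨fun ω => (F ω : ℂ), Complex.continuous_ofReal.comp hF⟩, fun _ => rfl⟩
  have hd := dens_spec hg
  have h1 : ∀ ω, S.ev (g * star g * S.fn f) ω = ((S.dom (star g)).indicator F ω : ℝ) := fun ω => by
    by_cases hω : ω ∈ S.dom (star g)
    · have : S.ev (g * star g) ω = 1 := by simpa only [dom, star_star, Set.mem_ofPred_eq] using hω
      rw [Set.indicator_of_mem hω, S.ev_mul_left hn.fin_mem, this, one_mul, S.ev_fn, hf]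
    · rw [Set.indicator_of_notMem hω, S.ev_mul_right (S.mem f),
        (S.ev_eq_zero_of_notMem hn.star' hω g).1, zero_mul, Complex.ofReal_zero]
  have h2 : ∀ ω, S.ev (star g * S.fn f * g * dens (A := A) (ξ := ξ) g) ω = ((S.dom g).indicator
      (fun ω => S.wt ω (S.act g ω) * F (S.act g ω)) ω : ℝ) := fun ω => by
    rw [S.ev_mul_right hd.1]
    by_cases hω : ω ∈ S.dom g
    · rw [Set.indicator_of_mem hω, ← S.act_spec hn hω, ← S.wt_act hg hω, hf, Complex.ofReal_mul,
        mul_comm]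
    · rw [Set.indicator_of_notMem hω, (S.ev_eq_zero_of_notMem hn hω _).1, zero_mul,
        Complex.ofReal_zero]
  have h3 : g * (star g * S.fn f * g) * star g = g * star g * S.fn f := by
    calc g * (star g * S.fn f * g) * star g = g * star g * (S.fn f * (g * star g)) := by
          simp only [mul_assoc]
      _ = _ := by rw [hA.comm _ (S.mem f) _ hn.fin_mem, proj_mul_self_left hn.pi.fin]
  rw [← integral_indicator (S.dom_clopen hn.star').isOpen.measurableSet,
    ← integral_indicator (S.dom_clopen hn).isOpen.measurableSet]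
  apply Complex.ofReal_injective
  rw [← integral_complex_ofReal, ← integral_complex_ofReal]
  simp only [← h1, ← h2]
  rw [← S.ph_eq, ← S.ph_eq, ← hd.2 _ (hn.left _ (S.mem f)), h3]

end Sp

end Crest.Agent.R109
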