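import Crest.Agent.R109.BarrierAux

/-!
# R109: the barrier argument (real heights), `x = 1`, `r = card ι`
-/

set_option autoImplicit false
open Finset Polynomial

namespace Crest.Agent.R109

variable {V ι : Type*} [DecidableEq V] [Fintype ι] [DecidableEq ι] [Nonempty ι]
variable {a : V → V → ℂ} {Λ : Finset V} {k : V → Option (Finset ι)} {u v : V}

/-- One vertex at negative height, the others above `1`. A kernel vector (`exists_ker`) has
`ζ_p η_p = ∑_q a_{pq} η_q` or `η_p = 0`. Sum `conj η_p * (..)` over `p ≠ v`: with `η'` the part off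
`v` and `s = ∑_q a_{vq} η_q`, `∑ ζ_p |η_p|² = ⟨a η', η'⟩ + conj s * η_v`, where `conj s * η_v` is
`ζ_v |η_v|² ≤ 0` (or `0`); `Herm.form` gives `η' = 0`, then `η_v = 0`. -/
theorem base_neg (ha : Herm a) (Λ : Finset V) (v : V) (ζ : V → ℝ) (N : V → ℂ)
    (hN : ∀ w ∈ Λ, N w = 1 / (ζ w : ℂ) ∨ N w = 0) (hζ : ∀ w ∈ Λ, w ≠ v → 1 < ζ w) (hv : ζ v < 0) :
    ∑ S ∈ Λ.powerset, (∏ w ∈ S, N w) * mn a S ≠ 0 := by
  by_cases hvΛ : v ∉ Λ
  · exact base_ne_zero ha 1 Complex.I Λ (fun w => ζ w) N hN fun w hw => by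
      simpa using hζ w hw (ne_of_mem_of_not_mem hw hvΛ)
  rw [not_not] at hvΛ
  intro h0
  obtain ⟨η, ⟨p₀, hp₀, hη⟩, hk⟩ := exists_ker h0
  have h1 : ∀ p ∈ Λ, (starRingEnd ℂ) (η p) * ∑ q ∈ Λ, a p q * η q = ((ζ p * ‖η p‖ ^ 2 : ℝ) : ℂ) := by
    intro p hp
    have hζ0 : (ζ p : ℂ) ≠ 0 := by
      by_cases hpv : p = v
      · rw [hpv]; exact_mod_cast hv.ne
      · have := hζ p hp hpv
        exact_mod_cast (by linarith : ζ p ≠ 0)
    have h2 := hk p hp
    rcases hN p hp with h | h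
    · rw [h] at h2
      have h3 : ∑ q ∈ Λ, a p q * η q = ζ p * η p := by rw [h2]; field_simp
      rw [h3, mul_left_comm, Complex.conj_mul']
      push_cast; rfl
    · rw [h, zero_mul] at h2
      simp [h2]
  have hs : ∀ p, ∑ q ∈ Λ, a p q * η q = ∑ q ∈ Λ.erase v, a p q * η q + a p v * η v := fun p =>
    (sum_erase_add _ _ hvΛ).symm
  have h2 : ((∑ p ∈ Λ.erase v, ζ p * ‖η p‖ ^ 2 : ℝ) : ℂ) =
      ∑ p ∈ Λ.erase v, ∑ q ∈ Λ.erase v, (starRingEnd ℂ) (η p) * a p q * η q +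
        ((ζ v * ‖η v‖ ^ 2 : ℝ) : ℂ) := by
    have h3 := congrArg (starRingEnd ℂ) (h1 v hvΛ)
    rw [Complex.conj_ofReal, hs, ha.diag, zero_mul, add_zero, map_mul, map_sum, Complex.conj_conj,
      mul_sum] at h3
    rw [Complex.ofReal_sum, ← h3, ← sum_add_distrib]
    refine sum_congr rfl fun p hp => ?_
    rw [← h1 p (mem_of_mem_erase hp), hs, mul_add, mul_sum, map_mul, ← ha.herm]
    simp only [mul_assoc]
    ring
  have h3 := congrArg Complex.re h2
  rw [Complex.add_re, Complex.ofReal_re, Complex.ofReal_re] at h3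
  have h4 := (abs_le.1 (ha.form (Λ.erase v) η).2).2
  have h5 : ∀ p ∈ Λ.erase v, 0 ≤ (ζ p - 1) * ‖η p‖ ^ 2 := fun p hp =>
    mul_nonneg (by linarith [hζ p (mem_of_mem_erase hp) (ne_of_mem_erase hp)]) (sq_nonneg _)
  have h6 : ∑ p ∈ Λ.erase v, (ζ p - 1) * ‖η p‖ ^ 2 ≤ ζ v * ‖η v‖ ^ 2 := by
    simp only [sub_mul, one_mul, sum_sub_distrib]
    linarith
  have h7 := sum_nonneg h5
  have h8 : 0 < ‖η p₀‖ ^ 2 := pow_pos (norm_pos_iff.2 hη) 2
  by_cases hpv : p₀ = v
  · rw [hpv] at h8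
    linarith [mul_neg_of_neg_of_pos hv h8]
  · have h9 := single_le_sum h5 (mem_erase.2 ⟨hpv, hp₀⟩)
    have h10 := mul_pos (sub_pos.2 (hζ p₀ hp₀ hpv)) h8
    linarith [mul_nonpos_of_nonpos_of_nonneg hv.le (sq_nonneg ‖η v‖)]

omit [Nonempty ι] in
theorem bar_neg (ha : Herm a) (v : V) (ζ : V → ℝ) (hk : ∀ w ∈ Λ, ∃ P, k w = some P)
    (hζ : ∀ w ∈ Λ, w ≠ v → 1 < ζ w) (hv : ζ v < 0) : ZG a 1 Λ k (fun w => (ζ w : ℂ)) ≠ 0 := by
  have e : ZG a 1 Λ k (fun w => (ζ w : ℂ)) =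
      Q Λ (fun w => wP fun i => if i ∈ (k w).getD ∅ then 1 / (ζ w : ℂ) else 0) (mn a) :=
    Q_congr (fun w hw => by obtain ⟨P, hP⟩ := hk w hw; rw [hP]; rfl) fun _ _ => rfl
  rw [e, Q_prod]
  refine prod_ne_zero_iff.2 fun i _ => base_neg ha Λ v ζ _ (fun w _ => ?_) hζ hv
  split_ifs
  · exact Or.inl rfl
  · exact Or.inr rfl

omit [DecidableEq ι] in
theorem bar_sqrt : 1 ≤ √(Fintype.card ι : ℝ) :=
  Real.one_le_sqrt.2 (by exact_mod_cast Fintype.card_pos)

omit [Nonempty ι] in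
theorem bar_NG_upd' {x : ℂ} {z : V → ℂ} (hv : v ∉ Λ) (κ : Option (Finset ι)) (ζ : ℂ)
    (i : ι) : NG a x Λ (Function.update k v κ) (Function.update z v ζ) v i = NG a x Λ k z v i :=
  bar_NG_upd hv hv κ ζ i

/-- Partial fractions of the total self-energy of `u` as a function of the height `ζ` of a vertex
`v` present in all copies. Take `q` from `ZG_multi`, `n = ∑_i n_i` from `NG_multi`; both are real
on the positive axis (`ZG_conj`, `NG_conj`). To check the hypotheses of `herg_pf'` fix `ζ` in the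
upper half-plane and move the heights on `Λ` to `h w + ε i`: by `ZG_ne_zero` (`l = 1`) the
polynomial `q_ε` of `ZG_multi` has no zero in the upper half-plane, so `norm_eval_ge` bounds
`|ζ|^r |ZG (insert v Λ)|` below by `|ZG Λ| (Im ζ)^r`; let `ε → 0` (`ZG_continuousAt`). Likewise
`bG_im_le` and `NG_continuousAt` give `Im (n ζ / q ζ) ≤ 0`. The last clause follows from the
coefficient identities and `ZG_insert_none`. -/
theorem multi_pf (ha : Herm a) (h : V → ℝ) (hh : ∀ w ∈ Λ, h w ≠ 0)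
    (h0 : ZG a 1 Λ k (fun w => (h w : ℂ)) ≠ 0) (hv : v ∉ Λ) (hu : u ∉ Λ) (huv : u ≠ v) :
    ∃ (B : Finset ℝ) (m : ℝ → ℝ),
      (∀ β ∈ B, 0 ≤ m β ∧ (β = 0 ∨ ZG a 1 (insert v Λ) (Function.update k v (some univ))
        (Function.update (fun w => (h w : ℂ)) v β) = 0)) ∧
      (∀ ζ : ℂ, ζ ≠ 0 → ZG a 1 (insert v Λ) (Function.update k v (some univ))
          (Function.update (fun w => (h w : ℂ)) v ζ) ≠ 0 →
        ∑ i, bG a 1 (insert v Λ) (Function.update k v (some univ))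
          (Function.update (fun w => (h w : ℂ)) v ζ) u i =
        ∑ i, bG a 1 Λ k (fun w => (h w : ℂ)) u i + ∑ β ∈ B, (m β : ℂ) / (ζ - β)) ∧
      ∀ ζ : ℂ, ζ ≠ 0 →
        ∑ i, NG a 1 (insert v Λ) (Function.update k v none)
          (Function.update (fun w => (h w : ℂ)) v ζ) u i =
        (∑ i, bG a 1 Λ k (fun w => (h w : ℂ)) u i) * ZG a 1 (insert v Λ) (Function.update k v none)
          (Function.update (fun w => (h w : ℂ)) v ζ) +
        (∑ β ∈ B, m β : ℝ) * ZG a 1 Λ k (fun w => (h w : ℂ)) / (Fintype.card ι * ζ) := by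
  obtain ⟨q, hq1, hq2, hq3, hq4⟩ := ZG_multi (a := a) (x := 1) (k := k)
    (z := fun w => (h w : ℂ)) hv
  choose n hn1 hn2 hn3 hn4 using fun i : ι =>
    NG_multi (a := a) (x := 1) (k := k) (z := fun w => (h w : ℂ)) hv hu huv i
  have hr : 0 < Fintype.card ι := Fintype.card_pos
  have hne : ∀ ζ : ℂ, 0 < ζ.im → ζ ≠ 0 := fun ζ hζ h => by rw [h] at hζ; simp at hζ
  have hu' : u ∉ insert v Λ := by simp [huv, hu]
  have hquot : ∀ ζ : ℂ, ζ ≠ 0 → (∑ i, n i).eval ζ / q.eval ζ =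
      ∑ i, bG a 1 (insert v Λ) (Function.update k v (some univ))
        (Function.update (fun w => (h w : ℂ)) v ζ) u i := by
    intro ζ hζ
    rw [eval_finsetSum, sum_div, hq4 ζ hζ]
    exact sum_congr rfl fun i _ => by
      rw [hn3 i ζ hζ, mul_div_mul_left _ _ (pow_ne_zero _ hζ), bG]
  obtain ⟨B, m, c, hB, hc1, hc2, hf⟩ := herg_pf' (∑ i, n i) q hr
    (natDegree_sum_le_of_forall_le _ _ fun i _ => hn1 i) hq1 (hq2 ▸ h0)
    (fun s hs => by
      have hs' : (s : ℂ) ≠ 0 := by exact_mod_cast hs.ne'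
      rw [eval_finsetSum, Complex.im_sum]
      refine sum_eq_zero fun i _ => ?_
      rw [hn3 i s hs', bar_upd, ← Complex.ofReal_pow, Complex.im_ofReal_mul, bar_NG_im ha,
        mul_zero])
    (fun s hs => by
      have hs' : (s : ℂ) ≠ 0 := by exact_mod_cast hs.ne'
      rw [hq4 s hs', bar_upd, ← Complex.ofReal_pow, ← bar_ZG_re ha, ← Complex.ofReal_mul,
        Complex.ofReal_im])
    (fun ζ hζ => by
      rw [hq4 ζ (hne ζ hζ)]
      exact mul_ne_zero (pow_ne_zero _ (hne ζ hζ)) (bar_ne_zero ha h hh h0 hv hζ))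
    (fun ζ hζ => by
      rw [hquot ζ (hne ζ hζ), Complex.im_sum]
      refine sum_nonpos fun i _ => bar_im_le ha hu' (fun w hw => ?_) (fun w hw => ?_)
        (bar_ne_zero ha h hh h0 hv hζ) i
      · rcases mem_insert.1 hw with rfl | hw
        · rw [Function.update_self]; exact hζ.le
        · rw [Function.update_of_ne (ne_of_mem_of_not_mem hw hv)]; simp
      · rcases mem_insert.1 hw with rfl | hw
        · rw [Function.update_self]; exact hne ζ hζ
        · rw [Function.update_of_ne (ne_of_mem_of_not_mem hw hv)]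
          exact_mod_cast hh w hw)
  have hc : ∑ i, bG a 1 Λ k (fun w => (h w : ℂ)) u i = c := by
    rw [finsetSum_coeff, hq2] at hc1
    simp only [hn2] at hc1
    simp only [bG]
    rw [← sum_div, hc1, mul_div_cancel_right₀ _ h0]
  refine ⟨B, m, fun β hβ => ⟨(hB β hβ).2, ?_⟩, fun ζ hζ hZ => ?_, fun ζ hζ => ?_⟩
  · by_cases hβ0 : β = 0
    · exact Or.inl hβ0
    · have hβ' : (β : ℂ) ≠ 0 := by exact_mod_cast hβ0
      have h1 := (hB β hβ).1
      rw [hq4 β hβ'] at h1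
      exact Or.inr ((mul_eq_zero.1 h1).resolve_left (pow_ne_zero _ hβ'))
  · rw [← hquot ζ hζ, hc]
    exact hf ζ (by rw [hq4 ζ hζ]; exact mul_ne_zero (pow_ne_zero _ hζ) hZ)
  · have hr' : (Fintype.card ι : ℂ) ≠ 0 := by exact_mod_cast hr.ne'
    rw [sum_congr rfl fun i _ => hn4 i ζ hζ, sum_add_distrib, ← sum_div, ← finsetSum_coeff,
      ← finsetSum_coeff, hc1, hc2, hc, ZG_insert_none hv (Function.update_self _ _ _),
      bar_ZG_upd hv, Function.update_self, sum_congr rfl fun i _ => bar_NG_upd' hv _ _ i, hq2, hq3]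
    field_simp
    ring

/-- The conclusion of the barrier argument. -/
def Bar (a : V → V → ℂ) (Λ : Finset V) (k : V → Option (Finset ι)) (h : V → ℝ) : Prop :=
  0 < (ZG a 1 Λ k fun w => (h w : ℂ)).re ∧
  (∀ v ∉ Λ, 0 ≤ (∑ i, bG a 1 Λ k (fun w => (h w : ℂ)) v i).re ∧
    (∑ i, bG a 1 Λ k (fun w => (h w : ℂ)) v i).re ≤ √(Fintype.card ι)) ∧
  ∀ v ∉ Λ, ∀ ζ : ℝ, ζ < 0 ∨ √(Fintype.card ι) + 1 ≤ ζ →
    ZG a 1 (insert v Λ) (Function.update k v (some univ))
      (Function.update (fun w => (h w : ℂ)) v ζ) ≠ 0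

/-- All vertices present in all copies at height `H = √r + 1`. Positivity: `x ↦ ZG a x ..` is
real (`ZG_conj`), continuous and nonzero on `[0,1]` (`ZG_ne_zero` with `l = I`), equal to `1` at
`0`. Upper bound: `bG_norm_le` with `l = I`, `y = √r`. Lower bound: `bG` is real; if negative,
put `v` with kind `some {i}` at that height, `ZG_insert_single` contradicts `Q_prod` and
`base_neg`. Last clause: `ZG_ne_zero` (`l = I`), or `Q_prod` and `base_neg`. -/
theorem bar_base (ha : Herm a) (h : V → ℝ)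
    (hk : ∀ w ∈ Λ, k w = some univ ∧ h w = √(Fintype.card ι) + 1) : Bar a Λ k h := by
  have hs := bar_sqrt (ι := ι)
  have hz : ∀ x : ℝ, 0 ≤ x → x ≤ 1 → ∀ w ∈ Λ,
      |(Complex.I * (x : ℂ)).im| < (Complex.I * (h w : ℂ)).im := by
    intro x h0 h1 w hw
    simp only [Complex.mul_im, Complex.I_re, Complex.ofReal_im, mul_zero, Complex.I_im,
      Complex.ofReal_re, one_mul, zero_add]
    rw [abs_of_nonneg h0, (hk w hw).2]
    linarith
  have hz1 : ∀ w ∈ Λ, |(Complex.I * 1).im| < (Complex.I * (h w : ℂ)).im := hz 1 zero_le_one le_rfl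
  have hZ : ZG a 1 Λ k (fun w => (h w : ℂ)) ≠ 0 := ZG_ne_zero ha Complex.I hz1
  have hh : ∀ w ∈ Λ, 1 < h w := fun w hw => by rw [(hk w hw).2]; linarith
  refine ⟨?_, fun v hv => ⟨?_, ?_⟩, fun v hv ζ hζ => ?_⟩
  · by_contra hneg
    have hc : ContinuousOn (fun x : ℝ => (ZG a x Λ k fun w => (h w : ℂ)).re) (Set.Icc 0 1) :=
      fun x _ => (Complex.continuous_re.continuousAt.comp (ZG_continuousAt (a := fun _ => a)
        (z := fun _ w => (h w : ℂ)) (fun _ _ _ _ => continuousAt_const)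
        Complex.continuous_ofReal.continuousAt (fun _ _ => continuousAt_const)
        fun w hw => by exact_mod_cast (by linarith [hh w hw] : h w ≠ 0))).continuousWithinAt
    obtain ⟨x, hx, hx0⟩ := intermediate_value_Icc' zero_le_one hc
      (show (0 : ℝ) ∈ Set.Icc _ _ from ⟨not_lt.1 hneg, by simp [ZG_zero]⟩)
    exact ZG_ne_zero ha Complex.I (hz x hx.1 hx.2) (Complex.ext hx0 (bar_ZG_im ha x h))
  · rw [Complex.re_sum]
    refine sum_nonneg fun i _ => not_lt.1 fun hneg => ?_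
    have h1 := bar_neg (Λ := insert v Λ) (k := Function.update k v (some {i})) ha v
      (Function.update h v (bG a 1 Λ k (fun w => (h w : ℂ)) v i).re) (fun w hw => ?_)
      (fun w hw hwv => ?_) (by rw [Function.update_self]; exact hneg)
    · rw [← bar_upd, ZG_insert_single hv (Function.update_self _ _ _), bar_ZG_upd hv,
        bar_NG_upd' hv, Function.update_self, bar_bG_re ha] at h1
      have h2 : bG a 1 Λ k (fun w => (h w : ℂ)) v i ≠ 0 := fun h => by simp [h] at hneg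
      have h3 : NG a 1 Λ k (fun w => (h w : ℂ)) v i ≠ 0 := fun h => h2 (by rw [bG, h, zero_div])
      apply h1
      rw [bG]
      field_simp
      ring
    · rcases mem_insert.1 hw with rfl | hw
      · rw [Function.update_self]; exact ⟨_, rfl⟩
      · rw [Function.update_of_ne (ne_of_mem_of_not_mem hw hv)]; exact ⟨_, (hk w hw).1⟩
    · rw [Function.update_of_ne hwv]
      exact hh w ((mem_insert.1 hw).resolve_left hwv)
  · rw [Complex.re_sum]
    have h1 : ∀ i, (bG a 1 Λ k (fun w => (h w : ℂ)) v i).re ≤ 1 / √(Fintype.card ι) := fun i => by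
      have h2 := bG_norm_le (x := 1) (k := k) (z := fun w => (h w : ℂ)) ha hv Complex.I
        (y := √(Fintype.card ι)) (by linarith) hz1 (fun w hw _ => by
          simp [(hk w hw).2, add_comm]) i
      rw [Complex.norm_I, norm_one, one_pow, one_mul] at h2
      exact (Complex.re_le_norm _).trans h2
    refine (sum_le_sum fun i _ => h1 i).trans ?_
    rw [sum_const, card_univ, nsmul_eq_mul, mul_one_div, Real.div_sqrt]
  · rcases hζ with hζ | hζ
    · rw [bar_upd]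
      refine bar_neg ha v _ (fun w hw => ?_) (fun w hw hwv => ?_)
        (by rw [Function.update_self]; exact hζ)
      · rcases mem_insert.1 hw with rfl | hw
        · rw [Function.update_self]; exact ⟨_, rfl⟩
        · rw [Function.update_of_ne (ne_of_mem_of_not_mem hw hv)]; exact ⟨_, (hk w hw).1⟩
      · rw [Function.update_of_ne hwv]
        exact hh w ((mem_insert.1 hw).resolve_left hwv)
    · refine ZG_ne_zero ha Complex.I fun w hw => ?_
      rcases mem_insert.1 hw with rfl | hw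
      · rw [Function.update_self]
        simp only [mul_one, Complex.I_im, abs_one, Complex.mul_im, Complex.I_re, Complex.ofReal_im,
          mul_zero, Complex.ofReal_re, one_mul, zero_add]
        linarith
      · rw [Function.update_of_ne (ne_of_mem_of_not_mem hw hv)]
        exact hz1 w hw

theorem bar_step (ha : Herm a) (h : V → ℝ) {w : V} (hw : w ∉ Λ) (hkw : k w = none)
    (hz : 3 / √(Fintype.card ι) ≤ h w) (hh : ∀ p ∈ Λ, h p ≠ 0) (h0 : Bar a Λ k h)
    (h1 : ∀ v ∉ Λ, Bar a (insert v Λ) (Function.update k v (some univ))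
      (Function.update h v (√(Fintype.card ι) + 1))) : Bar a (insert w Λ) k h := by
  have hs := bar_sqrt (ι := ι)
  have hr : (Fintype.card ι : ℝ) = √(Fintype.card ι) ^ 2 := (Real.sq_sqrt (Nat.cast_nonneg _)).symm
  have hrz : 3 * √(Fintype.card ι) ≤ Fintype.card ι * h w := by
    rw [div_le_iff₀ (by linarith)] at hz
    have := mul_le_mul_of_nonneg_right hz (Real.sqrt_nonneg (Fintype.card ι))
    rwa [mul_assoc, Real.mul_self_sqrt (Nat.cast_nonneg _), mul_comm (h w)] at this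
  have hw0 : 0 < h w := lt_of_lt_of_le (by positivity) hz
  unfold Bar at h0 h1 ⊢
  simp only [← bar_upd] at h1
  generalize √(Fintype.card ι : ℝ) = s at *
  obtain ⟨hZ, hB, hN⟩ := h0
  have hZ0 : ZG a 1 Λ k (fun w => (h w : ℂ)) ≠ 0 := fun h => by simp [h] at hZ
  have hH : ((s + 1 : ℝ) : ℂ) ≠ 0 := by exact_mod_cast (by linarith : s + 1 ≠ 0)
  -- the common consequences of `multi_pf`
  have key : ∀ v ∉ Λ, ∀ u ∉ Λ, u ≠ v → ∃ (B : Finset ℝ) (m : ℝ → ℝ),
      (∀ β ∈ B, 0 ≤ m β ∧ 0 ≤ β ∧ β < s + 1) ∧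
      (∑ i, bG a 1 Λ k (fun w => (h w : ℂ)) u i).re + ∑ β ∈ B, m β / (s + 1 - β) ≤ s ∧
      (∀ ζ : ℝ, ζ < 0 ∨ s + 1 ≤ ζ → ∑ i, bG a 1 (insert v Λ) (Function.update k v (some univ))
          (Function.update (fun w => (h w : ℂ)) v ζ) u i =
        (((∑ i, bG a 1 Λ k (fun w => (h w : ℂ)) u i).re + ∑ β ∈ B, m β / (ζ - β) : ℝ) : ℂ)) ∧
      ∀ ζ : ℂ, ζ ≠ 0 →
        ∑ i, NG a 1 (insert v Λ) (Function.update k v none)
          (Function.update (fun w => (h w : ℂ)) v ζ) u i =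
        (∑ i, bG a 1 Λ k (fun w => (h w : ℂ)) u i) * ZG a 1 (insert v Λ) (Function.update k v none)
          (Function.update (fun w => (h w : ℂ)) v ζ) +
        (∑ β ∈ B, m β : ℝ) * ZG a 1 Λ k (fun w => (h w : ℂ)) / (Fintype.card ι * ζ) := by
    intro v hv u hu huv
    obtain ⟨B, m, p1, p2, p3⟩ := multi_pf ha h hh hZ0 hv hu huv
    have p4 : ∀ ζ : ℝ, ζ < 0 ∨ s + 1 ≤ ζ →
        ∑ i, bG a 1 (insert v Λ) (Function.update k v (some univ))
          (Function.update (fun w => (h w : ℂ)) v ζ) u i =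
        (((∑ i, bG a 1 Λ k (fun w => (h w : ℂ)) u i).re + ∑ β ∈ B, m β / (ζ - β) : ℝ) : ℂ) := by
      intro ζ hζ
      have hζ0 : ζ ≠ 0 := by rcases hζ with h | h <;> linarith
      rw [p2 ζ (by exact_mod_cast hζ0) (hN v hv ζ hζ), Complex.ofReal_add, bar_B_re ha]
      push_cast; rfl
    refine ⟨B, m, fun β hβ => ⟨(p1 β hβ).1, ?_⟩, ?_, p4, p3⟩
    · rcases (p1 β hβ).2 with h | h
      · rw [h]; exact ⟨le_rfl, by linarith⟩
      · by_contra hc
        rw [not_and_or, not_le, not_lt] at hc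
        exact hN v hv β hc h
    · have h2 := ((h1 v hv).2.1 u (by simp [huv, hu])).2
      rwa [p4 _ (Or.inr le_rfl), Complex.ofReal_re] at h2
  obtain ⟨Z, hZe⟩ : ∃ Z : ℝ, ZG a 1 Λ k (fun w => (h w : ℂ)) = Z := ⟨_, (bar_ZG_re ha h).symm⟩
  obtain ⟨b, hbe⟩ : ∃ b : ℝ, ∑ i, bG a 1 Λ k (fun w => (h w : ℂ)) w i = b :=
    ⟨_, (bar_B_re ha h).symm⟩
  have hb := hB w hw
  rw [hbe, Complex.ofReal_re] at hb
  have hZp : 0 < Z := by rwa [hZe, Complex.ofReal_re] at hZ
  obtain ⟨y, hy⟩ : ∃ y : ℝ, y = Fintype.card ι * h w := ⟨_, rfl⟩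
  have hy' : (Fintype.card ι : ℂ) * (h w : ℂ) = y := by rw [hy]; push_cast; rfl
  rw [← hy] at hrz
  have hy0 : 0 < y := by linarith
  have hyb : 0 < y - b := by linarith [hb.2]
  have hZ1 : ZG a 1 (insert w Λ) k (fun w => (h w : ℂ)) = ((Z * (y - b) / y : ℝ) : ℂ) := by
    have h2 : ∑ i, NG a 1 Λ k (fun w => (h w : ℂ)) w i = b * Z := by
      rw [← hbe, ← hZe]
      simp only [bG]
      rw [← sum_div, div_mul_cancel₀ _ hZ0]
    have h3 : (y : ℂ) ≠ 0 := by exact_mod_cast hy0.ne'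
    rw [ZG_insert_none hw hkw, h2, hZe, hy']
    push_cast
    field_simp
  refine ⟨by rw [hZ1, Complex.ofReal_re]; positivity, fun v hv => ?_, fun v hv ζ hζ => ?_⟩
  · rw [mem_insert, not_or] at hv
    obtain ⟨B, m, p1, p2, -, p3⟩ := key w hw v hv.2 hv.1
    have h2 := p3 (h w) (by exact_mod_cast hw0.ne')
    rw [← hkw, Function.update_eq_self, Function.update_eq_self w fun w => (h w : ℂ), hy', hZe,
      hZ1, ← bar_B_re ha] at h2
    have h3 := (hB v hv.2).1
    generalize (∑ i, bG a 1 Λ k (fun w => (h w : ℂ)) v i).re = c at *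
    have h4 : ∑ i, bG a 1 (insert w Λ) k (fun w => (h w : ℂ)) v i =
        ((c + (∑ β ∈ B, m β) / (y - b) : ℝ) : ℂ) := by
      simp only [bG]
      rw [← sum_div, h2, hZ1]
      generalize ∑ β ∈ B, m β = M
      norm_cast
      field_simp
    rw [h4, Complex.ofReal_re]
    have h5 : 0 ≤ ∑ β ∈ B, m β := sum_nonneg fun β hβ => (p1 β hβ).1
    refine ⟨by positivity, le_trans (add_le_add_right ?_ c) p2⟩
    rw [sum_div]
    refine sum_le_sum fun β hβ => ?_
    obtain ⟨q1, q2, q3⟩ := p1 β hβ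
    exact div_le_div_of_nonneg_left q1 (by linarith) (by linarith [hb.2])
  · rw [mem_insert, not_or] at hv
    obtain ⟨B, m, p1, p2, p3, -⟩ := key v hv.2 w hw (Ne.symm hv.1)
    have h2 := p3 ζ hζ
    have h3 := hN v hv.2 ζ hζ
    rw [hbe, Complex.ofReal_re] at h2 p2
    have h4 : b + ∑ β ∈ B, m β / (ζ - β) ≤ s := by
      rcases hζ with hζ | hζ
      · have : ∑ β ∈ B, m β / (ζ - β) ≤ 0 := sum_nonpos fun β hβ =>
          div_nonpos_of_nonneg_of_nonpos (p1 β hβ).1 (by linarith [(p1 β hβ).2.1])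
        linarith [hb.2]
      · refine le_trans (add_le_add_right (sum_le_sum fun β hβ => ?_) b) p2
        obtain ⟨q1, q2, q3⟩ := p1 β hβ
        exact div_le_div_of_nonneg_left q1 (by linarith) (by linarith)
    generalize b + ∑ β ∈ B, m β / (ζ - β) = f at h2 h4
    simp only [bG] at h2
    rw [← sum_div, div_eq_iff h3] at h2
    have h5 : (y : ℂ) ≠ 0 := by exact_mod_cast hy0.ne'
    have h6 : (y : ℂ) - f ≠ 0 := by exact_mod_cast (by linarith : y - f ≠ 0)
    rw [insert_comm, ZG_insert_none (by simp [hw, Ne.symm hv.1])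
      (by rw [Function.update_of_ne (Ne.symm hv.1), hkw]), h2,
      Function.update_of_ne (Ne.symm hv.1), hy']
    intro h7
    apply mul_ne_zero h3 h6
    rw [← mul_zero (y : ℂ), ← h7]
    field_simp

/-- Induction on the number of averaged vertices of `Λ` (generalising `Λ k h`). Let `w ∈ Λ` be
averaged, `Λ = insert w Λ₀`, `z = h w`, `r z ≥ 3 √r ≥ H + √r`. All quantities are real. Write
`𝔅(Λ, v) = ∑_i bG`. (1) `ZG Λ = ZG Λ₀ (1 - 𝔅(Λ₀, w) / (r z)) > 0`. (2) For `v ∉ Λ` apply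
`multi_pf` on `Λ₀` with `(v, u) := (w, v)`: all `β ∈ [0, H)` by the last clause of the induction
hypothesis, and `𝔅(Λ, v) = c + M / (r z - 𝔅(Λ₀, w))` with `c = 𝔅(Λ₀, v) ≥ 0`, `M = ∑ m β`, so
`0 ≤ 𝔅(Λ, v) ≤ c + M / H ≤ c + ∑ m β / (H - β)`, which is `𝔅` for `w` present in all copies at
height `H`, at most `√r` by induction. (3) Apply `multi_pf` on `Λ₀` with `(v, u) := (v, w)`: the
self-energy `f ζ` of `w` in the presence of `v` at height `ζ` is at most `c ≤ √r` for `ζ < 0`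
and at most `f H ≤ √r` for `ζ ≥ H`; `ZG_insert_none` (after `Finset.insert_comm`) concludes. -/
theorem bar (ha : Herm a) (h : V → ℝ)
    (hk : ∀ w ∈ Λ, (k w = none ∧ 3 / √(Fintype.card ι) ≤ h w) ∨
      (k w = some univ ∧ h w = √(Fintype.card ι) + 1)) : Bar a Λ k h := by
  generalize hn : (Λ.filter fun w => k w = none).card = n
  induction n generalizing Λ k h with
  | zero =>
    refine bar_base ha h fun w hw => (hk w hw).resolve_left fun h1 => ?_
    exact notMem_empty w (card_eq_zero.1 hn ▸ mem_filter.2 ⟨hw, h1.1⟩)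
  | succ n ih =>
    obtain ⟨w, hw⟩ := card_pos.1 (hn.symm ▸ Nat.succ_pos n :
      0 < (Λ.filter fun w => k w = none).card)
    obtain ⟨hwΛ, hkw⟩ := mem_filter.1 hw
    obtain ⟨Λ₀, hw0, rfl⟩ : ∃ Λ₀, w ∉ Λ₀ ∧ Λ = insert w Λ₀ :=
      ⟨Λ.erase w, notMem_erase _ _, (insert_erase hwΛ).symm⟩
    rw [filter_insert, if_pos hkw, card_insert_of_notMem fun h => hw0 (mem_filter.1 h).1,
      Nat.add_right_cancel_iff] at hn
    have hk0 := fun p hp => hk p (mem_insert_of_mem hp)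
    refine bar_step ha h hw0 hkw ?_ (fun p hp => ?_) (ih h hk0 hn) fun v hv => ?_
    · rcases hk w hwΛ with h1 | h1
      · exact h1.2
      · rw [hkw] at h1; exact absurd h1.1 (by simp)
    · have hs := bar_sqrt (ι := ι)
      rcases hk0 p hp with h1 | h1
      · exact (lt_of_lt_of_le (by positivity) h1.2).ne'
      · rw [h1.2]; positivity
    · refine ih _ (fun p hp => ?_) ?_
      · rcases mem_insert.1 hp with rfl | hp
        · rw [Function.update_self, Function.update_self]; exact Or.inr ⟨rfl, rfl⟩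
        · rw [Function.update_of_ne (ne_of_mem_of_not_mem hp hv),
            Function.update_of_ne (ne_of_mem_of_not_mem hp hv)]
          exact hk0 p hp
      · rw [filter_insert, if_neg (by simp), ← hn]
        exact congrArg card (filter_congr fun p hp => by
          rw [Function.update_of_ne (ne_of_mem_of_not_mem hp hv)])

omit [DecidableEq V] [Nonempty ι] in
theorem bar_wA {κ : Option (Finset ι)} (hk : κ = none) {z s : ℂ} (hs : z + s ≠ 0) (T : Finset ι) :
    eval s (wA (X + C z) (fun _ : ι => C (Fintype.card ι : ℂ)⁻¹) T) = (z + s) * wG 1 (z + s) κ T := by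
  rw [hk, wG, wA_mul, ← coe_evalRingHom, map_wA]
  congr 1
  · simp [add_comm]
  · funext i
    simp only [coe_evalRingHom, eval_C]
    field_simp

/-- Polynomial dependence on a common shift of the heights of averaged vertices: `Q` over `ℂ[X]`
with weights `wA (X + C (z w)) (fun _ => C r⁻¹)`, `Q_map` for `evalRingHom`, `Q_scale`. -/
theorem ZG_shift (hk : ∀ w ∈ Λ, k w = none) (z : V → ℂ) : ∃ q : ℂ[X], ∀ s : ℂ,
    (∀ w ∈ Λ, z w + s ≠ 0) → q.eval s = (∏ w ∈ Λ, (z w + s)) * ZG a 1 Λ k fun w => z w + s := by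
  refine ⟨Q Λ (fun w => wA (X + C (z w)) fun _ : ι => C (Fintype.card ι : ℂ)⁻¹)
    fun S => C (mn a S), fun s hs => ?_⟩
  rw [← coe_evalRingHom, Q_map, ZG, ← Q_scale]
  exact Q_congr (fun w hw => funext fun T => bar_wA (hk w hw) (hs w hw) T) fun S _ => by simp

theorem NG_shift (hk : ∀ w ∈ Λ, k w = none) (hv : v ∉ Λ) (z : V → ℂ) (i : ι) : ∃ n : ℂ[X],
    ∀ s : ℂ, (∀ w ∈ Λ, z w + s ≠ 0) →
      n.eval s = (∏ w ∈ Λ, (z w + s)) * NG a 1 Λ k (fun w => z w + s) v i := by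
  refine ⟨Nn Λ (fun w => wA (X + C (z w)) fun _ : ι => C (Fintype.card ι : ℂ)⁻¹)
    (fun S => C (mn a S)) v i, fun s hs => ?_⟩
  rw [← coe_evalRingHom, Nn_map, NG, one_mul, ← Nn_scale hv]
  simp only [coe_evalRingHom, eval_C]
  unfold Nn
  rw [QT_congr _ v _ fun w hw _ => funext fun T => bar_wA (hk w hw) (hs w hw) T]

/-- Initial bound at complex heights. Let `f s = ∑_i bG / r` at heights `h w - t/2 + s`, a quotient
`n / q` of polynomials (`ZG_shift`, `NG_shift`) that are real (`exists_real_poly`). By `bar`,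
`q s ≠ 0` and `0 ≤ f s ≤ t/6` for real `s ≥ 0` (so `natDegree n ≤ natDegree q`:
`Polynomial.abs_div_tendsto_atTop_of_degree_gt`); `ZG_ne_zero`, `bG_im_le` give the hypotheses
of `herg_pf`: `f s = c + ∑ m β / (s - β)` with `β < 0`, and `c = lim_{s → ∞} f s ≥ 0`. At
`s = t/2 + i η`: `Re f ≤ f (t/2) ≤ t/6`, and
`|Im f| ≤ η ∑ m β / (t/2 - β)² ≤ η (2/t) ∑ m β / (-β) ≤ η (2/t) f 0 ≤ η / 3`. -/
theorem init_bound (ha : Herm a) {t η : ℝ} (ht : t = 6 / √(Fintype.card ι)) (hη : 0 < η)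
    (hv : v ∉ Λ) (hk : ∀ w ∈ Λ, k w = none) (h : V → ℝ) (hh : ∀ w ∈ Λ, t ≤ h w) :
    ((∑ i, bG a 1 Λ k (fun w => h w + η * Complex.I) v i) / Fintype.card ι).re ≤ t / 6 ∧
    |((∑ i, bG a 1 Λ k (fun w => h w + η * Complex.I) v i) / Fintype.card ι).im| ≤ η / 3 := by
  have hs := bar_sqrt (ι := ι)
  have hr : (Fintype.card ι : ℝ) = √(Fintype.card ι) ^ 2 := (Real.sq_sqrt (Nat.cast_nonneg _)).symm
  have ht0 : 0 < t := by rw [ht]; positivity
  obtain ⟨q, hq⟩ := ZG_shift (a := a) hk fun w => ((h w - t / 2 : ℝ) : ℂ)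
  choose n hn using fun i => NG_shift (a := a) hk hv (fun w => ((h w - t / 2 : ℝ) : ℂ)) i
  have hquot : ∀ ζ : ℂ, (∀ w ∈ Λ, ((h w - t / 2 : ℝ) : ℂ) + ζ ≠ 0) → (∑ i, n i).eval ζ / q.eval ζ =
      ∑ i, bG a 1 Λ k (fun w => ((h w - t / 2 : ℝ) : ℂ) + ζ) v i := by
    intro ζ hζ
    rw [eval_finsetSum, sum_div, hq ζ hζ]
    exact sum_congr rfl fun i _ => by
      rw [hn i ζ hζ, mul_div_mul_left _ _ (prod_ne_zero_iff.2 hζ), bG]
  have hreal : ∀ s : ℝ, 0 ≤ s → ∀ w ∈ Λ, ((h w - t / 2 : ℝ) : ℂ) + s ≠ 0 := fun s hs w hw => by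
    have := hh w hw
    exact_mod_cast (by linarith : h w - t / 2 + s ≠ 0)
  have hup : ∀ ζ : ℂ, 0 < ζ.im → ∀ w ∈ Λ,
      |((1 : ℂ) * 1).im| < (1 * (((h w - t / 2 : ℝ) : ℂ) + ζ)).im := fun ζ hζ w _ => by
    simpa using hζ
  have hup' : ∀ ζ : ℂ, 0 < ζ.im → ∀ w ∈ Λ, ((h w - t / 2 : ℝ) : ℂ) + ζ ≠ 0 := fun ζ hζ w hw h => by
    have := hup ζ hζ w hw
    rw [h] at this
    simp at this
  have hbar : ∀ s : ℝ, 0 ≤ s → Bar a Λ k fun w => h w - t / 2 + s := fun s hs =>
    bar ha _ fun w hw => Or.inl ⟨hk w hw, by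
      have h1 := hh w hw
      have h2 : 3 / √(Fintype.card ι : ℝ) = t / 2 := by rw [ht]; ring
      linarith⟩
  obtain ⟨h1, h2⟩ := bar_abs (∑ i, n i) q (D := √(Fintype.card ι)) (T := t / 2) (by positivity) hη
    (fun s hs => by
      rw [hq s (hreal s hs)]
      refine mul_ne_zero (prod_ne_zero_iff.2 (hreal s hs)) fun h0 => ?_
      have h1 := (hbar s hs).1
      simp only [Complex.ofReal_add, h0] at h1
      simp at h1)
    (fun s hs => by
      rw [eval_finsetSum, Complex.im_sum]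
      refine sum_eq_zero fun i _ => ?_
      rw [hn i s (hreal s hs.le)]
      simp only [← Complex.ofReal_add]
      rw [← Complex.ofReal_prod, Complex.im_ofReal_mul, bar_NG_im ha, mul_zero])
    (fun s hs => by
      rw [hq s (hreal s hs.le)]
      simp only [← Complex.ofReal_add]
      rw [← Complex.ofReal_prod, ← bar_ZG_re ha, ← Complex.ofReal_mul, Complex.ofReal_im])
    (fun s hs => by
      rw [hquot s (hreal s hs.le)]
      simp only [← Complex.ofReal_add]
      exact (hbar s hs.le).2.1 v hv)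
    (fun ζ hζ => by
      rw [hq ζ (hup' ζ hζ)]
      exact mul_ne_zero (prod_ne_zero_iff.2 (hup' ζ hζ)) (ZG_ne_zero ha 1 (hup ζ hζ)))
    (fun ζ hζ => by
      rw [hquot ζ (hup' ζ hζ), Complex.im_sum]
      refine sum_nonpos fun i _ => ?_
      simpa using bG_im_le (k := k) ha hv 1 (hup ζ hζ) i)
  rw [hquot _ (hup' _ (by simpa using hη))] at h1 h2
  have e : (fun w => ((h w - t / 2 : ℝ) : ℂ) + (((t / 2 : ℝ) : ℂ) + η * Complex.I)) =
      fun w => (h w : ℂ) + η * Complex.I := funext fun w => by push_cast; ring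
  rw [e] at h1 h2
  have hr0 : (0 : ℝ) < Fintype.card ι := by rw [hr]; positivity
  rw [Complex.div_natCast_re, Complex.div_natCast_im, abs_div, abs_of_pos hr0, div_le_iff₀ hr0,
    div_le_iff₀ hr0]
  generalize √(Fintype.card ι : ℝ) = s at *
  rw [hr, ht] at *
  refine ⟨h1.trans (le_of_eq ?_), h2.trans (le_of_eq ?_)⟩
  · field_simp
  · field_simp
    norm_num

end Crest.Agent.R109
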