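import Mathlib

/-!
# R109: partial fractions of rational Herglotz functions
-/

set_option autoImplicit false
open Finset Polynomial

namespace Crest.Agent.R109

/-- A complex polynomial whose values at real points (off a finite set) are real is the
complexification of a real polynomial (`p` and `p.map conj` agree at infinitely many points;
`Polynomial.lifts`). -/
theorem exists_real_poly (p : ℂ[X]) (h : ∀ s : ℝ, 0 < s → (p.eval (s : ℂ)).im = 0) :
    ∃ p' : ℝ[X], p'.map (algebraMap ℝ ℂ) = p := by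
  have h1 : p = p.map (starRingEnd ℂ) := by
    refine eq_of_infinite_eval_eq _ _ (((Set.Ioi_infinite (0 : ℝ)).image
      Complex.ofReal_injective.injOn).mono ?_)
    rintro _ ⟨s, hs, rfl⟩
    have h2 := eval_map_apply (p := p) (starRingEnd ℂ) (s : ℂ)
    rw [Complex.conj_ofReal] at h2
    exact (h2.trans (Complex.conj_eq_iff_im.2 (h s hs))).symm
  refine (mem_lifts p).1 ((lifts_iff_coeff_lifts p).2 fun k => ?_)
  have h2 := congrArg (coeff · k) h1
  simp only [coeff_map] at h2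
  exact ⟨(p.coeff k).re, Complex.conj_eq_iff_re.1 h2.symm⟩

private theorem pf_aeval (p : ℝ[X]) (x : ℝ) : aeval (x : ℂ) p = (p.eval x : ℝ) := aeval_ofReal p x

private theorem pf_ne_zero {q : ℝ[X]} (hq : ∀ ζ : ℂ, 0 < ζ.im → aeval ζ q ≠ 0) : q ≠ 0 :=
  fun h => hq Complex.I (by simp) (by simp [h])

private theorem pf_sin (n q₁ : ℝ[X]) (β : ℝ) (k : ℕ) (h1 : q₁.eval β ≠ 0)
    (him : ∀ ζ : ℂ, 0 < ζ.im → (aeval ζ n / aeval ζ ((X - C β) ^ k * q₁)).im ≤ 0) {θ : ℝ}
    (h0 : 0 < θ) (hπ : θ < Real.pi) : 0 ≤ n.eval β / q₁.eval β * Real.sin (k * θ) := by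
  have hc : ContinuousAt (fun ε : ℝ => (aeval (β + ε * Complex.exp (θ * Complex.I)) n /
      aeval (β + ε * Complex.exp (θ * Complex.I)) q₁ * Complex.exp (-(k * θ : ℝ) * Complex.I)).im) 0 := by
    refine Complex.continuous_im.continuousAt.comp (ContinuousAt.mul (ContinuousAt.div ?_ ?_ ?_)
      continuousAt_const)
    · exact (n.continuous_aeval.comp (by fun_prop)).continuousAt
    · exact (q₁.continuous_aeval.comp (by fun_prop)).continuousAt
    · simpa [pf_aeval] using h1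
  have h2 := le_of_tendsto (b := 0) (hc.tendsto.mono_left (nhdsWithin_le_nhds (s := Set.Ioi 0)))
    (eventually_mem_nhdsWithin.mono fun ε (hε : 0 < ε) => by
      have h3 := him (β + ε * Complex.exp (θ * Complex.I)) (by
        simpa using mul_pos hε (Real.sin_pos_of_pos_of_lt_pi h0 hπ))
      have h4 := mul_nonpos_of_nonneg_of_nonpos (pow_pos hε k).le h3
      rw [← Complex.im_ofReal_mul] at h4
      convert h4 using 2
      have h5 : (ε : ℂ) ≠ 0 := by exact_mod_cast hε.ne'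
      simp only [map_mul, map_pow, map_sub, aeval_X, aeval_C, Complex.coe_algebraMap,
        add_sub_cancel_left, mul_pow, ← Complex.exp_nat_mul, neg_mul, Complex.exp_neg]
      push_cast
      rw [mul_assoc (k : ℂ)]
      field_simp)
  rw [Complex.ofReal_zero, zero_mul, add_zero, pf_aeval, pf_aeval, ← Complex.ofReal_div,
    Complex.im_ofReal_mul, ← Complex.ofReal_neg, Complex.exp_ofReal_mul_I_im, Real.sin_neg] at h2
  linarith

/-- Local analysis at a real zero `β` of `q` with `n β ≠ 0`. Write `q = (X - β)^k q₁` with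
`q₁ β ≠ 0`, `k ≥ 1`, `A = n β / q₁ β ∈ ℝ \ {0}`. For `θ ∈ (0, π)` and `ζ = β + ε e^{iθ}`,
`ε^k n ζ / q ζ → A e^{-ikθ}` as `ε → 0⁺`, so `A sin (kθ) ≥ 0` for all `θ ∈ (0, π)`;
`θ = π/(2k)` gives `A > 0`, and `θ = 3π/(2k)` is admissible if `k ≥ 2`, a contradiction. -/
theorem herg_pole (n q : ℝ[X]) (hq : ∀ ζ : ℂ, 0 < ζ.im → aeval ζ q ≠ 0)
    (him : ∀ ζ : ℂ, 0 < ζ.im → (aeval ζ n / aeval ζ q).im ≤ 0) {β : ℝ} (hβ : q.IsRoot β)
    (hn : ¬ n.IsRoot β) :
    (q /ₘ (X - C β)).eval β ≠ 0 ∧ 0 < n.eval β / (q /ₘ (X - C β)).eval β := by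
  have hq0 := pf_ne_zero hq
  obtain ⟨q₁, e, h1⟩ := exists_eq_pow_rootMultiplicity_mul_and_not_dvd q hq0 β
  have hk : 0 < q.rootMultiplicity β := (rootMultiplicity_pos hq0).2 hβ
  generalize q.rootMultiplicity β = k at e hk
  subst e
  rw [dvd_iff_isRoot] at h1
  have hk' : (0 : ℝ) < k := by exact_mod_cast hk
  have hk1 : (1 : ℝ) ≤ k := by exact_mod_cast hk
  have hπ := Real.pi_pos
  have h2 := pf_sin n q₁ β k h1 him (θ := Real.pi / 2 / k) (by positivity)
    ((div_le_self (by positivity) hk1).trans_lt (by linarith))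
  rw [mul_div_cancel₀ _ hk'.ne', Real.sin_pi_div_two, mul_one] at h2
  have h3 : 0 < n.eval β / q₁.eval β := h2.lt_of_ne' (div_ne_zero hn h1)
  obtain rfl : k = 1 := by
    by_contra h
    have hk2 : (2 : ℝ) ≤ k := by exact_mod_cast (show 2 ≤ k by omega)
    have h4 := pf_sin n q₁ β k h1 him (θ := (Real.pi / 2 + Real.pi) / k) (by positivity)
      (by rw [div_lt_iff₀ hk']; nlinarith)
    rw [mul_div_cancel₀ _ hk'.ne', Real.sin_add_pi, Real.sin_pi_div_two] at h4
    linarith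
  rw [pow_one, mul_divByMonic_cancel_left _ (monic_X_sub_C β)]
  exact ⟨h1, h3⟩

private theorem pf_card {q : ℝ[X]} (hq : ∀ ζ : ℂ, 0 < ζ.im → aeval ζ q ≠ 0)
    (h : ∀ β, q.IsRoot β → (q /ₘ (X - C β)).eval β ≠ 0) : #q.roots.toFinset = q.natDegree := by
  have hq0 := pf_ne_zero hq
  have h1 : q.Splits := (IsAlgClosed.splits _).of_splits_map (algebraMap ℝ ℂ) fun a ha => by
    have h2 : aeval a q = 0 := by rw [← eval_map_algebraMap]; exact isRoot_of_mem_roots ha
    refine ⟨a.re, Complex.ext rfl ?_⟩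
    rcases lt_trichotomy a.im 0 with h3 | h3 | h3
    · exact (hq (starRingEnd ℂ a) (by simpa using h3) (by rw [aeval_conj, h2, map_zero])).elim
    · simp [h3]
    · exact (hq a h3 h2).elim
  rw [h1.natDegree_eq_card_roots]
  refine Multiset.toFinset_card_of_nodup (Multiset.nodup_iff_count_le_one.2 fun β => ?_)
  rw [count_roots]
  by_contra h2
  obtain ⟨r, hr⟩ := (le_rootMultiplicity_iff hq0 (n := 2)).1 (not_le.1 h2)
  refine h β (by simp [hr]) ?_
  rw [hr, sq, mul_assoc, mul_divByMonic_cancel_left _ (monic_X_sub_C β)]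
  simp

private theorem pf_coprime (n q : ℝ[X]) (hd : n.natDegree ≤ q.natDegree)
    (hq : ∀ ζ : ℂ, 0 < ζ.im → aeval ζ q ≠ 0)
    (him : ∀ ζ : ℂ, 0 < ζ.im → (aeval ζ n / aeval ζ q).im ≤ 0)
    (h : ∀ β, q.IsRoot β → ¬ n.IsRoot β) :
    ∃ (B : Finset ℝ) (m : ℝ → ℝ) (c : ℝ), (∀ β ∈ B, q.IsRoot β ∧ 0 ≤ m β) ∧
      n = C c * q + ∑ β ∈ B, C (m β) * (q /ₘ (X - C β)) := by
  have hq0 := pf_ne_zero hq
  have h1 := fun β hβ => herg_pole n q hq him hβ (h β hβ)
  have h2 : ∀ β ∈ q.roots.toFinset, q.IsRoot β := fun β hβ =>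
    isRoot_of_mem_roots (Multiset.mem_toFinset.1 hβ)
  refine ⟨q.roots.toFinset, fun β => n.eval β / (q /ₘ (X - C β)).eval β,
    n.coeff q.natDegree / q.leadingCoeff, fun β hβ => ⟨h2 β hβ, (h1 β (h2 β hβ)).2.le⟩,
    sub_eq_zero.1 (eq_zero_of_degree_lt_of_eval_finset_eq_zero q.roots.toFinset ?_ fun β hβ => ?_)⟩
  · rw [pf_card hq fun β hβ => (h1 β hβ).1, degree_lt_iff_coeff_zero]
    intro k hk
    rw [coeff_sub, coeff_add, finsetSum_coeff, Finset.sum_eq_zero fun β hβ => ?_, add_zero,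
      coeff_C_mul]
    · rcases hk.eq_or_lt with rfl | hk
      · rw [coeff_natDegree, div_mul_cancel₀ _ (leadingCoeff_ne_zero.2 hq0), sub_self]
      · rw [coeff_eq_zero_of_natDegree_lt hk, coeff_eq_zero_of_natDegree_lt (hd.trans_lt hk),
          mul_zero, sub_self]
    · have := natDegree_pos_iff_degree_pos.2 (degree_pos_of_root hq0 (h2 β hβ))
      rw [coeff_C_mul, coeff_eq_zero_of_natDegree_lt, mul_zero]
      rw [natDegree_divByMonic _ (monic_X_sub_C β), natDegree_X_sub_C]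
      omega
  · rw [eval_sub, eval_add, eval_mul, h2 β hβ, mul_zero, zero_add, eval_finsetSum,
      Finset.sum_eq_single β (fun β' hβ' hne => ?_) fun h => (h hβ).elim, eval_mul, eval_C,
      div_mul_cancel₀ _ (h1 β (h2 β hβ)).1, sub_self]
    have h3 := congrArg (eval β) (mul_divByMonic_eq_iff_isRoot.2 (h2 β' hβ'))
    rw [h2 β hβ, eval_mul, mul_eq_zero, eval_sub, eval_X, eval_C, sub_eq_zero] at h3
    rw [eval_mul, h3.resolve_left hne.symm, mul_zero]

/-- Partial fractions. Induction on the degree cancels common real roots of `n` and `q`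
(`(X - β) * (q' /ₘ (X - β')) = q /ₘ (X - β')` when `β'` is a root of `q'`). If there is none, all
complex roots of `q` are real (conjugation) and simple (`herg_pole`); with `c` the quotient of the
coefficients of degree `natDegree q` and `m β = n β / (q /ₘ (X - β)) β`, the difference of the two
sides has degree `< natDegree q` and vanishes at the `natDegree q` roots
(`Polynomial.eq_zero_of_natDegree_lt_card_of_eval_eq_zero'` or `eq_of_degree_sub_lt..`). -/
theorem herg_pf (n q : ℝ[X]) (hd : n.natDegree ≤ q.natDegree)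
    (hq : ∀ ζ : ℂ, 0 < ζ.im → aeval ζ q ≠ 0)
    (him : ∀ ζ : ℂ, 0 < ζ.im → (aeval ζ n / aeval ζ q).im ≤ 0) :
    ∃ (B : Finset ℝ) (m : ℝ → ℝ) (c : ℝ), (∀ β ∈ B, q.IsRoot β ∧ 0 ≤ m β) ∧
      n = C c * q + ∑ β ∈ B, C (m β) * (q /ₘ (X - C β)) := by
  induction hN : q.natDegree using Nat.strong_induction_on generalizing n q with
  | _ N ih =>
    by_cases h : ∀ β, q.IsRoot β → ¬ n.IsRoot β
    · exact pf_coprime n q hd hq him h
    by_cases hn : n = 0
    · exact ⟨∅, 0, 0, by simp, by simp [hn]⟩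
    push Not at h
    obtain ⟨β, h1, h2⟩ := h
    obtain ⟨q, rfl⟩ := dvd_iff_isRoot.2 h1
    obtain ⟨n, rfl⟩ := dvd_iff_isRoot.2 h2
    have hq0 := right_ne_zero_of_mul (pf_ne_zero hq)
    rw [natDegree_mul (X_sub_C_ne_zero β) hq0, natDegree_X_sub_C] at hd hN
    rw [natDegree_mul (X_sub_C_ne_zero β) (right_ne_zero_of_mul hn), natDegree_X_sub_C] at hd
    simp only [map_mul] at hq him
    obtain ⟨B, m, c, h3, h4⟩ := ih q.natDegree (by omega) n q (by omega)
      (fun ζ hζ => right_ne_zero_of_mul (hq ζ hζ))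
      (fun ζ hζ => by
        have := him ζ hζ
        rwa [mul_div_mul_left _ _ (left_ne_zero_of_mul (hq ζ hζ))] at this) rfl
    refine ⟨B, m, c, fun β' hβ' => ⟨by simp [(h3 β' hβ').1.eq_zero], (h3 β' hβ').2⟩, ?_⟩
    conv_lhs => rw [h4]
    rw [mul_add, mul_left_comm, Finset.mul_sum]
    congr 1
    refine Finset.sum_congr rfl fun β' hβ' => ?_
    obtain ⟨r, rfl⟩ := dvd_iff_isRoot.2 (h3 β' hβ').1
    rw [mul_left_comm (X - C β) (X - C β'), mul_divByMonic_cancel_left _ (monic_X_sub_C β'),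
      mul_divByMonic_cancel_left _ (monic_X_sub_C β'), mul_left_comm]

/-- The form used later: complex polynomials that are real on the positive axis, `q` of exact
degree `r`. -/
theorem herg_pf' (n q : ℂ[X]) {r : ℕ} (hr : 0 < r) (hn : n.natDegree ≤ r) (hq : q.natDegree ≤ r)
    (h0 : q.coeff r ≠ 0) (hnr : ∀ s : ℝ, 0 < s → (n.eval (s : ℂ)).im = 0)
    (hqr : ∀ s : ℝ, 0 < s → (q.eval (s : ℂ)).im = 0) (hq0 : ∀ ζ : ℂ, 0 < ζ.im → q.eval ζ ≠ 0)
    (him : ∀ ζ : ℂ, 0 < ζ.im → (n.eval ζ / q.eval ζ).im ≤ 0) :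
    ∃ (B : Finset ℝ) (m : ℝ → ℝ) (c : ℝ), (∀ β ∈ B, q.eval (β : ℂ) = 0 ∧ 0 ≤ m β) ∧
      n.coeff r = c * q.coeff r ∧
      n.coeff (r - 1) = c * q.coeff (r - 1) + (∑ β ∈ B, m β : ℝ) * q.coeff r ∧
      ∀ ζ : ℂ, q.eval ζ ≠ 0 → n.eval ζ / q.eval ζ = c + ∑ β ∈ B, (m β : ℂ) / (ζ - β) := by
  obtain ⟨n, rfl⟩ := exists_real_poly n hnr
  obtain ⟨q, rfl⟩ := exists_real_poly q hqr
  rw [natDegree_map] at hn hq
  simp only [eval_map_algebraMap, coeff_map, Complex.coe_algebraMap] at h0 hq0 him ⊢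
  have h1 : q.natDegree = r :=
    natDegree_eq_of_le_of_coeff_ne_zero hq fun h => h0 (by rw [h, Complex.ofReal_zero])
  obtain ⟨B, m, c, h2, h3⟩ := herg_pf n q (h1 ▸ hn) hq0 him
  obtain ⟨r, rfl⟩ : ∃ s, r = s + 1 := ⟨r - 1, by omega⟩
  have h4 : ∀ β, (q /ₘ (X - C β)).coeff (r + 1) = 0 := fun β => coeff_eq_zero_of_natDegree_lt (by
    rw [natDegree_divByMonic _ (monic_X_sub_C β), natDegree_X_sub_C]
    omega)
  have h5 : ∀ β ∈ B, (q /ₘ (X - C β)).coeff r = q.coeff (r + 1) := fun β hβ => by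
    conv_rhs => rw [← mul_divByMonic_eq_iff_isRoot.2 (h2 β hβ).1, coeff_X_sub_C_mul, h4, mul_zero,
      sub_zero]
  refine ⟨B, m, c, fun β hβ => ⟨by rw [pf_aeval, (h2 β hβ).1.eq_zero, Complex.ofReal_zero],
    (h2 β hβ).2⟩, ?_, ?_, fun ζ hζ => ?_⟩
  · rw [h3]
    simp [h4]
  · rw [h3, add_tsub_cancel_right, coeff_add, coeff_C_mul, finsetSum_coeff,
      Finset.sum_congr rfl fun β hβ => by rw [coeff_C_mul, h5 β hβ], ← Finset.sum_mul]
    push_cast
    rfl
  · rw [h3, map_add, map_mul, aeval_C, map_sum, add_div, mul_div_cancel_right₀ _ hζ,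
      Finset.sum_div]
    congr 1
    refine Finset.sum_congr rfl fun β hβ => ?_
    have h6 := congrArg (aeval ζ) (mul_divByMonic_eq_iff_isRoot.2 (h2 β hβ).1)
    rw [map_mul, map_sub, aeval_X, aeval_C] at h6
    rw [← h6] at hζ
    rw [← h6, map_mul, aeval_C, mul_div_mul_right _ _ (right_ne_zero_of_mul hζ)]
    rfl

/-- If all roots lie in the closed lower half-plane then `|q ζ| ≥ |lead| (Im ζ)^r`
(factor `q` into linear factors). -/
theorem norm_eval_ge (q : ℂ[X]) {r : ℕ} (hq : q.natDegree ≤ r)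
    (hq0 : ∀ ζ : ℂ, 0 < ζ.im → q.eval ζ ≠ 0) {ζ : ℂ} (hζ : 0 < ζ.im) :
    ‖q.coeff r‖ * ζ.im ^ r ≤ ‖q.eval ζ‖ := by
  by_cases h0 : q.coeff r = 0
  · simp [h0]
  obtain rfl : q.natDegree = r := natDegree_eq_of_le_of_coeff_ne_zero hq h0
  have h1 := IsAlgClosed.splits q
  rw [h1.eval_eq_prod_roots, norm_mul, coeff_natDegree, h1.natDegree_eq_card_roots]
  refine mul_le_mul_of_nonneg_left ?_ (norm_nonneg _)
  have h2 : ∀ a ∈ q.roots, a.im ≤ 0 := fun a ha => not_lt.1 fun h => hq0 a h (isRoot_of_mem_roots ha)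
  generalize q.roots = s at h2
  induction s using Multiset.induction_on with
  | empty => simp
  | cons a s ih =>
    rw [Multiset.card_cons, Multiset.map_cons, Multiset.prod_cons, norm_mul, pow_succ']
    refine mul_le_mul ?_ (ih fun b hb => h2 b (Multiset.mem_cons_of_mem hb)) (by positivity)
      (norm_nonneg _)
    have h3 := Complex.im_le_norm (ζ - a)
    have h4 := h2 a (Multiset.mem_cons_self _ _)
    rw [Complex.sub_im] at h3
    linarith

end Crest.Agent.R109
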