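import Crest.Agent.R109.Stab
import Crest.Agent.R109.PF

/-!
# R109: auxiliary lemmas for the barrier argument
-/

set_option autoImplicit false
open Finset Polynomial Filter Topology

namespace Crest.Agent.R109

theorem bar_term {m d η : ℝ} (hm : 0 ≤ m) (hd : 0 < d) (hη : 0 < η) :
    ((m : ℂ) / (d + η * Complex.I)).re ≤ m / d ∧
      |((m : ℂ) / (d + η * Complex.I)).im| ≤ η * (m / d ^ 2) := by
  have hN : Complex.normSq (d + η * Complex.I) = d ^ 2 + η ^ 2 := Complex.normSq_add_mul_I d η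
  have h0 : 0 < d ^ 2 + η ^ 2 := by positivity
  constructor
  · rw [Complex.div_re, hN]
    simp only [Complex.ofReal_re, Complex.add_re, Complex.mul_re, Complex.I_re, mul_zero,
      Complex.ofReal_im, Complex.I_im, mul_one, sub_self, add_zero, zero_mul, zero_div]
    rw [div_le_div_iff₀ h0 hd]
    nlinarith [mul_nonneg hm (sq_nonneg η)]
  · rw [Complex.div_im, hN]
    simp only [Complex.ofReal_re, Complex.add_im, Complex.mul_im, Complex.I_re, mul_zero,
      Complex.ofReal_im, Complex.I_im, mul_one, add_zero, zero_mul, zero_div, zero_add, zero_sub,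
      abs_neg]
    rw [abs_of_nonneg (by positivity), ← mul_div_assoc, mul_comm η]
    exact div_le_div_of_nonneg_left (by positivity) (by positivity) (by nlinarith [sq_nonneg η])

/-- A Herglotz-type quotient bounded on the positive axis. -/
theorem bar_abs (n q : ℂ[X]) {D T η : ℝ} (hT : 0 < T) (hη : 0 < η)
    (h0 : ∀ s : ℝ, 0 ≤ s → q.eval (s : ℂ) ≠ 0)
    (hnr : ∀ s : ℝ, 0 < s → (n.eval (s : ℂ)).im = 0)
    (hqr : ∀ s : ℝ, 0 < s → (q.eval (s : ℂ)).im = 0)
    (hb : ∀ s : ℝ, 0 < s → 0 ≤ (n.eval (s : ℂ) / q.eval (s : ℂ)).re ∧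
      (n.eval (s : ℂ) / q.eval (s : ℂ)).re ≤ D)
    (hq0 : ∀ ζ : ℂ, 0 < ζ.im → q.eval ζ ≠ 0)
    (him : ∀ ζ : ℂ, 0 < ζ.im → (n.eval ζ / q.eval ζ).im ≤ 0) :
    (n.eval (T + η * Complex.I) / q.eval (T + η * Complex.I)).re ≤ D ∧
      |(n.eval (T + η * Complex.I) / q.eval (T + η * Complex.I)).im| ≤ η * (D / T) := by
  have hq : q ≠ 0 := fun h => h0 0 le_rfl (by rw [h, eval_zero])
  have hd : n.natDegree ≤ q.natDegree := by
    obtain ⟨n', hn'⟩ := exists_real_poly n hnr
    obtain ⟨q', hq'⟩ := exists_real_poly q hqr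
    have hq1 : q' ≠ 0 := fun h => hq (by rw [← hq', h, Polynomial.map_zero])
    rw [← hn', ← hq', natDegree_map, natDegree_map]
    by_contra hlt
    have h1 := abs_div_tendsto_atTop_atTop_of_degree_gt n' q'
      (degree_lt_degree (not_le.1 hlt)) hq1
    obtain ⟨s, hs1, hs2⟩ := ((h1.eventually_gt_atTop D).and (eventually_gt_atTop 0)).exists
    have h2 := hb s hs2
    have e : ∀ p : ℝ[X], aeval (s : ℂ) p = (p.eval s : ℝ) := fun p => aeval_ofReal p s
    rw [← hn', ← hq', eval_map_algebraMap, eval_map_algebraMap, e, e,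
      ← Complex.ofReal_div, Complex.ofReal_re] at h2
    rw [abs_of_nonneg h2.1] at hs1
    linarith [h2.2]
  have hX : ∀ ζ : ℂ, ∀ p : ℂ[X], ((X + C 1) * p).eval ζ = (ζ + 1) * p.eval ζ := fun ζ p => by
    rw [eval_mul, eval_add, eval_X, eval_C]
  have hne : ∀ ζ : ℂ, 0 < ζ.im → ζ + 1 ≠ 0 := fun ζ hζ h => by
    have := congrArg Complex.im h
    simp at this
    linarith
  have hne' : ∀ s : ℝ, 0 ≤ s → (s : ℂ) + 1 ≠ 0 := fun s hs => by
    have : s + 1 ≠ 0 := by linarith
    exact_mod_cast this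
  have hdeg : ((X + C 1) * q).natDegree = q.natDegree + 1 := by
    rw [natDegree_mul (X_add_C_ne_zero 1) hq, natDegree_X_add_C, add_comm]
  obtain ⟨B, m, c, hB, -, -, hf⟩ := herg_pf' ((X + C 1) * n) ((X + C 1) * q)
    (r := q.natDegree + 1) (Nat.succ_pos _)
    (natDegree_mul_le.trans (by rw [natDegree_X_add_C]; omega)) hdeg.le
    (by
      rw [← hdeg, coeff_natDegree, leadingCoeff_ne_zero]
      exact mul_ne_zero (X_add_C_ne_zero 1) hq)
    (fun s hs => by rw [hX]; simp [hnr s hs]) (fun s hs => by rw [hX]; simp [hqr s hs])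
    (fun ζ hζ => by rw [hX]; exact mul_ne_zero (hne ζ hζ) (hq0 ζ hζ))
    (fun ζ hζ => by rw [hX, hX, mul_div_mul_left _ _ (hne ζ hζ)]; exact him ζ hζ)
  have hβ : ∀ β ∈ B, β < 0 := fun β hβ => by
    by_contra h
    have h1 := (hB β hβ).1
    rw [hX] at h1
    exact mul_ne_zero (hne' β (not_lt.1 h)) (h0 β (not_lt.1 h)) h1
  have hg : ∀ s : ℝ, 0 < s → 0 ≤ c + ∑ β ∈ B, m β / (s - β) ∧
      c + ∑ β ∈ B, m β / (s - β) ≤ D := by
    intro s hs
    have h1 := hf s (by rw [hX]; exact mul_ne_zero (hne' s hs.le) (h0 s hs.le))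
    rw [hX, hX, mul_div_mul_left _ _ (hne' s hs.le)] at h1
    have h2 := hb s hs
    rw [h1] at h2
    have e : (c : ℂ) + ∑ β ∈ B, (m β : ℂ) / (s - β) =
        ((c + ∑ β ∈ B, m β / (s - β) : ℝ) : ℂ) := by push_cast; rfl
    rwa [e, Complex.ofReal_re] at h2
  have hc : 0 ≤ c := by
    have h1 : Tendsto (fun s : ℝ => c + ∑ β ∈ B, m β / (s - β)) atTop (𝓝 (c + ∑ β ∈ B, 0)) :=
      tendsto_const_nhds.add (tendsto_finsetSum _ fun β _ =>
        tendsto_const_nhds.div_atTop (tendsto_atTop_add_const_right _ (-β) tendsto_id))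
    rw [sum_const_zero, add_zero] at h1
    exact ge_of_tendsto h1 ((eventually_gt_atTop 0).mono fun s hs => (hg s hs).1)
  have hζ : 0 < ((T : ℂ) + η * Complex.I).im := by simpa using hη
  have h1 := hf (T + η * Complex.I) (by rw [hX]; exact mul_ne_zero (hne _ hζ) (hq0 _ hζ))
  rw [hX, hX, mul_div_mul_left _ _ (hne _ hζ)] at h1
  have ht : ∀ β ∈ B, ((m β : ℂ) / (T + η * Complex.I - β)).re ≤ m β / (T - β) ∧
      |((m β : ℂ) / (T + η * Complex.I - β)).im| ≤ η * (m β / (T - β) / T) := by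
    intro β hβ'
    have h2 := hβ β hβ'
    have h3 := (hB β hβ').2
    have e : (T : ℂ) + η * Complex.I - β = ((T - β : ℝ) : ℂ) + η * Complex.I := by
      push_cast; ring
    obtain ⟨h4, h5⟩ := bar_term (d := T - β) h3 (by linarith) hη
    rw [e]
    refine ⟨h4, h5.trans (mul_le_mul_of_nonneg_left ?_ hη.le)⟩
    have h6 : 0 < T - β := by linarith
    rw [div_div]
    exact div_le_div_of_nonneg_left h3 (by positivity) (by nlinarith)
  rw [h1, Complex.add_re, Complex.add_im, Complex.ofReal_re, Complex.ofReal_im, zero_add,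
    Complex.re_sum, Complex.im_sum]
  have h2 := (hg T hT).2
  refine ⟨le_trans (add_le_add_right (sum_le_sum fun β hβ' => (ht β hβ').1) c) h2, ?_⟩
  refine (abs_sum_le_sum_abs _ _).trans ((sum_le_sum fun β hβ' => (ht β hβ').2).trans ?_)
  rw [← mul_sum, ← sum_div]
  exact mul_le_mul_of_nonneg_left (div_le_div_of_nonneg_right (by linarith) hT.le) hη.le

variable {V ι : Type*} [DecidableEq V] [Fintype ι] [DecidableEq ι]
variable {a : V → V → ℂ} {Λ : Finset V} {k : V → Option (Finset ι)} {u v : V}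

theorem bar_upd (h : V → ℝ) (v : V) (ζ : ℝ) :
    Function.update (fun w => (h w : ℂ)) v (ζ : ℂ) = fun w => ((Function.update h v ζ w : ℝ) : ℂ) := by
  funext w
  by_cases hw : w = v
  · subst hw; simp
  · simp [Function.update_of_ne hw]

theorem bar_ZG_im (ha : Herm a) (x : ℝ) (h : V → ℝ) :
    (ZG a x Λ k fun w => (h w : ℂ)).im = 0 := by
  rw [← Complex.conj_eq_iff_im, ZG_conj ha]
  simp only [Complex.conj_ofReal]

theorem bar_NG_im (ha : Herm a) (h : V → ℝ) (i : ι) :
    (NG a 1 Λ k (fun w => (h w : ℂ)) v i).im = 0 := by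
  rw [← Complex.conj_eq_iff_im, NG_conj ha]
  simp only [Complex.conj_ofReal, map_one]

theorem bar_ZG_re (ha : Herm a) (h : V → ℝ) :
    (((ZG a 1 Λ k fun w => (h w : ℂ)).re : ℝ) : ℂ) = ZG a 1 Λ k fun w => (h w : ℂ) :=
  Complex.ext rfl (bar_ZG_im ha 1 h).symm

theorem bar_bG_re (ha : Herm a) (h : V → ℝ) (i : ι) :
    (((bG a 1 Λ k (fun w => (h w : ℂ)) v i).re : ℝ) : ℂ) = bG a 1 Λ k (fun w => (h w : ℂ)) v i := by
  refine Complex.ext rfl ?_
  have h1 : (ZG a 1 Λ k fun w => (h w : ℂ)).im = 0 := bar_ZG_im ha 1 h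
  rw [bG, Complex.div_im, bar_NG_im ha, h1]
  simp

theorem bar_B_re (ha : Herm a) (h : V → ℝ) :
    (((∑ i, bG a 1 Λ k (fun w => (h w : ℂ)) v i).re : ℝ) : ℂ) =
      ∑ i, bG a 1 Λ k (fun w => (h w : ℂ)) v i := by
  rw [Complex.re_sum, Complex.ofReal_sum]
  exact sum_congr rfl fun i _ => bar_bG_re ha h i

theorem bar_ZG_upd {x : ℂ} {z : V → ℂ} (hv : v ∉ Λ) (κ : Option (Finset ι)) (ζ : ℂ) :
    ZG a x Λ (Function.update k v κ) (Function.update z v ζ) = ZG a x Λ k z :=
  ZG_congr (fun _ hw => Function.update_of_ne (ne_of_mem_of_not_mem hw hv) _ _)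
    (fun _ hw => Function.update_of_ne (ne_of_mem_of_not_mem hw hv) _ _)

theorem bar_NG_upd {x : ℂ} {z : V → ℂ} (hv : v ∉ Λ) (hu : u ∉ Λ) (κ : Option (Finset ι)) (ζ : ℂ)
    (i : ι) : NG a x Λ (Function.update k v κ) (Function.update z v ζ) u i = NG a x Λ k z u i :=
  NG_congr hu (fun _ hw => Function.update_of_ne (ne_of_mem_of_not_mem hw hv) _ _)
    (fun _ hw => Function.update_of_ne (ne_of_mem_of_not_mem hw hv) _ _) i

variable [Nonempty ι]

/-- closed upper half-plane version of `bG_im_le` -/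
theorem bar_im_le (ha : Herm a) {z : V → ℂ} (hu : u ∉ Λ) (hz : ∀ w ∈ Λ, 0 ≤ (z w).im)
    (hz0 : ∀ w ∈ Λ, z w ≠ 0) (h0 : ZG a 1 Λ k z ≠ 0) (i : ι) : (bG a 1 Λ k z u i).im ≤ 0 := by
  have hc : ∀ w ∈ Λ, ContinuousAt (fun ε : ℝ => z w + ε * Complex.I) 0 := fun w _ => by fun_prop
  have h0' : ∀ w ∈ Λ, z w + (0 : ℝ) * Complex.I ≠ 0 := fun w hw => by simpa using hz0 w hw
  have h1 : ContinuousAt (fun ε : ℝ => (bG a 1 Λ k (fun w => z w + ε * Complex.I) u i).im) 0 :=
    Complex.continuous_im.continuousAt.comp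
      ((NG_continuousAt hu continuousAt_const hc h0' i).div
        (ZG_continuousAt (a := fun _ => a) (fun _ _ _ _ => continuousAt_const) continuousAt_const
          hc h0') (by simpa using h0))
  have h2 := le_of_tendsto (b := 0) (h1.tendsto.mono_left (nhdsWithin_le_nhds (s := Set.Ioi 0)))
    (eventually_mem_nhdsWithin.mono fun ε (hε : 0 < ε) => by
      have h3 := bG_im_le (x := 1) (k := k) (z := fun w => z w + ε * Complex.I) ha hu 1
        (fun w hw => by have := hz w hw; simp; linarith) i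
      simpa using h3)
  simpa using h2

/-- a vertex in the open upper half-plane, the others real -/
theorem bar_ne_zero (ha : Herm a) (h : V → ℝ) (hh : ∀ w ∈ Λ, h w ≠ 0)
    (h0 : ZG a 1 Λ k (fun w => (h w : ℂ)) ≠ 0) (hv : v ∉ Λ) {ζ : ℂ} (hζ : 0 < ζ.im) :
    ZG a 1 (insert v Λ) (Function.update k v (some univ))
      (Function.update (fun w => (h w : ℂ)) v ζ) ≠ 0 := by
  have hne : ∀ ζ : ℂ, 0 < ζ.im → ζ ≠ 0 := fun ζ hζ h => by rw [h] at hζ; simp at hζ
  have hc : ∀ w ∈ Λ, ContinuousAt (fun ε : ℝ => (h w : ℂ) + ε * Complex.I) 0 :=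
    fun w _ => by fun_prop
  have h0' : ∀ w ∈ Λ, (h w : ℂ) + (0 : ℝ) * Complex.I ≠ 0 := fun w hw => by simpa using hh w hw
  have h1 : ContinuousAt (fun ε : ℝ =>
      ‖ZG a 1 Λ k (fun w => (h w : ℂ) + ε * Complex.I)‖ * ζ.im ^ Fintype.card ι) 0 :=
    (ZG_continuousAt (a := fun _ => a) (fun _ _ _ _ => continuousAt_const) continuousAt_const
      hc h0').norm.mul continuousAt_const
  have h2 : ContinuousAt (fun ε : ℝ => ‖ζ ^ Fintype.card ι * ZG a 1 (insert v Λ)
      (Function.update k v (some univ))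
      (Function.update (fun w => (h w : ℂ) + ε * Complex.I) v ζ)‖) 0 := by
    refine (continuousAt_const.mul (ZG_continuousAt (a := fun _ => a)
      (z := fun ε : ℝ => Function.update (fun w => (h w : ℂ) + ε * Complex.I) v ζ)
      (fun _ _ _ _ => continuousAt_const) continuousAt_const (fun w hw => ?_) fun w hw => ?_)).norm
    · rcases mem_insert.1 hw with rfl | hw
      · simp only [Function.update_self]; exact continuousAt_const
      · simp only [Function.update_of_ne (ne_of_mem_of_not_mem hw hv)]; exact hc w hw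
    · rcases mem_insert.1 hw with rfl | hw
      · rw [Function.update_self]; exact hne ζ hζ
      · rw [Function.update_of_ne (ne_of_mem_of_not_mem hw hv)]; exact h0' w hw
  have h3 := le_of_tendsto_of_tendsto
    (h1.tendsto.mono_left (nhdsWithin_le_nhds (s := Set.Ioi 0)))
    (h2.tendsto.mono_left (nhdsWithin_le_nhds (s := Set.Ioi 0)))
    (eventually_mem_nhdsWithin.mono fun ε (hε : 0 < ε) => by
      obtain ⟨q, hq1, hq2, -, hq4⟩ := ZG_multi (a := a) (x := 1) (k := k)
        (z := fun w => (h w : ℂ) + ε * Complex.I) hv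
      have h4 := norm_eval_ge q hq1 (fun ζ' hζ' => by
        rw [hq4 ζ' (hne ζ' hζ')]
        refine mul_ne_zero (pow_ne_zero _ (hne ζ' hζ')) (ZG_ne_zero ha 1 fun w hw => ?_)
        rcases mem_insert.1 hw with rfl | hw
        · simpa using hζ'
        · rw [Function.update_of_ne (ne_of_mem_of_not_mem hw hv)]
          simpa using hε) hζ
      rwa [hq2, hq4 ζ (hne ζ hζ)] at h4)
  simp only [Complex.ofReal_zero, zero_mul, add_zero] at h3
  intro h4
  rw [h4, mul_zero, norm_zero] at h3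
  exact absurd h3 (not_le.2 (mul_pos (norm_pos_iff.2 h0) (pow_pos hζ _)))

end Crest.Agent.R109
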