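import Crest.Agent.R109.CExp

/-!
# R109: from moment bounds to clamping
-/

set_option autoImplicit false
open Filter Topology
open scoped InnerProductSpace

namespace Crest.Agent.R109
open Crest.Agent.R121

universe u
variable {H : Type u} [NormedAddCommGroup H] [InnerProductSpace ℂ H] [CompleteSpace H]
variable {M : VonNeumannAlgebra H} {ξ : H}

private theorem clamp_re_smul (ξ : H) (r : ℝ) (a : Al M) :
    (ph ξ (r • a)).re = r * (ph ξ a).re := by
  rw [← Complex.coe_smul, map_smul, smul_eq_mul, Complex.re_ofReal_mul]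

private theorem clamp_norm_sq {z : Al M} (ξ : H) {f : ℝ → ℝ} (hf : Continuous f) :
    ‖ap (cfc f z) ξ‖ ^ 2 = (ph ξ (cfc (fun s => f s * f s) z)).re := by
  rw [std_norm_sq, IsSelfAdjoint.cfc.star_eq, ← cfc_mul f f z, ph_apply]

private theorem clamp_spec {z : Al M} {R s : ℝ} (hR : ‖z‖ ≤ R) (hs : s ∈ spectrum ℝ z) :
    |s| ≤ R := by
  rcases subsingleton_or_nontrivial (Al M) with h | h
  · simp at hs
  · exact (Real.norm_eq_abs s ▸ spectrum.norm_le_norm_of_mem hs).trans hR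

/-- `cfc g z - cfc f z = d* d` with `d = cfc (√(g - f)) z`; the spectrum lies in `[-R, R]`. -/
theorem ph_cfc_le {z : Al M} (hz : IsSelfAdjoint z) {R : ℝ} (hR : ‖z‖ ≤ R) {f g : ℝ → ℝ}
    (hf : Continuous f) (hg : Continuous g) (h : ∀ s, |s| ≤ R → f s ≤ g s) :
    (ph ξ (cfc f z)).re ≤ (ph ξ (cfc g z)).re := by
  have h1 : cfc g z = cfc f z + cfc (fun s => √(g s - f s) * √(g s - f s)) z := by
    rw [← cfc_add ..]
    refine cfc_congr fun s hs => ?_
    simp only [Real.mul_self_sqrt (sub_nonneg.2 (h s (clamp_spec hR hs)))]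
    ring
  rw [h1, map_add, Complex.add_re, ← clamp_norm_sq ξ (by fun_prop)]
  exact le_add_of_nonneg_right (sq_nonneg _)

/-- The clamp of a real number to `[-b, b]`. -/
private def clp (b s : ℝ) : ℝ := max (-b) (min s b)

private theorem clp_cont (b : ℝ) : Continuous (clp b) := by
  unfold clp
  fun_prop

private theorem clp_abs {b : ℝ} (hb : 0 ≤ b) (s : ℝ) : |clp b s| ≤ b :=
  abs_le.2 ⟨le_max_left _ _, max_le (by linarith) (min_le_right _ _)⟩

private theorem clamp_main {z : Al M} (hz : IsSelfAdjoint z) {R b : ℝ} (hR : ‖z‖ ≤ R) (hb : 0 ≤ b)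
    (ξ : H) {g : ℝ → ℝ} (hg : Continuous g)
    (h : ∀ s, |s| ≤ R → (s - clp b s) * (s - clp b s) ≤ g s) :
    ∃ y : Al M, IsSelfAdjoint y ∧ ‖y‖ ≤ b ∧ ‖ap (z - y) ξ‖ ^ 2 ≤ (ph ξ (cfc g z)).re := by
  have hc := clp_cont b
  refine ⟨cfc (clp b) z, IsSelfAdjoint.cfc,
    norm_cfc_le hb fun s _ => (Real.norm_eq_abs _).symm ▸ clp_abs hb s, ?_⟩
  have h1 : z - cfc (clp b) z = cfc (fun s => s - clp b s) z := by
    rw [cfc_sub (fun s => s) (clp b) z, cfc_id' ℝ z]
  rw [h1, clamp_norm_sq ξ (by fun_prop)]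
  exact ph_cfc_le hz hR (by fun_prop) hg h

private theorem clamp_pt {c s : ℝ} (hc : 0 < c) (hc1 : c ≤ 1) (k : ℕ) (hs : |s| ≤ 1) :
    max (s - 2 * c) 0 ^ 2 ≤ 1 / (c * (1 + 2 * c) ^ (2 * k)) *
      ((1 + s) ^ k * ((s - c) * (1 + s) ^ k) + 2 * (1 + c) ^ (2 * k)) := by
  obtain ⟨hs1, hs2⟩ := abs_le.1 hs
  have hK : 0 < c * (1 + 2 * c) ^ (2 * k) := by positivity
  have e : (1 + s) ^ k * ((s - c) * (1 + s) ^ k) = (s - c) * (1 + s) ^ (2 * k) := by ring
  have h0 : 0 ≤ (1 + s) ^ (2 * k) := pow_nonneg (by linarith) _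
  have h1 : 0 ≤ (1 + c) ^ (2 * k) := by positivity
  rw [e]
  rcases le_total s (2 * c) with h | h
  · rw [max_eq_right (by linarith), zero_pow two_ne_zero]
    refine mul_nonneg (by positivity) ?_
    rcases le_total s c with h' | h'
    · have h2 : (1 + s) ^ (2 * k) ≤ (1 + c) ^ (2 * k) :=
        pow_le_pow_left₀ (by linarith) (by linarith) _
      nlinarith
    · have := mul_nonneg (sub_nonneg.2 h') h0
      linarith
  · rw [max_eq_left (by linarith), one_div, ← div_eq_inv_mul, le_div_iff₀ hK]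
    have h2 : (1 + 2 * c) ^ (2 * k) ≤ (1 + s) ^ (2 * k) :=
      pow_le_pow_left₀ (by linarith) (by linarith) _
    have h3 : (s - 2 * c) ^ 2 ≤ 1 := by nlinarith
    have h4 : c * (1 + 2 * c) ^ (2 * k) ≤ (s - c) * (1 + s) ^ (2 * k) :=
      mul_le_mul (by linarith) h2 (by positivity) (by linarith)
    nlinarith

private theorem clamp_sq {b : ℝ} (hb : 0 ≤ b) (s : ℝ) :
    (s - clp b s) * (s - clp b s) = max (s - b) 0 ^ 2 + max (-s - b) 0 ^ 2 := by
  unfold clp
  rcases le_total s b with h | h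
  · rcases le_total (-b) s with h' | h'
    · rw [min_eq_left h, max_eq_right h', max_eq_right (by linarith), max_eq_right (by linarith)]
      ring
    · rw [min_eq_left h, max_eq_left h', max_eq_right (by linarith), max_eq_left (by linarith)]
      ring
  · rw [min_eq_right h, max_eq_right (by linarith), max_eq_left (by linarith),
      max_eq_right (by linarith)]
    ring

private theorem clamp_cfc_poly {z : Al M} (hz : IsSelfAdjoint z) (c : ℝ) (k : ℕ) :
    cfc (fun s : ℝ => (1 + s) ^ k * ((s - c) * (1 + s) ^ k)) z =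
      (1 + z) ^ k * ((z - (c : ℂ) • 1) * (1 + z) ^ k) := by
  have h1 : cfc (fun s : ℝ => (1 + s) ^ k) z = (1 + z) ^ k := by
    rw [cfc_pow (fun s : ℝ => 1 + s) k z, cfc_const_add 1 (fun s : ℝ => s) z, cfc_id' ℝ z, map_one]
  have h2 : cfc (fun s : ℝ => s - c) z = z - (c : ℂ) • 1 := by
    rw [cfc_sub (fun s : ℝ => s) (fun _ => c) z, cfc_id' ℝ z, cfc_const c z,
      Algebra.algebraMap_eq_smul_one, Complex.coe_smul]
  rw [cfc_mul (fun s : ℝ => (1 + s) ^ k) (fun s : ℝ => (s - c) * (1 + s) ^ k) z,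
    cfc_mul (fun s : ℝ => s - c) (fun s : ℝ => (1 + s) ^ k) z, h1, h2]

/-- On `[-1, 1]`: `((s - 2c)⁺)² ≤ K ((1+s)^(2k) (s - c) + 2 (1+c)^(2k))` with
`K = 1 / (c (1+2c)^(2k))` (for `s ≤ c` the bracket is `≥ 0`, for `s > 2c` it is
`≥ c (1+2c)^(2k)`). With `y = cfc (fun s => max (-2c) (min s (2c))) z`,
`(s - y s)² = ((s - 2c)⁺)² + ((-s - 2c)⁺)²`; use the inequality at `s` and `-s`. -/
theorem exists_clamp_one {c e : ℝ} (hc : 0 < c) (hc1 : c ≤ 1) (he : 0 < e) : ∃ k₀ : ℕ, ∀ k ≥ k₀,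
    ∀ (ξ : H) (z : Al M), ‖ξ‖ = 1 → IsSelfAdjoint z → ‖z‖ ≤ 1 →
      (ph ξ ((1 + z) ^ k * ((z - (c : ℂ) • 1) * (1 + z) ^ k))).re ≤ 1 →
      (ph ξ ((1 + -z) ^ k * ((-z - (c : ℂ) • 1) * (1 + -z) ^ k))).re ≤ 1 →
      ∃ y : Al M, IsSelfAdjoint y ∧ ‖y‖ ≤ 2 * c ∧ ‖ap (z - y) ξ‖ ≤ e := by
  have hq0 : 0 ≤ (1 + c) / (1 + 2 * c) := by positivity
  have hq1 : (1 + c) / (1 + 2 * c) < 1 := (div_lt_one (by positivity)).2 (by linarith)
  obtain ⟨k₀, hk₀⟩ := exists_pow_lt_of_lt_one (x := c * e ^ 2 / 6) (by positivity) hq1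
  refine ⟨k₀, fun k hk ξ z hξ hz hz1 h1 h2 => ?_⟩
  set K : ℝ := 1 / (c * (1 + 2 * c) ^ (2 * k)) with hK
  have hK0 : 0 ≤ K := by positivity
  set F : ℝ → ℝ := fun s => (1 + s) ^ k * ((s - c) * (1 + s) ^ k) with hF
  have hFc : Continuous F := by rw [hF]; fun_prop
  obtain ⟨y, hy1, hy2, hy3⟩ := clamp_main hz hz1 (b := 2 * c) (by positivity) ξ
    (g := fun s => K * (4 * (1 + c) ^ (2 * k) + (F s + F (-s)))) (by fun_prop) (fun s hs => by
      rw [clamp_sq (by positivity)]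
      have a1 := clamp_pt hc hc1 k hs
      have a2 := clamp_pt hc hc1 k (s := -s) (by rwa [abs_neg])
      simp only [hF]
      rw [← hK] at a1 a2
      linarith)
  refine ⟨y, hy1, hy2, (abs_le_of_sq_le_sq' (hy3.trans ?_) he.le).2⟩
  have e1 : cfc (fun s => K * (4 * (1 + c) ^ (2 * k) + (F s + F (-s)))) z =
      K • (algebraMap ℝ (Al M) (4 * (1 + c) ^ (2 * k)) +
        ((1 + z) ^ k * ((z - (c : ℂ) • 1) * (1 + z) ^ k) +
          (1 + -z) ^ k * ((-z - (c : ℂ) • 1) * (1 + -z) ^ k))) := by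
    have c1 : Continuous fun s => F (-s) := hFc.comp continuous_neg
    have c2 : Continuous fun s => F s + F (-s) := hFc.add c1
    rw [cfc_const_mul K (fun s => 4 * (1 + c) ^ (2 * k) + (F s + F (-s))) z
        (continuous_const.add c2).continuousOn,
      cfc_const_add (4 * (1 + c) ^ (2 * k)) (fun s => F s + F (-s)) z c2.continuousOn hz,
      cfc_add z F (fun s => F (-s)) hFc.continuousOn c1.continuousOn,
      cfc_comp_neg F z hFc.continuousOn hz, clamp_cfc_poly hz, clamp_cfc_poly hz.neg]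
  rw [e1, clamp_re_smul, map_add, map_add, Complex.add_re, Complex.add_re,
    ph_apply ξ (algebraMap _ _ _), std_re_algebraMap, hξ]
  have h3 : (1 : ℝ) ≤ (1 + c) ^ (2 * k) := one_le_pow₀ (by linarith)
  have h4 : ((1 + c) / (1 + 2 * c)) ^ (2 * k) ≤ c * e ^ 2 / 6 :=
    (pow_le_pow_of_le_one hq0 hq1.le (by omega)).trans hk₀.le
  have h5 : K * (6 * (1 + c) ^ (2 * k)) = 6 / c * ((1 + c) / (1 + 2 * c)) ^ (2 * k) := by
    rw [hK, div_pow]
    field_simp
  calc _ ≤ K * (6 * (1 + c) ^ (2 * k)) := mul_le_mul_of_nonneg_left (by linarith) hK0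
    _ ≤ 6 / c * (c * e ^ 2 / 6) := by
      rw [h5]; exact mul_le_mul_of_nonneg_left h4 (by positivity)
    _ = e ^ 2 := by field_simp

/-- `(s - clamp s)² ≤ R² (s / b)^(2k)` on `[-R, R]`. -/
theorem exists_clamp_two {z : Al M} (hz : IsSelfAdjoint z) {R b : ℝ} (hR : ‖z‖ ≤ R) (hb : 0 < b)
    (k : ℕ) (ξ : H) : ∃ y : Al M, IsSelfAdjoint y ∧ ‖y‖ ≤ b ∧
      ‖ap (z - y) ξ‖ ^ 2 ≤ R ^ 2 / b ^ (2 * k) * ‖ap (z ^ k) ξ‖ ^ 2 := by
  obtain ⟨y, hy1, hy2, hy3⟩ := clamp_main hz hR hb.le ξ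
    (g := fun s => R ^ 2 / b ^ (2 * k) * (s ^ k * s ^ k)) (by fun_prop) (fun s hs => by
      have e : s ^ k * s ^ k = |s| ^ (2 * k) := by
        rw [pow_mul, sq_abs, ← pow_mul, two_mul, pow_add]
      rw [e]
      rcases le_total |s| b with h | h
      · obtain ⟨h1, h2⟩ := abs_le.1 h
        rw [clp, min_eq_left h2, max_eq_right h1, sub_self, mul_zero]
        positivity
      · have h1 : (s - clp b s) * (s - clp b s) ≤ R ^ 2 := by
          rw [clamp_sq hb.le]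
          obtain ⟨h1, h2⟩ := abs_le.1 hs
          rcases le_total 0 s with h' | h'
          · rw [abs_of_nonneg h'] at h
            rw [max_eq_left (by linarith), max_eq_right (by linarith)]
            nlinarith
          · rw [abs_of_nonpos h'] at h
            rw [max_eq_right (by linarith), max_eq_left (by linarith)]
            nlinarith
        refine h1.trans ?_
        rw [div_mul_eq_mul_div, le_div_iff₀ (by positivity)]
        exact mul_le_mul_of_nonneg_left (pow_le_pow_left₀ hb.le h _) (sq_nonneg _))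
  refine ⟨y, hy1, hy2, hy3.trans (le_of_eq ?_)⟩
  rw [cfc_const_mul (R ^ 2 / b ^ (2 * k)) (fun s : ℝ => s ^ k * s ^ k) z, clamp_re_smul,
    ← clamp_norm_sq ξ (f := fun s : ℝ => s ^ k) (by fun_prop), cfc_pow_id z k]

end Crest.Agent.R109
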