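import Crest.Agent.R109.Std

/-!
# R109: helper lemmas for `RvD` (real projections, Sakai's lemma, Rieffel-van Daele core)
-/

set_option autoImplicit false
open Filter Topology
open scoped InnerProductSpace

namespace Crest.Agent.R109
open Crest.Agent.R121

universe u

section Gen
variable {H : Type u} [NormedAddCommGroup H] [InnerProductSpace ℂ H] [CompleteSpace H]

/-- Projection on a closed convex set. -/
theorem rvd_proj_convex {V : Set H} (hne : V.Nonempty) (hcl : IsClosed V)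
    (hcv : ∀ x ∈ V, ∀ y ∈ V, ∀ a b : ℝ, 0 ≤ a → 0 ≤ b → a + b = 1 → (a : ℂ) • x + (b : ℂ) • y ∈ V)
    (u : H) : ∃ v ∈ V, ∀ w ∈ V, (⟪u - v, w - v⟫_ℂ).re ≤ 0 := by
  let _ : InnerProductSpace ℝ H := InnerProductSpace.complexToReal
  have hc : Convex ℝ V := fun x hx y hy a b ha hb hab => hcv x hx y hy a b ha hb hab
  obtain ⟨v, hv, h⟩ := exists_norm_eq_iInf_of_complete_convex hne hcl.isComplete hc u
  exact ⟨v, hv, (norm_eq_iInf_iff_real_inner_le_zero hc hv).1 h⟩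

/-- A real subspace. -/
structure RSub (L : Set H) : Prop where
  zero : (0 : H) ∈ L
  add : ∀ x ∈ L, ∀ y ∈ L, x + y ∈ L
  smul : ∀ r : ℝ, ∀ x ∈ L, (r : ℂ) • x ∈ L

omit [CompleteSpace H] in
theorem RSub.sub {L : Set H} (h : RSub L) {x y : H} (hx : x ∈ L) (hy : y ∈ L) : x - y ∈ L := by
  have := h.add x hx _ (h.smul (-1) y hy)
  simpa [sub_eq_add_neg] using this

omit [CompleteSpace H] in
theorem RSub.closure {L : Set H} (h : RSub L) : RSub (closure L) where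
  zero := subset_closure h.zero
  add := fun _ hx _ hy => map_mem_closure₂ continuous_add hx hy h.add
  smul := fun r _ hx => map_mem_closure (continuous_const_smul (r : ℂ)) hx (h.smul r)

omit [CompleteSpace H] in
theorem rvd_re_closure {L : Set H} {v : H} (h : ∀ w ∈ L, (⟪v, w⟫_ℂ).re = 0) :
    ∀ w ∈ closure L, (⟪v, w⟫_ℂ).re = 0 := fun _ hw =>
  closure_minimal (t := {w | (⟪v, w⟫_ℂ).re = 0}) h (isClosed_eq (by fun_prop) continuous_const) hw

omit [CompleteSpace H] in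
theorem rvd_re_symm (v w : H) : (⟪v, w⟫_ℂ).re = (⟪w, v⟫_ℂ).re := by
  rw [← inner_conj_symm, Complex.conj_re]

omit [CompleteSpace H] in
theorem rvd_re_self (v : H) : (⟪v, v⟫_ℂ).re = ‖v‖ ^ 2 := inner_self_eq_norm_sq (𝕜 := ℂ) v

omit [CompleteSpace H] in
theorem rvd_eq_zero {v : H} (h : (⟪v, v⟫_ℂ).re ≤ 0) : v = 0 := by
  rw [rvd_re_self] at h
  exact norm_eq_zero.1 (pow_eq_zero_iff two_ne_zero |>.1 (le_antisymm h (sq_nonneg _)))

omit [CompleteSpace H] in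
theorem rvd_abs_re_le (v w : H) : |(⟪v, w⟫_ℂ).re| ≤ ‖v‖ * ‖w‖ :=
  (Complex.abs_re_le_norm _).trans (norm_inner_le_norm _ _)

/-- Real orthogonal projection. -/
theorem RSub.exists_proj {L : Set H} (h : RSub L) (u : H) :
    ∃ v ∈ _root_.closure L, ∀ w ∈ _root_.closure L, (⟪u - v, w⟫_ℂ).re = 0 := by
  have h' := h.closure
  obtain ⟨v, hv, h1⟩ := rvd_proj_convex ⟨0, h'.zero⟩ isClosed_closure
    (fun x hx y hy a b _ _ _ => h'.add _ (h'.smul a x hx) _ (h'.smul b y hy)) u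
  refine ⟨v, hv, fun w hw => le_antisymm ?_ ?_⟩
  · simpa using h1 (v + w) (h'.add v hv w hw)
  · have := h1 (v - w) (h'.sub hv hw)
    rw [sub_sub_cancel_left, inner_neg_right, Complex.neg_re] at this
    linarith

/-- Double real orthogonal complement. -/
theorem RSub.mem_closure {L : Set H} (h : RSub L) {d : H}
    (hd : ∀ n, (∀ w ∈ L, (⟪n, w⟫_ℂ).re = 0) → (⟪d, n⟫_ℂ).re ≤ 0) : d ∈ _root_.closure L := by
  obtain ⟨v, hv, h1⟩ := h.exists_proj d
  have h2 := hd (d - v) fun w hw => h1 w (subset_closure hw)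
  have h3 : d - v = 0 := by
    refine rvd_eq_zero ?_
    rw [inner_sub_left, Complex.sub_re, rvd_re_symm v, h1 v hv]
    linarith
  rw [sub_eq_zero.1 h3]
  exact hv

end Gen

variable {H : Type u} [NormedAddCommGroup H] [InnerProductSpace ℂ H] [CompleteSpace H]
variable {M : VonNeumannAlgebra H} {ξ : H}

/-- `M_sa ξ`. -/
def saS (M : VonNeumannAlgebra H) (ξ : H) : Set H :=
  {v | ∃ k : Al M, IsSelfAdjoint k ∧ ap k ξ = v}

theorem rvd_sa_smul (r : ℝ) {k : Al M} (hk : IsSelfAdjoint k) : IsSelfAdjoint ((r : ℂ) • k) := by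
  rw [IsSelfAdjoint, star_smul, hk.star_eq, Complex.star_def, Complex.conj_ofReal]

theorem rsub_saS (M : VonNeumannAlgebra H) (ξ : H) : RSub (saS M ξ) where
  zero := ⟨0, IsSelfAdjoint.zero _, rfl⟩
  add := by
    rintro _ ⟨k, hk, rfl⟩ _ ⟨k', hk', rfl⟩
    exact ⟨k + k', hk.add hk', rfl⟩
  smul := by
    rintro r _ ⟨k, hk, rfl⟩
    exact ⟨(r : ℂ) • k, rvd_sa_smul r hk, rfl⟩

theorem rvd_parts (m : Al M) :
    ∃ a b : Al M, IsSelfAdjoint a ∧ IsSelfAdjoint b ∧ m = a + Complex.I • b :=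
  ⟨realPart m, imaginaryPart m, (realPart m).2, (imaginaryPart m).2,
    (realPart_add_I_smul_imaginaryPart m).symm⟩

theorem rvd_comm (m : Al M) {t : H →L[ℂ] H} (ht : t ∈ M.commutant) (v : H) :
    t (ap m v) = ap m (t v) := congrArg (fun S : H →L[ℂ] H => S v) (comm_of_mem m ht)

theorem rvd_sa_inner {k : Al M} (hk : IsSelfAdjoint k) (v w : H) :
    ⟪ap k v, w⟫_ℂ = ⟪v, ap k w⟫_ℂ := by rw [inner_ap_left, hk.star_eq]

theorem rvd_im_saS {v w : H} (hv : v ∈ closure (saS M ξ))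
    (hw : w ∈ closure (saS M.commutant ξ)) : (⟪v, w⟫_ℂ).im = 0 := by
  have h1 : ∀ v ∈ saS M ξ, ∀ w ∈ saS M.commutant ξ, (⟪v, w⟫_ℂ).im = 0 := by
    rintro _ ⟨k, hk, rfl⟩ _ ⟨s, hs, rfl⟩
    rw [← Complex.conj_eq_iff_im, inner_conj_symm, rvd_sa_inner hs, rvd_sa_inner hk]
    exact congrArg _ (rvd_comm k s.2 ξ)
  have h2 : ∀ v ∈ saS M ξ, (⟪v, w⟫_ℂ).im = 0 := fun v hv =>
    closure_minimal (t := {w | (⟪v, w⟫_ℂ).im = 0}) (h1 v hv)
      (isClosed_eq (by fun_prop) continuous_const) hw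
  exact closure_minimal (t := {v | (⟪v, w⟫_ℂ).im = 0}) h2
    (isClosed_eq (by fun_prop) continuous_const) hv

/-- A vector orthogonal to `M_sa ξ` is orthogonal to `M ξ`. -/
theorem rvd_zero_of_cyc (hc : Dense (Set.range fun m : Al M => ap m ξ)) {d : H}
    (h : ∀ k : Al M, IsSelfAdjoint k → ⟪d, ap k ξ⟫_ℂ = 0) : d = 0 := by
  have h1 : ∀ w ∈ Set.range fun m : Al M => ap m ξ, (⟪d, w⟫_ℂ).re = 0 := by
    rintro _ ⟨m, rfl⟩
    obtain ⟨a, b, ha, hb, rfl⟩ := rvd_parts m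
    beta_reduce
    rw [ap_add, ap_smul, inner_add_right, inner_smul_right, h a ha, h b hb]
    simp
  exact rvd_eq_zero (rvd_re_closure h1 d (hc d)).le

/-- A separating vector is cyclic for the commutant. -/
theorem rvd_cyc_comm (hsep : ∀ m : Al M, ap m ξ = 0 → m = 0) :
    Dense (Set.range fun s : Al M.commutant => ap s ξ) := by
  intro ζ
  let L : Submodule ℂ H :=
    { carrier := Set.range fun s : Al M.commutant => ap s ξ
      add_mem' := by
        rintro _ _ ⟨s, rfl⟩ ⟨t, rfl⟩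
        exact ⟨s + t, rfl⟩
      zero_mem' := ⟨0, rfl⟩
      smul_mem' := by
        rintro c _ ⟨t, rfl⟩
        exact ⟨c • t, rfl⟩ }
  let K : Submodule ℂ H := L.topologicalClosure
  have hp : IsStarProjection K.starProjection := isStarProjection_starProjection
  have hM : K.starProjection ∈ M := by
    rw [VonNeumannAlgebra.IsStarProjection.mem_iff hp]
    intro t ht
    rw [Submodule.range_starProjection, Module.End.mem_invtSubmodule]
    refine Submodule.topologicalClosure_minimal _ ?_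
      ((Submodule.isClosed_topologicalClosure L).preimage t.continuous)
    rintro _ ⟨s, rfl⟩
    exact Submodule.le_topologicalClosure L ⟨⟨t, ht⟩ * s, rfl⟩
  have h1 : (1 : Al M) - ⟨K.starProjection, hM⟩ = 0 := by
    refine hsep _ ?_
    rw [ap_sub, ap_one, sub_eq_zero]
    exact (Submodule.starProjection_eq_self_iff.2
      (Submodule.le_topologicalClosure L ⟨1, rfl⟩)).symm
  have h3 := congrArg (fun m : Al M => ap m ζ) (sub_eq_zero.1 h1)
  have h4 : K.starProjection ζ ∈ K := K.starProjection_apply_mem ζ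
  change ζ = K.starProjection ζ at h3
  rw [← h3] at h4
  exact h4

/-! ### Sakai's lemma -/

theorem sak_sq (k : Al M) {h : ℝ → ℝ} (hc : Continuous h) (h0 : ∀ x, 0 ≤ h x) :
    ∃ a : Al M, IsSelfAdjoint a ∧ cfc h k = a * a := by
  refine ⟨cfc (fun x => √(h x)) k, IsSelfAdjoint.cfc, ?_⟩
  rw [← cfc_mul ..]
  exact cfc_congr fun x _ => (Real.mul_self_sqrt (h0 x)).symm

theorem sak_aux1 {ε : ℝ} (hε : 0 < ε) (x : ℝ) :
    0 ≤ x * (x / (|x| + ε)) - max x 0 - max (-x) 0 + ε := by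
  have h1 : 0 < |x| + ε := by positivity
  have h2 : max x 0 + max (-x) 0 = |x| := max_zero_add_max_neg_zero_eq_abs_self x
  have h3 : x * (x / (|x| + ε)) - |x| + ε = ε ^ 2 / (|x| + ε) := by
    have : x * x = |x| * |x| := (abs_mul_abs_self x).symm
    field_simp
    nlinarith
  have h4 : 0 ≤ ε ^ 2 / (|x| + ε) := by positivity
  linarith

/-- An almost norming element. -/
theorem sak_norming {k₀ : Al M} (hk₀ : IsSelfAdjoint k₀) {ε : ℝ} (hε : 0 < ε) :
    ∃ f a b : Al M, IsSelfAdjoint f ∧ ‖f‖ ≤ 1 ∧ IsSelfAdjoint a ∧ IsSelfAdjoint b ∧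
      k₀ = a * a - b * b ∧ (⟪ap k₀ ξ, ap f ξ⟫_ℂ).im = 0 ∧
      ‖ap a ξ‖ ^ 2 + ‖ap b ξ‖ ^ 2 - ε * ‖ξ‖ ^ 2 ≤ (⟪ap k₀ ξ, ap f ξ⟫_ℂ).re := by
  have hcf : Continuous fun x : ℝ => x / (|x| + ε) :=
    continuous_id.div (by fun_prop) fun x => by positivity
  obtain ⟨a, ha, ha'⟩ := sak_sq k₀ (h := fun x => max x 0) (by fun_prop) fun x => le_max_right _ _
  obtain ⟨b, hb, hb'⟩ := sak_sq k₀ (h := fun x => max (-x) 0) (by fun_prop)
    fun x => le_max_right _ _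
  obtain ⟨g, hg, hg'⟩ := sak_sq k₀
    (h := fun x => x * (x / (|x| + ε)) - max x 0 - max (-x) 0 + ε) (by fun_prop) (sak_aux1 hε)
  set f := cfc (fun x : ℝ => x / (|x| + ε)) k₀ with hf
  have h1 : k₀ * f = cfc (fun x : ℝ => x * (x / (|x| + ε))) k₀ := by
    rw [cfc_mul (fun x : ℝ => x) _ k₀ (by fun_prop) hcf.continuousOn, cfc_id' ℝ k₀]
  have h2 : k₀ * f + algebraMap ℝ (Al M) ε = a * a + b * b + g * g := by
    rw [h1, ← ha', ← hb', ← hg', ← cfc_add .., ← cfc_add .., add_comm, ← cfc_const_add ..]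
    refine cfc_congr fun x _ => ?_
    ring
  have h3 : ∀ c : Al M, IsSelfAdjoint c → ⟪ξ, ap (c * c) ξ⟫_ℂ = ((‖ap c ξ‖ ^ 2 : ℝ) : ℂ) :=
    fun c hc => by
      rw [ap_mul, ← rvd_sa_inner hc, inner_self_eq_norm_sq_to_K]
      norm_cast
  have h4 : ⟪ap k₀ ξ, ap f ξ⟫_ℂ =
      ((‖ap a ξ‖ ^ 2 + ‖ap b ξ‖ ^ 2 + ‖ap g ξ‖ ^ 2 - ε * ‖ξ‖ ^ 2 : ℝ) : ℂ) := by
    rw [rvd_sa_inner hk₀, ← ap_mul, eq_sub_of_add_eq h2, ap_sub, ap_add, ap_add, inner_sub_right,
      inner_add_right, inner_add_right, h3 a ha, h3 b hb, h3 g hg,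
      Algebra.algebraMap_eq_smul_one, ← Complex.coe_smul, ap_smul, ap_one, inner_smul_right,
      inner_self_eq_norm_sq_to_K]
    push_cast
    rfl
  refine ⟨f, a, b, IsSelfAdjoint.cfc, norm_cfc_le zero_le_one fun x _ => ?_, ha, hb, ?_, ?_, ?_⟩
  · rw [Real.norm_eq_abs, abs_div, abs_of_pos (by positivity : 0 < |x| + ε),
      div_le_one (by positivity)]
    linarith
  · rw [← ha', ← hb', ← cfc_sub ..]
    nth_rewrite 1 [← cfc_id' ℝ k₀]
    exact cfc_congr fun x _ => (max_zero_sub_max_neg_zero_eq_self x).symm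
  · rw [h4, Complex.ofReal_im]
  · rw [h4, Complex.ofReal_re]
    nlinarith [sq_nonneg ‖ap g ξ‖]

theorem sak_bound {t : H →L[ℂ] H} (ht : t ∈ M.commutant) {a b : Al M} (ha : IsSelfAdjoint a)
    (hb : IsSelfAdjoint b) :
    (⟪ap (a * a - b * b) ξ, t ξ⟫_ℂ).re ≤ ‖t‖ * (‖ap a ξ‖ ^ 2 + ‖ap b ξ‖ ^ 2) := by
  have h : ∀ c : Al M, IsSelfAdjoint c → |(⟪ap (c * c) ξ, t ξ⟫_ℂ).re| ≤ ‖t‖ * ‖ap c ξ‖ ^ 2 :=
    fun c hc => by
      rw [ap_mul, rvd_sa_inner hc, ← rvd_comm c ht]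
      refine (rvd_abs_re_le _ _).trans ?_
      rw [sq, mul_left_comm]
      exact mul_le_mul_of_nonneg_left (t.le_opNorm _) (norm_nonneg _)
  rw [ap_sub, inner_sub_left, Complex.sub_re]
  have h1 := abs_le.1 (h a ha)
  have h2 := abs_le.1 (h b hb)
  linarith [h1.2, h2.1]

theorem sak_closed (l : ℂ) (C : ℝ) : IsClosed {w : H | ∃ k : Al M, IsSelfAdjoint k ∧ ‖k‖ ≤ C ∧
    ∀ k' : Al M, IsSelfAdjoint k' → (⟪l • ap k ξ - w, ap k' ξ⟫_ℂ).re = 0} := by
  refine isClosed_of_closure_subset fun w hw => ?_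
  obtain ⟨u, hu, hlim⟩ := mem_closure_iff_seq_limit.1 hw
  choose k hk hkC hk' using hu
  obtain ⟨y, hy⟩ := exists_WL (hyperfilter ℕ) k C (Eventually.of_forall hkC)
  have hle : ((hyperfilter ℕ : Ultrafilter ℕ) : Filter ℕ) ≤ atTop := by
    rw [← Nat.cofinite_eq_atTop]; exact hyperfilter_le_cofinite
  refine ⟨y, hy.star.unique (hy.congr fun i => (hk i).star_eq.symm),
    hy.norm_le (Eventually.of_forall hkC), fun k' hs => ?_⟩
  have h1 : Tendsto (fun i => (l * ⟪ap k' ξ, ap (k i) ξ⟫_ℂ - ⟪ap k' ξ, u i⟫_ℂ).re)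
      (hyperfilter ℕ : Ultrafilter ℕ) (𝓝 (l * ⟪ap k' ξ, ap y ξ⟫_ℂ - ⟪ap k' ξ, w⟫_ℂ).re) :=
    (Complex.continuous_re.tendsto _).comp (((hy ξ (ap k' ξ)).const_mul l).sub
      ((tendsto_const_nhds.inner hlim).mono_left hle))
  rw [rvd_re_symm, inner_sub_right, inner_smul_right]
  refine tendsto_nhds_unique h1 (tendsto_const_nhds.congr fun i => ?_)
  rw [← inner_smul_right, ← inner_sub_right, rvd_re_symm, hk' i k' hs]

theorem sak_arith {T A X D ε c₁ c₂ p q p' q' : ℝ} (h1 : T * (A - ε * X) ≤ p)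
    (h2 : q ≤ T * A) (h3 : p' ≤ q' - D) (h4 : p ≤ p' + ε * c₁) (h5 : q' ≤ q + ε * c₂) :
    D ≤ ε * (T * X + c₁ + c₂) := by nlinarith

theorem sakai_aux (M : VonNeumannAlgebra H) (ξ : H) {l : ℂ} (hl : 0 < l.re) {t : H →L[ℂ] H}
    (ht : t ∈ M.commutant) :
    ∃ k : Al M, IsSelfAdjoint k ∧ ∀ k' : Al M, IsSelfAdjoint k' →
      (⟪l • ap k ξ - t ξ, ap k' ξ⟫_ℂ).re = 0 := by
  set C : ℝ := ‖t‖ / l.re with hC
  have hC0 : 0 ≤ C := by positivity
  have hCl : C * l.re = ‖t‖ := div_mul_cancel₀ _ hl.ne'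
  obtain ⟨v, ⟨k, hk, hkC, hk'⟩, hv⟩ := rvd_proj_convex
    (V := {w : H | ∃ k : Al M, IsSelfAdjoint k ∧ ‖k‖ ≤ C ∧
      ∀ k' : Al M, IsSelfAdjoint k' → (⟪l • ap k ξ - w, ap k' ξ⟫_ℂ).re = 0})
    ⟨0, 0, IsSelfAdjoint.zero _, by rw [norm_zero]; exact hC0, fun k' _ => by simp⟩
    (sak_closed (M := M) (ξ := ξ) l C) (by
      rintro x ⟨k₁, h₁, h₁C, h₁'⟩ y ⟨k₂, h₂, h₂C, h₂'⟩ a b ha hb hab
      refine ⟨(a : ℂ) • k₁ + (b : ℂ) • k₂, (rvd_sa_smul a h₁).add (rvd_sa_smul b h₂), ?_,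
        fun k' hs => ?_⟩
      · refine (norm_add_le _ _).trans ?_
        rw [norm_smul, norm_smul, Complex.norm_real, Complex.norm_real, Real.norm_of_nonneg ha,
          Real.norm_of_nonneg hb]
        calc _ ≤ a * C + b * C := add_le_add (mul_le_mul_of_nonneg_left h₁C ha)
              (mul_le_mul_of_nonneg_left h₂C hb)
          _ = C := by rw [← add_mul, hab, one_mul]
      · have e : l • ap ((a : ℂ) • k₁ + (b : ℂ) • k₂) ξ - ((a : ℂ) • x + (b : ℂ) • y) =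
            (a : ℂ) • (l • ap k₁ ξ - x) + (b : ℂ) • (l • ap k₂ ξ - y) := by
          rw [ap_add, ap_smul, ap_smul]
          module
        rw [e, inner_add_left, inner_smul_left, inner_smul_left, Complex.conj_ofReal,
          Complex.conj_ofReal, Complex.add_re, Complex.re_ofReal_mul, Complex.re_ofReal_mul,
          h₁' k' hs, h₂' k' hs]
        simp) (t ξ)
  set d := t ξ - v with hd
  have hdK : d ∈ closure (saS M ξ) := by
    refine (rsub_saS M ξ).mem_closure fun n hn => ?_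
    have := hv (v + n) ⟨k, hk, hkC, fun k' hs => by
      rw [← sub_sub, inner_sub_left, Complex.sub_re, hk' k' hs, hn _ ⟨k', hs, rfl⟩, sub_zero]⟩
    simpa using this
  have hd0 : d = 0 := by
    have key : ∀ ε > 0, ‖d‖ ^ 2 ≤ ε * (‖t‖ * ‖ξ‖ ^ 2 + ‖l‖ * (C * ‖ξ‖) + ‖t ξ‖) := by
      intro ε hε
      obtain ⟨_, ⟨k₀, hk₀, rfl⟩, hε'⟩ := Metric.mem_closure_iff.1 hdK ε hε
      rw [dist_eq_norm] at hε'
      obtain ⟨f, a, b, hf, hf1, ha, hb, hab, him, hre⟩ := sak_norming (ξ := ξ) hk₀ hε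
      have hfC : ‖(C : ℂ) • f‖ ≤ C := by
        rw [norm_smul, Complex.norm_real, Real.norm_of_nonneg hC0]
        exact mul_le_of_le_one_right hC0 hf1
      have h3 := hv (l • ap ((C : ℂ) • f) ξ) ⟨(C : ℂ) • f, rvd_sa_smul C hf, hfC,
        fun k' _ => by simp⟩
      have hn : ‖l • ap ((C : ℂ) • f) ξ‖ ≤ ‖l‖ * (C * ‖ξ‖) := by
        rw [norm_smul]
        exact mul_le_mul_of_nonneg_left ((norm_ap_le _ _).trans
          (mul_le_mul_of_nonneg_right hfC (norm_nonneg _))) (norm_nonneg _)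
      refine sak_arith (A := ‖ap a ξ‖ ^ 2 + ‖ap b ξ‖ ^ 2)
        (p := (⟪ap k₀ ξ, l • ap ((C : ℂ) • f) ξ⟫_ℂ).re) (q := (⟪ap k₀ ξ, t ξ⟫_ℂ).re)
        (p' := (⟪d, l • ap ((C : ℂ) • f) ξ⟫_ℂ).re) (q' := (⟪d, t ξ⟫_ℂ).re)
        ?_ ?_ ?_ ?_ ?_
      · rw [ap_smul, inner_smul_right, inner_smul_right, Complex.mul_re, Complex.re_ofReal_mul,
          Complex.im_ofReal_mul, him, mul_zero, mul_zero, sub_zero, ← mul_assoc, mul_comm l.re,
          hCl]
        exact mul_le_mul_of_nonneg_left hre (norm_nonneg _)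
      · rw [hab]
        exact sak_bound ht ha hb
      · have e : v = t ξ - d := by rw [hd, sub_sub_cancel]
        rw [inner_sub_right, Complex.sub_re] at h3
        have h4 : (⟪d, v⟫_ℂ).re = (⟪d, t ξ⟫_ℂ).re - ‖d‖ ^ 2 := by
          nth_rewrite 1 [e]
          rw [inner_sub_right, Complex.sub_re, rvd_re_self]
        linarith
      · have h4 := (abs_le.1 ((rvd_abs_re_le (d - ap k₀ ξ) (l • ap ((C : ℂ) • f) ξ)).trans
          (mul_le_mul hε'.le hn (norm_nonneg _) hε.le))).1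
        rw [inner_sub_left, Complex.sub_re] at h4
        linarith
      · have h4 := (abs_le.1 ((rvd_abs_re_le (d - ap k₀ ξ) (t ξ)).trans
          (mul_le_mul_of_nonneg_right hε'.le (norm_nonneg _)))).2
        rw [inner_sub_left, Complex.sub_re] at h4
        linarith
    refine rvd_eq_zero ?_
    rw [rvd_re_self]
    set c := ‖t‖ * ‖ξ‖ ^ 2 + ‖l‖ * (C * ‖ξ‖) + ‖t ξ‖ with hc
    have hc0 : 0 ≤ c := by positivity
    refine le_of_forall_pos_le_add fun ε hε => ?_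
    refine (key (ε / (c + 1)) (by positivity)).trans ?_
    rw [zero_add, div_mul_eq_mul_div, div_le_iff₀ (by positivity)]
    nlinarith
  refine ⟨k, hk, fun k' hs => ?_⟩
  rw [sub_eq_zero.1 hd0]
  exact hk' k' hs

/-! ### The Rieffel-van Daele lemma -/

theorem rvd_proj_comm {E : Type*} [NormedAddCommGroup E] [InnerProductSpace ℂ E] [CompleteSpace E]
    (G : Submodule ℂ E) [G.HasOrthogonalProjection] (D D' : E →L[ℂ] E)
    (hD : ∀ x y, ⟪x, D y⟫_ℂ = ⟪D' x, y⟫_ℂ) (h : ∀ x ∈ G, D x ∈ G) (h' : ∀ x ∈ G, D' x ∈ G)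
    (v : E) : G.starProjection (D v) = D (G.starProjection v) := by
  refine Submodule.eq_starProjection_of_mem_of_inner_eq_zero (h _ (G.starProjection_apply_mem v))
    fun w hw => ?_
  rw [← map_sub, ← inner_conj_symm, hD, inner_conj_symm]
  exact G.starProjection_inner_eq_zero v _ (h' w hw)

theorem rvd_core (hc : Dense (Set.range fun m : Al M => ap m ξ)) {η : H}
    (h1 : ∀ s : Al M.commutant, IsSelfAdjoint s → (⟪η, ap s ξ⟫_ℂ).re = 0)
    (h2 : ∀ k : Al M, IsSelfAdjoint k → (⟪η, ap k ξ⟫_ℂ).im = 0) : η = 0 := by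
  have h1' : ∀ s : Al M.commutant, ⟪η, ap s ξ⟫_ℂ = -⟪ξ, ap s η⟫_ℂ := by
    have : ∀ s : Al M.commutant, IsSelfAdjoint s → ⟪η, ap s ξ⟫_ℂ = -⟪ξ, ap s η⟫_ℂ := fun s hs => by
      rw [← rvd_sa_inner hs ξ η, ← inner_conj_symm (ap s ξ) η]
      apply Complex.ext
      · rw [Complex.neg_re, Complex.conj_re, h1 s hs, neg_zero]
      · rw [Complex.neg_im, Complex.conj_im, neg_neg]
    intro s
    obtain ⟨a, b, ha, hb, rfl⟩ := rvd_parts s
    simp only [ap_add, ap_smul, inner_add_right, inner_smul_right, this a ha, this b hb]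
    ring
  have h2' : ∀ m : Al M, ⟪η, ap m ξ⟫_ℂ = ⟪ξ, ap m η⟫_ℂ := by
    have : ∀ k : Al M, IsSelfAdjoint k → ⟪η, ap k ξ⟫_ℂ = ⟪ξ, ap k η⟫_ℂ := fun k hk => by
      rw [← rvd_sa_inner hk ξ η, ← inner_conj_symm (ap k ξ) η]
      exact (Complex.conj_eq_iff_im.2 (h2 k hk)).symm
    intro m
    obtain ⟨a, b, ha, hb, rfl⟩ := rvd_parts m
    simp only [ap_add, ap_smul, inner_add_right, inner_smul_right, this a ha, this b hb]
  let e := WithLp.prodContinuousLinearEquiv 2 ℂ H H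
  let pr : H → H → WithLp 2 (H × H) := fun x y => WithLp.toLp 2 (x, y)
  have hin : ∀ x y x' y', ⟪pr x y, pr x' y'⟫_ℂ = ⟪x, x'⟫_ℂ + ⟪y, y'⟫_ℂ := fun _ _ _ _ => rfl
  let D : Al M → WithLp 2 (H × H) →L[ℂ] WithLp 2 (H × H) := fun m =>
    (e.symm : H × H →L[ℂ] WithLp 2 (H × H)) ∘L
      ((m : H →L[ℂ] H).prodMap (m : H →L[ℂ] H)) ∘L (e : WithLp 2 (H × H) →L[ℂ] H × H)
  have hD : ∀ m x y, D m (pr x y) = pr (ap m x) (ap m y) := fun _ _ _ => rfl
  let L : Submodule ℂ (WithLp 2 (H × H)) :=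
    { carrier := Set.range fun m : Al M => pr (ap m ξ) (ap m η)
      add_mem' := by
        rintro _ _ ⟨s, rfl⟩ ⟨t, rfl⟩
        exact ⟨s + t, rfl⟩
      zero_mem' := ⟨0, rfl⟩
      smul_mem' := by
        rintro c _ ⟨t, rfl⟩
        exact ⟨c • t, rfl⟩ }
  let G := L.topologicalClosure
  have hG : ∀ m, ∀ x ∈ G, D m x ∈ G := fun m x hx =>
    map_mem_closure (D m).continuous hx (by
      rintro _ ⟨s, rfl⟩
      exact ⟨m * s, rfl⟩)
  have hcomm : ∀ m v, G.starProjection (D m v) = D m (G.starProjection v) := fun m =>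
    rvd_proj_comm G (D m) (D (star m)) (fun x y => by
      change ⟪pr x.ofLp.1 x.ofLp.2, D m (pr y.ofLp.1 y.ofLp.2)⟫_ℂ =
        ⟪D (star m) (pr x.ofLp.1 x.ofLp.2), pr y.ofLp.1 y.ofLp.2⟫_ℂ
      rw [hD, hD, hin, hin, inner_ap_right, inner_ap_right m]) (hG m) (hG (star m))
  let b : H →L[ℂ] H := ContinuousLinearMap.fst ℂ H H ∘L (e : WithLp 2 (H × H) →L[ℂ] H × H) ∘L
    G.starProjection ∘L (e.symm : H × H →L[ℂ] WithLp 2 (H × H)) ∘L ContinuousLinearMap.inr ℂ H H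
  have hb : ∀ x, b x = (G.starProjection (pr 0 x)).ofLp.1 := fun _ => rfl
  have hbM : b ∈ M.commutant := by
    rw [VonNeumannAlgebra.mem_commutant_iff]
    intro m hm
    ext x
    change ap (⟨m, hm⟩ : Al M) (b x) = b (ap (⟨m, hm⟩ : Al M) x)
    have e1 : pr 0 (ap (⟨m, hm⟩ : Al M) x) = D ⟨m, hm⟩ (pr 0 x) := by
      rw [hD, ap, ap, map_zero]
    rw [hb, hb, e1, hcomm]
    rfl
  have hbi : ∀ x y, ⟪x, b y⟫_ℂ = ⟪pr x 0, G.starProjection (pr 0 y)⟫_ℂ := fun x y => by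
    change _ = ⟪pr x 0, pr (G.starProjection (pr 0 y)).ofLp.1 (G.starProjection (pr 0 y)).ofLp.2⟫_ℂ
    rw [hin, inner_zero_left, add_zero, hb]
  have p1 : G.starProjection (pr ξ 0) + G.starProjection (pr 0 η) = pr ξ η := by
    have e1 : pr ξ 0 + pr 0 η = pr ξ η := by
      simp only [pr, ← WithLp.toLp_add, Prod.mk_add_mk, add_zero, zero_add]
    rw [← map_add, e1]
    exact Submodule.starProjection_eq_self_iff.2 (Submodule.le_topologicalClosure L ⟨1, rfl⟩)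
  have p2 : G.starProjection (pr η 0) = G.starProjection (pr 0 ξ) := by
    have e1 : pr η 0 - pr 0 ξ = pr η (-ξ) := by
      simp only [pr, ← WithLp.toLp_sub, Prod.mk_sub_mk, sub_zero, zero_sub]
    rw [← sub_eq_zero, ← map_sub, e1, Submodule.starProjection_apply_eq_zero_iff,
      Submodule.mem_orthogonal']
    intro u hu
    refine closure_minimal (t := {u | ⟪pr η (-ξ), u⟫_ℂ = 0}) ?_
      (isClosed_eq (by fun_prop) continuous_const) hu
    rintro _ ⟨m, rfl⟩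
    change ⟪pr η (-ξ), pr (ap m ξ) (ap m η)⟫_ℂ = 0
    rw [hin, inner_neg_left, h2', add_neg_cancel]
  have q1 : (⟪η, b ξ⟫_ℂ).re = ‖G.starProjection (pr η 0)‖ ^ 2 := by
    rw [hbi, ← p2, ← rvd_re_self]
    have := G.starProjection_inner_eq_zero (pr η 0) _ (G.starProjection_apply_mem (pr η 0))
    rw [inner_sub_left, sub_eq_zero] at this
    rw [this]
  have q2 : (⟪ξ, b η⟫_ℂ).re = ‖pr ξ 0 - G.starProjection (pr ξ 0)‖ ^ 2 := by
    have e1 := G.starProjection_inner_eq_zero (pr ξ 0) _ (G.starProjection_apply_mem (pr ξ 0))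
    have e2 : ⟪pr ξ 0, pr ξ η⟫_ℂ = ⟪pr ξ 0, pr ξ 0⟫_ℂ := by
      rw [hin, hin, inner_zero_left, inner_zero_left]
    rw [hbi, eq_sub_of_add_eq' p1, ← rvd_re_self, inner_sub_right _ (pr ξ 0), e1, sub_zero,
      inner_sub_right, e2, ← inner_sub_right, rvd_re_symm]
  have q3 := congrArg Complex.re (h1' ⟨b, hbM⟩)
  change (⟪η, b ξ⟫_ℂ).re = (-⟪ξ, b η⟫_ℂ).re at q3
  rw [Complex.neg_re, q1, q2] at q3
  have q4 : G.starProjection (pr η 0) = 0 := by
    refine rvd_eq_zero ?_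
    rw [rvd_re_self, q3]
    exact neg_nonpos.2 (sq_nonneg _)
  have q5 : pr ξ 0 ∈ G := by
    have : pr ξ 0 - G.starProjection (pr ξ 0) = 0 := by
      refine rvd_eq_zero ?_
      rw [rvd_re_self]
      nlinarith [sq_nonneg ‖G.starProjection (pr η 0)‖]
    rw [sub_eq_zero.1 this]
    exact G.starProjection_apply_mem _
  have q6 : pr η 0 ∈ G := by
    have hcont : Continuous fun x : H => pr x 0 :=
      e.symm.continuous.comp (continuous_id.prodMk continuous_const)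
    refine closure_minimal (t := {x | pr x 0 ∈ G}) ?_
      ((Submodule.isClosed_topologicalClosure L).preimage hcont) (hc η)
    rintro _ ⟨m, rfl⟩
    have := hG m _ q5
    rw [hD, ap, ap, map_zero] at this
    exact this
  rw [Submodule.starProjection_eq_self_iff.2 q6] at q4
  exact congrArg (fun x : WithLp 2 (H × H) => x.ofLp.1) q4

end Crest.Agent.R109
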