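import Crest.Agent.R109.Kap
import Crest.Agent.R109.RvDAux

/-!
# R109: tame elements are dense (Sakai's linear Radon-Nikodym theorem, Rieffel-van Daele lemma)
-/

set_option autoImplicit false
open Filter Topology
open scoped InnerProductSpace

namespace Crest.Agent.R109
open Crest.Agent.R121

universe u
variable {H : Type u} [NormedAddCommGroup H] [InnerProductSpace ℂ H] [CompleteSpace H]
variable {M : VonNeumannAlgebra H} {A : StarSubalgebra ℂ (Al M)} {ξ : H}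

/-- The closure of `M_sa ξ`. -/
def saCl (M : VonNeumannAlgebra H) (ξ : H) : Set H :=
  closure {v | ∃ k : Al M, IsSelfAdjoint k ∧ ap k ξ = v}

/-- For commuting self-adjoint operators `⟪k ξ, k' ξ⟫` is real; pass to the closures. -/
theorem im_inner_saCl {v w : H} (hv : v ∈ saCl M ξ) (hw : w ∈ saCl M.commutant ξ) :
    (⟪v, w⟫_ℂ).im = 0 := by
  exact rvd_im_saS hv hw

theorem rsub_saCl (M : VonNeumannAlgebra H) (ξ : H) : RSub (saCl M ξ) := (rsub_saS M ξ).closure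

theorem mem_saCl {k : Al M} (hk : IsSelfAdjoint k) : ap k ξ ∈ saCl M ξ :=
  subset_closure ⟨k, hk, rfl⟩

theorem re_saCl {v : H} (h : ∀ k : Al M, IsSelfAdjoint k → (⟪v, ap k ξ⟫_ℂ).re = 0) {w : H}
    (hw : w ∈ saCl M ξ) : (⟪v, w⟫_ℂ).re = 0 :=
  rvd_re_closure (L := saS M ξ) (by rintro _ ⟨k, hk, rfl⟩; exact h k hk) w hw

omit [CompleteSpace H] in
theorem rvd_re_I (v w : H) : (⟪Complex.I • v, w⟫_ℂ).re = -(⟪w, v⟫_ℂ).im := by
  rw [rvd_re_symm, inner_smul_right, Complex.I_mul_re]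

/-- Sakai's lemma. Scale to `‖t‖ ≤ re l`. Let `P` be the real orthogonal projection on the closed
real subspace `saCl M ξ` (`InnerProductSpace.rclikeToReal`/`complexToReal`). The set
`V = {P (l • k ξ) | k self-adjoint, ‖k‖ ≤ 1}` is convex and closed (weak limits, `exists_WL` along
`hyperfilter ℕ`). If `P (t ξ) ∉ V`, separate (`geometric_hahn_banach_point_closed`, or project on
`V`: `exists_norm_eq_iInf_of_complete_convex`, `norm_eq_iInf_iff_real_inner_le_zero`) by a vector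
of `saCl M ξ`, hence by some `k₀ ξ` (`V` is bounded):
`re ⟪t ξ, k₀ ξ⟫ > sup_k re ⟪l • k ξ, k₀ ξ⟫`. But `k = cfc f_n k₀` with `f_n → sign` gives
`sup ≥ re l * φ(|k₀|)`, while `⟪t ξ, k₀ ξ⟫ = ⟪t a ξ, a ξ⟫ - ⟪t b ξ, b ξ⟫ ≤ ‖t‖ φ(|k₀|)` with
`a = √(k₀⁺)`, `b = √(k₀⁻)`. -/
theorem sakai (M : VonNeumannAlgebra H) (ξ : H) {l : ℂ} (hl : 0 < l.re) {t : H →L[ℂ] H}
    (ht : t ∈ M.commutant) (hts : IsSelfAdjoint t) :
    ∃ k : Al M, IsSelfAdjoint k ∧ ∀ k' : Al M, IsSelfAdjoint k' →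
      (⟪l • ap k ξ - t ξ, ap k' ξ⟫_ℂ).re = 0 := by
  have _ := hts
  exact sakai_aux M ξ hl ht

/-- Rieffel-van Daele. It suffices (real orthogonal complements of closed real subspaces) to show:
if `η` is real orthogonal to `M'_sa ξ` and to `i M_sa ξ` then `η = 0`. The second condition gives
`⟪m ξ, η⟫ = ⟪m η, ξ⟫`-type symmetry: `⟪η, m ξ⟫ = ⟪ξ, m η⟫` for all `m ∈ M` (`⟪η, k ξ⟫` is real
for self-adjoint `k`; extend linearly). In `H ⊕ H` (`WithLp 2 (H × H)`) let `p` be the projection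
on the closure of `{(m ξ, m η)}`; it commutes with the diagonal action, so
`p = [[a, b], [b*, c]]` with entries in `M'`, `0 ≤ a, c ≤ 1`. `p (ξ, η) = (ξ, η)`, and
`(η, -ξ)` is orthogonal to the range: `a η = b ξ`, `b* η = c ξ`, and `a ξ + b η = ξ`,
`b* ξ + c η = η`. The first condition says `⟪η, s ξ⟫ = - ⟪ξ, s η⟫` for all `s ∈ M'`
(`⟪η, s ξ⟫` is imaginary for self-adjoint `s`). Hence
`0 ≤ ⟪η, a η⟫ = ⟪η, b ξ⟫ = - ⟪ξ, b η⟫ = - ⟪ξ, (1 - a) ξ⟫ ≤ 0`, so `a η = 0` and `(1 - a) ξ = 0`;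
as `ξ` is cyclic for `M`, `a = 1`, so `η = 0`. -/
theorem rvd (hc : Dense (Set.range fun m : Al M => ap m ξ)) {η : H}
    (h : ∀ s : Al M.commutant, IsSelfAdjoint s → (⟪η, ap s ξ⟫_ℂ).re = 0) :
    ∃ κ ∈ saCl M ξ, η = Complex.I • κ := by
  obtain ⟨κ, hκ, h1⟩ := (rsub_saS M ξ).exists_proj ((-Complex.I) • η)
  refine ⟨κ, hκ, sub_eq_zero.1 (rvd_core hc (fun s hs => ?_) fun k hk => ?_)⟩
  · rw [inner_sub_left, Complex.sub_re, h s hs, rvd_re_I, ← inner_conj_symm, Complex.conj_im,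
      im_inner_saCl hκ (mem_saCl hs)]
    simp
  · have e : η - Complex.I • κ = Complex.I • ((-Complex.I) • η - κ) := by
      rw [smul_sub, smul_smul]
      simp
    rw [e, inner_smul_left, Complex.conj_I, neg_mul, Complex.neg_im, Complex.I_mul_im,
      h1 _ (mem_saCl hk), neg_zero]

/-- `m ξ ∈ M' ξ`. -/
def Tame (ξ : H) (m : Al M) : Prop := ∃ t ∈ M.commutant, ap m ξ = t ξ

/-- Given self-adjoint `y`, let `t₁, t₂ ∈ M'` be given by `sakai` for the commutant with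
`l = 1 + i` and `l = 1`; by `rvd`, `(1 + i) t₁ ξ - y ξ = i κ₁`, `t₂ ξ - y ξ = i κ₂`. Let `k` be
given by `sakai` for `M`, `l = 1`, `t₁`. Put `η = i (t₂ ξ - (1 + i) t₁ ξ) = κ₁ - κ₂ ∈ saCl M ξ`.
Then `η - t₁ ξ = i (t₂ - t₁) ξ` is real orthogonal to `saCl M ξ` (`im_inner_saCl`), as is
`k ξ - t₁ ξ`; so `η - k ξ ∈ saCl M ξ` is orthogonal to itself, and `k ξ = η ∈ M' ξ`. -/
theorem exists_tame_pair (hc : Dense (Set.range fun m : Al M => ap m ξ)) {y : Al M}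
    (hy : IsSelfAdjoint y) : ∃ (k : Al M) (t : Al M.commutant), IsSelfAdjoint k ∧ Tame ξ k ∧
      IsSelfAdjoint t ∧ (∀ k' : Al M, IsSelfAdjoint k' → (⟪ap k ξ - ap t ξ, ap k' ξ⟫_ℂ).re = 0) ∧
      ∀ s : Al M.commutant, IsSelfAdjoint s →
        (⟪(1 + Complex.I) • ap t ξ - ap y ξ, ap s ξ⟫_ℂ).re = 0 := by
  have hyM : (y : H →L[ℂ] H) ∈ M.commutant.commutant := by
    rw [VonNeumannAlgebra.commutant_commutant]
    exact y.2
  obtain ⟨t₁, ht₁, h₁⟩ := sakai_aux M.commutant ξ (l := 1 + Complex.I) (by simp) hyM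
  obtain ⟨t₂, ht₂, h₂⟩ := sakai_aux M.commutant ξ (l := 1) (by simp) hyM
  obtain ⟨κ₁, hκ₁, e₁⟩ := rvd hc h₁
  obtain ⟨κ₂, hκ₂, e₂⟩ := rvd hc h₂
  obtain ⟨k, hk, h₃⟩ := sakai_aux M ξ (l := 1) (by simp) t₁.2
  simp only [one_smul] at h₃ e₂
  have e₃ : κ₁ - κ₂ = ap t₁ ξ + Complex.I • ap (t₂ - t₁) ξ := by
    have e₄ : Complex.I • (κ₁ - κ₂) = (1 + Complex.I) • ap t₁ ξ - ap t₂ ξ := by
      rw [smul_sub, ← e₁, ← e₂]
      abel
    have e₅ : κ₁ - κ₂ = (-Complex.I) • (Complex.I • (κ₁ - κ₂)) := by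
      rw [smul_smul]
      simp
    rw [e₅, e₄, ap_sub]
    match_scalars
    · linear_combination (-1 : ℂ) * Complex.I_mul_I
    · ring
  have hd : κ₁ - κ₂ - ap k ξ ∈ saCl M ξ :=
    (rsub_saCl M ξ).sub ((rsub_saCl M ξ).sub hκ₁ hκ₂) (mem_saCl hk)
  have hd0 : κ₁ - κ₂ - ap k ξ = 0 := by
    refine rvd_eq_zero (le_of_eq ?_)
    have e₆ : κ₁ - κ₂ - ap k ξ = Complex.I • ap (t₂ - t₁) ξ - (ap k ξ - ap t₁ ξ) := by
      rw [e₃]
      abel
    nth_rewrite 1 [e₆]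
    rw [inner_sub_left, Complex.sub_re, rvd_re_I, im_inner_saCl hd (mem_saCl (ht₂.sub ht₁)),
      re_saCl h₃ hd]
    simp
  refine ⟨k, t₁, hk, ⟨(t₁ + Complex.I • (t₂ - t₁) : Al M.commutant), Subtype.prop _, ?_⟩, ht₁, h₃,
    h₁⟩
  rw [← sub_eq_zero.1 hd0, e₃]
  rfl

theorem Tame.add {m n : Al M} (hm : Tame ξ m) (hn : Tame ξ n) : Tame ξ (m + n) := by
  obtain ⟨s, hs, e⟩ := hm
  obtain ⟨t, ht, e'⟩ := hn
  exact ⟨s + t, add_mem hs ht, by rw [ap_add, e, e']; rfl⟩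

theorem Tame.smul {m : Al M} (hm : Tame ξ m) (c : ℂ) : Tame ξ (c • m) := by
  obtain ⟨s, hs, e⟩ := hm
  exact ⟨c • s, M.commutant.toStarSubalgebra.smul_mem hs c, by rw [ap_smul, e]; rfl⟩

theorem Tame.mul {m n : Al M} (hm : Tame ξ m) (hn : Tame ξ n) : Tame ξ (m * n) := by
  obtain ⟨s, hs, e⟩ := hm
  obtain ⟨t, ht, e'⟩ := hn
  exact ⟨t * s, mul_mem ht hs, by rw [ap_mul, e', ← rvd_comm m ht, e]; rfl⟩

theorem Tame.one : Tame ξ (1 : Al M) := ⟨1, one_mem _, rfl⟩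

theorem Tame.zero : Tame ξ (0 : Al M) := ⟨0, zero_mem _, rfl⟩

/-- The real projection of `M_sa ξ` on `saCl M' ξ` is dense. -/
theorem rvd_approx (hc : Dense (Set.range fun m : Al M => ap m ξ)) (u : H) {ε : ℝ} (hε : 0 < ε) :
    ∃ y : Al M, IsSelfAdjoint y ∧ ∀ κ ∈ saCl M.commutant ξ,
      |(⟪ap y ξ - u, κ⟫_ℂ).re| ≤ ε * ‖κ‖ := by
  let L : Set H := {w | ∃ y : Al M, IsSelfAdjoint y ∧ ∀ s : Al M.commutant, IsSelfAdjoint s →
    (⟪w - ap y ξ, ap s ξ⟫_ℂ).re = 0}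
  have hL : RSub L := by
    refine ⟨⟨0, IsSelfAdjoint.zero _, fun s _ => by simp⟩, ?_, ?_⟩
    · rintro w ⟨y, hy, h⟩ w' ⟨y', hy', h'⟩
      refine ⟨y + y', hy.add hy', fun s hs => ?_⟩
      rw [ap_add, add_sub_add_comm, inner_add_left, Complex.add_re, h s hs, h' s hs, add_zero]
    · rintro r w ⟨y, hy, h⟩
      refine ⟨(r : ℂ) • y, rvd_sa_smul r hy, fun s hs => ?_⟩
      rw [ap_smul, ← smul_sub, inner_smul_left, Complex.conj_ofReal, Complex.re_ofReal_mul, h s hs,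
        mul_zero]
  have hu : u ∈ closure L := by
    refine hL.mem_closure fun d hd => ?_
    have hd1 : d ∈ saCl M.commutant ξ := by
      refine (rsub_saS M.commutant ξ).mem_closure fun n hn => le_of_eq (hd n ?_)
      exact ⟨0, IsSelfAdjoint.zero _, fun s hs => by
        rw [ap_zero, sub_zero]; exact hn _ ⟨s, hs, rfl⟩⟩
    have hd0 : d = 0 := by
      refine rvd_zero_of_cyc hc fun k hk => Complex.ext ?_ ?_
      · exact hd _ ⟨k, hk, fun s _ => by simp⟩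
      · rw [← inner_conj_symm, Complex.conj_im, im_inner_saCl (mem_saCl hk) hd1]
        simp
    simp [hd0]
  obtain ⟨w, ⟨y, hy, h⟩, hw⟩ := Metric.mem_closure_iff.1 hu ε hε
  rw [dist_eq_norm, norm_sub_rev] at hw
  refine ⟨y, hy, fun κ hκ => ?_⟩
  have e : ap y ξ - u = (w - u) - (w - ap y ξ) := by abel
  rw [e, inner_sub_left, Complex.sub_re, re_saCl h hκ, sub_zero]
  exact (rvd_abs_re_le _ _).trans (mul_le_mul_of_nonneg_right hw.le (norm_nonneg _))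

theorem rvd_tame_perp (hc : Dense (Set.range fun m : Al M => ap m ξ))
    (hsep : ∀ m : Al M, ap m ξ = 0 → m = 0) {κ : H} (hκ : κ ∈ saCl M ξ)
    (h : ∀ k : Al M, IsSelfAdjoint k → Tame ξ k → (⟪κ, ap k ξ⟫_ℂ).re = 0) : κ = 0 := by
  refine rvd_zero_of_cyc (rvd_cyc_comm hsep) fun s hs =>
    Complex.ext ?_ (im_inner_saCl hκ (mem_saCl hs))
  have key : ∀ ε > 0, |(⟪κ, ap s ξ⟫_ℂ).re| ≤ ‖κ‖ * ε := by
    intro ε hε
    obtain ⟨y, hy, h1⟩ := rvd_approx hc ((1 + Complex.I) • ap s ξ) hε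
    obtain ⟨k, t, hk, hkt, ht, h2, h3⟩ := exists_tame_pair hc hy
    have h4 : (⟪κ, ap t ξ⟫_ℂ).re = 0 := by
      have := re_saCl h2 hκ
      rw [inner_sub_left, Complex.sub_re, rvd_re_symm (ap k ξ), h k hk hkt, rvd_re_symm] at this
      linarith
    have hd : ap (t - s) ξ ∈ saCl M.commutant ξ := mem_saCl (ht.sub hs)
    have h5 : ‖ap (t - s) ξ‖ ^ 2 ≤ ε * ‖ap (t - s) ξ‖ := by
      have e : (1 + Complex.I) • ap (t - s) ξ = ((1 + Complex.I) • ap t ξ - ap y ξ) +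
          (ap y ξ - (1 + Complex.I) • ap s ξ) := by
        rw [ap_sub, smul_sub]
        abel
      have e' : (⟪(1 + Complex.I) • ap (t - s) ξ, ap (t - s) ξ⟫_ℂ).re = ‖ap (t - s) ξ‖ ^ 2 := by
        rw [add_smul, one_smul, inner_add_left, Complex.add_re, rvd_re_self, rvd_re_I,
          show (⟪ap (t - s) ξ, ap (t - s) ξ⟫_ℂ).im = 0 from inner_self_im (𝕜 := ℂ) _, neg_zero,
          add_zero]
      rw [← e', e, inner_add_left, Complex.add_re, re_saCl h3 hd, zero_add]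
      exact (le_abs_self _).trans (h1 _ hd)
    have h6 : ‖ap (t - s) ξ‖ ≤ ε := by
      by_contra hc
      push Not at hc
      nlinarith
    have h7 := (rvd_abs_re_le κ (ap (t - s) ξ)).trans
      (mul_le_mul_of_nonneg_left h6 (norm_nonneg _))
    rwa [ap_sub, inner_sub_right, Complex.sub_re, h4, zero_sub, abs_neg] at h7
  rw [Complex.zero_re, ← abs_nonpos_iff]
  refine le_of_forall_pos_le_add fun ε hε => ?_
  refine (key (ε / (‖κ‖ + 1)) (by positivity)).trans ?_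
  rw [zero_add, ← mul_div_assoc, div_le_iff₀ (by positivity)]
  nlinarith [norm_nonneg κ]

/-- The tame self-adjoint `k ξ` form a real subspace `L ⊆ K = saCl M ξ`. Let `κ ∈ K` be real
orthogonal to `L`; then `re ⟪κ, t ξ⟫ = 0` for all `t` from `exists_tame_pair`. These `t ξ` are
dense in `K' = saCl M' ξ`: let `P'` be the real projection on `K'`; `P' (M_sa ξ)` is dense in `K'`
(a vector of `K'` real orthogonal to `K` has zero inner product with `M ξ` by `im_inner_saCl`),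
and if `P' y ξ` is close to `P' ((1+i) κ')` then `d = t ξ - κ'` has
`‖d‖² = re ⟪(1+i) d, d⟫ ≤ small * ‖d‖`. So `⟪κ, s ξ⟫ = 0` for `s ∈ M'`, and `M' ξ` is dense since
`ξ` is separating (`R121.exists_proj_span`). -/
theorem Std.tame_dense (h : Std A ξ) {y : Al M} (hy : IsSelfAdjoint y) {e : ℝ} (he : 0 < e) :
    ∃ k : Al M, IsSelfAdjoint k ∧ Tame ξ k ∧ ‖ap (y - k) ξ‖ ≤ e := by
  let L : Set H := {w | ∃ k : Al M, IsSelfAdjoint k ∧ Tame ξ k ∧ ap k ξ = w}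
  have hL : RSub L := by
    refine ⟨⟨0, IsSelfAdjoint.zero _, Tame.zero, rfl⟩, ?_, ?_⟩
    · rintro _ ⟨k, hk, ht, rfl⟩ _ ⟨k', hk', ht', rfl⟩
      exact ⟨k + k', hk.add hk', ht.add ht', rfl⟩
    · rintro r _ ⟨k, hk, ht, rfl⟩
      exact ⟨(r : ℂ) • k, rvd_sa_smul r hk, ht.smul _, rfl⟩
  obtain ⟨v, hv, h1⟩ := hL.exists_proj (ap y ξ)
  have hvK : v ∈ saCl M ξ := closure_mono (by
    rintro _ ⟨k, hk, -, rfl⟩
    exact ⟨k, hk, rfl⟩) hv
  have h2 : ap y ξ - v = 0 := rvd_tame_perp h.cyc h.sep ((rsub_saCl M ξ).sub (mem_saCl hy) hvK)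
    fun k hk ht => h1 _ (subset_closure ⟨k, hk, ht, rfl⟩)
  rw [← sub_eq_zero.1 h2] at hv
  obtain ⟨_, ⟨k, hk, ht, rfl⟩, h3⟩ := Metric.mem_closure_iff.1 hv e he
  rw [dist_eq_norm] at h3
  exact ⟨k, hk, ht, h3.le⟩

/-- The elements `m` with `m`, `m*` tame. -/
def tameAlg (M : VonNeumannAlgebra H) (ξ : H) : StarSubalgebra ℂ (Al M) where
  carrier := {m | Tame ξ m ∧ Tame ξ (star m)}
  mul_mem' := fun ha hb => ⟨ha.1.mul hb.1, by rw [star_mul]; exact hb.2.mul ha.2⟩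
  add_mem' := fun ha hb => ⟨ha.1.add hb.1, by rw [star_add]; exact ha.2.add hb.2⟩
  algebraMap_mem' := fun c => by
    rw [Algebra.algebraMap_eq_smul_one]
    exact ⟨Tame.one.smul c, by rw [star_smul, star_one]; exact Tame.one.smul _⟩
  star_mem' := fun ha => ⟨ha.2, by rw [star_star]; exact ha.1⟩

theorem mem_tameAlg {k : Al M} (hk : IsSelfAdjoint k) (ht : Tame ξ k) : k ∈ tameAlg M ξ :=
  ⟨ht, by rw [hk.star_eq]; exact ht⟩

theorem Std.gd_tame (h : Std A ξ) : GD (tameAlg M ξ) ξ := by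
  intro m e he
  obtain ⟨a, b, ha, hb, rfl⟩ := rvd_parts m
  obtain ⟨k, hk, hkt, h1⟩ := h.tame_dense ha (half_pos he)
  obtain ⟨k', hk', hkt', h2⟩ := h.tame_dense hb (half_pos he)
  have key : ∀ c : ℂ, ‖c‖ = 1 → ‖ap ((a - k) + c • (b - k')) ξ‖ ≤ e := fun c hc => by
    rw [ap_add, ap_smul]
    refine (norm_add_le _ _).trans ?_
    rw [norm_smul, hc, one_mul]
    linarith
  have e1 : a + Complex.I • b - (k + Complex.I • k') = (a - k) + Complex.I • (b - k') := by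
    rw [smul_sub]
    abel
  refine ⟨k + Complex.I • k', add_mem (mem_tameAlg hk hkt)
    (SMulMemClass.smul_mem _ (mem_tameAlg hk' hkt')), fun p _ => ⟨?_, ?_⟩⟩
  · rw [e1, mul_comm]
    exact (norm_inner_le_norm _ _).trans
      (mul_le_mul_of_nonneg_left (key _ Complex.norm_I) (norm_nonneg _))
  · rw [e1, star_add, star_smul, (ha.sub hk).star_eq, (hb.sub hk').star_eq, mul_comm]
    exact (norm_inner_le_norm _ _).trans
      (mul_le_mul_of_nonneg_left (key _ (by simp)) (norm_nonneg _))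

/-- The elements `m` with `m`, `m*` tame form a star subalgebra `B` with `GD B ξ` (split `m` into
real and imaginary parts, `tame_dense`) and `cyc B ξ = ⊤`; `GD.exists_approx`. -/
theorem Std.exists_tame (h : Std A ξ) {x : Al M} (hx : IsSelfAdjoint x) (hx1 : ‖x‖ ≤ 1) {e : ℝ}
    (he : 0 < e) : ∃ y : Al M, IsSelfAdjoint y ∧ ‖y‖ ≤ 1 ∧ Tame ξ y ∧ ‖ap (x - y) ξ‖ ≤ e := by
  obtain ⟨p, hp, hs, h1, h2⟩ := h.gd_tame.exists_approx hx hx1 {ξ} he
  have h3 : ξ ∈ R109.cyc (tameAlg M ξ) ξ :=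
    mem_cyc.2 fun e he => ⟨1, one_mem _, by simpa using he.le⟩
  have h4 : ap x ξ ∈ R109.cyc (tameAlg M ξ) ξ := mem_cyc.2 fun e he => by
    obtain ⟨k, hk, hkt, h5⟩ := h.tame_dense hx he
    exact ⟨k, mem_tameAlg hk hkt, by rwa [norm_sub_rev]⟩
  have h5 := h2 ξ (Finset.mem_singleton_self ξ) h3
  rw [Submodule.starProjection_eq_self_iff.2 h4, norm_sub_rev] at h5
  exact ⟨p, hs, h1, hp.1, h5⟩

theorem Tame.rb {m : Al M} {t : H →L[ℂ] H} (ht : t ∈ M.commutant) (h : ap m ξ = t ξ) :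
    RB ξ ‖t‖ m := by
  intro y
  rw [ap_mul, h, ← rvd_comm y ht]
  exact t.le_opNorm _

end Crest.Agent.R109
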