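import Crest.Agent.R109.Nor
import Crest.Agent.R109.RvD

/-!
# R109: decomposition into a part in the normaliser algebra and a diffuse part
-/

set_option autoImplicit false
open Filter Topology
open scoped InnerProductSpace

namespace Crest.Agent.R109
open Crest.Agent.R121

universe u
variable {H : Type u} [NormedAddCommGroup H] [InnerProductSpace ℂ H] [CompleteSpace H]
variable {M : VonNeumannAlgebra H} {A : StarSubalgebra ℂ (Al M)} {ξ : H} {g : Al M}

theorem dec_prod (hA : Masa A) {ι : Type*} {e : ι → Al M} (heA : ∀ i, e i ∈ A)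
    (he : ∀ i, IsStarProjection (e i)) (s : Finset ι) :
    ∃ r ∈ A, IsStarProjection r ∧ (∀ i ∈ s, e i * r = 0) ∧
      ∃ a : ι → Al M, (∀ i, a i ∈ A) ∧ 1 - r = ∑ i ∈ s, e i * a i := by
  classical
  induction s using Finset.induction_on with
  | empty => exact ⟨1, one_mem _, IsStarProjection.one _, by simp, 0, fun _ => zero_mem _, by simp⟩
  | insert j s hj ih =>
    obtain ⟨r, hrA, hr, h0, a, haA, ha⟩ := ih
    have h1 : 1 - e j ∈ A := sub_mem (one_mem _) (heA j)
    refine ⟨(1 - e j) * r, mul_mem h1 hrA, (he j).one_sub.mul hr (hA.comm _ h1 _ hrA),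
      fun i hi => ?_, Function.update a j r, fun i => ?_, ?_⟩
    · rcases Finset.mem_insert.1 hi with rfl | hi
      · rw [← mul_assoc, mul_sub, mul_one, proj_mul_self (he i), sub_self, zero_mul]
      · rw [hA.comm _ h1 _ hrA, ← mul_assoc, h0 i hi, zero_mul]
    · rcases eq_or_ne i j with rfl | hij
      · rwa [Function.update_self]
      · rw [Function.update_of_ne hij]
        exact haA i
    · rw [Finset.sum_insert hj, Function.update_self, Finset.sum_congr rfl fun i hi => by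
        rw [Function.update_of_ne (ne_of_mem_of_not_mem hi hj)], ← ha, sub_mul, one_mul]
      abel

theorem dec_left (h : Std A ξ) (hg : Nor A g) {a w : Al M} (ha : a ∈ A)
    (h0 : h.E (star g * w) = 0) : h.E (star g * (a * w)) = 0 := by
  rw [← mul_assoc, (hg.star'.mul_comm h.toMasa ha).2, mul_assoc,
    h.E_mul_left (hg.star'.right a ha), h0, mul_zero]

theorem dec_fin {hA : Masa A} {m : Al M} (hm : m ∈ NS hA) : ∃ l : List (Al M),
    (∀ g ∈ l, Nor A g) ∧ m ∈ Submodule.span ℂ {m | ∃ a ∈ A, ∃ g ∈ l, a * g = m} := by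
  rw [mem_NS] at hm
  induction hm using Submodule.span_induction with
  | mem z hz =>
    obtain ⟨a, ha, g, hg, rfl⟩ := hz
    exact ⟨[g], by simpa using hg, Submodule.subset_span ⟨a, ha, g, List.mem_singleton_self g, rfl⟩⟩
  | zero => exact ⟨[], by simp, zero_mem _⟩
  | add x y _ _ hx hy =>
    obtain ⟨l, hl, hx⟩ := hx
    obtain ⟨l', hl', hy⟩ := hy
    exact ⟨l ++ l', fun g hg => (List.mem_append.1 hg).elim (hl g) (hl' g), add_mem
      (Submodule.span_mono (by
        rintro _ ⟨a, ha, g, hg, e⟩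
        exact ⟨a, ha, g, List.mem_append_left _ hg, e⟩) hx)
      (Submodule.span_mono (by
        rintro _ ⟨a, ha, g, hg, e⟩
        exact ⟨a, ha, g, List.mem_append_right _ hg, e⟩) hy)⟩
  | smul c x _ hx =>
    obtain ⟨l, hl, hx⟩ := hx
    exact ⟨l, hl, Submodule.smul_mem _ c hx⟩

theorem dec_mem {B : StarSubalgebra ℂ (Al M)} {b : Al M} (hb : b ∈ B) : ap b ξ ∈ cyc B ξ :=
  mem_cyc.2 fun e he => ⟨b, hb, by simpa using he.le⟩

omit [CompleteSpace H] in
theorem dec_proj (K : Submodule ℂ H) [K.HasOrthogonalProjection] {x y y₁ b : H} {e : ℝ}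
    (hy : y ∈ K) (hy₁ : y₁ ∈ K) (h0 : ⟪y₁ - y, x - y⟫_ℂ = 0) (h : ‖y₁ - K.starProjection x‖ ≤ e)
    (hb : b ∈ K) : ‖⟪b, x - y⟫_ℂ‖ ≤ e * ‖b‖ := by
  have h1 : ∀ k ∈ K, ⟪k, x - y⟫_ℂ = ⟪k, K.starProjection x - y⟫_ℂ := fun k hk => by
    rw [← sub_eq_zero, ← inner_sub_right, sub_sub_sub_cancel_right]
    exact Submodule.inner_right_of_mem_orthogonal hk (Submodule.sub_starProjection_mem_orthogonal _)
  rw [h1 _ (K.sub_mem hy₁ hy)] at h0
  rw [h1 b hb, mul_comm]
  refine (norm_inner_le_norm _ _).trans (mul_le_mul_of_nonneg_left ?_ (norm_nonneg _))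
  generalize K.starProjection x = u at h0 h
  have h2 : ⟪u - y, u - y⟫_ℂ = - ⟪y₁ - u, u - y⟫_ℂ := by
    rw [eq_neg_iff_add_eq_zero, ← inner_add_left, sub_add_sub_cancel', h0]
  have h3 : ‖u - y‖ * ‖u - y‖ ≤ e * ‖u - y‖ := by
    have h4 := congrArg norm h2
    rw [norm_neg, inner_self_eq_norm_sq_to_K, norm_pow, RCLike.norm_ofReal, abs_norm, sq] at h4
    rw [h4]
    exact (norm_inner_le_norm _ _).trans (mul_le_mul_of_nonneg_right h (norm_nonneg _))
  by_contra h4
  nlinarith [norm_nonneg (y₁ - u)]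

/-- `E (m g*) g ξ` is the projection of `m ξ` on the closure of `A g ξ`:
`g* E(m g*) g = E (g* m g* g) = E (g* m) g* g = E (g* m)` (`E_conj`). -/
theorem Std.E_comp (h : Std A ξ) (hg : Nor A g) (m : Al M) :
    h.E (star g * (m - h.E (m * star g) * g)) = 0 := by
  have h1 : star g * g * star g = star g := by
    simpa only [star_mul, star_star, mul_assoc] using congrArg star hg.pi
  have h2 : h.E (star g * m) * (star g * g) = h.E (star g * m) := by
    rw [← h.comm _ hg.init_mem _ (h.E_mem _), ← h.E_mul_left hg.init_mem, ← mul_assoc, h1]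
  have h3 : star g * h.E (m * star g) * g = h.E (star g * m) := by
    rw [← h.E_conj hg, ← h2, ← h.E_mul_right hg.init_mem]
    simp only [mul_assoc]
  rw [mul_sub, map_sub, ← mul_assoc, h3, h.E_of_mem (h.E_mem _), sub_self]

/-- Gram-Schmidt for normalisers. Induction on `l`: given the orthogonal list `l'` and a new `g`,
let `e_k` be given by `exists_fix` for `n_k = k* g`, `k ∈ l'`, and `g' = g ∏ (1 - e_k)`. Then
`E (k* g') = n_k e_k ∏ (1 - e_j) = 0`, and `g - g'` is a sum of terms `g e_k a`, `a ∈ A`, where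
`g e_k = k (n_k e_k) ∈ k A ⊆ A k` (`Nor.mul_eq_of_le`, `Nor.mul_comm`). -/
theorem Std.exists_orth (h : Std A ξ) (l : List (Al M)) (hl : ∀ g ∈ l, Nor A g) :
    ∃ (n : ℕ) (k : Fin n → Al M), (∀ i, Nor A (k i)) ∧
      (Pairwise fun i j => h.E (star (k i) * k j) = 0) ∧
      ∀ g ∈ l, ∃ a : Fin n → Al M, (∀ i, a i ∈ A) ∧ g = ∑ i, a i * k i := by
  have hA := h.toMasa
  induction l with
  | nil => exact ⟨0, Fin.elim0, fun i => i.elim0, fun i => i.elim0, by simp⟩
  | cons g l ih =>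
    obtain ⟨n, k, hk, ho, hs⟩ := ih fun g hg => hl g (List.mem_cons_of_mem _ hg)
    have hg := hl g List.mem_cons_self
    choose e heA he h1 h2 h3 _ using fun i => h.exists_fix ((hk i).star'.mul hA hg)
    obtain ⟨r, hrA, hr, hr0, a, haA, ha⟩ := dec_prod hA heA he Finset.univ
    have h4 : ∀ i, h.E (star (k i) * (g * r)) = 0 := fun i => by
      rw [← mul_assoc, h.E_mul_right hrA, h3, mul_assoc, hr0 i (Finset.mem_univ i), mul_zero]
    refine ⟨n + 1, Fin.cons (g * r) k, fun i => ?_, fun i j hij => ?_, fun g' hg' => ?_⟩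
    · refine Fin.cases ?_ hk i
      exact hg.mul hA (Nor.of_proj hA hrA hr)
    · induction i using Fin.cases with
      | zero =>
        induction j using Fin.cases with
        | zero => exact absurd rfl hij
        | succ j =>
          have h5 := congrArg star (h4 j)
          rwa [← h.E_star, star_mul (star _), star_star, star_zero] at h5
      | succ i =>
        induction j using Fin.cases with
        | zero => exact h4 i
        | succ j => exact ho fun e => hij (congrArg _ e)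
    · rcases List.mem_cons.1 hg' with rfl | hg'
      · refine ⟨Fin.cons 1 fun i => k i * (star (k i) * g' * e i * a i) * star (k i), fun i => ?_, ?_⟩
        · refine Fin.cases (one_mem _) (fun i => ?_) i
          exact (hk i).right _ (mul_mem (h2 i) (haA i))
        · rw [Fin.sum_univ_succ]
          simp only [Fin.cons_zero, Fin.cons_succ, one_mul]
          have h5 : ∀ i, k i * (star (k i) * g' * e i * a i) * star (k i) * k i =
              g' * (e i * a i) := fun i => by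
            rw [← ((hk i).mul_comm hA (mul_mem (h2 i) (haA i))).2, ← mul_assoc (k i),
              ← hg.mul_eq_of_le hA (hk i) (heA i) (he i) (h1 i), mul_assoc]
          simp only [h5]
          rw [← Finset.mul_sum, ← ha, ← mul_add, add_sub_cancel, mul_one]
      · obtain ⟨b, hb, e⟩ := hs g' hg'
        refine ⟨Fin.cons 0 b, fun i => Fin.cases (zero_mem _) hb i, ?_⟩
        rw [Fin.sum_univ_succ]
        simpa using e

/-- `p = ∑_i E (m k_i*) k_i` with `k` from `exists_orth`: `E (k_j* (m - p)) = 0` by `E_comp` and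
orthogonality (`k_j* a k_i = (k_j* a k_j) k_j* k_i`), hence `E (g* (m - p)) = 0` for `g ∈ l`
(`g* = ∑ k_i* a_i* = ∑ (k_i* a_i* k_i) k_i*`). The second clause follows by
`E_mul_comm_zero` and `E_star`. -/
theorem Std.exists_best (h : Std A ξ) (l : List (Al M)) (hl : ∀ g ∈ l, Nor A g) (m : Al M) :
    ∃ (l' : List (Al M)) (p : Al M), (∀ g ∈ l', Nor A g) ∧
      p ∈ Submodule.span ℂ {m | ∃ a ∈ A, ∃ g ∈ l', a * g = m} ∧
      ∀ g, g ∈ l ∨ g ∈ l' → h.E (star g * (m - p)) = 0 ∧ h.E (g * star (m - p)) = 0 := by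
  classical
  obtain ⟨n, k, hk, ho, hs⟩ := h.exists_orth l hl
  have h1 : ∀ j, h.E (star (k j) * (m - ∑ i, h.E (m * star (k i)) * k i)) = 0 := fun j => by
    rw [← Finset.add_sum_erase _ _ (Finset.mem_univ j), ← sub_sub, mul_sub, map_sub,
      h.E_comp (hk j), Finset.mul_sum, map_sum, zero_sub, neg_eq_zero]
    exact Finset.sum_eq_zero fun i hi =>
      dec_left h (hk j) (h.E_mem _) (ho (Finset.ne_of_mem_erase hi).symm)
  have h2 : ∀ g, g ∈ l ∨ g ∈ List.ofFn k → Nor A g ∧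
      h.E (star g * (m - ∑ i, h.E (m * star (k i)) * k i)) = 0 := by
    rintro g (hg | hg)
    · obtain ⟨a, ha, e⟩ := hs g hg
      refine ⟨hl g hg, ?_⟩
      rw [e, star_sum, Finset.sum_mul, map_sum]
      refine Finset.sum_eq_zero fun i _ => ?_
      rw [star_mul, mul_assoc]
      exact dec_left h (hk i) (star_mem (ha i)) (h1 i)
    · obtain ⟨i, rfl⟩ := (List.mem_ofFn' _ _).1 hg
      exact ⟨hk i, h1 i⟩
  refine ⟨List.ofFn k, ∑ i, h.E (m * star (k i)) * k i, fun g hg => (h2 g (Or.inr hg)).1,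
    Submodule.sum_mem _ fun i _ => Submodule.subset_span
      ⟨_, h.E_mem _, k i, (List.mem_ofFn' _ _).2 ⟨i, rfl⟩, rfl⟩, fun g hg => ⟨(h2 g hg).2, ?_⟩⟩
  have h3 := congrArg star ((h.E_mul_comm_zero (h2 g hg).1.star' _).1 (h2 g hg).2)
  rwa [← h.E_star, star_mul, star_star, star_zero] at h3

/-- Let `P` be the projection on `cyc (NS _) ξ`; choose `p₁, p₂ ∈ NS` with `p₁ ξ ≈ P m ξ`,
`p₂ ξ ≈ P m* ξ`, and let `l` contain the normalisers occurring in `p₁` and in `star p₂`. For `p`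
from `exists_best`, `(m - p) ξ` is orthogonal to `(p₁ - p) ξ`, so `‖P (m - p) ξ‖ ≤ ‖P m ξ - p₁ ξ‖`;
similarly `(m - p)* ξ` is orthogonal to `(p₂ - p*) ξ`
(`⟪(a g)* ξ, (m - p)* ξ⟫ = φ(a E(g (m - p)*)) = 0`). -/
theorem Std.gd (h : Std A ξ) : GD (NS h.toMasa) ξ := by
  intro m e he
  obtain ⟨p₁, hp₁, h1⟩ := mem_cyc.1 ((R109.cyc (NS h.toMasa) ξ).starProjection_apply_mem (ap m ξ)) e he
  obtain ⟨p₂, hp₂, h2⟩ :=
    mem_cyc.1 ((R109.cyc (NS h.toMasa) ξ).starProjection_apply_mem (ap (star m) ξ)) e he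
  obtain ⟨l₁, hl₁, hs₁⟩ := dec_fin hp₁
  obtain ⟨l₂, hl₂, hs₂⟩ := dec_fin (star_mem hp₂)
  have hl : ∀ g ∈ l₁ ++ l₂, Nor A g := fun g hg => (List.mem_append.1 hg).elim (hl₁ g) (hl₂ g)
  obtain ⟨l', p, hl', hs, h0⟩ := h.exists_best (l₁ ++ l₂) hl m
  have hp : p ∈ NS h.toMasa := mem_NS.2 (Submodule.span_mono (by
    rintro _ ⟨a, ha, g, hg, e⟩
    exact ⟨a, ha, g, hl' g hg, e⟩) hs)
  have key : ∀ l : List (Al M), (∀ g ∈ l, g ∈ l₁ ++ l₂ ∨ g ∈ l') →
      ∀ z ∈ Submodule.span ℂ {m | ∃ a ∈ A, ∃ g ∈ l, a * g = m},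
        ph ξ (star z * (m - p)) = 0 ∧ ph ξ (z * star (m - p)) = 0 := by
    intro l hll z hz
    induction hz using Submodule.span_induction with
    | mem z hz =>
      obtain ⟨a, ha, g, hg, rfl⟩ := hz
      have h3 := h0 g (hll g hg)
      constructor
      · rw [← h.ph_E, star_mul, mul_assoc,
          dec_left h ((hll g hg).elim (hl g) (hl' g)) (star_mem ha) h3.1, map_zero]
      · rw [mul_assoc, ← h.ph_mul_E ha, h3.2, mul_zero, map_zero]
    | zero => simp
    | add x y _ _ hx hy =>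
      rw [star_add, add_mul, add_mul, map_add, map_add, hx.1, hx.2, hy.1, hy.2]
      simp
    | smul c x _ hx =>
      rw [star_smul, smul_mul_assoc, smul_mul_assoc, map_smul, map_smul, hx.1, hx.2]
      simp
  have k0 := key l' (fun g hg => Or.inr hg) p hs
  have k1 := key l₁ (fun g hg => Or.inl (List.mem_append_left _ hg)) _ hs₁
  have k2 := key l₂ (fun g hg => Or.inl (List.mem_append_right _ hg)) _ hs₂
  refine ⟨p, hp, fun b hb => ⟨?_, ?_⟩⟩
  · rw [ap_sub]
    refine dec_proj _ (dec_mem hp) (dec_mem hp₁) ?_ h1 (dec_mem hb)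
    rw [← ap_sub, ← ap_sub, ← ph_star_mul, star_sub, sub_mul, map_sub, k0.1, k1.1, sub_zero]
  · rw [star_sub, ap_sub]
    refine dec_proj _ (dec_mem (star_mem hp)) (dec_mem hp₂) ?_ h2 (dec_mem hb)
    rw [← ap_sub, ← ap_sub, ← ph_star_mul, star_sub p₂, star_star, sub_mul, map_sub, ← star_sub,
      k0.2, k2.2, sub_zero]

/-- Approximate `x` by a tame `x'` (`exists_tame`), let `y` be its compression
(`GD.exists_compress`), `w = x' - y` (right bounded by `GD.rb`, `Tame.rb`; diffuse since `w ξ` is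
orthogonal to `NS ξ`: test `E (g* w)` against `b ∈ A`, `ext_A`), `p` from `GD.exists_approx`. -/
theorem Std.exists_dec (h : Std A ξ) {x : Al M} (hx : IsSelfAdjoint x) (hx1 : ‖x‖ ≤ 1) {e : ℝ}
    (he : 0 < e) : ∃ p ∈ NS h.toMasa, ∃ (w : Al M) (C : ℝ), IsSelfAdjoint p ∧ ‖p‖ ≤ 1 ∧
      IsSelfAdjoint w ∧ ‖w‖ ≤ 2 ∧ Diffuse h w ∧ RB ξ C w ∧ ‖ap (x - p - w) ξ‖ ≤ e := by
  obtain ⟨x', hx', hx1', ⟨t, ht, hxt⟩, h1⟩ := h.exists_tame hx hx1 (half_pos he)
  obtain ⟨y, hy, hy1, h2⟩ := h.gd.exists_compress hx' hx1'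
  obtain ⟨p, hpB, hp, hp1, h3⟩ := h.gd.exists_approx hx' hx1' {ξ} (half_pos he)
  have hξ : ξ ∈ R109.cyc (NS h.toMasa) ξ := by simpa using dec_mem (ξ := ξ) (one_mem (NS h.toMasa))
  have h4 := h2 ξ hξ
  have h5 := h3 ξ (Finset.mem_singleton_self _) hξ
  refine ⟨p, hpB, x' - y, _, hp, hp1, hx'.sub hy, (norm_sub_le _ _).trans (by linarith),
    fun g hg => h.E_eq (zero_mem _) fun b hb => ?_,
    (Tame.rb ht hxt).sub (h.gd.rb h.sep ht hxt h4), ?_⟩
  · have h6 : g * star b ∈ NS h.toMasa := mul_mem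
      (mem_NS.2 (Submodule.subset_span ⟨1, one_mem _, g, hg, one_mul _⟩))
      (mem_NS.2 (Submodule.subset_span ⟨_, star_mem hb, 1,
        Nor.of_proj h.toMasa (one_mem _) (IsStarProjection.one _), mul_one _⟩))
    have e1 : b * (star g * (x' - y)) = star (g * star b) * (x' - y) := by
      rw [star_mul, star_star, mul_assoc]
    rw [mul_zero, map_zero, e1, ph_star_mul, ap_sub, h4]
    exact (Submodule.inner_right_of_mem_orthogonal (dec_mem h6)
      (Submodule.sub_starProjection_mem_orthogonal _)).symm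
  · have e1 : x - p - (x' - y) = x - x' - (p - y) := by abel
    rw [e1, ap_sub _ (p - y), ap_sub p, h4]
    linarith [norm_sub_le (ap (x - x') ξ) (ap p ξ - (R109.cyc (NS h.toMasa) ξ).starProjection (ap x' ξ))]

end Crest.Agent.R109
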