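import Mathlib

/-!
# R109: commuting projections, degree, and the `Q`-decomposition
-/

set_option autoImplicit false
open Finset

namespace Crest.Agent.R109

variable {K : Type*} [NormedAddCommGroup K] [InnerProductSpace ℂ K] [CompleteSpace K]
variable {S : Type*} [DecidableEq S]

/-- `Z` is killed by all products of `d + 1` distinct `P t`, `t ∈ T`. -/
def Dg (P : S → K →L[ℂ] K) : ℕ → Finset S → K → Prop
  | 0, T, Z => ∀ t ∈ T, P t Z = 0
  | d + 1, T, Z => ∀ t ∈ T, Dg P d (T.erase t) (P t Z)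

variable {P : S → K →L[ℂ] K} {d : ℕ} {T T' : Finset S} {Z Z' : K}

omit [CompleteSpace K] in
private lemma cp_comm {A B : K →L[ℂ] K} (h : Commute A B) {Z : K} : A (B Z) = B (A Z) := by
  rw [← mul_apply_eq_comp, h.eq, mul_apply_eq_comp]

private lemma cp_idem {p : K →L[ℂ] K} (hp : IsStarProjection p) (Z : K) : p (p Z) = p Z := by
  rw [← mul_apply_eq_comp, hp.isIdempotentElem.eq]

private lemma cp_inner {p : K →L[ℂ] K} (hp : IsStarProjection p) (x y : K) :
    inner ℂ (p x) y = inner ℂ x (p y) := by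
  rw [← ContinuousLinearMap.adjoint_inner_right, ← ContinuousLinearMap.star_eq_adjoint,
    hp.isSelfAdjoint.star_eq]

private lemma cp_pyth {p : K →L[ℂ] K} (hp : IsStarProjection p) (Z : K) :
    ‖Z‖ ^ 2 = ‖p Z‖ ^ 2 + ‖(1 - p) Z‖ ^ 2 := by
  have h : inner ℂ (p Z) ((1 - p) Z) = 0 := by
    rw [cp_inner hp]
    simp [cp_idem hp]
  have := norm_add_sq_eq_norm_sq_add_norm_sq_of_inner_eq_zero _ _ h
  simpa [sq] using this

private lemma cp_le {p : K →L[ℂ] K} (hp : IsStarProjection p) (Z : K) : ‖p Z‖ ≤ ‖Z‖ :=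
  (p.le_opNorm Z).trans (mul_le_of_le_one_left (norm_nonneg _) hp.norm_le)

omit [CompleteSpace K] in
theorem Dg.zero (P : S → K →L[ℂ] K) (d : ℕ) (T : Finset S) : Dg P d T 0 := by
  induction d generalizing T with
  | zero => exact fun t _ => map_zero _
  | succ d ih => exact fun t _ => by rw [map_zero]; exact ih _

omit [CompleteSpace K] in
theorem Dg.add (h : Dg P d T Z) (h' : Dg P d T Z') : Dg P d T (Z + Z') := by
  induction d generalizing T Z Z' with
  | zero => exact fun t ht => by rw [map_add, h t ht, h' t ht, add_zero]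
  | succ d ih => exact fun t ht => by rw [map_add]; exact ih (h t ht) (h' t ht)

omit [CompleteSpace K] in
theorem Dg.sum {α : Type*} (s : Finset α) {Z : α → K} (h : ∀ i ∈ s, Dg P d T (Z i)) :
    Dg P d T (∑ i ∈ s, Z i) := by
  classical
  induction s using Finset.induction_on with
  | empty => simpa using Dg.zero P d T
  | insert i s hi ih =>
    rw [sum_insert hi]
    exact (h i (mem_insert_self _ _)).add (ih fun j hj => h j (mem_insert_of_mem hj))

omit [CompleteSpace K] in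
theorem Dg.mono (h : Dg P d T Z) (hT : T' ⊆ T) : Dg P d T' Z := by
  induction d generalizing T T' Z with
  | zero => exact fun t ht => h t (hT ht)
  | succ d ih => exact fun t ht => ih (h t (hT ht)) (erase_subset_erase _ hT)

omit [CompleteSpace K] in
theorem Dg.map (h : Dg P d T Z) {B : K →L[ℂ] K} (hB : ∀ t ∈ T, Commute B (P t)) :
    Dg P d T (B Z) := by
  induction d generalizing T Z with
  | zero => exact fun t ht => by rw [← cp_comm (hB t ht), h t ht, map_zero]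
  | succ d ih =>
    intro t ht
    rw [← cp_comm (hB t ht)]
    exact ih (h t ht) fun r hr => hB r (mem_of_mem_erase hr)

omit [CompleteSpace K] in
/-- Induction on `d`. For `r = t` use `Dg.map` with `P t * B` on `T.erase t`; for `r ≠ t`,
`P r (B Z) = B (P r Z)`. -/
theorem Dg.mul (hc : ∀ s t, Commute (P s) (P t)) (h : Dg P d T Z) {B : K →L[ℂ] K} (t : S)
    (hB : ∀ r, r ≠ t → Commute B (P r)) : Dg P (d + 1) T (B Z) := by
  have h0 : ∀ {d : ℕ} {T : Finset S} {Z : K}, Dg P d T Z → Dg P d (T.erase t) (P t (B Z)) :=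
    fun h => (h.mono (erase_subset _ _)).map (B := P t * B) fun r hr =>
      (hc t r).mul_left (hB r (ne_of_mem_erase hr))
  induction d generalizing T Z with
  | zero =>
    intro r hr
    rcases eq_or_ne r t with rfl | hrt
    · exact h0 h
    · rw [← cp_comm (hB r hrt), h r hr, map_zero]
      exact Dg.zero _ _ _
  | succ d ih =>
    intro r hr
    rcases eq_or_ne r t with rfl | hrt
    · exact h0 h
    · rw [← cp_comm (hB r hrt)]
      exact ih (h r hr)

/-- Induction on `T` (generalising `d`, `Z`): split `Z = P t₀ Z + (1 - P t₀) Z` orthogonally. -/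
theorem Dg.sum_sq_le (hP : ∀ t, IsStarProjection (P t)) (hc : ∀ s t, Commute (P s) (P t))
    (h : Dg P d T Z) : ∑ t ∈ T, ‖P t Z‖ ^ 2 ≤ d * ‖Z‖ ^ 2 := by
  induction T using Finset.induction_on generalizing d Z with
  | empty => simp only [sum_empty]; positivity
  | insert t₀ T ht₀ ih =>
    cases d with
    | zero =>
      rw [sum_eq_zero fun t ht => by rw [h t ht]; simp]
      simp
    | succ d =>
      have h1 : Dg P d T (P t₀ Z) := by
        have := h t₀ (mem_insert_self _ _)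
        rwa [erase_insert ht₀] at this
      have h2 : Dg P (d + 1) T ((1 - P t₀) Z) :=
        (h.mono (subset_insert _ _)).map fun t _ => (Commute.one_left _).sub_left (hc _ _)
      have h3 : ∀ t, ‖P t Z‖ ^ 2 = ‖P t (P t₀ Z)‖ ^ 2 + ‖P t ((1 - P t₀) Z)‖ ^ 2 := fun t => by
        rw [cp_pyth (hP t₀) (P t Z), cp_comm (hc t₀ t),
          cp_comm ((Commute.one_left (P t)).sub_left (hc t₀ t))]
      rw [sum_insert ht₀, sum_congr rfl fun t _ => h3 t, sum_add_distrib, cp_pyth (hP t₀) Z]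
      have h4 := ih h1
      have h5 := ih h2
      push_cast at h5 ⊢
      linarith

/-- With `Z = ∑ P t (V t)`: `‖Z‖² = ∑ ⟪P t (V t), P t Z⟫`, Cauchy-Schwarz and `sum_sq_le`. -/
theorem norm_sum_sq_le (hP : ∀ t, IsStarProjection (P t)) (hc : ∀ s t, Commute (P s) (P t))
    {V : S → K} (h : ∀ t ∈ T, Dg P d T (V t)) :
    ‖∑ t ∈ T, P t (V t)‖ ^ 2 ≤ d * ∑ t ∈ T, ‖P t (V t)‖ ^ 2 := by
  set Z := ∑ t ∈ T, P t (V t) with hZ
  have h1 : Dg P d T Z := Dg.sum _ fun t ht => (h t ht).map fun r _ => hc t r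
  have h2 := h1.sum_sq_le hP hc
  have h3 : ‖Z‖ ^ 2 ≤ ∑ t ∈ T, ‖P t (V t)‖ * ‖P t Z‖ := by
    rw [← inner_self_eq_norm_sq (𝕜 := ℂ), show inner ℂ Z Z = ∑ t ∈ T, inner ℂ (P t (V t)) Z from
      sum_inner _ _ _, map_sum]
    refine sum_le_sum fun t _ => ?_
    rw [← cp_idem (hP t) (V t), cp_inner (hP t), cp_idem (hP t)]
    exact re_inner_le_norm _ _
  have h4 := sum_mul_sq_le_sq_mul_sq T (fun t => ‖P t (V t)‖) fun t => ‖P t Z‖
  have h5 : 0 ≤ ∑ t ∈ T, ‖P t (V t)‖ ^ 2 := sum_nonneg fun _ _ => sq_nonneg _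
  rcases (sq_nonneg ‖Z‖).eq_or_lt with h6 | h6
  · rw [← h6]; positivity
  refine le_of_mul_le_mul_right ?_ h6
  calc ‖Z‖ ^ 2 * ‖Z‖ ^ 2 = (‖Z‖ ^ 2) ^ 2 := by ring
    _ ≤ (∑ t ∈ T, ‖P t (V t)‖ * ‖P t Z‖) ^ 2 := by gcongr
    _ ≤ (∑ t ∈ T, ‖P t (V t)‖ ^ 2) * (d * ‖Z‖ ^ 2) := h4.trans (by gcongr)
    _ = _ := by ring

section diag
variable [Fintype S] {e A B : S → K →L[ℂ] K}

omit [DecidableEq S] in
private lemma cp_parseval (he : ∀ t, IsStarProjection (e t))
    (heo : Pairwise fun s t => e s * e t = 0) (hes : ∑ t, e t = 1) (V : K) :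
    ‖V‖ ^ 2 = ∑ t, ‖e t V‖ ^ 2 := by
  have h : V = ∑ t, e t V := by
    rw [← _root_.sum_apply, hes, one_apply_eq_self]
  rw [← inner_self_eq_norm_sq (𝕜 := ℂ), show inner ℂ V V = ∑ t, inner ℂ (e t V) V by
    rw [← sum_inner, ← h], map_sum]
  refine sum_congr rfl fun t _ => ?_
  rw [← inner_self_eq_norm_sq (𝕜 := ℂ), ← cp_idem (he t) V, cp_inner (he t), cp_idem (he t)]

omit [DecidableEq S] in
private lemma cp_diag_apply (he : ∀ t, IsStarProjection (e t))
    (heo : Pairwise fun s t => e s * e t = 0) (hA : ∀ s t, Commute (A s) (e t)) (s : S) (V : K) :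
    e s ((∑ t, A t * e t) V) = A s (e s V) := by
  rw [_root_.sum_apply, map_sum, sum_eq_single s]
  · rw [mul_apply_eq_comp, ← cp_comm (hA s s), cp_idem (he s)]
  · intro t _ hts
    rw [mul_apply_eq_comp, ← cp_comm (hA t s), ← mul_apply_eq_comp (e s),
      heo hts.symm]
    simp
  · simp

omit [DecidableEq S] in
private lemma cp_diag_mul (he : ∀ t, IsStarProjection (e t))
    (heo : Pairwise fun s t => e s * e t = 0) (A : S → K →L[ℂ] K)
    (hB : ∀ s t, Commute (B s) (e t)) (V : K) :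
    (∑ t, A t * e t) ((∑ t, B t * e t) V) = (∑ t, A t * B t * e t) V := by
  rw [_root_.sum_apply, _root_.sum_apply _ (fun t => A t * B t * e t)]
  refine sum_congr rfl fun t _ => ?_
  rw [mul_apply_eq_comp, cp_diag_apply he heo hB]
  rfl

omit [DecidableEq S] in
private lemma cp_diag_le (he : ∀ t, IsStarProjection (e t))
    (heo : Pairwise fun s t => e s * e t = 0) (hes : ∑ t, e t = 1)
    (hA : ∀ s t, Commute (A s) (e t)) {c : ℝ} (hc : 0 ≤ c) (h : ∀ t, ‖A t‖ ≤ c) (V : K) :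
    ‖(∑ t, A t * e t) V‖ ≤ c * ‖V‖ := by
  refine (pow_le_pow_iff_left₀ (norm_nonneg _) (by positivity) two_ne_zero).1 ?_
  rw [mul_pow, cp_parseval he heo hes, cp_parseval he heo hes V, mul_sum]
  refine sum_le_sum fun t _ => ?_
  rw [cp_diag_apply he heo hA, ← mul_pow]
  gcongr
  exact ((A t).le_opNorm _).trans (by gcongr; exact h t)

end diag

/-- Let `Q = ∑ e t (1 - P t)`, `1 - Q = ∑ e t P t`, `ℓ = ∑ ε t e t` (projections).
`‖ℓ Q V‖² = ∑ ‖ε t (1 - P t) e t V‖² = ρ ∑ ‖(1 - P t) e t V‖² ≤ ρ ‖V‖²`, so `‖ℓ Q‖ = ‖Q ℓ‖ ≤ √ρ`.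
`ℓ w ℓ = ℓ Q w ℓ + ℓ (1 - Q) w Q ℓ + ℓ (1 - Q) w (1 - Q) ℓ`, and
`‖(1 - Q) w (1 - Q) Z'‖² = ∑_s ‖∑_t P t (P s e s w e t Z')‖²`; `norm_sum_sq_le`. -/
theorem q_step [Fintype S] (hP : ∀ t, IsStarProjection (P t)) (hc : ∀ s t, Commute (P s) (P t))
    {e ε : S → K →L[ℂ] K} (he : ∀ t, IsStarProjection (e t))
    (heo : Pairwise fun s t => e s * e t = 0) (hes : ∑ t, e t = 1)
    (heP : ∀ s t, Commute (e s) (P t)) (hε : ∀ t, IsStarProjection (ε t))
    (hεe : ∀ s t, Commute (ε s) (e t)) {ρ : ℝ} (hρ : 0 ≤ ρ)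
    (hερ : ∀ t, (1 - P t) * ε t * (1 - P t) = (ρ : ℂ) • (1 - P t)) {w : K →L[ℂ] K}
    (hw : ∀ t, Commute w (P t)) (h : Dg P d univ ((∑ t, ε t * e t) Z)) :
    ‖(∑ t, ε t * e t) (w ((∑ t, ε t * e t) Z))‖ ≤ 2 * √ρ * ‖w‖ * ‖Z‖ +
      √(d * ∑ s, ∑ t, ‖P s (e s (w (e t ((∑ t, ε t * e t) Z))))‖ ^ 2) := by
  set ℓ := ∑ t, ε t * e t with hℓ
  set Z' := ℓ Z with hZ'
  have hPe : ∀ s t, Commute (P s) (e t) := fun s t => (heP t s).symm
  have hQe : ∀ s t, Commute (1 - P s) (e t) := fun s t => (Commute.one_left _).sub_left (hPe s t)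
  have hn : ∀ t, ‖ε t * (1 - P t)‖ ≤ √ρ := by
    intro t
    refine Real.le_sqrt_of_sq_le ?_
    rw [sq, ← CStarRing.norm_star_mul_self, star_mul, (hP t).one_sub.isSelfAdjoint.star_eq,
      (hε t).isSelfAdjoint.star_eq, ← mul_assoc, mul_assoc (1 - P t) (ε t),
      (hε t).isIdempotentElem.eq,
      hερ, norm_smul, Complex.norm_real, Real.norm_of_nonneg hρ]
    exact mul_le_of_le_one_right hρ (hP t).one_sub.norm_le
  have hn' : ∀ t, ‖(1 - P t) * ε t‖ ≤ √ρ := fun t => by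
    rw [← norm_star, star_mul, (hP t).one_sub.isSelfAdjoint.star_eq, (hε t).isSelfAdjoint.star_eq]
    exact hn t
  have hℓ1 : ∀ V, ‖ℓ V‖ ≤ ‖V‖ := fun V => by
    simpa only [one_mul] using cp_diag_le he heo hes hεe zero_le_one (fun t => (hε t).norm_le) V
  have hR1 : ∀ V, ‖(∑ t, P t * e t) V‖ ≤ ‖V‖ := fun V => by
    simpa only [one_mul] using cp_diag_le he heo hes hPe zero_le_one (fun t => (hP t).norm_le) V
  have hQR : ∀ V, V = (∑ t, (1 - P t) * e t) V + (∑ t, P t * e t) V := fun V => by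
    rw [← add_apply, ← sum_add_distrib]
    simp only [← add_mul, sub_add_cancel, one_mul, hes, one_apply_eq_self]
  have hw1 : ∀ V, ‖w V‖ ≤ ‖w‖ * ‖V‖ := w.le_opNorm
  have h1 : ‖ℓ ((∑ t, (1 - P t) * e t) (w Z'))‖ ≤ √ρ * ‖w‖ * ‖Z‖ := by
    rw [hℓ, cp_diag_mul he heo _ hQe]
    refine (cp_diag_le he heo hes (fun s t => (hεe s t).mul_left (hQe s t)) (Real.sqrt_nonneg _)
      hn _).trans ?_
    rw [mul_assoc]
    gcongr
    exact (hw1 _).trans (by gcongr; exact hℓ1 Z)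
  have h2 : ‖ℓ ((∑ t, P t * e t) (w ((∑ t, (1 - P t) * e t) Z')))‖ ≤ √ρ * ‖w‖ * ‖Z‖ := by
    refine (hℓ1 _).trans ((hR1 _).trans ((hw1 _).trans ?_))
    rw [mul_comm (√ρ), mul_assoc, hZ', hℓ, cp_diag_mul he heo _ hεe]
    gcongr
    exact cp_diag_le he heo hes (fun s t => (hQe s t).mul_left (hεe s t)) (Real.sqrt_nonneg _)
      hn' _
  have h3 : ‖ℓ ((∑ t, P t * e t) (w ((∑ t, P t * e t) Z')))‖ ≤
      √(d * ∑ s, ∑ t, ‖P s (e s (w (e t Z')))‖ ^ 2) := by
    refine (hℓ1 _).trans (Real.le_sqrt_of_sq_le ?_)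
    rw [cp_parseval he heo hes, mul_sum]
    refine sum_le_sum fun s _ => ?_
    have e1 : e s ((∑ t, P t * e t) (w ((∑ t, P t * e t) Z'))) =
        ∑ t, P t (P s (e s (w (e t Z')))) := by
      rw [cp_diag_apply he heo hPe, _root_.sum_apply, map_sum, map_sum, map_sum]
      refine sum_congr rfl fun t _ => ?_
      rw [mul_apply_eq_comp, cp_comm (hw t), cp_comm (heP s t), cp_comm (hc s t)]
    rw [e1]
    refine (norm_sum_sq_le hP hc (V := fun t => P s (e s (w (e t Z')))) fun t _ =>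
      (((h.map fun r _ => heP t r).map fun r _ => hw r).map fun r _ => heP s r).map
        fun r _ => hc s r).trans ?_
    gcongr with t
    exact cp_le (hP t) _
  have h4 : ℓ (w Z') = ℓ ((∑ t, (1 - P t) * e t) (w Z')) +
      ℓ ((∑ t, P t * e t) (w ((∑ t, (1 - P t) * e t) Z'))) +
      ℓ ((∑ t, P t * e t) (w ((∑ t, P t * e t) Z'))) := by
    rw [add_assoc, ← map_add, ← map_add, ← map_add, ← map_add, ← hQR, ← hQR]
  rw [h4]
  linarith [norm_add₃_le (a := ℓ ((∑ t, (1 - P t) * e t) (w Z')))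
    (b := ℓ ((∑ t, P t * e t) (w ((∑ t, (1 - P t) * e t) Z'))))
    (c := ℓ ((∑ t, P t * e t) (w ((∑ t, P t * e t) Z'))))]

end Crest.Agent.R109
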