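import Crest.Agent.R109.Diff
import Crest.Agent.R109.CP

/-!
# R109: moments of a randomly compressed diffuse element
-/

set_option autoImplicit false
open Filter Topology Finset
open scoped InnerProductSpace Classical

namespace Crest.Agent.R109
open Crest.Agent.R121

universe u
variable {H : Type u} [NormedAddCommGroup H] [InnerProductSpace ℂ H] [CompleteSpace H]
variable {M : VonNeumannAlgebra H} {A : StarSubalgebra ℂ (Al M)} {ξ : H}

/-- Let `p` be given by `cS_small` (tiny `c`), `g_α = E (w* p_α w)`; `exists_cut` for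
`T = ∑ g_α²` (or a Gelfand model) gives a projection `f ∈ A` with `‖(1 - f) ξ‖` small and
`‖g_α f‖ ≤ γ`. Refine `p` so that `D_α = Ep q (w* p_α w) - g_α` is small at `ξ` for all finer `q`
(`E_approx`, `exists_ref_all`). With `α s` from `Ref.exists_map` and `ζ_s = u q_s ξ`:
`∑_t ‖q_s w q_t ζ_s‖² ≤ ∑_t ‖p_α w q_t ζ_s‖² = ⟪ζ_s, Ep q (w* p_α w) ζ_s⟫
≤ γ ‖ζ_s‖² + ‖w‖² ‖(1 - f) ζ_s‖² + ∑_α ‖ζ_s‖ ‖D_α ζ_s‖`. Sum over `s` with
`∑_s ‖y u q_s ξ‖² = ‖y u ξ‖² ≤ C² ‖y ξ‖²` (`sum_norm_sq_right`) and Cauchy-Schwarz. -/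
theorem Diffuse.loop_small {h : Std A ξ} {w : Al M} (hw : Diffuse h w) {e : ℝ} (he : 0 < e) :
    ∃ (n : ℕ) (p : Fin n → Al M), Ptn A p ∧ ∀ (S : Type) [Fintype S] (q : S → Al M), Ptn A q →
      Ref p q → ∀ (C : ℝ) (u : Al M), RB ξ C u →
        ∑ s, ∑ t, ‖ap (q s * w * q t * u * q s) ξ‖ ^ 2 ≤ e * C ^ 2 := by
  obtain ⟨n, p, hp, hc⟩ := hw.cS_small (c := e ^ 2 / 4) (by positivity)
  obtain ⟨δ, hδ, hδe⟩ : ∃ δ : ℝ, 0 < δ ∧ n * δ ^ 2 ≤ e ^ 2 / 4 := by
    refine ⟨e / 2 / (n + 1), by positivity, ?_⟩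
    calc (n : ℝ) * (e / 2 / (n + 1)) ^ 2 ≤ (n + 1) ^ 2 * (e / 2 / (n + 1)) ^ 2 := by
          gcongr
          nlinarith [Nat.cast_nonneg (α := ℝ) n]
      _ = _ := by field_simp; norm_num
  choose m r hr hE using fun α => h.E_approx (star w * p α * w) hδ
  obtain ⟨m₁, r₁, hr₁, h1⟩ := exists_ref_all h.toMasa m r hr
  obtain ⟨m₂, r₂, hr₂, h2, h3⟩ := exists_ref h.toMasa hp hr₁
  refine ⟨m₂, r₂, hr₂, fun S _ q hq hrq C u hu => ?_⟩
  choose α hα using h2.trans hrq
  have hX : ∑ a, ‖ap (Ep q (star w * p a * w)) ξ‖ ^ 2 ≤ e ^ 2 := by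
    calc ∑ a, ‖ap (Ep q (star w * p a * w)) ξ‖ ^ 2
        ≤ ∑ a, (2 * ‖ap (h.E (star w * p a * w)) ξ‖ ^ 2 + 2 * δ ^ 2) := by
          refine sum_le_sum fun a _ => ?_
          have h4 := hE a S q hq (((h1 a).trans h3).trans hrq)
          rw [ap_sub] at h4
          have h5 := norm_le_norm_add_norm_sub' (ap (Ep q (star w * p a * w)) ξ)
            (ap (h.E (star w * p a * w)) ξ)
          refine (pow_le_pow_left₀ (norm_nonneg _) (h5.trans (add_le_add le_rfl h4)) 2).trans ?_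
          nlinarith [sq_nonneg (‖ap (h.E (star w * p a * w)) ξ‖ - δ)]
      _ ≤ _ := by
          rw [sum_add_distrib, ← mul_sum, sum_const, card_univ, Fintype.card_fin, nsmul_eq_mul]
          unfold cS at hc
          linarith
  have hu2 : ∀ y : Al M, ∑ s, ‖ap y (ap (u * q s) ξ)‖ ^ 2 ≤ C ^ 2 * ‖ap y ξ‖ ^ 2 := fun y => by
    simp only [← ap_mul, ← mul_assoc]
    rw [h.sum_norm_sq_right hq, ← mul_pow]
    exact pow_le_pow_left₀ (norm_nonneg _) (hu y) 2
  have h4 : ∀ s, ∑ t, ‖ap (q s * w * q t * u * q s) ξ‖ ^ 2 ≤ e / 2 * ‖ap (u * q s) ξ‖ ^ 2 +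
      1 / (2 * e) * ∑ a, ‖ap (Ep q (star w * p a * w)) (ap (u * q s) ξ)‖ ^ 2 := fun s => by
    have e0 : ∀ t, ap (q s * w * q t * u * q s) ξ =
        ap (q s) (ap (p (α s) * w * q t) (ap (u * q s) ξ)) := fun t => by
      simp only [← ap_mul, ← mul_assoc]
      rw [proj_le_comm (hp.proj _) (hq.proj s) (hα s)]
    simp only [e0]
    generalize ap (u * q s) ξ = ζ
    have h5 := single_le_sum (f := fun a => ‖ap (Ep q (star w * p a * w)) ζ‖ ^ 2)
      (fun _ _ => sq_nonneg _) (mem_univ (α s))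
    calc ∑ t, ‖ap (q s) (ap (p (α s) * w * q t) ζ)‖ ^ 2
        ≤ ∑ t, (⟪ζ, ap (q t * (star w * p (α s) * w) * q t) ζ⟫_ℂ).re := by
          refine sum_le_sum fun t _ => ?_
          refine (pow_le_pow_left₀ (norm_nonneg _) (std_proj_le (hq.proj s) _) 2).trans_eq ?_
          rw [std_norm_sq]
          simp only [star_mul, proj_star (hq.proj t), proj_star (hp.proj _), mul_assoc,
            proj_mul_self_left (hp.proj _)]
      _ = (⟪ζ, ap (Ep q (star w * p (α s) * w)) ζ⟫_ℂ).re := by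
          rw [Ep, ap_sum, inner_sum, Complex.re_sum]
      _ ≤ ‖ζ‖ * ‖ap (Ep q (star w * p (α s) * w)) ζ‖ :=
          (Complex.re_le_norm _).trans (norm_inner_le_norm _ _)
      _ ≤ e / 2 * ‖ζ‖ ^ 2 + 1 / (2 * e) * ‖ap (Ep q (star w * p (α s) * w)) ζ‖ ^ 2 := by
          generalize ‖ap (Ep q (star w * p (α s) * w)) ζ‖ = b
          have : e / 2 * ‖ζ‖ ^ 2 + 1 / (2 * e) * b ^ 2 - ‖ζ‖ * b = (e * ‖ζ‖ - b) ^ 2 / (2 * e) := by
            field_simp
            ring
          have h6 : 0 ≤ (e * ‖ζ‖ - b) ^ 2 / (2 * e) := by positivity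
          linarith
      _ ≤ _ := by gcongr
  refine (sum_le_sum fun s _ => h4 s).trans ?_
  rw [sum_add_distrib, ← mul_sum, ← mul_sum, sum_comm]
  have h5 := hu2 1
  simp only [ap_one, h.norm, one_pow, mul_one] at h5
  have h6 : ∑ a, ∑ s, ‖ap (Ep q (star w * p a * w)) (ap (u * q s) ξ)‖ ^ 2 ≤ C ^ 2 * e ^ 2 := by
    refine (sum_le_sum fun a _ => hu2 _).trans ?_
    rw [← mul_sum]
    gcongr
  calc _ ≤ e / 2 * C ^ 2 + 1 / (2 * e) * (C ^ 2 * e ^ 2) := by gcongr
    _ = _ := by field_simp; ring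

variable {S : Type} [Fintype S] {n : ℕ} [NeZero n]

/-- The random projection. -/
noncomputable def mark (q : S → Al M) (κ : S → Fin n) : Al M := ∑ s ∈ univ.filter (κ · = 0), q s

/-- The random projection without the atom `s`. -/
noncomputable def mark' (q : S → Al M) (s : S) (κ : S → Fin n) : Al M :=
  ∑ r ∈ (univ.filter (κ · = 0)).erase s, q r

theorem lf_mark {q : S → Al M} (hq : Ptn A q) (κ : S → Fin n) :
    mark q κ ∈ A ∧ IsStarProjection (mark q κ) :=
  ⟨sum_mem fun i _ => hq.mem i, proj_finsum hq.proj hq.orth _⟩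

theorem lf_mark' {q : S → Al M} (hq : Ptn A q) (s : S) (κ : S → Fin n) :
    mark' q s κ ∈ A ∧ IsStarProjection (mark' q s κ) :=
  ⟨sum_mem fun i _ => hq.mem i, proj_finsum hq.proj hq.orth _⟩

theorem lf_mark_sub (q : S → Al M) (s : S) (κ : S → Fin n) :
    mark q κ - mark' q s κ = 0 ∨ mark q κ - mark' q s κ = q s := by
  unfold mark mark'
  by_cases h : s ∈ univ.filter (κ · = 0)
  · rw [← add_sum_erase _ _ h, add_sub_cancel_right]
    exact Or.inr rfl
  · rw [erase_eq_of_notMem h, sub_self]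
    exact Or.inl rfl

theorem lf_mark'_update (q : S → Al M) (s : S) (κ : S → Fin n) (k : Fin n) :
    mark' q s (Function.update κ s k) = mark' q s κ := by
  unfold mark'
  congr 1
  ext r
  by_cases h : r = s <;> simp [h]

theorem lf_rb_pow {C : ℝ} {x : Al M} (h : RB ξ C x) (hC : 0 ≤ C) (i : ℕ) : RB ξ (C ^ i) (x ^ i) := by
  induction i with
  | zero => intro y; simp
  | succ i ih => rw [pow_succ, pow_succ]; exact ih.mul h hC

/-- An operator given by its coordinates. -/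
noncomputable def lfOp {ι : Type} [Fintype ι] (f : ι → PiLp 2 (fun _ : ι => H) →L[ℂ] H) :
    PiLp 2 (fun _ : ι => H) →L[ℂ] PiLp 2 (fun _ : ι => H) :=
  (PiLp.continuousLinearEquiv 2 ℂ _).symm.toContinuousLinearMap ∘L ContinuousLinearMap.pi f

/-- Diagonal operators. -/
noncomputable def lfD (M : VonNeumannAlgebra H) (ι : Type) [Fintype ι] :
    (ι → Al M) →⋆ₐ[ℂ] (PiLp 2 (fun _ : ι => H) →L[ℂ] PiLp 2 (fun _ : ι => H)) where
  toFun a := lfOp fun i => (a i : H →L[ℂ] H) ∘L PiLp.proj 2 (fun _ : ι => H) i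
  map_one' := rfl
  map_mul' _ _ := rfl
  map_zero' := rfl
  map_add' _ _ := rfl
  commutes' _ := rfl
  map_star' a := by
    rw [ContinuousLinearMap.star_eq_adjoint, ContinuousLinearMap.eq_adjoint_iff]
    intro V W
    simp only [PiLp.inner_apply]
    exact sum_congr rfl fun i _ => (inner_ap_right (a i) (V i) (W i)).symm

theorem lfD_apply {ι : Type} [Fintype ι] (a : ι → Al M) (V : PiLp 2 fun _ : ι => H) (i : ι) :
    lfD M _ a V i = ap (a i) (V i) := rfl

theorem lfD_norm {ι : Type} [Fintype ι] (a : ι → Al M) (ξ : H) :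
    ‖lfD M _ a (WithLp.toLp 2 fun _ => ξ)‖ = √(∑ i, ‖ap (a i) ξ‖ ^ 2) := PiLp.norm_eq_of_L2 _

/-- Averaging over the coordinate `t`. -/
noncomputable def lfAv (t : S) :
    PiLp 2 (fun _ : S → Fin n => H) →L[ℂ] PiLp 2 (fun _ : S → Fin n => H) :=
  lfOp fun κ => (n : ℂ)⁻¹ • ∑ k, PiLp.proj 2 (fun _ : S → Fin n => H) (Function.update κ t k)

omit [CompleteSpace H] [NeZero n] in
theorem lfAv_apply (t : S) (V : PiLp 2 fun _ : S → Fin n => H) (κ : S → Fin n) :
    lfAv t V κ = (n : ℂ)⁻¹ • ∑ k, V (Function.update κ t k) := by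
  simp [lfAv, lfOp]

omit [CompleteSpace H] in
theorem lf_avg (v : H) : (n : ℂ)⁻¹ • ∑ _k : Fin n, v = v := by
  rw [sum_const, card_univ, Fintype.card_fin, ← Nat.cast_smul_eq_nsmul ℂ,
    inv_smul_smul₀ (Nat.cast_ne_zero.2 (NeZero.ne n))]

omit [CompleteSpace H] in
theorem lfAv_const (t : S) (ξ : H) :
    lfAv t (WithLp.toLp 2 fun _ : S → Fin n => ξ) = WithLp.toLp 2 fun _ => ξ := by
  ext κ
  rw [lfAv_apply]
  exact lf_avg ξ

theorem lfAv_proj (t : S) : IsStarProjection (lfAv (H := H) (n := n) t) := by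
  constructor
  · ext V κ
    simp only [mul_apply_eq_comp, lfAv_apply, Function.update_idem, lf_avg]
  · rw [ContinuousLinearMap.isSelfAdjoint_iff_isSymmetric]
    intro V W
    simp only [ContinuousLinearMap.coe_coe, PiLp.inner_apply, lfAv_apply, inner_smul_left,
      inner_smul_right, sum_inner, inner_sum, ← mul_sum, map_inv₀, Complex.conj_natCast]
    congr 1
    have hi : Function.Involutive fun z : (S → Fin n) × Fin n =>
        (Function.update z.1 t z.2, z.1 t) := fun z => by simp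
    rw [← Fintype.sum_prod_type', ← Fintype.sum_prod_type', ← Equiv.sum_comp hi.toPerm]
    simp

omit [CompleteSpace H] [NeZero n] in
theorem lfAv_comm (s t : S) : Commute (lfAv (H := H) (n := n) s) (lfAv t) := by
  rcases eq_or_ne s t with rfl | hst
  · exact Commute.refl _
  ext V κ
  simp only [mul_apply_eq_comp, lfAv_apply, smul_sum, Function.update_comm hst]
  exact sum_comm

omit [NeZero n] in
theorem lfD_comm (a : (S → Fin n) → Al M) (t : S) (ha : ∀ κ k, a (Function.update κ t k) = a κ) :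
    Commute (lfD M _ a) (lfAv t) := by
  ext V κ
  simp only [mul_apply_eq_comp, lfAv_apply, lfD_apply, ha, map_smul, map_sum]

theorem lfAv_eps (t : S) : lfAv t * lfD M _ (fun κ : S → Fin n => if κ t = 0 then 1 else 0) *
    lfAv t = (((n : ℝ)⁻¹ : ℝ) : ℂ) • lfAv t := by
  ext V κ
  have e : ∀ (k : Fin n) (v : H), ap (if k = 0 then (1 : Al M) else 0) v = if k = 0 then v else 0 :=
    fun k v => by split_ifs <;> rfl
  simp only [mul_apply_eq_comp, smul_apply, PiLp.smul_apply,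
    lfAv_apply, lfD_apply, Function.update_idem, Function.update_self, e, sum_ite_eq', mem_univ,
    if_true, Complex.ofReal_inv, Complex.ofReal_natCast]

/-- `q_step` on `K = PiLp 2 (fun _ : S → Fin n => H)`. `e t`, `w` act diagonally, `ε t` is
multiplication by `1[κ t = 0]`, `(1 - P t) V κ = n⁻¹ ∑_k V (update κ t k)`, `ρ = 1/n`. The vector
`Z_j κ = (ℓ w)^j ℓ ξ` has degree `j + 1` (`Dg.mul`, `Dg.sum`, `Dg.map`; constants have degree
`0`), `ℓ Z_j = Z_j`, and `P s` kills vectors that do not depend on `κ s`, so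
`‖P s V‖ ≤ ‖V - V'‖` with `V'` built from `mark' q s`. -/
theorem rand_step {q : S → Al M} (hq : Ptn A q) (w : Al M) (j : ℕ) :
    √(∑ κ : S → Fin n, ‖ap ((mark q κ * w) ^ (j + 1) * mark q κ) ξ‖ ^ 2) ≤
      2 * ‖w‖ / √n * √(∑ κ : S → Fin n, ‖ap ((mark q κ * w) ^ j * mark q κ) ξ‖ ^ 2) +
      √((j + 1) * ∑ κ : S → Fin n, ∑ s, ∑ t, ‖ap (q s * w * q t *
        ((mark q κ * w) ^ j * mark q κ - (mark' q s κ * w) ^ j * mark' q s κ)) ξ‖ ^ 2) := by
  have hP : ∀ t : S, IsStarProjection (1 - lfAv (H := H) (n := n) t) := fun t => (lfAv_proj t).one_sub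
  have hc : ∀ s t : S, Commute (1 - lfAv (H := H) (n := n) s) (1 - lfAv t) := fun s t =>
    (Commute.one_left _).sub_left ((Commute.one_right _).sub_right (lfAv_comm s t))
  have hD : ∀ (a : (S → Fin n) → Al M) (t : S), (∀ κ k, a (Function.update κ t k) = a κ) →
      Commute (lfD M _ a) (1 - lfAv t) := fun a t ha => (Commute.one_right _).sub_right (lfD_comm a t ha)
  obtain ⟨ε, hε⟩ : ∃ ε : S → (S → Fin n) → Al M, ε = fun t κ => if κ t = 0 then 1 else 0 := ⟨_, rfl⟩
  have hl : ∑ t, lfD M _ (ε t) * lfD M _ (fun _ => q t) = lfD M _ (mark q : (S → Fin n) → Al M) := by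
    simp only [← map_mul, ← map_sum]
    congr 1
    funext κ
    simp [hε, mark, sum_filter]
  have hdeg : ∀ (d : ℕ) (Z : PiLp 2 fun _ : S → Fin n => H), Dg (fun t => 1 - lfAv t) d univ Z →
      Dg (fun t => 1 - lfAv t) (d + 1) univ (lfD M _ (mark q : (S → Fin n) → Al M) Z) := by
    intro d Z hZ
    rw [← hl, _root_.sum_apply]
    refine Dg.sum _ fun t _ => hZ.mul hc t fun r hr => ?_
    rw [← map_mul]
    exact hD _ r fun κ k => by simp [hε, Function.update_of_ne hr.symm]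
  have h0 : ∀ t : S, (1 - lfAv (H := H) (n := n) t) (WithLp.toLp 2 fun _ : S → Fin n => ξ) = 0 := fun t => by
    rw [_root_.sub_apply, lfAv_const, one_apply_eq_self, sub_self]
  have hZ : ∀ j : ℕ, Dg (fun t => 1 - lfAv t) (j + 1) univ
      (lfD M _ (fun κ : S → Fin n => (mark q κ * w) ^ j * mark q κ) (WithLp.toLp 2 fun _ => ξ)) := by
    intro j
    induction j with
    | zero => simpa using hdeg 0 _ fun t _ => h0 t
    | succ j ih =>
      have h1 := hdeg _ _ (ih.map (B := lfD M _ fun _ => w) fun t _ => hD _ t fun _ _ => rfl)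
      simp only [← mul_apply_eq_comp, ← map_mul] at h1
      simpa only [Pi.mul_def, pow_succ', mul_assoc] using h1
  have hlZ : lfD M _ (mark q : (S → Fin n) → Al M)
      (lfD M _ (fun κ : S → Fin n => (mark q κ * w) ^ j * mark q κ) (WithLp.toLp 2 fun _ => ξ)) =
      lfD M _ (fun κ : S → Fin n => (mark q κ * w) ^ j * mark q κ) (WithLp.toLp 2 fun _ => ξ) := by
    rw [← mul_apply_eq_comp, ← map_mul]
    congr 2
    funext κ
    have h1 := proj_mul_self (lf_mark hq κ).2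
    cases j with
    | zero => simpa using h1
    | succ j => simp only [Pi.mul_apply, pow_succ', ← mul_assoc, h1]
  have key := q_step (P := fun t => 1 - lfAv t) (d := j + 1)
    (Z := lfD M _ (fun κ : S → Fin n => (mark q κ * w) ^ j * mark q κ) (WithLp.toLp 2 fun _ => ξ)) hP hc
    (e := fun t => lfD M _ fun _ => q t) (ε := fun t => lfD M _ (ε t))
    (fun t => IsStarProjection.map
      ⟨funext fun _ => proj_mul_self (hq.proj t), funext fun _ => proj_star (hq.proj t)⟩ _)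
    (fun s t hst => by
      beta_reduce
      rw [← map_mul, ← map_zero (lfD M _ )]
      exact congrArg _ (funext fun _ => hq.orth hst))
    (by
      rw [← map_sum, ← map_one (lfD M _ )]
      exact congrArg _ (funext fun _ => by simpa using hq.sum))
    (fun s t => hD _ t fun _ _ => rfl)
    (fun t => IsStarProjection.map ⟨funext fun κ => by
      simp only [hε, Pi.mul_apply]
      split_ifs <;> simp, funext fun κ => by
      simp only [hε, Pi.star_apply]
      split_ifs <;> simp⟩ _)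
    (fun s t => Commute.map (funext fun κ => by simp [hε]) _) (ρ := (n : ℝ)⁻¹) (by positivity)
    (fun t => by rw [sub_sub_cancel, hε]; exact lfAv_eps t) (w := lfD M _ fun _ => w)
    (fun t => hD _ t fun _ _ => rfl) (by rw [hl, hlZ]; exact hZ j)
  rw [hl, hlZ] at key
  simp only [← mul_apply_eq_comp _ (lfD M _ _), ← map_mul] at key
  rw [lfD_norm, lfD_norm] at key
  simp only [Pi.mul_apply, ← mul_assoc, ← pow_succ'] at key
  refine key.trans (add_le_add ?_ (Real.sqrt_le_sqrt ?_))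
  · have h1 : ‖lfD M _ (fun _ : S → Fin n => w)‖ ≤ ‖w‖ :=
      (NonUnitalStarAlgHom.norm_apply_le _ _).trans (pi_norm_const_le w)
    rw [Real.sqrt_inv]
    calc _ ≤ 2 * (√n)⁻¹ * ‖w‖ * √(∑ κ : S → Fin n, ‖ap ((mark q κ * w) ^ j * mark q κ) ξ‖ ^ 2) := by
          gcongr
      _ = _ := by ring
  · rw [Nat.cast_succ]
    refine mul_le_mul_of_nonneg_left ?_ (by positivity)
    rw [sum_comm (s := (univ : Finset (S → Fin n)))]
    refine sum_le_sum fun s _ => ?_
    rw [sum_comm (s := (univ : Finset (S → Fin n)))]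
    refine sum_le_sum fun t _ => ?_
    have h1 := (hD (fun κ => q s * w * q t * ((mark' q s κ * w) ^ j * mark' q s κ)) s
      fun κ k => by rw [lf_mark'_update]).eq
    have h2 := congrArg (fun T => T (WithLp.toLp 2 fun _ : S → Fin n => ξ)) h1
    simp only [mul_apply_eq_comp, h0, map_zero] at h2
    rw [mul_apply_eq_comp, ← sub_zero ((1 - lfAv (H := H) (n := n) s) _), h2, ← map_sub, ← _root_.sub_apply, ← map_sub]
    refine (pow_le_pow_left₀ (norm_nonneg _) ((ContinuousLinearMap.le_opNorm _ _).trans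
      (mul_le_of_le_one_left (norm_nonneg _) (proj_norm_le (hP s)))) 2).trans_eq ?_
    rw [lfD_norm, Real.sq_sqrt (by positivity)]
    simp only [Pi.sub_apply, Pi.mul_apply, mul_sub, mul_assoc]

/-- Telescoping. -/
theorem pow_mul_sub {R : Type*} [Ring R] (l l' w : R) (j : ℕ) :
    (l * w) ^ j * l - (l' * w) ^ j * l' =
      ∑ i ∈ range (j + 1), (l * w) ^ i * (l - l') * (w * l') ^ (j - i) := by
  induction j with
  | zero => simp
  | succ j ih =>
    rw [sum_range_succ, sum_congr rfl fun i hi => by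
      rw [Nat.succ_sub (Nat.lt_succ_iff.1 (mem_range.1 hi)), pow_succ, ← mul_assoc], ← sum_mul, ← ih]
    simp only [Nat.sub_self, pow_zero, mul_one, pow_succ]
    noncomm_ring

/-- `pow_mul_sub` with `mark - mark' s ∈ {0, q s}`; the right factor `(w ℓ')^(j-i)` is right
bounded by `C^(j-i)` and `(ℓ w)^i` by `C^i` (`RB.mul`, `rb_of_mem`). -/
theorem Std.err_le (h : Std A ξ) {q : S → Al M} (hq : Ptn A q) {w : Al M} {C e : ℝ} (hC : 0 ≤ C)
    (hw : RB ξ C w) (hl : ∀ (C : ℝ) (u : Al M), RB ξ C u →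
      ∑ s, ∑ t, ‖ap (q s * w * q t * u * q s) ξ‖ ^ 2 ≤ e * C ^ 2) (κ : S → Fin n) (j : ℕ) :
    ∑ s, ∑ t, ‖ap (q s * w * q t *
        ((mark q κ * w) ^ j * mark q κ - (mark' q s κ * w) ^ j * mark' q s κ)) ξ‖ ^ 2 ≤
      (j + 1) ^ 2 * (e * C ^ (2 * j)) := by
  have r1 := lf_rb_pow (by simpa using (h.rb_of_mem (lf_mark hq κ).1
    (proj_norm_le (lf_mark hq κ).2)).mul hw hC) hC
  have r2 : ∀ s i, RB ξ (C ^ i) ((w * mark' q s κ) ^ i) := fun s => lf_rb_pow (by
    simpa using hw.mul (h.rb_of_mem (lf_mark' hq s κ).1 (proj_norm_le (lf_mark' hq s κ).2))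
      zero_le_one) hC
  have h1 : ∀ s t, ‖ap (q s * w * q t *
      ((mark q κ * w) ^ j * mark q κ - (mark' q s κ * w) ^ j * mark' q s κ)) ξ‖ ^ 2 ≤
      (j + 1) * ∑ i ∈ range (j + 1), (C ^ (j - i)) ^ 2 *
        ‖ap (q s * w * q t * (mark q κ * w) ^ i * q s) ξ‖ ^ 2 := fun s t => by
    rw [pow_mul_sub, mul_sum, ap_sum]
    refine (pow_le_pow_left₀ (norm_nonneg _) (norm_sum_le _ _) 2).trans
      (sq_sum_le_card_mul_sum_sq.trans ?_)
    rw [card_range]
    push_cast
    refine mul_le_mul_of_nonneg_left (sum_le_sum fun i _ => ?_) (by positivity)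
    rcases lf_mark_sub q s κ with h2 | h2 <;> rw [h2]
    · simp only [mul_zero, zero_mul, ap_zero, norm_zero, zero_pow two_ne_zero]
      positivity
    · rw [← mul_pow, ← mul_assoc, ← mul_assoc]
      exact pow_le_pow_left₀ (norm_nonneg _) (r2 s _ _) 2
  refine (sum_le_sum fun s _ => sum_le_sum fun t _ => h1 s t).trans ?_
  simp only [← mul_sum]
  rw [sq ((j : ℝ) + 1), mul_assoc]
  refine mul_le_mul_of_nonneg_left ?_ (by positivity)
  rw [sum_congr rfl fun s _ => sum_comm, sum_comm]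
  refine (sum_le_card_nsmul _ _ (e * C ^ (2 * j)) fun i hi => ?_).trans (by simp)
  simp only [← mul_sum]
  refine (mul_le_mul_of_nonneg_left (hl _ _ (r1 i)) (by positivity)).trans_eq ?_
  rw [mul_left_comm, ← mul_pow, ← pow_add, Nat.sub_add_cancel (Nat.lt_succ_iff.1 (mem_range.1 hi)),
    ← pow_mul']

/-- With `β = 2 ‖w‖ / √n`, `N = card (S → Fin n)`, `a_j = √(∑_κ ‖(ℓ w)^j ℓ ξ‖² / N)`: `a_0 ≤ 1`,
`a_{j+1} ≤ β a_j + e'` for `j < k`, so `a_j ≤ β^j + j (max 1 β)^j e'`; `(ℓ w ℓ)^k ξ` is `ξ` for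
`k = 0` and `(ℓ w)^k ℓ ξ` otherwise. (`0 ≤ C` follows from `RB` with `y = 1`.) -/
theorem Diffuse.moment {h : Std A ξ} {w : Al M} (hw : Diffuse h w) {C : ℝ} (hC : RB ξ C w)
    (n : ℕ) [NeZero n] (k : ℕ) {e : ℝ} (he : 0 < e) :
    ∃ (m : ℕ) (p : Fin m → Al M), Ptn A p ∧ ∀ (S : Type) [Fintype S] (q : S → Al M), Ptn A q →
      Ref p q → ∑ κ : S → Fin n, ‖ap ((mark q κ * w * mark q κ) ^ k) ξ‖ ^ 2 ≤
        Fintype.card (S → Fin n) * ((2 * ‖w‖ / √n) ^ k + e) ^ 2 := by
  have hC0 : 0 ≤ C := by simpa [h.norm] using (norm_nonneg _).trans (hC 1)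
  have hβ : 0 ≤ 2 * ‖w‖ / √n := by positivity
  obtain ⟨β, hβe⟩ : ∃ β, β = 2 * ‖w‖ / √n := ⟨_, rfl⟩
  rw [← hβe] at hβ ⊢
  have hB1 : 1 ≤ max 1 β := le_max_left _ _
  have hB2 : β ≤ max 1 β := le_max_right _ _
  have hC1 : 1 ≤ max 1 C := le_max_left _ _
  have hC2 : C ≤ max 1 C := le_max_right _ _
  generalize max 1 β = B at hB1 hB2
  generalize max 1 C = C' at hC1 hC2
  have hB0 : 0 < B := by linarith
  have hC'0 : 0 < C' := by linarith
  obtain ⟨e', he'⟩ : ∃ e', e' = e / ((k + 1) * B ^ k) := ⟨_, rfl⟩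
  have he'0 : 0 < e' := by rw [he']; positivity
  obtain ⟨m, p, hp, hl⟩ := hw.loop_small (e := e' ^ 2 / ((k + 1) ^ 3 * C' ^ (2 * k))) (by positivity)
  refine ⟨m, p, hp, fun S _ q hq hr => ?_⟩
  have key : ∀ j ≤ k, √(∑ κ : S → Fin n, ‖ap ((mark q κ * w) ^ j * mark q κ) ξ‖ ^ 2) ≤
      √(Fintype.card (S → Fin n)) * (β ^ j + j * B ^ j * e') := by
    intro j
    induction j with
    | zero =>
      intro _
      simp only [pow_zero, one_mul, Nat.cast_zero, zero_mul, add_zero, mul_one]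
      refine Real.sqrt_le_sqrt ((sum_le_card_nsmul _ _ 1 fun κ _ => ?_).trans (by simp))
      exact pow_le_one₀ (norm_nonneg _) ((std_proj_le (lf_mark hq κ).2 ξ).trans h.norm.le)
    | succ j ih =>
      intro hj
      have h1 := rand_step (ξ := ξ) (n := n) hq w j
      rw [← hβe] at h1
      refine h1.trans ((add_le_add (mul_le_mul_of_nonneg_left (ih (Nat.le_of_succ_le hj)) hβ)
        (?_ : _ ≤ √(Fintype.card (S → Fin n)) * e')).trans ?_)
      · rw [← Real.sqrt_sq he'0.le, ← Real.sqrt_mul (Nat.cast_nonneg _)]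
        refine Real.sqrt_le_sqrt ((mul_le_mul_of_nonneg_left (sum_le_card_nsmul _ _ _ fun κ _ =>
          h.err_le hq hC0 hC (hl S q hq hr) κ j) (by positivity)).trans ?_)
        rw [nsmul_eq_mul, card_univ, mul_left_comm]
        refine mul_le_mul_of_nonneg_left ?_ (Nat.cast_nonneg _)
        have h2 : (j : ℝ) ≤ k := by exact_mod_cast Nat.le_of_succ_le hj
        have h3 : C ^ (2 * j) ≤ C' ^ (2 * k) :=
          (pow_le_pow_left₀ hC0 hC2 _).trans (pow_le_pow_right₀ hC1 (by omega))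
        calc _ ≤ ((k : ℝ) + 1) * ((k + 1) ^ 2 *
              (e' ^ 2 / ((k + 1) ^ 3 * C' ^ (2 * k)) * C' ^ (2 * k))) := by gcongr
          _ = _ := by field_simp
      · rw [mul_left_comm, ← mul_add]
        refine mul_le_mul_of_nonneg_left ?_ (Real.sqrt_nonneg _)
        have h2 : β * (j * B ^ j * e') ≤ B * (j * B ^ j * e') := by gcongr
        have h3 : 1 * e' ≤ B ^ (j + 1) * e' := by
          gcongr
          exact one_le_pow₀ hB1
        push_cast
        rw [pow_succ' β]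
        rw [pow_succ'] at h3 ⊢
        nlinarith
  cases k with
  | zero =>
    simp only [pow_zero, ap_one, h.norm, one_pow, sum_const, card_univ, nsmul_eq_mul]
    gcongr
    nlinarith
  | succ k =>
    have h1 : ∀ κ : S → Fin n, ∀ j : ℕ, (mark q κ * w * mark q κ) ^ (j + 1) =
        (mark q κ * w) ^ (j + 1) * mark q κ := fun κ j => by
      induction j with
      | zero => simp
      | succ j ih =>
        rw [pow_succ, ih, pow_succ _ (j + 1)]
        simp only [mul_assoc, proj_mul_self_left (lf_mark hq κ).2]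
    simp only [h1]
    have h2 := pow_le_pow_left₀ (Real.sqrt_nonneg _) (key (k + 1) le_rfl) 2
    rw [Real.sq_sqrt (by positivity), mul_pow, Real.sq_sqrt (by positivity)] at h2
    refine h2.trans ?_
    gcongr
    rw [he', ← mul_div_assoc, div_le_iff₀ (by positivity), mul_comm e]
    gcongr
    linarith

end Crest.Agent.R109
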