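import Crest.Agent.R109.Model
import Crest.Agent.R109.LemF
import Crest.Agent.R109.Clamp
import Crest.Agent.R109.Dec

/-!
# R109: the paving theorem in the presence of a central state
-/

set_option autoImplicit false
open Filter Topology MeasureTheory
open scoped InnerProductSpace Classical

namespace Crest.Agent.R109
open Crest.Agent.R121

universe u
variable {H : Type u} [NormedAddCommGroup H] [InnerProductSpace ℂ H] [CompleteSpace H]
variable {M : VonNeumannAlgebra H} {A : StarSubalgebra ℂ (Al M)} {ξ : H}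

/-- The colour of a state. -/
def St.toOpt {ι : Type*} : St ι → Option ι
  | .col j => some j
  | _ => none

theorem St.toOpt_some {ι : Type*} {s : St ι} {j : ι} : s.toOpt = some j ↔ s = .col j := by
  cases s <;> simp [St.toOpt]

theorem St.toOpt_none {ι : Type*} {s : St ι} (h : s ≠ .unc) : s.toOpt = none ↔ s = .del := by
  cases s <;> simp_all [St.toOpt]

theorem exists_pow_small {a e : ℝ} (he : 0 < e) (k₀ : ℕ) : ∃ k ≥ k₀, a / 4 ^ k ≤ e := by
  have h : Tendsto (fun k : ℕ => a / 4 ^ k) atTop (𝓝 0) :=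
    tendsto_const_nhds.div_atTop (tendsto_pow_atTop_atTop_of_one_lt (by norm_num))
  obtain ⟨k, hk⟩ := ((h.eventually (ge_mem_nhds he)).and (eventually_ge_atTop k₀)).exists
  exact ⟨k, hk.2, hk.1⟩

theorem sa_compress {p x : Al M} (hp : IsStarProjection p) (hx : IsSelfAdjoint x) :
    IsSelfAdjoint (p * x * p) := by
  rw [IsSelfAdjoint, star_mul, star_mul, proj_star hp, hx.star_eq, mul_assoc]

theorem norm_compress_le {p x : Al M} (hp : IsStarProjection p) : ‖p * x * p‖ ≤ ‖x‖ := by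
  have h1 := proj_norm_le hp
  calc ‖p * x * p‖ ≤ ‖p‖ * ‖x‖ * ‖p‖ :=
        (norm_mul_le _ _).trans (mul_le_mul_of_nonneg_right (norm_mul_le _ _) (norm_nonneg _))
    _ ≤ 1 * ‖x‖ * 1 := by gcongr
    _ = ‖x‖ := by ring

theorem norm_compress_ap {p x : Al M} (hp : IsStarProjection p) (ζ : H) :
    ‖ap (p * x * p) ζ‖ ≤ ‖x‖ * ‖ap p ζ‖ := by
  have h1 := proj_norm_le hp
  rw [ap_mul]
  calc _ ≤ ‖p * x‖ * ‖ap p ζ‖ := norm_ap_le _ _
    _ ≤ ‖p‖ * ‖x‖ * ‖ap p ζ‖ := by gcongr; exact norm_mul_le _ _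
    _ ≤ 1 * ‖x‖ * ‖ap p ζ‖ := by gcongr
    _ = _ := by ring

theorem Std.norm_compress_le (h : Std A ξ) {p : Al M} (hpA : p ∈ A) (hp : IsStarProjection p)
    (x : Al M) : ‖ap (p * x * p) ξ‖ ≤ ‖ap x ξ‖ := by
  have h1 := proj_norm_le hp
  calc _ ≤ ‖p‖ * ‖ap (p * x) ξ‖ := h.norm_mul_le _ hpA
    _ ≤ ‖p‖ * (‖p‖ * ‖ap x ξ‖) := by gcongr; rw [ap_mul]; exact norm_ap_le _ _
    _ ≤ 1 * (1 * ‖ap x ξ‖) := by gcongr
    _ = _ := by ring

theorem ce_core (h : Std A ξ) {x w : Al M} (hx : FinGood A ξ x) (hxs : IsSelfAdjoint x)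
    (hx1 : ‖x‖ ≤ 1) (hx0 : h.E x = 0) (hw : Diffuse h w) (hws : IsSelfAdjoint w) (hw2 : ‖w‖ ≤ 2)
    {C : ℝ} (hC : RB ξ C w) (n : ℕ) [NeZero n] (hc1 : 240 * (6 / √(2 * n)) ≤ 1) {δ : ℝ}
    (hδ : 0 < δ) : ∃ p : Option (Fin (2 * n)) → Al M, Ptn A p ∧ ∃ y₁ y₂ : Al M,
      IsSelfAdjoint y₁ ∧ IsSelfAdjoint y₂ ∧ ‖y₁‖ ≤ 2 * (240 * (6 / √(2 * n))) ∧ ‖y₂‖ ≤ 8 / √n ∧
      ‖ap (Ep p x - y₁) ξ‖ ≤ δ ∧ ‖ap (Ep p w - y₂) ξ‖ ≤ δ := by
  obtain ⟨X, _, _, _, _, _, _, μ, _, ⟨S⟩⟩ := h.exists_sp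
  have hX : Nonempty X := MeasureTheory.nonempty_of_isProbabilityMeasure μ
  have hn : (0 : ℝ) < n := Nat.cast_pos.2 (Nat.pos_of_ne_zero (NeZero.ne n))
  have hsn : 0 < √(n : ℝ) := Real.sqrt_pos.2 hn
  set t : ℝ := 6 / √(2 * n) with ht
  have ht0 : 0 < t := by rw [ht]; positivity
  obtain ⟨G, ker, hK⟩ := S.exists_model hx hxs hx1 hx0
  obtain ⟨k₀, hk₀⟩ := exists_clamp_one (M := M) (c := 240 * t) (e := δ / 2) (by positivity) hc1
    (by positivity)
  obtain ⟨k, hk, hk2⟩ := exists_pow_small (a := 4 * (8 * n + 1)) (e := δ ^ 2 / 2)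
    (by positivity) k₀
  set β : ℝ := 4 / √n with hβ
  have hβ0 : 0 < β := by positivity
  obtain ⟨m, p₀, hp₀, hmom⟩ := hw.moment hC n k (e := β ^ k) (by positivity)
  obtain ⟨lab₀, hl₀, hp₀e⟩ := S.exists_lab hp₀
  obtain ⟨σ, L, hσ, hu, hL, hσL, hM, hdel, hq1, hq2⟩ := G.pave n ht k
    (δ := min 1 (min (β ^ (2 * k)) (δ ^ 2 / 8))) (by positivity)
    (fun L => ‖ap ((S.ind L * w * S.ind L) ^ k) ξ‖ ^ 2) (fun _ => by positivity)
    (B := (2 * β ^ k) ^ 2) hl₀ (by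
      intro Lab _ lab hl hr
      have h1 := hmom Lab _ (S.ptn_ind hl) (by
        have := S.ref_ind hl hl₀ hr
        rwa [← funext hp₀e] at this)
      have h2 : ∀ κ : Lab → Fin n, mark (fun s => S.ind {ω | lab ω = s}) κ =
          S.ind {ω | κ (lab ω) = 0} := fun κ => by
        rw [mark, S.ind_eq_sum hl fun s => κ s = 0]
        exact Finset.sum_congr (by congr) fun _ _ => rfl
      simp only [h2] at h1
      refine h1.trans (mul_le_mul_of_nonneg_left ?_ (by positivity))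
      have h3 : (2 * ‖w‖ / √n) ^ k ≤ β ^ k := by
        refine pow_le_pow_left₀ (by positivity) ?_ k
        rw [hβ]; gcongr; linarith
      refine pow_le_pow_left₀ (by positivity) (by linarith) 2)
  have hlc : IsLocallyConstant fun ω => (σ ω).toOpt := hσ.comp St.toOpt
  have hp := S.ptn_ind hlc
  set p : Option (Fin (2 * n)) → Al M := fun o => S.ind {ω | (σ ω).toOpt = o} with hpdef
  have hps : ∀ j, p (some j) = S.ind {ω | σ ω = .col j} := fun j => by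
    simp only [hpdef, St.toOpt_some]
  have hpn : ‖ap (p none) ξ‖ ^ 2 ≤ δ ^ 2 / 8 := by
    have h1 : {ω | (σ ω).toOpt = none} = {ω | σ ω = .del} :=
      Set.ext fun ω => St.toOpt_none (hu ω)
    have h2 := S.norm_ind_sq (hlc.isClopen_fiber none)
    rw [hpdef]
    simp only []
    rw [h2, h1]
    exact hdel.trans ((min_le_right _ _).trans (min_le_right _ _))
  have hpn' : ‖ap (p none) ξ‖ ≤ δ / 2 := by
    refine (pow_le_pow_iff_left₀ (norm_nonneg _) (by positivity) two_ne_zero).1 ?_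
    nlinarith [sq_nonneg δ]
  have hEp : ∀ y : Al M, Ep p y = p none * y * p none + S.pv σ y := fun y => by
    rw [Ep, Fintype.sum_option, Sp.pv]
    simp only [hps]
  have hpvs : IsSelfAdjoint (S.pv σ x) := by
    rw [Sp.pv, IsSelfAdjoint, star_sum]
    exact Finset.sum_congr rfl fun j _ => sa_compress (S.ind_proj _) hxs
  have hpv1 : ‖S.pv σ x‖ ≤ 1 := by
    have h1 := hp.norm_diag_le (fun o => o.elim 0 fun _ => x) zero_le_one fun o =>
      (norm_compress_le (hp.proj o)).trans (by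
        cases o with
        | none => simp
        | some j => exact hx1)
    rw [Fintype.sum_option] at h1
    simpa only [Option.elim, mul_zero, zero_mul, zero_add, hps, Sp.pv] using h1
  have hneg : S.pv σ (-x) = -S.pv σ x := by
    simp only [Sp.pv, mul_neg, neg_mul, Finset.sum_neg_distrib]
  obtain ⟨y₁, hy₁, hy₁n, hy₁e⟩ := hk₀ k hk ξ (S.pv σ x) h.norm hpvs hpv1
    (by rw [hK.quad_eq hσ hu]; exact hq1.trans (min_le_left _ _))
    (by rw [← hneg, hK.neg.quad_eq hσ hu]; exact hq2.trans (min_le_left _ _))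
  have hcl : ∀ j, ∃ y : Al M, IsSelfAdjoint y ∧ ‖y‖ ≤ 2 * β ∧
      ‖ap (S.ind (L j) * w * S.ind (L j) - y) ξ‖ ^ 2 ≤
        2 ^ 2 / (2 * β) ^ (2 * k) * ‖ap ((S.ind (L j) * w * S.ind (L j)) ^ k) ξ‖ ^ 2 := fun j =>
    exists_clamp_two (sa_compress (S.ind_proj _) hws)
      ((norm_compress_le (S.ind_proj _)).trans hw2) (by positivity) k ξ
  choose c hc hcn hce using hcl
  set c' : Option (Fin (2 * n)) → Al M := fun o => o.elim 0 c with hc'
  refine ⟨p, hp, y₁, ∑ o, p o * c' o * p o, hy₁, ?_, hy₁n, ?_, ?_, ?_⟩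
  · rw [IsSelfAdjoint, star_sum]
    refine Finset.sum_congr rfl fun o _ => sa_compress (hp.proj o) ?_
    cases o with
    | none => exact .zero _
    | some j => exact hc j
  · have h8 : 8 / √(n : ℝ) = 2 * β := by rw [hβ]; ring
    rw [h8]
    refine hp.norm_diag_le c' (by positivity) fun o => (norm_compress_le (hp.proj o)).trans ?_
    cases o with
    | none => simp only [hc', Option.elim, norm_zero]; positivity
    | some j => exact hcn j
  · rw [hEp, add_sub_assoc, ap_add]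
    refine (norm_add_le _ _).trans ?_
    have h1 := norm_compress_ap (x := x) (hp.proj none) ξ
    have h2 : ‖x‖ * ‖ap (p none) ξ‖ ≤ 1 * (δ / 2) := by gcongr
    linarith
  · have h1 : Ep p w - ∑ o, p o * c' o * p o = ∑ o, p o * ((w - c' o) * p o) := by
      rw [Ep, ← Finset.sum_sub_distrib]
      exact Finset.sum_congr rfl fun o _ => by noncomm_ring
    refine (pow_le_pow_iff_left₀ (norm_nonneg _) hδ.le two_ne_zero).1 ?_
    rw [h1, ap_sum]
    simp only [ap_mul (p _)]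
    rw [hp.norm_sum_sq, Fintype.sum_option]
    have h2 : ‖ap (p none) (ap ((w - c' none) * p none) ξ)‖ ^ 2 ≤ δ ^ 2 / 2 := by
      rw [← ap_mul, ← mul_assoc]
      have h3 := norm_compress_ap (x := w - c' none) (hp.proj none) ξ
      have h4 : ‖w - c' none‖ ≤ 2 := by simpa [hc'] using hw2
      have h5 : ‖ap (p none * (w - c' none) * p none) ξ‖ ≤ 2 * ‖ap (p none) ξ‖ :=
        h3.trans (by gcongr)
      calc _ ≤ (2 * ‖ap (p none) ξ‖) ^ 2 := pow_le_pow_left₀ (norm_nonneg _) h5 2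
        _ ≤ _ := by nlinarith
    have h3 : ∀ j, ‖ap (p (some j)) (ap ((w - c' (some j)) * p (some j)) ξ)‖ ^ 2 ≤
        2 ^ 2 / (2 * β) ^ (2 * k) * ‖ap ((S.ind (L j) * w * S.ind (L j)) ^ k) ξ‖ ^ 2 := by
      intro j
      refine le_trans (pow_le_pow_left₀ (norm_nonneg _) ?_ 2) (hce j)
      have hU : IsClopen {ω | σ ω = .col j} := hσ.isClopen_fiber _
      have hsub : {ω | σ ω = .col j} ⊆ L j := fun ω hω => hσL ω j hω
      have h4 : p (some j) * S.ind (L j) = p (some j) := by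
        rw [hps, S.ind_mul hU (hL j), Set.inter_eq_left.2 hsub]
      have h5 : S.ind (L j) * p (some j) = p (some j) := by
        rw [hps, S.ind_mul (hL j) hU, Set.inter_eq_right.2 hsub]
      have h6 : p (some j) * ((w - c' (some j)) * p (some j)) =
          p (some j) * (S.ind (L j) * w * S.ind (L j) - c j) * p (some j) := by
        have h7 : p (some j) * (S.ind (L j) * w * S.ind (L j)) * p (some j) =
            p (some j) * w * p (some j) := by
          rw [← mul_assoc, ← mul_assoc, h4, mul_assoc, h5]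
        rw [mul_sub (p (some j)) (S.ind (L j) * w * S.ind (L j)), sub_mul (p (some j) * _), h7]
        simp only [hc', Option.elim]
        noncomm_ring
      rw [← ap_mul, h6]
      exact h.norm_compress_le (hp.mem _) (hp.proj _) _
    have h4 := Finset.sum_le_sum fun j (_ : j ∈ Finset.univ) => h3 j
    rw [← Finset.mul_sum] at h4
    have h5 : ∑ j, ‖ap ((S.ind (L j) * w * S.ind (L j)) ^ k) ξ‖ ^ 2 ≤
        (8 * n + 1) * β ^ (2 * k) := by
      refine hM.trans ?_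
      have h6 : min 1 (min (β ^ (2 * k)) (δ ^ 2 / 8)) ≤ β ^ (2 * k) :=
        (min_le_right _ _).trans (min_le_left _ _)
      have h7 : (2 * β ^ k) ^ 2 = 4 * β ^ (2 * k) := by ring
      rw [h7]; linarith
    have h6 : 2 ^ 2 / (2 * β) ^ (2 * k) * ((8 * n + 1) * β ^ (2 * k)) =
        4 * (8 * n + 1) / 4 ^ k := by
      have : (2 * β) ^ (2 * k) = 4 ^ k * β ^ (2 * k) := by
        rw [mul_pow, pow_mul]; norm_num
      rw [this]; field_simp; norm_num
    have h7 := mul_le_mul_of_nonneg_left h5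
      (show (0 : ℝ) ≤ 2 ^ 2 / (2 * β) ^ (2 * k) by positivity)
    linarith

theorem ce_numbers {ε : ℝ} (hε : 0 < ε) (hε1 : ε < 1) {r : ℕ}
    (hr : 400000000 / ε ^ 2 ≤ (r : ℝ)) : 0 < r / 2 ∧
      240 * (6 / √(2 * (r / 2 : ℕ) : ℝ)) ≤ 1 ∧
      2 * (2 * (240 * (6 / √(2 * (r / 2 : ℕ) : ℝ)))) + 8 / √((r / 2 : ℕ) : ℝ) ≤ ε / 2 := by
  set n := r / 2 with hn
  have h1 : (r : ℝ) ≤ 2 * n + 1 := by
    have : r ≤ 2 * n + 1 := by omega
    exact_mod_cast this
  have hε2 : 0 < ε ^ 2 := by positivity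
  have hε3 : ε ^ 2 < 1 := by nlinarith
  have h2 : 400000000 ≤ (2 * n + 1) * ε ^ 2 := by
    rw [div_le_iff₀ hε2] at hr
    nlinarith
  have hn0 : (0 : ℝ) ≤ n := Nat.cast_nonneg n
  have h3 : (12000 / ε) ^ 2 ≤ n := by
    rw [div_pow, div_le_iff₀ hε2]; nlinarith
  have h4 : 12000 / ε ≤ √(n : ℝ) := Real.le_sqrt_of_sq_le h3
  have h5 : (19000 / ε) ^ 2 ≤ 2 * n := by
    rw [div_pow, div_le_iff₀ hε2]; nlinarith
  have h6 : 19000 / ε ≤ √(2 * n : ℝ) := Real.le_sqrt_of_sq_le h5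
  have h7 : 6 / √(2 * n : ℝ) ≤ 6 / (19000 / ε) := by gcongr
  have h8 : 8 / √(n : ℝ) ≤ 8 / (12000 / ε) := by gcongr
  rw [div_div_eq_mul_div] at h7 h8
  refine ⟨?_, by linarith, by linarith⟩
  have h9 : (0 : ℝ) < n := lt_of_lt_of_le (by positivity) h3
  exact_mod_cast h9

theorem Ptn.exists_extend {ι κ : Type*} [Fintype ι] [Fintype κ] {p : ι → Al M} (hp : Ptn A p)
    {f : ι → κ} (hf : Function.Injective f) :
    ∃ q : κ → Al M, Ptn A q ∧ ∀ y, Ep q y = Ep p y := by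
  refine ⟨_, hp.fiber f, fun y => ?_⟩
  rw [Ep, Ep, ← Finset.sum_fiberwise_of_maps_to (s := Finset.univ) (t := Finset.univ) (g := f)
    fun _ _ => Finset.mem_univ _]
  refine Finset.sum_congr rfl fun k _ => ?_
  rw [Finset.sum_mul, Finset.sum_mul]
  refine Finset.sum_congr rfl fun i hi => ?_
  rw [Finset.sum_eq_single_of_mem i hi fun j hj hji => (hji (hf ?_)).elim]
  rw [(Finset.mem_filter.1 hi).2, (Finset.mem_filter.1 hj).2]

/-- Paving in standard form, up to an error small at `ξ`. -/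
theorem ce (h : Std A ξ) {ε : ℝ} (hε : 0 < ε) (hε1 : ε < 1) {r : ℕ}
    (hr : 400000000 / ε ^ 2 ≤ (r : ℝ)) {x : Al M} (hx : IsSelfAdjoint x) (hx1 : ‖x‖ ≤ 1)
    {δ : ℝ} (hδ : 0 < δ) :
    ∃ p : Option (Fin r) → Al M, Ptn A p ∧ ∃ a ∈ A, IsSelfAdjoint a ∧ ‖a‖ ≤ 1 ∧
      ∃ y : Al M, IsSelfAdjoint y ∧ ‖y‖ ≤ ε / 2 ∧ ‖ap (Ep p x - a - y) ξ‖ ≤ δ := by
  obtain ⟨hn, hc1, hc2⟩ := ce_numbers hε hε1 hr
  haveI : NeZero (r / 2) := ⟨hn.ne'⟩
  obtain ⟨p₁, hp₁, w, C, hp₁s, hp₁n, hws, hw2, hw, hC, he₁⟩ :=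
    h.exists_dec hx hx1 (e := δ / 5) (by positivity)
  obtain ⟨x₁, hx₁, hx₁s, hx₁n, he₂⟩ := h.exists_finGood hp₁ hp₁s hp₁n (e := δ / 5) (by positivity)
  have ha := h.E_mem x₁
  have has : IsSelfAdjoint (h.E x₁) := by rw [IsSelfAdjoint, ← h.E_star, hx₁s.star_eq]
  have han : ‖h.E x₁‖ ≤ 1 := (h.norm_E_le _).trans hx₁n
  set x₀ : Al M := (2⁻¹ : ℂ) • (x₁ - h.E x₁) with hx₀
  have h1 : FinGood A ξ x₀ := Submodule.smul_mem _ _ (Submodule.sub_mem _ hx₁
    (Submodule.subset_span ⟨_, ha, 1, Good.of_proj h (one_mem _) (.one _), mul_one _⟩))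
  have h2 : IsSelfAdjoint x₀ := by
    rw [hx₀, IsSelfAdjoint, star_smul, (hx₁s.sub has).star_eq]; simp
  have h3 : ‖x₀‖ ≤ 1 := by
    rw [hx₀, norm_smul]
    have := norm_sub_le x₁ (h.E x₁)
    simp only [norm_inv, Complex.norm_ofNat]
    linarith
  have h4 : h.E x₀ = 0 := by rw [hx₀, map_smul, map_sub, h.E_of_mem ha, sub_self, smul_zero]
  obtain ⟨p, hp, y₁, y₂, hy₁, hy₂, hy₁n, hy₂n, he₃, he₄⟩ :=
    ce_core h h1 h2 h3 h4 hw hws hw2 hC (r / 2) hc1 (δ := δ / 5) (by positivity)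
  obtain ⟨q, hq, hqp⟩ := hp.exists_extend (f := Option.map (Fin.castLE (Nat.mul_div_le r 2)))
    (Option.map_injective (Fin.castLE_injective _))
  refine ⟨q, hq, _, ha, has, han, y₁ + y₁ + y₂, (hy₁.add hy₁).add hy₂, ?_, ?_⟩
  · have := norm_add₃_le (a := y₁) (b := y₁) (c := y₂)
    linarith
  · have h5 : x = (x - p₁ - w) + (p₁ - x₁) + x₀ + x₀ + w + h.E x₁ := by
      have : x₀ + x₀ = x₁ - h.E x₁ := by
        rw [hx₀, ← add_smul]; norm_num
      rw [add_assoc _ x₀ x₀, this]; abel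
    have h6 : Ep q x - h.E x₁ - (y₁ + y₁ + y₂) = Ep p (x - p₁ - w) + Ep p (p₁ - x₁) +
        (Ep p x₀ - y₁) + (Ep p x₀ - y₁) + (Ep p w - y₂) := by
      rw [hqp]
      conv_lhs => rw [h5]
      simp only [Ep_add, hp.Ep_mem h.toMasa ha]
      abel
    rw [h6]
    simp only [ap_add]
    have h7 := (h.norm_Ep_le hp (x - p₁ - w)).trans he₁
    have h8 := (h.norm_Ep_le hp (p₁ - x₁)).trans he₂
    refine (norm_add_le _ _).trans ?_
    have h9 := norm_add_le (ap (Ep p (x - p₁ - w)) ξ + ap (Ep p (p₁ - x₁)) ξ +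
      ap (Ep p x₀ - y₁) ξ) (ap (Ep p x₀ - y₁) ξ)
    have h10 := norm_add₃_le (a := ap (Ep p (x - p₁ - w)) ξ) (b := ap (Ep p (p₁ - x₁)) ξ)
      (c := ap (Ep p x₀ - y₁) ξ)
    linarith

end Crest.Agent.R109
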