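import Crest.Agent.R109.Std

/-!
# R109: the conditional expectation onto `A`
-/

set_option autoImplicit false
open Filter Topology
open scoped InnerProductSpace

namespace Crest.Agent.R109
open Crest.Agent.R121

universe u
variable {H : Type u} [NormedAddCommGroup H] [InnerProductSpace ℂ H] [CompleteSpace H]
variable {M : VonNeumannAlgebra H} {A : StarSubalgebra ℂ (Al M)} {ξ : H}

/-- The vector functional. -/
noncomputable def ph (ξ : H) : Al M →ₗ[ℂ] ℂ where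
  toFun m := ⟪ξ, ap m ξ⟫_ℂ
  map_add' a b := by rw [ap_add, inner_add_right]
  map_smul' c a := by rw [ap_smul, inner_smul_right]; rfl

theorem ph_apply (ξ : H) (m : Al M) : ph ξ m = ⟪ξ, ap m ξ⟫_ℂ := rfl

theorem ph_star_mul (ξ : H) (a b : Al M) : ph ξ (star a * b) = ⟪ap a ξ, ap b ξ⟫_ℂ := by
  rw [ph_apply, ap_mul, inner_ap_left]

theorem ph_star (ξ : H) (m : Al M) : ph ξ (star m) = (starRingEnd ℂ) (ph ξ m) := by
  rw [ph_apply, ph_apply, inner_conj_symm, inner_ap_left]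

theorem ph_star_mul_self (ξ : H) (m : Al M) : ph ξ (star m * m) = (‖ap m ξ‖ ^ 2 : ℝ) := by
  rw [ph_star_mul, inner_self_eq_norm_sq_to_K]; norm_cast

theorem Std.ph_comm (h : Std A ξ) {a : Al M} (ha : a ∈ A) (m : Al M) :
    ph ξ (a * m) = ph ξ (m * a) := h.cen a ha m

/-- `q` refines `p`. -/
def Ref {ι κ : Type*} (p : ι → Al M) (q : κ → Al M) : Prop := ∀ k, ∃ i, p i * q k = q k

/-- Right multiplication by `m` is bounded by `C`. -/
def RB (ξ : H) (C : ℝ) (m : Al M) : Prop := ∀ y : Al M, ‖ap (y * m) ξ‖ ≤ C * ‖ap y ξ‖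

section Ref
variable {ι κ σ : Type*} [Fintype ι] [Fintype κ] [Fintype σ] {p : ι → Al M} {q : κ → Al M}
  {s : σ → Al M}

omit [Fintype ι] [Fintype κ] [Fintype σ] in
theorem Ref.trans (h : Ref p q) (h' : Ref q s) : Ref p s := by
  intro k
  obtain ⟨j, hj⟩ := h' k
  obtain ⟨i, hi⟩ := h j
  exact ⟨i, by rw [← hj, ← mul_assoc, hi]⟩

theorem Ref.Ep_Ep (hp : Ptn A p) (hq : Ptn A q) (h : Ref p q) (m : Al M) :
    Ep q (Ep p m) = Ep q m ∧ Ep p (Ep q m) = Ep q m := by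
  classical
  have hs : ∀ i k, p i * q k = q k → q k * p i = q k := fun i k e => by
    simpa only [star_mul, proj_star (hp.proj i), proj_star (hq.proj k)] using congrArg star e
  constructor
  · refine Finset.sum_congr rfl fun k _ => ?_
    obtain ⟨i, hi⟩ := h k
    calc q k * Ep p m * q k = q k * (p i * Ep p m) * q k := by rw [← mul_assoc, hs i k hi]
      _ = q k * p i * m * (p i * q k) := by simp only [hp.mul_Ep, mul_assoc]
      _ = _ := by rw [hs i k hi, hi]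
  · simp only [Ep, Finset.mul_sum, Finset.sum_mul]
    rw [Finset.sum_comm]
    refine Finset.sum_congr rfl fun k _ => ?_
    obtain ⟨i, hi⟩ := h k
    rw [Finset.sum_eq_single i (fun j _ hj => ?_) (by simp)]
    · rw [← mul_assoc, ← mul_assoc, hi, mul_assoc, hs i k hi]
    · rw [← mul_assoc, ← mul_assoc, ← hi, ← mul_assoc (p j), hp.orth hj]
      simp only [zero_mul]

theorem Ptn.reindex (hp : Ptn A p) (e : κ ≃ ι) : Ptn A fun k => p (e k) :=
  ⟨fun _ => hp.mem _, fun _ => hp.proj _, fun _ _ hkl => hp.orth (e.injective.ne hkl),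
    (e.sum_comp p).trans hp.sum⟩

theorem cexp_ptn_one : Ptn A fun _ : Fin 1 => (1 : Al M) :=
  ⟨fun _ => one_mem _, fun _ => IsStarProjection.one _,
    fun _ _ h => absurd (Subsingleton.elim _ _) h, by simp⟩

/-- A common refinement indexed by `Fin n` (`Ptn.prod`, reindexed by `Fintype.equivFin`). -/
theorem exists_ref (hA : Masa A) (hp : Ptn A p) (hq : Ptn A q) :
    ∃ (n : ℕ) (s : Fin n → Al M), Ptn A s ∧ Ref p s ∧ Ref q s := by
  let e := (Fintype.equivFin (ι × κ)).symm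
  refine ⟨_, _, (hp.prod hA hq).reindex e, fun k => ⟨(e k).1, ?_⟩, fun k => ⟨(e k).2, ?_⟩⟩ <;>
    beta_reduce
  · rw [← mul_assoc, proj_mul_self (hp.proj _)]
  · rw [hA.comm _ (hp.mem _) _ (hq.mem _), ← mul_assoc, proj_mul_self (hq.proj _)]

/-- Finitely many conditions "for all partitions finer than `p_i`" hold simultaneously. -/
theorem exists_ref_all (hA : Masa A) {α : Type*} [Fintype α] (n : α → ℕ)
    (p : ∀ i, Fin (n i) → Al M) (hp : ∀ i, Ptn A (p i)) :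
    ∃ (m : ℕ) (s : Fin m → Al M), Ptn A s ∧ ∀ i, Ref (p i) s := by
  classical
  have key : ∀ t : Finset α, ∃ (m : ℕ) (s : Fin m → Al M), Ptn A s ∧ ∀ i ∈ t, Ref (p i) s := by
    intro t
    induction t using Finset.induction_on with
    | empty => exact ⟨1, _, cexp_ptn_one, by simp⟩
    | insert i t _ ih =>
      obtain ⟨m, s, hs, h⟩ := ih
      obtain ⟨m', s', hs', h1, h2⟩ := exists_ref hA (hp i) hs
      exact ⟨m', s', hs', Finset.forall_mem_insert .. |>.2 ⟨h1, fun j hj => (h j hj).trans h2⟩⟩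
  obtain ⟨m, s, hs, h⟩ := key Finset.univ
  exact ⟨m, s, hs, fun i => h i (Finset.mem_univ i)⟩

theorem ptn_two {e : Al M} (heA : e ∈ A) (he : IsStarProjection e) : Ptn A ![e, 1 - e] := by
  refine ⟨Fin.forall_fin_two.2 ⟨heA, sub_mem (one_mem _) heA⟩,
    Fin.forall_fin_two.2 ⟨he, he.one_sub⟩, fun i j hij => ?_, by simp⟩
  fin_cases i <;> fin_cases j <;> simp [mul_sub, sub_mul, proj_mul_self he] at hij ⊢

theorem Std.inner_Ep (h : Std A ξ) (hp : Ptn A p) (x y : Al M) :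
    ⟪ap (Ep p x) ξ, ap y ξ⟫_ℂ = ⟪ap x ξ, ap (Ep p y) ξ⟫_ℂ := by
  rw [Ep, Ep, ap_sum, ap_sum, sum_inner, inner_sum]
  refine Finset.sum_congr rfl fun i _ => ?_
  rw [mul_assoc, ap_mul, inner_ap_left, ← ap_mul, h.inner_mul_right _ _ (hp.mem i),
    proj_star (hp.proj i)]

/-- `m ξ ↦ Ep p m ξ` is an orthogonal projection. -/
theorem Std.norm_sub_Ep_sq (h : Std A ξ) (hp : Ptn A p) (m : Al M) :
    ‖ap (m - Ep p m) ξ‖ ^ 2 = ‖ap m ξ‖ ^ 2 - ‖ap (Ep p m) ξ‖ ^ 2 := by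
  have h0 : ⟪ap (m - Ep p m) ξ, ap (Ep p m) ξ⟫_ℂ = 0 := by
    rw [← h.inner_Ep hp, Ep_sub, hp.Ep_Ep, sub_self, ap_zero, inner_zero_left]
  have := norm_add_sq_eq_norm_sq_add_norm_sq_of_inner_eq_zero _ _ h0
  rw [← ap_add, sub_add_cancel] at this
  linarith

theorem Std.ph_mul_Ep (h : Std A ξ) (hp : Ptn A p) {b : Al M} (hb : b ∈ A) (m : Al M) :
    ph ξ (b * Ep p m) = ph ξ (b * m) := by
  rw [← star_star b, ph_star_mul, ph_star_mul, ← h.inner_Ep hp, hp.Ep_mem h.toMasa (star_mem hb)]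

end Ref

/-- Positive cone version of `Masa.span_induction` (`R121.spec_cone` in the C*-algebra `↥A`). -/
theorem Masa.cone_induction (h : Masa A) {S : Set (Al M)} (hS : IsClosed S) (h0 : (0 : Al M) ∈ S)
    (hadd : ∀ a ∈ S, ∀ b ∈ S, a + b ∈ S) (hsmul : ∀ t : ℝ, 0 ≤ t → ∀ a ∈ S, (t : ℂ) • a ∈ S)
    (hp : ∀ e ∈ A, IsStarProjection e → e ∈ S) {b : Al M} (hb : b ∈ A) : star b * b ∈ S := by
  have hcl := h.isClosed
  let _ := CStarAlgebra.spectralOrder A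
  have := CStarAlgebra.spectralOrderedRing A
  refine spec_cone (A := A) (S := {z : A | (z : Al M) ∈ S}) (fun z => ?_)
    (hS.preimage continuous_subtype_val) h0 (fun a ha b hb => hadd _ ha _ hb)
    (fun t ht a ha => hsmul t ht _ ha) (IsStarProjection.one A) (fun e he _ => ?_)
    (star_mul_self_nonneg (⟨b, hb⟩ : A)) (one_mul _)
  · obtain ⟨e, heA, he, h1, h2⟩ := h.exists_supp z.2
    exact ⟨⟨e, heA⟩, ⟨Subtype.ext he.isIdempotentElem.eq, Subtype.ext he.isSelfAdjoint.star_eq⟩,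
      Subtype.ext h1, fun y hy => Subtype.ext (h2 y (congrArg Subtype.val hy))⟩
  · exact hp e e.2 ⟨congrArg Subtype.val he.isIdempotentElem.eq,
      congrArg Subtype.val he.isSelfAdjoint.star_eq⟩

theorem Std.eq_zero_of_ph (h : Std A ξ) {m : Al M} (h0 : ph ξ (star m * m) = 0) : m = 0 :=
  h.sep m (inner_self_eq_zero.1 ((ph_star_mul ξ m m).symm.trans h0))

/-- Elements of `A` are determined by their pairing with `A`. -/
theorem Std.ext_A (h : Std A ξ) {a a' : Al M} (ha : a ∈ A) (ha' : a' ∈ A)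
    (e : ∀ b ∈ A, ph ξ (b * a) = ph ξ (b * a')) : a = a' := by
  refine sub_eq_zero.1 (h.eq_zero_of_ph ?_)
  rw [mul_sub, map_sub, e _ (star_mem (sub_mem ha ha')), sub_self]

/-- An almost minimal partition: refining it hardly changes the pinching. -/
theorem Std.exists_min (h : Std A ξ) (m : Al M) {e : ℝ} (he : 0 < e) :
    ∃ (n : ℕ) (p : Fin n → Al M), Ptn A p ∧ ∀ (κ : Type) [Fintype κ] (q : κ → Al M), Ptn A q →
      Ref p q → ‖ap (Ep p m - Ep q m) ξ‖ ≤ e := by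
  let S : Set ℝ := {t | ∃ (n : ℕ) (p : Fin n → Al M), Ptn A p ∧ t = ‖ap (Ep p m) ξ‖ ^ 2}
  have hb : BddBelow S := ⟨0, by rintro _ ⟨n, p, -, rfl⟩; positivity⟩
  obtain ⟨_, ⟨n, p, hp, rfl⟩, h1⟩ :=
    Real.lt_sInf_add_pos (s := S) ⟨_, 1, _, cexp_ptn_one, rfl⟩ (pow_pos he 2)
  refine ⟨n, p, hp, fun κ _ q hq hr => (abs_le_of_sq_le_sq' ?_ he.le).2⟩
  have h2 : sInf S ≤ ‖ap (Ep q m) ξ‖ ^ 2 := csInf_le hb
    ⟨_, _, hq.reindex (Fintype.equivFin κ).symm, by
      rw [Ep, Ep, (Fintype.equivFin κ).symm.sum_comp fun i => q i * m * q i]⟩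
  have h3 := h.norm_sub_Ep_sq hq (Ep p m)
  rw [(hr.Ep_Ep hp hq m).1] at h3
  linarith

theorem cexp_tri (x y z : Al M) (ξ : H) :
    ‖ap (x - z) ξ‖ ≤ ‖ap (x - y) ξ‖ + ‖ap (y - z) ξ‖ := norm_sub_le_norm_sub_add_norm_sub _ _ _

theorem cexp_rev (x y : Al M) (ξ : H) : ‖ap (x - y) ξ‖ = ‖ap (y - x) ξ‖ := norm_sub_rev _ _

/-- Let `d` be the infimum of `‖Ep p m ξ‖` over all partitions `p : Fin n → Al M`; take an
increasing sequence `p_k` (`exists_ref`) with `‖Ep p_k m ξ‖ → d`. By `norm_sub_Ep_sq` and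
`Ref.Ep_Ep` the vectors `Ep p_k m ξ` are Cauchy; let `a` be a weak limit of `Ep p_k m` along
`hyperfilter ℕ` (`exists_WL`), then `Ep p_k m ξ → a ξ` in norm. For a projection `e ∈ A` and
`r = ![e, 1 - e]`, `‖Ep r (Ep p_k m) ξ‖ ≥ d` (a refinement of both has smaller norm), so
`‖Ep r a ξ‖ = ‖a ξ‖`, `a = Ep r a` commutes with `e`; `Masa.mem_of_comm_proj`. For `q` finer than
`p_k`, `Ep q m - a = Ep q (Ep p_k m - a)` and `Std.norm_Ep_le`. -/
theorem Std.exists_lim (h : Std A ξ) (m : Al M) : ∃ a ∈ A, ‖a‖ ≤ ‖m‖ ∧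
    (∀ b ∈ A, ph ξ (b * a) = ph ξ (b * m)) ∧ ∀ e > 0, ∃ (n : ℕ) (p : Fin n → Al M), Ptn A p ∧
      ∀ (κ : Type) [Fintype κ] (q : κ → Al M), Ptn A q → Ref p q → ‖ap (Ep q m - a) ξ‖ ≤ e := by
  choose n p hp H using fun k : ℕ => h.exists_min m (Nat.one_div_pos_of_nat (α := ℝ) (n := k))
  obtain ⟨a, ha⟩ := exists_WL (hyperfilter ℕ) (fun k => Ep (p k) m) ‖m‖
    (Eventually.of_forall fun k => (hp k).norm_Ep_le m)
  have h1 : ∀ k, ‖ap (Ep (p k) m - a) ξ‖ ≤ 2 * (1 / (k + 1)) := fun k =>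
    ((WL.const _ _).sub ha).norm_ap_le ξ <| by
      refine ((eventually_ge_atTop k).filter_mono Nat.hyperfilter_le_atTop).mono fun l hl => ?_
      obtain ⟨_, s, hs, r1, r2⟩ := exists_ref h.toMasa (hp k) (hp l)
      have := cexp_tri (Ep (p k) m) (Ep s m) (Ep (p l) m) ξ
      rw [cexp_rev (Ep s m)] at this
      linarith [H k _ s hs r1, H l _ s hs r2, Nat.one_div_le_one_div (α := ℝ) hl]
  have h2 : ∀ e > 0, ∃ (n : ℕ) (p : Fin n → Al M), Ptn A p ∧
      ∀ (κ : Type) [Fintype κ] (q : κ → Al M), Ptn A q → Ref p q → ‖ap (Ep q m - a) ξ‖ ≤ e := by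
    intro e he
    obtain ⟨k, hk⟩ := exists_nat_one_div_lt (show 0 < e / 3 by positivity)
    refine ⟨_, p k, hp k, fun κ _ q hq hr => ?_⟩
    have := cexp_tri (Ep q m) (Ep (p k) m) a ξ
    rw [cexp_rev (Ep q m) (Ep (p k) m)] at this
    linarith [H k _ q hq hr, h1 k]
  refine ⟨a, h.toMasa.mem_of_comm_proj fun e heA he => ?_,
    ha.norm_le (Eventually.of_forall fun k => (hp k).norm_Ep_le m), fun b hb => ?_, h2⟩
  · have hr := ptn_two heA he
    have h3 : Ep ![e, 1 - e] a = a := by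
      refine sub_eq_zero.1 (h.sep _ (norm_le_zero_iff.1 (le_of_forall_pos_le_add fun d hd => ?_)))
      obtain ⟨_, q, hq, h4⟩ := h2 (d / 2) (by positivity)
      obtain ⟨_, s, hs, r1, r2⟩ := exists_ref h.toMasa hr hq
      have h5 := h.norm_Ep_le hr (Ep s m - a)
      rw [Ep_sub, (r1.Ep_Ep hr hs m).2, cexp_rev] at h5
      linarith [cexp_tri (Ep ![e, 1 - e] a) (Ep s m) a ξ, h4 _ s hs r2]
    have h4 := (hr.mul_Ep a 0).trans (hr.Ep_mul a 0).symm
    rwa [h3] at h4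
  · exact tendsto_nhds_unique ((ha.mul_left b) ξ ξ)
      (tendsto_const_nhds.congr fun k => (h.ph_mul_Ep (hp k) hb m).symm)

theorem Std.exists_E (h : Std A ξ) : ∃ E : Al M →ₗ[ℂ] Al M,
    ∀ m, E m ∈ A ∧ ∀ b ∈ A, ph ξ (b * E m) = ph ξ (b * m) := by
  choose a ha _ h1 _ using h.exists_lim
  refine ⟨⟨⟨a, fun x y => h.ext_A (ha _) (add_mem (ha x) (ha y)) fun b hb => ?_⟩,
    fun c x => h.ext_A (ha _) (SMulMemClass.smul_mem c (ha x)) fun b hb => ?_⟩,
    fun m => ⟨ha m, h1 m⟩⟩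
  · simp only [mul_add, map_add, h1 _ b hb]
  · simp only [mul_smul_comm, map_smul, h1 _ b hb, RingHom.id_apply]

/-- The conditional expectation. -/
noncomputable def Std.E (h : Std A ξ) : Al M →ₗ[ℂ] Al M := h.exists_E.choose

theorem Std.E_mem (h : Std A ξ) (m : Al M) : h.E m ∈ A := (h.exists_E.choose_spec m).1

theorem Std.ph_mul_E (h : Std A ξ) {b : Al M} (hb : b ∈ A) (m : Al M) :
    ph ξ (b * h.E m) = ph ξ (b * m) := (h.exists_E.choose_spec m).2 b hb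

theorem Std.E_eq (h : Std A ξ) {a m : Al M} (ha : a ∈ A)
    (e : ∀ b ∈ A, ph ξ (b * a) = ph ξ (b * m)) : h.E m = a := by
  exact h.ext_A (h.E_mem m) ha fun b hb => (h.ph_mul_E hb m).trans (e b hb).symm

theorem Std.ph_E (h : Std A ξ) (m : Al M) : ph ξ (h.E m) = ph ξ m := by
  simpa only [one_mul] using h.ph_mul_E (one_mem A) m

theorem Std.E_of_mem (h : Std A ξ) {a : Al M} (ha : a ∈ A) : h.E a = a := by
  exact h.E_eq ha fun _ _ => rfl

theorem Std.E_mul_left (h : Std A ξ) {a : Al M} (ha : a ∈ A) (m : Al M) :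
    h.E (a * m) = a * h.E m := by
  refine h.E_eq (mul_mem ha (h.E_mem m)) fun b hb => ?_
  rw [← mul_assoc, h.ph_mul_E (mul_mem hb ha), mul_assoc]

theorem Std.E_mul_right (h : Std A ξ) {a : Al M} (ha : a ∈ A) (m : Al M) :
    h.E (m * a) = h.E m * a := by
  refine h.E_eq (mul_mem (h.E_mem m) ha) fun b hb => ?_
  rw [← mul_assoc, ← mul_assoc, ← h.ph_comm ha, ← h.ph_comm ha, ← mul_assoc, ← mul_assoc,
    h.ph_mul_E (mul_mem ha hb)]

theorem Std.E_star (h : Std A ξ) (m : Al M) : h.E (star m) = star (h.E m) := by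
  refine h.E_eq (star_mem (h.E_mem m)) fun b hb => ?_
  rw [← star_star b, ← star_mul, ← star_mul, ph_star, ph_star, ← h.ph_comm (star_mem hb),
    ← h.ph_comm (star_mem hb), h.ph_mul_E (star_mem hb)]

theorem Std.norm_E_le (h : Std A ξ) (m : Al M) : ‖h.E m‖ ≤ ‖m‖ := by
  obtain ⟨a, ha, h1, h2, -⟩ := h.exists_lim m
  rwa [h.E_eq ha h2]

theorem Std.norm_E_ap_le (h : Std A ξ) (m : Al M) : ‖ap (h.E m) ξ‖ ≤ ‖ap m ξ‖ := by
  have h1 := h.ph_mul_E (star_mem (h.E_mem m)) m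
  rw [ph_star_mul_self, ph_star_mul] at h1
  have h2 := norm_inner_le_norm (𝕜 := ℂ) (ap (h.E m) ξ) (ap m ξ)
  rw [← h1, Complex.norm_real, Real.norm_of_nonneg (sq_nonneg _), sq] at h2
  rcases (norm_nonneg (ap (h.E m) ξ)).eq_or_lt with h0 | h0
  · exact h0 ▸ norm_nonneg _
  · exact le_of_mul_le_mul_left h2 h0

theorem Std.E_approx (h : Std A ξ) (m : Al M) {e : ℝ} (he : 0 < e) :
    ∃ (n : ℕ) (p : Fin n → Al M), Ptn A p ∧ ∀ (κ : Type) [Fintype κ] (q : κ → Al M), Ptn A q →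
      Ref p q → ‖ap (Ep q m - h.E m) ξ‖ ≤ e := by
  obtain ⟨a, ha, -, h2, h3⟩ := h.exists_lim m
  rw [h.E_eq ha h2]
  exact h3 e he

/-- A self-adjoint `c ∈ A` pairing nonnegatively with squares is a square: with `c₋ = cfc (·⁻) c`
and `b = cfc (√(·⁻)) c`, `φ(b b c) = - ‖c₋ ξ‖²`, so `c₋ = 0` and `c = (cfc (√(·⁺)) c)²`. -/
theorem Std.exists_sq (h : Std A ξ) {c : Al M} (hc : c ∈ A) (hs : IsSelfAdjoint c)
    (h0 : ∀ b ∈ A, 0 ≤ (ph ξ (star b * b * c)).re) :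
    ∃ d ∈ A, IsSelfAdjoint d ∧ c = d * d := by
  set d := cfc (fun t : ℝ => √t) c with hd
  set b := cfc (fun t : ℝ => √(-t)) c with hb
  have hbs : star b = b := IsSelfAdjoint.cfc.star_eq
  have hbd : b * d = 0 := by
    rw [hb, hd, ← cfc_mul .., ← cfc_zero ℝ c]
    refine cfc_congr fun t _ => ?_
    rcases le_total t 0 with h | h
    · simp only [Real.sqrt_eq_zero'.2 h, mul_zero, Pi.zero_apply]
    · simp only [Real.sqrt_eq_zero'.2 (neg_nonpos.2 h), zero_mul, Pi.zero_apply]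
  have hid : c = d * d - b * b := by
    rw [hb, hd, ← cfc_mul .., ← cfc_mul .., ← cfc_sub ..]
    nth_rewrite 1 [← cfc_id' ℝ c]
    refine cfc_congr fun t _ => ?_
    rcases le_total t 0 with h | h
    · simp only [Real.sqrt_eq_zero'.2 h, Real.mul_self_sqrt (neg_nonneg.2 h)]
      ring
    · simp only [Real.sqrt_eq_zero'.2 (neg_nonpos.2 h), Real.mul_self_sqrt h]
      ring
  have h1 : star b * b * c = - (star (b * b) * (b * b)) := by
    rw [star_mul, hbs]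
    nth_rewrite 1 [hid]
    rw [mul_sub, mul_assoc b b (d * d), ← mul_assoc b d, hbd, zero_mul, mul_zero, zero_sub]
  have h2 := h0 b (h.toMasa.cfc_mem hc _)
  rw [h1, map_neg, ph_star_mul_self, Complex.neg_re, Complex.ofReal_re] at h2
  have h3 : b * b = 0 := h.sep _ (norm_eq_zero.1 (pow_eq_zero_iff two_ne_zero |>.1
    (le_antisymm (by linarith) (sq_nonneg _))))
  exact ⟨d, h.toMasa.cfc_mem hc _, IsSelfAdjoint.cfc, by rw [← sub_zero (d * d), ← h3, ← hid]⟩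

/-- Positivity: `φ(b* b E(m* m)) = φ(b* b m* m) = ‖m b* ξ‖²`. -/
theorem Std.E_star_mul_self (h : Std A ξ) (m : Al M) :
    ∃ d ∈ A, IsSelfAdjoint d ∧ h.E (star m * m) = d * d := by
  refine h.exists_sq (h.E_mem _) ?_ fun b hb => ?_
  · rw [IsSelfAdjoint, ← h.E_star, star_mul, star_star]
  · have e : b * (star m * m) * star b = star (m * star b) * (m * star b) := by
      simp only [star_mul, star_star, mul_assoc]
    rw [h.ph_mul_E (mul_mem (star_mem hb) hb), mul_assoc, h.ph_comm (star_mem hb), e,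
      ph_star_mul_self, Complex.ofReal_re]
    positivity

theorem Std.E_faithful (h : Std A ξ) {m : Al M} (h0 : h.E (star m * m) = 0) : m = 0 := by
  refine h.eq_zero_of_ph ?_
  rw [← h.ph_E, h0, map_zero]

/-- A central vector functional factors through `E`: it is invariant under every `Ep q`, and
`Ep q m - E m` is bounded and small at `ξ`, hence at `η` (`E_approx`, `Std.small`). -/
theorem Std.inner_E (h : Std A ξ) (ζ η : H)
    (hc : ∀ a ∈ A, ∀ m : Al M, ⟪ζ, ap (a * m) η⟫_ℂ = ⟪ζ, ap (m * a) η⟫_ℂ) (m : Al M) :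
    ⟪ζ, ap (h.E m) η⟫_ℂ = ⟪ζ, ap m η⟫_ℂ := by
  have hc0 : (0 : ℝ) < 2 * ‖m‖ + 1 := by positivity
  have hc1 : ((2 * ‖m‖ + 1 : ℝ) : ℂ) ≠ 0 := by exact_mod_cast hc0.ne'
  refine sub_eq_zero.1 (norm_le_zero_iff.1 (le_of_forall_pos_le_add fun e he => ?_))
  obtain ⟨d, hd, h1⟩ := h.small (((2 * ‖m‖ + 1 : ℝ) : ℂ) • η) (e := e / (‖ζ‖ + 1)) (by positivity)
  obtain ⟨n, p, hp, h2⟩ := h.E_approx m (mul_pos hc0 hd)
  have h3 : ⟪ζ, ap (Ep p m) η⟫_ℂ = ⟪ζ, ap m η⟫_ℂ := by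
    conv_rhs => rw [← mul_one m, ← hp.sum, Finset.mul_sum]
    rw [Ep, ap_sum, ap_sum, inner_sum, inner_sum]
    refine Finset.sum_congr rfl fun i _ => ?_
    rw [mul_assoc, hc _ (hp.mem i), mul_assoc, proj_mul_self (hp.proj i)]
  have hn : ‖((2 * ‖m‖ + 1 : ℝ) : ℂ)⁻¹‖ = (2 * ‖m‖ + 1)⁻¹ := by
    rw [norm_inv, Complex.norm_real, Real.norm_of_nonneg hc0.le]
  have h4 := h1 (((2 * ‖m‖ + 1 : ℝ) : ℂ)⁻¹ • (Ep p m - h.E m)) (by
    rw [norm_smul, hn, inv_mul_le_iff₀ hc0]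
    linarith [norm_sub_le (Ep p m) (h.E m), hp.norm_Ep_le m, h.norm_E_le m]) (by
    rw [ap_smul, norm_smul, hn, inv_mul_le_iff₀ hc0]
    exact h2 _ p hp fun k => ⟨k, proj_mul_self (hp.proj k)⟩)
  rw [ap_smul, ap, map_smul, inv_smul_smul₀ hc1, le_div_iff₀ (by positivity)] at h4
  rw [← h3, ← inner_sub_right, ← ap_sub]
  refine (norm_inner_le_norm _ _).trans ?_
  rw [cexp_rev]
  nlinarith [norm_nonneg (ap (Ep p m - h.E m) η)]

theorem RB.mono {C C' : ℝ} {m : Al M} (h : RB ξ C m) (hC : C ≤ C') : RB ξ C' m := by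
  exact fun y => (h y).trans (mul_le_mul_of_nonneg_right hC (norm_nonneg _))

theorem RB.mul {C C' : ℝ} {m m' : Al M} (h : RB ξ C m) (h' : RB ξ C' m') (hC : 0 ≤ C') :
    RB ξ (C * C') (m * m') := by
  intro y
  rw [← mul_assoc, mul_comm C, mul_assoc C']
  exact (h' _).trans (mul_le_mul_of_nonneg_left (h y) hC)

theorem RB.sub {C C' : ℝ} {m m' : Al M} (h : RB ξ C m) (h' : RB ξ C' m') :
    RB ξ (C + C') (m - m') := by
  intro y
  rw [mul_sub, ap_sub, add_mul]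
  exact (norm_sub_le _ _).trans (add_le_add (h y) (h' y))

theorem Std.rb_of_mem (h : Std A ξ) {a : Al M} (ha : a ∈ A) (h1 : ‖a‖ ≤ 1) : RB ξ 1 a := by
  exact fun y => (h.norm_mul_le y ha).trans (mul_le_mul_of_nonneg_right h1 (norm_nonneg _))

end Crest.Agent.R109
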