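import Crest.Agent.R109.NDefs

/-!
# R109/N: simultaneous spectral cut, operations on partitions, gluing two corners
-/

set_option autoImplicit false
open Filter Topology
open scoped InnerProductSpace

namespace Crest.Agent.R109
open Crest.Agent.R121

universe u
variable {H : Type u} [NormedAddCommGroup H] [InnerProductSpace ℂ H] [CompleteSpace H]
variable {M : VonNeumannAlgebra H} {A : StarSubalgebra ℂ (Al M)}
variable {K : Type*} [NormedAddCommGroup K] [InnerProductSpace ℂ K] [CompleteSpace K]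
variable {κ : Type*} [Fintype κ]

theorem ncut_sqrt {B : Type*} [CStarAlgebra B] {ι : Type*} [Fintype ι] (w : ι → B) :
    ∃ h : B, IsSelfAdjoint h ∧ h * h = ∑ i, star (w i) * w i ∧
      ∀ y, (∑ i, star (w i) * w i) * y = y * ∑ i, star (w i) * w i → y * h = h * y := by
  let _ := CStarAlgebra.spectralOrder B
  have := CStarAlgebra.spectralOrderedRing B
  have hS : 0 ≤ ∑ i, star (w i) * w i := Finset.sum_nonneg fun i _ => star_mul_self_nonneg _
  have hsa : IsSelfAdjoint (∑ i, star (w i) * w i) := hS.isSelfAdjoint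
  refine ⟨cfc Real.sqrt (∑ i, star (w i) * w i), IsSelfAdjoint.cfc, ?_,
    fun y hy => (Commute.cfc_real (a := ∑ i, star (w i) * w i) (b := y) hy _).eq.symm⟩
  rw [← cfc_mul _ _ _]
  conv_rhs => rw [← cfc_id' ℝ (∑ i, star (w i) * w i)]
  exact cfc_congr fun t ht => Real.mul_self_sqrt (spectrum_nonneg_of_nonneg hS ht)

/-- Simultaneous cut.  Let `h = cfc √ (∑ star (w i) * w i)`: self-adjoint with
`h * h = ∑ star (w i) * w i` (the spectrum of the sum is nonnegative: use
`CStarAlgebra.spectralOrder` or `R121.polar_aux`-like reasoning; alternatively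
`‖ap h ζ‖² = ∑ ‖ap (w i) ζ‖²` by `std_norm_sq`).  `exists_cut` gives `q'` commuting with all that
commutes with `h`, in particular with `g` (`g` commutes with the sum since `w i * g = w i`, so with
`h` by `Commute.cfc_real`).  Put `q = g * q'`; `‖w i (q ζ)‖ ≤ ‖h q ζ‖ = ‖h q' g ζ‖ ≤ c ‖ζ‖`,
`‖(g - q) ζ‖ = ‖g (1 - q') ζ‖ ≤ ‖(1 - q') ζ‖`; sum over the vectors (`norm_J_sq`). -/
theorem multi_cut {ι : Type*} [Fintype ι] (w : ι → Al M) {g : Al M} (hg : IsStarProjection g)
    (hw : ∀ i, w i * g = w i) {c : ℝ} (hc : 0 ≤ c) (ξ : κ → H) :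
    ∃ q : Al M, IsStarProjection q ∧ g * q = q ∧ (∀ i, ‖w i * q‖ ≤ c) ∧
      c ^ 2 * ‖J ξ (g - q)‖ ^ 2 ≤ ∑ i, ‖J ξ (w i)‖ ^ 2 := by
  obtain ⟨h, hsa, hh, hcomm⟩ := ncut_sqrt w
  obtain ⟨q', hq', hc', hn, hz⟩ := exists_cut hsa hc
  have hgw : ∀ i, g * star (w i) = star (w i) := fun i => by
    simpa only [star_mul, proj_star hg] using congrArg star (hw i)
  have hgh : g * h = h * g := hcomm g (by
    rw [Finset.sum_mul, Finset.mul_sum]
    exact Finset.sum_congr rfl fun i _ => by rw [mul_assoc, hw, ← mul_assoc, hgw])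
  have hgq : g * q' = q' * g := hc' g hgh
  have hnorm : ∀ ζ : H, ‖ap h ζ‖ ^ 2 = ∑ i, ‖ap (w i) ζ‖ ^ 2 := fun ζ => by
    rw [std_norm_sq, hsa.star_eq, hh, ap_sum, inner_sum, Complex.re_sum]
    exact Finset.sum_congr rfl fun i _ => (std_norm_sq _ _).symm
  refine ⟨g * q', hg.mul hq' hgq, proj_mul_self_left hg _, fun i => ?_, ?_⟩
  · refine norm_le_of_ap _ hc fun ζ => ?_
    have h1 : ‖ap (w i) (ap (g * q') ζ)‖ ^ 2 ≤ ‖ap h (ap (g * q') ζ)‖ ^ 2 := by
      rw [hnorm]
      exact Finset.single_le_sum (f := fun j => ‖ap (w j) (ap (g * q') ζ)‖ ^ 2)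
        (fun j _ => sq_nonneg _) (Finset.mem_univ i)
    have h2 : ap h (ap (g * q') ζ) = ap (h * q') (ap g ζ) := by rw [hgq]; rfl
    have h3 : ‖ap (h * q') (ap g ζ)‖ ≤ c * ‖ζ‖ :=
      (norm_ap_le _ _).trans (mul_le_mul hn (std_proj_le hg ζ) (norm_nonneg _) hc)
    rw [h2] at h1
    exact (abs_le_of_sq_le_sq' h1 (norm_nonneg _)).2.trans h3
  · simp only [norm_J_sq]
    rw [Finset.sum_comm, Finset.mul_sum]
    refine Finset.sum_le_sum fun k _ => ?_
    have e : g - g * q' = g * (1 - q') := by rw [mul_sub, mul_one]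
    rw [← hnorm, ← mul_pow, e, ap_mul]
    refine pow_le_pow_left₀ (by positivity) (le_trans ?_ (hz (ξ k))) 2
    exact mul_le_mul_of_nonneg_left (std_proj_le hg _) hc

section Ptn
variable {ι : Type*} [Fintype ι] {p : ι → Al M}

/-- Refine each atom by its own partition (as `Ptn.prod`). -/
theorem Ptn.sigma (h : Ptn A p) (hA : Masa A) {τ : ι → Type*} [∀ i, Fintype (τ i)]
    {q : ∀ i, τ i → Al M} (hq : ∀ i, Ptn A (q i)) :
    Ptn A fun z : Σ i, τ i => p z.1 * q z.1 z.2 := by
  have hc : ∀ i j k, p i * q j k = q j k * p i := fun i j k =>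
    hA.comm _ (h.mem i) _ ((hq j).mem k)
  refine ⟨fun z => mul_mem (h.mem _) ((hq _).mem _),
    fun z => (h.proj _).mul ((hq _).proj _) (hc _ _ _), ?_, ?_⟩
  · rintro ⟨i, k⟩ ⟨j, l⟩ hne
    have e : p i * q i k * (p j * q j l) = (p i * p j) * (q i k * q j l) := by
      rw [mul_assoc, ← mul_assoc (q i k), ← hc, mul_assoc, mul_assoc]
    change p i * q i k * (p j * q j l) = 0
    rw [e]
    by_cases h1 : i = j
    · subst h1
      rw [(hq i).orth (i := k) (j := l) fun h2 => hne (by rw [h2]), mul_zero]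
    · rw [h.orth h1, zero_mul]
  · rw [Fintype.sum_sigma]
    simp only [← Finset.mul_sum, (hq _).sum, mul_one, h.sum]

theorem Ep_sigma (h : Ptn A p) (hA : Masa A) {τ : ι → Type*} [∀ i, Fintype (τ i)]
    {q : ∀ i, τ i → Al M} (hq : ∀ i, Ptn A (q i)) (x : Al M) :
    Ep (fun z : Σ i, τ i => p z.1 * q z.1 z.2) x = ∑ i, p i * Ep (q i) x * p i := by
  rw [Ep, Fintype.sum_sigma]
  refine Finset.sum_congr rfl fun i _ => ?_
  rw [Ep, Finset.mul_sum, Finset.sum_mul]
  refine Finset.sum_congr rfl fun k _ => ?_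
  have hc : p i * q i k = q i k * p i := hA.comm _ (h.mem i) _ ((hq i).mem k)
  calc p i * q i k * x * (p i * q i k) = p i * q i k * x * (q i k * p i) := by
        congr 1
    _ = _ := by simp only [mul_assoc]

theorem Ptn.comp_equiv (h : Ptn A p) {ι' : Type*} [Fintype ι'] (e : ι' ≃ ι) :
    Ptn A fun i => p (e i) := by
  exact ⟨fun i => h.mem _, fun i => h.proj _, fun i j hij => h.orth (e.injective.ne hij),
    (e.sum_comp p).trans h.sum⟩

theorem Ep_comp_equiv (p : ι → Al M) {ι' : Type*} [Fintype ι'] (e : ι' ≃ ι) (x : Al M) :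
    Ep (fun i => p (e i)) x = Ep p x := by
  exact e.sum_comp fun i => p i * x * p i

theorem Ptn.Ep_mul_left (h : Ptn A p) (hA : Masa A) {a : Al M} (ha : a ∈ A) (x : Al M) :
    Ep p (a * x) = a * Ep p x := by
  rw [Ep, Ep, Finset.mul_sum]
  refine Finset.sum_congr rfl fun i _ => ?_
  rw [← mul_assoc, hA.comm _ (h.mem i) a ha]
  simp only [mul_assoc]

theorem Ptn.Ep_mul_right (h : Ptn A p) (hA : Masa A) {a : Al M} (ha : a ∈ A) (x : Al M) :
    Ep p (x * a) = Ep p x * a := by
  rw [Ep, Ep, Finset.sum_mul]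
  refine Finset.sum_congr rfl fun i _ => ?_
  rw [mul_assoc (p i * x), hA.comm _ (h.mem i) a ha]
  simp only [mul_assoc]

/-- A partition of `e` is completed to a partition of unity: add `1 - e` to the colour `none`
(note `e * p i = p i` because `e = ∑ p j`). -/
theorem exists_ptn_of_sub {p : Option ι → Al M} (hmem : ∀ i, p i ∈ A)
    (hp : ∀ i, IsStarProjection (p i)) (ho : Pairwise fun i j => p i * p j = 0) {e : Al M}
    (he : ∑ i, p i = e) : ∃ p' : Option ι → Al M, Ptn A p' ∧ ∀ i, e * p' i = p i := by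
  classical
  have hep : ∀ i, e * p i = p i := fun i => by
    rw [← he, Finset.sum_mul, Finset.sum_eq_single i (fun j _ hj => ho hj) (by simp),
      proj_mul_self (hp i)]
  have heP : IsStarProjection e := he ▸ proj_finsum hp ho _
  have heA : e ∈ A := he ▸ sum_mem fun i _ => hmem i
  have h1 : ∀ i, (1 - e) * p i = 0 := fun i => by rw [sub_mul, one_mul, hep, sub_self]
  have h2 : ∀ i, p i * (1 - e) = 0 := fun i => proj_orth_comm heP.one_sub (hp i) (h1 i)
  refine ⟨fun o => o.elim (p none + (1 - e)) fun i => p (some i), ⟨?_, ?_, ?_, ?_⟩, ?_⟩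
  · rintro (_ | i)
    · exact add_mem (hmem _) (sub_mem (one_mem _) heA)
    · exact hmem _
  · rintro (_ | i)
    · exact (hp none).add heP.one_sub (h2 none)
    · exact hp _
  · rintro (_ | i) (_ | j) hij
    · exact absurd rfl hij
    · change (p none + (1 - e)) * p (some j) = 0
      rw [add_mul, ho hij, h1, add_zero]
    · change p (some i) * (p none + (1 - e)) = 0
      rw [mul_add, ho hij, h2, add_zero]
    · exact ho hij
  · rw [Fintype.sum_option] at he ⊢
    change p none + (1 - e) + ∑ i, p (some i) = 1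
    rw [add_right_comm, he, add_sub_cancel]
  · rintro (_ | i)
    · change e * (p none + (1 - e)) = p none
      rw [mul_add, hep, mul_sub, mul_one, proj_mul_self heP, sub_self, add_zero]
    · exact hep _

/-- Different colours on `e` and on `1 - e`. -/
theorem Ptn.glue (h : Ptn A p) (hA : Masa A) {ι' : Type*} [Fintype ι'] {p' : ι' → Al M}
    (h' : Ptn A p') {e : Al M} (heA : e ∈ A) (he : IsStarProjection e) :
    Ptn A (Sum.elim (fun i => e * p i) fun j => (1 - e) * p' j) ∧
      ∀ x, Ep (Sum.elim (fun i => e * p i) fun j => (1 - e) * p' j) x =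
        e * Ep p x * e + (1 - e) * Ep p' x * (1 - e) := by
  have heA' : 1 - e ∈ A := sub_mem (one_mem _) heA
  have h0 : e * (1 - e) = 0 := by rw [mul_sub, mul_one, proj_mul_self he, sub_self]
  have h0' : (1 - e) * e = 0 := by rw [sub_mul, one_mul, proj_mul_self he, sub_self]
  have sw : ∀ {a b c d : Al M}, b ∈ A → c ∈ A → a * b * (c * d) = a * c * (b * d) :=
    fun {a b c d} hb hc => by
      rw [mul_assoc, ← mul_assoc b, hA.comm b hb c hc, mul_assoc, mul_assoc]
  refine ⟨⟨?_, ?_, ?_, ?_⟩, fun x => ?_⟩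
  · rintro (i | j)
    · exact mul_mem heA (h.mem i)
    · exact mul_mem heA' (h'.mem j)
  · rintro (i | j)
    · exact he.mul (h.proj i) (hA.comm _ heA _ (h.mem i))
    · exact he.one_sub.mul (h'.proj j) (hA.comm _ heA' _ (h'.mem j))
  · rintro (i | j) (k | l) hne
    · change e * p i * (e * p k) = 0
      rw [sw (h.mem i) heA, h.orth fun hik => hne (congrArg _ hik), mul_zero]
    · change e * p i * ((1 - e) * p' l) = 0
      rw [sw (h.mem i) heA', h0, zero_mul]
    · change (1 - e) * p' j * (e * p k) = 0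
      rw [sw (h'.mem j) heA, h0', zero_mul]
    · change (1 - e) * p' j * ((1 - e) * p' l) = 0
      rw [sw (h'.mem j) heA', h'.orth fun hjl => hne (congrArg _ hjl), mul_zero]
  · rw [Fintype.sum_sum_type]
    simp only [Sum.elim_inl, Sum.elim_inr, ← Finset.mul_sum, h.sum, h'.sum, mul_one,
      add_sub_cancel]
  · rw [Ep, Fintype.sum_sum_type, Ep, Ep, Finset.mul_sum, Finset.sum_mul, Finset.mul_sum,
      Finset.sum_mul]
    simp only [Sum.elim_inl, Sum.elim_inr]
    congr 1
    · refine Finset.sum_congr rfl fun i _ => ?_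
      calc e * p i * x * (e * p i) = e * p i * x * (p i * e) := by
            rw [← hA.comm _ heA _ (h.mem i)]
        _ = _ := by simp only [mul_assoc]
    · refine Finset.sum_congr rfl fun j _ => ?_
      calc (1 - e) * p' j * x * ((1 - e) * p' j) = (1 - e) * p' j * x * (p' j * (1 - e)) := by
            rw [← hA.comm _ heA' _ (h'.mem j)]
        _ = _ := by simp only [mul_assoc]

end Ptn

/-- Block diagonal operators: `‖e ζ‖² + ‖(1 - e) ζ‖² = ‖ζ‖²` (or `Ptn.norm_diag_le` with `A = ⊤`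
and the partition `![e, 1 - e]`). -/
theorem norm_block_le {e X Y : Al M} (he : IsStarProjection e) {c : ℝ}
    (hX : ‖e * X * e‖ ≤ c) (hY : ‖(1 - e) * Y * (1 - e)‖ ≤ c) :
    ‖e * X * e + (1 - e) * Y * (1 - e)‖ ≤ c := by
  have h0 : e * (1 - e) = 0 := by rw [mul_sub, mul_one, proj_mul_self he, sub_self]
  have h0' : (1 - e) * e = 0 := by rw [sub_mul, one_mul, proj_mul_self he, sub_self]
  have hP : Ptn (⊤ : StarSubalgebra ℂ (Al M)) fun b : Bool => bif b then e else 1 - e := by
    refine ⟨fun _ => StarSubalgebra.mem_top, ?_, ?_, ?_⟩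
    · rintro (_ | _)
      · exact he.one_sub
      · exact he
    · rintro (_ | _) (_ | _) hne
      · exact absurd rfl hne
      · exact h0'
      · exact h0
      · exact absurd rfl hne
    · rw [Fintype.sum_bool]
      exact add_sub_cancel _ _
  have := hP.norm_diag_le (fun b : Bool => bif b then X else Y) ((norm_nonneg _).trans hX) (by
    rintro (_ | _)
    · exact hY
    · exact hX)
  rwa [Fintype.sum_bool] at this

theorem ncut_norm {e : Al M} (he : IsStarProjection e) (x : Al M) : ‖e * x * e‖ ≤ ‖x‖ := by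
  have hp := proj_norm_le he
  refine (norm_mul_le _ _).trans ((mul_le_of_le_one_right (norm_nonneg _) hp).trans ?_)
  exact (norm_mul_le _ _).trans (mul_le_of_le_one_left (norm_nonneg _) hp)

theorem ncut_sa {e a a' : Al M} (he : IsStarProjection e) (ha : IsSelfAdjoint a)
    (ha' : IsSelfAdjoint a') : IsSelfAdjoint (e * a * e + (1 - e) * a' * (1 - e)) := by
  rw [IsSelfAdjoint]
  simp only [star_add, star_mul, proj_star he, proj_star he.one_sub, ha.star_eq, ha'.star_eq,
    mul_assoc]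

/-- Glue: partition `Ptn.glue`, `a = e a₁ + (1 - e) a₂ = e a₁ e + (1 - e) a₂ (1 - e)`,
`q = q₁ + q₂`.  With `X = Ep p x - a₁`, `Y = Ep p' x - a₂`:
`q (e X e + (1 - e) Y (1 - e)) q = q₁ X q₁ + q₂ Y q₂`, which is block diagonal. -/
theorem SO.glue (hA : Masa A) {ξ : κ → H} {x e : Al M} (heA : e ∈ A) (he : IsStarProjection e)
    {ι ι' : Type} [Fintype ι] [Fintype ι'] {ε δ : ℝ} (h : SO A ξ x e ι ε δ)
    (h' : SO A ξ x (1 - e) ι' ε δ) : SO A ξ x 1 (ι ⊕ ι') ε (2 * δ) := by
  obtain ⟨p, hp, a, haA, hsa, hna, q, hq, heq, hJ, hn⟩ := h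
  obtain ⟨p', hp', a', haA', hsa', hna', q', hq', heq', hJ', hn'⟩ := h'
  obtain ⟨hP, hE⟩ := hp.glue hA hp' heA he
  have heA' : 1 - e ∈ A := sub_mem (one_mem _) heA
  have h0 : e * (1 - e) = 0 := by rw [mul_sub, mul_one, proj_mul_self he, sub_self]
  have h0' : (1 - e) * e = 0 := by rw [sub_mul, one_mul, proj_mul_self he, sub_self]
  have hqe : q * e = q := proj_le_comm he hq heq
  have hqe' : q' * (1 - e) = q' := proj_le_comm he.one_sub hq' heq'
  have h1 : e * q' = 0 := by rw [← heq', ← mul_assoc, h0, zero_mul]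
  have h2 : q' * e = 0 := proj_orth_comm he hq' h1
  have h3 : (1 - e) * q = 0 := by rw [← heq, ← mul_assoc, h0', zero_mul]
  have h4 : q * (1 - e) = 0 := proj_orth_comm he.one_sub hq h3
  have h5 : q * q' = 0 := by rw [← hqe, mul_assoc, h1, mul_zero]
  refine ⟨_, hP, e * a * e + (1 - e) * a' * (1 - e),
    add_mem (mul_mem (mul_mem heA haA) heA) (mul_mem (mul_mem heA' haA') heA'),
    ncut_sa he hsa hsa', norm_block_le he ((ncut_norm he a).trans hna)
      ((ncut_norm he.one_sub a').trans hna'), q + q', hq.add hq' h5, one_mul _, ?_, ?_⟩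
  · have e1 : 1 - (q + q') = (e - q) + (1 - e - q') := by abel
    rw [e1, map_add]
    linarith [norm_add_le (J ξ (e - q)) (J ξ (1 - e - q'))]
  · have l1 : (q + q') * e = e * q := by rw [add_mul, hqe, h2, add_zero, heq]
    have l2 : (q + q') * (1 - e) = (1 - e) * q' := by rw [add_mul, hqe', h4, zero_add, heq']
    have r1 : e * (q + q') = q * e := by rw [mul_add, heq, h1, add_zero, hqe]
    have r2 : (1 - e) * (q + q') = q' * (1 - e) := by rw [mul_add, heq', h3, zero_add, hqe']
    have e1 : (q + q') * (e * Ep p x * e + (1 - e) * Ep p' x * (1 - e) -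
        (e * a * e + (1 - e) * a' * (1 - e))) * (q + q') =
        e * (q * (Ep p x - a) * q) * e + (1 - e) * (q' * (Ep p' x - a') * q') * (1 - e) := by
      calc _ = ((q + q') * e) * (Ep p x - a) * (e * (q + q')) +
            ((q + q') * (1 - e)) * (Ep p' x - a') * ((1 - e) * (q + q')) := by noncomm_ring
        _ = _ := by rw [l1, l2, r1, r2]; simp only [mul_assoc]
    rw [hE, e1]
    exact norm_block_le he ((ncut_norm he _).trans hn) ((ncut_norm he.one_sub _).trans hn')

/-- Glue: `d = d₁ + d₂` is block diagonal (`d₁ = e d₁ e` as `d₁` is self-adjoint), and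
`e (Ep p (x - d₁ - d₂)) e = e (Ep p (x - d₁)) e` by `Ptn.Ep_mul_left` since `e d₂ = 0`. -/
theorem AP.glue (hA : Masa A) {ξ : κ → H} {x e : Al M} (heA : e ∈ A) (he : IsStarProjection e)
    {ι ι' : Type} [Fintype ι] [Fintype ι'] {ε δ : ℝ} (h : AP A ξ x e ι ε δ)
    (h' : AP A ξ x (1 - e) ι' ε δ) : AP A ξ x 1 (ι ⊕ ι') ε (2 * δ) := by
  obtain ⟨p, hp, a, haA, hsa, d, hd, hed, hnd, hJ, hn⟩ := h
  obtain ⟨p', hp', a', haA', hsa', d', hd', hed', hnd', hJ', hn'⟩ := h'
  obtain ⟨hP, hE⟩ := hp.glue hA hp' heA he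
  have heA' : 1 - e ∈ A := sub_mem (one_mem _) heA
  have h0 : e * (1 - e) = 0 := by rw [mul_sub, mul_one, proj_mul_self he, sub_self]
  have h0' : (1 - e) * e = 0 := by rw [sub_mul, one_mul, proj_mul_self he, sub_self]
  have hde : d * e = d := by
    simpa only [star_mul, proj_star he, hd.star_eq] using congrArg star hed
  have hde' : d' * (1 - e) = d' := by
    simpa only [star_mul, proj_star he.one_sub, hd'.star_eq] using congrArg star hed'
  have h1 : e * d' = 0 := by rw [← hed', ← mul_assoc, h0, zero_mul]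
  have h3 : (1 - e) * d = 0 := by rw [← hed, ← mul_assoc, h0', zero_mul]
  have z1 : e * Ep p d' = 0 := by
    rw [← hp.Ep_mul_left hA heA, h1]
    simp only [Ep, mul_zero, zero_mul, Finset.sum_const_zero]
  have z2 : (1 - e) * Ep p' d = 0 := by
    rw [← hp'.Ep_mul_left hA heA', h3]
    simp only [Ep, mul_zero, zero_mul, Finset.sum_const_zero]
  refine ⟨_, hP, e * a * e + (1 - e) * a' * (1 - e),
    add_mem (mul_mem (mul_mem heA haA) heA) (mul_mem (mul_mem heA' haA') heA'),
    ncut_sa he hsa hsa', d + d', hd.add hd', one_mul _, ?_, ?_, ?_⟩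
  · have e1 : d + d' = e * d * e + (1 - e) * d' * (1 - e) := by rw [hed, hde, hed', hde']
    rw [e1]
    exact norm_block_le he ((ncut_norm he d).trans hnd) ((ncut_norm he.one_sub d').trans hnd')
  · rw [map_add]
    linarith [norm_add_le (J ξ d) (J ξ d')]
  · have l1 : e * Ep p (x - (d + d')) = e * Ep p (x - d) := by
      rw [← sub_sub, Ep_sub p (x - d), mul_sub, z1, sub_zero]
    have l2 : (1 - e) * Ep p' (x - (d + d')) = (1 - e) * Ep p' (x - d') := by
      rw [add_comm, ← sub_sub, Ep_sub p' (x - d'), mul_sub (1 - e), z2, sub_zero]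
    have e1 : e * Ep p (x - d) * e + (1 - e) * Ep p' (x - d') * (1 - e) -
        (e * a * e + (1 - e) * a' * (1 - e)) =
        e * (Ep p (x - d) - a) * e + (1 - e) * (Ep p' (x - d') - a') * (1 - e) := by
      noncomm_ring
    rw [one_mul, mul_one, hE, l1, l2, e1]
    exact norm_block_le he hn hn'

end Crest.Agent.R109
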