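import Crest.Agent.R109.CExp

/-!
# R109: the spectrum of `A` with the measure given by the state
-/

set_option autoImplicit false
open Filter Topology MeasureTheory
open scoped InnerProductSpace Classical

namespace Crest.Agent.R109
open Crest.Agent.R121

universe u
variable {H : Type u} [NormedAddCommGroup H] [InnerProductSpace ℂ H] [CompleteSpace H]
variable {M : VonNeumannAlgebra H} {A : StarSubalgebra ℂ (Al M)} {ξ : H}

/-- Gelfand model of `A`. -/
structure Sp (A : StarSubalgebra ℂ (Al M)) (ξ : H) {X : Type u} [TopologicalSpace X]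
    [MeasurableSpace X] (μ : Measure X) where
  std : Std A ξ
  fn : C(X, ℂ) →⋆ₐ[ℂ] Al M
  inj : Function.Injective fn
  mem : ∀ f, fn f ∈ A
  surj : ∀ a ∈ A, ∃ f, fn f = a
  state : ∀ f, ph ξ (fn f) = ∫ ω, f ω ∂μ

theorem sp_clopen {X : Type*} [TopologicalSpace X] (g : C(X, ℂ)) (hg : ∀ ω, g ω = 0 ∨ g ω = 1) :
    IsClopen {ω | g ω = 1} := by
  refine ⟨isClosed_eq g.continuous continuous_const, ?_⟩
  convert isOpen_ne_fun g.continuous (continuous_const (y := (0 : ℂ))) using 1
  ext ω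
  rcases hg ω with h | h <;> simp [h]

/-- A real function as a complex function. -/
def spR {X : Type*} [TopologicalSpace X] (g : C(X, ℝ)) : C(X, ℂ) :=
  ⟨fun ω => (g ω : ℂ), by fun_prop⟩

/-- Let `e` be the left support of `fn b⁺` (`Masa.exists_supp`), `e = fn ê`; `C = {ê = 1}` is
clopen and contains `{b > 0}`; if `ω ∈ C` is not in the closure, Urysohn
(`exists_continuous_zero_one_of_isClosed`) gives `y` with `y b⁺ = 0`, `y ω = 1`, but `y ê = 0`. -/
theorem isClopen_closure_pos (hA : Masa A) {X : Type*} [TopologicalSpace X] [CompactSpace X]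
    [T2Space X] (fn : C(X, ℂ) →⋆ₐ[ℂ] Al M) (inj : Function.Injective fn) (mem : ∀ f, fn f ∈ A)
    (surj : ∀ a ∈ A, ∃ f, fn f = a) {b : X → ℝ} (hb : Continuous b) :
    IsClopen (closure {ω | 0 < b ω}) := by
  let bp : C(X, ℂ) := ⟨fun ω => ((max (b ω) 0 : ℝ) : ℂ), by fun_prop⟩
  obtain ⟨e, heA, he, h1, h2⟩ := hA.exists_supp (mem bp)
  obtain ⟨g, rfl⟩ := surj e heA
  have hg : g * g = g := inj (by rw [map_mul, he.isIdempotentElem.eq])
  have hgb : g * bp = bp := inj (by rw [map_mul, h1])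
  have hc := sp_clopen g fun ω => IsIdempotentElem.iff_eq_zero_or_one.1 congr($hg ω)
  convert hc using 1
  refine (closure_minimal (fun ω hω => ?_) hc.1).antisymm fun ω hω => ?_
  · have h3 : g ω * ((max (b ω) 0 : ℝ) : ℂ) = ((max (b ω) 0 : ℝ) : ℂ) := congr($hgb ω)
    have h4 : 0 < b ω := hω
    rw [max_eq_left h4.le] at h3
    exact (mul_eq_right₀ (by exact_mod_cast h4.ne')).1 h3
  · by_contra hn
    obtain ⟨y, hy0, hy1, -⟩ := exists_continuous_zero_one_of_isClosed isClosed_closure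
      isClosed_singleton (Set.disjoint_singleton_right.2 hn)
    have h3 : spR y * bp = 0 := by
      ext z
      change ((y z : ℝ) : ℂ) * ((max (b z) 0 : ℝ) : ℂ) = 0
      rcases lt_or_ge 0 (b z) with h | h
      · rw [hy0 (subset_closure h)]; simp
      · rw [max_eq_right h]; simp
    have h4 : spR y * g = 0 :=
      inj (by rw [map_mul, h2 _ (by rw [← map_mul, h3, map_zero]), map_zero])
    have h5 : ((y ω : ℝ) : ℂ) * g ω = 0 := congr($h4 ω)
    rw [hy1 rfl, show g ω = 1 from hω] at h5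
    simp at h5

theorem sp_gelfand {B : Type u} [CStarAlgebra B] (A : StarSubalgebra ℂ B)
    (hcl : IsClosed (A : Set B)) (hc : ∀ a ∈ A, ∀ b ∈ A, a * b = b * a) :
    ∃ (X : Type u) (_ : TopologicalSpace X) (_ : CompactSpace X) (_ : T2Space X)
      (fn : C(X, ℂ) →⋆ₐ[ℂ] B), Function.Injective fn ∧ (∀ f, fn f ∈ A) ∧
        ∀ a ∈ A, ∃ f, fn f = a := by
  let _ : CommCStarAlgebra A :=
    { (inferInstance : CStarAlgebra A) with mul_comm := fun a b => Subtype.ext (hc _ a.2 _ b.2) }
  refine ⟨WeakDual.characterSpace ℂ A, _, inferInstance, inferInstance,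
    A.subtype.comp (gelfandStarTransform A).symm, ?_, fun f => Subtype.prop _, fun a ha => ?_⟩
  · exact Subtype.val_injective.comp (gelfandStarTransform A).symm.injective
  · exact ⟨gelfandStarTransform A ⟨a, ha⟩,
      congrArg Subtype.val ((gelfandStarTransform A).symm_apply_apply ⟨a, ha⟩)⟩

open scoped CompactlySupported in
theorem sp_riesz {X : Type*} [TopologicalSpace X] [CompactSpace X] [T2Space X] [MeasurableSpace X]
    [BorelSpace X] (φ : C(X, ℂ) →ₗ[ℂ] ℂ) (hs : ∀ f, φ (star f) = (starRingEnd ℂ) (φ f))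
    (hp : ∀ f, 0 ≤ (φ (star f * f)).re) (h1 : φ 1 = 1) :
    ∃ μ : Measure X, IsProbabilityMeasure μ ∧ ∀ f, φ f = ∫ ω, f ω ∂μ := by
  let Λ₀ : C_c(X, ℝ) →ₗ[ℝ] ℝ :=
    { toFun := fun g => (φ (spR g.toContinuousMap)).re
      map_add' := fun f g => by
        rw [← Complex.add_re, ← map_add]
        congr 2
        ext; simp [spR]
      map_smul' := fun a f => by
        rw [RingHom.id_apply, smul_eq_mul, ← Complex.re_ofReal_mul, ← smul_eq_mul, ← map_smul]
        congr 2
        ext; simp [spR] }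
  let Λ : C_c(X, ℝ) →ₚ[ℝ] ℝ := PositiveLinearMap.mk₀ Λ₀ fun g hg => by
    have := hp (spR ⟨fun ω => √(g ω), by fun_prop⟩)
    refine this.trans_eq (congrArg (fun f => (φ f).re) ?_)
    ext ω
    simp only [spR, ContinuousMap.coe_mk, ContinuousMap.mul_apply, ContinuousMap.star_apply,
      RCLike.star_def, Complex.conj_ofReal, ← Complex.ofReal_mul]
    rw [Real.mul_self_sqrt (hg ω)]
    rfl
  have key : ∀ g : C(X, ℝ), φ (spR g) = ((∫ ω, g ω ∂(RealRMK.rieszMeasure Λ) : ℝ) : ℂ) :=
    fun g => by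
    have h2 := RealRMK.integral_rieszMeasure Λ ⟨g, HasCompactSupport.of_compactSpace _⟩
    have h3 := hs (spR g)
    rw [show star (spR g) = spR g by ext; simp [spR]] at h3
    exact (Complex.conj_eq_iff_re.1 h3.symm).symm.trans (congrArg _ h2.symm)
  refine ⟨RealRMK.rieszMeasure Λ, isProbabilityMeasure_iff_real.2 ?_, fun f => ?_⟩
  · have h2 := key 1
    rw [show spR (1 : C(X, ℝ)) = 1 by ext; simp [spR], h1] at h2
    simpa using h2.symm
  · have e : f = spR ⟨fun ω => (f ω).re, by fun_prop⟩ +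
        Complex.I • spR ⟨fun ω => (f ω).im, by fun_prop⟩ := by
      ext ω
      simp [spR, mul_comm Complex.I]
    have hf : Integrable f (RealRMK.rieszMeasure Λ) :=
      f.continuous.integrable_of_hasCompactSupport (HasCompactSupport.of_compactSpace _)
    conv_lhs => rw [e, map_add, map_smul, key, key]
    rw [← integral_re_add_im hf, smul_eq_mul, mul_comm]
    rfl

/-- `X = WeakDual.characterSpace ℂ ↥A` for the commutative C*-algebra `↥A` (build the
`CommCStarAlgebra` structure from `Masa.isClosed`, `Masa.comm`), `fn = A.subtype ∘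
(gelfandStarTransform ↥A).symm`, `borel X`. Total disconnectedness: `isClopen_closure_pos` gives
total separation. The measure: `RealRMK.rieszMeasure` of the positive functional
`f ↦ re (ph ξ (fn f))` on `C_c(X, ℝ)` (`RealRMK.integral_rieszMeasure`); split complex functions
into real and imaginary parts. -/
theorem Std.exists_sp (h : Std A ξ) : ∃ (X : Type u) (_ : TopologicalSpace X) (_ : CompactSpace X)
    (_ : T2Space X) (_ : TotallyDisconnectedSpace X) (_ : MeasurableSpace X) (_ : BorelSpace X)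
    (μ : Measure X) (_ : IsProbabilityMeasure μ), Nonempty (Sp A ξ μ) := by
  obtain ⟨X, _, _, _, fn, inj, mem, surj⟩ := sp_gelfand A h.toMasa.isClosed h.comm
  have : TotallySeparatedSpace X := by
    refine totallySeparatedSpace_iff_exists_isClopen.2 fun x y hxy => ?_
    obtain ⟨f, f0, f1, -⟩ := exists_continuous_zero_one_of_isClosed (isClosed_singleton (x := y))
      (isClosed_singleton (x := x)) (Set.disjoint_singleton.2 hxy.symm)
    have hf : Continuous fun ω => f ω - 1 / 2 := by fun_prop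
    refine ⟨_, isClopen_closure_pos h.toMasa fn inj mem surj hf, subset_closure ?_, fun hy => ?_⟩
    · change 0 < f x - 1 / 2
      rw [f1 rfl]; norm_num
    · have h1 : 0 ≤ f y - 1 / 2 := closure_lt_subset_le continuous_const hf hy
      rw [f0 rfl] at h1
      norm_num at h1
  borelize X
  obtain ⟨μ, hμ, h1⟩ := sp_riesz ((ph ξ).comp fn.toLinearMap)
    (fun f => (congrArg (ph ξ) (map_star fn f)).trans (ph_star ξ (fn f)))
    (fun f => by
      change 0 ≤ (ph ξ (fn (star f * f))).re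
      rw [map_mul, map_star, ph_star_mul_self, Complex.ofReal_re]
      positivity)
    (by
      change ph ξ (fn 1) = 1
      rw [map_one, ph_apply, ap_one, inner_self_eq_norm_sq_to_K, h.norm]
      simp)
  exact ⟨X, _, ‹_›, ‹_›, inferInstance, _, ‹_›, μ, hμ, ⟨⟨h, fn, inj, mem, surj, h1⟩⟩⟩

theorem sp_sq {B : Type*} [CStarAlgebra B] (x : B) :
    ∃ c : B, ((‖x‖ ^ 2 : ℝ) : ℂ) • (1 : B) - star x * x = star c * c := by
  let _ := CStarAlgebra.spectralOrder B
  have := CStarAlgebra.spectralOrderedRing B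
  refine CStarAlgebra.nonneg_iff_eq_star_mul_self.1 (sub_nonneg.2 ?_)
  rw [Complex.coe_smul, ← Algebra.algebraMap_eq_smul_one]
  exact CStarAlgebra.star_mul_le_algebraMap_norm_sq

namespace Sp
variable {X : Type u} [TopologicalSpace X] [MeasurableSpace X] {μ : Measure X} (S : Sp A ξ μ)

theorem exists_ev : ∃ ev : Al M →ₗ[ℂ] C(X, ℂ), ∀ m, S.fn (ev m) = S.std.E m := by
  choose g hg using fun m => S.surj _ (S.std.E_mem m)
  exact ⟨⟨⟨g, fun x y => S.inj (by simp only [map_add, hg])⟩,
    fun c x => S.inj (by simp only [map_smul, hg, RingHom.id_apply])⟩, hg⟩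

/-- The conditional expectation as a function on `X`. -/
noncomputable def ev : Al M →ₗ[ℂ] C(X, ℂ) := S.exists_ev.choose

theorem fn_ev (m : Al M) : S.fn (S.ev m) = S.std.E m := S.exists_ev.choose_spec m

/-- The projection of a clopen set. -/
noncomputable def ind (U : Set X) : Al M :=
  if h : IsClopen U then S.fn ⟨U.indicator 1, h.continuous_indicator continuous_const⟩ else 0

theorem ev_fn (f : C(X, ℂ)) : S.ev (S.fn f) = f := by
  exact S.inj (by rw [fn_ev, S.std.E_of_mem (S.mem f)])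

theorem fn_ev_of_mem {a : Al M} (ha : a ∈ A) : S.fn (S.ev a) = a := by
  rw [fn_ev, S.std.E_of_mem ha]

theorem ev_E (m : Al M) : S.ev (S.std.E m) = S.ev m := by
  rw [← S.fn_ev, ev_fn]

theorem ev_one (ω : X) : S.ev 1 ω = 1 := by
  rw [← map_one S.fn, ev_fn, ContinuousMap.one_apply]

theorem ev_mul_left {a : Al M} (ha : a ∈ A) (m : Al M) (ω : X) :
    S.ev (a * m) ω = S.ev a ω * S.ev m ω := by
  rw [← ContinuousMap.mul_apply]
  congr 1
  exact S.inj (by rw [map_mul S.fn, fn_ev, S.fn_ev_of_mem ha, fn_ev, S.std.E_mul_left ha])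

theorem ev_mul_right {a : Al M} (ha : a ∈ A) (m : Al M) (ω : X) :
    S.ev (m * a) ω = S.ev m ω * S.ev a ω := by
  rw [← ContinuousMap.mul_apply]
  congr 1
  exact S.inj (by rw [map_mul S.fn, fn_ev, S.fn_ev_of_mem ha, fn_ev, S.std.E_mul_right ha])

theorem ev_star (m : Al M) (ω : X) : S.ev (star m) ω = (starRingEnd ℂ) (S.ev m ω) := by
  have : S.ev (star m) = star (S.ev m) :=
    S.inj (by rw [map_star S.fn, fn_ev, fn_ev, S.std.E_star])
  rw [this]
  rfl

theorem ev_ext {a b : Al M} (ha : a ∈ A) (hb : b ∈ A) (h : ∀ ω, S.ev a ω = S.ev b ω) : a = b := by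
  rw [← S.fn_ev_of_mem ha, ← S.fn_ev_of_mem hb, ContinuousMap.ext h]

theorem ph_eq (m : Al M) : ph ξ m = ∫ ω, S.ev m ω ∂μ := by
  rw [← S.state, fn_ev, S.std.ph_E]

theorem ev_nonneg (m : Al M) (ω : X) :
    0 ≤ (S.ev (star m * m) ω).re ∧ (S.ev (star m * m) ω).im = 0 := by
  obtain ⟨d, hd, hs, e⟩ := S.std.E_star_mul_self m
  have h1 := S.ev_star d ω
  rw [hs.star_eq] at h1
  rw [← ev_E, e, S.ev_mul_left hd, ← Complex.conj_eq_iff_re.1 h1.symm, ← Complex.ofReal_mul]
  exact ⟨mul_self_nonneg _, Complex.ofReal_im _⟩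

/-- Cauchy-Schwarz for the state `m ↦ ev m ω` (`PreInnerProductSpace.Core`, or the discriminant). -/
theorem ev_cs (m n : Al M) (ω : X) :
    ‖S.ev (star m * n) ω‖ ^ 2 ≤ (S.ev (star m * m) ω).re * (S.ev (star n * n) ω).re := by
  have hs : ∀ x y : Al M, (starRingEnd ℂ) (S.ev (star y * x) ω) = S.ev (star x * y) ω :=
    fun x y => by rw [← ev_star, star_mul, star_star]
  let c : PreInnerProductSpace.Core ℂ (Al M) :=
    { inner := fun x y => S.ev (star x * y) ω
      conj_inner_symm := hs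
      re_inner_nonneg := fun x => (S.ev_nonneg x ω).1
      add_left := fun x y z => by simp only [star_add, add_mul, map_add, ContinuousMap.add_apply]
      smul_left := fun x y r => by
        simp only [star_smul, smul_mul_assoc, map_smul, ContinuousMap.smul_apply, smul_eq_mul]
        rfl }
  have h : ‖S.ev (star m * n) ω‖ * ‖S.ev (star n * m) ω‖ ≤
      (S.ev (star m * m) ω).re * (S.ev (star n * n) ω).re :=
    @InnerProductSpace.Core.inner_mul_inner_self_le ℂ (Al M) _ _ _ c m n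
  rwa [← hs n m, Complex.norm_conj, ← sq] at h

/-- `‖x‖² - x* x = c* c` (`cfc`). -/
theorem ev_mul_le (x n : Al M) (ω : X) :
    (S.ev (star (x * n) * (x * n)) ω).re ≤ ‖x‖ ^ 2 * (S.ev (star n * n) ω).re := by
  obtain ⟨c, hc⟩ := sp_sq x
  have h := (S.ev_nonneg (c * n) ω).1
  have e : star (c * n) * (c * n) =
      ((‖x‖ ^ 2 : ℝ) : ℂ) • (star n * n) - star (x * n) * (x * n) := by
    rw [star_mul, star_mul, mul_assoc, ← mul_assoc (star c), ← hc]
    simp only [sub_mul, mul_sub, smul_mul_assoc, mul_smul_comm, one_mul, mul_assoc]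
  rw [e, map_sub, map_smul, ContinuousMap.sub_apply, ContinuousMap.smul_apply, smul_eq_mul,
    Complex.sub_re, Complex.re_ofReal_mul] at h
  linarith

theorem ev_proj {e : Al M} (heA : e ∈ A) (he : IsStarProjection e) (ω : X) :
    S.ev e ω = 0 ∨ S.ev e ω = 1 := by
  refine IsIdempotentElem.iff_eq_zero_or_one.1 ?_
  rw [IsIdempotentElem, ← S.ev_mul_left heA, he.isIdempotentElem.eq]

theorem isClopen_ev {e : Al M} (heA : e ∈ A) (he : IsStarProjection e) :
    IsClopen {ω | S.ev e ω = 1} := by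
  exact sp_clopen _ (S.ev_proj heA he)

theorem ind_mem (U : Set X) : S.ind U ∈ A := by
  unfold ind
  split_ifs
  exacts [S.mem _, zero_mem _]

theorem ind_proj (U : Set X) : IsStarProjection (S.ind U) := by
  unfold ind
  split_ifs with h
  · refine ⟨?_, ?_⟩
    · rw [IsIdempotentElem, ← map_mul]
      congr 1
      ext ω
      by_cases hω : ω ∈ U <;> simp [hω]
    · rw [IsSelfAdjoint, ← map_star]
      congr 1
      ext ω
      by_cases hω : ω ∈ U <;> simp [hω]
  · exact IsStarProjection.zero _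

theorem ev_ind {U : Set X} (hU : IsClopen U) (ω : X) :
    S.ev (S.ind U) ω = if ω ∈ U then 1 else 0 := by
  rw [ind, dif_pos hU, ev_fn]
  exact Set.indicator_apply ..

theorem ind_ev {e : Al M} (heA : e ∈ A) (he : IsStarProjection e) :
    S.ind {ω | S.ev e ω = 1} = e := by
  refine S.ev_ext (S.ind_mem _) heA fun ω => ?_
  rw [S.ev_ind (S.isClopen_ev heA he)]
  rcases S.ev_proj heA he ω with h | h <;> simp [h]

theorem ind_mul {U V : Set X} (hU : IsClopen U) (hV : IsClopen V) :
    S.ind U * S.ind V = S.ind (U ∩ V) := by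
  refine S.ev_ext (mul_mem (S.ind_mem _) (S.ind_mem _)) (S.ind_mem _) fun ω => ?_
  rw [S.ev_mul_left (S.ind_mem _), S.ev_ind hU, S.ev_ind hV, S.ev_ind (hU.inter hV)]
  by_cases h1 : ω ∈ U <;> by_cases h2 : ω ∈ V <;> simp [h1, h2]

theorem norm_ind_sq [OpensMeasurableSpace X] {U : Set X} (hU : IsClopen U) :
    ‖ap (S.ind U) ξ‖ ^ 2 = μ.real U := by
  have h := ph_star_mul_self ξ (S.ind U)
  rw [proj_star (S.ind_proj U), proj_mul_self (S.ind_proj U), ind, dif_pos hU, S.state] at h
  rw [ind, dif_pos hU]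
  have h2 := integral_indicator_const (μ := μ) (1 : ℂ) hU.isOpen.measurableSet
  rw [Complex.real_smul, mul_one] at h2
  exact_mod_cast h.symm.trans h2

theorem ptn_ind {σ : Type*} [Fintype σ] {lab : X → σ} (hl : IsLocallyConstant lab) :
    Ptn A fun s => S.ind {ω | lab ω = s} := by
  refine ⟨fun s => S.ind_mem _, fun s => S.ind_proj _, fun s t hst => ?_, ?_⟩
  · refine S.ev_ext (mul_mem (S.ind_mem _) (S.ind_mem _)) (zero_mem _) fun ω => ?_
    rw [S.ev_mul_left (S.ind_mem _), S.ev_ind (hl.isClopen_fiber s), S.ev_ind (hl.isClopen_fiber t)]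
    by_cases h : lab ω = s <;> simp [h, hst]
  · refine S.ev_ext (sum_mem fun s _ => S.ind_mem _) (one_mem _) fun ω => ?_
    simp [ev_one, S.ev_ind (hl.isClopen_fiber _)]

theorem ind_eq_sum {σ : Type*} [Fintype σ] {lab : X → σ} (hl : IsLocallyConstant lab)
    (P : σ → Prop) :
    S.ind {ω | P (lab ω)} = ∑ s ∈ Finset.univ.filter P, S.ind {ω | lab ω = s} := by
  refine S.ev_ext (S.ind_mem _) (sum_mem fun s _ => S.ind_mem _) fun ω => ?_
  rw [S.ev_ind (U := {ω | P (lab ω)}) ⟨isOpen_compl_iff.1 (hl {s | ¬ P s}), hl {s | P s}⟩]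
  simp [S.ev_ind (hl.isClopen_fiber _)]

theorem exists_lab {σ : Type*} [Fintype σ] {p : σ → Al M} (hp : Ptn A p) :
    ∃ lab : X → σ, IsLocallyConstant lab ∧ ∀ s, p s = S.ind {ω | lab ω = s} := by
  have h1 : ∀ ω, ∃ s, S.ev (p s) ω = 1 := fun ω => by
    by_contra hn
    have h0 : ∀ s, S.ev (p s) ω = 0 := fun s =>
      (S.ev_proj (hp.mem s) (hp.proj s) ω).resolve_right fun h => hn ⟨s, h⟩
    have := S.ev_one ω
    rw [← hp.sum] at this
    simp [h0] at this
  choose lab hlab using h1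
  have e : ∀ s, {ω | lab ω = s} = {ω | S.ev (p s) ω = 1} := fun s => by
    ext ω
    refine ⟨fun h => h ▸ hlab ω, fun h => ?_⟩
    by_contra hne
    have h2 := S.ev_mul_left (hp.mem (lab ω)) (p s) ω
    rw [hp.orth hne, hlab, show S.ev (p s) ω = 1 from h] at h2
    simp at h2
  refine ⟨lab, (IsLocallyConstant.iff_isOpen_fiber_apply).2 fun ω => ?_, fun s => ?_⟩
  · exact (e (lab ω) ▸ (S.isClopen_ev (hp.mem _) (hp.proj _)).isOpen : IsOpen {z | lab z = lab ω})
  · rw [e, S.ind_ev (hp.mem s) (hp.proj s)]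

/-- If a fibre of `lab` is empty its projection is `0` (`σ₀` is nonempty when `X` is). -/
theorem ref_ind [Nonempty X] {σ σ₀ : Type*} {lab : X → σ} {lab₀ : X → σ₀}
    (hl : IsLocallyConstant lab) (hl₀ : IsLocallyConstant lab₀)
    (h : ∀ ω ω', lab ω = lab ω' → lab₀ ω = lab₀ ω') :
    Ref (fun s => S.ind {ω | lab₀ ω = s}) fun s => S.ind {ω | lab ω = s} := by
  intro k
  obtain ⟨ω, hω⟩ : ∃ ω, ∀ ω', lab ω' = k → lab ω = k := by
    by_cases hk : ∃ ω, lab ω = k
    · exact hk.imp fun _ h _ _ => h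
    · exact ⟨Classical.arbitrary X, fun ω' h => absurd ⟨ω', h⟩ hk⟩
  refine ⟨lab₀ ω, ?_⟩
  beta_reduce
  rw [S.ind_mul (hl₀.isClopen_fiber _) (hl.isClopen_fiber _), Set.inter_eq_right.2]
  exact fun z hz => h z ω (hz.trans (hω z hz).symm)

variable [CompactSpace X]

/-- Injective star homomorphisms are isometric (`NonUnitalStarAlgHom.norm_map`). -/
theorem norm_fn (f : C(X, ℂ)) : ‖S.fn f‖ = ‖f‖ := by
  exact NonUnitalStarAlgHom.norm_map S.fn S.inj f

theorem norm_ev_le (m : Al M) (ω : X) : ‖S.ev m ω‖ ≤ ‖m‖ := by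
  refine ((S.ev m).norm_coe_le_norm ω).trans ?_
  rw [← S.norm_fn, fn_ev]
  exact S.std.norm_E_le m

variable [T2Space X]

include S in
theorem isClopen_closure {b : X → ℝ} (hb : Continuous b) : IsClopen (closure {ω | 0 < b ω}) :=
  isClopen_closure_pos S.std.toMasa S.fn S.inj S.mem S.surj hb

end Sp

section Points
variable {X : Type*} [TopologicalSpace X] [CompactSpace X] [T2Space X]

/-- `WeakDual.CharacterSpace.homeoEval`, `WeakDual.CharacterSpace.equivAlgHom`. -/
theorem exists_point (χ : C(X, ℂ) →ₐ[ℂ] ℂ) : ∃ ω : X, ∀ f, χ f = f ω := by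
  obtain ⟨ω, hω⟩ := (WeakDual.CharacterSpace.continuousMapEval_bijective X ℂ).2
    (WeakDual.CharacterSpace.equivAlgHom.symm χ)
  exact ⟨ω, fun f => (congr($hω f)).symm⟩

theorem point_ext {ω ω' : X} (h : ∀ f : C(X, ℂ), f ω = f ω') : ω = ω' := by
  exact (WeakDual.CharacterSpace.continuousMapEval_bijective X ℂ).1
    (WeakDual.CharacterSpace.ext h)

/-- The map `ω ↦ (f ω)_f` is a closed embedding of the compact space `X`. -/
theorem continuousOn_of_forall {Y : Type*} [TopologicalSpace Y] {s : Set Y} {T : Y → X}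
    (h : ∀ f : C(X, ℂ), ContinuousOn (fun y => f (T y)) s) : ContinuousOn T s := by
  have hc : Continuous fun (ω : X) (f : C(X, ℂ)) => f ω := continuous_pi fun f => f.continuous
  exact (hc.isClosedEmbedding fun _ _ e => point_ext (congrFun e)).isInducing.continuousOn_iff.2
    (continuousOn_pi.2 h)

end Points

end Crest.Agent.R109
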