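import Crest.Agent.R109.Nor
import Crest.Agent.R109.Sp
import Crest.Agent.R109.NGns
import Crest.Agent.R109.NCut

/-!
# R109: diffuse elements have small matrix coefficients
-/

set_option autoImplicit false
open Filter Topology
open scoped InnerProductSpace

namespace Crest.Agent.R109
open Crest.Agent.R121

universe u
variable {H : Type u} [NormedAddCommGroup H] [InnerProductSpace ℂ H] [CompleteSpace H]
variable {M : VonNeumannAlgebra H} {A : StarSubalgebra ℂ (Al M)} {ξ : H}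

/-- The atomic mass seen by a partition. -/
noncomputable def cS (h : Std A ξ) (w : Al M) {ι : Type*} [Fintype ι] (p : ι → Al M) : ℝ :=
  ∑ i, ‖ap (h.E (star w * p i * w)) ξ‖ ^ 2

/-- `v` is in the weak closure of the bimodule generated by `w`. -/
def Gen (A : StarSubalgebra ℂ (Al M)) (w v : Al M) : Prop :=
  ∃ (ι : Type u) (F : Filter ι) (_ : F.NeBot) (x : ι → Al M),
    (∀ i, x i ∈ Submodule.span ℂ {m | ∃ a ∈ A, ∃ b ∈ A, a * w * b = m}) ∧ WL F x v

/-- `(w - v) ξ` is orthogonal to the bimodule generated by `v`. -/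
def Cut (A : StarSubalgebra ℂ (Al M)) (ξ : H) (w v : Al M) : Prop :=
  ∀ a ∈ A, ∀ b ∈ A, ⟪ap (a * v * b) ξ, ap (w - v) ξ⟫_ℂ = 0

/-- `v` intertwines projections of `A`. -/
def Itw (A : StarSubalgebra ℂ (Al M)) (v : Al M) : Prop :=
  ∀ f ∈ A, IsStarProjection f → ∃ f' ∈ A, IsStarProjection f' ∧ f * v = v * f'

theorem Ref.exists_map {ι κ : Type*} [Fintype ι] [Fintype κ] [DecidableEq ι] {p : ι → Al M}
    {q : κ → Al M} (hp : Ptn A p) (hq : Ptn A q) (h : Ref p q) : ∃ α : κ → ι,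
      (∀ k, p (α k) * q k = q k) ∧ ∀ i, p i = ∑ k ∈ Finset.univ.filter (fun k => α k = i), q k := by
  choose α hα using h
  refine ⟨α, hα, fun i => ?_⟩
  rw [← mul_one (p i), ← hq.sum, Finset.mul_sum, Finset.sum_filter]
  refine Finset.sum_congr rfl fun k _ => ?_
  split_ifs with hk
  · rw [← hk, hα]
  · rw [← hα k, ← mul_assoc, hp.orth (Ne.symm hk), zero_mul]

theorem diff_sq_le {E : Type*} [NormedAddCommGroup E] [InnerProductSpace ℂ E] {ι : Type*}
    (s : Finset ι) (x : ι → E) (h : ∀ i j, 0 ≤ (⟪x i, x j⟫_ℂ).re) :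
    ∑ i ∈ s, ‖x i‖ ^ 2 ≤ ‖∑ i ∈ s, x i‖ ^ 2 := by
  rw [← inner_self_eq_norm_sq (𝕜 := ℂ), sum_inner, map_sum]
  refine Finset.sum_le_sum fun i hi => ?_
  rw [inner_sum, map_sum, ← inner_self_eq_norm_sq (𝕜 := ℂ)]
  exact Finset.single_le_sum (f := fun j => RCLike.re ⟪x i, x j⟫_ℂ) (fun j _ => h i j) hi

theorem diff_conj {w b : Al M} (hb : IsStarProjection b) :
    star w * b * w = star (b * w) * (b * w) := by
  rw [star_mul, proj_star hb, mul_assoc, mul_assoc, proj_mul_self_left hb]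

/-- The `E (w* q_k w)` are commuting squares (`E_star_mul_self`), so their pairings are `≥ 0` and
`‖∑ x_k ξ‖² ≥ ∑ ‖x_k ξ‖²`. -/
theorem cS_anti (h : Std A ξ) (w : Al M) {ι κ : Type*} [Fintype ι] [Fintype κ] {p : ι → Al M}
    {q : κ → Al M} (hp : Ptn A p) (hq : Ptn A q) (hr : Ref p q) : cS h w q ≤ cS h w p := by
  classical
  obtain ⟨α, -, hα⟩ := Ref.exists_map hp hq hr
  rw [cS, cS, ← Finset.sum_fiberwise (s := Finset.univ) (g := α)]
  refine Finset.sum_le_sum fun i _ => ?_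
  rw [hα i, Finset.mul_sum, Finset.sum_mul, map_sum, ap_sum]
  refine diff_sq_le _ (fun k => ap (h.E (star w * q k * w)) ξ) fun k l => ?_
  obtain ⟨d, hd, hds, e1⟩ := h.E_star_mul_self (q k * w)
  obtain ⟨d', hd', hds', e2⟩ := h.E_star_mul_self (q l * w)
  have e : star (d * d) * (d' * d') = star (d * d') * (d * d') := by
    rw [star_mul, star_mul, hds.star_eq, hds'.star_eq, mul_assoc d', ← mul_assoc d d,
      h.comm d' hd' _ (mul_mem (mul_mem hd hd) hd'), mul_assoc (d * d)]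
  rw [diff_conj (hq.proj k), diff_conj (hq.proj l), e1, e2, ← ph_star_mul, e, ph_star_mul_self,
    Complex.ofReal_re]
  positivity

theorem Gen.star' {w v : Al M} (h : Gen A w v) : Gen A (star w) (star v) := by
  obtain ⟨ι, F, hF, x, hx, hv⟩ := h
  refine ⟨ι, F, hF, fun i => star (x i), fun i => ?_, hv.star⟩
  have hy := hx i
  beta_reduce
  generalize x i = y at hy ⊢
  induction hy using Submodule.span_induction with
  | mem y hy =>
    obtain ⟨a, ha, b, hb, rfl⟩ := hy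
    exact Submodule.subset_span ⟨_, star_mem hb, _, star_mem ha, by
      rw [star_mul, star_mul, mul_assoc]⟩
  | zero => rw [star_zero]; exact zero_mem _
  | add y z _ _ hy hz => rw [star_add]; exact add_mem hy hz
  | smul c y _ hy => rw [star_smul]; exact Submodule.smul_mem _ _ hy

theorem Itw.of_gen (hA : Masa A) {w v : Al M} (h : Itw A w) (hg : Gen A w v) : Itw A v := by
  intro f hfA hf
  obtain ⟨f', hfA', hf', h1⟩ := h f hfA hf
  obtain ⟨ι, F, hF, x, hx, hv⟩ := hg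
  refine ⟨f', hfA', hf', (hv.mul_left f).unique ((hv.mul_right f').congr fun i => ?_)⟩
  refine (Submodule.span_le (p := LinearMap.eqLocus (LinearMap.mulRight ℂ f')
    (LinearMap.mulLeft ℂ f))).2 ?_ (hx i)
  rintro _ ⟨a, ha, b, hb, rfl⟩
  change a * w * b * f' = f * (a * w * b)
  rw [← mul_assoc, ← mul_assoc, hA.comm f hfA a ha, mul_assoc a f, h1, mul_assoc _ b,
    hA.comm b hb f' hfA']
  noncomm_ring

theorem Cut.trans {w v v' : Al M} (h : Cut A ξ w v) (hg : Gen A v v') (h' : Cut A ξ v v') :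
    Cut A ξ w v' := by
  intro a ha b hb
  obtain ⟨ι, F, hF, x, hx, hv⟩ := hg
  have h1 : ⟪ap (w - v) ξ, ap (a * v' * b) ξ⟫_ℂ = 0 := by
    refine tendsto_nhds_unique (((hv.mul_left a).mul_right b) ξ (ap (w - v) ξ))
      (tendsto_const_nhds.congr fun i => ?_)
    rw [← ph_star_mul]
    refine ((Submodule.span_le (p := LinearMap.ker (ph ξ ∘ₗ LinearMap.mulLeft ℂ (star (w - v)) ∘ₗ
      LinearMap.mulRight ℂ b ∘ₗ LinearMap.mulLeft ℂ a))).2 ?_ (hx i)).symm
    rintro _ ⟨a', ha', b', hb', rfl⟩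
    change ph ξ (star (w - v) * (a * (a' * v * b') * b)) = 0
    have := h _ (mul_mem ha ha') _ (mul_mem hb' hb)
    rw [inner_eq_zero_symm] at this
    rw [ph_star_mul, ← this]
    simp only [mul_assoc]
  rw [← sub_add_sub_cancel w v v', ap_add, inner_add_right, h' a ha b hb, add_zero,
    inner_eq_zero_symm, h1]

theorem diff_adj (h : Std A ξ) {ι : Type*} [Fintype ι] {l r : ι → Al M}
    (hl : ∀ k, IsStarProjection (l k)) (hr : ∀ k, IsStarProjection (r k)) (hrA : ∀ k, r k ∈ A)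
    (x y : Al M) : ⟪ap (∑ k, l k * x * r k) ξ, ap y ξ⟫_ℂ = ⟪ap x ξ, ap (∑ k, l k * y * r k) ξ⟫_ℂ := by
  rw [ap_sum, ap_sum, sum_inner, inner_sum]
  refine Finset.sum_congr rfl fun k _ => ?_
  rw [mul_assoc, ap_mul, inner_ap_left, ← ap_mul, h.inner_mul_right _ _ (hrA k),
    proj_star (hl k), proj_star (hr k)]

theorem diff_norm {ι : Type*} [Fintype ι] {s r : ι → Al M} (hs : Ptn A s)
    (hr : ∀ k, IsStarProjection (r k)) (ho : Pairwise fun k l => r k * r l = 0) (y : Al M) :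
    ‖∑ k, s k * y * r k‖ ≤ ‖y‖ := by
  refine norm_le_of_ap _ (norm_nonneg _) fun ζ => (abs_le_of_sq_le_sq' ?_ (by positivity)).2
  have e : ∀ k, ap (s k * y * r k) ζ = ap (s k) (ap y (ap (r k) ζ)) := fun _ => rfl
  have h1 := std_pyth (fun k => ap (r k) ζ) fun k l hkl => by
    beta_reduce
    rw [inner_ap_left, proj_star (hr k), ← ap_mul, ho hkl, ap_zero, inner_zero_right]
  rw [← ap_sum] at h1
  have h2 := pow_le_pow_left₀ (norm_nonneg _) (std_proj_le (proj_finsum hr ho Finset.univ) ζ) 2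
  rw [ap_sum, mul_pow]
  simp only [e]
  rw [hs.norm_sum_sq]
  refine le_trans ?_ (mul_le_mul_of_nonneg_left (h1.symm.trans_le h2) (sq_nonneg _))
  rw [Finset.mul_sum]
  refine Finset.sum_le_sum fun k _ => ?_
  rw [← mul_pow]
  exact pow_le_pow_left₀ (norm_nonneg _) ((std_proj_le (hs.proj k) _).trans (norm_ap_le _ _)) 2

/-- The level sets `closure {Φ b > (2/3) Φ 1}` as projections. -/
theorem diff_gamma (h : Std A ξ) (w : Al M) : ∃ γ : Al M → Al M,
    (∀ b, γ b ∈ A ∧ IsStarProjection (γ b)) ∧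
    (∀ b ∈ A, IsStarProjection b → ∀ b', IsStarProjection b' → b * b' = 0 → γ b * γ b' = 0) ∧
    (∀ b, IsStarProjection b → ∀ b', IsStarProjection b' → b * b' = b' → γ b * γ b' = γ b') ∧
    ∀ (n : ℕ) (s : Fin n → Al M), Ptn A s → cS h w s ≤ 2 / 3 * ‖ap (h.E (star w * w)) ξ‖ ^ 2 +
      ‖w‖ ^ 2 / 2 * (⟪ap w ξ, ap (∑ k, s k * w * γ (s k)) ξ⟫_ℂ).re := by
  classical
  obtain ⟨X, _, _, _, _, _, _, μ, _, ⟨S⟩⟩ := h.exists_sp
  let Φ : Al M → X → ℝ := fun b ω => (S.ev (star w * b * w) ω).re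
  have hc : ∀ b, Continuous (Φ b) := fun b => Complex.continuous_re.comp (S.ev _).continuous
  have h0 : ∀ b, IsStarProjection b → ∀ ω, 0 ≤ Φ b ω := fun b hb ω => by
    simp only [Φ, diff_conj hb]
    exact (S.ev_nonneg _ ω).1
  have h1 : ∀ b, IsStarProjection b → ∀ ω, S.ev (star w * b * w) ω = Φ b ω := fun b hb ω => by
    simp only [Φ, diff_conj hb]
    exact Complex.ext rfl (S.ev_nonneg _ ω).2
  have hadd : ∀ b b' ω, Φ (b + b') ω = Φ b ω + Φ b' ω := fun b b' ω => by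
    simp only [Φ, mul_add, add_mul, map_add, ContinuousMap.add_apply, Complex.add_re]
  have hle : ∀ b, IsStarProjection b → ∀ b', IsStarProjection b' → b * b' = b' → ∀ ω,
      Φ b' ω ≤ Φ b ω := fun b hb b' hb' hbb ω => by
    have := hadd (b - b') b' ω
    rw [sub_add_cancel] at this
    linarith [h0 _ (proj_sub hb hb' hbb) ω]
  let C : Al M → Set X := fun b => closure {ω | 0 < Φ b ω - 2 / 3 * Φ 1 ω}
  have hcc : ∀ b, Continuous fun ω => Φ b ω - 2 / 3 * Φ 1 ω := fun b =>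
    (hc b).sub (continuous_const.mul (hc 1))
  have hC : ∀ b, IsClopen (C b) := fun b => S.isClopen_closure (hcc b)
  have hdis : ∀ b, IsStarProjection b → ∀ b', IsStarProjection b' → b * b' = 0 →
      Disjoint (C b) (C b') := fun b hb b' hb' hbb => by
    refine Disjoint.closure_right (Disjoint.closure_left ?_
      (isOpen_lt continuous_const (hcc b'))) (hC b).isOpen
    refine Set.disjoint_left.2 fun ω h2 h3 => ?_
    have h4 := hle 1 (.one _) (b + b') (hb.add hb' hbb) (one_mul _) ω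
    rw [hadd] at h4
    simp only [Set.mem_ofPred_eq] at h2 h3
    linarith [h0 1 (.one _) ω]
  refine ⟨fun b => S.ind (C b), fun b => ⟨S.ind_mem _, S.ind_proj _⟩,
    fun b _ hb b' hb' hbb => ?_, fun b hb b' hb' hbb => ?_, fun n s hs => ?_⟩
  · refine S.ev_ext (mul_mem (S.ind_mem _) (S.ind_mem _)) (zero_mem _) fun ω => ?_
    rw [S.ind_mul (hC b) (hC b'), (hdis b hb b' hb' hbb).inter_eq, S.ev_ind isClopen_empty, map_zero]
    simp
  · rw [S.ind_mul (hC b) (hC b'), Set.inter_eq_right.2]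
    exact closure_mono fun ω hω => by
      simp only [Set.mem_ofPred_eq] at hω ⊢
      linarith [hle b hb b' hb' hbb ω]
  have hE : S.std.E = h.E := rfl
  have hsq : ∀ b, IsStarProjection b → ‖ap (h.E (star w * b * w)) ξ‖ ^ 2 = ∫ ω, Φ b ω ^ 2 ∂μ := by
    intro b hb
    have h2 := ph_star_mul_self ξ (h.E (star w * b * w))
    rw [S.ph_eq] at h2
    simp only [S.ev_mul_right (h.E_mem _), S.ev_star, ← hE, S.ev_E, h1 b hb, Complex.conj_ofReal,
      ← sq] at h2
    exact_mod_cast h2.symm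
  have hin : (⟪ap w ξ, ap (∑ k, s k * w * S.ind (C (s k))) ξ⟫_ℂ).re =
      ∫ ω, ∑ k, Φ (s k) ω * (C (s k)).indicator 1 ω ∂μ := by
    rw [← ph_star_mul, S.ph_eq]
    have : ∀ ω, S.ev (star w * ∑ k, s k * w * S.ind (C (s k))) ω =
        ((∑ k, Φ (s k) ω * (C (s k)).indicator 1 ω : ℝ) : ℂ) := fun ω => by
      rw [Finset.mul_sum, map_sum, ContinuousMap.sum_apply, Complex.ofReal_sum]
      refine Finset.sum_congr rfl fun k _ => ?_
      rw [← mul_assoc, ← mul_assoc, S.ev_mul_right (S.ind_mem _), h1 _ (hs.proj k),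
        S.ev_ind (hC _), Set.indicator_apply]
      split_ifs <;> simp
    simp only [this, integral_complex_ofReal, Complex.ofReal_re]
  have hint : ∀ f : X → ℝ, Continuous f → MeasureTheory.Integrable f μ := fun f hf =>
    hf.integrable_of_hasCompactSupport (HasCompactSupport.of_compactSpace f)
  have hci : Continuous fun ω => ∑ k, Φ (s k) ω * (C (s k)).indicator 1 ω :=
    continuous_finsetSum _ fun k _ => (hc _).mul ((hC _).continuous_indicator continuous_const)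
  have h2 := hsq 1 (.one _)
  rw [mul_one] at h2
  rw [cS, h2, hin, Finset.sum_congr rfl fun k _ => hsq _ (hs.proj k),
    ← MeasureTheory.integral_finsetSum (f := fun k ω => Φ (s k) ω ^ 2) _
      fun k _ => hint _ ((hc _).pow 2),
    ← MeasureTheory.integral_const_mul, ← MeasureTheory.integral_const_mul,
    ← MeasureTheory.integral_add (f := fun ω => 2 / 3 * Φ 1 ω ^ 2)
      (g := fun ω => ‖w‖ ^ 2 / 2 * ∑ k, Φ (s k) ω * (C (s k)).indicator 1 ω)
      (hint _ (continuous_const.mul ((hc _).pow 2))) (hint _ (continuous_const.mul hci))]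
  refine MeasureTheory.integral_mono (hint _ (continuous_finsetSum _ fun k _ => (hc _).pow 2))
    (hint _ ((continuous_const.mul ((hc _).pow 2)).add (continuous_const.mul hci))) fun ω => ?_
  have hsum : ∑ k, Φ (s k) ω = Φ 1 ω := by
    simp only [Φ, ← Complex.re_sum, ← ContinuousMap.sum_apply, ← map_sum, ← Finset.sum_mul,
      ← Finset.mul_sum, hs.sum]
  have hm0 := h0 1 (.one _) ω
  have hm1 : Φ 1 ω ≤ ‖w‖ ^ 2 := by
    refine ((Complex.re_le_norm _).trans (S.norm_ev_le _ ω)).trans ?_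
    rw [mul_one, CStarRing.norm_star_mul_self, sq]
  have hg : ∀ k, 0 ≤ Φ (s k) ω * (C (s k)).indicator 1 ω := fun k =>
    mul_nonneg (h0 _ (hs.proj k) ω) (Set.indicator_nonneg (fun _ _ => zero_le_one) ω)
  have hbd : ∀ t, (∀ k, Φ (s k) ω ≤ t) → ∑ k, Φ (s k) ω ^ 2 ≤ t * Φ 1 ω := fun t ht => by
    rw [← hsum, Finset.mul_sum]
    exact Finset.sum_le_sum fun k _ => by nlinarith [ht k, h0 _ (hs.proj k) ω]
  have hg0 := Finset.sum_nonneg (s := Finset.univ) fun k _ => hg k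
  beta_reduce
  by_cases hω : ∃ k, ω ∈ C (s k)
  · obtain ⟨k, hk⟩ := hω
    have h3 : 0 ≤ Φ (s k) ω - 2 / 3 * Φ 1 ω :=
      closure_minimal (fun ω hω => le_of_lt hω) (isClosed_le continuous_const (hcc (s k))) hk
    have h4 := Finset.single_le_sum (fun k _ => hg k) (Finset.mem_univ k)
    rw [Set.indicator_of_mem hk, Pi.one_apply, mul_one] at h4
    have h5 := hbd _ fun k => hle 1 (.one _) _ (hs.proj k) (one_mul _) ω
    nlinarith [mul_le_mul hm1 ((sub_nonneg.1 h3).trans h4) (by positivity) (sq_nonneg _)]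
  · have h5 := hbd (2 / 3 * Φ 1 ω) fun k => by
      by_contra h6
      exact hω ⟨k, subset_closure (sub_pos.2 (not_le.1 h6))⟩
    nlinarith [mul_nonneg (sq_nonneg ‖w‖) hg0]

/-- The graph for a concentrated `w`. -/
theorem diff_graph (h : Std A ξ) {w : Al M} (h0 : 0 < ‖ap (h.E (star w * w)) ξ‖ ^ 2)
    (hw : ∀ (n : ℕ) (p : Fin n → Al M), Ptn A p →
      5 / 6 * ‖ap (h.E (star w * w)) ξ‖ ^ 2 ≤ cS h w p) :
    ∃ v : Al M, v ≠ 0 ∧ Gen A w v ∧ Cut A ξ w v ∧ Cut A ξ (star w) (star v) ∧ Itw A v := by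
  have hA := h.toMasa
  obtain ⟨γ, hγ, hγ0, hγ1, hγ2⟩ := diff_gamma h w
  choose n s hs hsT using exists_adapted hA
  obtain ⟨v, hv⟩ := exists_WL (fU (Al M)) (fun T => ∑ k, s T k * w * γ (s T k)) ‖w‖
    (Eventually.of_forall fun T => diff_norm (hs T) (fun k => (hγ _).2)
      (fun k l hkl => hγ0 _ ((hs T).mem k) ((hs T).proj k) _ ((hs T).proj l) ((hs T).orth hkl)) w)
  have hi : ∀ f ∈ A, IsStarProjection f → f * v = v * γ f := fun f hfA hf => by
    refine (hv.mul_left f).unique ((hv.mul_right (γ f)).congr' ((fU_mem f).mono fun T hT => ?_))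
    rw [Finset.mul_sum, Finset.sum_mul]
    refine Finset.sum_congr rfl fun k _ => ?_
    rw [← mul_assoc, ← mul_assoc, hA.comm f hfA _ ((hs T).mem k), mul_assoc _ (γ _)]
    rcases hsT T f hT hfA hf k with h1 | h1
    · rw [h1, proj_le_comm (hγ _).2 (hγ _).2 (hγ1 f hf _ ((hs T).proj k)
        ((hA.comm f hfA _ ((hs T).mem k)).trans h1))]
    · rw [h1, hγ0 _ ((hs T).mem k) ((hs T).proj k) f hf h1, mul_zero, zero_mul, zero_mul]
  have hR : ∀ T, ∀ a ∈ A, ∀ b ∈ A, ∑ k, s T k * (a * v * b) * γ (s T k) = a * v * b := by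
    intro T a ha b hb
    conv_rhs => rw [← one_mul v, ← (hs T).sum, Finset.sum_mul, Finset.mul_sum, Finset.sum_mul]
    refine Finset.sum_congr rfl fun k _ => ?_
    have h1 := hi _ ((hs T).mem k) ((hs T).proj k)
    calc s T k * (a * v * b) * γ (s T k) = (s T k * a) * v * (b * γ (s T k)) := by noncomm_ring
      _ = a * (s T k * v * γ (s T k)) * b := by
        rw [hA.comm _ ((hs T).mem k) a ha, hA.comm b hb _ (hγ _).1]; noncomm_ring
      _ = _ := by rw [h1, mul_assoc v, proj_mul_self (hγ _).2]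
  have hst : ∀ T y, star (∑ k, s T k * y * γ (s T k)) = ∑ k, γ (s T k) * star y * s T k :=
    fun T y => by simp only [star_sum, star_mul, proj_star (hγ _).2, proj_star ((hs T).proj _),
      mul_assoc]
  refine ⟨v, fun hv0 => ?_, ⟨_, _, inferInstance, _, fun T => ?_, hv⟩, fun a ha b hb => ?_,
    fun a ha b hb => ?_, fun f hfA hf => ⟨γ f, (hγ f).1, (hγ f).2, hi f hfA hf⟩⟩
  · have h1 := ((Complex.continuous_re.tendsto _).comp (hv ξ (ap w ξ))).const_mul (‖w‖ ^ 2 / 2)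
    have h2 := ge_of_tendsto' (b := 1 / 6 * ‖ap (h.E (star w * w)) ξ‖ ^ 2) h1 fun T => by
      have := (hw _ _ (hs T)).trans (hγ2 _ _ (hs T))
      simp only [Function.comp_apply]
      linarith
    rw [hv0, ap_zero, inner_zero_right, Complex.zero_re, mul_zero] at h2
    linarith
  · exact Submodule.sum_mem _ fun k _ =>
      Submodule.subset_span ⟨_, (hs T).mem k, _, (hγ _).1, rfl⟩
  · rw [ap_sub, inner_sub_right, sub_eq_zero]
    refine tendsto_nhds_unique (tendsto_const_nhds.congr fun T => ?_) (hv ξ (ap (a * v * b) ξ))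
    rw [← diff_adj h (hs T).proj (fun k => (hγ _).2) (fun k => (hγ _).1), hR T a ha b hb]
  · rw [ap_sub, inner_sub_right, sub_eq_zero]
    refine tendsto_nhds_unique (tendsto_const_nhds.congr fun T => ?_)
      (hv.star ξ (ap (a * star v * b) ξ))
    have h1 := congrArg star (hR T _ (star_mem hb) _ (star_mem ha))
    rw [hst, star_mul, star_mul, star_star, star_star, ← mul_assoc] at h1
    beta_reduce
    rw [hst, ← diff_adj h (fun k => (hγ _).2) (hs T).proj (hs T).mem, h1]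

/-- Localisation to a projection on which `w` is concentrated. -/
theorem diff_local (h : Std A ξ) {w : Al M} {c : ℝ} (hc : 0 < c)
    (hw : ∀ (n : ℕ) (p : Fin n → Al M), Ptn A p → c ≤ cS h w p) :
    ∃ p ∈ A, IsStarProjection p ∧ 0 < ‖ap (h.E (star (p * w) * (p * w))) ξ‖ ^ 2 ∧
      ∀ (n : ℕ) (s : Fin n → Al M), Ptn A s →
        5 / 6 * ‖ap (h.E (star (p * w) * (p * w))) ξ‖ ^ 2 ≤ cS h (p * w) s := by
  have hA := h.toMasa
  by_contra hne
  push Not at hne
  have h1 : ∀ p ∈ A, IsStarProjection p → ∃ (n : ℕ) (s : Fin n → Al M), Ptn A s ∧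
      cS h (p * w) s ≤ 5 / 6 * ‖ap (h.E (star w * p * w)) ξ‖ ^ 2 := fun p hpA hp => by
    rw [diff_conj hp]
    rcases (sq_nonneg ‖ap (h.E (star (p * w) * (p * w))) ξ‖).eq_or_lt with h0 | h0
    · refine ⟨1, _, cexp_ptn_one, ?_⟩
      rw [cS, Fin.sum_univ_one, mul_one, ← h0, mul_zero]
    · obtain ⟨n, s, hs, h2⟩ := hne p hpA hp h0
      exact ⟨n, s, hs, h2.le⟩
  have h2 : ∀ j : ℕ, ∃ (n : ℕ) (p : Fin n → Al M), Ptn A p ∧
      cS h w p ≤ (5 / 6) ^ j * cS h w fun _ : Fin 1 => 1 := fun j => by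
    induction j with
    | zero => exact ⟨1, _, cexp_ptn_one, by rw [pow_zero, one_mul]⟩
    | succ j ih =>
      obtain ⟨n, p, hp, ih⟩ := ih
      choose m s hs h3 using fun i => h1 (p i) (hp.mem i) (hp.proj i)
      let e := (Fintype.equivFin (Σ i, Fin (m i))).symm
      refine ⟨_, _, (hp.sigma hA hs).reindex e, ?_⟩
      rw [cS, e.sum_comp fun z : Σ i, Fin (m i) =>
        ‖ap (h.E (star w * (p z.1 * s z.1 z.2) * w)) ξ‖ ^ 2, Fintype.sum_sigma, pow_succ',
        mul_assoc]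
      refine le_trans ?_ (mul_le_mul_of_nonneg_left ih (by norm_num))
      rw [cS, Finset.mul_sum]
      refine Finset.sum_le_sum fun i _ => le_of_eq_of_le ?_ (h3 i)
      refine Finset.sum_congr rfl fun k _ => ?_
      have e : star (p i * w) * s i k * (p i * w) = star w * (p i * (s i k * p i)) * w := by
        rw [star_mul, proj_star (hp.proj i)]; noncomm_ring
      rw [e, hA.comm _ ((hs i).mem k) _ (hp.mem i), proj_mul_self_left (hp.proj i)]
  have h3 := (tendsto_pow_atTop_nhds_zero_of_lt_one (r := (5 / 6 : ℝ)) (by norm_num)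
    (by norm_num)).mul_const (cS h w fun _ : Fin 1 => 1)
  rw [zero_mul] at h3
  refine absurd (ge_of_tendsto' h3 fun j => ?_) (not_le.2 hc)
  obtain ⟨n, p, hp, h4⟩ := h2 j
  exact (hw n p hp).trans h4

/-- Extraction of a graph. Work in a Gelfand model `S` (`exists_sp`); `Φ b = re (S.ev (w* b w))`
is a continuous function, `≥ 0` for projections `b`, additive, and
`‖E (w* b w) ξ‖² = ∫ (Φ b)²`. Let `c₀ ≥ c` be the infimum of `cS`, `p` a partition with
`cS p ≤ (7/6) c₀`. For `T : Finset (Al M)` let `s_T` be a partition adapted to `T`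
(`exists_adapted`); along `fU (Al M)`, `s_T` eventually refines any given partition (adapted to
its atoms, `fU_sub`). For such `T`, `∑_i D_i(T) = cS p - cS s_T ≤ (1/6) ∑_i ∫ m_i²` where
`m_i = Φ (p i)`, `D_i(T) = ∫ m_i² - ∑_k ∫ Φ(p i * s_T k)² ≥ 0`; so one `i` with `∫ m_i² > 0` has
`D_i(T) ≤ (1/6) ∫ m_i²` for ultrafilter-most `T` (`Ultrafilter.eventually_exists_iff`). Put
`m = m_i`, `e_k = p i * s_T k`, `C_k = closure {Φ e_k > (2/3) m}` (clopen, pairwise disjoint
since the open sets are disjoint and the `C_k` are open), `w_T = ∑_k e_k w (ind C_k)`,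
`‖w_T‖ ≤ ‖w‖`, `v` the weak limit. Off `r = ⋃ C_k`, `∑ (Φ e_k)² ≤ (2/3) m²`, so `∫_r m² ≥ ½ ∫ m²`
and `⟪w_T ξ, w ξ⟫ = ∑ ∫_{C_k} Φ e_k ≥ (2/3) ∫_r m ≥ ∫ m² / (3 ‖w‖²)`; hence `v ≠ 0`. The maps
`R_T y = ∑_k e_k y (ind C_k)` and `R'_T y = ∑_k (ind C_k) y e_k` are `A`-bimodule maps,
self-adjoint for `⟪· ξ, · ξ⟫` (`Std.inner_mul_right`), and `R_T R_{T'} = R_{T'}` when `s_{T'}`
refines `s_T` (the sets `C` decrease). So `⟪a w_{T'} b ξ, (w - w_T) ξ⟫ = 0`; let `T' → ∞`, then
`T → ∞`. For a projection `f` fix `T₀` with `s_{T₀}` refining `![f, 1 - f]` and let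
`f' = ∑_{k, f e_k = e_k} ind C_k` (for `T₀`); `f w_T = w_T f'` for all finer `T`. -/
theorem Std.exists_graph (h : Std A ξ) {w : Al M} {c : ℝ} (hc : 0 < c)
    (hw : ∀ (n : ℕ) (p : Fin n → Al M), Ptn A p → c ≤ cS h w p) :
    ∃ v : Al M, v ≠ 0 ∧ Gen A w v ∧ Cut A ξ w v ∧ Cut A ξ (star w) (star v) ∧ Itw A v := by
  have hA := h.toMasa
  obtain ⟨p, hpA, hp, h0, h1⟩ := diff_local h hc hw
  obtain ⟨v, hv0, ⟨ι, F, hF, x, hx, hv⟩, h2, h3, h4⟩ := diff_graph h h0 h1
  have hpv : p * v = v := by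
    refine (hv.mul_left p).unique (hv.congr fun i => ?_)
    refine (Submodule.span_le (p := LinearMap.eqLocus LinearMap.id
      (LinearMap.mulLeft ℂ p))).2 ?_ (hx i)
    rintro _ ⟨a, ha, b, hb, rfl⟩
    change a * (p * w) * b = p * (a * (p * w) * b)
    rw [← mul_assoc p, ← mul_assoc p, hA.comm p hpA a ha, mul_assoc a p, proj_mul_self_left hp]
  have hq : 1 - p ∈ A := sub_mem (one_mem _) hpA
  refine ⟨v, hv0, ⟨ι, F, hF, x, fun i => Submodule.span_mono ?_ (hx i), hv⟩, fun a ha b hb => ?_,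
    fun a ha b hb => ?_, h4⟩
  · rintro _ ⟨a, ha, b, hb, rfl⟩
    exact ⟨_, mul_mem ha hpA, b, hb, by rw [mul_assoc a]⟩
  · have e : w - v = (1 - p) * w + (p * w - v) := by noncomm_ring
    rw [e, ap_add, inner_add_right, h2 a ha b hb, add_zero, ap_mul (1 - p), inner_ap_right,
      proj_star hp.one_sub, ← ap_mul, ← mul_assoc, ← mul_assoc, hA.comm _ hq a ha, mul_assoc a,
      sub_mul, one_mul, hpv, sub_self, mul_zero, zero_mul, ap_zero, inner_zero_left]
  · have e : star w - star v = star w * star (1 - p) + (star (p * w) - star v) := by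
      rw [star_mul, star_sub, star_one]; noncomm_ring
    have e2 : star v * p = star v := by
      simpa only [star_mul, proj_star hp] using congrArg star hpv
    rw [e, ap_add, inner_add_right, h3 a ha b hb, add_zero, ← h.inner_mul_right _ _ hq,
      mul_assoc _ b, hA.comm b hb _ hq, ← mul_assoc, mul_assoc a, mul_sub, mul_one, e2, sub_self,
      mul_zero, zero_mul, ap_zero, inner_zero_left]

theorem Itw.conj_mem (hA : Masa A) {v : Al M} (hi : Itw A v) {b : Al M} (hb : b ∈ A) :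
    v * b * star v ∈ A := by
  refine hA.mem_of_comm_proj fun f hfA hf => ?_
  obtain ⟨f', hfA', hf', h1⟩ := hi f hfA hf
  have h2 : star v * f = f' * star v := by
    simpa only [star_mul, proj_star hf, proj_star hf'] using congrArg star h1
  rw [← mul_assoc, ← mul_assoc, h1, mul_assoc _ _ f, h2, mul_assoc v, hA.comm f' hfA' b hb]
  noncomm_ring

theorem diff_approx (h : Std A ξ) (m : Al M) (η : H) {e : ℝ} (he : 0 < e) :
    ∃ (n : ℕ) (p : Fin n → Al M), Ptn A p ∧ ∀ (κ : Type) [Fintype κ] (q : κ → Al M), Ptn A q →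
      Ref p q → ‖ap (Ep q m - h.E m) η‖ ≤ e := by
  have hc0 : (0 : ℝ) < 2 * ‖m‖ + 1 := by positivity
  have hc1 : ((2 * ‖m‖ + 1 : ℝ) : ℂ) ≠ 0 := by exact_mod_cast hc0.ne'
  obtain ⟨d, hd, h1⟩ := h.small (((2 * ‖m‖ + 1 : ℝ) : ℂ) • η) he
  obtain ⟨n, p, hp, h2⟩ := h.E_approx m (mul_pos hc0 hd)
  refine ⟨n, p, hp, fun κ _ q hq hr => ?_⟩
  have hn : ‖((2 * ‖m‖ + 1 : ℝ) : ℂ)⁻¹‖ = (2 * ‖m‖ + 1)⁻¹ := by
    rw [norm_inv, Complex.norm_real, Real.norm_of_nonneg hc0.le]
  have h4 := h1 (((2 * ‖m‖ + 1 : ℝ) : ℂ)⁻¹ • (Ep q m - h.E m)) (by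
    rw [norm_smul, hn, inv_mul_le_iff₀ hc0]
    linarith [norm_sub_le (Ep q m) (h.E m), hq.norm_Ep_le m, h.norm_E_le m]) (by
    rw [ap_smul, norm_smul, hn, inv_mul_le_iff₀ hc0]
    exact h2 _ q hq hr)
  rwa [ap_smul, ap, map_smul, inv_smul_smul₀ hc1] at h4

/-- `v b v* ∈ A` for `b ∈ A` (`mem_of_comm_proj`), so `cS (v*) q = ⟪v* ξ, Ep q (v* v) v* ξ⟫`, which
is close to `⟪v* ξ, E (v* v) v* ξ⟫ = ‖d v* ξ‖² > 0` for fine `q` (`E_approx`, `Std.small`;
`E (v* v) = d d`, and `d v* = 0` would give `E (v* v) d = 0`, `d = 0`, `v = 0`). Use `cS_anti`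
and `exists_ref`. -/
theorem Itw.cS_star (h : Std A ξ) {v : Al M} (hv : v ≠ 0) (hi : Itw A v) :
    ∃ c > 0, ∀ (n : ℕ) (p : Fin n → Al M), Ptn A p → c ≤ cS h (star v) p := by
  have hA := h.toMasa
  obtain ⟨d, hd, hds, e1⟩ := h.E_star_mul_self v
  have h0 : 0 < ‖ap (d * star v) ξ‖ := by
    refine norm_pos_iff.2 fun h1 => hv (h.E_faithful ?_)
    have h2 : v * d = 0 := by
      simpa only [star_mul, star_star, hds.star_eq, star_zero] using congrArg star (h.sep _ h1)
    have h3 := h.E_mul_right hd (star v * v)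
    rw [mul_assoc, h2, mul_zero, map_zero, e1] at h3
    rw [e1, ← CStarRing.star_mul_self_eq_zero_iff, star_mul, hds.star_eq, ← mul_assoc, ← h3,
      zero_mul]
  set η := ap (star v) ξ with hη
  obtain ⟨n₀, p₀, hp₀, h1⟩ := diff_approx h (star v * v) η
    (e := ‖ap (d * star v) ξ‖ ^ 2 / 2 / (‖η‖ + 1)) (by positivity)
  refine ⟨‖ap (d * star v) ξ‖ ^ 2 / 2, by positivity, fun n p hp => ?_⟩
  obtain ⟨m, s, hs, r1, r2⟩ := exists_ref hA hp hp₀
  refine le_trans ?_ (cS_anti h _ hp hs r1)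
  have h2 : cS h (star v) s = (⟪η, ap (Ep s (star v * v)) η⟫_ℂ).re := by
    rw [cS, Ep, ap_sum, inner_sum, Complex.re_sum]
    refine Finset.sum_congr rfl fun k _ => ?_
    have e : s k * (star v * v) * s k = star (v * s k) * (v * s k) := by
      rw [star_mul, proj_star (hs.proj k)]; noncomm_ring
    rw [star_star, h.E_of_mem (hi.conj_mem hA (hs.mem k)), e, ← std_norm_sq]
    rfl
  have h3 : ‖ap (d * star v) ξ‖ ^ 2 = (⟪η, ap (h.E (star v * v)) η⟫_ℂ).re := by
    rw [e1, ap_mul d (star v), std_norm_sq, hds.star_eq]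
  have h4 := h1 _ s hs r2
  rw [le_div_iff₀ (by positivity)] at h4
  have h5 := (Complex.abs_re_le_norm _).trans
    (norm_inner_le_norm (𝕜 := ℂ) η (ap (Ep s (star v * v) - h.E (star v * v)) η))
  rw [ap_sub, inner_sub_right, Complex.sub_re, ← h2, ← h3, ← ap_sub] at h5
  nlinarith [(abs_le.1 h5).1, norm_nonneg (ap (Ep s (star v * v) - h.E (star v * v)) η)]

/-- `v* v ∈ A` and `v v* ∈ A`. Choose `d ∈ A` with `d* v* v d` a nonzero projection (in a Gelfand
model: `d = 1_C * (max a ε)^(-1/2)` with `a = re (ev (v* v))`, `C = closure {a > ε}`). For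
`n = v d` and a projection `f`: `n* f n = n* n f' ∈ A`, `n f n* = f'' n n*`, and `n n*` commutes
with the projections of `A`; `Masa.span_induction`. -/
theorem Itw.exists_nor (h : Std A ξ) {v : Al M} (hv : v ≠ 0) (hi : Itw A v)
    (hi' : Itw A (star v)) : ∃ d ∈ A, Nor A (v * d) ∧ v * d ≠ 0 := by
  have hA := h.toMasa
  have hl : ∀ b ∈ A, star v * b * v ∈ A := fun b hb => by
    simpa only [star_star] using hi'.conj_mem hA hb
  have haA : star v * v ∈ A := by simpa only [mul_one] using hl 1 (one_mem _)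
  obtain ⟨d₀, hd₀, hf, hf0⟩ := hA.exists_ideal haA
    fun h0 => hv (CStarRing.star_mul_self_eq_zero_iff _ |>.1 h0)
  obtain ⟨d, hd, hds, e1⟩ := h.E_star_mul_self (v * d₀)
  have e2 : star (v * d₀) * (v * d₀) = star d₀ * (star v * v * d₀) := by
    rw [star_mul]; noncomm_ring
  rw [e2, h.E_of_mem (mul_mem (star_mem hd₀) (mul_mem haA hd₀))] at e1
  have e3 : star (v * d) * (v * d) = star v * v * d₀ := by
    calc star (v * d) * (v * d) = d * (star v * v) * d := by
          rw [star_mul, hds.star_eq]; noncomm_ring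
      _ = star v * v * star d₀ * (star v * v * d₀) := by
          rw [hA.comm d hd _ haA, mul_assoc, ← e1, ← mul_assoc]
      _ = star (star v * v * d₀) * (star v * v * d₀) := by
          rw [hA.comm _ haA _ (star_mem hd₀), star_mul, star_mul, star_star]
      _ = _ := by rw [proj_star hf, proj_mul_self hf]
  refine ⟨d, hd, ⟨PI.of_init (e3 ▸ hf), fun a ha => ?_, fun a ha => ?_⟩,
    fun h0 => hf0 (by rw [← e3, h0, mul_zero])⟩
  · simpa only [star_mul, mul_assoc] using mul_mem (mul_mem (star_mem hd) (hl a ha)) hd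
  · simpa only [star_mul, mul_assoc] using
      hi.conj_mem hA (mul_mem (mul_mem hd ha) (star_mem hd))

/-- Otherwise `exists_graph` gives `v₁`, `cS_star` and `exists_graph` give `v` for `star v₁`;
`v₂ = star v` is a cut of `w` intertwining on both sides; for `n = v₂ d`,
`0 = φ(d E(n* w)) = ⟪v₂ d d* ξ, w ξ⟫ = ⟪v₂ d d* ξ, v₂ ξ⟫ = ‖n ξ‖²`. -/
theorem Diffuse.cS_small {h : Std A ξ} {w : Al M} (hw : Diffuse h w) {c : ℝ} (hc : 0 < c) :
    ∃ (n : ℕ) (p : Fin n → Al M), Ptn A p ∧ cS h w p ≤ c := by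
  have hA := h.toMasa
  by_contra hne
  push Not at hne
  obtain ⟨v₁, h1, -, h2, -, h3⟩ := h.exists_graph hc fun n p hp => (hne n p hp).le
  obtain ⟨c', hc', h4⟩ := h3.cS_star h h1
  obtain ⟨v, h5, h6, -, h7, h8⟩ := h.exists_graph hc' h4
  have h9 := h6.star'
  rw [star_star] at h7 h9
  obtain ⟨d, hd, hn, hn0⟩ := (h3.of_gen hA h9).exists_nor h (star_ne_zero.2 h5)
    (by rwa [star_star])
  have h10 := h2.trans h9 h7 1 (one_mem _) _ (mul_mem hd (star_mem hd))
  rw [one_mul, ← mul_assoc, h.inner_mul_right _ _ (star_mem hd), star_star, sub_mul, ap_sub,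
    inner_sub_right, ← ph_star_mul, ← mul_assoc, ← h.ph_comm hd, ← h.ph_mul_E hd, hw _ hn,
    mul_zero, map_zero, zero_sub, neg_eq_zero, inner_self_eq_zero] at h10
  exact hn0 (h.sep _ h10)

end Crest.Agent.R109
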