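import Mathlib

/-!
# R109: Herglotz representation in the closed upper half-plane
-/

set_option autoImplicit false
open Filter Topology MeasureTheory Set

namespace Crest.Agent.R109

theorem herg_integrable {f : ℝ → ℂ} {D U : ℝ} (hf : Continuous f)
    (hb : ∀ u : ℝ, U ≤ |u| → ‖f u‖ ≤ D / |u| ^ 2) : Integrable f := by
  set V := max U 1 with hV
  obtain ⟨M, hM⟩ := (isCompact_Icc (a := -V) (b := V)).exists_bound_of_continuousOn
    hf.continuousOn
  have hV1 : 1 ≤ V := le_max_right _ _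
  have hM0 : 0 ≤ M := (norm_nonneg _).trans (hM 0 ⟨by linarith, by linarith⟩)
  refine (integrable_inv_one_add_sq.const_mul (M * (1 + V ^ 2) + 2 * |D|)).mono'
    hf.aestronglyMeasurable (Eventually.of_forall fun u => ?_)
  have hD := abs_nonneg D
  rw [← div_eq_mul_inv, le_div_iff₀ (by positivity)]
  by_cases hu : |u| ≤ V
  · have h1 := hM u (abs_le.1 hu)
    have h2 : u ^ 2 ≤ V ^ 2 := by rw [← sq_abs u]; exact pow_le_pow_left₀ (abs_nonneg _) hu 2
    have h3 : ‖f u‖ * (1 + u ^ 2) ≤ M * (1 + V ^ 2) :=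
      mul_le_mul h1 (by linarith) (by positivity) hM0
    linarith
  · have hu' := not_le.1 hu
    have h1 := hb u ((le_max_left _ _).trans hu'.le)
    have h2 : 1 ≤ |u| ^ 2 := one_le_pow₀ (hV1.trans hu'.le)
    rw [le_div_iff₀ (by positivity), sq_abs] at h1
    rw [sq_abs] at h2
    have h3 : ‖f u‖ * (1 + u ^ 2) ≤ 2 * (‖f u‖ * u ^ 2) := by nlinarith [norm_nonneg (f u)]
    have h4 : 0 ≤ M * (1 + V ^ 2) := by positivity
    linarith [le_abs_self D]

/-- Cauchy's theorem in the half-plane: integrate over the boundary of `[-L, L] × [0, L]`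
(`Complex.integral_boundary_rect_eq_zero_of_differentiableOn`); the three other sides are
`O(1/L)`; `intervalIntegral_tendsto_integral`. -/
theorem integral_halfplane {g : ℂ → ℂ} {D U : ℝ}
    (hg : ∀ ζ : ℂ, 0 ≤ ζ.im → DifferentiableAt ℂ g ζ)
    (hb : ∀ ζ : ℂ, 0 ≤ ζ.im → U ≤ ‖ζ‖ → ‖g ζ‖ ≤ D / ‖ζ‖ ^ 2) :
    Integrable (fun u : ℝ => g u) ∧ ∫ u : ℝ, g u = 0 := by
  have hc : Continuous fun u : ℝ => g u := continuous_iff_continuousAt.2 fun u =>
    (hg u (by simp)).continuousAt.comp Complex.continuous_ofReal.continuousAt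
  have hi : Integrable fun u : ℝ => g u :=
    herg_integrable (D := D) (U := U) hc fun u hu => by
      simpa using hb u (by simp) (by simpa using hu)
  refine ⟨hi, ?_⟩
  have h1 : Tendsto (fun L : ℝ => ∫ x in (-L)..L, g x) atTop (𝓝 (∫ u : ℝ, g u)) :=
    intervalIntegral_tendsto_integral hi tendsto_neg_atTop_atBot tendsto_id
  refine tendsto_nhds_unique h1 ?_
  refine squeeze_zero_norm' (a := fun L : ℝ => 4 * |D| / L) ?_
    (tendsto_const_nhds.div_atTop tendsto_id)
  filter_upwards [eventually_ge_atTop U, eventually_gt_atTop 0] with L hLU hL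
  have key : ∀ ζ : ℂ, 0 ≤ ζ.im → L ≤ ‖ζ‖ → ‖g ζ‖ ≤ |D| / L ^ 2 := fun ζ h0 hζ =>
    (hb ζ h0 (hLU.trans hζ)).trans ((div_le_div_of_nonneg_right (le_abs_self D)
      (by positivity)).trans (div_le_div_of_nonneg_left (abs_nonneg D) (by positivity)
        (pow_le_pow_left₀ hL.le hζ 2)))
  have hR := Complex.integral_boundary_rect_eq_zero_of_differentiableOn g (-L : ℝ) (L + L * Complex.I)
    (fun ζ hζ => (hg ζ (by
      have := hζ.2
      simp only [Complex.ofReal_im, Complex.add_im, Complex.mul_im, Complex.ofReal_re,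
        Complex.I_im, mul_one, Complex.I_re, mul_zero, add_zero, zero_add, mem_preimage,
        uIcc_of_le hL.le] at this
      exact this.1)).differentiableWithinAt)
  simp only [Complex.ofReal_re, Complex.add_re, Complex.mul_re, Complex.I_re, mul_zero,
    Complex.ofReal_im, Complex.I_im, mul_one, sub_self, add_zero, Complex.ofReal_zero, zero_mul,
    Complex.add_im, Complex.mul_im, zero_add, smul_eq_mul] at hR
  have b1 : ‖∫ x : ℝ in (-L)..L, g (x + L * Complex.I)‖ ≤ |D| / L ^ 2 * |L - -L| :=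
    intervalIntegral.norm_integral_le_of_norm_le_const fun x _ => key _ (by simp [hL.le])
      (by simpa using (Complex.im_le_norm (x + L * Complex.I)))
  have b2 : ‖∫ y : ℝ in (0 : ℝ)..L, g (L + y * Complex.I)‖ ≤ |D| / L ^ 2 * |L - 0| :=
    intervalIntegral.norm_integral_le_of_norm_le_const fun y hy => key _
      (by rw [uIoc_of_le hL.le] at hy; simpa using hy.1.le)
      (by simpa using (Complex.re_le_norm (L + y * Complex.I)))
  have b3 : ‖∫ y : ℝ in (0 : ℝ)..L, g ((-L : ℝ) + y * Complex.I)‖ ≤ |D| / L ^ 2 * |L - 0| :=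
    intervalIntegral.norm_integral_le_of_norm_le_const fun y hy => key _
      (by rw [uIoc_of_le hL.le] at hy; simpa using hy.1.le)
      (by simpa [abs_of_pos hL] using (Complex.abs_re_le_norm ((-L : ℝ) + y * Complex.I)))
  rw [sub_neg_eq_add, abs_of_pos (show 0 < L + L by linarith)] at b1
  rw [sub_zero, abs_of_pos hL] at b2 b3
  have e : ∫ x in (-L)..L, g x = (∫ x : ℝ in (-L)..L, g (x + L * Complex.I)) -
      Complex.I * (∫ y : ℝ in (0 : ℝ)..L, g (L + y * Complex.I)) +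
      Complex.I * ∫ y : ℝ in (0 : ℝ)..L, g ((-L : ℝ) + y * Complex.I) := by
    linear_combination hR
  rw [e]
  refine (norm_add_le _ _).trans ?_
  refine (add_le_add_left (norm_sub_le _ _) _).trans ?_
  rw [norm_mul, norm_mul, Complex.norm_I, one_mul, one_mul]
  have : 4 * |D| / L = |D| / L ^ 2 * (L + L) + |D| / L ^ 2 * L + |D| / L ^ 2 * L := by
    field_simp; ring
  linarith

/-- Functions analytic on the closed upper half-plane with nonpositive imaginary part and decay. -/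
structure Herg (β : ℂ → ℂ) : Prop where
  diff : ∀ ζ : ℂ, 0 ≤ ζ.im → DifferentiableAt ℂ β ζ
  im_le : ∀ ζ : ℂ, 0 ≤ ζ.im → (β ζ).im ≤ 0
  bound : ∃ C : ℝ, ∀ ζ : ℂ, 0 ≤ ζ.im → ‖β ζ‖ ≤ C / (1 + ‖ζ‖)

/-- The spectral density. -/
noncomputable def sd (β : ℂ → ℂ) (l : ℝ) : ℝ := -(β l).im / Real.pi

variable {β : ℂ → ℂ}

theorem Herg.sd_nonneg (h : Herg β) (l : ℝ) : 0 ≤ sd β l :=
  div_nonneg (neg_nonneg.2 (h.im_le l (by simp))) Real.pi_pos.le

theorem Herg.continuous (h : Herg β) : Continuous fun u : ℝ => β u :=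
  continuous_iff_continuousAt.2 fun u =>
    (h.diff u (by simp)).continuousAt.comp Complex.continuous_ofReal.continuousAt

theorem Herg.sd_continuous (h : Herg β) : Continuous (sd β) :=
  (Complex.continuous_im.comp h.continuous).neg.div_const _

theorem herg_bound (h : Herg β) : ∃ C : ℝ, 0 ≤ C ∧ ∀ ζ : ℂ, 0 ≤ ζ.im → ζ ≠ 0 →
    ‖β ζ‖ ≤ C / ‖ζ‖ := by
  obtain ⟨C, hC⟩ := h.bound
  refine ⟨|C|, abs_nonneg C, fun ζ h0 hζ => (hC ζ h0).trans ?_⟩
  have := norm_pos_iff.2 hζ
  exact (div_le_div_of_nonneg_right (le_abs_self C) (by positivity)).trans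
    (div_le_div_of_nonneg_left (abs_nonneg C) this (by linarith))

theorem herg_inv_le {w a : ℂ} (h : 2 * ‖a‖ + 1 ≤ ‖w‖) : w ≠ a ∧ ‖(w - a)⁻¹‖ ≤ 2 / ‖w‖ := by
  have h0 := norm_nonneg a
  have h1 : ‖w‖ / 2 ≤ ‖w - a‖ := by have := norm_sub_norm_le w a; linarith
  have h2 : 0 < ‖w‖ := by linarith
  refine ⟨fun he => by rw [he] at h; linarith, ?_⟩
  rw [norm_inv, ← inv_div]
  exact inv_anti₀ (by positivity) h1

theorem herg_poisson {a b : ℝ} (hb : 0 < b) :
    Integrable (fun l : ℝ => ((l - a) ^ 2 + b ^ 2)⁻¹) ∧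
      ∫ l : ℝ, ((l - a) ^ 2 + b ^ 2)⁻¹ = Real.pi / b := by
  have e : (fun l : ℝ => ((l - a) ^ 2 + b ^ 2)⁻¹) =
      fun l : ℝ => (b ^ 2)⁻¹ * (1 + ((l - a) / b) ^ 2)⁻¹ := by
    funext l
    field_simp
    ring
  rw [e]
  refine ⟨((integrable_inv_one_add_sq.comp_div hb.ne').comp_sub_right a).const_mul _, ?_⟩
  rw [integral_const_mul, integral_sub_right_eq_self (fun l : ℝ => (1 + (l / b) ^ 2)⁻¹) a,
    Measure.integral_comp_div (fun l : ℝ => (1 + l ^ 2)⁻¹) b, integral_univ_inv_one_add_sq,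
    abs_of_pos hb, smul_eq_mul]
  field_simp

/-- (1) `∫ β l / (l - conj ζ) = 0` by `integral_halfplane`. (2) Apply it to
`w ↦ dslope (fun w => β w * (w - conj ζ)) ζ w / (w - conj ζ)`, which off `ζ` is
`β w / (w - ζ) - β ζ (ζ - conj ζ) / ((w - ζ)(w - conj ζ))`, and use
`∫ (ζ - conj ζ) / |l - ζ|² dl = 2 π i` (`integral_univ_inv_one_add_sq` after scaling) to get
`∫ β l / (l - ζ) = 2 π i β ζ`. Subtract the conjugate of (1). -/
theorem Herg.rep (h : Herg β) {ζ : ℂ} (hζ : 0 < ζ.im) :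
    Integrable (fun l : ℝ => (sd β l : ℂ) / (ζ - l)) ∧ β ζ = ∫ l : ℝ, (sd β l : ℂ) / (ζ - l) := by
  obtain ⟨C, hC0, hC⟩ := herg_bound h
  set ξ := (starRingEnd ℂ) ζ with hξ
  have hξn : ‖ξ‖ = ‖ζ‖ := by rw [hξ, Complex.norm_conj]
  have hne : ∀ w : ℂ, 0 ≤ w.im → w - ξ ≠ 0 := by
    intro w hw he
    have := congrArg Complex.im he
    simp only [hξ, Complex.sub_im, Complex.conj_im, Complex.zero_im] at this
    linarith
  have hbd : ∀ (a w : ℂ), 0 ≤ w.im → 2 * ‖a‖ + 1 ≤ ‖w‖ → ‖β w / (w - a)‖ ≤ 2 * C / ‖w‖ ^ 2 := by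
    intro a w hw hwa
    have h0 : 0 < ‖w‖ := by have := norm_nonneg a; linarith
    rw [div_eq_mul_inv, norm_mul]
    refine (mul_le_mul (hC w hw (norm_pos_iff.1 h0)) (herg_inv_le hwa).2 (norm_nonneg _)
      (by positivity)).trans (le_of_eq ?_)
    field_simp
  obtain ⟨i1, e1⟩ := integral_halfplane (g := fun w => β w / (w - ξ)) (D := 2 * C)
    (U := 2 * ‖ξ‖ + 1) (fun w hw => (h.diff w hw).div (by fun_prop) (hne w hw)) (hbd ξ)
  set F : ℂ → ℂ := fun w => β w * (w - ξ) with hF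
  have hFd : ∀ w : ℂ, 0 ≤ w.im → DifferentiableAt ℂ F w := fun w hw =>
    (h.diff w hw).mul (by fun_prop)
  have hoff : ∀ w : ℂ, 0 ≤ w.im → w ≠ ζ → dslope F ζ w / (w - ξ) =
      β w / (w - ζ) - F ζ * ((w - ζ)⁻¹ * (w - ξ)⁻¹) := by
    intro w hw hwζ
    have h1 := hne w hw
    have h2 : w - ζ ≠ 0 := sub_ne_zero.2 hwζ
    rw [dslope_of_ne _ hwζ, slope_def_field]
    have : F w = β w * (w - ξ) := rfl
    rw [this]
    field_simp
  obtain ⟨i2, e2⟩ := integral_halfplane (g := fun w => dslope F ζ w / (w - ξ))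
    (D := 2 * C + ‖F ζ‖ * 4) (U := 2 * ‖ζ‖ + 1) (fun w hw => by
      refine DifferentiableAt.div ?_ (by fun_prop) (hne w hw)
      by_cases hwζ : w = ζ
      · have hs : {z : ℂ | 0 < z.im} ∈ 𝓝 ζ :=
          (isOpen_lt continuous_const Complex.continuous_im).mem_nhds hζ
        rw [hwζ]
        exact ((Complex.differentiableOn_dslope hs).2
          fun z hz => (hFd z (le_of_lt hz)).differentiableWithinAt).differentiableAt hs
      · exact (differentiableAt_dslope_of_ne hwζ).2 (hFd w hw)) (fun w hw hwU => by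
      have h0 : 0 < ‖w‖ := by have := norm_nonneg ζ; linarith
      have a1 := herg_inv_le hwU
      have a2 := herg_inv_le (a := ξ) (w := w) (by rwa [hξn])
      show ‖dslope F ζ w / (w - ξ)‖ ≤ _
      rw [hoff w hw a1.1]
      refine (norm_sub_le _ _).trans ?_
      have a3 : ‖F ζ * ((w - ζ)⁻¹ * (w - ξ)⁻¹)‖ ≤ ‖F ζ‖ * (2 / ‖w‖ * (2 / ‖w‖)) := by
        rw [norm_mul (F ζ), norm_mul (w - ζ)⁻¹]
        exact mul_le_mul_of_nonneg_left (mul_le_mul a1.2 a2.2 (norm_nonneg _) (by positivity))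
          (norm_nonneg _)
      refine (add_le_add (hbd ζ w hw hwU) a3).trans (le_of_eq ?_)
      field_simp
      ring)
  have hlζ : ∀ l : ℝ, (l : ℂ) ≠ ζ := by
    intro l he
    rw [← he] at hζ
    simp at hζ
  obtain ⟨p1, p2⟩ := herg_poisson (a := ζ.re) hζ
  have hP : ∀ l : ℝ, ((l : ℂ) - ζ)⁻¹ * ((l : ℂ) - ξ)⁻¹ =
      ((((l - ζ.re) ^ 2 + ζ.im ^ 2)⁻¹ : ℝ) : ℂ) := by
    intro l
    rw [← mul_inv, Complex.ofReal_inv]
    congr 1
    apply Complex.ext <;> simp [hξ, pow_two] <;> ring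
  have i3 : Integrable fun l : ℝ => F ζ * ((((l - ζ.re) ^ 2 + ζ.im ^ 2)⁻¹ : ℝ) : ℂ) :=
    p1.ofReal.const_mul _
  have e3 : ∫ l : ℝ, F ζ * ((((l - ζ.re) ^ 2 + ζ.im ^ 2)⁻¹ : ℝ) : ℂ) =
      2 * Real.pi * Complex.I * β ζ := by
    rw [integral_const_mul, integral_complex_ofReal, p2]
    have h1 : ζ - ξ = 2 * ζ.im * Complex.I := by rw [hξ, Complex.sub_conj]; push_cast; ring
    have h2 : (ζ.im : ℂ) ≠ 0 := by exact_mod_cast hζ.ne'
    show β ζ * (ζ - ξ) * _ = _
    rw [h1]
    push_cast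
    field_simp
  have i1' : Integrable fun l : ℝ => (starRingEnd ℂ) (β l / (l - ξ)) :=
    Complex.conjCLE.toContinuousLinearMap.integrable_comp i1
  have e1' : ∫ l : ℝ, (starRingEnd ℂ) (β l / (l - ξ)) = 0 := by
    rw [integral_conj, e1, map_zero]
  have hπ : (Real.pi : ℂ) ≠ 0 := by exact_mod_cast Real.pi_ne_zero
  have key : (fun l : ℝ => (sd β l : ℂ) / (ζ - l)) = fun l : ℝ => (2 * Real.pi * Complex.I)⁻¹ *
      ((dslope F ζ l / (l - ξ) + F ζ * ((((l - ζ.re) ^ 2 + ζ.im ^ 2)⁻¹ : ℝ) : ℂ)) -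
        (starRingEnd ℂ) (β l / (l - ξ))) := by
    funext l
    rw [hoff l (by simp) (hlζ l), hP, sub_add_cancel, map_div₀, map_sub, Complex.conj_ofReal, hξ,
      Complex.conj_conj, ← sub_div, Complex.sub_conj]
    have h2 : (l : ℂ) - ζ ≠ 0 := sub_ne_zero.2 (hlζ l)
    have h3 : ζ - (l : ℂ) ≠ 0 := sub_ne_zero.2 (hlζ l).symm
    unfold sd
    push_cast
    field_simp
    ring
  rw [key]
  refine ⟨((i2.add i3).sub i1').const_mul _, ?_⟩
  have i23 : Integrable fun l : ℝ =>
      dslope F ζ l / (l - ξ) + F ζ * ((((l - ζ.re) ^ 2 + ζ.im ^ 2)⁻¹ : ℝ) : ℂ) := i2.add i3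
  rw [integral_const_mul, integral_sub i23 i1', integral_add i2 i3, e2, e3, e1']
  field_simp
  ring

theorem herg_im_div (s : ℝ) (ζ : ℂ) (l : ℝ) :
    ((s : ℂ) / (ζ - l)).im = -(s * ζ.im / ((ζ.re - l) ^ 2 + ζ.im ^ 2)) := by
  rw [Complex.div_im, Complex.normSq_apply]
  simp only [Complex.ofReal_im, Complex.sub_re, Complex.ofReal_re, Complex.sub_im, sub_zero,
    zero_mul, zero_div, zero_sub]
  ring

/-- `∫ s l * y² / (l² + y²) dl = - y Im β(iy) ≤ C`; hence `∫_{-n}^{n} s ≤ 2 C` (take `y = n`), and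
`integrable_of_intervalIntegral_norm_bounded`. -/
theorem Herg.sd_integrable (h : Herg β) : Integrable (sd β) := by
  obtain ⟨C, hC0, hC⟩ := herg_bound h
  refine integrable_of_intervalIntegral_norm_bounded (l := atTop) (a := fun y : ℝ => -y)
    (b := fun y : ℝ => y) (2 * C) (fun y => h.sd_continuous.integrableOn_Ioc)
    tendsto_neg_atTop_atBot tendsto_id ?_
  filter_upwards [eventually_gt_atTop 0] with y hy
  have him : ((y : ℂ) * Complex.I).im = y := by simp
  have hre : ((y : ℂ) * Complex.I).re = 0 := by simp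
  obtain ⟨i1, e1⟩ := h.rep (ζ := y * Complex.I) (by rwa [him])
  have i2 : Integrable fun l : ℝ => -(2 * y) * ((sd β l : ℂ) / (y * Complex.I - l)).im :=
    i1.im.const_mul _
  have e2 : ∫ l : ℝ, -(2 * y) * ((sd β l : ℂ) / (y * Complex.I - l)).im =
      -(2 * y) * (β (y * Complex.I)).im := by
    rw [integral_const_mul, e1]
    congr 1
    exact integral_im i1
  have hk : ∀ l : ℝ, -(2 * y) * ((sd β l : ℂ) / (y * Complex.I - l)).im =
      sd β l * (2 * y ^ 2 / (l ^ 2 + y ^ 2)) := by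
    intro l
    rw [herg_im_div, him, hre]
    ring
  simp_rw [hk] at i2 e2
  have h0 : ∀ l, 0 ≤ sd β l * (2 * y ^ 2 / (l ^ 2 + y ^ 2)) := fun l =>
    mul_nonneg (h.sd_nonneg l) (by positivity)
  calc ∫ x in (-y)..y, ‖sd β x‖ ≤ ∫ l in (-y)..y, sd β l * (2 * y ^ 2 / (l ^ 2 + y ^ 2)) := by
        refine intervalIntegral.integral_mono_on (by linarith)
          (h.sd_continuous.norm.intervalIntegrable _ _) i2.intervalIntegrable fun l hl => ?_
        rw [Real.norm_of_nonneg (h.sd_nonneg l)]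
        refine le_mul_of_one_le_right (h.sd_nonneg l) ?_
        rw [one_le_div (by positivity)]
        nlinarith [hl.1, hl.2]
    _ ≤ ∫ l, sd β l * (2 * y ^ 2 / (l ^ 2 + y ^ 2)) := by
        rw [intervalIntegral.integral_of_le (by linarith)]
        exact setIntegral_le_integral i2 (Eventually.of_forall h0)
    _ ≤ 2 * C := by
        rw [e2]
        have h1 := hC (y * Complex.I) (by rw [him]; exact hy.le)
          (mul_ne_zero (by exact_mod_cast hy.ne') Complex.I_ne_zero)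
        rw [norm_mul, Complex.norm_I, mul_one, Complex.norm_real, Real.norm_of_nonneg hy.le,
          le_div_iff₀ hy] at h1
        have h2 := (abs_le.1 (Complex.abs_im_le_norm (β (y * Complex.I)))).1
        nlinarith

theorem Herg.shift (h : Herg β) (U : ℝ) : Herg fun ζ => β (U + ζ) := by
  have him : ∀ ζ : ℂ, 0 ≤ ζ.im → 0 ≤ ((U : ℂ) + ζ).im := fun ζ hζ => by simpa using hζ
  obtain ⟨C, hC⟩ := h.bound
  refine ⟨fun ζ hζ => (h.diff _ (him ζ hζ)).comp ζ (by fun_prop), fun ζ hζ => h.im_le _ (him ζ hζ),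
    |C| * (1 + |U|), fun ζ hζ => (hC _ (him ζ hζ)).trans ?_⟩
  have h1 : ‖ζ‖ ≤ ‖(U : ℂ) + ζ‖ + |U| := by
    have := norm_sub_le ((U : ℂ) + ζ) U
    rwa [add_sub_cancel_left, Complex.norm_real, Real.norm_eq_abs] at this
  rw [div_le_div_iff₀ (by positivity) (by positivity)]
  have h2 : 1 + ‖ζ‖ ≤ (1 + |U|) * (1 + ‖(U : ℂ) + ζ‖) := by
    nlinarith [mul_nonneg (abs_nonneg U) (norm_nonneg ((U : ℂ) + ζ))]
  rw [mul_assoc]
  exact mul_le_mul (le_abs_self C) h2 (by positivity) (abs_nonneg C)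

theorem Herg.avg {ι : Type*} [Fintype ι] {β : ι → ℂ → ℂ} (h : ∀ i, Herg (β i)) :
    Herg fun ζ => (∑ i, β i ζ) / Fintype.card ι := by
  choose C hC using fun i => (h i).bound
  refine ⟨fun ζ hζ => (DifferentiableAt.fun_sum fun i _ => (h i).diff ζ hζ).div_const _,
    fun ζ hζ => ?_, (∑ i, C i) / Fintype.card ι, fun ζ hζ => ?_⟩
  · rw [Complex.div_natCast_im, Complex.im_sum]
    exact div_nonpos_of_nonpos_of_nonneg (Finset.sum_nonpos fun i _ => (h i).im_le ζ hζ)
      (Nat.cast_nonneg _)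
  · rw [norm_div, Complex.norm_natCast, div_right_comm]
    refine div_le_div_of_nonneg_right ?_ (Nat.cast_nonneg _)
    rw [Finset.sum_div]
    exact norm_sum_le_of_le _ fun i _ => hC i ζ hζ

theorem herg_sd_avg {ι : Type*} [Fintype ι] (β : ι → ℂ → ℂ) (l : ℝ) :
    sd (fun ζ => (∑ i, β i ζ) / Fintype.card ι) l = (∑ i, sd (β i) l) / Fintype.card ι := by
  unfold sd
  rw [Complex.div_natCast_im, Complex.im_sum, ← Finset.sum_div, Finset.sum_neg_distrib]
  ring

theorem herg_intOn (h : Herg β) {S : Set ℝ} (hS : MeasurableSet S) {d : ℝ → ℝ} (hd : Measurable d)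
    {u : ℝ} (hu : 0 < u) (hdu : ∀ l ∈ S, u ≤ d l) : IntegrableOn (fun l => sd β l / d l) S := by
  refine (h.sd_integrable.div_const u).integrableOn.mono'
    (h.sd_continuous.measurable.div hd).aestronglyMeasurable ?_
  filter_upwards [ae_restrict_mem hS] with l hl
  rw [Real.norm_of_nonneg (div_nonneg (h.sd_nonneg l) (hu.le.trans (hdu l hl)))]
  exact div_le_div_of_nonneg_left (h.sd_nonneg l) hu (hdu l hl)

theorem herg_int_nn (h : Herg β) {u : ℝ} (hu : 0 < u) :
    IntegrableOn (fun l => sd β l / (u - l)) (Iio 0) :=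
  herg_intOn h measurableSet_Iio (by fun_prop) hu fun l hl => by
    have : l < 0 := hl
    linarith

theorem herg_int_mm (h : Herg β) {y : ℝ} (hy : 0 < y) :
    IntegrableOn (fun l => sd β l / (l + y)) (Ioi 0) :=
  herg_intOn h measurableSet_Ioi (by fun_prop) hy fun l hl => by
    have : 0 < l := hl
    linarith

/-- Contribution of the negative poles on the positive axis. -/
noncomputable def nn (β : ℂ → ℂ) (u : ℝ) : ℝ := ∫ l in Iio (0 : ℝ), sd β l / (u - l)

/-- Contribution of the positive poles on the negative axis. -/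
noncomputable def mm (β : ℂ → ℂ) (y : ℝ) : ℝ := ∫ l in Ioi (0 : ℝ), sd β l / (l + y)

theorem Herg.nn_nonneg (h : Herg β) {u : ℝ} (hu : 0 < u) : 0 ≤ nn β u :=
  setIntegral_nonneg measurableSet_Iio fun l hl => div_nonneg (h.sd_nonneg l) (by
    have : l < 0 := hl
    linarith)

theorem Herg.mm_nonneg (h : Herg β) {y : ℝ} (hy : 0 < y) : 0 ≤ mm β y :=
  setIntegral_nonneg measurableSet_Ioi fun l hl => div_nonneg (h.sd_nonneg l) (by
    have : 0 < l := hl
    linarith)

theorem Herg.nn_anti (h : Herg β) {u u' : ℝ} (hu : 0 < u) (huu : u ≤ u') : nn β u' ≤ nn β u :=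
  setIntegral_mono_on (herg_int_nn h (hu.trans_le huu)) (herg_int_nn h hu) measurableSet_Iio
    fun l hl => by
      have : l < 0 := hl
      exact div_le_div_of_nonneg_left (h.sd_nonneg l) (by linarith) (by linarith)

theorem Herg.mm_anti (h : Herg β) {y y' : ℝ} (hy : 0 < y) (hyy : y ≤ y') : mm β y' ≤ mm β y :=
  setIntegral_mono_on (herg_int_mm h (hy.trans_le hyy)) (herg_int_mm h hy) measurableSet_Ioi
    fun l hl => by
      have : 0 < l := hl
      exact div_le_div_of_nonneg_left (h.sd_nonneg l) (by linarith) (by linarith)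

theorem Herg.mul_nn_le (h : Herg β) {u u' : ℝ} (hu : 0 < u) (huu : u ≤ u') :
    u * nn β u ≤ u' * nn β u' := by
  unfold nn
  rw [← integral_const_mul, ← integral_const_mul]
  refine setIntegral_mono_on ((herg_int_nn h hu).const_mul _)
    ((herg_int_nn h (hu.trans_le huu)).const_mul _) measurableSet_Iio fun l hl => ?_
  have hl' : l < 0 := hl
  rw [mul_div_left_comm u, mul_div_left_comm u']
  refine mul_le_mul_of_nonneg_left ?_ (h.sd_nonneg l)
  rw [div_le_div_iff₀ (by linarith) (by linarith)]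
  nlinarith

theorem Herg.mul_mm_le (h : Herg β) {y y' : ℝ} (hy : 0 < y) (hyy : y ≤ y') :
    y * mm β y ≤ y' * mm β y' := by
  unfold mm
  rw [← integral_const_mul, ← integral_const_mul]
  refine setIntegral_mono_on ((herg_int_mm h hy).const_mul _)
    ((herg_int_mm h (hy.trans_le hyy)).const_mul _) measurableSet_Ioi fun l hl => ?_
  have hl' : 0 < l := hl
  rw [mul_div_left_comm y, mul_div_left_comm y']
  refine mul_le_mul_of_nonneg_left ?_ (h.sd_nonneg l)
  rw [div_le_div_iff₀ (by linarith) (by linarith)]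
  nlinarith

theorem nn_avg {ι : Type*} [Fintype ι] {β : ι → ℂ → ℂ} (h : ∀ i, Herg (β i)) {u : ℝ}
    (hu : 0 < u) : nn (fun ζ => (∑ i, β i ζ) / Fintype.card ι) u =
      (∑ i, nn (β i) u) / Fintype.card ι := by
  unfold nn
  rw [← integral_finsetSum _ fun i _ => herg_int_nn (h i) hu, ← integral_div]
  congr 1
  funext l
  rw [herg_sd_avg, div_right_comm, Finset.sum_div _ _ (u - l)]

theorem mm_avg {ι : Type*} [Fintype ι] {β : ι → ℂ → ℂ} (h : ∀ i, Herg (β i)) {y : ℝ}
    (hy : 0 < y) : mm (fun ζ => (∑ i, β i ζ) / Fintype.card ι) y =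
      (∑ i, mm (β i) y) / Fintype.card ι := by
  unfold mm
  rw [← integral_finsetSum _ fun i _ => herg_int_mm (h i) hy, ← integral_div]
  congr 1
  funext l
  rw [herg_sd_avg, div_right_comm, Finset.sum_div _ _ (l + y)]

theorem herg_meas (h : Herg β) (ζ : ℂ) (μ : Measure ℝ) :
    AEStronglyMeasurable (fun l : ℝ => (sd β l : ℂ) / (ζ - l)) μ :=
  ((Complex.measurable_ofReal.comp h.sd_continuous.measurable).div
    (measurable_const.sub Complex.measurable_ofReal)).aestronglyMeasurable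

theorem herg_norm_div (h : Herg β) {w : ℂ} {δ : ℝ} (hδ : 0 < δ) (hw : δ ≤ ‖w‖) (l : ℝ) :
    ‖(sd β l : ℂ) / w‖ ≤ sd β l / δ := by
  rw [norm_div, Complex.norm_real, Real.norm_of_nonneg (h.sd_nonneg l)]
  exact div_le_div_of_nonneg_left (h.sd_nonneg l) hδ hw

theorem herg_part_le (h : Herg β) {S : Set ℝ} (hS : MeasurableSet S) {ζ : ℂ} (hζ : ζ ≠ 0)
    (hl : ∀ l ∈ S, ζ.re * l ≤ 0) :
    ‖∫ l in S, (sd β l : ℂ) / (ζ - l)‖ ≤ (∫ l, sd β l) / ‖ζ‖ := by
  have h0 := norm_pos_iff.2 hζ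
  refine (norm_integral_le_of_norm_le (h.sd_integrable.div_const ‖ζ‖).integrableOn ?_).trans ?_
  · filter_upwards [ae_restrict_mem hS] with l hlS
    refine herg_norm_div h h0 ?_ l
    refine (pow_le_pow_iff_left₀ (norm_nonneg _) (norm_nonneg _) two_ne_zero).1 ?_
    rw [Complex.sq_norm, Complex.sq_norm, Complex.normSq_apply, Complex.normSq_apply]
    simp only [Complex.sub_re, Complex.ofReal_re, Complex.sub_im, Complex.ofReal_im, sub_zero]
    nlinarith [hl l hlS, sq_nonneg l]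
  · rw [integral_div]
    exact div_le_div_of_nonneg_right
      (setIntegral_le_integral h.sd_integrable (Eventually.of_forall h.sd_nonneg)) h0.le

theorem herg_dc (h : Herg β) {S : Set ℝ} (hS : MeasurableSet S) {x δ : ℝ} (hδ : 0 < δ)
    (hl : ∀ l ∈ S, δ ≤ |x - l|) :
    Tendsto (fun e : ℝ => ∫ l in S, (sd β l : ℂ) / (x + e * Complex.I - l)) (𝓝[>] 0)
      (𝓝 ((∫ l in S, sd β l / (x - l) : ℝ) : ℂ)) := by
  rw [← integral_complex_ofReal]
  refine tendsto_integral_filter_of_dominated_convergence (fun l => sd β l / δ)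
    (Eventually.of_forall fun e => herg_meas h _ _) (Eventually.of_forall fun e => ?_)
    (h.sd_integrable.div_const δ).integrableOn ?_
  · filter_upwards [ae_restrict_mem hS] with l hlS
    refine herg_norm_div h hδ ((hl l hlS).trans ?_) l
    simpa using Complex.abs_re_le_norm (x + e * Complex.I - l)
  · filter_upwards [ae_restrict_mem hS] with l hlS
    have hne : (x : ℂ) + (0 : ℝ) * Complex.I - l ≠ 0 := by
      have : x - l ≠ 0 := abs_pos.1 (hδ.trans_le (hl l hlS))
      simp only [Complex.ofReal_zero, zero_mul, add_zero]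
      exact_mod_cast this
    have hc : ContinuousAt (fun e : ℝ => (sd β l : ℂ) / (x + e * Complex.I - l)) 0 :=
      continuousAt_const.div (by fun_prop) hne
    have := hc.tendsto.mono_left (nhdsWithin_le_nhds (s := Ioi 0))
    simpa using this

theorem herg_part_diff (h : Herg β) (S : Set ℝ) {ζ : ℂ} (hζ : 0 < ζ.im) :
    DifferentiableAt ℂ (fun w : ℂ => ∫ l in S, (sd β l : ℂ) / (w - l)) ζ := by
  have hs : {w : ℂ | ζ.im / 2 < w.im} ∈ 𝓝 ζ :=
    (isOpen_lt continuous_const Complex.continuous_im).mem_nhds (half_lt_self hζ)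
  have hn : ∀ (l : ℝ) (w : ℂ), ζ.im / 2 < w.im → ζ.im / 2 ≤ ‖w - l‖ := fun l w hw =>
    hw.le.trans (by simpa using Complex.im_le_norm (w - l))
  refine (hasDerivAt_integral_of_dominated_loc_of_deriv_le (μ := volume.restrict S)
    (F := fun (w : ℂ) (l : ℝ) => (sd β l : ℂ) / (w - l))
    (F' := fun (w : ℂ) (l : ℝ) => -((sd β l : ℂ) / (w - l) ^ 2))
    (bound := fun l => sd β l / (ζ.im / 2) ^ 2) hs
    (Eventually.of_forall fun w => herg_meas h w _) (h.rep hζ).1.integrableOn ?_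
    (Eventually.of_forall fun l w hw => ?_) (h.sd_integrable.div_const _).integrableOn
    (Eventually.of_forall fun l w hw => ?_)).2.differentiableAt
  · exact ((Complex.measurable_ofReal.comp h.sd_continuous.measurable).div
      ((measurable_const.sub Complex.measurable_ofReal).pow_const 2)).neg.aestronglyMeasurable
  · rw [norm_neg]
    refine herg_norm_div h (by positivity) ?_ l
    rw [norm_pow]
    exact pow_le_pow_left₀ (by positivity) (hn l w hw) 2
  · have hne : w - l ≠ 0 := norm_pos_iff.1 ((half_pos hζ).trans_le (hn l w hw))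
    have := (hasDerivAt_const w (sd β l : ℂ)).div ((hasDerivAt_id w).sub_const (l : ℂ)) hne
    refine this.congr_deriv ?_
    simp [neg_div]

/-- The part of `β` with poles on the positive axis,
`c ζ = ∫ l in Ioi 0, s l / (ζ - l) = β ζ - ∫ l in Iio 0, s l / (ζ - l)`.
Differentiability: differentiation under the integral sign (or Morera /
`DifferentiableOn` of parametric integrals, `hasDerivAt_integral_of_dominated_loc_of_deriv_le`).
Decay: for `Re ζ ≤ 0` use the first form and `|ζ - l| ≥ |ζ|`, for `Re ζ ≥ 0` the second form.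
Boundary values: dominated convergence, first form for `u < 0`, second form for `u > 0`. -/
theorem Herg.exists_pos_part (h : Herg β) : ∃ (c : ℂ → ℂ) (D : ℝ),
    (∀ ζ : ℂ, 0 < ζ.im → DifferentiableAt ℂ c ζ ∧ (c ζ).im ≤ 0 ∧ ‖c ζ‖ ≤ D / ‖ζ‖) ∧
    (∀ u : ℝ, 0 < u → Tendsto (fun e : ℝ => c (u + e * Complex.I)) (𝓝[>] 0)
      (𝓝 (β u - nn β u))) ∧
    ∀ y : ℝ, 0 < y → Tendsto (fun e : ℝ => c (-y + e * Complex.I)) (𝓝[>] 0) (𝓝 (-mm β y)) := by
  obtain ⟨C, hC0, hC⟩ := herg_bound h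
  have hM : 0 ≤ ∫ l, sd β l := integral_nonneg h.sd_nonneg
  have hsplit : ∀ ζ : ℂ, 0 < ζ.im → ∫ l in Ioi (0 : ℝ), (sd β l : ℂ) / (ζ - l) =
      β ζ - ∫ l in Iio (0 : ℝ), (sd β l : ℂ) / (ζ - l) := by
    intro ζ hζ
    obtain ⟨i1, e1⟩ := h.rep hζ
    rw [e1, ← intervalIntegral.integral_Iic_add_Ioi (b := 0) i1.integrableOn i1.integrableOn,
      integral_Iic_eq_integral_Iio, add_sub_cancel_left]
  refine ⟨fun ζ => ∫ l in Ioi (0 : ℝ), (sd β l : ℂ) / (ζ - l), C + ∫ l, sd β l,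
    fun ζ hζ => ⟨herg_part_diff h _ hζ, ?_, ?_⟩, fun u hu => ?_, fun y hy => ?_⟩
  · have := integral_im (h.rep hζ).1.integrableOn (μ := volume.restrict (Ioi (0 : ℝ)))
    simp only [RCLike.im_to_complex] at this
    show (∫ l in Ioi (0 : ℝ), (sd β l : ℂ) / (ζ - l)).im ≤ 0
    rw [← this]
    refine integral_nonpos fun l => ?_
    show ((sd β l : ℂ) / (ζ - l)).im ≤ 0
    rw [herg_im_div]
    have := h.sd_nonneg l
    exact neg_nonpos.2 (by positivity)
  · have hne : ζ ≠ 0 := by rintro rfl; simp at hζ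
    have h0 := norm_pos_iff.2 hne
    show ‖∫ l in Ioi (0 : ℝ), (sd β l : ℂ) / (ζ - l)‖ ≤ _
    rw [add_div]
    rcases le_total ζ.re 0 with hre | hre
    · refine (herg_part_le h measurableSet_Ioi hne fun l hl =>
        mul_nonpos_of_nonpos_of_nonneg hre (le_of_lt hl)).trans ?_
      exact le_add_of_nonneg_left (by positivity)
    · rw [hsplit ζ hζ]
      exact (norm_sub_le _ _).trans (add_le_add (hC ζ hζ.le hne)
        (herg_part_le h measurableSet_Iio hne fun l hl =>
          mul_nonpos_of_nonneg_of_nonpos hre (le_of_lt hl)))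
  · have h1 := herg_dc h (S := Iio 0) measurableSet_Iio (x := u) hu fun l hl => by
      have : l < 0 := hl
      rw [le_abs]; left; linarith
    have h2 : Tendsto (fun e : ℝ => β (u + e * Complex.I)) (𝓝[>] 0) (𝓝 (β u)) := by
      have hc : ContinuousAt (fun e : ℝ => β (u + e * Complex.I)) 0 :=
        ContinuousAt.comp (f := fun e : ℝ => (u : ℂ) + e * Complex.I)
          (h.diff _ (by simp)).continuousAt (by fun_prop)
      have := hc.tendsto.mono_left (nhdsWithin_le_nhds (s := Ioi 0))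
      simpa using this
    refine (h2.sub h1).congr' ?_
    filter_upwards [self_mem_nhdsWithin] with e he
    exact (hsplit _ (by simpa using he)).symm
  · have h1 := herg_dc h (S := Ioi 0) measurableSet_Ioi (x := -y) hy fun l hl => by
      have : 0 < l := hl
      rw [le_abs]; right; linarith
    have e : ∫ l in Ioi (0 : ℝ), sd β l / (-y - l) = -mm β y := by
      unfold mm
      rw [← integral_neg]
      congr 1
      funext l
      rw [← div_neg]
      congr 1
      ring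
    rw [e] at h1
    simpa using h1

end Crest.Agent.R109
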