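import Crest.Agent.R109.Zero

/-!
# R109: locality of the expansion in `x`
-/

set_option autoImplicit false
open Finset Filter Topology Asymptotics

namespace Crest.Agent.R109

/-- A polynomial in `y_0, …, y_K` vanishing whenever one variable vanishes is `O(x^(K+1))` on the
diagonal: `MvPolynomial.funext` shows that substituting `0` for `y_j` kills `D`, so every monomial
in the support contains `y_j`; hence every monomial has degree `≥ K + 1`. -/
theorem isBigO_diag {K : ℕ} (D : MvPolynomial (Fin (K + 1)) ℂ)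
    (h : ∀ (y : Fin (K + 1) → ℂ) (j : Fin (K + 1)), y j = 0 → MvPolynomial.eval y D = 0) :
    (fun x : ℂ => MvPolynomial.eval (fun _ => x) D) =O[𝓝 0] fun x => x ^ (K + 1) := by
  have key : ∀ d ∈ D.support, ∀ j, d j ≠ 0 := by
    intro d hd j hj
    have h1 : (∑ e ∈ D.support.filter (fun e => e j = 0), MvPolynomial.monomial e (D.coeff e)) = 0 := by
      apply MvPolynomial.funext
      intro y
      rw [map_zero, ← h (Function.update y j 0) j (Function.update_self _ _ _), map_sum,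
        MvPolynomial.eval_eq', sum_filter]
      refine sum_congr rfl fun e _ => ?_
      split_ifs with he
      · rw [MvPolynomial.eval_monomial, Finsupp.prod_fintype _ _ (by simp)]
        congr 1
        refine prod_congr rfl fun i _ => ?_
        by_cases hi : i = j
        · subst hi; rw [he, pow_zero, pow_zero]
        · rw [Function.update_of_ne hi]
      · rw [prod_eq_zero (mem_univ j) (by rw [Function.update_self, zero_pow he]), mul_zero]
    have h2 := congrArg (MvPolynomial.coeff d) h1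
    rw [MvPolynomial.coeff_sum, sum_eq_single d, MvPolynomial.coeff_monomial, if_pos rfl,
      MvPolynomial.coeff_zero] at h2
    · exact MvPolynomial.mem_support_iff.1 hd h2
    · intro e _ hne
      rw [MvPolynomial.coeff_monomial, if_neg hne]
    · intro hn
      exact absurd (mem_filter.2 ⟨hd, hj⟩) hn
  simp only [MvPolynomial.eval_eq']
  refine IsBigO.fun_sum fun d hd => IsBigO.const_mul_left ?_ _
  have h1 : K + 1 ≤ ∑ i, d i := by
    calc K + 1 = ∑ _i : Fin (K + 1), 1 := by simp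
      _ ≤ _ := sum_le_sum fun i _ => Nat.one_le_iff_ne_zero.2 (key d hd i)
  obtain ⟨r, hr⟩ := Nat.exists_eq_add_of_le' h1
  simp only [prod_pow_eq_pow_sum, hr, pow_add _ r]
  have h2 : (fun x : ℂ => x ^ r) =O[𝓝 0] fun _ => (1 : ℂ) :=
    (continuous_pow r).continuousAt.tendsto.isBigO_one ℂ
  simpa using h2.mul (isBigO_refl (fun x : ℂ => x ^ (K + 1)) (𝓝 0))

variable {V ι : Type*} [DecidableEq V] [Fintype ι] [DecidableEq ι]

/-- `ZG` with a vertex dependent coupling. -/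
noncomputable def ZY (a : V → V → ℂ) (y : V → ℂ) (Λ : Finset V) (k : V → Option (Finset ι))
    (z : V → ℂ) : ℂ :=
  Q Λ (fun w => wG (y w) (z w) (k w)) (mn a)

/-- `ZY` is a polynomial in the couplings (`Q` over `MvPolynomial`, `Q_map`). -/
theorem exists_ZY_poly {σ : Type*} (a : V → V → ℂ) (f : V → σ) (Λ : Finset V)
    (k : V → Option (Finset ι)) (z : V → ℂ) : ∃ P : MvPolynomial σ ℂ, ∀ y : σ → ℂ,
      MvPolynomial.eval y P = ZY a (fun w => y (f w)) Λ k z := by
  let ω : V → Finset ι → MvPolynomial σ ℂ := fun w =>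
    match k w with
    | none => wA 1 fun _ => MvPolynomial.X (f w) * MvPolynomial.C ((Fintype.card ι * z w)⁻¹)
    | some P => wP fun i => if i ∈ P then MvPolynomial.X (f w) * MvPolynomial.C (z w)⁻¹ else 0
  refine ⟨Q Λ ω fun S => MvPolynomial.C (mn a S), fun y => ?_⟩
  rw [Q_map, ZY]
  refine Q_congr (fun w _ => ?_) fun S _ => MvPolynomial.eval_C _
  funext T
  simp only [ω]
  cases k w with
  | none => simp only [wG, map_wA, map_one, map_mul, MvPolynomial.eval_X, MvPolynomial.eval_C, div_eq_mul_inv]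
  | some P =>
    simp only [wG, wP, map_prod, apply_ite (MvPolynomial.eval y), map_mul, MvPolynomial.eval_X,
      MvPolynomial.eval_C, map_zero, div_eq_mul_inv]

/-- A vertex with zero coupling is a deleted vertex: remove those (weights `wA 1 0`,
`Q_erase_zero`) and factor (`Q_split`, `mn_split`). -/
theorem ZY_split {a : V → V → ℂ} {y : V → ℂ} {Λ U : Finset V} (k : V → Option (Finset ι))
    (z : V → ℂ) (h : ∀ p ∈ Λ, ∀ q ∈ Λ, p ∈ U → q ∉ U → y p ≠ 0 → y q ≠ 0 → a p q = 0) :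
    ZY a y Λ k z = ZY a y (Λ ∩ U) k z * ZY a y (Λ \ U) k z := by
  classical
  have key : ∀ Λ₀ : Finset V, ZY a y Λ₀ k z =
      ZG a 1 Λ₀ (fun w => if y w = 0 then some ∅ else k w) fun w => z w / y w := by
    intro Λ₀
    refine Q_congr (fun w _ => ?_) fun _ _ => rfl
    by_cases hw : y w = 0
    · simp only [hw, if_true, zero_wG_zero, zero_wG_del]
    · simp only [hw, if_false]
      cases k w with
      | none => simp only [wG, ← mul_div_assoc, one_div_div]
      | some P => simp only [wG, one_div_div]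
  rw [key, key, key]
  refine ZG_split fun p hp q hq hpU hqU h1 h2 => h p hp q hq hpU hqU ?_ ?_
  · exact fun h0 => h1 (if_pos h0)
  · exact fun h0 => h2 (if_pos h0)

/-- Locality. Give the vertex `w` the coupling `y (min (ℓ w) K)`; the expression is then a
polynomial `D(y)`. Suppose `y j = 0`. If `j = 0` then `v` has zero coupling and both products
agree. Otherwise split with `U = {w ∈ Λ | ℓ w < j}` (`ZY_split`: an edge from `ℓ p < j` leads to
`ℓ q ≤ j ≤ K`, so `q ∈ U` or `q` has zero coupling); `U ⊆ Λ'`, `v ∈ U`, and both products are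
`Z(U) Z(Λ \ U) Z(U.erase v) Z(Λ' \ U)`. Conclude by `isBigO_diag`. -/
theorem ZG_loc {a : V → V → ℂ} {Λ Λ' : Finset V} {v : V} {K : ℕ} (k : V → Option (Finset ι))
    (z : V → ℂ) (hΛ : Λ' ⊆ Λ) (hv : v ∈ Λ') (ℓ : V → ℕ) (h0 : ℓ v = 0)
    (hℓ : ∀ p ∈ Λ, ∀ q ∈ Λ, a p q ≠ 0 → ℓ q ≤ ℓ p + 1) (hK : ∀ w ∈ Λ, w ∉ Λ' → K ≤ ℓ w) :
    (fun x : ℂ => ZG a x Λ k z * ZG a x (Λ'.erase v) k z -
      ZG a x (Λ.erase v) k z * ZG a x Λ' k z) =O[𝓝 0] fun x => x ^ (K + 1) := by
  let f : V → Fin (K + 1) := fun w => ⟨min (ℓ w) K, Nat.lt_succ_of_le (min_le_right _ _)⟩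
  obtain ⟨P₁, h₁⟩ := exists_ZY_poly a f Λ k z
  obtain ⟨P₂, h₂⟩ := exists_ZY_poly a f (Λ'.erase v) k z
  obtain ⟨P₃, h₃⟩ := exists_ZY_poly a f (Λ.erase v) k z
  obtain ⟨P₄, h₄⟩ := exists_ZY_poly a f Λ' k z
  have key := isBigO_diag (P₁ * P₂ - P₃ * P₄) fun y j hj => by
    rw [map_sub, map_mul, map_mul, h₁, h₂, h₃, h₄, sub_eq_zero]
    have hjK : (j : ℕ) ≤ K := Nat.le_of_lt_succ j.2
    by_cases hj0 : (j : ℕ) = 0
    · have hv0 : y (f v) = 0 := by
        rw [← hj]; congr 1; ext; simp [f, h0, hj0]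
      have e : ∀ Λ₀ : Finset V, ZY a (fun w => y (f w)) Λ₀ k z = ZY a (fun w => y (f w)) (Λ₀.erase v) k z :=
        fun Λ₀ => Q_erase_zero _ (by simp only [hv0, zero_wG_zero])
      rw [e Λ, e Λ']
    · set U := Λ.filter fun w => ℓ w < j with hU
      have e : ∀ Λ₀ ⊆ Λ, ZY a (fun w => y (f w)) Λ₀ k z =
          ZY a (fun w => y (f w)) (Λ₀ ∩ U) k z * ZY a (fun w => y (f w)) (Λ₀ \ U) k z := by
        intro Λ₀ hs
        refine ZY_split k z fun p hp q hq hpU hqU _ hq0 => ?_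
        by_contra hne
        have b1 := hℓ p (hs hp) q (hs hq) hne
        have b2 := (mem_filter.1 hpU).2
        have b3 : ¬ ℓ q < j := fun h => hqU (mem_filter.2 ⟨hs hq, h⟩)
        refine hq0 ?_
        rw [← hj]; congr 1; ext
        simp only [f]
        omega
      have hUΛ : ∀ w ∈ U, w ∈ Λ ∧ w ∈ Λ' := fun w hw => by
        obtain ⟨b1, b2⟩ := mem_filter.1 hw
        refine ⟨b1, by_contra fun hn => ?_⟩
        have := hK w b1 hn
        omega
      have hvU : v ∈ U := mem_filter.2 ⟨hΛ hv, by omega⟩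
      have s1 : Λ' ∩ U = Λ ∩ U := by
        ext w; simp only [mem_inter]; have := hUΛ w; tauto
      have s2 : Λ'.erase v ∩ U = Λ.erase v ∩ U := by
        ext w; simp only [mem_inter, mem_erase]; have := hUΛ w; tauto
      have s3 : ∀ Λ₀ : Finset V, Λ₀.erase v \ U = Λ₀ \ U := by
        intro Λ₀
        ext w
        rw [Finset.mem_sdiff, Finset.mem_sdiff, mem_erase]
        refine ⟨fun h => ⟨h.1.2, h.2⟩, fun h => ⟨⟨?_, h.1⟩, h.2⟩⟩
        rintro rfl
        exact h.2 hvU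
      rw [e Λ (Subset.refl _), e (Λ'.erase v) ((erase_subset _ _).trans hΛ), e (Λ.erase v) (erase_subset _ _),
        e Λ' hΛ, s1, s2, s3, s3]
      ring
  simp only [map_sub, map_mul, h₁, h₂, h₃, h₄] at key
  exact key

/-- Passing to logarithms: the four functions tend to `1` at `0`, and `log` is Lipschitz near
`1` (`f₁/f₂ - f₃/f₄ = (f₁ f₄ - f₂ f₃) / (f₂ f₄)`). -/
theorem log_isBigO {f₁ f₂ f₃ f₄ g : ℂ → ℂ} (h₁ : Tendsto f₁ (𝓝 0) (𝓝 1))
    (h₂ : Tendsto f₂ (𝓝 0) (𝓝 1)) (h₃ : Tendsto f₃ (𝓝 0) (𝓝 1)) (h₄ : Tendsto f₄ (𝓝 0) (𝓝 1))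
    (h : (fun x => f₁ x * f₄ x - f₂ x * f₃ x) =O[𝓝 0] g) :
    (fun x => Complex.log (f₁ x / f₂ x) - Complex.log (f₃ x / f₄ x)) =O[𝓝 0] g := by
  have t1 : Tendsto (fun x => f₁ x / f₂ x) (𝓝 0) (𝓝 1) := by
    have := h₁.div h₂ one_ne_zero
    rwa [div_one] at this
  have t2 : Tendsto (fun x => f₃ x / f₄ x) (𝓝 0) (𝓝 1) := by
    have := h₃.div h₄ one_ne_zero
    rwa [div_one] at this
  have b1 := (Complex.hasStrictDerivAt_log Complex.one_mem_slitPlane).hasStrictFDerivAt.isBigO_sub.comp_tendsto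
    (t1.prodMk_nhds t2)
  have t3 : Tendsto (fun x => (f₂ x * f₄ x)⁻¹) (𝓝 0) (𝓝 (1 * 1)⁻¹) := (h₂.mul h₄).inv₀ (by simp)
  have b2 := h.mul (t3.isBigO_one ℂ)
  refine b1.trans (b2.congr' ?_ (Eventually.of_forall fun x => mul_one _))
  filter_upwards [h₂.eventually_ne one_ne_zero, h₄.eventually_ne one_ne_zero] with x e2 e4
  simp only [Function.comp_apply]
  field_simp

/-- The cocycle identity near `0` (`Complex.log_mul` type lemmas: all arguments are small). -/
theorem log_cocycle {f₁ f₂ f₃ f₄ : ℂ → ℂ} (h₁ : Tendsto f₁ (𝓝 0) (𝓝 1))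
    (h₂ : Tendsto f₂ (𝓝 0) (𝓝 1)) (h₃ : Tendsto f₃ (𝓝 0) (𝓝 1)) (h₄ : Tendsto f₄ (𝓝 0) (𝓝 1)) :
    ∀ᶠ x in 𝓝 (0 : ℂ), Complex.log (f₁ x / f₂ x) + Complex.log (f₂ x / f₄ x) =
      Complex.log (f₁ x / f₃ x) + Complex.log (f₃ x / f₄ x) := by
  have key : ∀ {f g : ℂ → ℂ}, Tendsto f (𝓝 0) (𝓝 1) → Tendsto g (𝓝 0) (𝓝 1) →
      ∀ᶠ x in 𝓝 (0 : ℂ), |(f x / g x).arg| < Real.pi / 2 := by
    intro f g hf hg
    have t1 : Tendsto (fun x => (f x / g x).re) (𝓝 0) (𝓝 1) := by
      have := (Complex.continuous_re.tendsto _).comp (hf.div hg one_ne_zero)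
      rwa [div_one] at this
    filter_upwards [t1.eventually (lt_mem_nhds one_pos)] with x hx
    exact Complex.abs_arg_lt_pi_div_two_iff.2 (Or.inl hx)
  have hmul : ∀ u w : ℂ, u ≠ 0 → w ≠ 0 → |u.arg| < Real.pi / 2 → |w.arg| < Real.pi / 2 →
      Complex.log u + Complex.log w = Complex.log (u * w) := by
    intro u w hu hw h1 h2
    obtain ⟨a1, a2⟩ := abs_lt.1 h1
    obtain ⟨a3, a4⟩ := abs_lt.1 h2
    exact ((Complex.log_mul_eq_add_log_iff hu hw).2 ⟨by linarith, by linarith⟩).symm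
  filter_upwards [key h₁ h₂, key h₂ h₄, key h₁ h₃, key h₃ h₄, h₁.eventually_ne one_ne_zero,
    h₂.eventually_ne one_ne_zero, h₃.eventually_ne one_ne_zero, h₄.eventually_ne one_ne_zero]
    with x k1 k2 k3 k4 e1 e2 e3 e4
  rw [hmul _ _ (div_ne_zero e1 e2) (div_ne_zero e2 e4) k1 k2,
    hmul _ _ (div_ne_zero e1 e3) (div_ne_zero e3 e4) k3 k4, div_mul_div_cancel₀ e2, div_mul_div_cancel₀ e3]

end Crest.Agent.R109
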