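import Crest.Agent.R109.JDef
import Crest.Agent.R109.Loc

/-!
# R109: algebraic properties of `jT`, the potential `FF`
-/

set_option autoImplicit false
open Finset Filter Topology MeasureTheory Complex

namespace Crest.Agent.R109

variable {V ι : Type*} [DecidableEq V] [Fintype ι] [DecidableEq ι]

/-- Sum of the increments along an enumeration. -/
noncomputable def FL (t η : ℝ) (K : ℕ) (a : V → V → ℂ) (wt : V → ℝ) (σ : V → St ι) :
    List V → ℝ
  | [] => 0
  | v :: l => jT t η K a wt (insert v l.toFinset) σ v + FL t η K a wt σ l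

/-- The potential of a finite configuration. -/
noncomputable def FF (t η : ℝ) (K : ℕ) (a : V → V → ℂ) (wt : V → ℝ) (Λ : Finset V)
    (σ : V → St ι) : ℝ :=
  FL t η K a wt σ Λ.toList

/-- Delete the vertices of class larger than `n`. -/
def cut (cl : V → ℕ) (n : ℕ) (σ : V → St ι) : V → St ι :=
  fun p => if cl p ≤ n then σ p else .del

variable {t η : ℝ} {K : ℕ} {a : V → V → ℂ} {wt wt' : V → ℝ} {Λ Λ' : Finset V}
  {σ σ' : V → St ι} {v w : V}

omit [DecidableEq V] in
/-- Extend test vectors by `Function.extend` and use `Finset.sum_map`. -/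
theorem Herm.comp (h : Herm a) {V' : Type*} (f : V' ↪ V) : Herm fun p q => a (f p) (f q) := by
  classical
  refine ⟨fun p q => h.herm _ _, fun p => h.diag _, fun S η ζ => ?_⟩
  have := h.contr (S.map f) (Function.extend f η 0) (Function.extend f ζ 0)
  simpa only [sum_map, f.injective.extend_apply] using this

omit [DecidableEq V] in
theorem Herm.gauge (h : Herm a) {γ : V → ℂ} (hγ : ∀ p, ‖γ p‖ = 1) :
    Herm fun p q => (starRingEnd ℂ) (γ p) * γ q * a p q := by
  refine ⟨fun p q => ?_, fun p => by rw [h.diag, mul_zero], fun S η ζ => ?_⟩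
  · rw [h.herm p q, map_mul, map_mul, Complex.conj_conj]; ring
  · have := h.contr S (fun p => γ p * η p) fun p => γ p * ζ p
    simp only [norm_mul, hγ, one_mul] at this
    convert this using 5 with p _ q _
    rw [map_mul]; ring

theorem jt_ext' {V' : Type*} [DecidableEq V'] {a' : V' → V' → ℂ} {v' : V'} {wt' : V' → ℝ}
    {Λ' : Finset V'} {σ' : V' → St ι}
    (h : ∀ u, TT (η / 4) K (ell t η a wt Λ σ v u) = TT (η / 4) K (ell t η a' wt' Λ' σ' v' u)) :
    jT t η K a wt Λ σ v = jT t η K a' wt' Λ' σ' v' := by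
  simp only [jT, h]

theorem jt_ext {V' : Type*} [DecidableEq V'] {a' : V' → V' → ℂ} {v' : V'} {wt' : V' → ℝ}
    {Λ' : Finset V'} {σ' : V' → St ι}
    (h : ∀ u x, ell t η a wt Λ σ v u x = ell t η a' wt' Λ' σ' v' u x) :
    jT t η K a wt Λ σ v = jT t η K a' wt' Λ' σ' v' :=
  jt_ext' fun u => by
    rw [show ell t η a wt Λ σ v u = ell t η a' wt' Λ' σ' v' u from funext (h u)]

theorem jt_zero (h : ∀ (u : ℝ) x, Zf t η a wt Λ σ u x = Zf t η a wt (Λ.erase v) σ u x) :
    jT t η K a wt Λ σ v = 0 := by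
  have e : ∀ u, ell t η a wt Λ σ v u = fun _ => 0 := by
    intro u
    funext x
    rw [ell, h]
    by_cases h0 : Zf t η a wt (Λ.erase v) σ u x = 0
    · rw [h0, div_zero, log_zero]
    · rw [div_self h0, log_one]
  simp only [jT, e, TT_zero, zero_im, integral_zero]

theorem jt_FL_ext {a' : V → V → ℂ}
    (h : ∀ Λ₀ ⊆ Λ, ∀ v, jT t η K a wt Λ₀ σ v = jT t η K a' wt' Λ₀ σ' v) (l : List V)
    (hl : l.toFinset ⊆ Λ) : FL t η K a wt σ l = FL t η K a' wt' σ' l := by
  induction l with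
  | nil => rfl
  | cons v l ih =>
    rw [List.toFinset_cons] at hl
    rw [FL, FL, h _ hl, ih ((subset_insert _ _).trans hl)]

/-- The ratio is `z / z ∈ {0, 1}` and `log 0 = log 1 = 0`; `TT_zero`. -/
theorem jT_of_notMem (hv : v ∉ Λ) : jT t η K a wt Λ σ v = 0 := by
  refine jt_zero fun u x => ?_
  rw [erase_eq_of_notMem hv]

theorem jT_del (hv : σ v = .del) : jT t η K a wt Λ σ v = 0 := by
  exact jt_zero fun u x => ZG_erase_del (by rw [hv]; rfl)

theorem jT_congr (hσ : ∀ p ∈ Λ, σ p = σ' p) (hw : ∀ p ∈ Λ, wt p = wt' p) :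
    jT t η K a wt Λ σ v = jT t η K a wt' Λ σ' v := by
  have e : ∀ Λ₀ ⊆ Λ, ∀ ζ x, Zf t η a wt Λ₀ σ ζ x = Zf t η a wt' Λ₀ σ' ζ x := fun Λ₀ hs ζ x =>
    ZG_congr (fun w hw => by rw [hσ w (hs hw)]) fun w hw' => by
      simp only [ht, hσ w (hs hw'), hw w (hs hw')]
  refine jt_ext fun u x => ?_
  rw [ell, ell, e Λ (Subset.refl _), e _ (erase_subset _ _)]

theorem jT_filter (p : V → Prop) [DecidablePred p] (h : ∀ w ∈ Λ, ¬ p w → σ w = .del) :
    jT t η K a wt Λ σ v = jT t η K a wt (Λ.filter p) σ v := by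
  have e : ∀ Λ₀ ⊆ Λ, ∀ ζ x, Zf t η a wt Λ₀ σ ζ x = Zf t η a wt (Λ₀.filter p) σ ζ x :=
    fun Λ₀ hs ζ x => ZG_filter p fun w hw hp => by rw [h w (hs hw) hp]; rfl
  refine jt_ext fun u x => ?_
  rw [ell, ell, e Λ (Subset.refl _), e _ (erase_subset _ _), filter_erase]

/-- `ell` for `c * wt` at `u` is `ell` for `wt` at `u / c`; `integral_comp_mul_left_Ioi`. -/
theorem jT_scale {c : ℝ} (hc : 0 < c) :
    jT t η K a (fun p => c * wt p) Λ σ v = c * jT t η K a wt Λ σ v := by
  have e : ∀ u : ℝ, ell t η a (fun p => c * wt p) Λ σ v u = ell t η a wt Λ σ v (c⁻¹ * u) := by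
    intro u
    have e1 : ht t η (fun p => c * wt p) σ u = ht t η wt σ ((c⁻¹ * u : ℝ) : ℂ) := by
      funext w
      simp only [ht]
      push_cast
      rw [div_mul_eq_div_div, div_eq_inv_mul (u : ℂ)]
    funext x
    simp only [ell, Zf, e1]
  simp only [jT, e]
  have := integral_comp_mul_left_Ioi (fun u : ℝ => (TT (η / 4) K (ell t η a wt Λ σ v u)).im) 0
    (inv_pos.2 hc)
  rw [this, inv_inv, mul_zero, smul_eq_mul]

theorem jT_relabel {V' : Type*} [DecidableEq V'] (f : V' ↪ V) (Λ : Finset V') (v : V') :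
    jT t η K a wt (Λ.map f) σ (f v) =
      jT t η K (fun p q => a (f p) (f q)) (fun p => wt (f p)) Λ (fun p => σ (f p)) v := by
  refine jt_ext fun u x => ?_
  simp only [ell, Zf]
  rw [← map_erase, ZG_relabel, ZG_relabel]
  rfl

theorem jT_gauge {a' : V → V → ℂ} {γ : V → ℂ} (hγ : ∀ p ∈ Λ, ‖γ p‖ = 1)
    (h : ∀ p ∈ Λ, ∀ q ∈ Λ, a p q = (starRingEnd ℂ) (γ p) * γ q * a' p q) :
    jT t η K a wt Λ σ v = jT t η K a' wt Λ σ v := by
  have e : ∀ Λ₀ ⊆ Λ, ∀ ζ x, Zf t η a wt Λ₀ σ ζ x = Zf t η a' wt Λ₀ σ ζ x := fun Λ₀ hs ζ x =>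
    ZG_gauge (fun p hp => hγ p (hs hp)) fun p hp q hq => h p (hs hp) q (hs hq)
  refine jt_ext fun u x => ?_
  rw [ell, ell, e Λ (Subset.refl _), e _ (erase_subset _ _)]

theorem FF_empty : FF t η K a wt ∅ σ = 0 := by
  rw [FF, toList_empty]; rfl

theorem FF_congr (hσ : ∀ p ∈ Λ, σ p = σ' p) (hw : ∀ p ∈ Λ, wt p = wt' p) :
    FF t η K a wt Λ σ = FF t η K a wt' Λ σ' := by
  exact jt_FL_ext (Λ := Λ) (fun Λ₀ hs v =>
    jT_congr (fun p hp => hσ p (hs hp)) fun p hp => hw p (hs hp)) _ (by simp)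

theorem FF_gauge {a' : V → V → ℂ} {γ : V → ℂ} (hγ : ∀ p ∈ Λ, ‖γ p‖ = 1)
    (h : ∀ p ∈ Λ, ∀ q ∈ Λ, a p q = (starRingEnd ℂ) (γ p) * γ q * a' p q) :
    FF t η K a wt Λ σ = FF t η K a' wt Λ σ := by
  exact jt_FL_ext (Λ := Λ) (fun Λ₀ hs v =>
    jT_gauge (fun p hp => hγ p (hs hp)) fun p hp q hq => h p (hs hp) q (hs hq)) _ (by simp)

variable [Nonempty ι]

omit [Nonempty ι] in
theorem Ok.jt_tendsto (h : Ok t η a wt) (Λ : Finset V) (σ : V → St ι) (u : ℝ) :
    Tendsto (fun x => Zf t η a wt Λ σ u x) (𝓝 0) (𝓝 1) := by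
  have h1 : ContinuousAt (fun x => Zf t η a wt Λ σ u x) 0 :=
    ZG_continuousAt (a := fun _ => a) (x := fun x => x) (z := fun _ => ht t η wt σ u)
      (fun _ _ _ _ => continuousAt_const) continuousAt_id (fun _ _ => continuousAt_const)
      fun w _ h0 => by
        have := h.le_im_ht (ζ := u) (by simp) σ w
        rw [h0, zero_im] at this
        linarith [h.η_pos]
  have h2 : Zf t η a wt Λ σ u 0 = 1 := ZG_zero
  rw [← h2]
  exact h1

/-- `ZG_split` for `Λ` and `Λ.erase v`, cancel the nonzero common factor, `TT_congr`. -/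
theorem Ok.jT_split (h : Ok t η a wt) {U : Finset V} (hv : v ∈ U)
    (hU : ∀ p ∈ Λ, ∀ q ∈ Λ, p ∈ U → q ∉ U → σ p ≠ .del → σ q ≠ .del → a p q = 0) :
    jT t η K a wt Λ σ v = jT t η K a wt (Λ ∩ U) σ v := by
  have e : ∀ Λ₀ ⊆ Λ, ∀ ζ x, Zf t η a wt Λ₀ σ ζ x =
      Zf t η a wt (Λ₀ ∩ U) σ ζ x * Zf t η a wt (Λ₀ \ U) σ ζ x := fun Λ₀ hs ζ x =>
    ZG_split fun p hp q hq h1 h2 h3 h4 => hU p (hs hp) q (hs hq) h1 h2
      (fun e => h3 (by rw [e]; rfl)) fun e => h4 (by rw [e]; rfl)
  have s1 : Λ.erase v ∩ U = (Λ ∩ U).erase v := erase_inter _ _ _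
  have s2 : Λ.erase v \ U = Λ \ U := by
    ext w
    rw [Finset.mem_sdiff, Finset.mem_sdiff, mem_erase]
    refine ⟨fun h => ⟨h.1.2, h.2⟩, fun h => ⟨⟨?_, h.1⟩, h.2⟩⟩
    rintro rfl
    exact h.2 hv
  refine jt_ext' fun u => ?_
  refine TT_congr (by linarith [h.η_pos]) fun x hx => ?_
  have hx' : |x.im| < η := by
    have : |x.im| < 2 * (η / 4) := hx
    linarith [h.η_pos]
  rw [ell, ell, e Λ (Subset.refl _), e _ (erase_subset _ _), s1, s2,
    mul_div_mul_right _ _ (h.Zf_ne_zero (by simp) hx')]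

/-- Exact locality: `ZG_loc`, `log_isBigO` (`ZG_zero`, `ZG_continuousAt`), `TT_sub`,
`TT_eq_zero`. -/
theorem Ok.jT_loc (h : Ok t η a wt) (hΛ : Λ' ⊆ Λ) (hv : v ∈ Λ') (ℓ : V → ℕ) (h0 : ℓ v = 0)
    (hℓ : ∀ p ∈ Λ, ∀ q ∈ Λ, a p q ≠ 0 → ℓ q ≤ ℓ p + 1) (hK : ∀ w ∈ Λ, w ∉ Λ' → K ≤ ℓ w) :
    jT t η K a wt Λ σ v = jT t η K a wt Λ' σ v := by
  have hc : 0 < η / 4 := by linarith [h.η_pos]
  refine jt_ext' fun u => ?_
  rw [← sub_eq_zero, ← TT_sub hc (h.ell_differentiableOn u) (h.ell_differentiableOn u)]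
  refine TT_eq_zero hc ((h.ell_differentiableOn u).sub (h.ell_differentiableOn u)) ?_
  exact log_isBigO (h.jt_tendsto Λ σ u) (h.jt_tendsto _ σ u) (h.jt_tendsto Λ' σ u)
    (h.jt_tendsto _ σ u) (ZG_loc _ _ hΛ hv ℓ h0 hℓ hK)

/-- `log_cocycle` (`Finset.erase_right_comm`), `TT_add`, `TT_sub`, `TT_eq_zero`, `integral_add`. -/
theorem Ok.jT_cocycle (h : Ok t η a wt) (v w : V) :
    jT t η K a wt Λ σ v + jT t η K a wt (Λ.erase v) σ w =
      jT t η K a wt Λ σ w + jT t η K a wt (Λ.erase w) σ v := by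
  have hc : 0 < η / 4 := by linarith [h.η_pos]
  unfold jT
  rw [← integral_add h.jT_integrable h.jT_integrable,
    ← integral_add h.jT_integrable h.jT_integrable]
  refine integral_congr_ae (ae_of_all _ fun u => ?_)
  dsimp only
  have d1 := h.ell_differentiableOn (Λ := Λ) (σ := σ) (v := v) u
  have d2 := h.ell_differentiableOn (Λ := Λ.erase v) (σ := σ) (v := w) u
  have d3 := h.ell_differentiableOn (Λ := Λ) (σ := σ) (v := w) u
  have d4 := h.ell_differentiableOn (Λ := Λ.erase w) (σ := σ) (v := v) u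
  rw [← add_im, ← add_im, ← TT_add hc d1 d2, ← TT_add hc d3 d4]
  refine congrArg im ?_
  rw [← sub_eq_zero, ← TT_sub hc (d1.fun_add d2) (d3.fun_add d4)]
  refine TT_eq_zero hc ((d1.fun_add d2).fun_sub (d3.fun_add d4)) ?_
  refine (Asymptotics.isBigO_zero _ _).congr' ?_ EventuallyEq.rfl
  filter_upwards [log_cocycle (h.jt_tendsto Λ σ u) (h.jt_tendsto (Λ.erase v) σ u)
    (h.jt_tendsto (Λ.erase w) σ u) (h.jt_tendsto ((Λ.erase v).erase w) σ u)] with x hx
  simp only [ell]
  rw [hx, erase_right_comm, sub_self]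

theorem Ok.jt_FL_perm (h : Ok t η a wt) {l l' : List V} (hp : l.Perm l') (hl : l.Nodup) :
    FL t η K a wt σ l = FL t η K a wt σ l' := by
  induction hp with
  | nil => rfl
  | cons x hp ih => rw [FL, FL, ih hl.of_cons, List.toFinset_eq_of_perm _ _ hp]
  | swap x y l =>
    simp only [List.nodup_cons, List.mem_cons, not_or] at hl
    have hx : x ∉ insert y l.toFinset := by
      simp only [mem_insert, List.mem_toFinset, not_or]
      exact ⟨fun e => hl.1.1 e.symm, hl.2.1⟩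
    have hy : y ∉ insert x l.toFinset := by
      simp only [mem_insert, List.mem_toFinset, not_or]
      exact hl.1
    have := h.jT_cocycle (K := K) (Λ := insert y (insert x l.toFinset)) (σ := σ) y x
    rw [erase_insert hy] at this
    conv_rhs at this => rw [Finset.insert_comm, erase_insert hx]
    simp only [FL, List.toFinset_cons]
    linarith
  | trans h1 _ ih1 ih2 => rw [ih1 hl, ih2 (h1.nodup_iff.1 hl)]

/-- `FL` is invariant under permutations of lists without duplicates (`List.Perm` induction, the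
swap is `jT_cocycle`); `Λ.toList ~ v :: (Λ.erase v).toList`. -/
theorem Ok.FF_erase (h : Ok t η a wt) (hv : v ∈ Λ) :
    FF t η K a wt Λ σ = jT t η K a wt Λ σ v + FF t η K a wt (Λ.erase v) σ := by
  have h1 : Λ.toList.Perm (v :: (Λ.erase v).toList) := by
    have := toList_insert (notMem_erase v Λ)
    rwa [insert_erase hv] at this
  rw [FF, h.jt_FL_perm h1 Λ.nodup_toList, FL, toList_toFinset, insert_erase hv, FF]

theorem Ok.FF_relabel (h : Ok t η a wt) {V' : Type*} [DecidableEq V'] (f : V' ↪ V)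
    (Λ : Finset V') : FF t η K a wt (Λ.map f) σ =
      FF t η K (fun p q => a (f p) (f q)) (fun p => wt (f p)) Λ fun p => σ (f p) := by
  have h' : Ok t η (fun p q => a (f p) (f q)) fun p => wt (f p) :=
    ⟨h.t_pos, h.η_pos, h.herm.comp f, fun _ => h.pos _⟩
  induction Λ using Finset.induction_on with
  | empty => rw [map_empty, FF_empty, FF_empty]
  | insert v s hv ih =>
    rw [h.FF_erase (mem_map_of_mem f (mem_insert_self v s)), h'.FF_erase (mem_insert_self v s),
      jT_relabel, ← map_erase, erase_insert hv, ih]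

theorem Ok.FF_update (h : Ok t η a wt) (hv : v ∈ Λ) (hσ : ∀ p ∈ Λ, p ≠ v → σ p = σ' p) :
    FF t η K a wt Λ σ' - FF t η K a wt Λ σ = jT t η K a wt Λ σ' v - jT t η K a wt Λ σ v := by
  rw [h.FF_erase hv, h.FF_erase hv, FF_congr (Λ := Λ.erase v) (σ := σ) (σ' := σ') (wt' := wt)
    (fun p hp => hσ p (mem_of_mem_erase hp) (ne_of_mem_erase hp)) fun _ _ => rfl]
  ring

theorem Ok.jT_eq_FF_sub (h : Ok t η a wt) (hv : v ∈ Λ) : jT t η K a wt Λ σ v =
    FF t η K a wt Λ σ - FF t η K a wt Λ (Function.update σ v .del) := by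
  have := h.FF_update (K := K) (σ := σ) (σ' := Function.update σ v .del) hv
    fun p _ hp => (Function.update_of_ne hp _ _).symm
  rw [jT_del (Function.update_self _ _ _)] at this
  linarith

/-- Telescoping in the order of the classes. Induction on `Λ`, removing a vertex `v` of maximal
class (`Finset.induction_on_max_value`): the cut at `cl v` changes nothing; for `w ≠ v` the vertex
`v` is deleted in the cut at `cl w` (`jT_filter`) or has the same class as `w` (`jT_loc`). -/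
theorem Ok.FF_tele (h : Ok t η a wt) (cl : V → ℕ) (ℓ : V → V → ℕ) (h0 : ∀ w ∈ Λ, ℓ w w = 0)
    (hℓ : ∀ w ∈ Λ, ∀ p ∈ Λ, ∀ q ∈ Λ, a p q ≠ 0 → ℓ w q ≤ ℓ w p + 1)
    (hK : ∀ w ∈ Λ, ∀ w' ∈ Λ, w ≠ w' → cl w = cl w' → K ≤ ℓ w w') :
    FF t η K a wt Λ σ = ∑ w ∈ Λ, jT t η K a wt Λ (cut cl (cl w) σ) w := by
  induction Λ using Finset.induction_on_max_value cl with
  | empty => rw [FF_empty, sum_empty]
  | insert v s hv hmax ih =>
    have hs : s ⊆ insert v s := subset_insert _ _
    rw [h.FF_erase (mem_insert_self v s), erase_insert hv, sum_insert hv,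
      ih (fun w hw => h0 w (hs hw)) (fun w hw p hp q hq => hℓ w (hs hw) p (hs hp) q (hs hq))
        fun w hw w' hw' => hK w (hs hw) w' (hs hw')]
    refine congrArg₂ (· + ·) ?_ ?_
    · refine jT_congr (fun p hp => ?_) fun _ _ => rfl
      have : cl p ≤ cl v := by
        rcases mem_insert.1 hp with rfl | hp
        exacts [le_rfl, hmax p hp]
      simp only [cut, if_pos this]
    · refine sum_congr rfl fun w hw => ?_
      by_cases hc : cl v ≤ cl w
      · refine (h.jT_loc hs hw (ℓ w) (h0 w (hs hw)) (hℓ w (hs hw)) fun w' hw' hn => ?_).symm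
        have e : w' = v := (mem_insert.1 hw').resolve_right hn
        rw [e]
        exact hK w (hs hw) v (mem_insert_self _ _) (ne_of_mem_of_not_mem hw hv)
          (le_antisymm (hmax w hw) hc)
      · have e : (insert v s).filter (fun p => p ≠ v) = s := by
          rw [filter_ne', erase_insert hv]
        rw [jT_filter (Λ := insert v s) (fun p => p ≠ v) fun p _ hp => by
          rw [not_not.1 hp]; simp only [cut, if_neg hc], e]

theorem jt_cont_Ioi {E : Type*} [TopologicalSpace E] {f : E → ℝ → ℝ}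
    (hf : Continuous fun p : E × ℝ => f p.1 p.2)
    {s₀ : E} {g : ℝ → ℝ} (hg : IntegrableOn g (Set.Ioi 0))
    (hb : ∀ᶠ s in 𝓝 s₀, ∀ u, 0 < u → |f s u| ≤ g u) :
    ContinuousAt (fun s => ∫ u in Set.Ioi (0 : ℝ), f s u) s₀ := by
  refine Metric.continuousAt_iff'.2 fun ε hε => ?_
  obtain ⟨T, hT0, hT⟩ : ∃ T : ℝ, 0 < T ∧ ∫ u in Set.Ioi T, g u < ε / 3 := by
    have h1 := (intervalIntegral_tendsto_integral_Ioi 0 hg tendsto_id).eventually
      (lt_mem_nhds (show (∫ u in Set.Ioi (0 : ℝ), g u) - ε / 3 < _ by linarith))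
    obtain ⟨T, h2, h3⟩ := (h1.and (eventually_gt_atTop 0)).exists
    refine ⟨T, h3, ?_⟩
    have := intervalIntegral.integral_interval_add_Ioi hg (hg.mono_set (Set.Ioi_subset_Ioi h3.le))
    simp only [id] at h2
    linarith
  have hgT : IntegrableOn g (Set.Ioi T) := hg.mono_set (Set.Ioi_subset_Ioi hT0.le)
  have key : ∀ s, (∀ u, 0 < u → |f s u| ≤ g u) →
      |(∫ u in Set.Ioi (0 : ℝ), f s u) - ∫ u in (0 : ℝ)..T, f s u| < ε / 3 := by
    intro s hs
    have hc : Continuous (f s) := Continuous.uncurry_left (f := f) s hf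
    have h1 : IntegrableOn (f s) (Set.Ioi 0) :=
      hg.mono' hc.aestronglyMeasurable
        ((ae_restrict_iff' measurableSet_Ioi).2 (ae_of_all _ fun u hu => hs u hu))
    have h2 := intervalIntegral.integral_interval_add_Ioi h1
      (h1.mono_set (Set.Ioi_subset_Ioi hT0.le))
    have h3 : ‖∫ u in Set.Ioi T, f s u‖ ≤ ∫ u in Set.Ioi T, g u :=
      norm_integral_le_of_norm_le hgT
        ((ae_restrict_iff' measurableSet_Ioi).2 (ae_of_all _ fun u hu => hs u (hT0.trans hu)))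
    rw [← h2, add_sub_cancel_left]
    exact h3.trans_lt hT
  have hc := (intervalIntegral.continuous_parametric_intervalIntegral_of_continuous'
    (μ := volume) (f := f) hf 0 T).continuousAt (x := s₀)
  filter_upwards [hb, Metric.continuousAt_iff'.1 hc (ε / 3) (by linarith)] with s h1 h2
  have h3 := abs_lt.1 (key s h1)
  have h4 := abs_lt.1 (key s₀ hb.self_of_nhds)
  rw [Real.dist_eq] at h2 ⊢
  have h5 := abs_lt.1 h2
  rw [abs_lt]
  constructor <;> linarith [h3.1, h3.2, h4.1, h4.2, h5.1, h5.2]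

theorem jt_continuous {E : Type*} [TopologicalSpace E] {a : E → V → V → ℂ} {wt : E → V → ℝ}
    (h : ∀ s, Ok t η (a s) (wt s)) (ha : ∀ p ∈ Λ, ∀ q ∈ Λ, Continuous fun s => a s p q)
    (hw : ∀ p ∈ Λ, Continuous fun s => wt s p) (hv : v ∈ Λ) :
    Continuous fun s => jT t η K (a s) (wt s) Λ σ v := by
  refine continuous_iff_continuousAt.2 fun s₀ => ?_
  have h₀ := h s₀
  have hc : 0 < η / 4 := by linarith [h₀.η_pos]
  obtain ⟨ρ, hρ, hn⟩ := exists_nb (fun _ _ : V => (1 : ℂ)) h₀.pos Λ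
  obtain ⟨M, hM0, hM⟩ := exists_isEnv h₀.t_pos h₀.η_pos (show 0 < 4 * ρ by linarith)
  have hth := th_pos hc K
  have hw0 := h₀.pos v
  refine jt_cont_Ioi (f := fun s u => (TT (η / 4) K (ell t η (a s) (wt s) Λ σ v u)).im)
    (g := fun u => M * (1 + th (η / 4) K) * (1 + (u / (2 * wt s₀ v)) ^ 2)⁻¹) ?_ ?_ ?_
  · have h1 := TT_continuous hc (K := K)
      (g := fun p : E × ℝ => ell t η (a p.1) (wt p.1) Λ σ v p.2) (ell_continuous h ha hw)
    exact continuous_im.comp' h1
  · exact ((integrable_inv_one_add_sq.comp_div (by positivity)).const_mul _).integrableOn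
  · have h1 : ∀ᶠ s in 𝓝 s₀, ∀ p ∈ Λ, wt s₀ p / 2 < wt s p ∧ wt s p < 2 * wt s₀ p := by
      refine (eventually_all_finset Λ).2 fun p hp => ?_
      have := h₀.pos p
      exact ((hw p hp).continuousAt.eventually (lt_mem_nhds (by linarith))).and
        ((hw p hp).continuousAt.eventually (gt_mem_nhds (by linarith)))
    filter_upwards [h1] with s hs u hu
    have hn' : Nb (4 * ρ) (a s) (wt s) Λ := by
      intro p hp q hq _
      have b1 := hn p hp q hq one_ne_zero
      have b2 := (hs p hp).1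
      have b3 := (hs q hq).2
      nlinarith
    obtain ⟨e1, e2⟩ := (h s).TT_env (K := K) (σ := σ) (v := v) (by linarith) hn' hM hu.le
    have e3 := norm_add_le (TT (η / 4) K (ell t η (a s) (wt s) Λ σ v u) -
      ell t η (a s) (wt s) Λ σ v u 1) (ell t η (a s) (wt s) Λ σ v u 1)
    rw [sub_add_cancel] at e3
    refine (abs_im_le_norm _).trans (e3.trans ((add_le_add e2 e1).trans ?_))
    have e4 : M / (1 + (u / wt s v) ^ 2) ≤ M * (1 + (u / (2 * wt s₀ v)) ^ 2)⁻¹ := by
      rw [← div_eq_mul_inv]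
      have := (h s).pos v
      have := (hs v hv).2.le
      gcongr
    calc M / (1 + (u / wt s v) ^ 2) * th (η / 4) K + M / (1 + (u / wt s v) ^ 2)
        = M / (1 + (u / wt s v) ^ 2) * (1 + th (η / 4) K) := by ring
      _ ≤ M * (1 + (u / (2 * wt s₀ v)) ^ 2)⁻¹ * (1 + th (η / 4) K) := by gcongr
      _ = _ := by ring

/-- Continuity in the matrix and the weights. First treat the parameter space
`{(k, w) : (Λ → Λ → ℂ) × (Λ → ℝ) // Herm k ∧ ∀ p, 0 < w p}` (metrisable; relabel with the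
embedding of the subtype `Λ`, `Finset.attach_map_val`): `jT` is continuous by
`continuousAt_of_dominated` (near a point the weights lie in `[w₀/2, 2 w₀]`, so one `ρ` and one
envelope `TT_env` work; continuity in the parameter for fixed `u`: `TT_continuous`,
`ell_continuous`), and `FL` is a finite sum. Then compose. -/
theorem FF_continuous {E : Type*} [TopologicalSpace E] {a : E → V → V → ℂ} {wt : E → V → ℝ}
    (h : ∀ s, Ok t η (a s) (wt s)) (ha : ∀ p ∈ Λ, ∀ q ∈ Λ, Continuous fun s => a s p q)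
    (hw : ∀ p ∈ Λ, Continuous fun s => wt s p) :
    Continuous fun s => FF t η K (a s) (wt s) Λ σ := by
  have key : ∀ l : List V, l.toFinset ⊆ Λ → Continuous fun s => FL t η K (a s) (wt s) σ l := by
    intro l
    induction l with
    | nil => intro _; exact continuous_const
    | cons v l ih =>
      intro hl
      rw [List.toFinset_cons] at hl
      refine Continuous.add ?_ (ih ((subset_insert _ _).trans hl))
      exact jt_continuous h (fun p hp q hq => ha p (hl hp) q (hl hq)) (fun p hp => hw p (hl hp))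
        (mem_insert_self _ _)
  exact key _ (by simp)

end Crest.Agent.R109
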