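import Crest.Agent.R109.JE
import Crest.Agent.R109.JT

/-!
# R109: the potential of a complete colouring detects large eigenvalues
-/

set_option autoImplicit false
open Finset Filter Topology MeasureTheory Complex

namespace Crest.Agent.R109

variable {V ι : Type*} [DecidableEq V] [Fintype ι] [DecidableEq ι]

/-- The paved kernel: only edges between vertices of the same colour survive. -/
def yk (a : V → V → ℂ) (σ : V → St ι) (p q : V) : ℂ :=
  if σ p = σ q ∧ σ p ≠ .del then a p q else 0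

variable {t η ρ e : ℝ} {K : ℕ} {a : V → V → ℂ} {wt : V → ℝ} {Λ : Finset V} {σ : V → St ι}

/-- For complete colourings `ZG` is a determinant. `Q_prod` and `sum_mn` give the product over the
colours `i` of `det (1 - N_i a)`, `N_i` supported on colour `i`; the matrices `N_i (yk)` have the
same minors on the sets `S` that matter (`mn_congr`; monochromatic `S`), and
`∏_i (1 - N_i y) = 1 - (∑_i N_i) y` because `N_i y N_j = 0` for `i ≠ j`
(`Finset.noncommProd` can be avoided by an induction on a finset of colours: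
`det (1 - (∑_{i ∈ s} N_i) y) = ∏_{i ∈ s} det (1 - N_i y)`). -/
theorem ZG_eq_det (hσ : ∀ w ∈ Λ, σ w ≠ .unc) (z : V → ℂ) (hz : ∀ w ∈ Λ, z w ≠ 0) :
    (∏ w ∈ Λ, z w) * ZG a 1 Λ (fun w => (σ w).kind) z =
      (Matrix.of fun p q : Λ => (if p = q then z p else 0) - yk a σ p q).det := by
  let c : V → ι → ℂ := fun w i => if σ w = .col i then 1 / z w else 0
  have e1 : ZG a 1 Λ (fun w => (σ w).kind) z = Q Λ (fun w => wP (c w)) (mn a) := by
    refine Q_congr (fun w hw => ?_) fun _ _ => rfl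
    have := hσ w hw
    cases hw' : σ w with
    | unc => exact absurd hw' this
    | col i => simp [St.kind, wG, c, hw', eq_comm]
    | del => simp [St.kind, wG, c, hw']
  have e2 : ∀ i, ∑ S ∈ Λ.powerset, (∏ w ∈ S, c w i) * mn a S =
      (1 - Matrix.diagonal (fun p : Λ => c p i) * Matrix.of fun p q : Λ => yk a σ p q).det := by
    intro i
    have : ∑ S ∈ Λ.powerset, (∏ w ∈ S, c w i) * mn a S =
        ∑ S ∈ Λ.powerset, (∏ w ∈ S, c w i) * mn (yk a σ) S := by
      refine sum_congr rfl fun S _ => ?_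
      by_cases h0 : ∏ w ∈ S, c w i = 0
      · rw [h0, zero_mul, zero_mul]
      have h1 : ∀ w ∈ S, σ w = .col i := fun w hw => by
        by_contra hc
        exact h0 (prod_eq_zero hw (if_neg hc))
      rw [mn_congr (a' := yk a σ) fun p hp q hq => by simp [yk, h1 p hp, h1 q hq]]
    rw [this, sum_mn]
    congr 1
    ext p q
    simp [Matrix.one_apply]
  have e3 : ∀ s : Finset ι, ∏ i ∈ s, (1 - Matrix.diagonal (fun p : Λ => c p i) *
      Matrix.of fun p q : Λ => yk a σ p q).det =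
      (1 - Matrix.diagonal (fun p : Λ => ∑ i ∈ s, c p i) *
        Matrix.of fun p q : Λ => yk a σ p q).det := by
    intro s
    induction s using Finset.induction_on with
    | empty => simp
    | insert j s hj ih =>
      rw [prod_insert hj, ih, ← Matrix.det_mul]
      congr 1
      have : (Matrix.diagonal (fun p : Λ => c p j) * Matrix.of fun p q : Λ => yk a σ p q) *
          Matrix.diagonal (fun p : Λ => ∑ i ∈ s, c p i) = 0 := by
        ext p q
        simp only [Matrix.mul_diagonal, Matrix.diagonal_mul, Matrix.of_apply, Matrix.zero_apply]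
        by_cases h1 : σ p = .col j
        · by_cases h2 : σ p = σ q
          · rw [sum_eq_zero, mul_zero]
            intro i hi
            refine if_neg fun h3 => hj ?_
            rw [← h2, h1] at h3
            rwa [St.col.inj h3]
          · simp [yk, h2]
        · simp [c, h1]
      simp only [sum_insert hj]
      rw [← Matrix.diagonal_add, mul_sub, sub_mul, sub_mul, ← mul_assoc, ← mul_assoc, this]
      simp only [mul_one, one_mul, zero_mul, sub_zero, add_mul]
      abel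
  rw [e1, Q_prod, prod_congr rfl fun i _ => e2 i, e3, ← prod_coe_sort Λ, ← Matrix.det_mul_column]
  congr 1
  ext p q
  simp only [Matrix.of_apply, Matrix.sub_apply, Matrix.diagonal_mul, Matrix.one_apply]
  have := hσ p p.2
  have := hz p p.2
  cases hw' : σ p with
  | unc => contradiction
  | col i =>
    have : ∑ j, c p j = 1 / z p := by simp [c, hw']
    rw [this]
    split_ifs <;> field_simp
    simp
  | del => simp [yk, hw']

/-- Spectral theorem for the Hermitian matrix `B = diag d - y`: `det (B + s) = ∏ (λ_j + s)`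
(`Matrix.IsHermitian.eigenvalues`, `charpoly`), and `B` is not positive definite
(`Matrix.IsHermitian.posDef_iff_eigenvalues_pos`). -/
theorem exists_eigen {n : Type*} [Fintype n] [DecidableEq n] {B : Matrix n n ℂ}
    (hB : B.IsHermitian) (φ : n → ℂ) (hφ : φ ≠ 0)
    (h : (∑ p, ∑ q, (starRingEnd ℂ) (φ p) * B p q * φ q).re ≤ 0) :
    ∃ l : n → ℝ, (∃ j, l j ≤ 0) ∧ ∀ s : ℂ, (B + s • (1 : Matrix n n ℂ)).det = ∏ j, (l j + s) := by
  refine ⟨hB.eigenvalues, ?_, fun s => ?_⟩
  · by_contra hc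
    push Not at hc
    have := (hB.posDef_iff_eigenvalues_pos.2 hc).re_dotProduct_pos hφ
    refine absurd h (not_le.2 (this.trans_eq ?_))
    simp only [dotProduct, Matrix.mulVec, mul_sum, mul_assoc]
    rfl
  · have h1 := Matrix.eval_charpoly B (-s)
    rw [hB.charpoly_eq, Polynomial.eval_prod] at h1
    have h2 : B + s • (1 : Matrix n n ℂ) = -(Matrix.scalar n (-s) - B) := by
      ext p q
      simp only [Matrix.scalar_apply, Matrix.add_apply, Matrix.smul_apply, Matrix.one_apply,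
        Matrix.neg_apply, Matrix.sub_apply, Matrix.diagonal_apply]
      split_ifs <;> simp [add_comm]
    rw [h2, Matrix.det_neg, ← h1, ← card_univ, ← prod_const, ← prod_mul_distrib]
    refine prod_congr rfl fun j _ => ?_
    simp [add_comm]

variable [Nonempty ι]

/-- Sum of the exact integrands along an enumeration. -/
noncomputable def AL (t η : ℝ) (a : V → V → ℂ) (wt : V → ℝ) (σ : V → St ι) (u : ℝ) :
    List V → ℝ
  | [] => 0
  | v :: l => (ell t η a wt (insert v l.toFinset) σ v u 1).im + AL t η a wt σ u l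

theorem j5_arg {g : ℝ → ℂ} {C : ℝ} (h : ∀ᶠ y in atTop, ‖g y - 240 * y * I‖ ≤ C) :
    Tendsto (fun y => arg (g y)) atTop (𝓝 (Real.pi / 2)) := by
  have h1 : Tendsto (fun y : ℝ => ((240 * y)⁻¹ : ℝ) * g y) atTop (𝓝 I) := by
    rw [tendsto_iff_norm_sub_tendsto_zero]
    have h2 : Tendsto (fun y : ℝ => (240 * y)⁻¹ * C) atTop (𝓝 0) := by
      simpa using (tendsto_id.const_mul_atTop (by norm_num : (0 : ℝ) < 240)).inv_tendsto_atTop.mul_const
        C
    refine squeeze_zero' (Eventually.of_forall fun _ => norm_nonneg _) ?_ h2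
    filter_upwards [h, eventually_gt_atTop 0] with y h3 h4
    have : (((240 * y)⁻¹ : ℝ) : ℂ) * g y - I = ((240 * y)⁻¹ : ℝ) * (g y - 240 * y * I) := by
      have : (y : ℂ) ≠ 0 := by exact_mod_cast h4.ne'
      push_cast; field_simp
    rw [this, norm_mul, norm_real, Real.norm_of_nonneg (by positivity)]
    gcongr
  have h3 := (continuousAt_arg (x := I) (Or.inr (by simp))).tendsto.comp h1
  rw [arg_I] at h3
  refine h3.congr' ?_
  filter_upwards [eventually_gt_atTop 0] with y hy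
  exact arg_real_mul _ (by positivity)

omit [Nonempty ι] in
theorem j5_list (u : ℝ) {l : List V} (hl : l.Nodup) :
    ∃ L : V → Finset V, (∀ v ∈ l.toFinset, v ∈ L v) ∧
      (∀ Z : Finset V → ℂ, Z ∅ = 1 → (∀ S, Z S ≠ 0) →
        ∏ v ∈ l.toFinset, Z (L v) / Z ((L v).erase v) = Z l.toFinset) ∧
      AL t η a wt σ u l = ∑ v ∈ l.toFinset, (ell t η a wt (L v) σ v u 1).im := by
  induction l with
  | nil => exact ⟨fun _ => ∅, by simp, fun Z h _ => by simp [h], by simp [AL]⟩
  | cons v l ih =>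
    obtain ⟨hv, hl⟩ := List.nodup_cons.1 hl
    obtain ⟨L, L1, L2, L3⟩ := ih hl
    have hv' : v ∉ l.toFinset := by simpa using hv
    have e : ∀ w ∈ l.toFinset, Function.update L v (insert v l.toFinset) w = L w := fun w hw =>
      Function.update_of_ne (ne_of_mem_of_not_mem hw hv') _ _
    refine ⟨Function.update L v (insert v l.toFinset), fun w hw => ?_, fun Z h1 h2 => ?_, ?_⟩
    · rw [List.toFinset_cons] at hw
      rcases mem_insert.1 hw with rfl | hw
      · simp
      · rw [e w hw]; exact L1 w hw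
    · rw [List.toFinset_cons, prod_insert hv', prod_congr rfl fun w hw => by rw [e w hw],
        L2 Z h1 h2, Function.update_self, erase_insert hv', div_mul_cancel₀ _ (h2 _)]
    · rw [List.toFinset_cons, sum_insert hv', sum_congr rfl fun w hw => by rw [e w hw], AL, L3,
        Function.update_self]

theorem Ok.j5_site (h : Ok t η a wt) {v : V} (hv : v ∈ Λ) (hc : ∃ i, σ v = .col i) (u : ℝ) :
    (ContinuousOn (fun y => ht t y wt σ u v *
        (Zf t y a wt Λ σ u 1 / Zf t y a wt (Λ.erase v) σ u 1)) (Set.Ici η) ∧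
      (∀ y, η ≤ y → 0 < (ht t y wt σ u v *
        (Zf t y a wt Λ σ u 1 / Zf t y a wt (Λ.erase v) σ u 1)).im) ∧
      Tendsto (fun y => arg (ht t y wt σ u v *
        (Zf t y a wt Λ σ u 1 / Zf t y a wt (Λ.erase v) σ u 1))) atTop (𝓝 (Real.pi / 2))) ∧
    (ell t η a wt Λ σ v u 1).im = arg (ht t η wt σ u v *
        (Zf t η a wt Λ σ u 1 / Zf t η a wt (Λ.erase v) σ u 1)) - ang η (t + u / wt v) := by
  obtain ⟨i, hi⟩ := hc
  have η0 := h.η_pos
  have hy : ∀ y, η ≤ y → Ok t y a wt := fun y hy => ⟨h.t_pos, h.η_pos.trans_le hy, h.herm, h.pos⟩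
  have z1 : ∀ y, η ≤ y → ∀ w, y ≤ (ht t y wt σ u w).im := fun y hy' w =>
    (hy y hy').le_im_ht (ζ := u) (by simp) σ w
  have z0 : ∀ y, η ≤ y → ∀ w, ht t y wt σ u w ≠ 0 := fun y hy' w e => by
    have := z1 y hy' w
    rw [e, zero_im] at this; linarith
  have e0 : ∀ y, η ≤ y → Zf t y a wt Λ σ u 1 / Zf t y a wt (Λ.erase v) σ u 1 =
      1 - bC t y a wt Λ σ v i u 1 / ht t y wt σ u v := fun y hy' => by
    rw [(hy y hy').ratio_eq hv (by simp) (by simp; linarith), hi]; rfl
  have e1 : ∀ y, η ≤ y → ht t y wt σ u v * (Zf t y a wt Λ σ u 1 / Zf t y a wt (Λ.erase v) σ u 1) =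
      ht t y wt σ u v - bC t y a wt Λ σ v i u 1 := fun y hy' => by
    rw [e0 y hy', mul_sub, mul_one, mul_div_cancel₀ _ (z0 y hy' v)]
  have e2 : ∀ y, η ≤ y → (bC t y a wt Λ σ v i u 1).im ≤ 0 := fun y hy' => by
    simpa [St.av] using (hy y hy').im_av_le (Λ := Λ) (σ := σ) (v := v) (ζ := u) (x := 1) (by simp)
      (by simp; linarith) (.col i)
  have e3 : ∀ y : ℝ, ht t y wt σ u v = (240 : ℝ) * (t + (u / wt v : ℝ) + y * I) := fun y => by
    rw [ht, hi, St.kap]; push_cast; rfl
  have c1 : ∀ w, Continuous fun y => ht t y wt σ u w := fun w => by unfold ht; fun_prop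
  have c2 : ∀ S, ∀ y, η ≤ y → ContinuousAt (fun y => Zf t y a wt S σ u 1) y := fun S y hy' =>
    ZG_continuousAt (a := fun _ => a) (x := fun _ => 1) (fun _ _ _ _ => continuousAt_const)
      continuousAt_const (fun w _ => (c1 w).continuousAt) fun w _ => z0 y hy' w
  refine ⟨⟨fun y hy' => ((c1 v).continuousAt.mul ((c2 _ y hy').div (c2 _ y hy')
    ((hy y hy').Zf_ne_zero (by simp) (by simp; linarith [show η ≤ y from hy'])))).continuousWithinAt,
    fun y hy' => ?_, j5_arg (C := 240 * |t + u / wt v| + 1 / η) ?_⟩, ?_⟩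
  · rw [e1 y hy', sub_im]; linarith [z1 y hy' v, e2 y hy']
  · filter_upwards [eventually_ge_atTop η] with y hy'
    have b : ‖bC t y a wt Λ σ v i u 1‖ ≤ 1 / η := by
      simpa [bC] using bG_norm_le (k := fun w => (σ w).kind) (x := 1) (z := ht t y wt σ u) h.herm
        (notMem_erase v Λ) 1 η0 (fun w _ => by simp; linarith [z1 y hy' w])
        (fun w _ _ => by simp; linarith [z1 y hy' w]) i
    rw [e1 y hy', e3, show ((240 : ℝ) : ℂ) * (t + (u / wt v : ℝ) + y * I) -
      bC t y a wt Λ σ v i u 1 - 240 * y * I = ((240 * (t + u / wt v) : ℝ) : ℂ) -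
        bC t y a wt Λ σ v i u 1 by push_cast; ring]
    refine (norm_sub_le _ _).trans (add_le_add (le_of_eq ?_) b)
    rw [norm_real, Real.norm_eq_abs, abs_mul]; norm_num
  · rw [ell, e1 η le_rfl, e0 η le_rfl, e3,
      ← dA_eq_im_log (by norm_num) η0 ((e2 η le_rfl).trans_lt (by positivity)), dA]

/-- All vertices of `l` are coloured (`κ = 240`). For `y ≥ η` let `z_v(y) = 240 (t + u / wt v + iy)`
and `f_v(y) = z_v(y) * ratio_v(y) = z_v - b_v` (data with `η` replaced by `y`; `ratio_eq`,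
`im_av_le`), in the upper half-plane, continuous in `y`, with argument tending to `π/2`
(`bG_norm_le` with `l = 1`: `‖b‖ ≤ 1 / (240 y)`). The product telescopes to
`∏ z_v * Zf = det (B + 240 i y) = ∏ (λ_j + 240 i y)` (`ZG_eq_det`, `exists_eigen`). By
`sum_arg_eq`, `AL = ∑ arg (λ_j + 240 i η) - ∑ arg z_v ≥ π/2 - |l| η / t ≥ π/2 - 1/2 ≥ 1`.
(It is convenient to index the first family by `Fin l.length` or by `l.toFinset` with
`Λ_v = (l.dropWhile (· ≠ v)).toFinset`; or prove by induction on `l` the existence of a family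
`f : V → ℝ → ℂ` with the required properties on `l.toFinset`.) -/
theorem Ok.one_le_AL (h : Ok t η a wt) {l : List V} (hl : l.Nodup)
    (hσ : ∀ w ∈ l, ∃ i, σ w = .col i) (hη : l.length * η ≤ t / 2) {u : ℝ} (hu : 0 ≤ u)
    (φ : V → ℂ) (hφ : ∃ p ∈ l, φ p ≠ 0)
    (hf : ∑ p ∈ l.toFinset, 240 * (t + u / wt p) * ‖φ p‖ ^ 2 ≤
      (∑ p ∈ l.toFinset, ∑ q ∈ l.toFinset, (starRingEnd ℂ) (φ p) * yk a σ p q * φ q).re) :
    1 ≤ AL t η a wt σ u l := by
  obtain ⟨L, L1, L2, L3⟩ := j5_list (t := t) (η := η) (a := a) (wt := wt) (σ := σ) u hl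
  have hy : ∀ y, η ≤ y → Ok t y a wt := fun y hy => ⟨h.t_pos, h.η_pos.trans_le hy, h.herm, h.pos⟩
  have hc : ∀ w ∈ l.toFinset, ∃ i, σ w = .col i := fun w hw => hσ w (List.mem_toFinset.1 hw)
  have η0 := h.η_pos
  have t0 := h.t_pos
  let B : Matrix l.toFinset l.toFinset ℂ := Matrix.of fun p q =>
    (if p = q then ((240 * (t + u / wt p) : ℝ) : ℂ) else 0) - yk a σ p q
  have hB : B.IsHermitian := by
    ext p q
    simp only [B, Matrix.conjTranspose_apply, Matrix.of_apply, star_sub, yk]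
    congr 1
    · by_cases e : p = q
      · subst e; simp only [if_true]; exact conj_ofReal _
      · rw [if_neg e, if_neg (Ne.symm e), star_zero]
    · by_cases e : σ p = σ q
      · rw [e]
        split_ifs
        · exact (h.herm.herm q p).symm
        · exact star_zero _
      · rw [if_neg fun h => e h.1.symm, if_neg fun h => e h.1, star_zero]
  obtain ⟨ev, ⟨j, hj⟩, hev⟩ := exists_eigen hB (fun p => φ p) (by
      obtain ⟨p, hp, hp0⟩ := hφ
      exact fun e => hp0 (congrFun e ⟨p, List.mem_toFinset.2 hp⟩)) (by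
      have : ∀ p : l.toFinset, ∑ q : l.toFinset, (starRingEnd ℂ) (φ p) * B p q * φ q =
          ((240 * (t + u / wt p) * ‖φ p‖ ^ 2 : ℝ) : ℂ) -
            ∑ q ∈ l.toFinset, (starRingEnd ℂ) (φ p) * yk a σ p q * φ q := by
        intro p
        simp only [B, Matrix.of_apply, mul_sub, sub_mul, sum_sub_distrib, mul_ite, ite_mul,
          mul_zero, zero_mul, sum_ite_eq, mem_univ, if_true]
        rw [sum_coe_sort l.toFinset fun q => (starRingEnd ℂ) (φ p) * yk a σ p q * φ q,
          mul_right_comm, conj_mul']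
        push_cast; ring
      simp only [this]
      rw [sum_coe_sort l.toFinset fun p => ((240 * (t + u / wt p) * ‖φ p‖ ^ 2 : ℝ) : ℂ) -
        ∑ q ∈ l.toFinset, (starRingEnd ℂ) (φ p) * yk a σ p q * φ q, sum_sub_distrib, sub_re,
        ← ofReal_sum, ofReal_re]
      linarith)
  have key := sum_arg_eq l.toFinset univ (by simp only [card_univ, Fintype.card_coe])
    (fun v y => ht t y wt σ u v * (Zf t y a wt (L v) σ u 1 / Zf t y a wt ((L v).erase v) σ u 1))
    (fun j y => (ev j : ℂ) + 240 * y * I) (η := η)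
    (fun v hv => (h.j5_site (L1 v hv) (hc v hv) u).1)
    (fun j _ => ⟨by fun_prop, fun y hy => by simp; linarith,
      j5_arg (C := |ev j|) (Eventually.of_forall fun y => by simp)⟩)
    (fun y hy' => by
      have z0 : ∀ w, ht t y wt σ u w ≠ 0 := fun w e => by
        have := (hy y hy').le_im_ht (ζ := u) (by simp) σ w
        rw [e, zero_im] at this; linarith
      rw [prod_mul_distrib, L2 (fun Λ => Zf t y a wt Λ σ u 1) ZG_empty fun Λ =>
        (hy y hy').Zf_ne_zero (by simp) (by simp; linarith), ← hev, Zf,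
        ZG_eq_det (fun w hw e => by obtain ⟨i, hi⟩ := hc w hw; simp [hi] at e) _ fun w _ => z0 w]
      congr 1
      ext p q
      obtain ⟨i, hi⟩ := hc p p.2
      simp only [B, Matrix.of_apply, Matrix.add_apply, Matrix.smul_apply, Matrix.one_apply, ht, hi,
        St.kap]
      split_ifs
      · push_cast; simp only [smul_eq_mul]; ring
      · simp)
  rw [L3, sum_congr rfl fun v hv => (h.j5_site (L1 v hv) (hc v hv) u).2, sum_sub_distrib, key]
  have e : ∀ j, arg ((ev j : ℂ) + 240 * η * I) = ang (240 * η) (ev j) := fun j => by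
    rw [ang]; push_cast; rfl
  have b1 : Real.pi / 2 ≤ ∑ j, arg ((ev j : ℂ) + 240 * η * I) := by
    simp only [e]
    refine le_trans ?_ (single_le_sum (fun j _ => (ang_pos (by positivity) _).le) (mem_univ j))
    refine le_trans (le_of_eq ?_) (ang_anti (by positivity) hj)
    rw [ang_eq (by positivity)]; simp
  have b2 : ∑ v ∈ l.toFinset, ang η (t + u / wt v) ≤ l.length * (η / t) := by
    rw [← List.toFinset_card_of_nodup hl, ← nsmul_eq_mul]
    refine sum_le_card_nsmul _ _ _ fun v _ => ?_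
    have := h.pos v
    refine (ang_le_div η0 (by positivity)).trans ?_
    gcongr
    exact le_add_of_nonneg_right (by positivity)
  have b3 : l.length * (η / t) ≤ 1 / 2 := by
    rw [← mul_div_assoc, div_le_iff₀ t0]; linarith
  linarith [Real.pi_gt_three]

theorem Ok.j5_filter (h : Ok t η a wt) :
    FF t η K a wt Λ σ = FF t η K a wt (Λ.filter fun w => σ w ≠ .del) σ := by
  induction Λ using Finset.induction_on with
  | empty => rw [filter_empty]
  | insert v S hv ih =>
    rw [h.FF_erase (mem_insert_self v S), erase_insert hv, ih]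
    by_cases e : σ v = .del
    · rw [jT_del e, zero_add, filter_insert, if_neg (not_not.2 e)]
    · rw [jT_filter (fun w => σ w ≠ .del) fun w _ hw => not_not.1 hw, filter_insert, if_pos e,
        h.FF_erase (mem_insert_self v _), erase_insert fun hv' => hv (mem_filter.1 hv').1]

theorem Apx.j5_AL (hE : Apx V ι t η K ρ e) (h : Ok t η a wt) (hn : Nb ρ a wt Λ) {U : ℝ}
    (hU : 0 ≤ U) {l : List V} (hl : l.Nodup) (hΛ : ∀ w ∈ l, w ∈ Λ) :
    IntegrableOn (fun u => AL t η a wt σ u l) (Set.Ioi 0) ∧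
      0 ≤ ∫ u in Set.Ioi U, AL t η a wt σ u l ∧
      ∫ u in Set.Ioi 0, AL t η a wt σ u l ≤ FL t η K a wt σ l + e * ∑ w ∈ l.toFinset, wt w := by
  induction l with
  | nil => simp [AL, FL]
  | cons v l ih =>
    obtain ⟨hv, hl⟩ := List.nodup_cons.1 hl
    obtain ⟨i1, i2, i3⟩ := ih hl fun w hw => hΛ w (List.mem_cons_of_mem _ hw)
    have j1 := h.jE_integrable (Λ := insert v l.toFinset) (σ := σ) (v := v)
    have j2 := h.jE_tail_nonneg (Λ := insert v l.toFinset) (σ := σ) (v := v) hU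
    have j3 := hE a wt (insert v l.toFinset) σ v h (hn.mono fun w hw => hΛ w (by simpa using hw))
    simp only [AL, FL]
    refine ⟨j1.add i1, ?_, ?_⟩
    · rw [integral_add (j1.mono_set (Set.Ioi_subset_Ioi hU)) (i1.mono_set (Set.Ioi_subset_Ioi hU))]
      linarith
    · rw [integral_add j1 i1, List.toFinset_cons, sum_insert (by simpa using hv)]
      rw [jE] at j3
      linarith [(abs_le.1 j3).1]

/-- Remove the deleted vertices: `FF Λ = FF Λ'` with `Λ' = Λ.filter (σ · ≠ del)` (`FF_erase`,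
`jT_del`), the form only sees `Λ'` and is positive (if `U > 0`, `φ ≠ 0` on `Λ'` because the left
side is positive; the case `φ = 0` on `Λ` is excluded by `hφ`). With `l = Λ'.toList`,
`FL ≥ ∑ jE - e ∑ wt`, and `∑ jE = ∫_{u > 0} AL ≥ ∫_0^U 1 + ∑ ∫_{u > U} ≥ U`
(`one_le_AL`, `jE_tail_nonneg`, `jE_integrable`). -/
theorem Apx.le_FF (hE : Apx V ι t η K ρ e) (he : 0 ≤ e) (h : Ok t η a wt) (hn : Nb ρ a wt Λ)
    (hσ : ∀ w ∈ Λ, σ w ≠ .unc) (hη : Λ.card * η ≤ t / 2) {U : ℝ} (hU : 0 ≤ U) (φ : V → ℂ)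
    (hφ : ∃ p ∈ Λ, φ p ≠ 0)
    (hf : ∑ p ∈ Λ, 240 * (t + U / wt p) * ‖φ p‖ ^ 2 ≤
      (∑ p ∈ Λ, ∑ q ∈ Λ, (starRingEnd ℂ) (φ p) * yk a σ p q * φ q).re) :
    U ≤ FF t η K a wt Λ σ + e * ∑ w ∈ Λ, wt w := by
  classical
  obtain ⟨Λ', hΛ'⟩ : ∃ Λ', Λ' = Λ.filter fun w => σ w ≠ .del := ⟨_, rfl⟩
  have sub : Λ' ⊆ Λ := hΛ' ▸ filter_subset _ _
  obtain ⟨i1, i2, i3⟩ := hE.j5_AL (σ := σ) h (hn.mono sub) hU (nodup_toList Λ')
    fun w hw => mem_toList.1 hw
  rw [toList_toFinset] at i3
  have t0 := h.t_pos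
  have e1 : ∑ p ∈ Λ', ∑ q ∈ Λ', (starRingEnd ℂ) (φ p) * yk a σ p q * φ q =
      ∑ p ∈ Λ, ∑ q ∈ Λ, (starRingEnd ℂ) (φ p) * yk a σ p q * φ q := by
    rw [hΛ']
    refine (sum_filter_of_ne (p := fun w => σ w ≠ .del) fun p _ hp e => hp ?_).trans ?_
    · simp [yk, e]
    refine sum_congr rfl fun p _ => sum_filter_of_ne fun q _ hq e => hq ?_
    rw [yk, if_neg fun h => h.2 (h.1.trans e)]; simp
  have pos : ∀ p, 0 < 240 * (t + U / wt p) := fun p => by have := h.pos p; positivity
  have hφ' : ∃ p ∈ Λ'.toList, φ p ≠ 0 := by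
    by_contra hc
    push Not at hc
    rw [← e1, sum_eq_zero (s := Λ') fun p hp => by simp [hc p (mem_toList.2 hp)], zero_re] at hf
    obtain ⟨p, hp, hp0⟩ := hφ
    refine absurd hf (not_le.2 (sum_pos' (fun q _ => ?_) ⟨p, hp, ?_⟩))
    · have := pos q; positivity
    · have := pos p; positivity
  have e2 : U ≤ ∫ u in Set.Ioc 0 U, AL t η a wt σ u Λ'.toList := by
    have := setIntegral_ge_of_const_le_real (c := 1) measurableSet_Ioc (by simp)
      (fun u (hu : u ∈ Set.Ioc 0 U) => h.one_le_AL (nodup_toList Λ') (σ := σ) (fun w hw => by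
        have h1 := mem_filter.1 (hΛ' ▸ mem_toList.1 hw)
        have h2 := hσ w h1.1
        cases hw' : σ w with
        | unc => exact absurd hw' h2
        | col i => exact ⟨i, rfl⟩
        | del => exact absurd hw' h1.2) (by
        rw [length_toList]
        refine le_trans ?_ hη
        have := h.η_pos
        gcongr) hu.1.le φ hφ' (by
        rw [toList_toFinset, e1]
        refine le_trans ?_ hf
        refine le_trans (sum_le_sum fun p _ => ?_) (sum_le_sum_of_subset_of_nonneg sub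
          fun p _ _ => by have := pos p; positivity)
        have := h.pos p
        have := hu.2
        gcongr)) (i1.mono_set Set.Ioc_subset_Ioi_self)
    simpa [hU] using this
  rw [← Set.Ioc_union_Ioi_eq_Ioi hU, setIntegral_union Set.Ioc_disjoint_Ioi_same measurableSet_Ioi
    (i1.mono_set Set.Ioc_subset_Ioi_self) (i1.mono_set (Set.Ioi_subset_Ioi hU))] at i3
  have e3 : e * ∑ w ∈ Λ', wt w ≤ e * ∑ w ∈ Λ, wt w :=
    mul_le_mul_of_nonneg_left (sum_le_sum_of_subset_of_nonneg sub fun w _ _ => (h.pos w).le) he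
  rw [h.j5_filter, ← hΛ', FF]
  linarith

/-- The form used later. If `φ = 0` on `Λ` or the left side is `≤ 0`, use
`0 ≤ FF + e ∑ wt` (`FF_erase`, `Apx.jT_ge`). Otherwise choose `U > 0` with equality in `le_FF`:
the left side is `U * 240 ∑ |φ p|² / wt p ≤ U * 240 * W * N`. -/
theorem Apx.quad_le (hE : Apx V ι t η K ρ e) (he : 0 ≤ e) (h : Ok t η a wt) (hn : Nb ρ a wt Λ)
    (hσ : ∀ w ∈ Λ, σ w ≠ .unc) (hη : Λ.card * η ≤ t / 2) (φ : V → ℂ) {W N : ℝ} (hW0 : 0 ≤ W)
    (hW : ∀ p ∈ Λ, 1 ≤ W * wt p) (hN : ∑ p ∈ Λ, ‖φ p‖ ^ 2 ≤ N) :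
    0 ≤ FF t η K a wt Λ σ + e * ∑ w ∈ Λ, wt w ∧
    (∑ p ∈ Λ, ∑ q ∈ Λ, (starRingEnd ℂ) (φ p) * yk a σ p q * φ q).re -
        240 * t * ∑ p ∈ Λ, ‖φ p‖ ^ 2 ≤
      240 * W * N * (FF t η K a wt Λ σ + e * ∑ w ∈ Λ, wt w) := by
  have g0 : 0 ≤ FF t η K a wt Λ σ + e * ∑ w ∈ Λ, wt w := by
    obtain ⟨-, i2, i3⟩ := hE.j5_AL (σ := σ) h hn le_rfl (nodup_toList Λ) fun w hw => mem_toList.1 hw
    rw [toList_toFinset] at i3
    exact i2.trans i3
  refine ⟨g0, ?_⟩
  have N0 : 0 ≤ N := (sum_nonneg fun _ _ => by positivity).trans hN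
  obtain ⟨F, hF⟩ : ∃ F, F = (∑ p ∈ Λ, ∑ q ∈ Λ, (starRingEnd ℂ) (φ p) * yk a σ p q * φ q).re -
    240 * t * ∑ p ∈ Λ, ‖φ p‖ ^ 2 := ⟨_, rfl⟩
  rw [← hF]
  rcases le_or_gt F 0 with h0 | h0
  · exact h0.trans (by positivity)
  have hφ : ∃ p ∈ Λ, φ p ≠ 0 := by
    by_contra hc
    push Not at hc
    rw [sum_eq_zero fun p hp => by simp [hc p hp], sum_eq_zero fun p hp => by simp [hc p hp]] at hF
    simp [hF] at h0
  obtain ⟨P, hP⟩ : ∃ P, P = ∑ p ∈ Λ, ‖φ p‖ ^ 2 / wt p := ⟨_, rfl⟩
  have P0 : 0 < P := by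
    obtain ⟨p, hp, hp0⟩ := hφ
    rw [hP]
    refine sum_pos' (fun q _ => ?_) ⟨p, hp, ?_⟩
    · have := h.pos q; positivity
    · have := h.pos p; positivity
  have P1 : P ≤ W * N := by
    refine le_trans ?_ (mul_le_mul_of_nonneg_left hN hW0)
    rw [hP, mul_sum]
    refine sum_le_sum fun p hp => ?_
    rw [div_le_iff₀ (h.pos p)]
    nlinarith [hW p hp, sq_nonneg ‖φ p‖]
  have key := hE.le_FF he h hn hσ hη (U := F / (240 * P)) (by positivity) φ hφ (le_of_eq (by
    have : ∑ p ∈ Λ, 240 * (t + F / (240 * P) / wt p) * ‖φ p‖ ^ 2 =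
        240 * t * ∑ p ∈ Λ, ‖φ p‖ ^ 2 + 240 * (F / (240 * P)) * ∑ p ∈ Λ, ‖φ p‖ ^ 2 / wt p := by
      rw [mul_sum, mul_sum, ← sum_add_distrib]
      exact sum_congr rfl fun p _ => by ring
    rw [this, ← hP, show 240 * (F / (240 * P)) * P = F by field_simp, hF]; ring))
  rw [div_le_iff₀ (by positivity)] at key
  nlinarith [mul_le_mul_of_nonneg_left P1 g0]

end Crest.Agent.R109
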