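import Crest.Agent.R109.Site

/-!
# R109: the single-site step, the initial bound and the envelope
-/

set_option autoImplicit false
open Filter Topology MeasureTheory Set Complex

namespace Crest.Agent.R109

theorem site2_int {B : ℝ} (hB : 0 < B) (A : ℝ) (hA : 0 ≤ A) :
    IntegrableOn (fun u : ℝ => A / (u + B) ^ 2) (Ioi 0) ∧
      ∫ u in Ioi (0 : ℝ), A / (u + B) ^ 2 = A / B := by
  have h1 : ∀ u ∈ Ici (0 : ℝ), HasDerivAt (fun u : ℝ => -A * (u + B)⁻¹) (A / (u + B) ^ 2) u := by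
    intro u (hu : 0 ≤ u)
    have := (((hasDerivAt_id u).add_const B).inv (by positivity : u + B ≠ 0)).const_mul (-A)
    refine this.congr_deriv ?_
    simp [div_eq_mul_inv]
  have h2 : Tendsto (fun u : ℝ => -A * (u + B)⁻¹) atTop (𝓝 0) := by
    simpa using (tendsto_atTop_add_const_right _ B tendsto_id).inv_tendsto_atTop.const_mul (-A)
  have h3 : ∀ u ∈ Ioi (0 : ℝ), 0 ≤ A / (u + B) ^ 2 := fun u _ => by positivity
  refine ⟨integrableOn_Ioi_deriv_of_nonneg' h1 h3 h2, ?_⟩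
  rw [integral_Ioi_of_hasDerivAt_of_nonneg' h1 h3 h2]
  simp [div_eq_mul_inv]

theorem site2_arg_prod {α : Type*} (s : Finset α) (f : α → ℂ) (h : ∀ i ∈ s, f i ≠ 0) :
    ((∑ i ∈ s, arg (f i) : ℝ) : Real.Angle) = arg (∏ i ∈ s, f i) := by
  classical
  induction s using Finset.induction_on with
  | empty => simp
  | insert a s ha ih =>
    have h' : ∀ i ∈ s, f i ≠ 0 := fun i hi => h i (Finset.mem_insert_of_mem hi)
    rw [Finset.sum_insert ha, Finset.prod_insert ha, Real.Angle.coe_add, ih h',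
      arg_mul_coe_angle (h a (Finset.mem_insert_self _ _)) (Finset.prod_ne_zero_iff.2 h')]

/-- Let `β̄` be the average, `j₀ = jj 1 t η β̄ ∈ [0, π t/16)`. By `jj_ge_mm`,
`mm β̄ (3t) ≤ 2 j₀/π`, so `mm β̄ (t/4) ≤ 24 j₀/π` (`mul_mm_le`) and
`∑_{i ∈ I} mm β_i (t/4) ≤ 24 r j₀/π ≤ 48 |I| j₀/π` (`mm_avg`). Let `u₁ = 2 j₀/(5π) + η`,
`U = min (t/16) (5 u₁/2) > j₀/π`. By `jj_ge_nn`, `nn β̄ U < 12 t`, so `nn β̄ u₁ ≤ 30 t`
(`mul_nn_le` if `u₁ ≤ U`, else `nn_anti`). `bad = {i | 120 t < nn β_i u₁}` (Markov, `nn_avg`);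
sum `jj_le` over `I`: `7η + (2/π + 1/5) j₀ ≤ 7η + j₀`. -/
theorem single_site {ι : Type*} [Fintype ι] {β : ι → ℂ → ℂ} (h : ∀ i, Herg (β i)) {t η : ℝ}
    (ht : 0 < t) (hη : 0 < η) (hηt : η ≤ t / 2)
    (hj : jj 1 t η (fun ζ => (∑ i, β i ζ) / Fintype.card ι) < Real.pi * t / 16) :
    ∃ bad : Finset ι, 4 * bad.card ≤ Fintype.card ι ∧ ∀ I : Finset ι, Disjoint I bad →
      Fintype.card ι ≤ 2 * I.card → ∑ i ∈ I, jj 240 t η (β i) ≤
        I.card * (jj 1 t η (fun ζ => (∑ i, β i ζ) / Fintype.card ι) + 7 * η) := by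
  classical
  have hb := Herg.avg h
  have hmm := mm_avg h (y := t / 4) (by positivity)
  generalize hj0 : jj 1 t η (fun ζ => (∑ i, β i ζ) / Fintype.card ι) = j at hj ⊢
  have hπ := Real.pi_gt_three
  have j0 : 0 ≤ j := hj0 ▸ hb.jj_nonneg one_pos hη t
  obtain ⟨p, hp⟩ : ∃ p, p = j / Real.pi := ⟨_, rfl⟩
  have hjp : j = Real.pi * p := by rw [hp]; field_simp
  have p0 : 0 ≤ p := by rw [hp]; positivity
  have pt : p < t / 16 := by nlinarith
  obtain ⟨u, hu⟩ : ∃ u, u = 2 * p / 5 + η := ⟨_, rfl⟩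
  have u0 : 0 < u := by linarith
  have hnn := nn_avg h u0
  generalize (fun ζ => (∑ i, β i ζ) / (Fintype.card ι : ℂ)) = b at hb hmm hj0 hnn
  have m1 : mm b (3 * t) ≤ 2 * p := by
    have := hb.jj_ge_mm ht hη hηt
    rw [hj0] at this
    rcases min_cases (mm b (3 * t)) t with h1 | h1 <;> rw [h1.1] at this <;> nlinarith
  have m2 : mm b (t / 4) ≤ 24 * p := by
    have := hb.mul_mm_le (y := t / 4) (y' := 3 * t) (by positivity) (by linarith)
    nlinarith
  have n1 : nn b u ≤ 30 * t := by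
    have U0 : 0 < min (t / 16) (5 * u / 2) := lt_min (by positivity) (by positivity)
    have h1 : nn b (min (t / 16) (5 * u / 2)) < 12 * t := by
      by_contra hc
      have := hb.jj_ge_nn ht hη hηt U0 (min_le_left _ _) (not_lt.1 hc)
      have h2 : p < min (t / 16) (5 * u / 2) := lt_min pt (by linarith)
      nlinarith
    rcases le_total u (min (t / 16) (5 * u / 2)) with h2 | h2
    · have h3 := hb.mul_nn_le u0 h2
      have h4 : min (t / 16) (5 * u / 2) * nn b (min (t / 16) (5 * u / 2)) ≤ 5 * u / 2 * (12 * t) :=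
        mul_le_mul (min_le_right _ _) h1.le (hb.nn_nonneg U0) (by positivity)
      nlinarith
    · linarith [hb.nn_anti U0 h2]
  rcases isEmpty_or_nonempty ι with hι | hι
  · refine ⟨∅, by simp, fun I _ _ => ?_⟩
    rw [Finset.eq_empty_of_isEmpty I]; simp
  have r0 : (0 : ℝ) < Fintype.card ι := by exact_mod_cast Fintype.card_pos
  rw [hmm, div_le_iff₀ r0] at m2
  rw [hnn, div_le_iff₀ r0] at n1
  refine ⟨Finset.univ.filter fun i => 120 * t < nn (β i) u, ?_, fun I hI hc => ?_⟩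
  · have h1 : ((Finset.univ.filter fun i => 120 * t < nn (β i) u).card : ℝ) * (120 * t) ≤
        ∑ i, nn (β i) u := by
      rw [← nsmul_eq_mul]
      exact (Finset.card_nsmul_le_sum _ _ _ fun i hi => (Finset.mem_filter.1 hi).2.le).trans
        (Finset.sum_le_sum_of_subset_of_nonneg (Finset.subset_univ _)
          fun i _ _ => (h i).nn_nonneg u0)
    have h2 : (4 : ℝ) * (Finset.univ.filter fun i => 120 * t < nn (β i) u).card ≤
        Fintype.card ι := by nlinarith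
    exact_mod_cast h2
  · have h1 : ∑ i ∈ I, jj 240 t η (β i) ≤
        ∑ i ∈ I, (2 * η + 5 * u + Real.pi / 240 * mm (β i) (t / 4)) := by
      refine Finset.sum_le_sum fun i hi => ((h i).jj_le ht hη u0 ?_).trans (le_of_eq (by ring))
      by_contra hc
      exact Finset.disjoint_left.1 hI hi (Finset.mem_filter.2 ⟨Finset.mem_univ _, not_le.1 hc⟩)
    rw [Finset.sum_add_distrib, Finset.sum_const, nsmul_eq_mul, ← Finset.mul_sum] at h1
    have h2 : ∑ i ∈ I, mm (β i) (t / 4) ≤ ∑ i, mm (β i) (t / 4) :=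
      Finset.sum_le_sum_of_subset_of_nonneg (Finset.subset_univ _)
        fun i _ _ => (h i).mm_nonneg (by positivity)
    have h3 : (Fintype.card ι : ℝ) ≤ 2 * I.card := by exact_mod_cast hc
    have h4 : ∑ i ∈ I, mm (β i) (t / 4) ≤ 48 * p * I.card := by nlinarith
    have h5 : (0 : ℝ) ≤ I.card * p := mul_nonneg (Nat.cast_nonneg _) p0
    have h6 := mul_le_mul_of_nonneg_left h4 (by positivity : 0 ≤ Real.pi / 240)
    rw [hjp]
    rw [hu] at h1
    nlinarith

/-- For `u ≤ L = η⁻²`: `dA ≤ arg (τ + u - β u) ≤ (4η/3) / (5t/6 + u)` (`arg w ≤ Im w / Re w` in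
the first quadrant), integrating to `(4η/3) log (1 + 6/(5 t η²))`. For `u ≥ L`: `abs_dA_le'`
gives `|dA| ≤ (3/2) D / (η u²)` (as `D/(η u) ≤ u/2` when `η` is small), integrating to
`(3/2) D η`. Both tend to `0` with `η` (e.g. `log x ≤ 4 x^{1/4}`). -/
theorem jj_init {t D e : ℝ} (ht : 0 < t) (hD : 0 < D) (he : 0 < e) :
    ∃ η₁ > 0, ∀ η : ℝ, 0 < η → η ≤ η₁ → ∀ β : ℂ → ℂ, Herg β →
      (∀ u : ℝ, 0 < u → (β u).re ≤ t / 6 ∧ |(β u).im| ≤ η / 3 ∧ ‖β u‖ ≤ D / (η * u)) →
      jj 1 t η β ≤ e := by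
  obtain ⟨Q, hQ⟩ : ∃ Q, Q = 12 * D / e := ⟨_, rfl⟩
  have Q0 : 0 < Q := by rw [hQ]; positivity
  obtain ⟨L₀, hL₀⟩ : ∃ L₀, L₀ = 32 * Q / (3 * e) := ⟨_, rfl⟩
  have L0 : 0 < L₀ := by rw [hL₀]; positivity
  refine ⟨min (6 * Q / e) (5 * t * e / (16 * (L₀ + 1) ^ 2)), lt_min (by positivity) (by positivity),
    fun η hη hη1 β hβ hb => ?_⟩
  have e1 : η * e ≤ 6 * Q := (le_div_iff₀ he).1 (hη1.trans (min_le_left _ _))
  have e2 : η * (16 * (L₀ + 1) ^ 2) ≤ 5 * t * e :=
    (le_div_iff₀ (by positivity)).1 (hη1.trans (min_le_right _ _))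
  obtain ⟨L, hL⟩ : ∃ L, L = Q / η := ⟨_, rfl⟩
  have Lp : 0 < L := by rw [hL]; positivity
  have hLQ : η * L = Q := by rw [hL]; field_simp
  obtain ⟨i1, j1⟩ := site2_int one_pos (e / 2) (by positivity)
  obtain ⟨i2, j2⟩ := site2_int Lp (e * L / 2) (by positivity)
  refine (setIntegral_mono_on (hβ.jj_integrable one_pos hη t) (i1.add i2) measurableSet_Ioi
    fun u (hu : 0 < u) => ?_).trans (le_of_eq ?_)
  · obtain ⟨b1, b2, b3⟩ := hb u hu
    have b4 := hβ.im_le u (by simp)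
    have p1 : 0 ≤ e / 2 / (u + 1) ^ 2 := by positivity
    have p2 : 0 ≤ e * L / 2 / (u + L) ^ 2 := by positivity
    change _ ≤ e / 2 / (u + 1) ^ 2 + e * L / 2 / (u + L) ^ 2
    rcases le_total u L with huL | huL
    · have h1 : dA 1 t η (β u) u ≤ 4 * η / 3 / (5 * t / 6 + u) := by
        have e3 : ((1 : ℝ) : ℂ) * (t + u + η * I) - β u =
            ((t + u - (β u).re : ℝ) : ℂ) + ((η - (β u).im : ℝ) : ℂ) * I := by
          apply Complex.ext <;> simp
        have h2 := ang_le_div (η := η - (β u).im) (x := t + u - (β u).re) (by linarith)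
          (by linarith)
        have h3 := ang_pos hη (t + u)
        have h4 : (η - (β u).im) / (t + u - (β u).re) ≤ 4 * η / 3 / (5 * t / 6 + u) :=
          div_le_div₀ (by positivity) (by linarith [(abs_le.1 b2).1]) (by positivity) (by linarith)
        rw [dA, e3]
        rw [ang] at h2
        linarith
      rcases le_total u L₀ with h2 | h2
      · have h3 : 4 * η / 3 / (5 * t / 6 + u) ≤ e / 2 / (u + 1) ^ 2 := by
          rw [div_le_div_iff₀ (by positivity) (by positivity)]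
          have : (u + 1) ^ 2 ≤ (L₀ + 1) ^ 2 := by gcongr
          nlinarith [mul_pos he hu]
        linarith
      · have h3 : 4 * η / 3 / (5 * t / 6 + u) ≤ e * L / 2 / (u + L) ^ 2 := by
          rw [div_le_div_iff₀ (by positivity) (by positivity)]
          have h4 : (u + L) ^ 2 ≤ (2 * L) ^ 2 := by gcongr; linarith
          have h5 : e * L₀ = 32 * Q / 3 := by rw [hL₀]; field_simp
          calc 4 * η / 3 * (u + L) ^ 2 ≤ 4 * η / 3 * (2 * L) ^ 2 := by gcongr
            _ = e * L / 2 * L₀ := by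
              rw [show e * L / 2 * L₀ = e * L₀ * L / 2 by ring, h5, ← hLQ]; ring
            _ ≤ _ := by gcongr; linarith
        linarith
    · have h1 : D / (η * u) ≤ D / (η * L) := by gcongr
      have h2 : D / (η * L) = e / 12 := by rw [hLQ, hQ]; field_simp
      have h3 : e / 6 ≤ L := by
        rw [hL, le_div_iff₀ hη]; linarith
      have h4 : |t + u| = t + u := abs_of_pos (by linarith)
      have h5 := abs_dA_le' (t := t) one_pos hη b4 (u := u) (by rw [h4]; linarith)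
      rw [h4, one_mul] at h5
      have h6 : ‖β u‖ / (t + u) ≤ D / (η * u) / u := by gcongr; linarith
      have h7 : 3 / 2 * (D / (η * u) / u) ≤ e * L / 2 / (u + L) ^ 2 := by
        have h8 : e * L / 2 = 6 * D / η := by
          rw [hL, hQ]; field_simp; norm_num
        rw [h8]
        calc 3 / 2 * (D / (η * u) / u) = 6 * D / η / (2 * u) ^ 2 := by field_simp; norm_num
          _ ≤ _ := by gcongr; linarith
      linarith [le_abs_self (dA 1 t η (β u) u)]
  · rw [Pi.add_def, integral_add i1 i2, j1, j2]; field_simp; norm_num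

/-- Envelope. With `z = κ (t + s + iη)`: `|z| ≥ max η s`, `|z| ≤ 240 (t + s + η)`,
`|z - b| ≥ Im (z - b) ≥ η/2`. If `s ≥ s₀ = 2C + 1` then `|b/z| ≤ 1/2` and
`|log (1 - b/z)| ≤ (3/2) C / ((1+s) s)`; otherwise `|1 - b/z|` lies between two positive constants
and `‖log w‖ ≤ |Real.log ‖w‖| + π`. -/
theorem exists_env {t η C : ℝ} (ht : 0 < t) (hη : 0 < η) (hC : 0 < C) :
    ∃ M > 0, ∀ κ : ℝ, 1 ≤ κ → κ ≤ 240 → ∀ s : ℝ, 0 ≤ s → ∀ b : ℂ, b.im ≤ η / 2 →
      ‖b‖ ≤ C / (1 + s) → ‖log (1 - b / (κ * (t + s + η * I)))‖ ≤ M / (1 + s ^ 2) := by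
  obtain ⟨a, ha⟩ : ∃ a, a = η / 2 / (240 * (t + (2 * C + 1) + η)) := ⟨_, rfl⟩
  have a0 : 0 < a := by rw [ha]; positivity
  refine ⟨(1 + C / η + a⁻¹ + Real.pi) * (1 + (2 * C + 1) ^ 2) + 3 / 2 * C, by positivity,
    fun κ κ1 κ2 s hs b b1 b2 => ?_⟩
  obtain ⟨z, hz⟩ : ∃ z : ℂ, z = κ * (t + s + η * I) := ⟨_, rfl⟩
  rw [← hz]
  have zr : z.re = κ * (t + s) := by simp [hz]
  have zi : z.im = κ * η := by simp [hz]
  have z1 : η ≤ ‖z‖ := le_trans (by rw [zi]; nlinarith) (im_le_norm z)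
  have z2 : s ≤ ‖z‖ := le_trans (by rw [zr]; nlinarith) (re_le_norm z)
  have z0 : 0 < ‖z‖ := hη.trans_le z1
  rw [le_div_iff₀ (by positivity)]
  have q0 : 0 ≤ (1 + C / η + a⁻¹ + Real.pi) * (1 + (2 * C + 1) ^ 2) := by positivity
  rcases le_total s (2 * C + 1) with h | h
  · have z3 : ‖z‖ ≤ 240 * (t + (2 * C + 1) + η) := by
      refine (norm_le_abs_re_add_abs_im z).trans ?_
      rw [zr, zi, abs_of_nonneg (by positivity), abs_of_nonneg (by positivity), ← mul_add]
      gcongr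
    have w1 : a ≤ ‖1 - b / z‖ := by
      rw [one_sub_div (norm_pos_iff.1 z0), norm_div, ha]
      refine div_le_div₀ (norm_nonneg _) (le_trans ?_ (im_le_norm _)) z0 z3
      rw [sub_im, zi]; nlinarith
    have w2 : ‖1 - b / z‖ ≤ 1 + C / η := by
      refine (norm_sub_le _ _).trans ?_
      rw [norm_one, norm_div]
      gcongr
      exact b2.trans (div_le_self hC.le (by linarith))
    have w0 := a0.trans_le w1
    have w3 : |Real.log ‖1 - b / z‖| ≤ 1 + C / η + a⁻¹ := by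
      have l1 := Real.log_le_self w0.le
      have l2 := Real.log_le_self (inv_pos.2 w0).le
      have l3 : ‖1 - b / z‖⁻¹ ≤ a⁻¹ := by gcongr
      have l4 := inv_pos.2 a0
      rw [Real.log_inv] at l2
      rw [abs_le]; constructor <;> linarith
    have w4 : ‖log (1 - b / z)‖ ≤ 1 + C / η + a⁻¹ + Real.pi := by
      refine (norm_le_abs_re_add_abs_im _).trans ?_
      rw [log_re, log_im]
      exact add_le_add w3 (abs_arg_le_pi _)
    have : ‖log (1 - b / z)‖ * (1 + s ^ 2) ≤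
        (1 + C / η + a⁻¹ + Real.pi) * (1 + (2 * C + 1) ^ 2) := by gcongr
    linarith
  · have s0 : 0 < s := by linarith
    have w1 : ‖-(b / z)‖ ≤ C / (1 + s) / s := by rw [norm_neg, norm_div]; gcongr
    have w2 : C / (1 + s) / s ≤ C / (1 + s ^ 2) := by
      rw [div_div]; gcongr; nlinarith
    have w3 : C / (1 + s ^ 2) ≤ 1 / 2 := by
      rw [div_le_iff₀ (by positivity)]; nlinarith
    have w4 := norm_log_one_add_half_le_self (w1.trans (w2.trans w3))
    rw [← sub_eq_add_neg] at w4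
    have w5 := (le_div_iff₀ (by positivity)).1 (w1.trans w2)
    have w6 := mul_le_mul_of_nonneg_right w4 (by positivity : 0 ≤ 1 + s ^ 2)
    linarith

/-- A quotient of two points of the upper half-plane lies in the slit plane. -/
theorem one_sub_div_mem_slitPlane {z b : ℂ} (hz : 0 < z.im) (hb : b.im < z.im) :
    1 - b / z ∈ slitPlane := by
  have z0 : z ≠ 0 := fun h => by simp [h] at hz
  by_contra hc
  rw [mem_slitPlane_iff, not_or, not_lt, not_not] at hc
  have e : (z - b).im = ((1 - b / z) * z).im := by congr 1; field_simp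
  rw [mul_im, hc.2, sub_im] at e
  nlinarith [hc.1]

/-- Two families of `n` points moving continuously in the upper half-plane, with the same
product, whose arguments tend to `π/2`. The difference `F` of the sums of arguments is continuous
on `[η, ∞)`, `exp (i F) = 1`, and `F → 0`; if `F η ≠ 0` then `|F η| ≥ 2π` and the intermediate
value theorem gives a point with `F = ± π`. -/
theorem sum_arg_eq {α α' : Type*} (s : Finset α) (s' : Finset α') (hs : s.card = s'.card)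
    (f : α → ℝ → ℂ) (g : α' → ℝ → ℂ) {η : ℝ}
    (hf : ∀ i ∈ s, ContinuousOn (f i) (Ici η) ∧ (∀ y, η ≤ y → 0 < (f i y).im) ∧
      Tendsto (fun y => arg (f i y)) atTop (𝓝 (Real.pi / 2)))
    (hg : ∀ i ∈ s', ContinuousOn (g i) (Ici η) ∧ (∀ y, η ≤ y → 0 < (g i y).im) ∧
      Tendsto (fun y => arg (g i y)) atTop (𝓝 (Real.pi / 2)))
    (h : ∀ y, η ≤ y → ∏ i ∈ s, f i y = ∏ i ∈ s', g i y) :
    ∑ i ∈ s, arg (f i η) = ∑ i ∈ s', arg (g i η) := by
  have ne : ∀ {w : ℂ}, 0 < w.im → w ≠ 0 := fun hw h => by simp [h] at hw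
  have ct : ∀ {F : ℝ → ℂ}, ContinuousOn F (Ici η) → (∀ y, η ≤ y → 0 < (F y).im) →
      ContinuousOn (fun y => arg (F y)) (Ici η) := fun h1 h2 =>
    continuousOn_arg.comp h1 fun y hy => Or.inr (h2 y hy).ne'
  obtain ⟨F, hF⟩ : ∃ F : ℝ → ℝ, F = fun y => ∑ i ∈ s, arg (f i y) - ∑ i ∈ s', arg (g i y) :=
    ⟨_, rfl⟩
  have F1 : ContinuousOn F (Ici η) := hF ▸
    (continuousOn_finsetSum _ fun i hi => ct (hf i hi).1 (hf i hi).2.1).sub
      (continuousOn_finsetSum _ fun i hi => ct (hg i hi).1 (hg i hi).2.1)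
  have F2 : Tendsto F atTop (𝓝 0) := by
    have := (tendsto_finsetSum s fun i hi => (hf i hi).2.2).sub
      (tendsto_finsetSum s' fun i hi => (hg i hi).2.2)
    simpa [hs, hF] using this
  have F3 : ∀ y, η ≤ y → ∃ k : ℤ, F y = 2 * Real.pi * k := fun y hy => by
    rw [hF, ← Real.Angle.angle_eq_iff_two_pi_dvd_sub,
      site2_arg_prod s _ fun i hi => ne ((hf i hi).2.1 y hy),
      site2_arg_prod s' _ fun i hi => ne ((hg i hi).2.1 y hy), h y hy]
  have hπ := Real.pi_pos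
  have hl : atTop ≤ 𝓟 (Ici η) := le_principal_iff.2 (Ici_mem_atTop η)
  have F4 : ∀ y, η ≤ y → ∀ m : ℤ, F y ≠ Real.pi * (2 * m + 1) := fun y hy m e => by
    obtain ⟨k, hk⟩ := F3 y hy
    have : (2 * k : ℝ) = 2 * m + 1 := mul_left_cancel₀ hπ.ne' (by linarith)
    have : 2 * k = 2 * m + 1 := by exact_mod_cast this
    omega
  obtain ⟨k, hk⟩ := F3 η le_rfl
  rcases lt_trichotomy k 0 with h0 | h0 | h0
  · have : (k : ℝ) ≤ -1 := by exact_mod_cast Int.le_sub_one_of_lt h0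
    obtain ⟨y, hy, e⟩ := isPreconnected_Ici.intermediate_value_Ico self_mem_Ici hl F1 F2
      (show -Real.pi ∈ _ from ⟨by nlinarith, by linarith⟩)
    exact absurd (by rw [e]; push_cast; ring) (F4 y hy (-1))
  · rw [h0, hF] at hk
    exact sub_eq_zero.1 (by simpa using hk)
  · have : (1 : ℝ) ≤ k := by exact_mod_cast h0
    obtain ⟨y, hy, e⟩ := isPreconnected_Ici.intermediate_value_Ioc self_mem_Ici hl F1 F2
      (show Real.pi ∈ _ from ⟨by linarith, by nlinarith⟩)
    exact absurd (by rw [e]; push_cast; ring) (F4 y hy 0)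

end Crest.Agent.R109
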