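import Mathlib

/-!
# R109: a truncation functional

`chi c` maps the unit disc into the strip `|Im x| < 2c`, `chi c 0 = 0`, `chi c (w0 c) = 1`.
`TT c K g` is the Taylor polynomial of degree `K` of `g ∘ chi c` evaluated at `w0 c`.
-/

set_option autoImplicit false
open Finset Filter Topology Asymptotics

namespace Crest.Agent.R109

noncomputable def chi (c : ℝ) (ω : ℂ) : ℂ := -c * Complex.log (1 - ω)

noncomputable def w0 (c : ℝ) : ℝ := 1 - Real.exp (-1 / c)

noncomputable def Rad (c : ℝ) : ℝ := (1 + w0 c) / 2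

/-- The strip. -/
def Strip (c : ℝ) : Set ℂ := {x | |x.im| < 2 * c}

noncomputable def TT (c : ℝ) (K : ℕ) (g : ℂ → ℂ) : ℂ :=
  (2 * Real.pi * Complex.I : ℂ)⁻¹ *
    ∮ ω in C(0, Rad c), g (chi c ω) * ∑ j ∈ range (K + 1), (w0 c : ℂ) ^ j / ω ^ (j + 1)

/-- The relative error of the truncation. -/
noncomputable def th (c : ℝ) (K : ℕ) : ℝ := (w0 c / Rad c) ^ (K + 1) * (Rad c / (Rad c - w0 c))

variable {c : ℝ} {K : ℕ} {f g : ℂ → ℂ}

theorem w0_pos (hc : 0 < c) : 0 < w0 c := by
  have : Real.exp (-1 / c) < 1 := Real.exp_lt_one_iff.2 (div_neg_of_neg_of_pos (by norm_num) hc)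
  unfold w0
  linarith

theorem TT_w0_lt_one (c : ℝ) : w0 c < 1 := by
  have := Real.exp_pos (-1 / c)
  unfold w0
  linarith

theorem w0_lt_Rad (hc : 0 < c) : w0 c < Rad c := by
  have := TT_w0_lt_one c
  unfold Rad
  linarith

theorem Rad_lt_one (hc : 0 < c) : Rad c < 1 := by
  have := TT_w0_lt_one c
  unfold Rad
  linarith

theorem TT_Rad_pos (hc : 0 < c) : 0 < Rad c := (w0_pos hc).trans (w0_lt_Rad hc)

theorem chi_w0 (hc : 0 < c) : chi c (w0 c) = 1 := by
  have e : (1 : ℂ) - (w0 c : ℂ) = ((Real.exp (-1 / c) : ℝ) : ℂ) := by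
    simp [w0]
  have hc' : (c : ℂ) ≠ 0 := Complex.ofReal_ne_zero.2 hc.ne'
  rw [chi, e, ← Complex.ofReal_log (Real.exp_pos _).le, Real.log_exp]
  push_cast
  field_simp

theorem TT_re_pos {ω : ℂ} (hω : ‖ω‖ < 1) : 0 < (1 - ω).re := by
  have := Complex.re_le_norm ω
  simp only [Complex.sub_re, Complex.one_re]
  linarith

/-- `Re (1 - ω) > 0` so `|arg (1 - ω)| < π/2 < 2`. -/
theorem chi_mem (hc : 0 < c) {ω : ℂ} (hω : ‖ω‖ < 1) : chi c ω ∈ Strip c := by
  have h1 : |(1 - ω).arg| < Real.pi / 2 := Complex.abs_arg_lt_pi_div_two_iff.2 (Or.inl (TT_re_pos hω))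
  have h2 : (chi c ω).im = -c * (1 - ω).arg := by
    simp [chi, Complex.log_im]
  have h3 := Real.pi_lt_four
  change |(chi c ω).im| < 2 * c
  rw [h2, abs_mul, abs_neg, abs_of_pos hc]
  nlinarith

theorem chi_differentiableAt (c : ℝ) {ω : ℂ} (hω : ‖ω‖ < 1) :
    DifferentiableAt ℂ (chi c) ω := by
  unfold chi
  refine DifferentiableAt.const_mul ?_ _
  exact DifferentiableAt.clog (by fun_prop) (Or.inl (TT_re_pos hω))

/-- Compactness of the closed ball. -/
theorem exists_chi_bound (hc : 0 < c) : ∃ X : ℝ, 1 ≤ X ∧ ∀ ω : ℂ, ‖ω‖ ≤ Rad c → ‖chi c ω‖ ≤ X := by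
  have hcont : ContinuousOn (chi c) (Metric.closedBall 0 (Rad c)) := fun ω hω =>
    (chi_differentiableAt c ((mem_closedBall_zero_iff.1 hω).trans_lt
      (Rad_lt_one hc))).continuousAt.continuousWithinAt
  obtain ⟨X, hX⟩ := (isCompact_closedBall (0 : ℂ) (Rad c)).exists_bound_of_continuousOn hcont
  exact ⟨max 1 X, le_max_left _ _, fun ω hω =>
    (hX ω (mem_closedBall_zero_iff.2 hω)).trans (le_max_right _ _)⟩

theorem th_pos (hc : 0 < c) (K : ℕ) : 0 < th c K := by
  have h1 := w0_pos hc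
  have h2 := TT_Rad_pos hc
  have h3 := sub_pos.2 (w0_lt_Rad hc)
  unfold th
  positivity

theorem th_tendsto (hc : 0 < c) : Tendsto (th c) atTop (𝓝 0) := by
  have h1 := w0_pos hc
  have h2 := TT_Rad_pos hc
  have h := tendsto_pow_atTop_nhds_zero_of_lt_one (r := w0 c / Rad c) (by positivity)
    ((div_lt_one h2).2 (w0_lt_Rad hc))
  have := (h.comp (tendsto_add_atTop_nat 1)).mul_const (Rad c / (Rad c - w0 c))
  rw [zero_mul] at this
  exact this

theorem TT_sphere_lt (hc : 0 < c) {ω : ℂ} (hω : ω ∈ Metric.sphere (0 : ℂ) (Rad c)) : ‖ω‖ < 1 := by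
  rw [mem_sphere_zero_iff_norm.1 hω]
  exact Rad_lt_one hc

theorem TT_sphere_ne (hc : 0 < c) {ω : ℂ} (hω : ω ∈ Metric.sphere (0 : ℂ) (Rad c)) : ω ≠ 0 := by
  rw [← norm_ne_zero_iff, mem_sphere_zero_iff_norm.1 hω]
  exact (TT_Rad_pos hc).ne'

theorem TT_isOpen_Strip (c : ℝ) : IsOpen (Strip c) :=
  isOpen_lt (continuous_abs.comp Complex.continuous_im) continuous_const

theorem TT_diff_comp (hc : 0 < c) (hg : DifferentiableOn ℂ g (Strip c)) {ω : ℂ} (hω : ‖ω‖ < 1) :
    DifferentiableAt ℂ (fun ω => g (chi c ω)) ω :=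
  (hg.differentiableAt ((TT_isOpen_Strip c).mem_nhds (chi_mem hc hω))).comp ω
    (chi_differentiableAt c hω)

theorem TT_circleIntegrable (hc : 0 < c) (hg : DifferentiableOn ℂ g (Strip c)) :
    CircleIntegrable
      (fun ω => g (chi c ω) * ∑ j ∈ range (K + 1), (w0 c : ℂ) ^ j / ω ^ (j + 1)) 0 (Rad c) := by
  refine ContinuousOn.circleIntegrable (TT_Rad_pos hc).le fun ω hω => ?_
  refine ((TT_diff_comp hc hg (TT_sphere_lt hc hω)).continuousAt.mul ?_).continuousWithinAt
  refine tendsto_finsetSum _ fun j _ => ?_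
  exact ContinuousAt.div continuousAt_const (continuousAt_id.pow _)
    (pow_ne_zero _ (TT_sphere_ne hc hω))

theorem TT_congr (hc : 0 < c) (h : ∀ x ∈ Strip c, f x = g x) : TT c K f = TT c K g := by
  unfold TT
  congr 1
  refine circleIntegral.integral_congr (TT_Rad_pos hc).le fun ω hω => ?_
  rw [h _ (chi_mem hc (TT_sphere_lt hc hω))]

theorem TT_zero (c : ℝ) (K : ℕ) : TT c K (fun _ => 0) = 0 := by
  simp [TT, circleIntegral]

theorem TT_add (hc : 0 < c) (hf : DifferentiableOn ℂ f (Strip c))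
    (hg : DifferentiableOn ℂ g (Strip c)) :
    TT c K (fun x => f x + g x) = TT c K f + TT c K g := by
  unfold TT
  rw [← mul_add, ← circleIntegral.integral_add (TT_circleIntegrable hc hf)
    (TT_circleIntegrable hc hg)]
  simp only [add_mul]

theorem TT_sub (hc : 0 < c) (hf : DifferentiableOn ℂ f (Strip c))
    (hg : DifferentiableOn ℂ g (Strip c)) :
    TT c K (fun x => f x - g x) = TT c K f - TT c K g := by
  unfold TT
  rw [← mul_sub, ← circleIntegral.integral_sub (TT_circleIntegrable hc hf)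
    (TT_circleIntegrable hc hg)]
  simp only [sub_mul]

/-- `G = g ∘ chi c` is analytic on the unit disc and `O(ω^(K+1))` at `0` (`chi c ω = O(ω)`), so
each `G ω / ω^(j+1)`, `j ≤ K`, is bounded near `0`: removable singularity
(`Complex.differentiableOn_update_limUnder_of_bddAbove`), and the circle integral vanishes
(`Complex.circleIntegral_eq_zero_of_differentiable_on_off_countable`). -/
theorem TT_eq_zero (hc : 0 < c) (hg : DifferentiableOn ℂ g (Strip c))
    (h : g =O[𝓝 0] fun x => x ^ (K + 1)) : TT c K g = 0 := by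
  have h0 : chi c 0 = 0 := by simp [chi]
  have hd0 : DifferentiableAt ℂ (chi c) 0 := chi_differentiableAt c (by simp)
  have hO : chi c =O[𝓝 0] fun ω : ℂ => ω := by
    simpa [h0] using hd0.isBigO_sub
  have ht : Tendsto (chi c) (𝓝 0) (𝓝 0) := by
    simpa [h0] using hd0.continuousAt.tendsto
  have hG : (fun ω => g (chi c ω)) =O[𝓝 0] fun ω : ℂ => ω ^ (K + 1) :=
    (h.comp_tendsto ht).trans (hO.pow _)
  let F : ℂ → ℂ := fun ω => g (chi c ω) * ∑ j ∈ range (K + 1), (w0 c : ℂ) ^ j / ω ^ j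
  have hF : ∀ ω : ℂ, ‖ω‖ < 1 → ω ≠ 0 → DifferentiableAt ℂ F ω := by
    intro ω h1 h2
    refine (TT_diff_comp hc hg h1).mul (DifferentiableAt.fun_sum fun j _ => ?_)
    exact DifferentiableAt.div (differentiableAt_const _) (differentiableAt_id.pow _)
      (pow_ne_zero _ h2)
  have hlim : Tendsto F (𝓝[≠] 0) (𝓝 0) := by
    refine tendsto_nhdsWithin_of_tendsto_nhds ?_
    have : ∀ j ∈ range (K + 1),
        Tendsto (fun ω : ℂ => (w0 c : ℂ) ^ j * (g (chi c ω) / ω ^ j)) (𝓝 0) (𝓝 0) := by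
      intro j hj
      have := (hG.trans_isLittleO (isLittleO_pow_pow (mem_range.1 hj))).tendsto_div_nhds_zero
      simpa using this.const_mul ((w0 c : ℂ) ^ j)
    have := tendsto_finsetSum _ this
    rw [sum_const_zero] at this
    refine this.congr fun ω => ?_
    simp only [F, mul_sum]
    exact sum_congr rfl fun j _ => by ring
  have key := Complex.circleIntegral_sub_center_inv_smul_of_differentiable_on_off_countable_of_tendsto
    (TT_Rad_pos hc) (f := F) Set.countable_empty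
    (fun ω hω => (hF ω ((mem_closedBall_zero_iff.1 hω.1).trans_lt (Rad_lt_one hc))
      hω.2).continuousAt.continuousWithinAt)
    (fun ω hω => hF ω ((mem_ball_zero_iff.1 hω.1.1).trans (Rad_lt_one hc)) hω.1.2) hlim
  rw [smul_zero] at key
  unfold TT
  refine mul_eq_zero_of_right _ (Eq.trans ?_ key)
  congr 1
  funext ω
  simp only [F, sub_zero, smul_eq_mul, mul_sum]
  exact sum_congr rfl fun j _ => by ring

theorem TT_geom {w ω : ℂ} (h0 : ω ≠ 0) (h1 : ω - w ≠ 0) (K : ℕ) :
    ∑ j ∈ range (K + 1), w ^ j / ω ^ (j + 1) - (ω - w)⁻¹ = -((w / ω) ^ (K + 1) / (ω - w)) := by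
  induction K with
  | zero =>
    simp only [zero_add, range_one, sum_singleton]
    field_simp
    ring
  | succ K ih =>
    rw [sum_range_succ, add_sub_right_comm, ih]
    simp only [div_pow]
    field_simp
    ring

/-- Cauchy's formula `g 1 = (2πi)⁻¹ ∮ G ω / (ω - w0)` and the finite geometric sum
`1/(ω - w0) - ∑_{j ≤ K} w0^j / ω^(j+1) = (w0/ω)^(K+1) / (ω - w0)`;
`circleIntegral.norm_two_pi_i_inv_smul_integral_le_of_norm_le_const`. -/
theorem TT_sub_le (hc : 0 < c) (hg : DifferentiableOn ℂ g (Strip c)) {M : ℝ}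
    (hM : ∀ ω : ℂ, ‖ω‖ ≤ Rad c → ‖g (chi c ω)‖ ≤ M) : ‖TT c K g - g 1‖ ≤ M * th c K := by
  have hR := TT_Rad_pos hc
  have hw := w0_pos hc
  have hlt := w0_lt_Rad hc
  have hball : (w0 c : ℂ) ∈ Metric.ball (0 : ℂ) (Rad c) := by
    rw [mem_ball_zero_iff, Complex.norm_real, Real.norm_of_nonneg hw.le]
    exact hlt
  have hd : DifferentiableOn ℂ (fun ω => g (chi c ω)) (Metric.closedBall 0 (Rad c)) := fun ω hω =>
    (TT_diff_comp hc hg ((mem_closedBall_zero_iff.1 hω).trans_lt
      (Rad_lt_one hc))).differentiableWithinAt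
  have h1 := (hd.mono Metric.closure_ball_subset_closedBall).diffContOnCl
    |>.two_pi_i_inv_smul_circleIntegral_sub_inv_smul hball
  rw [chi_w0 hc] at h1
  have hge : ∀ ω ∈ Metric.sphere (0 : ℂ) (Rad c), Rad c - w0 c ≤ ‖ω - w0 c‖ := by
    intro ω hω
    have := norm_sub_norm_le ω (w0 c)
    rwa [mem_sphere_zero_iff_norm.1 hω, Complex.norm_real, Real.norm_of_nonneg hw.le] at this
  have hne : ∀ ω ∈ Metric.sphere (0 : ℂ) (Rad c), ω - w0 c ≠ 0 := fun ω hω =>
    norm_pos_iff.1 ((sub_pos.2 hlt).trans_le (hge ω hω))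
  have hi : CircleIntegrable (fun ω => (ω - w0 c)⁻¹ • g (chi c ω)) 0 (Rad c) := by
    refine ContinuousOn.circleIntegrable hR.le fun ω hω => ?_
    have h2 : ContinuousAt (fun ω : ℂ => (ω - w0 c)⁻¹) ω :=
      (continuousAt_id.sub continuousAt_const).inv₀ (hne ω hω)
    exact (h2.smul (TT_diff_comp hc hg (TT_sphere_lt hc hω)).continuousAt).continuousWithinAt
  have hM0 : 0 ≤ M := (norm_nonneg _).trans (hM 0 (by simpa using hR.le))
  rw [← h1, TT, ← smul_eq_mul, ← smul_sub,
    ← circleIntegral.integral_sub (TT_circleIntegrable hc hg) hi]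
  refine (circleIntegral.norm_two_pi_i_inv_smul_integral_le_of_norm_le_const
    (C := M * ((w0 c / Rad c) ^ (K + 1) / (Rad c - w0 c))) hR.le fun ω hω => ?_).trans
    (le_of_eq ?_)
  · rw [smul_eq_mul, mul_comm (ω - w0 c)⁻¹, ← mul_sub,
      TT_geom (TT_sphere_ne hc hω) (hne ω hω), norm_mul, norm_neg, norm_div, norm_pow, norm_div,
      mem_sphere_zero_iff_norm.1 hω, Complex.norm_real, Real.norm_of_nonneg hw.le]
    refine mul_le_mul (hM ω (mem_sphere_zero_iff_norm.1 hω).le) ?_ (by positivity) hM0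
    exact div_le_div_of_nonneg_left (by positivity) (sub_pos.2 hlt) (hge ω hω)
  · unfold th
    ring

/-- Parametric continuity (`intervalIntegral.continuous_parametric_intervalIntegral_of_continuous'`;
`(s, θ) ↦ (s, chi c (circleMap 0 (Rad c) θ))` is continuous into `E × Strip c`). -/
theorem TT_continuous (hc : 0 < c) {E : Type*} [TopologicalSpace E] {g : E → ℂ → ℂ}
    (hg : Continuous fun p : E × Strip c => g p.1 p.2) : Continuous fun s => TT c K (g s) := by
  have hR := TT_Rad_pos hc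
  have hs : ∀ θ : ℝ, circleMap 0 (Rad c) θ ∈ Metric.sphere (0 : ℂ) (Rad c) := fun θ =>
    circleMap_mem_sphere 0 hR.le θ
  have h1 : Continuous fun θ : ℝ => chi c (circleMap 0 (Rad c) θ) :=
    continuous_iff_continuousAt.2 fun θ =>
      ContinuousAt.comp (f := circleMap 0 (Rad c))
        (chi_differentiableAt c (TT_sphere_lt hc (hs θ))).continuousAt
        (continuous_circleMap _ _).continuousAt
  have h2 : Continuous fun p : E × ℝ => g p.1 (chi c (circleMap 0 (Rad c) p.2)) :=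
    hg.comp (continuous_fst.prodMk
      ((h1.subtype_mk fun θ => chi_mem hc (TT_sphere_lt hc (hs θ))).comp continuous_snd))
  have h3 : Continuous fun θ : ℝ =>
      ∑ j ∈ range (K + 1), (w0 c : ℂ) ^ j / circleMap 0 (Rad c) θ ^ (j + 1) :=
    continuous_finsetSum _ fun j _ => continuous_const.div ((continuous_circleMap _ _).pow _)
      fun θ => pow_ne_zero _ (TT_sphere_ne hc (hs θ))
  have h4 : Continuous fun θ : ℝ => deriv (circleMap 0 (Rad c)) θ := by
    simp only [deriv_circleMap]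
    exact (continuous_circleMap _ _).mul continuous_const
  unfold TT circleIntegral
  refine continuous_const.mul
    (intervalIntegral.continuous_parametric_intervalIntegral_of_continuous' ?_ _ _)
  exact (h4.comp continuous_snd).smul (h2.mul (h3.comp continuous_snd))

end Crest.Agent.R109
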