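import Crest.Agent.R109.Stab
import Crest.Agent.R109.TT
import Crest.Agent.R109.Site2

/-!
# R109: the increments `jT`, `jE` of the potential
-/

set_option autoImplicit false
open Finset Filter Topology MeasureTheory Complex

namespace Crest.Agent.R109

/-- State of a vertex: uncoloured, coloured, deleted. -/
inductive St (ι : Type*) where
  | unc : St ι
  | col (i : ι) : St ι
  | del : St ι
  deriving DecidableEq

def St.kind {ι : Type*} : St ι → Option (Finset ι)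
  | .unc => none
  | .col i => some {i}
  | .del => some ∅

def St.kap {ι : Type*} : St ι → ℝ
  | .col _ => 240
  | _ => 1

variable {V ι : Type*} [DecidableEq V] [Fintype ι] [DecidableEq ι]

/-- Heights `κ (t + ζ / wt + i η)`. -/
noncomputable def ht (t η : ℝ) (wt : V → ℝ) (σ : V → St ι) (ζ : ℂ) (w : V) : ℂ :=
  (σ w).kap * (t + ζ / wt w + η * I)

noncomputable def Zf (t η : ℝ) (a : V → V → ℂ) (wt : V → ℝ) (Λ : Finset V) (σ : V → St ι)
    (ζ x : ℂ) : ℂ :=
  ZG a x Λ (fun w => (σ w).kind) (ht t η wt σ ζ)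

/-- Self-energy of `v ∈ Λ` in copy `i`. -/
noncomputable def bC (t η : ℝ) (a : V → V → ℂ) (wt : V → ℝ) (Λ : Finset V) (σ : V → St ι)
    (v : V) (i : ι) (ζ x : ℂ) : ℂ :=
  bG a x (Λ.erase v) (fun w => (σ w).kind) (ht t η wt σ ζ) v i

/-- Average of `b` according to a state. -/
noncomputable def St.av (s : St ι) (b : ι → ℂ) : ℂ :=
  match s with
  | .unc => (∑ i, b i) / Fintype.card ι
  | .col i => b i
  | .del => 0

noncomputable def ell (t η : ℝ) (a : V → V → ℂ) (wt : V → ℝ) (Λ : Finset V) (σ : V → St ι)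
    (v : V) (u : ℝ) (x : ℂ) : ℂ :=
  log (Zf t η a wt Λ σ u x / Zf t η a wt (Λ.erase v) σ u x)

/-- The truncated (exactly local) increment. -/
noncomputable def jT (t η : ℝ) (K : ℕ) (a : V → V → ℂ) (wt : V → ℝ) (Λ : Finset V)
    (σ : V → St ι) (v : V) : ℝ :=
  ∫ u in Set.Ioi (0 : ℝ), (TT (η / 4) K (ell t η a wt Λ σ v u)).im

/-- The exact increment. -/
noncomputable def jE (t η : ℝ) (a : V → V → ℂ) (wt : V → ℝ) (Λ : Finset V) (σ : V → St ι)
    (v : V) : ℝ :=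
  ∫ u in Set.Ioi (0 : ℝ), (ell t η a wt Λ σ v u 1).im

/-- Standing assumptions. -/
structure Ok (t η : ℝ) (a : V → V → ℂ) (wt : V → ℝ) : Prop where
  t_pos : 0 < t
  η_pos : 0 < η
  herm : Herm a
  pos : ∀ w, 0 < wt w

/-- Neighbours have comparable weights. -/
def Nb (ρ : ℝ) (a : V → V → ℂ) (wt : V → ℝ) (Λ : Finset V) : Prop :=
  ∀ p ∈ Λ, ∀ q ∈ Λ, a p q ≠ 0 → wt q ≤ ρ * wt p

/-- The constant in `norm_bC_le`. -/
noncomputable def Cb (η X ρ : ℝ) : ℝ :=
  (1 + η / (4 * X)) * X ^ 2 / min (η / 4) (η / (4 * X * ρ))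

/-- `M` is an envelope constant. -/
def IsEnv (t η ρ M : ℝ) : Prop :=
  ∃ X : ℝ, 1 ≤ X ∧ (∀ ω : ℂ, ‖ω‖ ≤ Rad (η / 4) → ‖chi (η / 4) ω‖ ≤ X) ∧
    ∀ κ : ℝ, 1 ≤ κ → κ ≤ 240 → ∀ s : ℝ, 0 ≤ s → ∀ b : ℂ, b.im ≤ η / 2 →
      ‖b‖ ≤ Cb η X ρ / (1 + s) → ‖log (1 - b / (κ * (t + s + η * I)))‖ ≤ M / (1 + s ^ 2)

theorem JDef_Cb_pos {η X ρ : ℝ} (hη : 0 < η) (hX : 1 ≤ X) (hρ : 0 < ρ) : 0 < Cb η X ρ := by
  have hX0 : 0 < X := by linarith
  unfold Cb
  positivity

theorem JDef_one_le_kap {ι : Type*} (s : St ι) : 1 ≤ s.kap := by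
  cases s <;> simp [St.kap]

theorem JDef_kap_le {ι : Type*} (s : St ι) : s.kap ≤ 240 := by
  cases s <;> simp [St.kap]

theorem JDef_av_im_le {ι : Type*} [Fintype ι] [Nonempty ι] (s : St ι) {b : ι → ℂ} {y : ℝ}
    (hy : 0 ≤ y) (h : ∀ i, (b i).im ≤ y) : (s.av b).im ≤ y := by
  cases s with
  | unc =>
    have hc : (0 : ℝ) < Fintype.card ι := Nat.cast_pos.2 Fintype.card_pos
    simp only [St.av]
    rw [div_natCast_im, im_sum, div_le_iff₀ hc]
    refine (sum_le_sum fun i _ => h i).trans (le_of_eq ?_)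
    simp [mul_comm]
  | col i => exact h i
  | del => exact hy

theorem JDef_av_norm_le {ι : Type*} [Fintype ι] [Nonempty ι] (s : St ι) {b : ι → ℂ} {y : ℝ}
    (hy : 0 ≤ y) (h : ∀ i, ‖b i‖ ≤ y) : ‖s.av b‖ ≤ y := by
  cases s with
  | unc =>
    have hc : (0 : ℝ) < Fintype.card ι := Nat.cast_pos.2 Fintype.card_pos
    simp only [St.av]
    rw [norm_div, Complex.norm_natCast, div_le_iff₀ hc]
    refine ((norm_sum_le _ _).trans (sum_le_sum fun i _ => h i)).trans (le_of_eq ?_)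
    simp [mul_comm]
  | col i => exact h i
  | del => simpa [St.av] using hy

theorem JDef_int {w : ℝ} (hw : 0 < w) (M : ℝ) :
    Integrable (fun u : ℝ => M / (1 + (u / w) ^ 2)) ∧
      ∫ u in Set.Ioi (0 : ℝ), M / (1 + (u / w) ^ 2) = M * (w * (Real.pi / 2)) := by
  simp only [div_eq_mul_inv M]
  refine ⟨(integrable_inv_one_add_sq.comp_div hw.ne').const_mul M, ?_⟩
  rw [integral_const_mul]
  congr 1
  have := integral_comp_mul_right_Ioi (fun x : ℝ => (1 + x ^ 2)⁻¹) 0 (inv_pos.2 hw)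
  simp only [div_eq_mul_inv _ w]
  rw [this, integral_Ioi_inv_one_add_sq]
  simp

theorem JDef_strip {η : ℝ} {x : ℂ} (hx : x ∈ Strip (η / 4)) : |x.im| < η / 2 := by
  have : |x.im| < 2 * (η / 4) := hx
  linarith

theorem exists_isEnv {t η ρ : ℝ} (ht : 0 < t) (hη : 0 < η) (hρ : 0 < ρ) :
    ∃ M > 0, IsEnv t η ρ M := by
  obtain ⟨X, hX, hX'⟩ := exists_chi_bound (c := η / 4) (by positivity)
  obtain ⟨M, hM, hM'⟩ := exists_env ht hη (JDef_Cb_pos hη hX hρ)
  exact ⟨M, hM, X, hX, hX', hM'⟩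

variable {t η ρ M : ℝ} {K : ℕ} {a : V → V → ℂ} {wt : V → ℝ} {Λ : Finset V} {σ : V → St ι}
  {v : V} {ζ x : ℂ}

omit [DecidableEq V] in
theorem exists_nb (a : V → V → ℂ) (hw : ∀ w, 0 < wt w) (Λ : Finset V) : ∃ ρ > 0, Nb ρ a wt Λ := by
  have h0 : ∀ p q, 0 ≤ wt q / wt p := fun p q => (div_pos (hw q) (hw p)).le
  have h1 : ∀ p, 0 ≤ ∑ q ∈ Λ, wt q / wt p := fun p => sum_nonneg fun q _ => h0 p q
  have h2 : 0 ≤ ∑ p ∈ Λ, ∑ q ∈ Λ, wt q / wt p := sum_nonneg fun p _ => h1 p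
  refine ⟨1 + ∑ p ∈ Λ, ∑ q ∈ Λ, wt q / wt p, by linarith, fun p hp q hq _ => ?_⟩
  rw [← div_le_iff₀ (hw p)]
  have h3 := single_le_sum (f := fun q => wt q / wt p) (fun q _ => h0 p q) hq
  have h4 := single_le_sum (f := fun p => ∑ q ∈ Λ, wt q / wt p) (fun p _ => h1 p) hp
  linarith

omit [DecidableEq V] in
theorem Nb.mono {Λ' : Finset V} (h : Nb ρ a wt Λ) (hΛ : Λ' ⊆ Λ) : Nb ρ a wt Λ' := by
  exact fun p hp q hq => h p (hΛ hp) q (hΛ hq)

omit [DecidableEq V] [Fintype ι] [DecidableEq ι] in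
theorem Ok.le_im_ht (h : Ok t η a wt) (hζ : 0 ≤ ζ.im) (σ : V → St ι) (w : V) :
    η ≤ (ht t η wt σ ζ w).im := by
  have e : (ht t η wt σ ζ w).im = (σ w).kap * (ζ.im / wt w + η) := by
    simp [ht, div_ofReal_im]
  have h1 := JDef_one_le_kap (σ w)
  have h2 : 0 ≤ ζ.im / wt w := div_nonneg hζ (h.pos w).le
  have h3 := h.η_pos
  rw [e]
  nlinarith

variable [Nonempty ι]

omit [DecidableEq V] [Fintype ι] [DecidableEq ι] [Nonempty ι] in
theorem Ok.ht_ne_zero (h : Ok t η a wt) (hζ : 0 ≤ ζ.im) (σ : V → St ι) (w : V) :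
    ht t η wt σ ζ w ≠ 0 :=
  zi_ne (h.η_pos.trans_le (h.le_im_ht hζ σ w))

theorem Ok.Zf_ne_zero (h : Ok t η a wt) (hζ : 0 ≤ ζ.im) (hx : |x.im| < η) :
    Zf t η a wt Λ σ ζ x ≠ 0 := by
  refine ZG_ne_zero h.herm 1 fun w _ => ?_
  rw [one_mul, one_mul]
  exact hx.trans_le (h.le_im_ht hζ σ w)

/-- `ZG_insert_none`, `ZG_insert_single`, `ZG_erase_del`. -/
theorem Ok.ratio_eq (h : Ok t η a wt) (hv : v ∈ Λ) (hζ : 0 ≤ ζ.im) (hx : |x.im| < η) :
    Zf t η a wt Λ σ ζ x / Zf t η a wt (Λ.erase v) σ ζ x =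
      1 - (σ v).av (fun i => bC t η a wt Λ σ v i ζ x) / ht t η wt σ ζ v := by
  have h0 : Zf t η a wt (Λ.erase v) σ ζ x ≠ 0 := h.Zf_ne_zero hζ hx
  have h1 := h.ht_ne_zero hζ σ v
  have hc : (Fintype.card ι : ℂ) ≠ 0 := Nat.cast_ne_zero.2 Fintype.card_ne_zero
  have e : Zf t η a wt Λ σ ζ x = Zf t η a wt (insert v (Λ.erase v)) σ ζ x := by
    rw [insert_erase hv]
  rw [e]
  unfold Zf bC bG at *
  cases hs : σ v with
  | unc =>
    rw [ZG_insert_none (notMem_erase v Λ) (by rw [hs]; rfl)]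
    simp only [St.av, ← sum_div]
    field_simp
  | col i =>
    rw [ZG_insert_single (i := i) (notMem_erase v Λ) (by rw [hs]; rfl)]
    simp only [St.av]
    field_simp
  | del =>
    rw [insert_erase hv, ZG_erase_del (v := v) (by rw [hs]; rfl), div_self h0]
    simp [St.av]

/-- `bG_im_le` with `l = 1`, then convexity. -/
theorem Ok.im_av_le (h : Ok t η a wt) (hζ : 0 ≤ ζ.im) (hx : |x.im| < η) (s : St ι) :
    (s.av fun i => bC t η a wt Λ σ v i ζ x).im ≤ |x.im| := by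
  refine JDef_av_im_le s (abs_nonneg _) fun i => ?_
  have := bG_im_le (x := x) (k := fun w => (σ w).kind) (z := ht t η wt σ ζ) h.herm
    (notMem_erase v Λ) 1 (fun w _ => by
      rw [one_mul, one_mul]
      exact hx.trans_le (h.le_im_ht hζ σ w)) i
  rwa [one_mul, one_mul] at this

theorem Ok.ratio_mem (h : Ok t η a wt) (hζ : 0 ≤ ζ.im) (hx : |x.im| < η) :
    Zf t η a wt Λ σ ζ x / Zf t η a wt (Λ.erase v) σ ζ x ∈ slitPlane := by
  by_cases hv : v ∈ Λ
  · rw [h.ratio_eq hv hζ hx]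
    have h1 := h.le_im_ht hζ σ v
    exact one_sub_div_mem_slitPlane (h.η_pos.trans_le h1)
      (((h.im_av_le hζ hx _).trans_lt hx).trans_le h1)
  · rw [erase_eq_of_notMem hv, div_self (h.Zf_ne_zero hζ hx)]
    exact one_mem_slitPlane

theorem Ok.ell_differentiableOn (h : Ok t η a wt) (u : ℝ) :
    DifferentiableOn ℂ (ell t η a wt Λ σ v u) (Strip (η / 4)) := by
  intro x hx
  have hx' : |x.im| < η := by
    have := JDef_strip hx
    have := h.η_pos
    linarith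
  have hu : 0 ≤ (u : ℂ).im := (ofReal_im u).ge
  have key : ∀ Λ' : Finset V, DifferentiableAt ℂ (fun x => Zf t η a wt Λ' σ u x) x := fun Λ' =>
    ZG_differentiableAt (x := fun x : ℂ => x) (z := fun _ => ht t η wt σ u) differentiableAt_id
      (fun w _ => differentiableAt_const _) fun w _ => h.ht_ne_zero hu σ w
  exact (((key Λ).div (key _) (h.Zf_ne_zero hu hx')).clog
    (h.ratio_mem hu hx')).differentiableWithinAt

/-- `bG_norm_le` with `l = 1 + s i`, `s = η / (4X)`, `y = η/4 + s (u / wt v) / ρ`. -/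
theorem Ok.norm_bC_le (h : Ok t η a wt) (hρ : 0 < ρ) (hn : Nb ρ a wt Λ) (hv : v ∈ Λ) {X u : ℝ}
    (hX : 1 ≤ X) (hx : |x.im| < η / 2) (hxX : ‖x‖ ≤ X) (hu : 0 ≤ u) (i : ι) :
    ‖bC t η a wt Λ σ v i u x‖ ≤ Cb η X ρ / (1 + u / wt v) := by
  have hη := h.η_pos
  have ht0 := h.t_pos
  have hX0 : 0 < X := by linarith
  have hwv := h.pos v
  obtain ⟨s, hs⟩ : ∃ s : ℝ, s = η / (4 * X) := ⟨_, rfl⟩
  have hs0 : 0 < s := by
    rw [hs]
    positivity
  have hsX : s * X = η / 4 := by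
    rw [hs]
    field_simp
  have h1 : |((1 + s * I) * x).im| ≤ 3 * η / 4 := by
    have e : ((1 + s * I) * x).im = x.im + s * x.re := by simp
    have h2 : |s * x.re| ≤ s * X := by
      rw [abs_mul, abs_of_pos hs0]
      exact mul_le_mul_of_nonneg_left ((abs_re_le_norm x).trans hxX) hs0.le
    have h3 := abs_add_le x.im (s * x.re)
    rw [e]
    linarith
  have h2 : ∀ w, η + s * (u / wt w) ≤ ((1 + s * I) * ht t η wt σ u w).im := by
    intro w
    have e : ((1 + s * I) * ht t η wt σ u w).im = (σ w).kap * (η + s * (t + u / wt w)) := by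
      simp [ht, div_ofReal_im, div_ofReal_re]
      ring
    have h3 := JDef_one_le_kap (σ w)
    have h4 : 0 ≤ s * (u / wt w) := mul_nonneg hs0.le (div_nonneg hu (h.pos w).le)
    have h5 : 0 ≤ s * t := by positivity
    rw [e]
    nlinarith
  have hy : 0 < η / 4 + s * (u / wt v) / ρ := by positivity
  refine (bG_norm_le h.herm (notMem_erase v Λ) (1 + s * I) hy (fun w _ => ?_)
    (fun w hw hvw => ?_) i).trans ?_
  · have h4 : 0 ≤ s * (u / wt w) := mul_nonneg hs0.le (div_nonneg hu (h.pos w).le)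
    have := h2 w
    linarith
  · have h3 : u / wt v / ρ ≤ u / wt w := by
      rw [div_div, mul_comm]
      exact div_le_div_of_nonneg_left hu (h.pos w) (hn v hv w (mem_of_mem_erase hw) hvw)
    have h4 := mul_le_mul_of_nonneg_left h3 hs0.le
    have := h2 w
    rw [mul_div_assoc]
    linarith
  · have h3 : ‖(1 + s * I : ℂ)‖ ≤ 1 + s := by
      refine (norm_add_le _ _).trans (le_of_eq ?_)
      simp [abs_of_pos hs0]
    have hm : 0 < min (η / 4) (η / (4 * X * ρ)) := by positivity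
    have h4 : min (η / 4) (η / (4 * X * ρ)) * (1 + u / wt v) ≤ η / 4 + s * (u / wt v) / ρ := by
      have h5 := min_le_left (η / 4) (η / (4 * X * ρ))
      have h6 := mul_le_mul_of_nonneg_right (min_le_right (η / 4) (η / (4 * X * ρ)))
        (div_nonneg hu hwv.le)
      have h7 : η / (4 * X * ρ) * (u / wt v) = s * (u / wt v) / ρ := by
        rw [hs]
        ring
      linarith
    rw [Cb, div_div, ← hs]
    gcongr

/-- If `v ∉ Λ` the left side is `log 1 = 0` (and `0 ≤ M` follows from `IsEnv` with `b = 0`). -/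
theorem Ok.ell_env (h : Ok t η a wt) (hρ : 0 < ρ) (hn : Nb ρ a wt Λ) (hM : IsEnv t η ρ M)
    {u : ℝ} (hu : 0 ≤ u) {ω : ℂ} (hω : ‖ω‖ ≤ Rad (η / 4)) :
    ‖ell t η a wt Λ σ v u (chi (η / 4) ω)‖ ≤ M / (1 + (u / wt v) ^ 2) := by
  obtain ⟨X, hX, hX', hM⟩ := hM
  have hη := h.η_pos
  have hx := JDef_strip (chi_mem (c := η / 4) (by positivity)
    (hω.trans_lt (Rad_lt_one (by positivity))))
  have hx' : |(chi (η / 4) ω).im| < η := by linarith
  have hu' : 0 ≤ (u : ℂ).im := (ofReal_im u).ge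
  have hs : 0 ≤ u / wt v := div_nonneg hu (h.pos v).le
  have hC : 0 ≤ Cb η X ρ / (1 + u / wt v) := by
    have := JDef_Cb_pos hη hX hρ
    positivity
  have key := hM _ (JDef_one_le_kap (σ v)) (JDef_kap_le (σ v)) _ hs
  unfold ell
  by_cases hv : v ∈ Λ
  · rw [h.ratio_eq hv hu' hx', ht, ← ofReal_div]
    exact key _ ((h.im_av_le hu' hx' _).trans hx.le)
      (JDef_av_norm_le _ hC fun i => h.norm_bC_le hρ hn hv hX hx (hX' ω hω) hu i)
  · rw [erase_eq_of_notMem hv, div_self (h.Zf_ne_zero hu' hx')]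
    have := key 0 (by simp; positivity) (by simpa using hC)
    rwa [zero_div, sub_zero] at this

/-- `TT_sub_le`, `chi_w0`. -/
theorem Ok.TT_env (h : Ok t η a wt) (hρ : 0 < ρ) (hn : Nb ρ a wt Λ) (hM : IsEnv t η ρ M)
    {u : ℝ} (hu : 0 ≤ u) :
    ‖ell t η a wt Λ σ v u 1‖ ≤ M / (1 + (u / wt v) ^ 2) ∧
    ‖TT (η / 4) K (ell t η a wt Λ σ v u) - ell t η a wt Λ σ v u 1‖ ≤
      M / (1 + (u / wt v) ^ 2) * th (η / 4) K := by
  have hc : 0 < η / 4 := by
    have := h.η_pos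
    positivity
  refine ⟨?_, TT_sub_le hc (h.ell_differentiableOn u) fun ω hω => h.ell_env hρ hn hM hu hω⟩
  rw [← chi_w0 hc]
  refine h.ell_env hρ hn hM hu ?_
  rw [norm_real, Real.norm_of_nonneg (w0_pos hc).le]
  exact (w0_lt_Rad hc).le

/-- Joint continuity (`ZG_continuousAt`, `ratio_mem`, `continuousAt_clog`). -/
theorem ell_continuous {E : Type*} [TopologicalSpace E] {a : E → V → V → ℂ} {wt : E → V → ℝ}
    (h : ∀ s, Ok t η (a s) (wt s)) (ha : ∀ p ∈ Λ, ∀ q ∈ Λ, Continuous fun s => a s p q)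
    (hw : ∀ p ∈ Λ, Continuous fun s => wt s p) :
    Continuous fun p : (E × ℝ) × Strip (η / 4) =>
      ell t η (a p.1.1) (wt p.1.1) Λ σ v p.1.2 p.2 := by
  refine continuous_iff_continuousAt.2 fun p => ?_
  have hx' : |(p.2 : ℂ).im| < η := by
    have := JDef_strip p.2.2
    have := (h p.1.1).η_pos
    linarith
  have hu : 0 ≤ (p.1.2 : ℂ).im := (ofReal_im _).ge
  have key : ∀ Λ' ⊆ Λ, ContinuousAt (fun p : (E × ℝ) × Strip (η / 4) =>
      Zf t η (a p.1.1) (wt p.1.1) Λ' σ p.1.2 p.2) p := by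
    intro Λ' hΛ
    refine ZG_continuousAt (a := fun p : (E × ℝ) × Strip (η / 4) => a p.1.1)
      (x := fun p => (p.2 : ℂ)) (z := fun p => ht t η (wt p.1.1) σ p.1.2)
      (fun q hq r hr => ((ha q (hΛ hq) r (hΛ hr)).comp continuous_fst.fst).continuousAt)
      (continuous_subtype_val.comp continuous_snd).continuousAt (fun w hw' => ?_)
      fun w _ => (h _).ht_ne_zero hu σ w
    refine (Continuous.mul continuous_const (Continuous.add (Continuous.add continuous_const ?_)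
      continuous_const)).continuousAt
    exact (continuous_ofReal.comp continuous_fst.snd).div
      (continuous_ofReal.comp ((hw w (hΛ hw')).comp continuous_fst.fst))
      fun q => ofReal_ne_zero.2 ((h _).pos w).ne'
  exact ((key Λ Subset.rfl).div (key _ (erase_subset v Λ)) ((h _).Zf_ne_zero hu hx')).clog
    ((h _).ratio_mem hu hx')

theorem Ok.ell_continuous' (h : Ok t η a wt) :
    Continuous fun p : ℝ × Strip (η / 4) => ell t η a wt Λ σ v p.1 p.2 :=
  (ell_continuous (E := Unit) (a := fun _ => a) (wt := fun _ => wt) (fun _ => h)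
    (fun _ _ _ _ => continuous_const) fun _ _ => continuous_const).comp
    (f := fun p : ℝ × Strip (η / 4) => (((), p.1), p.2)) (by fun_prop)

/-- `TT_continuous`, `ell_continuous`, `TT_env`, `exists_nb`, `exists_isEnv`. -/
theorem Ok.jT_integrable (h : Ok t η a wt) :
    IntegrableOn (fun u : ℝ => (TT (η / 4) K (ell t η a wt Λ σ v u)).im) (Set.Ioi 0) := by
  have hc : 0 < η / 4 := by
    have := h.η_pos
    positivity
  obtain ⟨ρ, hρ, hn⟩ := exists_nb a h.pos Λ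
  obtain ⟨M, -, hM⟩ := exists_isEnv h.t_pos h.η_pos hρ
  have hcont : Continuous fun u : ℝ => TT (η / 4) K (ell t η a wt Λ σ v u) :=
    TT_continuous hc (g := fun u : ℝ => ell t η a wt Λ σ v u) h.ell_continuous'
  have hi := (JDef_int (h.pos v) M).1
  refine Integrable.mono' (hi.add (hi.mul_const (th (η / 4) K))).integrableOn
    (continuous_im.comp hcont).aestronglyMeasurable ?_
  refine (ae_restrict_iff' measurableSet_Ioi).2 (Eventually.of_forall fun u hu => ?_)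
  obtain ⟨h1, h2⟩ := h.TT_env (K := K) (σ := σ) (v := v) hρ hn hM (le_of_lt hu)
  refine (abs_im_le_norm _).trans ((norm_le_insert' _ (ell t η a wt Λ σ v u 1)).trans ?_)
  exact add_le_add h1 h2

theorem Ok.jE_integrable (h : Ok t η a wt) :
    IntegrableOn (fun u : ℝ => (ell t η a wt Λ σ v u 1).im) (Set.Ioi 0) := by
  have hη := h.η_pos
  obtain ⟨ρ, hρ, hn⟩ := exists_nb a h.pos Λ
  obtain ⟨M, -, hM⟩ := exists_isEnv h.t_pos h.η_pos hρ
  have h1 : (1 : ℂ) ∈ Strip (η / 4) := by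
    change |(1 : ℂ).im| < 2 * (η / 4)
    simp [hη]
  have hcont : Continuous fun u : ℝ => ell t η a wt Λ σ v u 1 := by
    have h2 : Continuous fun u : ℝ => (u, (⟨1, h1⟩ : Strip (η / 4))) :=
      continuous_id.prodMk continuous_const
    have h3 := (h.ell_continuous' (Λ := Λ) (σ := σ) (v := v)).comp h2
    simpa only [Function.comp_def] using h3
  refine Integrable.mono' (JDef_int (h.pos v) M).1.integrableOn
    (continuous_im.comp hcont).aestronglyMeasurable ?_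
  refine (ae_restrict_iff' measurableSet_Ioi).2 (Eventually.of_forall fun u hu => ?_)
  exact (abs_im_le_norm (ell t η a wt Λ σ v u 1)).trans
    (h.TT_env (K := 0) (σ := σ) (v := v) hρ hn hM (le_of_lt hu)).1

/-- `∫_0^∞ du / (1 + (u/w)²) = w π/2 ≤ 2 w`. -/
theorem Ok.abs_jT_sub_jE (h : Ok t η a wt) (hρ : 0 < ρ) (hn : Nb ρ a wt Λ) (hM : IsEnv t η ρ M) :
    |jT t η K a wt Λ σ v - jE t η a wt Λ σ v| ≤ 2 * M * th (η / 4) K * wt v := by
  have hc : 0 < η / 4 := by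
    have := h.η_pos
    positivity
  obtain ⟨hi, he⟩ := JDef_int (h.pos v) M
  have hM0 : 0 ≤ M := by
    have := (norm_nonneg _).trans (h.TT_env (K := K) (σ := σ) (v := v) hρ hn hM le_rfl).1
    simpa using this
  rw [jT, jE, ← integral_sub h.jT_integrable h.jE_integrable, ← Real.norm_eq_abs]
  refine (norm_integral_le_of_norm_le (hi.mul_const (th (η / 4) K)).integrableOn ?_).trans ?_
  · refine (ae_restrict_iff' measurableSet_Ioi).2 (Eventually.of_forall fun u hu => ?_)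
    rw [← sub_im]
    exact (abs_im_le_norm _).trans (h.TT_env hρ hn hM (le_of_lt hu)).2
  · rw [integral_mul_const, he]
    have h1 : 0 ≤ M * th (η / 4) K * wt v :=
      mul_nonneg (mul_nonneg hM0 (th_pos hc K).le) (h.pos v).le
    nlinarith [Real.pi_le_four]

end Crest.Agent.R109
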