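import Crest.Agent.R109.JDef
import Crest.Agent.R109.Barrier

/-!
# R109: analytic bounds for the increments
-/

set_option autoImplicit false
open Finset Filter Topology MeasureTheory Complex

namespace Crest.Agent.R109

universe u
variable {V ι : Type*} [DecidableEq V] [Fintype ι] [DecidableEq ι] [Nonempty ι]
variable {t η ρ e : ℝ} {K : ℕ} {a : V → V → ℂ} {wt : V → ℝ} {Λ : Finset V} {σ : V → St ι} {v : V}

/-- The self-energy as a function of the rescaled spectral parameter. -/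
noncomputable def bH (t η : ℝ) (a : V → V → ℂ) (wt : V → ℝ) (Λ : Finset V) (σ : V → St ι) (v : V)
    (i : ι) (ζ : ℂ) : ℂ :=
  bC t η a wt Λ σ v i (wt v * ζ) 1

theorem je_one_le_kap {ι : Type*} (s : St ι) : 1 ≤ s.kap := by
  cases s <;> norm_num [St.kap]

theorem je_im_mul {w : ℝ} (hw : 0 < w) {ζ : ℂ} (hζ : 0 ≤ ζ.im) : 0 ≤ ((w : ℂ) * ζ).im := by
  rw [im_ofReal_mul]; positivity

/-- Differentiability: `ZG_differentiableAt`, `NG_differentiableAt`, `Zf_ne_zero`. Sign: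
`bG_im_le` (`l = 1`). Decay: `bG_norm_le` with `l = 1`, `y = η` for bounded `ζ`, and for large
`‖ζ‖` with `l = I * conj ζ / ‖ζ‖`, for which
`Im (l * ht w) = κ (Im (l τ) + ‖ζ‖ wt v / wt w) ≥ ‖ζ‖ wt v / W - ‖τ‖`, `W` a bound for `wt` on
`Λ`, and `|Im l| ≤ 1`. -/
theorem Ok.herg_bH (h : Ok t η a wt) (i : ι) : Herg (bH t η a wt Λ σ v i) := by
  have hη := h.η_pos
  have hv : v ∉ Λ.erase v := notMem_erase v Λ
  have him : ∀ ζ : ℂ, 0 ≤ ζ.im → ∀ w, η ≤ (ht t η wt σ (wt v * ζ) w).im := fun ζ hζ w =>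
    h.le_im_ht (je_im_mul (h.pos v) hζ) σ w
  refine ⟨fun ζ hζ => ?_, fun ζ hζ => ?_, ?_⟩
  · have hz : ∀ w ∈ Λ.erase v,
        DifferentiableAt ℂ (fun s : ℂ => ht t η wt σ (wt v * s) w) ζ := fun w _ => by
      unfold ht; fun_prop
    have h0 : ∀ w ∈ Λ.erase v, ht t η wt σ (wt v * ζ) w ≠ 0 := fun w _ he => by
      have := him ζ hζ w
      rw [he, zero_im] at this
      linarith
    exact (NG_differentiableAt (x := fun _ : ℂ => 1) (z := fun s : ℂ => ht t η wt σ (wt v * s)) hv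
      (differentiableAt_const _) hz h0 i).div
      (ZG_differentiableAt (x := fun _ : ℂ => 1) (z := fun s : ℂ => ht t η wt σ (wt v * s))
        (differentiableAt_const _) hz h0)
      (h.Zf_ne_zero (je_im_mul (h.pos v) hζ) (by simpa using hη))
  · have := bG_im_le (x := 1) (k := fun w => (σ w).kind) (z := ht t η wt σ (wt v * ζ)) h.herm hv 1
      (fun w _ => by simpa using hη.trans_le (him ζ hζ w)) i
    simpa [bH, bC] using this
  · have hS : 0 ≤ ∑ w ∈ Λ, wt w := sum_nonneg fun w _ => (h.pos w).le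
    have hwv := h.pos v
    obtain ⟨c, hc, hcw⟩ : ∃ c : ℝ, 0 < c ∧ ∀ w ∈ Λ, c ≤ wt v / wt w :=
      ⟨wt v / (1 + ∑ w ∈ Λ, wt w), by positivity, fun w hw =>
        div_le_div_of_nonneg_left hwv.le (h.pos w) (by
          have := single_le_sum (f := wt) (fun w _ => (h.pos w).le) hw
          linarith)⟩
    set τ : ℂ := t + η * I with hτ
    set R : ℝ := 2 * (‖τ‖ + 1) / c + 1 with hR
    have hR0 : 0 ≤ 2 * (‖τ‖ + 1) / c := by positivity
    refine ⟨4 / c + (1 + R) / η, fun ζ hζ => ?_⟩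
    rw [le_div_iff₀ (by positivity)]
    by_cases hζR : ‖ζ‖ ≤ R
    · have h1 := bG_norm_le (x := 1) (k := fun w => (σ w).kind) (z := ht t η wt σ (wt v * ζ))
        h.herm hv 1 hη (fun w _ => by simpa using hη.trans_le (him ζ hζ w))
        (fun w _ _ => by simpa using him ζ hζ w) i
      have h2 : ‖bH t η a wt Λ σ v i ζ‖ ≤ 1 / η := by simpa [bH, bC] using h1
      calc ‖bH t η a wt Λ σ v i ζ‖ * (1 + ‖ζ‖) ≤ 1 / η * (1 + R) :=
            mul_le_mul h2 (by linarith) (by positivity) (by positivity)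
        _ = (1 + R) / η := by ring
        _ ≤ _ := le_add_of_nonneg_left (by positivity)
    · have hζR' := not_le.1 hζR
      have hz1 : 1 ≤ ‖ζ‖ := by linarith
      have hz2 : 2 * (‖τ‖ + 1) ≤ c * ‖ζ‖ := by
        rw [mul_comm c, ← div_le_iff₀ hc]; linarith
      set l : ℂ := I * (starRingEnd ℂ) ζ with hl
      have hln : ‖l‖ = ‖ζ‖ := by rw [hl, norm_mul, norm_I, one_mul, norm_conj]
      have key : ∀ w ∈ Λ.erase v,
          |(l * 1).im| + c * ‖ζ‖ ^ 2 / 2 ≤ (l * ht t η wt σ (wt v * ζ) w).im := by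
        intro w hw
        have e1 : l * ht t η wt σ (wt v * ζ) w =
            ((σ w).kap : ℂ) * (l * τ + ((wt v / wt w * ‖ζ‖ ^ 2 : ℝ) : ℂ) * I) := by
          have e0 : (starRingEnd ℂ) ζ * ζ = (‖ζ‖ : ℂ) ^ 2 := conj_mul' ζ
          unfold ht
          rw [hl, hτ]
          push_cast
          rw [← e0]
          ring
        rw [e1, im_ofReal_mul, add_im, im_ofReal_mul, I_im, mul_one, mul_one]
        have a1 : |l.im| ≤ ‖ζ‖ := hln ▸ abs_im_le_norm l
        have a2 : -(‖ζ‖ * ‖τ‖) ≤ (l * τ).im := by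
          have := (abs_le.1 (abs_im_le_norm (l * τ))).1
          rwa [norm_mul, hln] at this
        have a3 : c * ‖ζ‖ ^ 2 ≤ wt v / wt w * ‖ζ‖ ^ 2 :=
          mul_le_mul_of_nonneg_right (hcw w (mem_of_mem_erase hw)) (sq_nonneg _)
        have a4 : ‖ζ‖ * (2 * (‖τ‖ + 1)) ≤ ‖ζ‖ * (c * ‖ζ‖) :=
          mul_le_mul_of_nonneg_left hz2 (norm_nonneg _)
        have a5 : |l.im| + c * ‖ζ‖ ^ 2 / 2 ≤ (l * τ).im + wt v / wt w * ‖ζ‖ ^ 2 := by nlinarith
        exact a5.trans (le_mul_of_one_le_left (le_trans (by positivity) a5) (je_one_le_kap _))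
      have hy : 0 < c * ‖ζ‖ ^ 2 / 2 := by positivity
      have h1 := bG_norm_le (x := 1) (k := fun w => (σ w).kind) (z := ht t η wt σ (wt v * ζ))
        h.herm hv l hy (fun w hw => by linarith [key w hw]) (fun w hw _ => key w hw) i
      rw [hln, norm_one, one_pow, mul_one] at h1
      have h2 : ‖bH t η a wt Λ σ v i ζ‖ ≤ ‖ζ‖ / (c * ‖ζ‖ ^ 2 / 2) := h1
      calc ‖bH t η a wt Λ σ v i ζ‖ * (1 + ‖ζ‖) ≤ ‖ζ‖ / (c * ‖ζ‖ ^ 2 / 2) * (2 * ‖ζ‖) :=
            mul_le_mul h2 (by linarith) (by positivity) (by positivity)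
        _ = 4 / c := by field_simp; ring
        _ ≤ _ := le_add_of_nonneg_right (by positivity)

theorem Ok.herg_av (h : Ok t η a wt) (s : St ι) :
    Herg fun ζ => s.av fun i => bH t η a wt Λ σ v i ζ := by
  cases s with
  | unc => exact Herg.avg fun i => h.herg_bH i
  | col i => exact h.herg_bH i
  | del =>
    exact ⟨fun ζ _ => differentiableAt_const (0 : ℂ), fun ζ _ => le_of_eq rfl, 0,
      fun ζ _ => by simp [St.av]⟩

/-- `ratio_eq`, `dA_eq_im_log`. -/
theorem Ok.im_ell_eq (h : Ok t η a wt) (hv : v ∈ Λ) (u : ℝ) :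
    (ell t η a wt Λ σ v (wt v * u) 1).im =
      dA (σ v).kap t η ((σ v).av fun i => bH t η a wt Λ σ v i u) u := by
  have hκ : 0 < (σ v).kap := one_pos.trans_le (je_one_le_kap _)
  have hb := (h.herg_av (Λ := Λ) (σ := σ) (v := v) (σ v)).im_le u (by simp)
  rw [dA_eq_im_log hκ h.η_pos (hb.trans_lt (mul_pos hκ h.η_pos))]
  unfold ell
  rw [h.ratio_eq hv (by simp) (by simpa using h.η_pos)]
  have hw : (wt v : ℂ) ≠ 0 := by exact_mod_cast (h.pos v).ne'
  have e : ht t η wt σ ((wt v * u : ℝ) : ℂ) v = (σ v).kap * (t + u + η * I) := by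
    unfold ht
    push_cast
    rw [mul_div_cancel_left₀ _ hw]
  rw [e]
  unfold bH
  push_cast
  rfl

theorem je_tail_eq (h : Ok t η a wt) (hv : v ∈ Λ) (U : ℝ) :
    ∫ u in Set.Ioi U, (ell t η a wt Λ σ v u 1).im = wt v * ∫ u in Set.Ioi (U / wt v),
      dA (σ v).kap t η ((σ v).av fun i => bH t η a wt Λ σ v i u) u := by
  have hw := h.pos v
  have := integral_comp_mul_left_Ioi (fun u : ℝ => (ell t η a wt Λ σ v u 1).im) (U / wt v) hw
  simp only [h.im_ell_eq hv] at this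
  rw [this, mul_div_cancel₀ _ hw.ne', smul_eq_mul, mul_inv_cancel_left₀ hw.ne']

omit [Nonempty ι] in
theorem je_ell_of_notMem (hv : v ∉ Λ) (u : ℝ) (x : ℂ) : ell t η a wt Λ σ v u x = 0 := by
  unfold ell
  rw [erase_eq_of_notMem hv]
  by_cases h0 : Zf t η a wt Λ σ u x = 0
  · rw [h0, zero_div, log_zero]
  · rw [div_self h0, log_one]

theorem Ok.jE_eq (h : Ok t η a wt) (hv : v ∈ Λ) : jE t η a wt Λ σ v =
    wt v * jj (σ v).kap t η fun ζ => (σ v).av fun i => bH t η a wt Λ σ v i ζ := by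
  have := je_tail_eq (σ := σ) h hv 0
  rw [zero_div] at this
  exact this

theorem Ok.jE_nonneg (h : Ok t η a wt) : 0 ≤ jE t η a wt Λ σ v := by
  by_cases hv : v ∈ Λ
  · rw [h.jE_eq hv]
    exact mul_nonneg (h.pos v).le ((h.herg_av (σ v)).jj_nonneg
      (one_pos.trans_le (je_one_le_kap _)) h.η_pos t)
  · simp [jE, je_ell_of_notMem hv]

/-- `Herg.tail_nonneg` after the substitution `u = wt v * u'`. -/
theorem Ok.jE_tail_nonneg (h : Ok t η a wt) {U : ℝ} (hU : 0 ≤ U) :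
    0 ≤ ∫ u in Set.Ioi U, (ell t η a wt Λ σ v u 1).im := by
  by_cases hv : v ∈ Λ
  · rw [je_tail_eq h hv]
    exact mul_nonneg (h.pos v).le ((h.herg_av (σ v)).tail_nonneg
      (one_pos.trans_le (je_one_le_kap _)) h.η_pos t (div_nonneg hU (h.pos v).le))
  · simp [je_ell_of_notMem hv]

theorem je_norm_bH (h : Ok t η a wt) (hη1 : η ≤ 1) (hρ : 0 < ρ) (hn : Nb ρ a wt Λ) (hv : v ∈ Λ)
    (i : ι) {u : ℝ} (hu : 0 < u) : ‖bH t η a wt Λ σ v i u‖ ≤ 2 * ρ / (η * u) := by
  have hη := h.η_pos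
  have ht0 := h.t_pos
  have hwv := h.pos v
  have e0 : |((1 + η * I : ℂ) * 1).im| = η := by simp [abs_of_pos hη]
  have e1 : ∀ w, ((1 + η * I : ℂ) * ht t η wt σ (wt v * u) w).im =
      (σ w).kap * (η + η * (t + wt v / wt w * u)) := by
    intro w
    have : (1 + η * I : ℂ) * ht t η wt σ (wt v * u) w = ((σ w).kap : ℂ) *
        ((1 + η * I) * (((t + wt v / wt w * u : ℝ) : ℂ) + η * I)) := by
      unfold ht; push_cast; ring
    rw [this, im_ofReal_mul]
    generalize t + wt v / wt w * u = s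
    simp
  have e2 : ∀ w, η + η * (t + wt v / wt w * u) ≤
      ((1 + η * I : ℂ) * ht t η wt σ (wt v * u) w).im := by
    intro w
    have := h.pos w
    rw [e1]
    exact le_mul_of_one_le_left (by positivity) (je_one_le_kap _)
  have hy : 0 < η * u / ρ := by positivity
  have h1 := bG_norm_le (x := 1) (k := fun w => (σ w).kind) (z := ht t η wt σ (wt v * u))
    h.herm (notMem_erase v Λ) (1 + η * I) hy (fun w _ => by
      have := h.pos w
      have h2 : 0 < η * (t + wt v / wt w * u) := by positivity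
      rw [e0]
      linarith [e2 w]) (fun w hw haw => by
      rw [e0]
      refine le_trans ?_ (e2 w)
      have h2 : 1 / ρ ≤ wt v / wt w := by
        rw [div_le_div_iff₀ hρ (h.pos w), one_mul, mul_comm]
        exact hn v hv w (mem_of_mem_erase hw) haw
      have h3 := mul_le_mul_of_nonneg_left h2 (mul_pos hη hu).le
      have h4 : η * u / ρ = η * u * (1 / ρ) := by ring
      nlinarith [mul_pos hη ht0]) i
  have h5 : ‖(1 + η * I : ℂ)‖ ≤ 2 := by
    refine (norm_add_le _ _).trans ?_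
    rw [norm_one, norm_mul, norm_I, mul_one, norm_real, Real.norm_of_nonneg hη.le]
    linarith
  rw [norm_one, one_pow, mul_one] at h1
  calc ‖bH t η a wt Λ σ v i u‖ ≤ ‖(1 + η * I : ℂ)‖ / (η * u / ρ) := h1
    _ ≤ 2 / (η * u / ρ) := div_le_div_of_nonneg_right h5 hy.le
    _ = 2 * ρ / (η * u) := by field_simp

/-- Initial bound. If `v ∉ Λ` or `σ v = del` then `jE = 0`. Otherwise use `jj_init` with
`D = 2 ρ` and `η ≤ 1`: remove the deleted vertices (`ZG_filter`, `NG_filter`) and apply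
`init_bound`; the norm bound is `bG_norm_le` with `x = 1`, `l = 1 + η i`, `y = η u / ρ`. -/
theorem jE_init (ι : Type*) [Fintype ι] [DecidableEq ι] [Nonempty ι] {t ρ e : ℝ}
    (ht : t = 6 / √(Fintype.card ι)) (hρ : 0 < ρ) (he : 0 < e) :
    ∃ η₁ > 0, ∀ η : ℝ, η ≤ η₁ → ∀ (V : Type u) [DecidableEq V] (a : V → V → ℂ) (wt : V → ℝ)
      (Λ : Finset V) (σ : V → St ι) (v : V), Ok t η a wt → Nb ρ a wt Λ →
      (∀ w ∈ Λ, σ w = .unc ∨ σ w = .del) → jE t η a wt Λ σ v ≤ e * wt v := by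
  have hc : (0 : ℝ) < Fintype.card ι := by exact_mod_cast Fintype.card_pos
  have ht0 : 0 < t := by rw [ht]; exact div_pos (by norm_num) (Real.sqrt_pos.2 hc)
  obtain ⟨η₁, hη₁, hinit⟩ := jj_init (D := 2 * ρ) ht0 (by positivity) he
  refine ⟨min η₁ 1, lt_min hη₁ one_pos, fun η hηle V _ a wt Λ σ v h hn hσ => ?_⟩
  have hη := h.η_pos
  have hwv := h.pos v
  by_cases hv : v ∈ Λ
  swap
  · have : jE t η a wt Λ σ v = 0 := by simp [jE, je_ell_of_notMem hv]
    rw [this]; positivity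
  rw [h.jE_eq hv, mul_comm]
  refine mul_le_mul_of_nonneg_right ?_ hwv.le
  have hH := h.herg_av (Λ := Λ) (σ := σ) (v := v) (σ v)
  have hκ : (σ v).kap = 1 := by rcases hσ v hv with h1 | h1 <;> rw [h1] <;> rfl
  rw [hκ]
  refine hinit η hη (hηle.trans (min_le_left _ _)) _ hH fun u hu => ?_
  rcases hσ v hv with h1 | h1
  swap
  · rw [h1]
    simp only [St.av, zero_re, zero_im, abs_zero, norm_zero]
    refine ⟨?_, ?_, ?_⟩ <;> positivity
  rw [h1]
  have hdel : ∀ w ∈ Λ.erase v, ¬ σ w = .unc → (σ w).kind = some ∅ := fun w hw hne => by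
    rcases hσ w (mem_of_mem_erase hw) with h2 | h2
    · exact absurd h2 hne
    · rw [h2]; rfl
  have hv' : v ∉ (Λ.erase v).filter fun w => σ w = .unc := fun hm =>
    notMem_erase v Λ (mem_filter.1 hm).1
  have e : ∀ i, bH t η a wt Λ σ v i u = bG a 1 ((Λ.erase v).filter fun w => σ w = .unc)
      (fun w => (σ w).kind) (fun w => ((t + wt v * u / wt w : ℝ) : ℂ) + η * I) v i := by
    intro i
    rw [← bG_congr (z := Crest.Agent.R109.ht t η wt σ (wt v * u)) hv' (fun _ _ => rfl)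
      (fun w hw => by
        unfold Crest.Agent.R109.ht
        rw [(mem_filter.1 hw).2]
        simp [St.kap])]
    unfold bH bC bG
    rw [ZG_filter _ hdel, NG_filter (notMem_erase v Λ) _ hdel]
  have hb := init_bound (k := fun w => (σ w).kind) h.herm ht hη hv'
    (fun w hw => by rw [(mem_filter.1 hw).2]; rfl) (fun w => t + wt v * u / wt w)
    (fun w _ => le_add_of_nonneg_right (by have := h.pos w; positivity))
  simp only [← e] at hb
  refine ⟨hb.1, hb.2, ?_⟩
  show ‖(∑ i, bH t η a wt Λ σ v i u) / (Fintype.card ι : ℂ)‖ ≤ _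
  rw [norm_div, Complex.norm_natCast, div_le_iff₀ hc]
  refine (norm_sum_le_of_le _ fun i _ =>
    je_norm_bH h (hηle.trans (min_le_right _ _)) hρ hn hv i hu).trans (le_of_eq ?_)
  rw [sum_const, card_univ, nsmul_eq_mul, mul_comm]

/-- The truncation error is at most `e`. -/
def Apx (V ι : Type*) [DecidableEq V] [Fintype ι] [DecidableEq ι] (t η : ℝ) (K : ℕ) (ρ e : ℝ) :
    Prop :=
  ∀ (a : V → V → ℂ) (wt : V → ℝ) (Λ : Finset V) (σ : V → St ι) (v : V), Ok t η a wt →
    Nb ρ a wt Λ → |jT t η K a wt Λ σ v - jE t η a wt Λ σ v| ≤ e * wt v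

/-- `exists_isEnv`, `abs_jT_sub_jE`, `th_tendsto`. -/
theorem exists_apx (V ι : Type*) [DecidableEq V] [Fintype ι] [DecidableEq ι] [Nonempty ι]
    (ht : 0 < t) (hη : 0 < η) (hρ : 0 < ρ) (he : 0 < e) : ∃ K, Apx V ι t η K ρ e := by
  obtain ⟨M, -, hM⟩ := exists_isEnv ht hη hρ
  have h1 := (th_tendsto (c := η / 4) (by positivity)).const_mul (2 * M)
  rw [mul_zero] at h1
  obtain ⟨K, hK⟩ := (h1.eventually (ge_mem_nhds he)).exists
  exact ⟨K, fun a wt Λ σ v h hn => (h.abs_jT_sub_jE hρ hn hM).trans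
    (mul_le_mul_of_nonneg_right hK (h.pos v).le)⟩

theorem Apx.jT_ge (hE : Apx V ι t η K ρ e) (h : Ok t η a wt) (hn : Nb ρ a wt Λ) :
    -(e * wt v) ≤ jT t η K a wt Λ σ v := by
  have h1 := (abs_le.1 (hE a wt Λ σ v h hn)).1
  have h2 := h.jE_nonneg (Λ := Λ) (σ := σ) (v := v)
  linarith

omit [Nonempty ι] in
theorem je_bH_update (s : St ι) (i : ι) :
    bH t η a wt Λ (Function.update σ v s) v i = bH t η a wt Λ σ v i := by
  funext ζ
  refine bG_congr (notMem_erase v Λ) (fun w hw => ?_) (fun w hw => ?_) i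
  · rw [Function.update_of_ne (ne_of_mem_erase hw)]
  · unfold ht
    rw [Function.update_of_ne (ne_of_mem_erase hw)]

theorem je_step_aux (hE : Apx V ι t η K ρ e) (h : Ok t η a wt) (hn : Nb ρ a wt Λ)
    (hη : η ≤ t / 2) (hv : v ∈ Λ) (hw : wt v = 1) (hσ : σ v = .unc) :
    -e ≤ jT t η K a wt Λ σ v ∧ (Real.pi * t / 16 - e ≤ jT t η K a wt Λ σ v ∨
      ∃ bad : Finset ι, 4 * bad.card ≤ Fintype.card ι ∧ ∀ I : Finset ι, Disjoint I bad →
        Fintype.card ι ≤ 2 * I.card →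
          ∑ i ∈ I, jT t η K a wt Λ (Function.update σ v (.col i)) v ≤
            I.card * (jT t η K a wt Λ σ v + 7 * η + 2 * e)) := by
  have h0 := hE.jT_ge (σ := σ) (v := v) h hn
  have h1 := abs_le.1 (hE a wt Λ σ v h hn)
  rw [h.jE_eq hv, hσ] at h1
  rw [hw, mul_one] at h0
  rw [hw, mul_one, one_mul] at h1
  change _ ≤ _ - jj 1 t η (fun ζ => (∑ i, bH t η a wt Λ σ v i ζ) / Fintype.card ι) ∧
    _ - jj 1 t η (fun ζ => (∑ i, bH t η a wt Λ σ v i ζ) / Fintype.card ι) ≤ _ at h1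
  refine ⟨h0, ?_⟩
  by_cases hj : jj 1 t η (fun ζ => (∑ i, bH t η a wt Λ σ v i ζ) / Fintype.card ι) <
      Real.pi * t / 16
  swap
  · left
    linarith [not_lt.1 hj, h1.1]
  right
  obtain ⟨bad, hb, hI⟩ := single_site (fun i => h.herg_bH (Λ := Λ) (σ := σ) (v := v) i) h.t_pos
    h.η_pos hη hj
  refine ⟨bad, hb, fun I h2 h3 => ?_⟩
  have h4 : ∀ i, jT t η K a wt Λ (Function.update σ v (.col i)) v ≤
      jj 240 t η (bH t η a wt Λ σ v i) + e := by
    intro i
    have h5 := (abs_le.1 (hE a wt Λ (Function.update σ v (.col i)) v h hn)).2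
    rw [h.jE_eq hv, Function.update_self, hw, mul_one, one_mul] at h5
    simp only [je_bH_update] at h5
    change _ - jj 240 t η (bH t η a wt Λ σ v i) ≤ _ at h5
    linarith
  have h6 := (sum_le_sum fun i (_ : i ∈ I) => h4 i)
  rw [sum_add_distrib, sum_const, nsmul_eq_mul] at h6
  have h7 := hI I h2 h3
  have h8 := mul_le_mul_of_nonneg_left h1.1 (Nat.cast_nonneg (α := ℝ) I.card)
  linarith

/-- The step for `a` and `-a` simultaneously. `bH` does not depend on `σ v` (`bG_congr`). If one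
of the two `jE` is `≥ π t / 16` the first alternative holds (the other one is `≥ 0`). Otherwise
`single_site` gives `bad⁺`, `bad⁻` with `|bad⁺ ∪ bad⁻| ≤ h`; choose `h` colours outside
(`Finset.exists_subset_card_eq`, enumerate by `Finset.orderEmbOfFin`/`equivFin`). -/
theorem Apx.step (hE : Apx V ι t η K ρ e) (he : 0 < e) (h : Ok t η a wt) (hn : Nb ρ a wt Λ)
    (hη : η ≤ t / 2) {n : ℕ} (hcard : Fintype.card ι = 2 * n) (hv : v ∈ Λ) (hw : wt v = 1)
    (hσ : σ v = .unc) :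
    Real.pi * t / 16 - 3 * e <
      jT t η K a wt Λ σ v + jT t η K (fun p q => -a p q) wt Λ σ v ∨
    ∃ I : Fin n ↪ ι, ∑ k, (jT t η K a wt Λ (Function.update σ v (.col (I k))) v +
        jT t η K (fun p q => -a p q) wt Λ (Function.update σ v (.col (I k))) v) <
      n * (jT t η K a wt Λ σ v + jT t η K (fun p q => -a p q) wt Λ σ v + 14 * η + 5 * e) := by
  have h' : Ok t η (fun p q => -a p q) wt := ⟨h.t_pos, h.η_pos, h.herm.neg, h.pos⟩
  have hn' : Nb ρ (fun p q => -a p q) wt Λ := fun p hp q hq hpq => hn p hp q hq (neg_ne_zero.1 hpq)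
  obtain ⟨a1, a2⟩ := je_step_aux hE h hn hη hv hw hσ
  obtain ⟨b1, b2⟩ := je_step_aux hE h' hn' hη hv hw hσ
  rcases a2 with a2 | ⟨A, hA, hA'⟩
  · left; linarith
  rcases b2 with b2 | ⟨B, hB, hB'⟩
  · left; linarith
  right
  have hc : n ≤ (A ∪ B)ᶜ.card := by
    have := card_union_le A B
    rw [card_compl]
    omega
  obtain ⟨I, hI, hIc⟩ := exists_subset_card_eq hc
  have hd : Disjoint I (A ∪ B) := disjoint_compl_left.mono_left hI
  have a3 := hA' I (hd.mono_right subset_union_left) (by omega)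
  have b3 := hB' I (hd.mono_right subset_union_right) (by omega)
  have hn0 : (0 : ℝ) < n := by
    have := Fintype.card_pos (α := ι)
    exact_mod_cast (by omega : 0 < n)
  refine ⟨(I.equivFinOfCardEq hIc).symm.toEmbedding.trans (Function.Embedding.subtype _), ?_⟩
  have e1 := (I.equivFinOfCardEq hIc).symm.sum_comp (fun i : I =>
    jT t η K a wt Λ (Function.update σ v (.col (i : ι))) v +
      jT t η K (fun p q => -a p q) wt Λ (Function.update σ v (.col (i : ι))) v)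
  rw [sum_coe_sort I (fun i => jT t η K a wt Λ (Function.update σ v (.col i)) v +
      jT t η K (fun p q => -a p q) wt Λ (Function.update σ v (.col i)) v), sum_add_distrib (s := I)]
    at e1
  refine lt_of_eq_of_lt e1 ?_
  rw [hIc] at a3 b3
  nlinarith [mul_pos hn0 he]

end Crest.Agent.R109
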