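import Crest.Agent.R109.CExp
import Crest.Agent.R124.Kaplansky

/-!
# R109: compressing to a subalgebra with graph density (Kaplansky)
-/

set_option autoImplicit false
open Filter Topology
open scoped InnerProductSpace

namespace Crest.Agent.R109
open Crest.Agent.R121

universe u
variable {H : Type u} [NormedAddCommGroup H] [InnerProductSpace ℂ H] [CompleteSpace H]
variable {M : VonNeumannAlgebra H} {ξ : H}

theorem kap_identity {B : Type*} [Ring B] [Algebra ℂ B] {α r s R' : B}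
    (h1 : r * (1 + α * α) = 1) (h2 : (1 + s * s) * R' = 1) :
    (2 : ℂ) • (r * α) - (2 : ℂ) • (s * R') =
      (2 : ℂ) • (r * ((α - s) * R')) - (2 : ℂ) • (r * α) * ((α - s) * (s * R')) := by
  have h3 : r * α - s * R' = r * ((α - s) * R') - (r * α) * ((α - s) * (s * R')) := by
    calc r * α - s * R' = r * α * ((1 + s * s) * R') - r * (1 + α * α) * (s * R') := by
          rw [h1, h2, mul_one, one_mul]
      _ = _ := by noncomm_ring
  rw [smul_mul_assoc, ← smul_sub, ← smul_sub, h3]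

theorem kap_sa_smul {B : Type*} [CStarAlgebra B] {a : B} (ha : IsSelfAdjoint a) (t : ℝ) :
    IsSelfAdjoint ((t : ℂ) • a) := by
  rw [IsSelfAdjoint, star_smul, ha.star_eq, Complex.star_def, Complex.conj_ofReal]

/-- Kaplansky density, self-adjoint form. Copy `step1` of `R124.kaplansky` (and its private lemma
`kaplansky_identity`): `y = 2 s R'` (`R124.exists_cayley` in `R124.exists_vn σ`), `a` from
`R124.sa_approx` for the vectors `R' v`, `s (R' v)`, `v ∈ T`, `R` from `R124.exists_resolvent`,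
`b = 2 R a` (self-adjoint as `R` commutes with `a`). -/
theorem kap_sa {B : Type*} [CStarAlgebra B] {K : Type*} [NormedAddCommGroup K]
    [InnerProductSpace ℂ K] [CompleteSpace K] (σ : B →⋆ₐ[ℂ] (K →L[ℂ] K)) {y : K →L[ℂ] K}
    (hy : y ∈ Set.centralizer (Set.centralizer (Set.range σ))) (hsa : IsSelfAdjoint y)
    (h1 : ‖y‖ ≤ 1) (T : Finset K) {e : ℝ} (he : 0 < e) :
    ∃ b : B, IsSelfAdjoint b ∧ ‖b‖ ≤ 1 ∧ ∀ v ∈ T, ‖σ b v - y v‖ ≤ e := by
  obtain ⟨P, hP⟩ := R124.exists_vn σ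
  have hcl : IsClosed (P.toStarSubalgebra : Set (K →L[ℂ] K)) := by
    rw [VonNeumannAlgebra.coe_toStarSubalgebra, hP]
    exact Set.isClosed_centralizer _
  have hyP : y ∈ P.toStarSubalgebra := by
    rw [← hP] at hy
    exact hy
  obtain ⟨s, hsP, R', hs, hR', hxs⟩ := R124.exists_cayley P.toStarSubalgebra hcl hyP hsa h1
  have hε : 0 < e / 3 := by positivity
  obtain ⟨a, ha, happ⟩ := R124.sa_approx σ
    (Sum.elim (fun i : Fin T.card => R' (T.equivFin.symm i))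
      fun i : Fin T.card => s (R' (T.equivFin.symm i)))
    (y := s) (by rw [← hP]; exact hsP) hs hε
  obtain ⟨R, hRs, hR, -, hc, hR1, hR2⟩ := R124.exists_resolvent ha
  have hid := kap_identity (α := σ a) (r := σ R) (s := s) (R' := R')
    (by rw [← map_mul, ← map_one σ, ← map_add, ← map_mul, hR]) hR'
  have hb : σ ((2 : ℂ) • (R * a)) = (2 : ℂ) • (σ R * σ a) := by rw [map_smul, map_mul]
  have n1 : ‖σ R‖ ≤ 1 := (NonUnitalStarAlgHom.norm_apply_le σ R).trans hR1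
  have n2 : ‖σ ((2 : ℂ) • (R * a))‖ ≤ 1 := (NonUnitalStarAlgHom.norm_apply_le σ _).trans hR2
  refine ⟨(2 : ℂ) • (R * a), ?_, hR2, fun v hv => ?_⟩
  · have h2 : IsSelfAdjoint (R * a) := by
      rw [IsSelfAdjoint, star_mul, ha.star_eq, hRs.star_eq, hc]
    exact_mod_cast kap_sa_smul h2 2
  · have h2 := happ (Sum.inl (T.equivFin ⟨v, hv⟩))
    have h3 := happ (Sum.inr (T.equivFin ⟨v, hv⟩))
    simp only [Sum.elim_inl, Sum.elim_inr, Equiv.symm_apply_apply] at h2 h3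
    set β := σ ((2 : ℂ) • (R * a)) with hβ
    have h4 : β v - y v = (2 : ℂ) • σ R (σ a (R' v) - s (R' v)) -
        β (σ a (s (R' v)) - s (s (R' v))) := by
      have := congrArg (fun T : K →L[ℂ] K => T v) hid
      rw [← hb, ← hxs] at this
      simpa only [sub_apply, mul_apply_eq_comp, smul_apply] using this
    have h5 := ((σ R).le_opNorm (σ a (R' v) - s (R' v))).trans
      (mul_le_mul n1 h2 (norm_nonneg _) zero_le_one)
    have h6 := (β.le_opNorm (σ a (s (R' v)) - s (s (R' v)))).trans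
      (mul_le_mul n2 h3 (norm_nonneg _) zero_le_one)
    rw [h4]
    refine (norm_sub_le _ _).trans ?_
    rw [norm_smul, Complex.norm_two]
    linarith

/-- The closure of `B ξ`. -/
noncomputable def cyc (B : StarSubalgebra ℂ (Al M)) (ξ : H) : Submodule ℂ H :=
  (Submodule.span ℂ {v | ∃ b ∈ B, ap b ξ = v}).topologicalClosure

instance (B : StarSubalgebra ℂ (Al M)) (ξ : H) : CompleteSpace (cyc B ξ) :=
  (Submodule.isClosed_topologicalClosure _).completeSpace_coe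

theorem mem_cyc {B : StarSubalgebra ℂ (Al M)} {v : H} :
    v ∈ cyc B ξ ↔ ∀ e > 0, ∃ b ∈ B, ‖ap b ξ - v‖ ≤ e := by
  have h1 : (Submodule.span ℂ {v | ∃ b ∈ B, ap b ξ = v} : Set H) = {v | ∃ b ∈ B, ap b ξ = v} := by
    refine Set.Subset.antisymm (fun w hw => ?_) Submodule.subset_span
    induction hw using Submodule.span_induction with
    | mem x hx => exact hx
    | zero => exact ⟨0, zero_mem _, rfl⟩
    | add x y _ _ hx hy =>
      obtain ⟨a, ha, rfl⟩ := hx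
      obtain ⟨b, hb, rfl⟩ := hy
      exact ⟨a + b, add_mem ha hb, rfl⟩
    | smul c x _ hx =>
      obtain ⟨a, ha, rfl⟩ := hx
      exact ⟨c • a, B.smul_mem ha c, rfl⟩
  rw [cyc, ← SetLike.mem_coe, Submodule.topologicalClosure_coe, h1, Metric.mem_closure_iff]
  constructor
  · intro h e he
    obtain ⟨_, ⟨b, hb, rfl⟩, h2⟩ := h e he
    exact ⟨b, hb, by rw [dist_comm, dist_eq_norm] at h2; exact h2.le⟩
  · intro h e he
    obtain ⟨b, hb, h2⟩ := h (e / 2) (by positivity)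
    exact ⟨_, ⟨b, hb, rfl⟩, by rw [dist_comm, dist_eq_norm]; linarith⟩

theorem ap_xi_mem_cyc {B : StarSubalgebra ℂ (Al M)} {b : Al M} (hb : b ∈ B) :
    ap b ξ ∈ cyc B ξ :=
  mem_cyc.2 fun e he => ⟨b, hb, by simpa using he.le⟩

theorem xi_mem_cyc (B : StarSubalgebra ℂ (Al M)) (ξ : H) : ξ ∈ cyc B ξ :=
  ap_xi_mem_cyc (one_mem B)

theorem isClosed_cyc (B : StarSubalgebra ℂ (Al M)) (ξ : H) : IsClosed (cyc B ξ : Set H) :=
  Submodule.isClosed_topologicalClosure _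

theorem cyc_ind {B : StarSubalgebra ℂ (Al M)} {C : Set H} (hC : IsClosed C)
    (h : ∀ b ∈ B, ap b ξ ∈ C) {v : H} (hv : v ∈ cyc B ξ) : v ∈ C := by
  rw [← hC.closure_eq, Metric.mem_closure_iff]
  intro e he
  obtain ⟨b, hb, h2⟩ := mem_cyc.1 hv (e / 2) (by positivity)
  exact ⟨_, h b hb, by rw [dist_comm, dist_eq_norm]; linarith⟩

theorem ap_mem_cyc {B : StarSubalgebra ℂ (Al M)} {b : Al M} (hb : b ∈ B) {v : H}
    (hv : v ∈ cyc B ξ) : ap b v ∈ cyc B ξ := by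
  refine cyc_ind (C := {v | ap b v ∈ cyc B ξ})
    ((isClosed_cyc B ξ).preimage (b : H →L[ℂ] H).continuous) (fun a ha => ?_) hv
  exact ap_xi_mem_cyc (mul_mem hb ha)

theorem kap_ap_mem {B : StarSubalgebra ℂ (Al M)} {b : Al M} (hb : b ∈ B.topologicalClosure)
    {v : H} (hv : v ∈ cyc B ξ) : ap b v ∈ cyc B ξ := by
  have hc : Continuous fun a : Al M => ap a v :=
    (ContinuousLinearMap.apply ℂ H v).continuous.comp continuous_subtype_val
  exact closure_minimal (s := (B : Set (Al M))) (t := {a | ap a v ∈ cyc B ξ})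
    (fun a ha => ap_mem_cyc ha hv) ((isClosed_cyc B ξ).preimage hc) hb

/-- The restriction of the closure of `B` to `cyc B ξ`. -/
noncomputable def kapRep (B : StarSubalgebra ℂ (Al M)) (ξ : H) :
    B.topologicalClosure →⋆ₐ[ℂ] (cyc B ξ →L[ℂ] cyc B ξ) where
  toFun b := (((b : Al M) : H →L[ℂ] H) ∘L (cyc B ξ).subtypeL).codRestrict (cyc B ξ)
    fun v => kap_ap_mem b.2 v.2
  map_one' := by ext v; rfl
  map_mul' a b := by ext v; rfl
  map_zero' := by ext v; rfl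
  map_add' a b := by ext v; rfl
  commutes' c := by ext v; rfl
  map_star' b := by
    rw [ContinuousLinearMap.star_eq_adjoint, ContinuousLinearMap.eq_adjoint_iff]
    intro v w
    exact (inner_ap_right (b : Al M) (v : H) (w : H)).symm

theorem kapRep_apply (B : StarSubalgebra ℂ (Al M)) (ξ : H) (b : B.topologicalClosure)
    (v : cyc B ξ) : (kapRep B ξ b v : H) = ap (b : Al M) (v : H) := rfl

/-- Graph density: `p ξ` and `p* ξ` approximate the projections of `m ξ` and `m* ξ`. -/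
def GD (B : StarSubalgebra ℂ (Al M)) (ξ : H) : Prop :=
  ∀ (m : Al M), ∀ e > 0, ∃ p ∈ B, ∀ b ∈ B, ‖⟪ap b ξ, ap (m - p) ξ⟫_ℂ‖ ≤ e * ‖ap b ξ‖ ∧
    ‖⟪ap b ξ, ap (star (m - p)) ξ⟫_ℂ‖ ≤ e * ‖ap b ξ‖

theorem GD.kap_key {B : StarSubalgebra ℂ (Al M)} (h : GD B ξ) {u w : H} (hu : u ∈ cyc B ξ)
    (hw : w ∈ cyc B ξ) (huw : ∀ p ∈ B, ⟪u, ap p ξ⟫_ℂ = ⟪ap (star p) ξ, w⟫_ℂ) (m : Al M) :
    ⟪u, ap m ξ⟫_ℂ = ⟪ap (star m) ξ, w⟫_ℂ := by
  have ext : ∀ (z : H) (e : ℝ), (∀ b ∈ B, ‖⟪ap b ξ, z⟫_ℂ‖ ≤ e * ‖ap b ξ‖) →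
      ∀ v ∈ cyc B ξ, ‖⟪v, z⟫_ℂ‖ ≤ e * ‖v‖ := fun z e hz v hv =>
    cyc_ind (C := {v | ‖⟪v, z⟫_ℂ‖ ≤ e * ‖v‖}) (isClosed_le (by fun_prop) (by fun_prop)) hz hv
  rw [← sub_eq_zero, ← norm_le_zero_iff]
  refine le_of_forall_pos_le_add fun e he => ?_
  have hn : 0 < ‖u‖ + ‖w‖ + 1 := by positivity
  obtain ⟨p, hp, h1⟩ := h m (e / (‖u‖ + ‖w‖ + 1)) (by positivity)
  have h2 := ext _ _ (fun b hb => (h1 b hb).1) u hu
  have h3 := ext _ _ (fun b hb => (h1 b hb).2) w hw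
  rw [norm_inner_symm] at h3
  have h4 : ⟪u, ap m ξ⟫_ℂ - ⟪ap (star m) ξ, w⟫_ℂ =
      ⟪u, ap (m - p) ξ⟫_ℂ - ⟪ap (star (m - p)) ξ, w⟫_ℂ := by
    rw [star_sub, ap_sub, ap_sub, inner_sub_right, inner_sub_left, huw p hp]
    ring
  have h5 : e / (‖u‖ + ‖w‖ + 1) * (‖u‖ + ‖w‖ + 1) = e := by field_simp
  have h6 : 0 < e / (‖u‖ + ‖w‖ + 1) := by positivity
  rw [h4]
  refine (norm_sub_le _ _).trans ?_
  linarith

theorem GD.kap_bicomm {B : StarSubalgebra ℂ (Al M)} (h : GD B ξ) (x : Al M) :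
    (cyc B ξ).orthogonalProjectionOnto ∘L (x : H →L[ℂ] H) ∘L (cyc B ξ).subtypeL ∈
      Set.centralizer (Set.centralizer (Set.range (kapRep B ξ))) := by
  intro t ht
  have hst : ∀ y ∈ Set.range (kapRep B ξ), star y ∈ Set.range (kapRep B ξ) := by
    rintro _ ⟨a, rfl⟩
    exact ⟨star a, map_star _ a⟩
  have ht' := Set.star_mem_centralizer' hst ht
  set ξ' : cyc B ξ := ⟨ξ, xi_mem_cyc B ξ⟩ with hξ'
  have hc : ∀ s ∈ Set.centralizer (Set.range (kapRep B ξ)), ∀ b (hb : b ∈ B),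
      (s ⟨ap b ξ, ap_xi_mem_cyc hb⟩ : H) = ap b (s ξ' : H) := by
    intro s hs b hb
    have := congrArg (fun T : cyc B ξ →L[ℂ] cyc B ξ => (T ξ' : H))
      (hs _ ⟨⟨b, B.le_topologicalClosure hb⟩, rfl⟩)
    exact this.symm
  have hadj : ∀ v w : cyc B ξ, ⟪(t v : H), (w : H)⟫_ℂ = ⟪(v : H), ((star t) w : H)⟫_ℂ :=
    fun v w => (ContinuousLinearMap.adjoint_inner_right t v w).symm
  have key := h.kap_key (t ξ').2 ((star t) ξ').2 fun p hp => by
    rw [hadj ξ' ⟨ap p ξ, ap_xi_mem_cyc hp⟩, hc _ ht' p hp]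
    exact inner_ap_right p _ _
  have hd : ∀ C : Set (cyc B ξ), IsClosed C → (∀ b (hb : b ∈ B), ⟨ap b ξ, ap_xi_mem_cyc hb⟩ ∈ C) →
      ∀ v, v ∈ C := by
    intro C hC hb v
    obtain ⟨w, hw, e⟩ := cyc_ind (C := Subtype.val '' C)
      ((isClosed_cyc B ξ).isClosedEmbedding_subtypeVal.isClosedMap C hC)
      (fun b hb' => ⟨_, hb b hb', rfl⟩) v.2
    rwa [← Subtype.ext e]
  have h1 : ∀ w v : cyc B ξ,
      ⟪((star t) w : H), ap x v⟫_ℂ = ⟪(w : H), ap x (t v : H)⟫_ℂ := by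
    intro w v
    refine hd {w | ⟪((star t) w : H), ap x v⟫_ℂ = ⟪(w : H), ap x (t v : H)⟫_ℂ}
      (isClosed_eq (by fun_prop) (by fun_prop)) (fun b₁ h₁ => ?_) w
    refine hd {v | ⟪((star t) ⟨ap b₁ ξ, ap_xi_mem_cyc h₁⟩ : H), ap x v⟫_ℂ =
      ⟪ap b₁ ξ, ap x (t v : H)⟫_ℂ} (isClosed_eq (by fun_prop) (by fun_prop)) (fun b₂ h₂ => ?_) v
    have h2 := key (star b₂ * star x * b₁)
    simp only [star_mul, star_star, ap_mul] at h2
    rw [inner_ap_right, star_star, inner_ap_right, star_star, inner_ap_left (star b₁),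
      star_star] at h2
    simp only [Set.mem_ofPred_eq]
    rw [hc t ht b₂ h₂, hc _ ht' b₁ h₁, ← inner_conj_symm, ← h2, inner_conj_symm]
  refine ContinuousLinearMap.ext fun v => ext_inner_left ℂ fun w => ?_
  have h2 := h1 w v
  simp only [mul_apply_eq_comp, ContinuousLinearMap.comp_apply, Submodule.subtypeL_apply,
    Submodule.inner_orthogonalProjectionOnto_eq_of_mem_left]
  rw [← ContinuousLinearMap.adjoint_inner_left,
    Submodule.inner_orthogonalProjectionOnto_eq_of_mem_left]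
  exact h2

theorem kap_norm_approx {B : StarSubalgebra ℂ (Al M)} {b : Al M} (hb : b ∈ B.topologicalClosure)
    (hs : IsSelfAdjoint b) (h1 : ‖b‖ ≤ 1) {δ : ℝ} (hδ : 0 < δ) :
    ∃ p ∈ B, IsSelfAdjoint p ∧ ‖p‖ ≤ 1 ∧ ‖p - b‖ ≤ 2 * δ := by
  obtain ⟨a, ha, h2⟩ := Metric.mem_closure_iff.1 (show b ∈ closure (B : Set (Al M)) from hb) δ hδ
  rw [dist_comm, dist_eq_norm] at h2
  obtain ⟨q, hq, hqs, h3⟩ : ∃ q ∈ B, IsSelfAdjoint q ∧ ‖q - b‖ ≤ δ := by
    refine ⟨((2⁻¹ : ℝ) : ℂ) • (a + star a), B.smul_mem (add_mem ha (star_mem ha)) _,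
      kap_sa_smul (IsSelfAdjoint.add_star_self a) _, ?_⟩
    have e1 : ((2⁻¹ : ℝ) : ℂ) • (a + star a) - b = ((2⁻¹ : ℝ) : ℂ) • ((a - b) + star (a - b)) := by
      rw [star_sub, hs.star_eq]
      push_cast
      module
    have e2 := norm_add_le (a - b) (star (a - b))
    rw [norm_star] at e2
    rw [e1, norm_smul, Complex.norm_real, norm_inv, Real.norm_two]
    linarith
  have h4 : ‖q‖ ≤ 1 + δ := by
    have := norm_le_insert' q b
    linarith
  have h5 : 0 < 1 + δ := by positivity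
  have h6 : ‖(((1 + δ)⁻¹ : ℝ) : ℂ) • q‖ ≤ 1 := by
    rw [norm_smul, Complex.norm_real, norm_inv, Real.norm_of_nonneg h5.le, inv_mul_le_iff₀ h5]
    linarith
  refine ⟨(((1 + δ)⁻¹ : ℝ) : ℂ) • q, B.smul_mem hq _, kap_sa_smul hqs _, h6, ?_⟩
  have e1 : (((1 + δ)⁻¹ : ℝ) : ℂ) • q - b =
      (q - b) - (δ : ℂ) • (((1 + δ)⁻¹ : ℝ) : ℂ) • q := by
    have : (((1 + δ)⁻¹ : ℝ) : ℂ) = 1 - δ * (((1 + δ)⁻¹ : ℝ) : ℂ) := by
      have : (1 + δ)⁻¹ = 1 - δ * (1 + δ)⁻¹ := by field_simp; ring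
      exact_mod_cast this
    rw [smul_smul]
    nth_rewrite 1 [this]
    module
  rw [e1]
  refine (norm_sub_le _ _).trans ?_
  rw [norm_smul, Complex.norm_real, Real.norm_of_nonneg hδ.le]
  nlinarith

/-- Let `K = cyc B ξ`, `B̄ = B.topologicalClosure`, `σ : B̄ →⋆ₐ (K →L K)` the restriction and
`T` the compression of `x` to `K`. For `t` commuting with `σ B̄` and `m ∈ M`:
`⟪t ξ, m ξ⟫ = ⟪m* ξ, t* ξ⟫` (true for `m = p ∈ B`; the inequalities of `GD` extend to vectors of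
`K`, apply them to `t ξ` and `t* ξ`). With `m = b₁* x b₂` this gives
`⟪t b₁ ξ, T b₂ ξ⟫ = ⟪b₁ ξ, T t* b₂ ξ⟫`, so `T` commutes with `t*`; the commutant is star closed,
so `T` is in the bicommutant. `kap_sa` gives `b ∈ B̄`; approximate in norm by a self-adjoint
element of `B` and rescale. -/
theorem GD.exists_approx {B : StarSubalgebra ℂ (Al M)} (h : GD B ξ) {x : Al M}
    (hx : IsSelfAdjoint x) (hx1 : ‖x‖ ≤ 1) (T : Finset H) {e : ℝ} (he : 0 < e) :
    ∃ p ∈ B, IsSelfAdjoint p ∧ ‖p‖ ≤ 1 ∧ ∀ v ∈ T, v ∈ cyc B ξ →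
      ‖ap p v - (cyc B ξ).starProjection (ap x v)‖ ≤ e := by
  classical
  have : IsClosed (B.topologicalClosure : Set (Al M)) := B.isClosed_topologicalClosure
  have hsa : IsSelfAdjoint
      ((cyc B ξ).orthogonalProjectionOnto ∘L (x : H →L[ℂ] H) ∘L (cyc B ξ).subtypeL) := by
    rw [IsSelfAdjoint, ContinuousLinearMap.star_eq_adjoint, eq_comm,
      ContinuousLinearMap.eq_adjoint_iff]
    intro v w
    simp only [ContinuousLinearMap.comp_apply, Submodule.subtypeL_apply,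
      Submodule.inner_orthogonalProjectionOnto_eq_of_mem_right,
      Submodule.inner_orthogonalProjectionOnto_eq_of_mem_left]
    have := inner_ap_left x (v : H) (w : H)
    rwa [hx.star_eq] at this
  have hn : ‖(cyc B ξ).orthogonalProjectionOnto ∘L (x : H →L[ℂ] H) ∘L (cyc B ξ).subtypeL‖ ≤ 1 := by
    refine ContinuousLinearMap.opNorm_le_bound _ zero_le_one fun v => ?_
    refine ((cyc B ξ).norm_orthogonalProjectionOnto_apply_le _).trans ?_
    exact (norm_ap_le x (v : H)).trans (mul_le_mul_of_nonneg_right hx1 (norm_nonneg _))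
  obtain ⟨b, hb, hb1, h1⟩ := kap_sa (kapRep B ξ) (h.kap_bicomm x) hsa hn
    (T.subtype (· ∈ cyc B ξ)) (half_pos he)
  have hR : 0 ≤ ∑ v ∈ T, ‖v‖ := Finset.sum_nonneg fun _ _ => norm_nonneg _
  obtain ⟨p, hp, hps, hp1, h2⟩ := kap_norm_approx b.2 (congrArg Subtype.val hb.star_eq) hb1
    (δ := e / (4 * (∑ v ∈ T, ‖v‖ + 1))) (by positivity)
  refine ⟨p, hp, hps, hp1, fun v hv hvK => ?_⟩
  have h3 : ‖ap (b : Al M) v - (cyc B ξ).starProjection (ap x v)‖ ≤ e / 2 :=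
    h1 ⟨v, hvK⟩ (Finset.mem_subtype.2 hv)
  have h4 : ‖v‖ ≤ ∑ v ∈ T, ‖v‖ + 1 :=
    (Finset.single_le_sum (f := fun v : H => ‖v‖) (fun _ _ => norm_nonneg _) hv).trans
      (le_add_of_nonneg_right zero_le_one)
  have h5 : ‖ap p v - ap (b : Al M) v‖ ≤ e / 2 := by
    refine (norm_ap_le (p - (b : Al M)) v).trans
      ((mul_le_mul h2 h4 (norm_nonneg _) (by positivity)).trans (le_of_eq ?_))
    field_simp
    ring
  have h6 := norm_sub_le_norm_sub_add_norm_sub (ap p v) (ap (b : Al M) v)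
    ((cyc B ξ).starProjection (ap x v))
  linarith

/-- Weak limit along `fU H` of the approximants for `T` with `e = 1` (eventually `n • v ∈ T`). -/
theorem GD.exists_compress {B : StarSubalgebra ℂ (Al M)} (h : GD B ξ) {x : Al M}
    (hx : IsSelfAdjoint x) (hx1 : ‖x‖ ≤ 1) : ∃ y : Al M, IsSelfAdjoint y ∧ ‖y‖ ≤ 1 ∧
      ∀ v ∈ cyc B ξ, ap y v = (cyc B ξ).starProjection (ap x v) := by
  choose p _ hps hp1 hp using fun T : Finset H => h.exists_approx hx hx1 T one_pos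
  obtain ⟨y, hy⟩ := exists_WL (fU H) p 1 (Eventually.of_forall hp1)
  refine ⟨y, (hy.star.congr fun T => (hps T).star_eq).unique hy,
    hy.norm_le (Eventually.of_forall hp1), fun v hv => ?_⟩
  have h1 : Tendsto (fun T => ap (p T) v) (fU H : Filter (Finset H))
      (𝓝 ((cyc B ξ).starProjection (ap x v))) := by
    refine Metric.tendsto_nhds.2 fun e he => (fU_mem (((2 / e : ℝ) : ℂ) • v)).mono fun T hT => ?_
    have h2 := hp T _ hT ((cyc B ξ).smul_mem _ hv)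
    have h3 : 0 < 2 / e := by positivity
    simp only [ap, map_smul] at h2
    rw [← smul_sub, norm_smul, Complex.norm_real,
      Real.norm_of_nonneg h3.le, div_mul_eq_mul_div, div_le_one he] at h2
    rw [dist_eq_norm]
    linarith
  exact ext_inner_left ℂ fun η => tendsto_nhds_unique (hy v η) (tendsto_const_nhds.inner h1)

theorem GD.kap_sqrt {B : StarSubalgebra ℂ (Al M)} (h : GD B ξ)
    (hsep : ∀ m : Al M, ap m ξ = 0 → m = 0) {z : Al M} (hz : ‖z‖ ≤ 1) :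
    ∃ d : Al M, (∀ v, ap d ((cyc B ξ).starProjection v) = (cyc B ξ).starProjection (ap d v)) ∧
      ∀ v ∈ cyc B ξ, ‖ap d v‖ = ‖ap z v‖ := by
  obtain ⟨c, hc, -, h1⟩ := h.exists_compress (IsSelfAdjoint.star_mul_self z)
    ((norm_mul_le _ _).trans (by rw [norm_star]; nlinarith [norm_nonneg z]))
  have h2 : ∀ v ∈ cyc B ξ, ⟪v, ap c v⟫_ℂ = ⟪ap z v, ap z v⟫_ℂ := fun v hv => by
    rw [h1 v hv, ← Submodule.inner_starProjection_left_eq_right,
      Submodule.starProjection_eq_self_iff.2 hv, ap_mul, inner_ap_left]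
  have hc0 : IsSelfAdjoint (c : H →L[ℂ] H) := congrArg Subtype.val hc.star_eq
  have h3 : Commute (c : H →L[ℂ] H) (cyc B ξ).starProjection := by
    refine ContinuousLinearMap.ext fun v => ?_
    change ap c ((cyc B ξ).starProjection v) = (cyc B ξ).starProjection (ap c v)
    refine (Submodule.eq_starProjection_of_mem_of_inner_eq_zero ?_ fun w hw => ?_).symm
    · rw [h1 _ (Submodule.starProjection_apply_mem _ v)]
      exact Submodule.starProjection_apply_mem _ _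
    · rw [← (map_sub _ _ _ : ap c (v - _) = ap c v - ap c _), inner_ap_left, hc.star_eq, h1 w hw]
      exact Submodule.starProjection_inner_eq_zero _ _ (Submodule.starProjection_apply_mem _ _)
  have h4 : ∀ f : ℝ → ℝ, ∃ d : Al M, (d : H →L[ℂ] H) = cfc f (c : H →L[ℂ] H) ∧ IsSelfAdjoint d ∧
      ∀ v, ap d ((cyc B ξ).starProjection v) = (cyc B ξ).starProjection (ap d v) := fun f =>
    ⟨⟨cfc f (c : H →L[ℂ] H), cfc_mem (𝕜' := ℂ) (hs := isClosed_Al M) f c.2⟩, rfl,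
      Subtype.ext (cfc_predicate f (c : H →L[ℂ] H)).star_eq,
      fun v => congrArg (fun T : H →L[ℂ] H => T v) (h3.cfc_real f).eq⟩
  obtain ⟨d, hd, hds, hdP⟩ := h4 fun s => √(max s 0)
  obtain ⟨n, hn, hns, hnP⟩ := h4 fun s => √(max (-s) 0)
  have e1 : c = d * d - n * n := by
    refine Subtype.ext ?_
    change (c : H →L[ℂ] H) = (d : H →L[ℂ] H) * d - (n : H →L[ℂ] H) * n
    rw [hd, hn, ← cfc_mul .., ← cfc_mul .., ← cfc_sub ..]
    refine (cfc_id' ℝ (c : H →L[ℂ] H)).symm.trans (cfc_congr fun s _ => ?_)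
    simp only [Real.mul_self_sqrt (le_max_right _ _)]
    exact (max_zero_sub_max_neg_zero_eq_self s).symm
  have e2 : d * n = 0 := by
    refine Subtype.ext ?_
    change (d : H →L[ℂ] H) * n = 0
    rw [hd, hn, ← cfc_mul .., ← cfc_const_zero ℝ (c : H →L[ℂ] H)]
    refine cfc_congr fun s _ => ?_
    rcases le_total s 0 with hs | hs
    · simp [max_eq_right hs]
    · simp [max_eq_right (neg_nonpos.2 hs)]
  have e3 : n * n = 0 := by
    refine hsep _ ?_
    have h5 : ap n ξ ∈ cyc B ξ := by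
      rw [← Submodule.starProjection_eq_self_iff, ← hnP,
        Submodule.starProjection_eq_self_iff.2 (xi_mem_cyc B ξ)]
    have h6 := h2 _ h5
    have h7 : c * n = -(n * (n * n)) := by rw [e1, sub_mul, mul_assoc, e2, mul_assoc]; simp
    rw [← ap_mul, h7, ap_neg, inner_neg_right, ap_mul, inner_ap_right, hns.star_eq, ← ap_mul,
      inner_self_eq_norm_sq_to_K, inner_self_eq_norm_sq_to_K] at h6
    have h8 : -‖ap (n * n) ξ‖ ^ 2 = ‖ap z (ap n ξ)‖ ^ 2 := by exact_mod_cast h6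
    have h9 : ‖ap (n * n) ξ‖ ^ 2 = 0 := by
      nlinarith [sq_nonneg ‖ap (n * n) ξ‖, sq_nonneg ‖ap z (ap n ξ)‖]
    exact norm_eq_zero.1 (pow_eq_zero_iff two_ne_zero |>.1 h9)
  refine ⟨d, hdP, fun v hv => ?_⟩
  have h5 := h2 v hv
  rw [e1, e3, sub_zero, ap_mul, inner_ap_right, hds.star_eq, inner_self_eq_norm_sq_to_K,
    inner_self_eq_norm_sq_to_K] at h5
  exact (pow_left_inj₀ (norm_nonneg _) (norm_nonneg _) two_ne_zero).1 (by exact_mod_cast h5)

/-- The compression of a tame element is right bounded. Let `P` be the projection on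
`K = cyc B ξ`, `x ξ = t ξ`, `y ξ = P t ξ`. For `‖z‖ ≤ 1` let `c` be the compression of `z* z`
(`exists_compress`). `c` is self-adjoint and preserves `K`, so commutes with `P`, and so does
every `cfc f c`. `⟪v, c v⟫ ≥ 0` on `K`; with `v = cfc (√(·⁻)) c ξ` this gives `c₋ ξ = 0`, so
`c₋ = 0` and `c = d d`, `d = cfc (√(·⁺)) c`. Then
`‖z y ξ‖² = ⟪y ξ, c y ξ⟫ = ‖d P t ξ‖² = ‖P t d ξ‖² ≤ ‖t‖² ⟪ξ, c ξ⟫ = ‖t‖² ‖z ξ‖²`. Scale. -/
theorem GD.rb {B : StarSubalgebra ℂ (Al M)} (h : GD B ξ) (hsep : ∀ m : Al M, ap m ξ = 0 → m = 0)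
    {x y : Al M} {t : H →L[ℂ] H} (ht : t ∈ M.commutant) (hx : ap x ξ = t ξ)
    (hy : ap y ξ = (cyc B ξ).starProjection (ap x ξ)) : RB ξ ‖t‖ y := by
  have key : ∀ z : Al M, ‖z‖ ≤ 1 → ‖ap (z * y) ξ‖ ≤ ‖t‖ * ‖ap z ξ‖ := by
    intro z hz
    obtain ⟨d, hd, h1⟩ := h.kap_sqrt hsep hz
    have h2 : ap d (t ξ) = t (ap d ξ) :=
      (congrArg (fun S : H →L[ℂ] H => S ξ) (comm_of_mem d ht)).symm
    rw [ap_mul, hy, ← h1 _ (Submodule.starProjection_apply_mem _ _), hd, hx, h2,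
      ← h1 _ (xi_mem_cyc B ξ)]
    exact ((cyc B ξ).norm_starProjection_apply_le _).trans (t.le_opNorm _)
  intro z
  have h0 : 0 < ‖z‖ + 1 := by positivity
  have h1 := key ((((‖z‖ + 1)⁻¹ : ℝ) : ℂ) • z) (by
    rw [norm_smul, Complex.norm_real, norm_inv, Real.norm_of_nonneg h0.le, inv_mul_le_iff₀ h0]
    linarith)
  rw [smul_mul_assoc, ap_smul, ap_smul, norm_smul, norm_smul, Complex.norm_real, norm_inv,
    Real.norm_of_nonneg h0.le, mul_left_comm] at h1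
  exact le_of_mul_le_mul_left h1 (inv_pos.2 h0)

end Crest.Agent.R109
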