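import Mathlib

/-!
# R109 (Popa-Vaes paving): the colouring polynomial `Q`

`Q Λ ω δ = ∑_{S : ι → 𝒫(Λ)} ∏_{w ∈ Λ} ω w {i | w ∈ S i} * ∏_i δ (S i)`.
`ι` is the set of colours, `S i` the set of vertices present in copy `i`, `δ S` will be the
principal minor `det (-a[S])`, `ω w T` the weight of "vertex `w` is present in the copies `T`".
-/

set_option autoImplicit false
open Finset

namespace Crest.Agent.R109

section Defs
variable {V ι R : Type*} [DecidableEq V] [Fintype ι] [DecidableEq ι] [CommRing R]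

/-- The colouring polynomial. -/
def Q (Λ : Finset V) (ω : V → Finset ι → R) (δ : Finset V → R) : R :=
  ∑ S ∈ Fintype.piFinset (fun _ : ι => Λ.powerset),
    (∏ w ∈ Λ, ω w (univ.filter fun i => w ∈ S i)) * ∏ i, δ (S i)

/-- Weight of a vertex present in at most one copy: `z` if absent, `c i` if present in copy `i`. -/
def wA (z : R) (c : ι → R) (T : Finset ι) : R :=
  if T = ∅ then z else ∑ i, if T = {i} then c i else 0

/-- Product weight (independent presence in the copies, activity `c i` in copy `i`). -/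
def wP (c : ι → R) (T : Finset ι) : R := ∏ i ∈ T, c i

/-- Vertex present in all copies at height `ζ` (homogeneous form of `wP fun _ => ζ⁻¹`). -/
def wM (ζ : R) (T : Finset ι) : R := ζ ^ (Fintype.card ι - T.card)

/-- Coefficient of "vertex `v` is present exactly in the copies `T`". -/
def QT (Λ : Finset V) (ω : V → Finset ι → R) (δ : Finset V → R) (v : V) (T : Finset ι) : R :=
  Q (insert v Λ) (Function.update ω v (Pi.single T 1)) δ

/-- Numerator of the self-energy of `v` in copy `i`. -/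
def Nn (Λ : Finset V) (ω : V → Finset ι → R) (δ : Finset V → R) (v : V) (i : ι) : R :=
  -QT Λ ω δ v {i}

end Defs

/-- The principal minor `det (-a[S])`. -/
noncomputable def mn {V : Type*} [DecidableEq V] (a : V → V → ℂ) (S : Finset V) : ℂ :=
  (Matrix.of fun p q : S => -a p q).det

/-- A Hermitian contraction kernel with zero diagonal. -/
structure Herm {V : Type*} (a : V → V → ℂ) : Prop where
  herm : ∀ p q, a q p = (starRingEnd ℂ) (a p q)
  diag : ∀ p, a p p = 0
  contr : ∀ (S : Finset V) (η ζ : V → ℂ),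
    ‖∑ p ∈ S, ∑ q ∈ S, (starRingEnd ℂ) (η p) * a p q * ζ q‖ ^ 2 ≤
      (∑ p ∈ S, ‖η p‖ ^ 2) * ∑ p ∈ S, ‖ζ p‖ ^ 2

section Lemmas
variable {V ι R : Type*} [DecidableEq V] [Fintype ι] [DecidableEq ι] [CommRing R]

theorem Q_empty (ω : V → Finset ι → R) {δ : Finset V → R} (h : δ ∅ = 1) : Q ∅ ω δ = 1 := by
  simp [Q, h]

/-- `Q` only reads `ω` on `Λ` and `δ` on subsets of `Λ`. -/
theorem Q_congr {Λ : Finset V} {ω ω' : V → Finset ι → R} {δ δ' : Finset V → R}
    (h : ∀ w ∈ Λ, ω w = ω' w) (h' : ∀ S ⊆ Λ, δ S = δ' S) : Q Λ ω δ = Q Λ ω' δ' := by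
  unfold Q
  refine sum_congr rfl fun S hS => ?_
  rw [prod_congr rfl fun w hw => by rw [h w hw],
    prod_congr rfl fun i _ => h' (S i) (mem_powerset.1 (Fintype.mem_piFinset.1 hS i))]

theorem QT_congr {Λ : Finset V} {ω ω' : V → Finset ι → R} (δ : Finset V → R) (v : V)
    (T : Finset ι) (h : ∀ w ∈ Λ, w ≠ v → ω w = ω' w) : QT Λ ω δ v T = QT Λ ω' δ v T := by
  refine Q_congr (fun w hw => ?_) fun _ _ => rfl
  by_cases hwv : w = v
  · subst hwv
    simp
  · rw [Function.update_of_ne hwv, Function.update_of_ne hwv,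
      h w ((mem_insert.1 hw).resolve_left hwv) hwv]

theorem QT_eq {Λ : Finset V} {v : V} (hv : v ∉ Λ) (ω : V → Finset ι → R) (δ : Finset V → R)
    (T : Finset ι) :
    QT Λ ω δ v T = ∑ S ∈ Fintype.piFinset (fun _ : ι => (insert v Λ).powerset),
      (if (univ.filter fun i => v ∈ S i) = T then 1 else 0) *
        ((∏ w ∈ Λ, ω w (univ.filter fun i => w ∈ S i)) * ∏ i, δ (S i)) := by
  unfold QT Q
  refine sum_congr rfl fun S _ => ?_
  rw [prod_insert hv, Function.update_self, Pi.single_apply, mul_assoc]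
  congr 2
  refine prod_congr rfl fun w hw => ?_
  rw [Function.update_of_ne (ne_of_mem_of_not_mem hw hv)]

/-- `Q` is linear in the weight of one vertex (`∑_T ω v T * single T 1 T' = ω v T'`). -/
theorem Q_lin {Λ : Finset V} {v : V} (hv : v ∉ Λ) (ω : V → Finset ι → R) (δ : Finset V → R) :
    Q (insert v Λ) ω δ = ∑ T : Finset ι, ω v T * QT Λ ω δ v T := by
  simp only [QT_eq hv, mul_sum]
  rw [sum_comm]
  unfold Q
  refine sum_congr rfl fun S _ => ?_
  rw [prod_insert hv, mul_assoc]
  simp only [ite_mul, one_mul, zero_mul, mul_ite, mul_zero, sum_ite_eq, mem_univ, if_true]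

/-- Only the families `S` avoiding `v` contribute (`Finset.sum_subset`). -/
theorem QT_empty {Λ : Finset V} {v : V} (hv : v ∉ Λ) (ω : V → Finset ι → R) (δ : Finset V → R) :
    QT Λ ω δ v ∅ = Q Λ ω δ := by
  rw [QT_eq hv]
  unfold Q
  symm
  refine sum_subset_zero_on_sdiff ?_ ?_ ?_
  · exact Fintype.piFinset_subset _ _ fun _ => powerset_mono.2 (subset_insert _ _)
  · intro S hS
    rw [mem_sdiff, Fintype.mem_piFinset, Fintype.mem_piFinset] at hS
    obtain ⟨h1, h2⟩ := hS
    rw [if_neg, zero_mul]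
    intro h
    refine h2 fun i => mem_powerset.2 ?_
    have h3 : v ∉ S i := by
      intro hi
      have : i ∈ univ.filter fun i => v ∈ S i := mem_filter.2 ⟨mem_univ _, hi⟩
      rw [h] at this
      exact notMem_empty _ this
    exact (subset_insert_iff_of_notMem h3).1 (mem_powerset.1 (h1 i))
  · intro S hS
    rw [if_pos, one_mul]
    refine filter_eq_empty_iff.2 fun i _ hi => hv ?_
    exact mem_powerset.1 (Fintype.mem_piFinset.1 hS i) hi

omit [DecidableEq V] in
theorem wA_eq (z : R) (c : ι → R) (T : Finset ι) :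
    wA z c T = (if T = ∅ then z else 0) + ∑ i, if T = {i} then c i else 0 := by
  unfold wA
  split_ifs with h
  · subst h
    rw [sum_eq_zero, add_zero]
    intro i _
    rw [if_neg (singleton_ne_empty i).symm]
  · rw [zero_add]

theorem Q_wA {Λ : Finset V} {v : V} (hv : v ∉ Λ) {ω : V → Finset ι → R} (δ : Finset V → R)
    {z : R} {c : ι → R} (h : ω v = wA z c) :
    Q (insert v Λ) ω δ = z * Q Λ ω δ - ∑ i, c i * Nn Λ ω δ v i := by
  rw [Q_lin hv, h]
  simp only [wA_eq, add_mul, sum_add_distrib, ite_mul, zero_mul, sum_ite_eq', mem_univ, if_true,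
    sum_mul, QT_empty hv]
  rw [sum_comm]
  simp only [sum_ite_eq', mem_univ, if_true, Nn, mul_neg, sum_neg_distrib, sub_neg_eq_add]

/-- A vertex with zero activities may be erased. -/
theorem Q_erase_zero {Λ : Finset V} {v : V} {ω : V → Finset ι → R} (δ : Finset V → R)
    (h : ω v = wA 1 0) : Q Λ ω δ = Q (Λ.erase v) ω δ := by
  by_cases hv : v ∈ Λ
  · conv_lhs => rw [← insert_erase hv]
    rw [Q_wA (notMem_erase v Λ) δ h]
    simp
  · rw [erase_eq_of_notMem hv]

theorem wA_single (i : ι) (c : R) : wA (1 : R) (Pi.single i c) = wP (Pi.single i c) := by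
  funext T
  unfold wA wP
  by_cases h0 : T = ∅
  · simp [h0]
  rw [if_neg h0]
  by_cases h1 : T = {i}
  · subst h1
    simp [singleton_inj]
  · have h2 : ∃ j ∈ T, j ≠ i := by
      by_contra hc
      push Not at hc
      exact h1 (eq_singleton_iff_nonempty_unique_mem.2 ⟨nonempty_iff_ne_empty.2 h0, hc⟩)
    obtain ⟨j, hj, hji⟩ := h2
    rw [prod_eq_zero hj (by simp [hji])]
    refine sum_eq_zero fun k _ => ?_
    split_ifs with hk
    · have hki : k ≠ i := fun e => h1 (by rw [hk, e])
      simp [hki]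
    · rfl

theorem wA_zero : wA (1 : R) (0 : ι → R) = wP 0 := by
  funext T
  unfold wA wP
  by_cases h0 : T = ∅
  · simp [h0]
  · obtain ⟨j, hj⟩ := nonempty_iff_ne_empty.2 h0
    rw [if_neg h0, prod_eq_zero hj rfl]
    simp

/-- Naturality under ring homomorphisms. -/
theorem Q_map {R' : Type*} [CommRing R'] (f : R →+* R') (Λ : Finset V) (ω : V → Finset ι → R)
    (δ : Finset V → R) :
    f (Q Λ ω δ) = Q Λ (fun w T => f (ω w T)) (fun S => f (δ S)) := by
  simp only [Q, map_sum, map_mul, map_prod]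

theorem Nn_map {R' : Type*} [CommRing R'] (f : R →+* R') (Λ : Finset V) (ω : V → Finset ι → R)
    (δ : Finset V → R) (v : V) (i : ι) :
    f (Nn Λ ω δ v i) = Nn Λ (fun w T => f (ω w T)) (fun S => f (δ S)) v i := by
  unfold Nn QT
  rw [map_neg, Q_map]
  congr 1
  refine Q_congr (fun w _ => ?_) fun _ _ => rfl
  funext T
  by_cases hwv : w = v
  · subst hwv
    simp only [Function.update_self, Pi.single_apply]
    split_ifs <;> simp
  · simp only [Function.update_of_ne hwv]

theorem map_wA {R' : Type*} [CommRing R'] (f : R →+* R') (z : R) (c : ι → R) (T : Finset ι) :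
    f (wA z c T) = wA (f z) (fun i => f (c i)) T := by
  unfold wA
  split_ifs
  · rfl
  · rw [map_sum]
    refine sum_congr rfl fun i _ => ?_
    split_ifs <;> simp

theorem map_wM {R' : Type*} [CommRing R'] (f : R →+* R') (z : R) (T : Finset ι) :
    f (wM z T) = wM (f z) T := by
  simp only [wM, map_pow]

theorem wA_mul (b z : R) (c : ι → R) (T : Finset ι) :
    b * wA z c T = wA (b * z) (fun i => b * c i) T := by
  unfold wA
  split_ifs
  · rfl
  · rw [mul_sum]
    refine sum_congr rfl fun i _ => ?_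
    split_ifs <;> simp

/-- Scaling the weights. -/
theorem Q_scale (Λ : Finset V) (c : V → R) (ω : V → Finset ι → R) (δ : Finset V → R) :
    Q Λ (fun w T => c w * ω w T) δ = (∏ w ∈ Λ, c w) * Q Λ ω δ := by
  unfold Q
  rw [mul_sum]
  refine sum_congr rfl fun S _ => ?_
  rw [prod_mul_distrib, mul_assoc]

theorem Nn_scale {Λ : Finset V} {v : V} (hv : v ∉ Λ) (c : V → R) (ω : V → Finset ι → R)
    (δ : Finset V → R) (i : ι) :
    Nn Λ (fun w T => c w * ω w T) δ v i = (∏ w ∈ Λ, c w) * Nn Λ ω δ v i := by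
  unfold Nn QT
  have h1 : Q (insert v Λ) (Function.update (fun w T => c w * ω w T) v (Pi.single {i} 1)) δ =
      Q (insert v Λ) (fun w T => Function.update c v 1 w *
        Function.update ω v (Pi.single {i} 1) w T) δ := by
    refine Q_congr (fun w _ => ?_) fun _ _ => rfl
    funext T
    by_cases hwv : w = v
    · subst hwv
      simp
    · simp only [Function.update_of_ne hwv]
  have h2 : ∏ w ∈ insert v Λ, Function.update c v 1 w = ∏ w ∈ Λ, c w := by
    rw [prod_insert hv, Function.update_self, one_mul]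
    exact prod_congr rfl fun w hw => Function.update_of_ne (ne_of_mem_of_not_mem hw hv) _ _
  rw [h1, Q_scale, h2, mul_neg]

/-- Product weights: the copies decouple (`Finset.prod_univ_sum`). -/
theorem Q_prod (Λ : Finset V) (c : V → ι → R) (δ : Finset V → R) :
    Q Λ (fun w => wP (c w)) δ = ∏ i, ∑ S ∈ Λ.powerset, (∏ w ∈ S, c w i) * δ S := by
  rw [prod_univ_sum]
  unfold Q wP
  refine sum_congr rfl fun S hS => ?_
  rw [prod_mul_distrib]
  congr 1
  refine prod_comm' fun w i => ?_
  have := mem_powerset.1 (Fintype.mem_piFinset.1 hS i)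
  simp only [mem_filter, mem_univ, true_and, and_true]
  exact ⟨fun h => h.2, fun h => ⟨this h, h⟩⟩

/-- Factorisation when `δ` is multiplicative across `U`. Bijection
`S ↦ (fun i => S i ∩ U, fun i => S i \ U)`. -/
theorem Q_split {Λ U : Finset V} (ω : V → Finset ι → R) {δ : Finset V → R}
    (h : ∀ S ⊆ Λ, δ S = δ (S ∩ U) * δ (S \ U)) :
    Q Λ ω δ = Q (Λ ∩ U) ω δ * Q (Λ \ U) ω δ := by
  unfold Q
  rw [sum_mul_sum, ← sum_product']
  refine sum_nbij' (fun S => (fun i => S i ∩ U, fun i => S i \ U)) (fun A i => A.1 i ∪ A.2 i)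
    ?_ ?_ ?_ ?_ ?_
  · intro S hS
    simp only [mem_product, Fintype.mem_piFinset, mem_powerset] at hS ⊢
    exact ⟨fun i => inter_subset_inter (hS i) Subset.rfl, fun i => sdiff_subset_sdiff (hS i) Subset.rfl⟩
  · intro A hA
    simp only [mem_product, Fintype.mem_piFinset, mem_powerset] at hA ⊢
    exact fun i => union_subset ((hA.1 i).trans inter_subset_left) ((hA.2 i).trans sdiff_subset)
  · intro S _
    funext i
    simp only
    rw [union_comm, sdiff_union_inter]
  · intro A hA
    simp only [mem_product, Fintype.mem_piFinset, mem_powerset] at hA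
    refine Prod.ext (funext fun i => ?_) (funext fun i => ?_)
    · ext w
      have h1 := @hA.1 i w
      have h2 := @hA.2 i w
      simp only [mem_inter, mem_sdiff, mem_union] at h1 h2 ⊢
      tauto
    · ext w
      have h1 := @hA.1 i w
      have h2 := @hA.2 i w
      simp only [mem_inter, mem_sdiff, mem_union] at h1 h2 ⊢
      tauto
  · intro S hS
    simp only [Fintype.mem_piFinset, mem_powerset] at hS
    have h1 : ∏ w ∈ Λ, ω w (univ.filter fun i => w ∈ S i) =
        (∏ w ∈ Λ ∩ U, ω w (univ.filter fun i => w ∈ S i ∩ U)) *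
          ∏ w ∈ Λ \ U, ω w (univ.filter fun i => w ∈ S i \ U) := by
      rw [← prod_inter_mul_prod_sdiff Λ U]
      congr 1
      · refine prod_congr rfl fun w hw => ?_
        simp only [mem_inter, (mem_inter.1 hw).2, and_true]
      · refine prod_congr rfl fun w hw => ?_
        simp only [mem_sdiff, (mem_sdiff.1 hw).2, not_false_eq_true, and_true]
    rw [h1, prod_congr rfl fun i _ => h (S i) (hS i), prod_mul_distrib]
    ring

/-- Relabelling the vertices. -/
theorem Q_relabel {V' : Type*} [DecidableEq V'] (f : V' ↪ V) (Λ : Finset V')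
    (ω : V → Finset ι → R) (δ : Finset V → R) :
    Q (Λ.map f) ω δ = Q Λ (fun w => ω (f w)) (fun S => δ (S.map f)) := by
  unfold Q
  symm
  refine sum_nbij (fun S i => (S i).map f) ?_ ?_ ?_ ?_
  · intro S hS
    simp only [Fintype.mem_piFinset, mem_powerset] at hS ⊢
    exact fun i => map_subset_map.2 (hS i)
  · intro S _ S' _ h
    funext i
    exact map_injective f (congrFun h i)
  · intro S hS
    simp only [mem_coe, Fintype.mem_piFinset, mem_powerset] at hS
    choose A hA1 hA2 using fun i => subset_map_iff.1 (hS i)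
    refine ⟨A, ?_, funext fun i => (hA2 i).symm⟩
    simp only [mem_coe, Fintype.mem_piFinset, mem_powerset]
    exact hA1
  · intro S _
    rw [prod_map]
    simp only [mem_map']

end Lemmas

section Minor
variable {V : Type*} [DecidableEq V]

theorem mn_empty (a : V → V → ℂ) : mn a ∅ = 1 := by
  simp [mn]

theorem mn_congr {a a' : V → V → ℂ} {S : Finset V} (h : ∀ p ∈ S, ∀ q ∈ S, a p q = a' p q) :
    mn a S = mn a' S := by
  unfold mn
  congr 1
  ext p q
  simp only [Matrix.of_apply, h p p.2 q q.2]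

theorem mn_eq_of_equiv {n : Type*} [Fintype n] [DecidableEq n] (a : V → V → ℂ) {S : Finset V}
    (e : n ≃ S) : mn a S = (Matrix.of fun p q : n => -a (e p) (e q)).det := by
  unfold mn
  rw [← Matrix.det_submatrix_equiv_self e]
  rfl

theorem mn_map {V' : Type*} [DecidableEq V'] (f : V' ↪ V) (a : V → V → ℂ) (S : Finset V') :
    mn a (S.map f) = mn (fun p q => a (f p) (f q)) S := by
  let e : S ≃ S.map f := Equiv.ofBijective (fun p => ⟨f p, mem_map_of_mem f p.2⟩) (by
    constructor
    · intro p q h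
      exact Subtype.ext (f.injective (congrArg Subtype.val h))
    · rintro ⟨w, hw⟩
      obtain ⟨p, hp, rfl⟩ := mem_map.1 hw
      exact ⟨⟨p, hp⟩, rfl⟩)
  rw [mn_eq_of_equiv a e]
  rfl

/-- The minors of a Hermitian kernel are real. -/
theorem mn_im {a : V → V → ℂ} (h : Herm a) (S : Finset V) : (mn a S).im = 0 := by
  rw [← Complex.conj_eq_iff_im]
  unfold mn
  have := Matrix.det_conjTranspose (Matrix.of fun p q : S => -a p q)
  rw [← Complex.star_def, ← this]
  congr 1
  ext p q
  simp only [Matrix.conjTranspose_apply, Matrix.of_apply, star_neg, Complex.star_def, ← h.herm]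

/-- Principal minor expansion of `det (1 - N a)`; use
`Matrix.coeff_det_one_add_X_smul_eq_sum_minors` (or its proof) for `M = diagonal N * (-a)`, and
`Matrix.det_submatrix_equiv_self` to pass from subsets of the subtype `Λ` to subsets of `Λ`. -/
theorem sum_mn (a : V → V → ℂ) (Λ : Finset V) (N : V → ℂ) :
    ∑ S ∈ Λ.powerset, (∏ w ∈ S, N w) * mn a S =
      (Matrix.of fun p q : Λ => (if p = q then 1 else 0) - N p * a p q).det := by
  let M : Matrix Λ Λ ℂ := Matrix.of fun p q : Λ => N p * -a p q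
  have h1 : (Matrix.of fun p q : Λ => (if p = q then 1 else 0) - N p * a p q) = M + 1 := by
    ext p q
    simp only [M, Matrix.of_apply, Matrix.add_apply, Matrix.one_apply]
    ring
  have h2 : (M + 1).det =
      ∑ s : Finset Λ, (Matrix.of (s.piecewise M.row (1 : Matrix Λ Λ ℂ).row)).det :=
    (Matrix.detRowAlternating : (Λ → ℂ) [⋀^Λ]→ₗ[ℂ] ℂ).map_add_univ M (1 : Matrix Λ Λ ℂ)
  rw [h1, h2]
  symm
  refine sum_nbij (fun s => s.map (Function.Embedding.subtype _)) ?_ ?_ ?_ ?_
  · intro s _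
    refine mem_powerset.2 fun w hw => ?_
    obtain ⟨p, -, rfl⟩ := mem_map.1 hw
    exact p.2
  · intro s _ s' _ h
    exact map_injective _ h
  · intro S hS
    refine ⟨S.subtype (· ∈ Λ), by simp, ?_⟩
    exact subtype_map_of_mem (mem_powerset.1 hS)
  · intro s _
    rw [Matrix.det_piecewise_one_eq_submatrix_det, mn_map, prod_map, ← prod_coe_sort s]
    exact Matrix.det_mul_column (fun p : s => N p) (Matrix.of fun p q : s => -a p q)

/-- Block triangular minors factor (`Matrix.det_fromBlocks_zero₁₂`/`twoBlockTriangular_det`). -/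
theorem mn_split {a : V → V → ℂ} {S U : Finset V}
    (h : ∀ p ∈ S, ∀ q ∈ S, p ∈ U → q ∉ U → a p q = 0) : mn a S = mn a (S ∩ U) * mn a (S \ U) := by
  let e₁ : {x : S // x.1 ∈ U} ≃ (S ∩ U : Finset V) :=
    { toFun := fun x => ⟨x.1.1, mem_inter.2 ⟨x.1.2, x.2⟩⟩
      invFun := fun y => ⟨⟨y.1, (mem_inter.1 y.2).1⟩, (mem_inter.1 y.2).2⟩
      left_inv := fun _ => rfl
      right_inv := fun _ => rfl }
  let e₂ : {x : S // ¬ x.1 ∈ U} ≃ (S \ U : Finset V) :=
    { toFun := fun x => ⟨x.1.1, mem_sdiff.2 ⟨x.1.2, x.2⟩⟩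
      invFun := fun y => ⟨⟨y.1, (mem_sdiff.1 y.2).1⟩, (mem_sdiff.1 y.2).2⟩
      left_inv := fun _ => rfl
      right_inv := fun _ => rfl }
  rw [mn_eq_of_equiv a e₁, mn_eq_of_equiv a e₂]
  exact Matrix.twoBlockTriangular_det' (Matrix.of fun p q : S => -a p q) (fun x => x.1 ∈ U)
    fun p hp q hq => by rw [Matrix.of_apply, h p p.2 q q.2 hp hq, neg_zero]

theorem mn_relabel {V' : Type*} [DecidableEq V'] (f : V' ↪ V) (a : V → V → ℂ) (S : Finset V') :
    mn a (S.map f) = mn (fun p q => a (f p) (f q)) S :=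
  mn_map f a S

/-- Gauge invariance. -/
theorem mn_gauge {a k : V → V → ℂ} {γ : V → ℂ} {S : Finset V} (hγ : ∀ p ∈ S, ‖γ p‖ = 1)
    (h : ∀ p ∈ S, ∀ q ∈ S, a p q = (starRingEnd ℂ) (γ p) * γ q * k p q) : mn a S = mn k S := by
  unfold mn
  have h1 : (Matrix.of fun p q : S => -a p q) = Matrix.of fun p q : S => (starRingEnd ℂ) (γ p) *
      (Matrix.of fun p q : S => γ q * (Matrix.of fun p q : S => -k p q) p q) p q := by
    ext p q
    simp only [Matrix.of_apply, h p p.2 q q.2]
    ring
  rw [h1, Matrix.det_mul_column, Matrix.det_mul_row, ← mul_assoc, ← prod_mul_distrib,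
    prod_eq_one, one_mul]
  intro p _
  rw [Complex.conj_mul', hγ p p.2]
  simp

theorem Herm.neg {a : V → V → ℂ} (h : Herm a) : Herm fun p q => -a p q := by
  refine ⟨fun p q => by rw [h.herm, map_neg], fun p => by rw [h.diag, neg_zero], fun S η ζ => ?_⟩
  simp only [mul_neg, neg_mul, sum_neg_distrib, norm_neg]
  exact h.contr S η ζ

/-- Rows have `ℓ²` norm at most one (`η = δ_p`, `ζ = conj (a p ·)` on `insert p S`). -/
theorem Herm.row {a : V → V → ℂ} (h : Herm a) (p : V) (S : Finset V) :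
    ∑ q ∈ S, ‖a p q‖ ^ 2 ≤ 1 := by
  have h1 := h.contr (insert p S) (Pi.single p 1) fun q => (starRingEnd ℂ) (a p q)
  have h2 : ∑ p' ∈ insert p S, ∑ q ∈ insert p S,
      (starRingEnd ℂ) ((Pi.single p 1 : V → ℂ) p') * a p' q * (starRingEnd ℂ) (a p q) =
      ((∑ q ∈ insert p S, ‖a p q‖ ^ 2 : ℝ) : ℂ) := by
    rw [sum_eq_single_of_mem p (mem_insert_self _ _)]
    · push_cast
      refine sum_congr rfl fun q _ => ?_
      rw [Pi.single_eq_same, map_one, one_mul, Complex.mul_conj']
    · intro b _ hb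
      simp [Pi.single_eq_of_ne hb]
  have h3 : ∑ p' ∈ insert p S, ‖(Pi.single p 1 : V → ℂ) p'‖ ^ 2 = 1 := by
    rw [sum_eq_single_of_mem p (mem_insert_self _ _)]
    · simp
    · intro b _ hb
      simp [Pi.single_eq_of_ne hb]
  have h4 : 0 ≤ ∑ q ∈ insert p S, ‖a p q‖ ^ 2 := sum_nonneg fun _ _ => sq_nonneg _
  have h5 : ∑ q ∈ S, ‖a p q‖ ^ 2 ≤ ∑ q ∈ insert p S, ‖a p q‖ ^ 2 :=
    sum_le_sum_of_subset_of_nonneg (subset_insert _ _) fun _ _ _ => sq_nonneg _
  rw [h2, h3, Complex.norm_real, Real.norm_of_nonneg h4, one_mul] at h1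
  simp only [Complex.norm_conj] at h1
  nlinarith

theorem Herm.norm_le {a : V → V → ℂ} (h : Herm a) (p q : V) : ‖a p q‖ ≤ 1 := by
  classical
  have := h.row p {q}
  rw [sum_singleton] at this
  nlinarith [norm_nonneg (a p q)]

/-- The form of `a` is real and bounded by the squared norm. -/
theorem Herm.form {a : V → V → ℂ} (h : Herm a) (S : Finset V) (η : V → ℂ) :
    (∑ p ∈ S, ∑ q ∈ S, (starRingEnd ℂ) (η p) * a p q * η q).im = 0 ∧
      |(∑ p ∈ S, ∑ q ∈ S, (starRingEnd ℂ) (η p) * a p q * η q).re| ≤ ∑ p ∈ S, ‖η p‖ ^ 2 := by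
  constructor
  · rw [← Complex.conj_eq_iff_im, map_sum]
    simp only [map_sum, map_mul, Complex.conj_conj, ← h.herm]
    rw [sum_comm]
    refine sum_congr rfl fun p _ => sum_congr rfl fun q _ => ?_
    ring
  · refine (Complex.abs_re_le_norm _).trans ?_
    have h1 := h.contr S η η
    rw [← sq] at h1
    exact (sq_le_sq₀ (norm_nonneg _) (sum_nonneg fun _ _ => sq_nonneg _)).1 h1

/-- If `det (1 - N a) = 0` on `Λ` there is a nonzero kernel vector
(`Matrix.exists_mulVec_eq_zero_iff`), extended by zero off `Λ`. -/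
theorem exists_ker {a : V → V → ℂ} {Λ : Finset V} {N : V → ℂ}
    (h : ∑ S ∈ Λ.powerset, (∏ w ∈ S, N w) * mn a S = 0) :
    ∃ η : V → ℂ, (∃ p ∈ Λ, η p ≠ 0) ∧ ∀ p ∈ Λ, η p = N p * ∑ q ∈ Λ, a p q * η q := by
  rw [sum_mn] at h
  obtain ⟨v, hv, h0⟩ := Matrix.exists_mulVec_eq_zero_iff.2 h
  refine ⟨fun p => if hp : p ∈ Λ then v ⟨p, hp⟩ else 0, ?_, fun p hp => ?_⟩
  · obtain ⟨p, hp⟩ := Function.ne_iff.1 hv
    exact ⟨p, p.2, by simpa using hp⟩
  · have h1 := congrFun h0 ⟨p, hp⟩
    simp only [Matrix.mulVec, dotProduct, Matrix.of_apply, sub_mul, sum_sub_distrib, ite_mul, one_mul,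
      zero_mul, sum_ite_eq, mem_univ, if_true, Pi.zero_apply, sub_eq_zero] at h1
    beta_reduce
    rw [dif_pos hp, h1, ← sum_coe_sort Λ, mul_sum]
    refine sum_congr rfl fun q _ => ?_
    rw [dif_pos q.2, mul_assoc]

end Minor

end Crest.Agent.R109
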