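import Crest.Agent.R109.Act
import Crest.Agent.R109.Q

/-!
# R109: kernels of operators along the orbits
-/

set_option autoImplicit false
open Filter Topology MeasureTheory Finset
open scoped InnerProductSpace Classical

namespace Crest.Agent.R109
open Crest.Agent.R121

universe u
variable {H : Type u} [NormedAddCommGroup H] [InnerProductSpace ℂ H] [CompleteSpace H]
variable {M : VonNeumannAlgebra H} {A : StarSubalgebra ℂ (Al M)} {ξ : H}

namespace Sp
variable {X : Type u} [TopologicalSpace X] [MeasurableSpace X] {μ : Measure X} (S : Sp A ξ μ)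

/-- A choice of base points of the orbits and of paths from the base points. -/
structure Base where
  o : X → X
  P : X → Al M
  good : ∀ p, Good A ξ (P p)
  mem : ∀ p, o p ∈ S.dom (P p)
  act : ∀ p, S.act (P p) (o p) = p
  eq : ∀ p q, S.Rel p q → o p = o q

/-- `Quotient.out` for the setoid `rel_equiv`. -/
theorem exists_base [CompactSpace X] [T2Space X] : Nonempty S.Base := by
  let s : Setoid X := ⟨S.Rel, S.rel_equiv⟩
  have h : ∀ p, S.Rel (Quotient.mk s p).out p := fun p => Quotient.mk_out (s := s) p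
  choose P h1 h2 h3 using h
  exact ⟨⟨fun p => (Quotient.mk s p).out, P, h1, h2, h3, fun p q hpq =>
    congrArg Quotient.out (Quotient.sound (s := s) hpq)⟩⟩

variable {S} (B : S.Base)

/-- The kernel of `m`. -/
noncomputable def Base.ker (m : Al M) (p q : X) : ℂ :=
  if S.Rel p q then S.ev (star (B.P p) * m * B.P q) (B.o p) else 0

theorem Base.ker_add (m n : Al M) (p q : X) : B.ker (m + n) p q = B.ker m p q + B.ker n p q := by
  unfold Base.ker
  split_ifs <;> simp [mul_add, add_mul]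

theorem Base.ker_smul (c : ℂ) (m : Al M) (p q : X) : B.ker (c • m) p q = c * B.ker m p q := by
  unfold Base.ker
  split_ifs <;> simp

variable [CompactSpace X] [T2Space X]

theorem germ_mul {g g' : Al M} {ω : X} (hg : Nor A g) (hg' : Nor A g') (h1 : ω ∈ S.dom g)
    (h2 : ω ∈ S.dom g') (h : S.act g ω = S.act g' ω) :
    ‖S.ev (star g' * g) ω‖ = 1 ∧ (∀ m, S.ev (m * g) ω = S.ev (m * g') ω * S.ev (star g' * g) ω) ∧
      ∀ m, S.ev (star g * m) ω = (starRingEnd ℂ) (S.ev (star g' * g) ω) * S.ev (star g' * m) ω := by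
  obtain ⟨e, he, u, hu, -, e1, -, e2, e3, e4⟩ := S.exists_germ hg hg' h1 h2 h
  have k : ∀ m, S.ev (m * g) ω = S.ev (m * g') ω * S.ev (star g' * g) ω := fun m => by
    rw [e3, ← S.ev_mul_right hu, mul_assoc, ← e2, ← mul_assoc, S.ev_mul_right he, e1, mul_one]
  refine ⟨e3 ▸ e4, k, fun m => ?_⟩
  have := congrArg (starRingEnd ℂ) (k (star m))
  rw [map_mul (starRingEnd ℂ), ← S.ev_star, ← S.ev_star (star m * g')] at this
  simp only [star_mul, star_star] at this
  rw [this, mul_comm]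

omit [CompactSpace X] [T2Space X] in
theorem Base.rel (p : X) : S.Rel (B.o p) p := ⟨B.P p, B.good p, B.mem p, B.act p⟩

theorem Base.rel_iff (p q : X) : S.Rel p q ↔ B.o p = B.o q :=
  ⟨B.eq p q, fun h => S.rel_equiv.trans (S.rel_equiv.symm (B.rel p)) (h ▸ B.rel q)⟩

theorem Base.ker_eq (m : Al M) {p q : X} (h : B.o p = B.o q) :
    B.ker m p q = S.ev (star (B.P p) * m * B.P q) (B.o p) := if_pos ((B.rel_iff p q).2 h)

theorem Base.ker_eq_zero (m : Al M) {p q : X} (h : B.o p ≠ B.o q) : B.ker m p q = 0 :=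
  if_neg fun h' => h (B.eq p q h')

theorem Base.ker_star (m : Al M) (p q : X) :
    B.ker (star m) p q = (starRingEnd ℂ) (B.ker m q p) := by
  by_cases h : B.o p = B.o q
  · rw [B.ker_eq _ h, B.ker_eq _ h.symm, ← S.ev_star, h]
    simp only [star_mul, star_star, mul_assoc]
  · rw [B.ker_eq_zero _ h, B.ker_eq_zero _ (Ne.symm h), map_zero]

/-- `ev_act'`. -/
theorem Base.ker_diag (m : Al M) (p : X) : B.ker m p p = S.ev m p := by
  rw [B.ker_eq _ rfl, ← S.ev_act' (B.good p).nor (B.mem p), B.act]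

/-- `P* a = (P* a P) P*` (`Nor.mul_comm`), `ev_act`. -/
theorem Base.ker_mul_left {a : Al M} (ha : a ∈ A) (m : Al M) (p q : X) :
    B.ker (a * m) p q = S.ev a p * B.ker m p q := by
  by_cases h : B.o p = B.o q
  · rw [B.ker_eq _ h, B.ker_eq _ h, ← mul_assoc, ((B.good p).nor.mul_comm' S.std.toMasa ha).2,
      mul_assoc _ (star (B.P p)), mul_assoc _ (star (B.P p) * m),
      S.ev_mul_left ((B.good p).nor.left a ha), ← S.ev_act (B.good p).nor (B.mem p) ha, B.act]
  · rw [B.ker_eq_zero _ h, B.ker_eq_zero _ h, mul_zero]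

theorem Base.ker_mul_right {a : Al M} (ha : a ∈ A) (m : Al M) (p q : X) :
    B.ker (m * a) p q = B.ker m p q * S.ev a q := by
  by_cases h : B.o p = B.o q
  · rw [B.ker_eq _ h, B.ker_eq _ h, ← mul_assoc, mul_assoc _ a,
      ((B.good q).nor.mul_comm S.std.toMasa ha).1, ← mul_assoc (star (B.P p) * m),
      S.ev_mul_right ((B.good q).nor.left a ha), h, ← S.ev_act (B.good q).nor (B.mem q) ha, B.act]
  · rw [B.ker_eq_zero _ h, B.ker_eq_zero _ h, zero_mul]

/-- `ev_ne_zero` for the normaliser `(P p)* g (P q)` at the common base point. -/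
theorem Base.ker_ne_zero {g : Al M} (hg : Nor A g) {p q : X} (h : B.ker g p q ≠ 0) :
    q ∈ S.dom g ∧ S.act g q = p := by
  have ho : B.o p = B.o q := by
    by_contra h'
    exact h (B.ker_eq_zero _ h')
  have hp := (B.good p).nor
  have hq := (B.good q).nor
  have hgq := hg.mul S.std.toMasa hq
  rw [B.ker_eq _ ho, mul_assoc] at h
  obtain ⟨h1, -, h3⟩ := (S.coin_iff hgq hp).2 (S.ev_ne_zero (hp.star'.mul S.std.toMasa hgq) h)
  rw [S.act_mul hq hg h1, B.act, ho, B.act] at h3
  rw [S.mem_dom_mul hq hg, ho, B.act] at h1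
  exact ⟨h1.2, h3⟩

theorem Base.ker_one (p q : X) : B.ker 1 p q = if p = q then 1 else 0 := by
  split_ifs with h
  · rw [h, B.ker_diag, S.ev_one]
  · by_contra h'
    have := (B.ker_ne_zero (Nor.of_proj S.std.toMasa (one_mem A) (IsStarProjection.one _)) h').2
    rw [S.act_one] at this
    exact h this.symm

/-- Let `r = act g* p`. `exists_germ` for `g (P r)` and `P p` at the base point gives
`g (P r) e = (P p) u`; multiply `(P p)* g m (P q)` by `u*`:
`u* (P p)* g = e (P r)* g* g`, and `(P r)* g* g = ((P r)* g* g (P r)) (P r)*` where the first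
factor has value `ev (g* g) r = 1`. -/
theorem Base.ker_mul_good {g : Al M} (hg : Good A ξ g) (m : Al M) (p q : X) :
    B.ker (g * m) p q = if p ∈ S.dom (star g) then
      B.ker g p (S.act (star g) p) * B.ker m (S.act (star g) p) q else 0 := by
  have hp := (B.good p).nor
  have hgp := hg.nor.star'.mul S.std.toMasa hp
  have e : star (B.P p) * (g * m) * B.P q = star (star g * B.P p) * (m * B.P q) := by
    simp only [star_mul, star_star, mul_assoc]
  split_ifs with h
  · have hr : B.o p = B.o (S.act (star g) p) := B.eq _ _ ⟨star g, hg.star', h, rfl⟩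
    by_cases ho : B.o p = B.o q
    · have hm : B.o p ∈ S.dom (star g * B.P p) :=
        (S.mem_dom_mul hp hg.nor.star').2 ⟨B.mem p, by rwa [B.act]⟩
      obtain ⟨-, -, k⟩ := germ_mul hgp (B.good (S.act (star g) p)).nor hm (hr ▸ B.mem _)
        (by rw [S.act_mul hp hg.nor.star' hm, B.act, hr, B.act])
      rw [B.ker_eq _ ho, B.ker_eq _ hr, B.ker_eq _ (hr.symm.trans ho), e, k, ← S.ev_star, ← hr]
      simp only [star_mul, star_star, mul_assoc]
    · rw [B.ker_eq_zero _ ho, B.ker_eq_zero m (hr ▸ ho), mul_zero]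
  · by_cases ho : B.o p = B.o q
    · rw [B.ker_eq _ ho, e]
      refine (S.ev_eq_zero_of_notMem hgp (fun hm => h ?_) _).2
      have := ((S.mem_dom_mul hp hg.nor.star').1 hm).2
      rwa [B.act] at this
    · exact B.ker_eq_zero _ ho

/-- Change of gauge: `exists_germ` for `P (act g ω)` and `g (P ω)` at the base point gives
`P (act g ω) e_g = g (P ω) u_g`; `γ g = ev u_g o`; `ev_act'` for `P ω`. -/
theorem Base.gauge (ω : X) : ∃ γ : Al M → ℂ, (∀ g, ‖γ g‖ = 1) ∧ ∀ m g g', Good A ξ g →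
    Good A ξ g' → ω ∈ S.dom g → ω ∈ S.dom g' → B.ker m (S.act g ω) (S.act g' ω) =
      (starRingEnd ℂ) (γ g) * γ g' * S.ev (star g * m * g') ω := by
  have hω := (B.good ω).nor
  have key : ∀ g, Good A ξ g → ω ∈ S.dom g → B.o (S.act g ω) = B.o ω ∧
      ‖S.ev (star (g * B.P ω) * B.P (S.act g ω)) (B.o ω)‖ = 1 ∧
      (∀ m, S.ev (m * B.P (S.act g ω)) (B.o ω) = S.ev (m * (g * B.P ω)) (B.o ω) *
        S.ev (star (g * B.P ω) * B.P (S.act g ω)) (B.o ω)) ∧
      ∀ m, S.ev (star (B.P (S.act g ω)) * m) (B.o ω) =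
        (starRingEnd ℂ) (S.ev (star (g * B.P ω) * B.P (S.act g ω)) (B.o ω)) *
          S.ev (star (g * B.P ω) * m) (B.o ω) := fun g hg h => by
    have ho : B.o (S.act g ω) = B.o ω := (B.eq _ _ ⟨g, hg, h, rfl⟩).symm
    have hm : B.o ω ∈ S.dom (g * B.P ω) :=
      (S.mem_dom_mul hω hg.nor).2 ⟨B.mem ω, by rwa [B.act]⟩
    exact ⟨ho, germ_mul (B.good _).nor (hg.nor.mul S.std.toMasa hω) (ho ▸ B.mem _) hm
      (by rw [S.act_mul hω hg.nor hm, B.act, ← ho, B.act])⟩
  refine ⟨fun g => if Good A ξ g ∧ ω ∈ S.dom g then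
    S.ev (star (g * B.P ω) * B.P (S.act g ω)) (B.o ω) else 1, fun g => ?_,
    fun m g g' hg hg' h h' => ?_⟩
  · dsimp only
    split_ifs with h
    · exact (key g h.1 h.2).2.1
    · exact norm_one
  · obtain ⟨o1, -, -, k1⟩ := key g hg h
    obtain ⟨o2, -, k2, -⟩ := key g' hg' h'
    dsimp only
    rw [if_pos ⟨hg, h⟩, if_pos ⟨hg', h'⟩, B.ker_eq _ (o1.trans o2.symm), o1, k2, mul_assoc _ m, k1,
      mul_right_comm]
    congr 1
    conv_rhs => rw [← B.act ω, S.ev_act' hω (B.mem ω)]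
    simp only [star_mul, mul_assoc]

theorem Base.ker_form (y : Al M) {T : Finset X} {o : X} (hT : ∀ p ∈ T, B.o p = o) (η ζ : X → ℂ) :
    ∑ p ∈ T, ∑ q ∈ T, (starRingEnd ℂ) (η p) * B.ker y p q * ζ q =
      S.ev (star (∑ p ∈ T, η p • B.P p) * (y * ∑ q ∈ T, ζ q • B.P q)) o := by
  simp only [star_sum, sum_mul, mul_sum, map_sum, ContinuousMap.sum_apply]
  rw [sum_comm]
  refine sum_congr rfl fun q hq => sum_congr rfl fun p hp => ?_
  rw [B.ker_eq _ ((hT p hp).trans (hT q hq).symm), hT p hp]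
  simp only [star_smul, smul_mul_assoc, mul_smul_comm, map_smul, ContinuousMap.smul_apply,
    smul_eq_mul, mul_assoc, Complex.star_def]
  ring

theorem Base.ker_sq {T : Finset X} {o : X} (hT : ∀ p ∈ T, B.o p = o) (η : X → ℂ) :
    (S.ev (star (∑ p ∈ T, η p • B.P p) * ∑ q ∈ T, η q • B.P q) o).re = ∑ p ∈ T, ‖η p‖ ^ 2 := by
  have h := B.ker_form 1 hT η η
  rw [one_mul] at h
  rw [← h, Complex.re_sum]
  refine sum_congr rfl fun p hp => ?_
  simp only [B.ker_one, mul_ite, ite_mul, mul_one, mul_zero, zero_mul, sum_ite_eq, if_pos hp]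
  rw [Complex.conj_mul']
  norm_cast

/-- Split `T` into the fibres of `B.o` (`Rel p q ↔ o p = o q`; `Finset.sum_fiberwise_of_maps_to`).
On the fibre over `o` put `m = ∑ η_p P p`, `n = ∑ ζ_q P q`; the form is `ev (m* x n) o`, and
`ev (m* m) o = ∑ |η_p|²` (`ker_one`); `ev_cs`, `ev_mul_le`, then Cauchy-Schwarz over the fibres. -/
theorem Base.herm {x : Al M} (hx : IsSelfAdjoint x) (h1 : ‖x‖ ≤ 1) (h0 : S.std.E x = 0) :
    Herm (B.ker x) := by
  refine ⟨fun p q => ?_, fun p => ?_, fun T η ζ => ?_⟩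
  · rw [← B.ker_star, hx.star_eq]
  · rw [B.ker_diag, ← S.ev_E, h0, map_zero, ContinuousMap.zero_apply]
  · have hm : ∀ p ∈ T, B.o p ∈ T.image B.o := fun p hp => mem_image_of_mem _ hp
    rw [← sum_fiberwise_of_maps_to hm, ← sum_fiberwise_of_maps_to hm fun p => ‖η p‖ ^ 2,
      ← sum_fiberwise_of_maps_to hm fun p => ‖ζ p‖ ^ 2]
    refine (pow_le_pow_left₀ (norm_nonneg _) (norm_sum_le _ _) 2).trans
      (sum_sq_le_sum_mul_sum_of_sq_le_mul _ (fun _ _ => by positivity) (fun _ _ => by positivity)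
        fun o _ => ?_)
    have hT : ∀ p ∈ T.filter fun p => B.o p = o, B.o p = o := fun p hp => (mem_filter.1 hp).2
    have e : ∀ p ∈ T.filter fun p => B.o p = o,
        ∑ q ∈ T, (starRingEnd ℂ) (η p) * B.ker x p q * ζ q =
        ∑ q ∈ T.filter fun p => B.o p = o, (starRingEnd ℂ) (η p) * B.ker x p q * ζ q := by
      intro p hp
      refine (sum_filter_of_ne fun q _ h => ?_).symm
      by_contra h'
      rw [B.ker_eq_zero x fun h'' => h' (h''.symm.trans (hT p hp))] at h
      simp at h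
    rw [sum_congr rfl e, B.ker_form x hT, ← B.ker_sq hT, ← B.ker_sq hT]
    refine (S.ev_cs _ _ _).trans (mul_le_mul_of_nonneg_left ((S.ev_mul_le _ _ _).trans ?_)
      (S.ev_nonneg _ _).1)
    exact mul_le_of_le_one_left (S.ev_nonneg _ _).1 (pow_le_one₀ (norm_nonneg _) h1)

end Sp

end Crest.Agent.R109
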