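import Crest.Agent.R109.PG

/-!
# R109: mass transport and continuity of the local potentials
-/

set_option autoImplicit false
open Finset Filter Topology MeasureTheory
open scoped Classical

namespace Crest.Agent.R109

universe u

namespace PG
variable {X : Type u} [TopologicalSpace X] [MeasurableSpace X] {μ : Measure X} {G : PG μ}

/-- Multiplicity of the edge `(w, v)` in `W K`. -/
noncomputable def mult (G : PG μ) (K : ℕ) (w v : X) : ℕ :=
  ((G.W K).filter fun g => w ∈ G.dom g ∧ G.act g w = v).card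

theorem mult_symm (K : ℕ) (w v : X) : G.mult K w v = G.mult K v w := by
  have key : ∀ w v : X, Set.MapsTo G.inv
      (((G.W K).filter fun g => w ∈ G.dom g ∧ G.act g w = v : Finset G.Γ) : Set G.Γ)
      (((G.W K).filter fun g => v ∈ G.dom g ∧ G.act g v = w : Finset G.Γ) : Set G.Γ) := by
    intro w v g hg
    obtain ⟨h1, h2, rfl⟩ := mem_filter.1 (mem_coe.1 hg)
    exact mem_coe.2 (mem_filter.2 ⟨G.inv_mem K g h1, G.act_mem g w h2, G.act_inv g w h2⟩)
  exact card_nbij' G.inv G.inv (key w v) (key v w) (fun g _ => G.inv_inv g)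
    (fun g _ => G.inv_inv g)

omit [MeasurableSpace X] in
theorem mtp_clopen_ev {C : Set X} (hC : IsClopen C) (ω₀ : X) :
    ∀ᶠ ω in 𝓝 ω₀, (ω ∈ C ↔ ω₀ ∈ C) := by
  by_cases h : ω₀ ∈ C
  · filter_upwards [hC.isOpen.mem_nhds h] with ω hω using iff_of_true hω h
  · filter_upwards [hC.compl.isOpen.mem_nhds h] with ω hω using iff_of_false hω h

omit [MeasurableSpace X] in
theorem mtp_cont_ite {D : Set X} (hD : IsClopen D) {f : X → ℝ} (hf : ContinuousOn f D) :
    Continuous fun w => if w ∈ D then f w else 0 := by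
  refine continuous_iff_continuousAt.2 fun w => ?_
  by_cases h : w ∈ D
  · refine (hf.continuousAt (hD.isOpen.mem_nhds h)).congr ?_
    filter_upwards [hD.isOpen.mem_nhds h] with ω hω using (if_pos hω).symm
  · refine (continuousAt_const (y := (0 : ℝ))).congr ?_
    filter_upwards [hD.compl.isOpen.mem_nhds h] with ω hω using (if_neg hω).symm

theorem loc2_mult (K : ℕ) : G.Loc2 (G.mult K) := by
  intro g ω₀ h₀
  have h1 := (eventually_all_finset (G.W K)).2 fun g' _ => mtp_clopen_ev (G.coin g' g) ω₀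
  filter_upwards [nhdsWithin_le_nhds h1, self_mem_nhdsWithin] with ω hω hg
  unfold mult
  congr 1
  refine filter_congr fun g' hg' => ?_
  have := hω g' hg'
  simp only [hg, h₀, true_and] at this
  exact this

theorem sum_ball_eq (K : ℕ) (w : X) (f : X → ℝ) : ∑ v ∈ G.ball K w, f v =
    ∑ g ∈ G.W K, if w ∈ G.dom g then f (G.act g w) / G.mult K w (G.act g w) else 0 := by
  rw [← sum_filter, sum_comp (fun v => f v / G.mult K w v) (fun g => G.act g w)]
  refine sum_congr rfl fun v hv => ?_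
  rw [filter_filter, nsmul_eq_mul]
  have h0 : G.mult K w v ≠ 0 := by
    obtain ⟨g, h1, h2⟩ := mem_ball.1 hv
    exact card_ne_zero_of_mem (mem_filter.2 ⟨h1, h2⟩)
  exact (mul_div_cancel₀ (f v) (Nat.cast_ne_zero.2 h0)).symm

/-- Mass transport. By `sum_ball_eq` both sides are sums over `g ∈ W K`; apply `G.mtp (inv g)` to
the continuous function `w ↦ if w ∈ dom g then F w (act g w) / mult K w (act g w) else 0`
and reindex by `inv`. -/
theorem mass_transport [BorelSpace X] [CompactSpace X] [IsFiniteMeasure μ] (K : ℕ)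
    {F : X → X → ℝ} (hF : ∀ g, ContinuousOn (fun ω => F ω (G.act g ω)) (G.dom g)) :
    ∫ w, ∑ v ∈ G.ball K w, F w v ∂μ = ∫ v, ∑ w ∈ G.ball K v, G.wt v w * F w v ∂μ := by
  have hint : ∀ f : X → ℝ, Continuous f → Integrable f μ := fun f hf =>
    (BoundedContinuousFunction.mkOfCompact ⟨f, hf⟩).integrable μ
  set φ : G.Γ → X → ℝ := fun g w =>
    if w ∈ G.dom g then F w (G.act g w) / G.mult K w (G.act g w) else 0 with hφd
  have hφ : ∀ g, Continuous (φ g) := fun g => mtp_cont_ite (G.dom_clopen g) fun w hw => by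
    refine ((hF g w hw).div_const (G.mult K w (G.act g w) : ℝ)).congr_of_eventuallyEq ?_ rfl
    filter_upwards [loc2_mult K g w hw] with ω hω
    rw [hω]
  set ψ : G.Γ → X → ℝ := fun g v =>
    if v ∈ G.dom g then G.wt v (G.act g v) * φ (G.inv g) (G.act g v) else 0 with hψd
  have hψ : ∀ g, Continuous (ψ g) := fun g => mtp_cont_ite (G.dom_clopen g)
    ((G.wt_cont g).mul ((hφ _).comp_continuousOn (G.act_cont g)))
  have e1 : ∀ w, ∑ v ∈ G.ball K w, F w v = ∑ g ∈ G.W K, φ g w := fun w => sum_ball_eq K w _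
  have e2 : ∀ v, ∑ w ∈ G.ball K v, G.wt v w * F w v = ∑ g ∈ G.W K, ψ g v := by
    intro v
    rw [sum_ball_eq K v]
    refine sum_congr rfl fun g _ => ?_
    by_cases hv : v ∈ G.dom g
    · simp only [hψd, hφd, if_pos hv, if_pos (G.act_mem g v hv), G.act_inv g v hv]
      rw [mult_symm K v, mul_div_assoc]
    · simp only [hψd, if_neg hv]
  simp only [e1, e2]
  rw [integral_finsetSum _ fun g _ => hint _ (hφ g), integral_finsetSum _ fun g _ => hint _ (hψ g)]
  refine sum_nbij' G.inv G.inv (G.inv_mem K) (G.inv_mem K) (fun g _ => G.inv_inv g)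
    (fun g _ => G.inv_inv g) fun g _ => ?_
  have h1 := G.mtp (G.inv g) (φ g) (hφ g)
  rw [G.inv_inv, setIntegral_eq_integral_of_forall_compl_eq_zero fun w hw => if_neg hw] at h1
  rw [h1, ← setIntegral_eq_integral_of_forall_compl_eq_zero (s := G.dom (G.inv g))
    (f := ψ (G.inv g)) fun w hw => if_neg hw]
  refine setIntegral_congr_fun (G.dom_clopen _).isOpen.measurableSet fun v hv => ?_
  simp only [hψd, if_pos hv, G.inv_inv]

variable {ι : Type*} [Fintype ι] [DecidableEq ι] [Nonempty ι] {t η : ℝ}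

/-- Work on a chart `(R, U)` (`exists_chart`), shrunk so that `s ω (act g ω)` is constant for
`g ∈ R`. For `ω ∈ U`, relabel by the embedding `↥R ↪ X`, `g ↦ act g ω` (`FF_relabel`), remove the
gauge (`FF_gauge`; the kernel `kern` on `↥R` is Hermitian by `Herm.comp`, `Herm.gauge`) and apply
`FF_continuous` with parameter space `↥U`. -/
theorem continuous_FF (ht : 0 < t) (hη : 0 < η) (K K' : ℕ) {s : X → X → St ι} (hs : G.Loc2 s) :
    Continuous fun ω => FF t η K G.a (G.wt ω) (G.ball K' ω) (s ω) := by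
  refine continuous_iff_continuousAt.2 fun ω₀ => ?_
  obtain ⟨R, U, hU, h₀, hR⟩ := G.exists_chart K' ω₀
  let emb : ∀ ω ∈ U, R ↪ X := fun ω hω =>
    ⟨fun g => G.act g ω, fun g g' h => Subtype.ext ((hR ω hω).2.1 g.2 g'.2 h)⟩
  have hok : ∀ ω ∈ U, Ok t η (fun p q : R => G.kern p q ω) fun p => G.wt ω (G.act p ω) := by
    intro ω hω
    obtain ⟨γ, hγ, hγ'⟩ := G.gauge ω
    refine ⟨ht, hη, ?_, fun p => G.wt_pos _ _⟩
    have h1 := (G.herm.comp (emb ω hω)).gauge (γ := fun p : R => (starRingEnd ℂ) (γ p))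
      fun p => by rw [Complex.norm_conj, hγ]
    convert h1 using 3 with p q
    have h2 : ∀ g, γ g * (starRingEnd ℂ) (γ g) = 1 := fun g => by
      rw [Complex.mul_conj', hγ]; simp
    have h3 : G.a (emb ω hω p) (emb ω hω q) = _ :=
      hγ' p q ((hR ω hω).1 p p.2) ((hR ω hω).1 q q.2)
    rw [h3, Complex.conj_conj]
    linear_combination (-G.kern p q ω) * h2 p - γ p * (starRingEnd ℂ) (γ p) * G.kern p q ω * h2 q
  have hc : ContinuousOn (fun ω => FF t η K (fun p q : R => G.kern p q ω)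
      (fun p => G.wt ω (G.act p ω)) univ fun p => s ω₀ (G.act p ω₀)) U := by
    rw [continuousOn_iff_continuous_domRestrict]
    exact FF_continuous (E := U) (fun ω => hok ω ω.2)
      (fun p _ q _ => (G.kern_cont p q).comp continuous_subtype_val)
      (fun p _ => (G.wt_cont p).comp_continuous continuous_subtype_val
        fun ω => (hR ω ω.2).1 p p.2)
  refine (hc.continuousAt (hU.isOpen.mem_nhds h₀)).congr ?_
  have h1 : ∀ᶠ ω in 𝓝 ω₀, ∀ g ∈ R, s ω (G.act g ω) = s ω₀ (G.act g ω₀) := by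
    refine (eventually_all_finset R).2 fun g hg => ?_
    have hg₀ := (hR ω₀ h₀).1 g hg
    have := hs g ω₀ hg₀
    rwa [(G.dom_clopen g).isOpen.nhdsWithin_eq hg₀] at this
  filter_upwards [h1, hU.isOpen.mem_nhds h₀] with ω hω hωU
  obtain ⟨γ, hγ, hγ'⟩ := G.gauge ω
  have e : G.ball K' ω = univ.map (emb ω hωU) := by
    rw [(hR ω hωU).2.2]
    ext v
    simp only [mem_image, Finset.mem_map, mem_univ, true_and, Subtype.exists]
    exact ⟨fun ⟨g, hg, h⟩ => ⟨g, hg, h⟩, fun ⟨g, hg, h⟩ => ⟨g, hg, h⟩⟩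
  rw [e, (G.ok ht hη ω).FF_relabel,
    FF_gauge (a := fun p q => G.a (emb ω hωU p) (emb ω hωU q))
      (a' := fun p q : R => G.kern p q ω) (γ := fun p : R => γ p) (fun p _ => hγ p)
      fun p _ q _ => hγ' p q ((hR ω hωU).1 p p.2) ((hR ω hωU).1 q q.2)]
  exact FF_congr (fun p _ => (hω p p.2).symm) fun _ _ => rfl

/-- `jT_eq_FF_sub`, `Loc2.update`. -/
theorem continuous_jT (ht : 0 < t) (hη : 0 < η) (K K' : ℕ) {s : X → X → St ι} (hs : G.Loc2 s) :
    Continuous fun ω => jT t η K G.a (G.wt ω) (G.ball K' ω) (s ω) ω := by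
  refine ((continuous_FF ht hη K K' hs).sub
    (continuous_FF ht hη K K' (hs.update St.del))).congr fun ω => ?_
  exact ((G.ok ht hη ω).jT_eq_FF_sub (self_mem_ball K' ω)).symm

/-- `jT_loc` with `lay`. -/
theorem jT_ball_loc (ht : 0 < t) (hη : 0 < η) {K : ℕ} (ω : X) {Λ Λ' : Finset X} (hΛ : Λ' ⊆ Λ)
    {w : X} (hw : w ∈ Λ') (h : ∀ q ∈ Λ, q ∈ G.ball K w → q ∈ Λ') (σ : X → St ι) :
    jT t η K G.a (G.wt ω) Λ σ w = jT t η K G.a (G.wt ω) Λ' σ w :=
  (G.ok ht hη ω).jT_loc hΛ hw (G.lay K w) (lay_self K w) (fun _ _ _ _ h' => lay_le K w h')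
    fun q hq hq' => le_lay fun hb => hq' (h q hq hb)

/-- `FF_tele` with `lay`. -/
theorem FF_tele (ht : 0 < t) (hη : 0 < η) {K K' N : ℕ} (hK : K ≤ K') {cl : X → ℕ}
    (hcl : G.Cls K' N cl) (ω : X) (Λ : Finset X) (σ : X → St ι) :
    FF t η K G.a (G.wt ω) Λ σ = ∑ w ∈ Λ, jT t η K G.a (G.wt ω) Λ (cut cl (cl w) σ) w :=
  (G.ok ht hη ω).FF_tele cl (G.lay K) (fun w _ => lay_self K w)
    (fun w _ _ _ _ _ h' => lay_le K w h') fun w _ w' _ hne hc =>
      le_lay fun hb => hne (hcl.sep w w' (ball_mono hK w hb) hc).symm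

/-- Change of base point: `wt_mul`, `jT_congr`, `jT_scale`. -/
theorem wt_mul_jT {K m n : ℕ} {v w : X} (h : w ∈ G.ball m v) (σ : X → St ι) :
    G.wt v w * jT t η K G.a (G.wt w) (G.ball n w) σ w = jT t η K G.a (G.wt v) (G.ball n w) σ w := by
  rw [← jT_scale (G.wt_pos v w)]
  exact jT_congr (fun _ _ => rfl) fun p hp => (wt_mul h hp).symm

end PG

end Crest.Agent.R109
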