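import Crest.Agent.R109.NGns
import Crest.Agent.R124.Kaplansky

/-!
# R109/N: the standard model of the corner of a normal central vector
-/

set_option autoImplicit false
open Filter Topology
open scoped InnerProductSpace

namespace Crest.Agent.R109
open Crest.Agent.R121

universe u
variable {H : Type u} [NormedAddCommGroup H] [InnerProductSpace ℂ H] [CompleteSpace H]
variable {M : VonNeumannAlgebra H} {A : StarSubalgebra ℂ (Al M)}
variable {K : Type*} [NormedAddCommGroup K] [InnerProductSpace ℂ K] [CompleteSpace K]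
variable {κ : Type*} [Fintype κ]

theorem nkap_identity {B : Type*} [Ring B] [Algebra ℂ B] {α r s R' : B}
    (h1 : r * (1 + α * α) = 1) (h2 : (1 + s * s) * R' = 1) :
    (2 : ℂ) • (r * α) - (2 : ℂ) • (s * R') =
      (2 : ℂ) • (r * ((α - s) * R')) - (2 : ℂ) • (r * α) * ((α - s) * (s * R')) := by
  have h3 : r * α - s * R' = r * ((α - s) * R') - (r * α) * ((α - s) * (s * R')) := by
    calc r * α - s * R' = r * α * ((1 + s * s) * R') - r * (1 + α * α) * (s * R') := by
          rw [h1, h2, mul_one, one_mul]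
      _ = _ := by noncomm_ring
  rw [smul_mul_assoc, ← smul_sub, ← smul_sub, h3]

/-- Kaplansky density.  Copy `step1` of `R124.kaplansky` (and the private `kaplansky_identity`):
`y = 2 s R'` (`R124.exists_cayley` in `R124.exists_vn σ`), `a` from `R124.sa_approx` for the
vectors `R' v`, `s (R' v)`, `v ∈ T` (index type `Fin T.card ⊕ Fin T.card` via `T.equivFin`) and
`ε = 1/3`, `R` from `R124.exists_resolvent`, `b = 2 R a`. -/
theorem kap_approx {B : Type*} [CStarAlgebra B] (σ : B →⋆ₐ[ℂ] (K →L[ℂ] K)) {y : K →L[ℂ] K}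
    (hy : y ∈ Set.centralizer (Set.centralizer (Set.range σ))) (hsa : IsSelfAdjoint y)
    (h1 : ‖y‖ ≤ 1) (T : Finset K) : ∃ b : B, ‖b‖ ≤ 1 ∧ ∀ v ∈ T, ‖σ b v - y v‖ ≤ 1 := by
  obtain ⟨P, hP⟩ := R124.exists_vn σ
  have hcl : IsClosed (P.toStarSubalgebra : Set (K →L[ℂ] K)) := by
    rw [VonNeumannAlgebra.coe_toStarSubalgebra, hP]
    exact Set.isClosed_centralizer _
  obtain ⟨s, hsP, R', hs, hR', hys⟩ := R124.exists_cayley P.toStarSubalgebra hcl
    (x := y) (by rw [← hP] at hy; exact hy) hsa h1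
  obtain ⟨a, ha, happ⟩ := R124.sa_approx σ
    (Sum.elim (fun i : Fin T.card => R' (T.equivFin.symm i : K))
      fun i : Fin T.card => s (R' (T.equivFin.symm i : K)))
    (y := s) (by rw [← hP]; exact hsP) hs (ε := 1 / 3) (by norm_num)
  obtain ⟨R, -, hR, -, -, hR1, hR2⟩ := R124.exists_resolvent ha
  have hid := nkap_identity (α := σ a) (r := σ R) (s := s) (R' := R')
    (by rw [← map_mul, ← map_one σ, ← map_add, ← map_mul, hR]) hR'
  have hb : σ ((2 : ℂ) • (R * a)) = (2 : ℂ) • (σ R * σ a) := by rw [map_smul, map_mul]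
  have n1 : ‖σ R‖ ≤ 1 := (NonUnitalStarAlgHom.norm_apply_le σ R).trans hR1
  have n2 : ‖σ ((2 : ℂ) • (R * a))‖ ≤ 1 := (NonUnitalStarAlgHom.norm_apply_le σ _).trans hR2
  refine ⟨_, hR2, fun v hv => ?_⟩
  set β := σ ((2 : ℂ) • (R * a)) with hβ
  have h2 := happ (Sum.inl (T.equivFin ⟨v, hv⟩))
  have h3 := happ (Sum.inr (T.equivFin ⟨v, hv⟩))
  simp only [Sum.elim_inl, Sum.elim_inr, Equiv.symm_apply_apply] at h2 h3
  have h4 : β v - y v = (2 : ℂ) • σ R (σ a (R' v) - s (R' v)) -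
      β (σ a (s (R' v)) - s (s (R' v))) := by
    have := congrArg (fun T : K →L[ℂ] K => T v) hid
    rw [← hb, ← hys] at this
    simpa only [sub_apply, mul_apply_eq_comp, smul_apply] using this
  have h5 := ((σ R).le_opNorm (σ a (R' v) - s (R' v))).trans
    (mul_le_mul n1 h2 (norm_nonneg _) zero_le_one)
  have h6 := (β.le_opNorm (σ a (s (R' v)) - s (s (R' v)))).trans
    (mul_le_mul n2 h3 (norm_nonneg _) zero_le_one)
  rw [h4]
  refine (norm_sub_le _ _).trans ?_
  rw [norm_smul, Complex.norm_two]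
  linarith

/-- A normal cyclic representation of a weakly closed subalgebra has weakly closed range.
For `y` self-adjoint, `‖y‖ ≤ 1`: `b_T` from `kap_approx`, `c` the weak limit of `b_T` along `fU K`
(`exists_WL`), `c ∈ C`.  `σ b_T v → y v` for every `v` (eventually `n • v ∈ T`, `fU_mem`).  For
`a b : C`, `⟪σ a η, σ b_T (σ b η)⟫ = φ (star a * b_T * b)` tends to both `⟪σ a η, y (σ b η)⟫` and
`φ (star a * c * b) = ⟪σ a η, σ c (σ b η)⟫`; density twice gives `y = σ c`.  In general scale and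
write `y = h + I • k` with `h, k` self-adjoint in the bicommutant (`R124.exists_vn`). -/
theorem exists_preimage (C : StarSubalgebra ℂ (Al M)) [IsClosed (C : Set (Al M))]
    (hC : ∀ (F : Filter (Al M)) [F.NeBot] (y : Al M), (∀ᶠ m in F, m ∈ C) → WL F id y → y ∈ C)
    (σ : C →⋆ₐ[ℂ] (K →L[ℂ] K)) {η : K} (hη : Dense (Set.range fun c => σ c η))
    {φ : Al M → ℂ} (hφ : Nml φ) (h : ∀ c : C, ⟪η, σ c η⟫_ℂ = φ c) {y : K →L[ℂ] K}
    (hy : y ∈ Set.centralizer (Set.centralizer (Set.range σ))) : ∃ c, σ c = y := by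
  have hin : ∀ a b c : C, ⟪σ a η, σ c (σ b η)⟫_ℂ = φ (star (a : Al M) * c * b) := fun a b c => by
    have := h (star a * c * b)
    rw [map_mul, map_mul, map_star] at this
    exact (ContinuousLinearMap.adjoint_inner_right (σ a) η _).symm.trans this
  have step1 : ∀ y ∈ Set.centralizer (Set.centralizer (Set.range σ)), IsSelfAdjoint y →
      ‖y‖ ≤ 1 → ∃ c, σ c = y := fun y hy hsa h1 => by
    choose b hb1 hb2 using kap_approx σ hy hsa h1
    have hb1' : ∀ᶠ T in (fU K : Filter (Finset K)), ‖(b T : Al M)‖ ≤ 1 := Eventually.of_forall hb1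
    obtain ⟨c, hc⟩ := exists_WL (fU K) (fun T => (b T : Al M)) 1 hb1'
    have hcC : c ∈ C := hC (Filter.map (fun T => (b T : Al M)) (fU K)) c
      (Eventually.of_forall fun T => (b T).2 :
        ∀ᶠ T in (fU K : Filter (Finset K)), (b T : Al M) ∈ C) fun ξ η => hc ξ η
    have hst : ∀ v, Tendsto (fun T => σ (b T) v) (fU K : Filter (Finset K)) (𝓝 (y v)) := by
      intro v
      rw [Metric.tendsto_nhds]
      intro ε hε
      filter_upwards [fU_mem (((2 / ε : ℝ) : ℂ) • v)] with T hT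
      have h2 := hb2 T _ hT
      rw [map_smul, map_smul, ← smul_sub, norm_smul, Complex.norm_real,
        Real.norm_of_nonneg (by positivity), div_mul_eq_mul_div, div_le_one hε] at h2
      rw [dist_eq_norm]
      linarith
    refine ⟨⟨c, hcC⟩, ContinuousLinearMap.coeFn_injective ?_⟩
    refine (σ _).continuous.ext_on hη y.continuous ?_
    rintro _ ⟨a', rfl⟩
    refine hη.eq_of_inner_right (𝕜 := ℂ) ?_
    rintro _ ⟨a, rfl⟩
    refine tendsto_nhds_unique (l := (fU K : Filter (Finset K)))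
      (f := fun T => ⟪σ a η, σ (b T) (σ a' η)⟫_ℂ) ?_ (tendsto_const_nhds.inner (hst _))
    simp only [hin]
    exact (hφ.mul _ _).tendsto hb1' hc
  obtain ⟨P, hP⟩ := R124.exists_vn σ
  have step2 : ∀ y ∈ P.toStarSubalgebra, IsSelfAdjoint y → y ∈ σ.range := fun y hy hsa => by
    have hn : 0 < ‖y‖ + 1 := by positivity
    obtain ⟨c, hc⟩ := step1 ((((‖y‖ + 1)⁻¹ : ℝ) : ℂ) • y)
      (by rw [← hP]; exact P.toStarSubalgebra.smul_mem hy _)
      (by rw [IsSelfAdjoint, star_smul, hsa.star_eq, Complex.star_def, Complex.conj_ofReal])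
      (by rw [norm_smul, Complex.norm_real, Real.norm_of_nonneg (by positivity),
            inv_mul_le_iff₀ hn]; linarith)
    refine ⟨((‖y‖ + 1 : ℝ) : ℂ) • c, ?_⟩
    change σ _ = y
    rw [map_smul, hc, smul_smul, ← Complex.ofReal_mul, mul_inv_cancel₀ hn.ne', Complex.ofReal_one,
      one_smul]
  have hyP : y ∈ P.toStarSubalgebra := by rw [← hP] at hy; exact hy
  have hy' : star y ∈ P.toStarSubalgebra := star_mem hyP
  have h1 := step2 (y + star y) (add_mem hyP hy') (.add_star_self y)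
  have h2 := step2 (Complex.I • (y - star y)) (P.toStarSubalgebra.smul_mem (sub_mem hyP hy') _)
    (by rw [IsSelfAdjoint, star_smul, star_sub, star_star, ← neg_sub y, smul_neg, ← neg_smul]; simp)
  have h3 := σ.range.smul_mem (sub_mem h1 (σ.range.smul_mem h2 Complex.I)) (2⁻¹ : ℂ)
  have e : (2⁻¹ : ℂ) • (y + star y - Complex.I • Complex.I • (y - star y)) = y := by
    rw [smul_smul, Complex.I_mul_I]
    module
  rw [e] at h3
  exact h3

/-- A surjection with kernel `{c | c e = 0}` has the section `σ c ↦ c e`. -/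
theorem exists_section {B : Type*} [CStarAlgebra B] (C : StarSubalgebra ℂ (Al M)) {e : Al M}
    (he : IsStarProjection e) (hC : ∀ c ∈ C, e * c = c * e) (σ : C →⋆ₐ[ℂ] B)
    (hs : Function.Surjective σ) (hk : ∀ c : C, σ c = 0 → (c : Al M) * e = 0) :
    ∃ ι : B →⋆ₙₐ[ℂ] Al M, ∀ c : C, ι (σ c) = c * e := by
  choose r hr using hs
  have key : ∀ c : C, (r (σ c) : Al M) * e = c * e := fun c => by
    have := hk (r (σ c) - c) (by rw [map_sub, hr, sub_self])
    rwa [AddSubgroupClass.coe_sub, sub_mul, sub_eq_zero] at this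
  refine ⟨{ toFun := fun b => r b * e
            map_smul' := fun t b => ?_
            map_zero' := ?_
            map_add' := fun a b => ?_
            map_mul' := fun a b => ?_
            map_star' := fun a => ?_ }, key⟩
  · have := key (t • r b)
    rw [map_smul, hr] at this
    rw [this, MonoidHom.id_apply, ← smul_mul_assoc]
    rfl
  · have := key 0
    rw [map_zero] at this
    rw [this]
    exact zero_mul e
  · have := key (r a + r b)
    rw [map_add, hr, hr] at this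
    rw [this, ← add_mul]
    rfl
  · have := key (r a * r b)
    rw [map_mul, hr, hr] at this
    rw [this, mul_assoc, ← mul_assoc e, hC _ (r b).2, mul_assoc, proj_mul_self he, ← mul_assoc]
    rfl
  · have := key (star (r a))
    rw [map_star, hr] at this
    rw [this, star_mul, proj_star he, hC _ (star_mem (r a).2)]
    rfl

variable {ρ : Al M →⋆ₐ[ℂ] (K →L[ℂ] K)} {ζ : K}

/-- The model.  `C = StarSubalgebra.centralizer ℂ {e}` (closed, weakly closed, `A ≤ C`,
`e m e ∈ C`); `(K', σ₀, η)` = `exists_gns` of `c ↦ ⟪ζ, ρ c ζ⟫` on `C`, so `‖σ₀ c η‖ = ‖ρ c ζ‖`;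
`N = R124.exists_vn σ₀`, `σ : C →⋆ₐ Al N` the corestriction (`StarAlgHom.codRestrict`), surjective
by `exists_preimage`.  `σ₀ c η = 0 → c e = 0` (`Supp.sep`), and `c e = 0 → σ₀ c = 0` (on the dense
set, `‖σ₀ (c b) η‖ = ‖ρ (c b e) ζ‖ = ‖ρ (c e b) ζ‖ = 0`).  `ι` from `exists_section`.
`B = (A.comap C.subtype).map σ`.  Maximality: if `σ c` commutes with `σ a`, `a ∈ A`, then
`(a c - c a) e = 0`, so `c e` commutes with `A`, `c e ∈ A` and `σ c = σ (c e)`. -/
theorem exists_model (hA : Masa A) (hn : Nml fun m => ⟪ζ, ρ m ζ⟫_ℂ) (hc : Cen A ρ ζ)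
    (h1 : ‖ζ‖ = 1) {e : Al M} (he : Supp A ρ ζ e) :
    ∃ (K' : Type u) (_ : NormedAddCommGroup K') (_ : InnerProductSpace ℂ K')
      (_ : CompleteSpace K') (N : VonNeumannAlgebra K') (B : StarSubalgebra ℂ (Al N)) (η : K')
      (ι : Al N →⋆ₙₐ[ℂ] Al M), Std B η ∧ ι 1 = e ∧ Function.Injective ι ∧
      (∀ m : Al M, ∃ n, ι n = e * m * e) ∧ (∀ b ∈ B, ι b ∈ A) ∧
      ∀ n, ‖ρ (ι n) ζ‖ = ‖ap n η‖ := by
  let C : StarSubalgebra ℂ (Al M) := StarSubalgebra.centralizer ℂ {e}
  have hmem : ∀ c, c ∈ C ↔ e * c = c * e := fun c => by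
    simp only [C, StarSubalgebra.mem_centralizer_iff, Set.mem_singleton_iff, forall_eq,
      proj_star he.proj, and_self]
  have hcl : IsClosed (C : Set (Al M)) := by
    have : (C : Set (Al M)) = {c | e * c = c * e} := Set.ext hmem
    rw [this]
    exact isClosed_eq (by fun_prop) (by fun_prop)
  have hAC : ∀ a ∈ A, a ∈ C := fun a ha => (hmem a).2 (hA.comm e he.mem a ha)
  have hee := proj_mul_self he.proj
  let φ : C →ₗ[ℂ] ℂ :=
    { toFun := fun c => ⟪ζ, ρ c ζ⟫_ℂ
      map_add' := fun a b => by rw [AddMemClass.coe_add, map_add, add_apply, inner_add_right]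
      map_smul' := fun t a => by
        rw [SetLike.val_smul, map_smul, smul_apply, inner_smul_right]; rfl }
  obtain ⟨K', _, _, _, σ₀, η, hη, hφ⟩ := exists_gns φ fun b => by
    have : φ (star b * b) = ((‖ρ b ζ‖ ^ 2 : ℝ) : ℂ) := by
      change ⟪ζ, ρ (star (b : Al M) * b) ζ⟫_ℂ = _
      rw [rep_mul, ← rep_inner, inner_self_eq_norm_sq_to_K]
      norm_cast
    rw [this, Complex.ofReal_re, Complex.ofReal_im]
    exact ⟨by positivity, rfl⟩
  have hnorm : ∀ c : C, ‖σ₀ c η‖ = ‖ρ c ζ‖ := fun c => by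
    have h2 := congrArg Complex.re (hφ (star c * c))
    have h3 : ⟪η, σ₀ (star c * c) η⟫_ℂ = ⟪σ₀ c η, σ₀ c η⟫_ℂ := by
      rw [map_mul, map_star]
      exact ContinuousLinearMap.adjoint_inner_right (σ₀ c) η _
    rw [h3] at h2
    refine (pow_left_inj₀ (norm_nonneg _) (norm_nonneg _) two_ne_zero).1 ?_
    rw [rep_norm_sq, ← inner_self_eq_norm_sq (𝕜 := ℂ)]
    exact h2
  obtain ⟨N, hN⟩ := R124.exists_vn σ₀
  let σ : C →⋆ₐ[ℂ] Al N := σ₀.codRestrict N.toStarSubalgebra fun c => by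
    change σ₀ c ∈ (N : Set (K' →L[ℂ] K'))
    rw [hN]
    exact Set.subset_centralizer_centralizer ⟨c, rfl⟩
  have hσ : ∀ (c : C) v, ap (σ c) v = σ₀ c v := fun _ _ => rfl
  have hs : Function.Surjective σ := fun n => by
    obtain ⟨c, hc⟩ := exists_preimage C (fun F _ y hF hy => (hmem y).2
      ((hy.mul_left e).unique ((hy.mul_right e).congr' (hF.mono fun m hm => ((hmem m).1 hm).symm))))
      σ₀ hη hn hφ (y := n) (by rw [← hN]; exact n.2)
    exact ⟨c, Subtype.ext hc⟩
  have hρe : ∀ m : Al M, ρ (m * e) ζ = ρ m ζ := fun m => by rw [rep_mul, he.fix]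
  have hk0 : ∀ c : C, ap (σ c) η = 0 → (c : Al M) * e = 0 := fun c hc0 =>
    he.sep c (by rw [← norm_eq_zero, ← hnorm, ← hσ, hc0, norm_zero])
  have hk : ∀ c : C, σ c = 0 → (c : Al M) * e = 0 := fun c hc0 => hk0 c (by rw [hc0, ap_zero])
  have hk' : ∀ c : C, (c : Al M) * e = 0 → σ c = 0 := fun c hc0 => by
    refine Subtype.ext (ContinuousLinearMap.coeFn_injective ?_)
    refine (σ₀ c).continuous.ext_on hη (0 : K' →L[ℂ] K').continuous ?_
    rintro _ ⟨b, rfl⟩
    change σ₀ c (σ₀ b η) = 0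
    rw [← mul_apply_eq_comp, ← map_mul, ← norm_eq_zero, hnorm, ← hρe, MulMemClass.coe_mul,
      mul_assoc, ← (hmem _).1 b.2, ← mul_assoc, hc0, zero_mul, map_zero, zero_apply, norm_zero]
  obtain ⟨ι, hι⟩ := exists_section C he.proj (fun c hc => (hmem c).1 hc) σ hs hk
  refine ⟨K', _, _, _, N, (A.comap C.subtype).map σ, η, ι, ⟨⟨?_, fun y hy => ?_⟩, ?_, ?_,
    fun n hn0 => ?_, ?_⟩, ?_, ?_, fun m => ?_, ?_, fun n => ?_⟩
  · rintro _ ⟨a, ha, rfl⟩ _ ⟨b, hb, rfl⟩
    change σ a * σ b = σ b * σ a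
    rw [← map_mul, ← map_mul]
    exact congrArg σ (Subtype.ext (hA.comm _ ha _ hb))
  · obtain ⟨c, rfl⟩ := hs y
    have h2 : (c : Al M) * e ∈ A := hA.max _ fun a ha => by
      have h3 := hk (⟨a, hAC a ha⟩ * c - c * ⟨a, hAC a ha⟩) (by
        rw [map_sub, map_mul, map_mul, sub_eq_zero]
        exact hy _ ⟨⟨a, hAC a ha⟩, ha, rfl⟩)
      change (a * c - c * a) * e = 0 at h3
      rw [sub_mul, sub_eq_zero] at h3
      rw [← mul_assoc, h3, mul_assoc, mul_assoc, hA.comm a ha e he.mem]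
    refine ⟨⟨c * e, hAC _ h2⟩, h2, ?_⟩
    change σ _ = σ c
    rw [← sub_eq_zero, ← map_sub]
    refine hk' _ ?_
    change ((c : Al M) * e - c) * e = 0
    rw [sub_mul, mul_assoc, hee, sub_self]
  · have := hnorm 1
    rw [map_one, OneMemClass.coe_one, map_one] at this
    exact this.trans h1
  · refine hη.mono ?_
    rintro _ ⟨c, rfl⟩
    exact ⟨σ c, rfl⟩
  · obtain ⟨c, rfl⟩ := hs n
    exact hk' c (hk0 c hn0)
  · rintro _ ⟨a, ha, rfl⟩ m
    obtain ⟨c, rfl⟩ := hs m
    change ⟪η, ap (σ a * σ c) η⟫_ℂ = ⟪η, ap (σ c * σ a) η⟫_ℂ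
    rw [← map_mul, ← map_mul, hσ, hσ, hφ, hφ]
    exact hc a ha c
  · rw [← map_one σ, hι]
    exact one_mul e
  · rw [injective_iff_map_eq_zero]
    intro n hn0
    obtain ⟨c, rfl⟩ := hs n
    exact hk' c (by rw [← hι, hn0])
  · refine ⟨σ ⟨e * m * e, (hmem _).2 ?_⟩, by rw [hι, mul_assoc _ e e, hee]⟩
    rw [← mul_assoc, ← mul_assoc, hee, mul_assoc _ e e, hee]
  · rintro _ ⟨a, ha, rfl⟩
    change ι (σ a) ∈ A
    rw [hι]
    exact mul_mem ha he.mem
  · obtain ⟨c, rfl⟩ := hs n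
    rw [hι, hρe]
    exact (hnorm c).symm

end Crest.Agent.R109
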