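import Crest.Agent.R109.CE
import Crest.Agent.R109.NCut
import Crest.Agent.R109.NModel

/-!
# R109/N: paving the support of a normal central vector
-/

set_option autoImplicit false
open Filter Topology
open scoped InnerProductSpace

namespace Crest.Agent.R109
open Crest.Agent.R121

universe u
variable {H : Type u} [NormedAddCommGroup H] [InnerProductSpace ℂ H] [CompleteSpace H]
variable {M : VonNeumannAlgebra H} {A : StarSubalgebra ℂ (Al M)}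
variable {K : Type*} [NormedAddCommGroup K] [InnerProductSpace ℂ K] [CompleteSpace K]
variable {κ : Type*} [Fintype κ]

variable {ρ : Al M →⋆ₐ[ℂ] (K →L[ℂ] K)} {ζ : K} {e x : Al M}

theorem ce_pull1 (hA : Masa A) (hn : Nml fun m => ⟪ζ, ρ m ζ⟫_ℂ) (hc : Cen A ρ ζ) (h1 : ‖ζ‖ = 1)
    (he : Supp A ρ ζ e) (ξ : κ → H) {ε : ℝ} (hε : 0 < ε) (hε1 : ε < 1) {r : ℕ}
    (hr : 400000000 / ε ^ 2 ≤ (r : ℝ)) (hx : IsSelfAdjoint x) (hx1 : ‖x‖ ≤ 1) {δ : ℝ}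
    (hδ : 0 < δ) :
    ∃ p : Option (Fin r) → Al M, Ptn A p ∧ ∃ a ∈ A, IsSelfAdjoint a ∧ ‖a‖ ≤ 1 ∧
      ∃ y : Al M, IsSelfAdjoint y ∧ ‖y‖ ≤ ε / 2 ∧ e * y = y ∧ Ep p y = y ∧
        ‖J ξ (e * (Ep p x - a) * e - y)‖ ≤ δ := by
  obtain ⟨d, d0, hd⟩ := he.small hn ξ (δ := δ / 3) (by positivity)
  obtain ⟨K', _, _, _, N, B, η, ι, hB, i1, i2, i3, i4, i5⟩ := exists_model hA hn hc h1 he
  have nm : ∀ n, ‖ι n‖ = ‖n‖ := NonUnitalStarAlgHom.norm_map ι i2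
  have l1 : ∀ n, e * ι n = ι n := fun n => by rw [← i1, ← map_mul, one_mul]
  have l2 : ∀ n, ι n * e = ι n := fun n => by rw [← i1, ← map_mul, mul_one]
  have n1 := proj_norm_le he.proj
  obtain ⟨x', hx'⟩ := i3 x
  have x1 : IsSelfAdjoint x' := i2 (by
    rw [map_star, hx', star_mul, star_mul, proj_star he.proj, hx.star_eq, mul_assoc])
  have x2 : ‖x'‖ ≤ 1 := by
    rw [← nm, hx']
    exact (norm_mul_le _ _).trans ((mul_le_of_le_one_right (norm_nonneg _) n1).trans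
      ((norm_mul_le _ _).trans ((mul_le_of_le_one_left (norm_nonneg _) n1).trans hx1)))
  obtain ⟨p', hp', a', a0, a1, a2, y', y1, y2, h⟩ := ce hB hε hε1 hr x1 x2 d0
  obtain ⟨p, hp, hpp⟩ := exists_ptn_of_sub (A := A) (p := fun i => ι (p' i))
    (fun i => i4 _ (hp'.mem i))
    (fun i => ⟨by rw [IsIdempotentElem, ← map_mul, proj_mul_self (hp'.proj i)],
      by rw [IsSelfAdjoint, ← map_star, proj_star (hp'.proj i)]⟩)
    (fun i j hij => by beta_reduce; rw [← map_mul, hp'.orth hij, map_zero])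
    (by rw [← map_sum, hp'.sum, i1])
  have l3 : ∀ n, Ep p (ι n) = ι (Ep p' n) := fun n => by
    rw [Ep, Ep, map_sum]
    refine Finset.sum_congr rfl fun i _ => ?_
    rw [map_mul, map_mul, ← hpp i, mul_assoc (e * p i), ← mul_assoc (ι n), l2,
      ← hA.comm _ (hp.mem i) _ he.mem, mul_assoc _ e, ← mul_assoc e, l1, mul_assoc]
  have y3 := hp'.norm_Ep_le y'
  refine ⟨p, hp, ι a', i4 _ a0, by rw [IsSelfAdjoint, ← map_star, a1.star_eq], by rwa [nm],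
    ι (Ep p' y'), by rw [IsSelfAdjoint, ← map_star, hp'.star_Ep, y1.star_eq],
    by rw [nm]; linarith, l1 _, by rw [l3, hp'.Ep_Ep], ?_⟩
  have e1 : Ep p' (Ep p' x' - a' - y') = Ep p' x' - a' - Ep p' y' := by
    rw [Ep_sub, Ep_sub, hp'.Ep_Ep, hp'.Ep_mem hB.toMasa a0]
  have e2 : e * (Ep p x - ι a') * e - ι (Ep p' y') = ι (Ep p' (Ep p' x' - a' - y')) := by
    rw [e1, map_sub, map_sub, mul_sub, sub_mul, l1, l2, ← hp.Ep_mul_left hA he.mem,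
      ← hp.Ep_mul_right hA he.mem, ← hx', l3]
  have n3 : ‖(1 / 3 : ℂ)‖ = 1 / 3 := by simp
  have h2 := hd ((1 / 3 : ℂ) • ι (Ep p' (Ep p' x' - a' - y'))) (by
    rw [norm_smul, n3, nm, e1]
    linarith [norm_sub_le (Ep p' x' - a') (Ep p' y'), norm_sub_le (Ep p' x') a',
      hp'.norm_Ep_le x']) (by
    rw [map_smul, smul_apply, norm_smul, n3, i5]
    linarith [hB.norm_Ep_le hp' (Ep p' x' - a' - y')])
  rw [smul_mul_assoc, l2, map_smul, norm_smul, n3] at h2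
  rw [e2]; linarith

/-- `ce` pulled back.  If `ζ = 0` then `e = 0` (`Supp.sep 1`): take the partition from
`exists_ptn_of_sub` for `p = 0`, `a = y = 0`.  Otherwise normalise `ζ` (`Nml.const_mul`), take
`exists_model`, `x'` with `ι x' = e x e` (self-adjoint by injectivity, `‖x'‖ ≤ 1` by
`NonUnitalStarAlgHom.norm_map`), `p', a', y'` from `ce`, `w' = Ep p' (Ep p' x' - a' - y')
= Ep p' x' - a' - Ep p' y'` (`Std.norm_Ep_le`, `Ptn.Ep_Ep`, `Ptn.Ep_mem`), `‖w'‖ ≤ 3`.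
`p` from `exists_ptn_of_sub` for `ι ∘ p'`, `a = ι a'`, `y = ι (Ep p' y')`;
`Ep p (ι n) = ι (Ep p' n)` as `ι n = e * ι n * e`; `Supp.small` for `ι w' / 3`. -/
theorem ce_pull (hA : Masa A) (hn : Nml fun m => ⟪ζ, ρ m ζ⟫_ℂ) (hc : Cen A ρ ζ)
    (he : Supp A ρ ζ e) (ξ : κ → H) {ε : ℝ} (hε : 0 < ε) (hε1 : ε < 1) {r : ℕ}
    (hr : 400000000 / ε ^ 2 ≤ (r : ℝ)) (hx : IsSelfAdjoint x) (hx1 : ‖x‖ ≤ 1) {δ : ℝ}
    (hδ : 0 < δ) :
    ∃ p : Option (Fin r) → Al M, Ptn A p ∧ ∃ a ∈ A, IsSelfAdjoint a ∧ ‖a‖ ≤ 1 ∧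
      ∃ y : Al M, IsSelfAdjoint y ∧ ‖y‖ ≤ ε / 2 ∧ e * y = y ∧ Ep p y = y ∧
        ‖J ξ (e * (Ep p x - a) * e - y)‖ ≤ δ := by
  by_cases h0 : ζ = 0
  · have e0 : e = 0 := by simpa using he.sep 1 (by simp [h0])
    obtain ⟨p, hp, -⟩ := exists_ptn_of_sub (A := A) (p := fun _ : Option (Fin r) => 0)
      (fun _ => zero_mem _) (fun _ => IsStarProjection.zero _) (fun _ _ _ => mul_zero _) rfl
    refine ⟨p, hp, 0, zero_mem _, .zero _, by simp, 0, .zero _, by simp; positivity, mul_zero _,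
      by simp [Ep], by simp [e0, hδ.le]⟩
  have n0 : ((‖ζ‖⁻¹ : ℝ) : ℂ) ≠ 0 := by simpa using h0
  have e1 : ∀ m, ⟪((‖ζ‖⁻¹ : ℝ) : ℂ) • ζ, ρ m (((‖ζ‖⁻¹ : ℝ) : ℂ) • ζ)⟫_ℂ =
      ((‖ζ‖⁻¹ : ℝ) : ℂ) * ((‖ζ‖⁻¹ : ℝ) : ℂ) * ⟪ζ, ρ m ζ⟫_ℂ := fun m => by
    rw [map_smul, inner_smul_left, inner_smul_right, Complex.conj_ofReal, mul_assoc]
  refine ce_pull1 (ρ := ρ) (ζ := ((‖ζ‖⁻¹ : ℝ) : ℂ) • ζ) hA ?_ (fun a ha m => ?_) ?_
    ⟨he.mem, he.proj, by rw [map_smul, he.fix], fun m hm => he.sep m ?_⟩ ξ hε hε1 hr hx hx1 hδ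
  · simp only [e1]; exact hn.const_mul _
  · rw [e1, e1, hc a ha m]
  · rw [norm_smul, Complex.norm_real, norm_inv, norm_norm, inv_mul_cancel₀ (norm_ne_zero_iff.2 h0)]
  · rw [map_smul] at hm; exact (smul_eq_zero.1 hm).resolve_left n0

/-- `multi_cut` for `w = e (Ep p x - a) e - y` in the corner `e` at `c = ε / 2`;
`q (Ep p x - a) q = q w q + q y q`. -/
theorem ce_so (hA : Masa A) (hn : Nml fun m => ⟪ζ, ρ m ζ⟫_ℂ) (hc : Cen A ρ ζ)
    (he : Supp A ρ ζ e) (ξ : κ → H) {ε : ℝ} (hε : 0 < ε) (hε1 : ε < 1) {r : ℕ}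
    (hr : 400000000 / ε ^ 2 ≤ (r : ℝ)) (hx : IsSelfAdjoint x) (hx1 : ‖x‖ ≤ 1) {δ : ℝ}
    (hδ : 0 < δ) : SO A ξ x e (Option (Fin r)) ε δ := by
  obtain ⟨p, hp, a, ha, a1, a2, y, y1, y2, y3, -, h⟩ :=
    ce_pull hA hn hc he ξ hε hε1 hr hx hx1 (δ := ε / 2 * δ) (by positivity)
  have y4 : y * e = y := by simpa [y1.star_eq, proj_star he.proj] using congrArg star y3
  obtain ⟨q, q1, q2, q3, q4⟩ := multi_cut (fun _ : Unit => e * (Ep p x - a) * e - y) he.proj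
    (fun _ => by rw [sub_mul, y4, mul_assoc _ e, proj_mul_self he.proj]) (c := ε / 2)
    (by positivity) ξ
  have q5 : q * e = q := by simpa [proj_star q1, proj_star he.proj] using congrArg star q2
  refine ⟨p, hp, a, ha, a1, a2, q, q1, q2, ?_, ?_⟩
  · rw [Finset.sum_const, Finset.card_univ, Fintype.card_unit, one_smul, ← mul_pow] at q4
    exact le_of_mul_le_mul_left
      ((pow_le_pow_left₀ (norm_nonneg _) h 2).trans' q4 |> fun h => abs_le_of_sq_le_sq' h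
        (by positivity)).2 (by positivity)
  · have e1 : q * (Ep p x - a) * q = q * ((e * (Ep p x - a) * e - y) * q + y * q) := by
      rw [← add_mul, sub_add_cancel, mul_assoc _ e, q2, ← mul_assoc, ← mul_assoc, q5]
    have n1 := proj_norm_le q1
    have n2 : ‖y * q‖ ≤ ε / 2 :=
      (norm_mul_le _ _).trans ((mul_le_of_le_one_right (norm_nonneg _) n1).trans y2)
    rw [e1]
    refine (norm_mul_le _ _).trans ((mul_le_of_le_one_left (norm_nonneg _) n1).trans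
      ((norm_add_le _ _).trans ?_))
    linarith [q3 ()]

/-- `d = (1 - ε/4) w` with `w = e (Ep p x - a) e - y`, `‖w‖ ≤ 2 + ε/2`, `Ep p w = w = e w e`
(`Ptn.Ep_mul_left`, `Ptn.Ep_mul_right`); `e (Ep p (x - d) - a) e = (ε/4) w + y`. -/
theorem ce_ap (hA : Masa A) (hn : Nml fun m => ⟪ζ, ρ m ζ⟫_ℂ) (hc : Cen A ρ ζ)
    (he : Supp A ρ ζ e) (ξ : κ → H) {ε : ℝ} (hε : 0 < ε) (hε1 : ε < 1) {r : ℕ}
    (hr : 400000000 / ε ^ 2 ≤ (r : ℝ)) (hx : IsSelfAdjoint x) (hx1 : ‖x‖ ≤ 1) {δ : ℝ}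
    (hδ : 0 < δ) : AP A ξ x e (Option (Fin r)) (2 * ε) δ := by
  obtain ⟨p, hp, a, ha, a1, a2, y, y1, y2, y3, y5, h⟩ := ce_pull hA hn hc he ξ hε hε1 hr hx hx1 hδ
  have y4 : y * e = y := by simpa [y1.star_eq, proj_star he.proj] using congrArg star y3
  obtain ⟨w, hw⟩ : ∃ w, w = e * (Ep p x - a) * e - y := ⟨_, rfl⟩
  rw [← hw] at h
  have ee := proj_mul_self he.proj
  have n1 := proj_norm_le he.proj
  have w1 : star w = w := by
    rw [hw, star_sub, star_mul, star_mul, star_sub, hp.star_Ep, hx.star_eq, a1.star_eq, y1.star_eq,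
      proj_star he.proj, mul_assoc]
  have w2 : e * w = w := by rw [hw, mul_sub, y3, ← mul_assoc, ← mul_assoc, ee]
  have w3 : w * e = w := by rw [hw, sub_mul, y4, mul_assoc _ e, ee]
  have w4 : Ep p w = w := by
    rw [hw, Ep_sub, y5, hp.Ep_mul_right hA he.mem, hp.Ep_mul_left hA he.mem, Ep_sub, hp.Ep_Ep,
      hp.Ep_mem hA ha]
  have w5 : ‖w‖ ≤ 2 + ε / 2 := by
    have : ‖e * (Ep p x - a) * e‖ ≤ 2 :=
      (norm_mul_le _ _).trans ((mul_le_of_le_one_right (norm_nonneg _) n1).trans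
        ((norm_mul_le _ _).trans ((mul_le_of_le_one_left (norm_nonneg _) n1).trans
          ((norm_sub_le _ _).trans (by linarith [hp.norm_Ep_le x])))))
    rw [hw]; linarith [norm_sub_le (e * (Ep p x - a) * e) y]
  have c1 : ‖((1 - ε / 4 : ℝ) : ℂ)‖ = 1 - ε / 4 := by
    rw [Complex.norm_real, Real.norm_of_nonneg (by linarith)]
  refine ⟨p, hp, a, ha, a1, ((1 - ε / 4 : ℝ) : ℂ) • w, ?_, by rw [mul_smul_comm, w2], ?_, ?_, ?_⟩
  · rw [IsSelfAdjoint, star_smul, w1, Complex.star_def, Complex.conj_ofReal]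
  · rw [norm_smul, c1]; nlinarith [norm_nonneg w]
  · rw [map_smul, norm_smul, c1]; nlinarith [norm_nonneg (J ξ w)]
  · have e1 : e * (Ep p (x - ((1 - ε / 4 : ℝ) : ℂ) • w) - a) * e = ((ε / 4 : ℝ) : ℂ) • w + y := by
      rw [Ep_sub, Ep_smul, w4, sub_right_comm, mul_sub, sub_mul, mul_smul_comm, smul_mul_assoc, w2,
        w3, eq_add_of_sub_eq hw.symm]
      push_cast; module
    rw [e1]
    refine (norm_add_le _ _).trans ?_
    rw [norm_smul, Complex.norm_real, Real.norm_of_nonneg (by positivity)]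
    nlinarith

end Crest.Agent.R109
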