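import Mathlib

/-!
# R109/N: choosing summands with small sum in a Hilbert space; random colourings
-/

set_option autoImplicit false
open scoped InnerProductSpace

namespace Crest.Agent.R109

variable {E : Type*} [NormedAddCommGroup E] [InnerProductSpace ℂ E]

/-- Greedy selection.  Prove by `Finset.induction_on`, for every `S : Finset σ`, that some choice
`c` has `‖∑ s ∈ S, v s (c s)‖² ≤ ∑ s ∈ S, b s + 2 |S| t` (a default choice exists by `h`; in the
step use `Function.update` and `norm_add_sq`); take `t = θ / (2 |σ| + 1)`. -/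
theorem exists_select {σ : Type*} [Fintype σ] {ι : Type*} (v : σ → ι → E) (b : σ → ℝ)
    (h : ∀ (s : σ) (u : E) (t : ℝ), 0 < t → ∃ j, (⟪u, v s j⟫_ℂ).re ≤ t ∧ ‖v s j‖ ^ 2 ≤ b s)
    {θ : ℝ} (hθ : 0 < θ) : ∃ c : σ → ι, ‖∑ s, v s (c s)‖ ^ 2 ≤ ∑ s, b s + θ := by
  classical
  have key : ∀ t : ℝ, 0 < t → ∀ S : Finset σ, ∃ c : σ → ι,
      ‖∑ s ∈ S, v s (c s)‖ ^ 2 ≤ ∑ s ∈ S, b s + 2 * S.card * t := by
    intro t ht S
    induction S using Finset.induction_on with
    | empty =>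
      choose c0 _ using fun s => h s 0 1 one_pos
      exact ⟨c0, by simp⟩
    | insert a S ha ih =>
      obtain ⟨c, hc⟩ := ih
      obtain ⟨j, hj1, hj2⟩ := h a (∑ s ∈ S, v s (c s)) t ht
      refine ⟨Function.update c a j, ?_⟩
      rw [Finset.sum_insert ha, Finset.sum_insert ha, Finset.card_insert_of_notMem ha]
      have e : ∑ s ∈ S, v s (Function.update c a j s) = ∑ s ∈ S, v s (c s) := by
        refine Finset.sum_congr rfl fun s hs => ?_
        rw [Function.update_of_ne]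
        rintro rfl
        exact ha hs
      rw [e, Function.update_self, add_comm (v a j), @norm_add_sq ℂ]
      push_cast
      simp only [RCLike.re_to_complex]
      nlinarith
  have hpos : (0 : ℝ) < 2 * Fintype.card σ + 1 := by positivity
  obtain ⟨c, hc⟩ := key (θ / (2 * Fintype.card σ + 1)) (div_pos hθ hpos) Finset.univ
  refine ⟨c, hc.trans ?_⟩
  rw [Finset.card_univ]
  have : 2 * (Fintype.card σ : ℝ) * (θ / (2 * Fintype.card σ + 1)) ≤ θ := by
    rw [← mul_div_assoc, div_le_iff₀ hpos]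
    nlinarith
  linarith

/-- Linear random colouring.  `exists_select` in `PiLp 2 (fun _ : Fin R => E)` with
`V s j = (i ↦ ((if j = i then 1 else 0) - 1/R) • v s)`: `∑ j, V s j = 0`, so for each `u` some `j`
has `re ⟪u, V s j⟫ ≤ 0`, and `‖V s j‖² ≤ R ‖v s‖²` as all coefficients have modulus `≤ 1`. -/
theorem exists_colour {σ : Type*} [Fintype σ] {R : ℕ} (hR : 0 < R) (v : σ → E) {θ : ℝ}
    (hθ : 0 < θ) : ∃ c : σ → Fin R,
      ∑ i, ‖∑ s, ((if c s = i then 1 else 0) - (R : ℂ)⁻¹) • v s‖ ^ 2 ≤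
        R * ∑ s, ‖v s‖ ^ 2 + θ := by
  classical
  let V : σ → Fin R → PiLp 2 (fun _ : Fin R => E) := fun s j =>
    WithLp.toLp 2 (fun i => ((if j = i then 1 else 0) - (R : ℂ)⁻¹) • v s)
  have hR' : (R : ℂ) ≠ 0 := by exact_mod_cast hR.ne'
  have hsum : ∀ s, ∑ j, V s j = 0 := by
    intro s
    ext i
    simp only [V, WithLp.ofLp_sum, Finset.sum_apply, WithLp.ofLp_zero,
      Pi.zero_apply]
    rw [← Finset.sum_smul, Finset.sum_sub_distrib]
    simp [hR']
  have hco : ∀ j i : Fin R, ‖((if j = i then 1 else 0) - (R : ℂ)⁻¹)‖ ≤ 1 := by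
    intro j i
    have h1 : (1 : ℝ) ≤ R := by exact_mod_cast hR
    have h2 : (R : ℝ)⁻¹ ≤ 1 := inv_le_one_of_one_le₀ h1
    have h3 : (0 : ℝ) ≤ (R : ℝ)⁻¹ := by positivity
    split_ifs
    · have : (1 : ℂ) - (R : ℂ)⁻¹ = ((1 - (R : ℝ)⁻¹ : ℝ) : ℂ) := by push_cast; rfl
      rw [this, Complex.norm_real, Real.norm_eq_abs, abs_le]
      constructor <;> linarith
    · simpa using h2
  have hsel : ∀ (s : σ) (u : PiLp 2 (fun _ : Fin R => E)) (t : ℝ), 0 < t →
      ∃ j, (⟪u, V s j⟫_ℂ).re ≤ t ∧ ‖V s j‖ ^ 2 ≤ R * ‖v s‖ ^ 2 := by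
    intro s u t ht
    have h0 : ∑ j, (⟪u, V s j⟫_ℂ).re ≤ ∑ _j : Fin R, (0 : ℝ) := by
      rw [← Complex.re_sum, ← inner_sum, hsum]
      simp
    have : Nonempty (Fin R) := ⟨⟨0, hR⟩⟩
    obtain ⟨j, -, hj⟩ := Finset.exists_le_of_sum_le Finset.univ_nonempty h0
    refine ⟨j, hj.trans ht.le, ?_⟩
    rw [PiLp.norm_sq_eq_of_L2]
    calc ∑ i, ‖V s j i‖ ^ 2 ≤ ∑ _i : Fin R, ‖v s‖ ^ 2 := by
          refine Finset.sum_le_sum fun i _ => ?_
          have : ‖V s j i‖ ≤ ‖v s‖ := by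
            simp only [V, norm_smul]
            exact mul_le_of_le_one_left (norm_nonneg _) (hco j i)
          gcongr
      _ = R * ‖v s‖ ^ 2 := by simp
  obtain ⟨c, hc⟩ := exists_select V (fun s => R * ‖v s‖ ^ 2) hsel hθ
  refine ⟨c, ?_⟩
  rw [PiLp.norm_sq_eq_of_L2, ← Finset.mul_sum] at hc
  refine le_trans (le_of_eq ?_) hc
  refine Finset.sum_congr rfl fun i _ => ?_
  simp only [V, WithLp.ofLp_sum, Finset.sum_apply]

/-- The coefficient `1_{c s = c t} - 1/R` off the diagonal, `0` on it. -/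
noncomputable def nchi {σ : Type*} [DecidableEq σ] {R : ℕ} (c : σ → Fin R) (s t : σ) : ℝ :=
  if s = t then 0 else (if c s = c t then 1 else 0) - (R : ℝ)⁻¹

theorem abs_chi_le {σ : Type*} [DecidableEq σ] {R : ℕ} (c : σ → Fin R) (s t : σ) :
    |nchi c s t| ≤ 1 := by
  have h3 : (0 : ℝ) ≤ (R : ℝ)⁻¹ := by positivity
  have h2 : (R : ℝ)⁻¹ ≤ 1 := by
    rcases Nat.eq_zero_or_pos R with h | h
    · simp [h]
    · exact inv_le_one_of_one_le₀ (by exact_mod_cast h)
  unfold nchi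
  rw [abs_le]
  split_ifs <;> constructor <;> linarith

theorem chi_symm {σ : Type*} [DecidableEq σ] {R : ℕ} (c : σ → Fin R) (s t : σ) :
    nchi c s t = nchi c t s := by
  unfold nchi
  simp only [eq_comm]

theorem sum_chi_mul_aux {σ : Type*} [Fintype σ] [DecidableEq σ] {R : ℕ} (hR : 0 < R)
    {s t s' t' : σ} (hst : s ≠ t) (h1 : s ≠ s') (h2 : s ≠ t') :
    ∑ c : σ → Fin R, nchi c s t * nchi c s' t' = 0 := by
  have : NeZero R := ⟨hR.ne'⟩
  have hR' : (R : ℝ) ≠ 0 := by exact_mod_cast hR.ne'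
  have e1 : ∀ k : Fin R, ∑ c : σ → Fin R, nchi c s t * nchi c s' t' =
      ∑ c : σ → Fin R, nchi (c + Pi.single s k) s t * nchi c s' t' := by
    intro k
    rw [← Equiv.sum_comp (Equiv.addRight (Pi.single s k : σ → Fin R))]
    refine Finset.sum_congr rfl fun c _ => ?_
    simp only [Equiv.coe_addRight]
    congr 1
    unfold nchi
    simp [Pi.single_eq_of_ne h1.symm, Pi.single_eq_of_ne h2.symm]
  have e2 : ∀ c : σ → Fin R, ∑ k : Fin R, nchi (c + Pi.single s k) s t = 0 := by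
    intro c
    unfold nchi
    simp only [hst, if_false, Pi.add_apply, Pi.single_eq_same, Pi.single_eq_of_ne hst.symm,
      add_zero]
    rw [Finset.sum_sub_distrib]
    have : ∀ k : Fin R, (c s + k = c t) ↔ (k = c t - c s) := by
      intro k
      constructor
      · intro h; rw [← h]; abel
      · intro h; rw [h]; abel
    simp [this, hR']
  have e4 : ∑ k : Fin R, ∑ c : σ → Fin R, nchi (c + Pi.single s k) s t * nchi c s' t' = 0 := by
    rw [Finset.sum_comm]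
    refine Finset.sum_eq_zero fun c _ => ?_
    rw [← Finset.sum_mul, e2, zero_mul]
  have e3 : (R : ℝ) * ∑ c : σ → Fin R, nchi c s t * nchi c s' t' = 0 := by
    rw [← e4, ← Finset.sum_congr rfl fun k _ => e1 k, Finset.sum_const, Finset.card_univ,
      Fintype.card_fin, nsmul_eq_mul]
  exact (mul_eq_zero.1 e3).resolve_left hR'

/-- Orthogonality of the chaos.  If `s = t` or `s' = t'` all terms vanish.  Otherwise `s` or `t`
is outside `{s', t'}`; `nchi` is symmetric, so say `s ∉ {s', t'}`.  With `NeZero R`, for `k : Fin R`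
the map `c ↦ c + Pi.single s k` is a bijection (`Equiv.addRight`), fixes `nchi c s' t'`, and
`∑ k, nchi (c + Pi.single s k) s t = 1 - R / R = 0`.  So `R * (the sum) = 0`. -/
theorem sum_chi_mul {σ : Type*} [Fintype σ] [DecidableEq σ] {R : ℕ} (hR : 0 < R) {s t s' t' : σ}
    (h1 : (s', t') ≠ (s, t)) (h2 : (s', t') ≠ (t, s)) :
    ∑ c : σ → Fin R, nchi c s t * nchi c s' t' = 0 := by
  by_cases hst : s = t
  · simp [nchi, hst]
  by_cases hst' : s' = t'
  · simp [nchi, hst']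
  have hcase : (s ≠ s' ∧ s ≠ t') ∨ (t ≠ s' ∧ t ≠ t') := by
    by_contra hcon
    push Not at hcon
    obtain ⟨a, b⟩ := hcon
    by_cases e1 : s = s'
    · subst e1
      have := b (Ne.symm hst)
      subst this
      exact h1 rfl
    · have e2 := a e1
      subst e2
      by_cases e3 : t = s'
      · subst e3
        exact h2 rfl
      · exact hst (b e3).symm
  rcases hcase with ⟨a, b⟩ | ⟨a, b⟩
  · exact sum_chi_mul_aux hR hst a b
  · simp_rw [fun c : σ → Fin R => chi_symm c s t]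
    exact sum_chi_mul_aux hR (Ne.symm hst) a b

/-- Quadratic random colouring.  Sum over all `c`: `∑_c ‖∑_z nchi c z • u z‖² =
∑_{z, z'} (∑_c nchi c z * nchi c z') re ⟪u z, u z'⟫`; only `z' ∈ {z, z.swap}` contribute, each at most
`N (‖u z‖² + ‖u z'‖²) / 2`, `N` the number of colourings.  `Finset.exists_le_of_sum_le`. -/
theorem exists_chaos {σ : Type*} [Fintype σ] [DecidableEq σ] {R : ℕ} (hR : 0 < R)
    (u : σ → σ → E) : ∃ c : σ → Fin R,
      ‖∑ s, ∑ t, (nchi c s t : ℂ) • u s t‖ ^ 2 ≤ 2 * ∑ s, ∑ t, ‖u s t‖ ^ 2 := by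
  have : Nonempty (Fin R) := ⟨⟨0, hR⟩⟩
  set w : σ × σ → E := fun z => u z.1 z.2 with hw
  set N : ℝ := (Fintype.card (σ → Fin R) : ℝ) with hN
  have hN0 : 0 ≤ N := by positivity
  have e1 : ∀ c : σ → Fin R, ‖∑ s, ∑ t, (nchi c s t : ℂ) • u s t‖ ^ 2 =
      ∑ z : σ × σ, ∑ z' : σ × σ,
        nchi c z.1 z.2 * nchi c z'.1 z'.2 * (⟪w z, w z'⟫_ℂ).re := by
    intro c
    have : ∑ s, ∑ t, (nchi c s t : ℂ) • u s t = ∑ z : σ × σ, (nchi c z.1 z.2 : ℂ) • w z := by
      rw [Fintype.sum_prod_type]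
    rw [this, ← @inner_self_eq_norm_sq ℂ, sum_inner, RCLike.re_to_complex, Complex.re_sum]
    refine Finset.sum_congr rfl fun z _ => ?_
    rw [inner_sum, Complex.re_sum]
    refine Finset.sum_congr rfl fun z' _ => ?_
    rw [inner_smul_left, inner_smul_right, Complex.conj_ofReal, ← mul_assoc, ← Complex.ofReal_mul,
      Complex.re_ofReal_mul]
  have e2 : ∀ z z' : σ × σ, (∑ c : σ → Fin R, nchi c z.1 z.2 * nchi c z'.1 z'.2) *
      (⟪w z, w z'⟫_ℂ).re ≤
      (if z' = z then N * ((‖w z‖ ^ 2 + ‖w z'‖ ^ 2) / 2) else 0) +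
      (if z' = z.swap then N * ((‖w z‖ ^ 2 + ‖w z'‖ ^ 2) / 2) else 0) := by
    intro z z'
    have hb : (∑ c : σ → Fin R, nchi c z.1 z.2 * nchi c z'.1 z'.2) * (⟪w z, w z'⟫_ℂ).re ≤
        N * ((‖w z‖ ^ 2 + ‖w z'‖ ^ 2) / 2) := by
      refine (le_abs_self _).trans ?_
      rw [abs_mul]
      have a1 : |∑ c : σ → Fin R, nchi c z.1 z.2 * nchi c z'.1 z'.2| ≤ N := by
        refine (Finset.abs_sum_le_sum_abs _ _).trans ?_
        calc ∑ c : σ → Fin R, |nchi c z.1 z.2 * nchi c z'.1 z'.2| ≤ ∑ _c : σ → Fin R, (1 : ℝ) := by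
              refine Finset.sum_le_sum fun c _ => ?_
              rw [abs_mul]
              exact mul_le_one₀ (abs_chi_le _ _ _) (abs_nonneg _) (abs_chi_le _ _ _)
          _ = N := by simp [hN]
      have a2 : |(⟪w z, w z'⟫_ℂ).re| ≤ (‖w z‖ ^ 2 + ‖w z'‖ ^ 2) / 2 := by
        refine (Complex.abs_re_le_norm _).trans ((norm_inner_le_norm _ _).trans ?_)
        nlinarith [sq_nonneg (‖w z‖ - ‖w z'‖)]
      exact mul_le_mul a1 a2 (abs_nonneg _) hN0
    have hp : 0 ≤ N * ((‖w z‖ ^ 2 + ‖w z'‖ ^ 2) / 2) := by positivity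
    by_cases h1 : z' = z
    · rw [if_pos h1]
      split_ifs <;> linarith
    · by_cases h2 : z' = z.swap
      · rw [if_neg h1, if_pos h2]
        linarith
      · rw [if_neg h1, if_neg h2, sum_chi_mul hR (s := z.1) (t := z.2) (s' := z'.1) (t' := z'.2)
          h1 h2]
        simp
  have e3 : ∑ c : σ → Fin R, ‖∑ s, ∑ t, (nchi c s t : ℂ) • u s t‖ ^ 2 ≤
      ∑ _c : σ → Fin R, 2 * ∑ s, ∑ t, ‖u s t‖ ^ 2 := by
    have f1 : ∑ s, ∑ t, ‖u s t‖ ^ 2 = ∑ z : σ × σ, ‖w z‖ ^ 2 := by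
      rw [Fintype.sum_prod_type]
    have f2 : ∑ z : σ × σ, ‖w z.swap‖ ^ 2 = ∑ z : σ × σ, ‖w z‖ ^ 2 :=
      Equiv.sum_comp (Equiv.prodComm σ σ) (fun z => ‖w z‖ ^ 2)
    calc ∑ c : σ → Fin R, ‖∑ s, ∑ t, (nchi c s t : ℂ) • u s t‖ ^ 2
        = ∑ z : σ × σ, ∑ z' : σ × σ, (∑ c : σ → Fin R, nchi c z.1 z.2 * nchi c z'.1 z'.2) *
            (⟪w z, w z'⟫_ℂ).re := by
          simp_rw [e1]
          rw [Finset.sum_comm]
          refine Finset.sum_congr rfl fun z _ => ?_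
          rw [Finset.sum_comm]
          refine Finset.sum_congr rfl fun z' _ => ?_
          rw [Finset.sum_mul]
      _ ≤ ∑ z : σ × σ, ∑ z' : σ × σ,
            ((if z' = z then N * ((‖w z‖ ^ 2 + ‖w z'‖ ^ 2) / 2) else 0) +
            (if z' = z.swap then N * ((‖w z‖ ^ 2 + ‖w z'‖ ^ 2) / 2) else 0)) :=
          Finset.sum_le_sum fun z _ => Finset.sum_le_sum fun z' _ => e2 z z'
      _ = ∑ z : σ × σ, (N * (3 / 2) * ‖w z‖ ^ 2 + N / 2 * ‖w z.swap‖ ^ 2) := by
          refine Finset.sum_congr rfl fun z _ => ?_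
          rw [Finset.sum_add_distrib, Finset.sum_ite_eq', Finset.sum_ite_eq']
          simp only [Finset.mem_univ, if_true]
          ring
      _ = ∑ _c : σ → Fin R, 2 * ∑ s, ∑ t, ‖u s t‖ ^ 2 := by
          rw [Finset.sum_add_distrib, ← Finset.mul_sum, ← Finset.mul_sum, f2, f1,
            Finset.sum_const, Finset.card_univ, nsmul_eq_mul, ← hN]
          ring
  obtain ⟨c, -, hc⟩ := Finset.exists_le_of_sum_le Finset.univ_nonempty e3
  exact ⟨c, hc⟩

end Crest.Agent.R109
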