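import Crest.Agent.R109.NCut
import Crest.Agent.R109.NGns
import Crest.Agent.R109.NSel

/-!
# R109/N: paving a thin corner by random colourings
-/

set_option autoImplicit false
open Filter Topology
open scoped InnerProductSpace

namespace Crest.Agent.R109
open Crest.Agent.R121

universe u
variable {H : Type u} [NormedAddCommGroup H] [InnerProductSpace ℂ H] [CompleteSpace H]
variable {M : VonNeumannAlgebra H} {A : StarSubalgebra ℂ (Al M)}
variable {K : Type*} [NormedAddCommGroup K] [InnerProductSpace ℂ K] [CompleteSpace K]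
variable {κ : Type*} [Fintype κ]

theorem thin_mul {a b : Al M} (ha : ‖a‖ ≤ 1) (hb : ‖b‖ ≤ 1) : ‖a * b‖ ≤ 1 :=
  (norm_mul_le _ _).trans (mul_le_one₀ ha (norm_nonneg _) hb)

theorem thin_key {p q : Al M} (hp : IsStarProjection p) (hq : IsStarProjection q) {γ : ℝ}
    (h : ‖p * q‖ ≤ γ) (ξ : κ → H) (y : Al M) : ‖J ξ (q * (p * y))‖ ≤ γ * ‖J ξ (p * y)‖ := by
  have h1 : ‖q * p‖ ≤ γ := by
    rwa [← norm_star, star_mul, proj_star hq, proj_star hp]
  have e : q * (p * y) = q * p * (p * y) := by rw [mul_assoc, proj_mul_self_left hp]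
  rw [e]
  exact (J_mul_le ξ _ _).trans (mul_le_mul_of_nonneg_right h1 (norm_nonneg _))

theorem thin_J {q : Al M} (hq : IsStarProjection q) (ξ : κ → H) :
    ‖J ξ q‖ ≤ ‖J ξ (1 : Al M)‖ := by
  simpa using J_proj_le ξ hq 1

theorem thin_gamma {c δ K : ℝ} (hc : 0 < c) (hδ : 0 < δ) (hK : 0 ≤ K) :
    ∃ γ : ℝ, 0 < γ ∧ γ ≤ δ / 2 ∧ γ ^ 2 * K ≤ c ^ 2 * (δ / 2) ^ 2 := by
  refine ⟨min (δ / 2) (c * (δ / 2) / (K + 1)), by positivity, min_le_left _ _, ?_⟩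
  calc min (δ / 2) (c * (δ / 2) / (K + 1)) ^ 2 * K ≤ (c * (δ / 2) / (K + 1)) ^ 2 * (K + 1) ^ 2 := by
        gcongr
        · exact min_le_right _ _
        · nlinarith
    _ = _ := by field_simp

theorem thin_fin (ξ : κ → H) {g q₀ q : Al M} {c δ γ K : ℝ} (hc : 0 < c) (hδ : 0 < δ)
    (h1 : γ ≤ δ / 2) (h2 : γ ^ 2 * K ≤ c ^ 2 * (δ / 2) ^ 2) (h3 : ‖J ξ (g - q₀)‖ ≤ γ)
    (h4 : c ^ 2 * ‖J ξ (q₀ - q)‖ ^ 2 ≤ γ ^ 2 * K) : ‖J ξ (g - q)‖ ≤ δ := by
  have h5 : ‖J ξ (q₀ - q)‖ ≤ δ / 2 := (abs_le_of_sq_le_sq'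
    (le_of_mul_le_mul_left (h4.trans h2) (by positivity)) (by positivity)).2
  rw [← sub_add_sub_cancel g q₀ q, map_add]
  linarith [norm_add_le (J ξ (g - q₀)) (J ξ (q₀ - q))]

section
variable {σ : Type*} [Fintype σ] {s : σ → Al M} {q : Al M} {γ : ℝ}

/-- Diagonal part.  `a = N.E x` for `N` from `exists_net`.  The vectors
`v k i = J ξ (q * (s k * (Ep (N.s i) x - a) * s k) * q)` tend weakly to `0` along `N.U`
(`WL.mul_left`, `WL.mul_right`, `WL.tendsto_inner_J`), and `‖v k i‖ ≤ γ * 2 * ‖J ξ (s k * q)‖`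
(`‖q * s k‖ = ‖s k * q‖`).  `exists_select` chooses `i k`; `t` is the refined partition
`Ptn.sigma` reindexed by `Fintype.equivFin` (`Ptn.comp_equiv`); use `Ep_sigma`, `Ptn.Ep_mem`,
`Ptn.sum_J`, `J_le`; each atom of `t` is `p * s k` with `p` a projection. -/
theorem thin_diag (hA : Masa A) (hs : Ptn A s) (hq : IsStarProjection q) (hγ : 0 < γ)
    (hsq : ∀ k, ‖s k * q‖ ≤ γ) (ξ : κ → H) {x : Al M} (hx : IsSelfAdjoint x) (hx1 : ‖x‖ ≤ 1) :
    ∃ a ∈ A, IsSelfAdjoint a ∧ ‖a‖ ≤ 1 ∧ ∃ (n : ℕ) (t : Fin n → Al M), Ptn A t ∧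
      (∀ k, ‖t k * q‖ ≤ γ) ∧
      ‖J ξ (q * (Ep t x - a) * q)‖ ^ 2 ≤ γ ^ 2 * (4 * ‖J ξ (1 : Al M)‖ ^ 2 + 1) := by
  obtain ⟨N⟩ := exists_net hA
  have ha1 : ‖N.E x‖ ≤ 1 := (N.norm_le x).trans hx1
  obtain ⟨c, hc⟩ := exists_select
    (fun k i => J ξ (q * (s k * (Ep (N.s i) x - N.E x) * s k) * q))
    (fun k => γ ^ 2 * (4 * ‖J ξ (s k * q)‖ ^ 2)) (fun k u t ht => by
      have h1 := (((((N.lim x).sub (WL.const _ (N.E x))).mul_left (s k)).mul_right (s k)).mul_left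
        q).mul_right q
      have h2 := (Complex.continuous_re.tendsto _).comp (h1.tendsto_inner_J ξ u)
      simp only [sub_self, mul_zero, zero_mul, map_zero, inner_zero_right, Complex.zero_re] at h2
      obtain ⟨i, hi⟩ := (h2.eventually (gt_mem_nhds ht)).exists
      refine ⟨i, hi.le, ?_⟩
      have h3 : ‖Ep (N.s i) x - N.E x‖ ≤ 2 := (norm_sub_le _ _).trans (by
        linarith [(N.ptn i).norm_Ep_le x])
      have h4 := thin_key (hs.proj k) hq (hsq k) ξ ((Ep (N.s i) x - N.E x) * (s k * q))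
      have h5 := (J_proj_le ξ (hs.proj k) _).trans
        ((J_mul_le ξ (Ep (N.s i) x - N.E x) (s k * q)).trans
          (mul_le_mul_of_nonneg_right h3 (norm_nonneg _)))
      have h6 := h4.trans (mul_le_mul_of_nonneg_left h5 hγ.le)
      simp only [mul_assoc]
      refine (pow_le_pow_left₀ (norm_nonneg _) h6 2).trans (le_of_eq ?_)
      ring) (θ := γ ^ 2) (by positivity)
  have ht := hs.sigma hA fun k => N.ptn (c k)
  refine ⟨N.E x, N.mem x, by rw [IsSelfAdjoint, N.star_E, hx.star_eq], ha1, _, _,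
    ht.comp_equiv (Fintype.equivFin _).symm, fun k => ?_, ?_⟩
  · generalize (Fintype.equivFin _).symm k = z
    rw [hA.comm _ (hs.mem _) _ ((N.ptn _).mem _), mul_assoc]
    exact (norm_mul_le _ _).trans
      ((mul_le_of_le_one_left (norm_nonneg _) (proj_norm_le ((N.ptn _).proj _))).trans (hsq _))
  · rw [Ep_comp_equiv (fun z : Σ k, Fin (N.n (c k)) => s z.1 * N.s (c z.1) z.2),
      Ep_sigma hs hA fun k => N.ptn (c k)]
    have h1 : ∑ k, s k * Ep (N.s (c k)) x * s k - N.E x =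
        ∑ k, s k * (Ep (N.s (c k)) x - N.E x) * s k := by
      simp only [mul_sub, sub_mul, Finset.sum_sub_distrib]
      rw [← Ep, hs.Ep_mem hA (N.mem x)]
    rw [h1, Finset.mul_sum, Finset.sum_mul, map_sum]
    refine hc.trans ?_
    rw [← Finset.mul_sum, ← Finset.mul_sum, hs.sum_J, mul_add, mul_one]
    gcongr
    exact thin_J hq ξ

/-- Off-diagonal part.  `exists_chaos` for `u k l = J ξ (q * (s k * x * s l) * q)`,
`∑ ‖u k l‖² ≤ γ² ∑_l ∑_k ‖J ξ (s k * (x * s l * q))‖² = γ² ∑_l ‖J ξ (x * s l * q)‖² ≤ γ² ‖J ξ 1‖²`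
(`q * s k = (q * s k) * s k`, `Ptn.sum_J` twice); `p = Ptn.fiber c`, and
`Ep p x - (1 - 1/R) Ep s x - (1/R) x = ∑ k l, nchi c k l • (s k * x * s l)` since
`x = ∑ k l, s k * x * s l` and `Ep p x = ∑ k l, if c k = c l then s k * x * s l else 0`. -/
theorem thin_off (hs : Ptn A s) (hq : IsStarProjection q) (hsq : ∀ k, ‖s k * q‖ ≤ γ)
    (ξ : κ → H) {x : Al M} (hx1 : ‖x‖ ≤ 1) {R : ℕ} (hR : 0 < R) :
    ∃ p : Fin R → Al M, Ptn A p ∧
      ‖J ξ (q * (Ep p x - (1 - (R : ℂ)⁻¹) • Ep s x - (R : ℂ)⁻¹ • x) * q)‖ ^ 2 ≤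
        2 * γ ^ 2 * ‖J ξ (1 : Al M)‖ ^ 2 := by
  classical
  obtain ⟨c, hc⟩ := exists_chaos hR fun k l => J ξ (q * (s k * x * s l) * q)
  refine ⟨_, hs.fiber c, ?_⟩
  have e1 : Ep (fun i => ∑ k ∈ Finset.univ.filter (fun k => c k = i), s k) x =
      ∑ k, ∑ l, (if c k = c l then (1 : ℂ) else 0) • (s k * x * s l) := by
    rw [Ep, ← Finset.sum_fiberwise Finset.univ c]
    refine Finset.sum_congr rfl fun i _ => ?_
    rw [Finset.sum_mul, Finset.sum_mul]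
    refine Finset.sum_congr rfl fun k hk => ?_
    rw [Finset.mul_sum, Finset.sum_filter, (Finset.mem_filter.1 hk).2]
    refine Finset.sum_congr rfl fun l _ => ?_
    simp only [ite_smul, one_smul, zero_smul, eq_comm]
  have e2 : Ep s x = ∑ k, ∑ l, (if k = l then (1 : ℂ) else 0) • (s k * x * s l) := by
    simp [Ep]
  have e3 : x = ∑ k, ∑ l, s k * x * s l := by
    simp only [← Finset.mul_sum, hs.sum, mul_one, ← Finset.sum_mul, one_mul]
  have e4 : Ep (fun i => ∑ k ∈ Finset.univ.filter (fun k => c k = i), s k) x -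
      (1 - (R : ℂ)⁻¹) • Ep s x - (R : ℂ)⁻¹ • x = ∑ k, ∑ l, (nchi c k l : ℂ) • (s k * x * s l) := by
    rw [e1, e2, congrArg ((R : ℂ)⁻¹ • ·) e3]
    simp only [Finset.smul_sum, ← Finset.sum_sub_distrib, smul_smul, ← sub_smul]
    refine Finset.sum_congr rfl fun k _ => Finset.sum_congr rfl fun l _ => ?_
    congr 1
    unfold nchi
    by_cases h : k = l
    · simp [h]
    · by_cases h' : c k = c l <;> simp [h, h']
  rw [e4]
  simp only [Finset.mul_sum, Finset.sum_mul, map_sum, mul_smul_comm, smul_mul_assoc, map_smul]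
  refine hc.trans ?_
  rw [mul_assoc, Finset.sum_comm]
  refine mul_le_mul_of_nonneg_left ?_ zero_le_two
  calc ∑ l, ∑ k, ‖J ξ (q * (s k * x * s l) * q)‖ ^ 2
      ≤ ∑ l, ∑ k, γ ^ 2 * ‖J ξ (s k * (x * (s l * q)))‖ ^ 2 := by
        refine Finset.sum_le_sum fun l _ => Finset.sum_le_sum fun k _ => ?_
        rw [← mul_pow]
        simp only [mul_assoc]
        exact pow_le_pow_left₀ (norm_nonneg _) (thin_key (hs.proj k) hq (hsq k) ξ _) 2
    _ ≤ ∑ l, γ ^ 2 * ‖J ξ (s l * q)‖ ^ 2 := by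
        refine Finset.sum_le_sum fun l _ => ?_
        rw [← Finset.mul_sum, hs.sum_J]
        gcongr
        exact (J_mul_le ξ _ _).trans (mul_le_of_le_one_left (norm_nonneg _) hx1)
    _ ≤ _ := by
        rw [← Finset.mul_sum, hs.sum_J]
        gcongr
        exact thin_J hq ξ

/-- `exists_colour` for `v k = J ξ (q * s k * q)`, `‖v k‖ ≤ γ ‖J ξ (s k * q)‖`; `p = Ptn.fiber c`,
`p i - 1/R = ∑ k, ((if c k = i then 1 else 0) - 1/R) • s k`. -/
theorem thin_lin (hs : Ptn A s) (hq : IsStarProjection q) (hγ : 0 < γ)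
    (hsq : ∀ k, ‖s k * q‖ ≤ γ) (ξ : κ → H) {R : ℕ} (hR : 0 < R) :
    ∃ p : Fin R → Al M, Ptn A p ∧
      ∑ i, ‖J ξ (q * (p i - (R : ℂ)⁻¹ • 1) * q)‖ ^ 2 ≤
        γ ^ 2 * (R * ‖J ξ (1 : Al M)‖ ^ 2 + 1) := by
  obtain ⟨c, hc⟩ := exists_colour hR (fun k => J ξ (q * s k * q)) (θ := γ ^ 2) (by positivity)
  refine ⟨_, hs.fiber c, ?_⟩
  have e1 : ∀ i, ∑ k ∈ Finset.univ.filter (fun k => c k = i), s k - (R : ℂ)⁻¹ • (1 : Al M) =
      ∑ k, ((if c k = i then 1 else 0) - (R : ℂ)⁻¹) • s k := fun i => by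
    simp only [sub_smul, Finset.sum_sub_distrib, ← Finset.smul_sum, hs.sum, Finset.sum_filter,
      ite_smul, one_smul, zero_smul]
  simp only [e1, Finset.mul_sum, Finset.sum_mul, map_sum, mul_smul_comm, smul_mul_assoc, map_smul]
  refine hc.trans ?_
  have h1 : ∑ k, ‖J ξ (q * s k * q)‖ ^ 2 ≤ γ ^ 2 * ‖J ξ (1 : Al M)‖ ^ 2 := by
    calc ∑ k, ‖J ξ (q * s k * q)‖ ^ 2 ≤ ∑ k, γ ^ 2 * ‖J ξ (s k * q)‖ ^ 2 := by
          refine Finset.sum_le_sum fun k _ => ?_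
          rw [← mul_pow, mul_assoc]
          exact pow_le_pow_left₀ (norm_nonneg _) (thin_key (hs.proj k) hq (hsq k) ξ _) 2
      _ ≤ _ := by
          rw [← Finset.mul_sum, hs.sum_J]
          gcongr
          exact thin_J hq ξ
  calc _ ≤ R * (γ ^ 2 * ‖J ξ (1 : Al M)‖ ^ 2) + γ ^ 2 := by gcongr
    _ = _ := by ring

end

variable {ξ : κ → H} {g x : Al M}

/-- so-paving of a thin corner.  `s, q₀` from `h` with small `γ`; `a, t` from `thin_diag`, `p` from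
`thin_off` (for `t`); `a' = (1 - 1/R) a`, `w = q₀ (Ep p x - a' - x / R) q₀` has
`‖J ξ w‖ ≤ C γ`.  `multi_cut` (one element `w`, corner `q₀`, `c = θ`) gives `q ≤ q₀ ≤ g`;
`q (Ep p x - a') q = q w q + q x q / R`. -/
theorem Thin.so (hA : Masa A) (h : Thin A ξ g) (hx : IsSelfAdjoint x) (hx1 : ‖x‖ ≤ 1) {R : ℕ}
    (hR : 0 < R) {θ δ : ℝ} (hθ : 0 < θ) (hδ : 0 < δ) :
    SO A ξ x g (Fin R) ((R : ℝ)⁻¹ + θ) δ := by
  obtain ⟨γ, hγ, hγ1, hγ2⟩ := thin_gamma hθ hδ (K := 12 * ‖J ξ (1 : Al M)‖ ^ 2 + 2) (by positivity)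
  obtain ⟨σ, _, s, q₀, hs, hq₀, hg, hJ, hsq⟩ := h γ hγ
  obtain ⟨a, haA, ha, ha1, n, t, ht, htq, h1⟩ := thin_diag hA hs hq₀ hγ hsq ξ hx hx1
  obtain ⟨p, hp, h2⟩ := thin_off ht hq₀ htq ξ hx1 hR
  have hR1 : (1 : ℝ) ≤ R := by exact_mod_cast hR
  have hn : ‖1 - (R : ℂ)⁻¹‖ ≤ 1 := by
    have e : 1 - (R : ℂ)⁻¹ = ((1 - (R : ℝ)⁻¹ : ℝ) : ℂ) := by push_cast; rfl
    have h3 : (R : ℝ)⁻¹ ≤ 1 := inv_le_one_of_one_le₀ hR1
    have h4 : 0 ≤ (R : ℝ)⁻¹ := by positivity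
    rw [e, Complex.norm_real, Real.norm_eq_abs, abs_le]
    constructor <;> linarith
  obtain ⟨q, hq, hqq, hw, hc⟩ := multi_cut
    (fun _ : Unit => q₀ * (Ep p x - (1 - (R : ℂ)⁻¹) • a - (R : ℂ)⁻¹ • x) * q₀) hq₀
    (fun _ => by rw [mul_assoc, proj_mul_self hq₀]) hθ.le ξ
  have hqq' := proj_le_comm hq₀ hq hqq
  refine ⟨p, hp, (1 - (R : ℂ)⁻¹) • a, SMulMemClass.smul_mem _ haA, ?_, ?_, q, hq, ?_, ?_, ?_⟩
  · rw [IsSelfAdjoint, star_smul, ha.star_eq]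
    simp
  · rw [norm_smul]
    exact mul_le_one₀ hn (norm_nonneg _) ha1
  · rw [← hqq, ← mul_assoc, hg]
  · refine thin_fin ξ hθ hδ hγ1 hγ2 hJ (hc.trans ?_)
    have e : q₀ * (Ep p x - (1 - (R : ℂ)⁻¹) • a - (R : ℂ)⁻¹ • x) * q₀ =
        q₀ * (Ep p x - (1 - (R : ℂ)⁻¹) • Ep t x - (R : ℂ)⁻¹ • x) * q₀ +
          (1 - (R : ℂ)⁻¹) • (q₀ * (Ep t x - a) * q₀) := by
      rw [← smul_mul_assoc, ← mul_smul_comm, ← add_mul, ← mul_add, smul_sub]
      congr 2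
      abel
    simp only [Finset.univ_unique, Finset.sum_singleton]
    rw [e, map_add, map_smul]
    generalize J ξ (q₀ * (Ep t x - a) * q₀) = v at h1 ⊢
    generalize J ξ (q₀ * (Ep p x - (1 - (R : ℂ)⁻¹) • Ep t x - (R : ℂ)⁻¹ • x) * q₀) = u at h2 ⊢
    have h3 : ‖u + (1 - (R : ℂ)⁻¹) • v‖ ≤ ‖u‖ + ‖v‖ := by
      refine (norm_add_le _ _).trans ?_
      rw [norm_smul]
      gcongr
      exact mul_le_of_le_one_left (norm_nonneg _) hn
    refine (pow_le_pow_left₀ (norm_nonneg _) h3 2).trans ?_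
    nlinarith [sq_nonneg (‖u‖ - ‖v‖)]
  · have e : q * (Ep p x - (1 - (R : ℂ)⁻¹) • a) * q = (R : ℂ)⁻¹ • (q * x * q) +
        q * (q₀ * (Ep p x - (1 - (R : ℂ)⁻¹) • a - (R : ℂ)⁻¹ • x) * q₀ * q) := by
      rw [mul_assoc _ q₀ q, hqq, mul_assoc q₀, ← mul_assoc q q₀, hqq', ← mul_assoc,
        ← smul_mul_assoc, ← mul_smul_comm, ← add_mul, ← mul_add, add_sub_cancel]
    rw [e]
    have hq1 := proj_norm_le hq
    refine (norm_add_le _ _).trans (add_le_add ?_ ?_)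
    · rw [norm_smul, norm_inv, Complex.norm_natCast]
      exact mul_le_of_le_one_right (by positivity) (thin_mul (thin_mul hq1 hx1) hq1)
    · exact (norm_mul_le _ _).trans ((mul_le_of_le_one_left (norm_nonneg _) hq1).trans (hw ()))

/-- ap-paving of a thin corner.  `thin_lin` and `multi_cut` (family `q₀ (p i - 1/R) q₀`, corner
`q₀`, `c = ε²/8`) give `q ≤ q₀ ≤ g` with `‖p i q‖² = ‖q (p i) q‖ ≤ ε²/8 + 1/R ≤ ε²/4`.  Take `a = 0`,
`d = (g - q) x (g - q)`; `g (Ep p (x - d)) g = Ep p (g x g - d)`,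
`g x g - d = q x g + (g - q) x q`, and `Ptn.norm_diag_le` with
`‖p i (q x g) p i‖ ≤ ‖p i q‖`, `‖p i ((g - q) x q) p i‖ ≤ ‖q p i‖`. -/
theorem Thin.ap (hA : Masa A) (hgA : g ∈ A) (hg : IsStarProjection g) (h : Thin A ξ g)
    (hx : IsSelfAdjoint x) (hx1 : ‖x‖ ≤ 1) {R : ℕ} {ε δ : ℝ} (hε : 0 < ε)
    (hR : 8 / ε ^ 2 ≤ (R : ℝ)) (hδ : 0 < δ) : AP A ξ x g (Fin R) ε δ := by
  have hR0 : (0 : ℝ) < R := lt_of_lt_of_le (by positivity) hR
  have hc0 : 0 < ε ^ 2 / 8 := by positivity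
  obtain ⟨γ, hγ, hγ1, hγ2⟩ := thin_gamma hc0 hδ (K := R * ‖J ξ (1 : Al M)‖ ^ 2 + 1) (by positivity)
  obtain ⟨σ, _, s, q₀, hs, hq₀, hg₀, hJ, hsq⟩ := h γ hγ
  obtain ⟨p, hp, h1⟩ := thin_lin hs hq₀ hγ hsq ξ (R := R) (by exact_mod_cast hR0)
  obtain ⟨q, hq, hqq, hw, hc⟩ := multi_cut (fun i => q₀ * (p i - (R : ℂ)⁻¹ • 1) * q₀) hq₀
    (fun _ => by rw [mul_assoc, proj_mul_self hq₀]) hc0.le ξ
  have hqq' := proj_le_comm hq₀ hq hqq
  have hgq : g * q = q := by rw [← hqq, ← mul_assoc, hg₀]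
  have hqg := proj_le_comm hg hq hgq
  have hd := proj_sub hg hq hgq
  have hd1 := proj_norm_le hd
  have hq1 := proj_norm_le hq
  have hg1 := proj_norm_le hg
  have e1 : g * (g - q) = g - q := by rw [mul_sub, proj_mul_self hg, hgq]
  have e2 : (g - q) * g = g - q := by rw [sub_mul, proj_mul_self hg, hqg]
  have hpq : ∀ i, ‖p i * q‖ ≤ ε / 2 := fun i => by
    have e : star (p i * q) * (p i * q) = (R : ℂ)⁻¹ • q +
        q * (q₀ * (p i - (R : ℂ)⁻¹ • 1) * q₀ * q) := by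
      rw [mul_assoc _ q₀ q, hqq, mul_assoc q₀, ← mul_assoc q q₀, hqq', star_mul, proj_star hq,
        proj_star (hp.proj i), mul_assoc, proj_mul_self_left (hp.proj i), sub_mul, mul_sub,
        smul_mul_assoc, one_mul, mul_smul_comm, proj_mul_self hq, add_sub_cancel]
    have h2 : ‖p i * q‖ * ‖p i * q‖ ≤ (R : ℝ)⁻¹ + ε ^ 2 / 8 := by
      rw [← CStarRing.norm_star_mul_self, e]
      refine (norm_add_le _ _).trans (add_le_add ?_ ?_)
      · rw [norm_smul, norm_inv, Complex.norm_natCast]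
        exact mul_le_of_le_one_right (by positivity) hq1
      · exact (norm_mul_le _ _).trans ((mul_le_of_le_one_left (norm_nonneg _) hq1).trans (hw i))
    have h3 : (R : ℝ)⁻¹ ≤ ε ^ 2 / 8 := by
      rw [← inv_div]
      exact inv_anti₀ (by positivity) hR
    refine (abs_le_of_sq_le_sq' ?_ (by positivity)).2
    nlinarith
  refine ⟨p, hp, 0, zero_mem _, IsSelfAdjoint.zero _, (g - q) * x * (g - q), ?_, ?_, ?_, ?_, ?_⟩
  · rw [IsSelfAdjoint, star_mul, star_mul, proj_star hd, hx.star_eq, mul_assoc]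
  · rw [← mul_assoc, ← mul_assoc, e1]
  · exact (thin_mul (thin_mul hd1 hx1) hd1).trans one_le_two
  · exact (J_mul_le ξ _ _).trans ((mul_le_of_le_one_left (norm_nonneg _) (thin_mul hd1 hx1)).trans
      (thin_fin ξ hc0 hδ hγ1 hγ2 hJ (hc.trans h1)))
  · rw [sub_zero, ← hp.Ep_mul_left hA hgA, ← hp.Ep_mul_right hA hgA]
    have e3 : g * (x - (g - q) * x * (g - q)) * g = q * (x * g) + (g - q) * x * q := by
      rw [mul_sub g, sub_mul, ← mul_assoc g, ← mul_assoc g, e1, mul_assoc _ (g - q) g, e2]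
      noncomm_ring
    rw [e3]
    refine hp.norm_diag_le (fun _ => _) hε.le fun i => ?_
    have hp1 := proj_norm_le (hp.proj i)
    have e4 : p i * (q * (x * g) + (g - q) * x * q) * p i =
        p i * q * (x * g * p i) + p i * (g - q) * x * (q * p i) := by
      simp only [mul_add, add_mul, mul_assoc]
    have h2 : ‖q * p i‖ ≤ ε / 2 := by
      rw [← norm_star, star_mul, proj_star hq, proj_star (hp.proj i)]
      exact hpq i
    have h3 := (norm_mul_le (p i * q) (x * g * p i)).trans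
      ((mul_le_of_le_one_right (norm_nonneg _) (thin_mul (thin_mul hx1 hg1) hp1)).trans (hpq i))
    have h4 := (norm_mul_le (p i * (g - q) * x) (q * p i)).trans
      ((mul_le_of_le_one_left (norm_nonneg _) (thin_mul (thin_mul hp1 hd1) hx1)).trans h2)
    rw [e4]
    linarith [norm_add_le (p i * q * (x * g * p i)) (p i * (g - q) * x * (q * p i))]

end Crest.Agent.R109
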