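import Crest.Agent.R109.NDec
import Crest.Agent.R109.NThin
import Crest.Agent.R109.NCe

/-!
# R109: the two paving theorems
-/

set_option autoImplicit false
open Filter Topology
open scoped InnerProductSpace

namespace Crest.Agent.R109
open Crest.Agent.R121

universe u
variable {H : Type u} [NormedAddCommGroup H] [InnerProductSpace ℂ H] [CompleteSpace H]
variable {M : VonNeumannAlgebra H} {A : StarSubalgebra ℂ (Al M)}
variable {κ : Type*} [Fintype κ]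

theorem so_one (hA : Masa A) (ξ : κ → H) {x : Al M} (hx : IsSelfAdjoint x) (hx1 : ‖x‖ ≤ 1)
    {ε δ : ℝ} (hε : 0 < ε) (hε1 : ε < 1) (hδ : 0 < δ) {r R : ℕ}
    (hr : 400000000 / ε ^ 2 ≤ (r : ℝ)) (hR : 4 / ε ≤ (R : ℝ)) :
    SO A ξ x 1 (Option (Fin r) ⊕ Fin R) ε δ := by
  obtain ⟨K, _, _, _, ρ, ζ, e, hn, hc, he, ht⟩ := dichotomy hA ξ
  have hR0 : (0 : ℝ) < R := lt_of_lt_of_le (by positivity) hR
  have h1 : (R : ℝ)⁻¹ ≤ ε / 4 := by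
    rw [inv_le_comm₀ hR0 (by positivity), inv_div]; exact hR
  have h2 := ht.so hA hx hx1 (R := R) (by exact_mod_cast hR0) (θ := ε - (R : ℝ)⁻¹) (δ := δ / 2)
    (by linarith) (by positivity)
  rw [add_sub_cancel] at h2
  have := (ce_so hA hn hc he ξ hε hε1 hr hx hx1 (δ := δ / 2) (by positivity)).glue hA he.mem
    he.proj h2
  rwa [mul_div_cancel₀ δ two_ne_zero] at this

theorem ap_one (hA : Masa A) (ξ : κ → H) {x : Al M} (hx : IsSelfAdjoint x) (hx1 : ‖x‖ ≤ 1)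
    {ε δ : ℝ} (hε : 0 < ε) (hε1 : ε < 1) (hδ : 0 < δ) {r R : ℕ}
    (hr : 400000000 / ε ^ 2 ≤ (r : ℝ)) (hR : 8 / (2 * ε) ^ 2 ≤ (R : ℝ)) :
    AP A ξ x 1 (Option (Fin r) ⊕ Fin R) (2 * ε) δ := by
  obtain ⟨K, _, _, _, ρ, ζ, e, hn, hc, he, ht⟩ := dichotomy hA ξ
  have h2 := ht.ap hA (sub_mem (one_mem _) he.mem) he.proj.one_sub hx hx1 (δ := δ / 2)
    (by positivity) hR (by positivity)
  have := (ce_ap hA hn hc he ξ hε hε1 hr hx hx1 (δ := δ / 2) (by positivity)).glue hA he.mem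
    he.proj h2
  rwa [mul_div_cancel₀ δ two_ne_zero] at this

theorem sa_real_smul {x : Al M} (hx : IsSelfAdjoint x) (t : ℝ) : IsSelfAdjoint ((t : ℂ) • x) := by
  rw [IsSelfAdjoint, star_smul, hx.star_eq, Complex.star_def, Complex.conj_ofReal]

theorem exists_unit (x : Al M) (hx : IsSelfAdjoint x) :
    ∃ x' : Al M, IsSelfAdjoint x' ∧ ‖x'‖ ≤ 1 ∧ x = ((‖x‖ : ℝ) : ℂ) • x' ∧ (x ≠ 0 → ‖x'‖ = 1) := by
  rcases eq_or_ne x 0 with rfl | h0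
  · exact ⟨0, .zero _, by simp, by simp, fun h => absurd rfl h⟩
  have hn : ‖x‖ ≠ 0 := norm_ne_zero_iff.2 h0
  have h1 : ‖((‖x‖⁻¹ : ℝ) : ℂ) • x‖ = 1 := by
    rw [norm_smul, Complex.norm_real, norm_inv, norm_norm, inv_mul_cancel₀ hn]
  refine ⟨((‖x‖⁻¹ : ℝ) : ℂ) • x, sa_real_smul hx _, h1.le, ?_, fun _ => h1⟩
  rw [smul_smul, ← Complex.ofReal_mul, mul_inv_cancel₀ hn, Complex.ofReal_one, one_smul]

/-- so-paving, in `Al M`. -/
theorem so_main (hA : Masa A) (F : Finset H) {x : Al M} (hx : IsSelfAdjoint x)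
    {ε δ : ℝ} (hε : 0 < ε) (hε1 : ε < 1) (hδ : 0 < δ) {r R : ℕ}
    (hr : 400000000 / ε ^ 2 ≤ (r : ℝ)) (hR : 4 / ε ≤ (R : ℝ)) :
    ∃ p : Fin (r + R + 1) → Al M, Ptn A p ∧ ∃ a ∈ A, IsSelfAdjoint a ∧ ‖a‖ ≤ ‖x‖ ∧ ∃ q : Al M,
      IsStarProjection q ∧ (∀ v ∈ F, ‖ap (1 - q) v‖ < δ) ∧ ‖q * (Ep p x - a) * q‖ ≤ ε * ‖x‖ := by
  obtain ⟨x', hx', h1, hxx, -⟩ := exists_unit x hx
  obtain ⟨p, hp, a, haA, ha, ha1, q, hq, -, hq1, hq2⟩ :=
    so_one hA (fun v : F => (v : H)) hx' h1 hε hε1 (half_pos hδ) hr hR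
  let σ : Fin (r + R + 1) ≃ Option (Fin r) ⊕ Fin R :=
    Fintype.equivOfCardEq (by simp; omega)
  refine ⟨_, hp.comp_equiv σ, ((‖x‖ : ℝ) : ℂ) • a, SMulMemClass.smul_mem _ haA,
    sa_real_smul ha _, ?_, q, hq, fun v hv => ?_, ?_⟩
  · rw [norm_smul, Complex.norm_real, norm_norm]
    exact mul_le_of_le_one_right (norm_nonneg _) ha1
  · exact ((ap_le_J (fun v : F => (v : H)) _ ⟨v, hv⟩).trans hq1).trans_lt (half_lt_self hδ)
  · rw [Ep_comp_equiv]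
    nth_rewrite 1 [hxx]
    rw [Ep_smul, ← smul_sub, mul_smul_comm, smul_mul_assoc, norm_smul, Complex.norm_real,
      norm_norm, mul_comm]
    exact mul_le_mul_of_nonneg_right hq2 (norm_nonneg _)

/-- Shrinking the diagonal element. -/
theorem exists_shrink {a z : Al M} (haA : a ∈ A) (ha : IsSelfAdjoint a) {c θ : ℝ} (hc : 0 ≤ c)
    (hz : ‖z‖ ≤ c) (h : ‖z - a‖ ≤ θ) :
    ∃ a' ∈ A, IsSelfAdjoint a' ∧ ‖a'‖ ≤ c ∧ ‖z - a'‖ ≤ 2 * θ := by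
  have hθ : 0 ≤ θ := (norm_nonneg _).trans h
  rcases le_or_gt ‖a‖ c with h1 | h1
  · exact ⟨a, haA, ha, h1, by linarith⟩
  have h0 : 0 < ‖a‖ := hc.trans_lt h1
  have h2 : ‖a‖ ≤ c + θ := by
    have := norm_sub_le z (z - a)
    rw [sub_sub_cancel] at this
    linarith
  refine ⟨((c / ‖a‖ : ℝ) : ℂ) • a, SMulMemClass.smul_mem _ haA, sa_real_smul ha _, ?_, ?_⟩
  · rw [norm_smul, Complex.norm_real, Real.norm_of_nonneg (by positivity),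
      div_mul_cancel₀ _ h0.ne']
  · have e : z - ((c / ‖a‖ : ℝ) : ℂ) • a = (z - a) + ((1 - c / ‖a‖ : ℝ) : ℂ) • a := by
      rw [Complex.ofReal_sub, sub_smul, Complex.ofReal_one, one_smul]; abel
    have h3 : 0 ≤ 1 - c / ‖a‖ := sub_nonneg.2 ((div_le_one h0).2 h1.le)
    have h4 : ‖((1 - c / ‖a‖ : ℝ) : ℂ) • a‖ = ‖a‖ - c := by
      rw [norm_smul, Complex.norm_real, Real.norm_of_nonneg h3, sub_mul, one_mul,
        div_mul_cancel₀ _ h0.ne']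
    rw [e]
    linarith [norm_add_le (z - a) (((1 - c / ‖a‖ : ℝ) : ℂ) • a)]

theorem exists_norming {x : Al M} (h : ‖x‖ = 1) : ∃ v : H, ‖v‖ ≤ 1 ∧ 3 / 4 ≤ ‖ap x v‖ := by
  obtain ⟨v, h1, h2⟩ := (x : H →L[ℂ] H).exists_lt_apply_of_lt_opNorm (r := 3 / 4)
    (by change _ < ‖x‖; rw [h]; norm_num)
  exact ⟨v, h1.le, h2.le⟩

/-- ap-paving, in `Al M`. -/
theorem ap_main (hA : Masa A) (F : Finset H) {x : Al M} (hx : IsSelfAdjoint x)
    {ε δ : ℝ} (hε : 0 < ε) (hε1 : ε < 1) (hδ : 0 < δ) {r R : ℕ}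
    (hr : 400000000 / (ε / 8) ^ 2 ≤ (r : ℝ)) (hR : 8 / (2 * (ε / 8)) ^ 2 ≤ (R : ℝ)) :
    ∃ y : Al M, IsSelfAdjoint y ∧ ‖y‖ ≤ 3 * ‖x‖ ∧ (∀ v ∈ F, ‖ap (y - x) v‖ < δ) ∧
      ∃ p : Fin (r + R + 1) → Al M, Ptn A p ∧ ∃ a ∈ A, IsSelfAdjoint a ∧ ‖a‖ ≤ ‖y‖ ∧
        ‖Ep p y - a‖ ≤ ε * ‖y‖ := by
  classical
  obtain ⟨x', hx', h1, hxx, hx1⟩ := exists_unit x hx
  have hv : ∃ v : H, ‖v‖ ≤ 1 ∧ (x ≠ 0 → 3 / 4 ≤ ‖ap x' v‖) := by
    rcases eq_or_ne x 0 with h0 | h0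
    · exact ⟨0, by simp, fun h => absurd h0 h⟩
    · obtain ⟨v, h2, h3⟩ := exists_norming (hx1 h0)
      exact ⟨v, h2, fun _ => h3⟩
  obtain ⟨v0, hv0, hv1⟩ := hv
  have hn := norm_nonneg x
  obtain ⟨p, hp, a, haA, ha, d, hd, -, hd2, hdδ, hpa⟩ :=
    ap_one hA (fun v : ↥(insert v0 F) => (v : H)) hx' h1 (ε := ε / 8)
      (δ := min (1 / 4) (δ / (‖x‖ + 1))) (by positivity) (by linarith) (by positivity) hr hR
  rw [one_mul, mul_one] at hpa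
  have hdv : ∀ v ∈ insert v0 F, ‖ap d v‖ ≤ min (1 / 4) (δ / (‖x‖ + 1)) := fun v hv =>
    (ap_le_J (fun v : ↥(insert v0 F) => (v : H)) d ⟨v, hv⟩).trans hdδ
  obtain ⟨a', haA', ha', ha1, ha2⟩ :=
    exists_shrink haA ha (norm_nonneg _) (hp.norm_Ep_le (x' - d)) hpa
  let σ : Fin (r + R + 1) ≃ Option (Fin r) ⊕ Fin R :=
    Fintype.equivOfCardEq (by simp; omega)
  have hy : ‖((‖x‖ : ℝ) : ℂ) • (x' - d)‖ = ‖x‖ * ‖x' - d‖ := by
    rw [norm_smul, Complex.norm_real, norm_norm]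
  refine ⟨((‖x‖ : ℝ) : ℂ) • (x' - d), sa_real_smul (hx'.sub hd) _, ?_, fun v hv => ?_,
    _, hp.comp_equiv σ, ((‖x‖ : ℝ) : ℂ) • a', SMulMemClass.smul_mem _ haA',
    sa_real_smul ha' _, ?_, ?_⟩
  · rw [hy, mul_comm]
    exact mul_le_mul_of_nonneg_right (by linarith [norm_sub_le x' d]) hn
  · rw [smul_sub, ← hxx, sub_sub_cancel_left, ap_neg, norm_neg, ap_smul, norm_smul,
      Complex.norm_real, norm_norm]
    have h2 := (hdv v (Finset.mem_insert_of_mem hv)).trans (min_le_right _ _)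
    rw [le_div_iff₀ (by positivity)] at h2
    rcases (norm_nonneg (ap d v)).eq_or_lt with h3 | h3
    · rw [← h3, mul_zero]; exact hδ
    · nlinarith
  · rw [hy, norm_smul, Complex.norm_real, norm_norm]
    exact mul_le_mul_of_nonneg_left ha1 hn
  · rw [Ep_comp_equiv, Ep_smul, ← smul_sub, hy, norm_smul, Complex.norm_real, norm_norm,
      mul_left_comm]
    rcases eq_or_ne x 0 with h0 | h0
    · simp [h0]
    refine mul_le_mul_of_nonneg_left (ha2.trans ?_) hn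
    have h2 := (hdv v0 (Finset.mem_insert_self _ _)).trans (min_le_left _ _)
    have h3 : ‖ap (x' - d) v0‖ ≤ ‖x' - d‖ :=
      (norm_ap_le _ _).trans (mul_le_of_le_one_right (norm_nonneg _) hv0)
    have h4 := norm_sub_norm_le (ap x' v0) (ap d v0)
    rw [← ap_sub] at h4
    have h5 : 1 / 2 ≤ ‖x' - d‖ := by linarith [hv1 h0]
    nlinarith

/-- The subalgebra seen inside `Al M`. -/
theorem masa_comap {A : StarSubalgebra ℂ (H →L[ℂ] H)} (hAM : A ≤ M.toStarSubalgebra)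
    (hA : ∀ a ∈ A, ∀ b ∈ A, a * b = b * a) (hAmax : ∀ y ∈ M, (∀ a ∈ A, a * y = y * a) → y ∈ A) :
    Masa (A.comap M.toStarSubalgebra.subtype) :=
  ⟨fun a ha b hb => Subtype.ext (hA a ha b hb), fun y hy => hAmax y y.2 fun a ha =>
    congrArg Subtype.val (hy ⟨a, hAM ha⟩ ha)⟩

theorem coe_proj {p : Al M} (hp : IsStarProjection p) : IsStarProjection (p : H →L[ℂ] H) :=
  hp.map M.toStarSubalgebra.subtype

theorem coe_sa {p : Al M} (hp : IsSelfAdjoint p) : IsSelfAdjoint (p : H →L[ℂ] H) :=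
  congrArg Subtype.val hp.star_eq

theorem coe_Ep {ι : Type*} [Fintype ι] (p : ι → Al M) (x : Al M) :
    ((Ep p x : Al M) : H →L[ℂ] H) = ∑ i, (p i : H →L[ℂ] H) * x * p i :=
  map_sum M.toStarSubalgebra.subtype _ _

theorem Ptn.coe {A : StarSubalgebra ℂ (H →L[ℂ] H)} {ι : Type*} [Fintype ι] {p : ι → Al M}
    (h : Ptn (A.comap M.toStarSubalgebra.subtype) p) :
    (∀ i, (p i : H →L[ℂ] H) ∈ A ∧ IsStarProjection (p i : H →L[ℂ] H)) ∧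
      (∀ i j, i ≠ j → (p i : H →L[ℂ] H) * p j = 0) ∧ ∑ i, (p i : H →L[ℂ] H) = 1 :=
  ⟨fun i => ⟨h.mem i, coe_proj (h.proj i)⟩, fun _ _ hij => congrArg Subtype.val (h.orth hij),
    (map_sum M.toStarSubalgebra.subtype _ _).symm.trans (congrArg Subtype.val h.sum)⟩

end Crest.Agent.R109
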