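import Crest.Agent.R109.Round

/-!
# R109: paving of a pseudogroup
-/

set_option autoImplicit false
open Finset Filter Topology MeasureTheory
open scoped Classical

namespace Crest.Agent.R109

universe u

namespace PG
variable {X : Type u} [TopologicalSpace X] [MeasurableSpace X] {μ : Measure X}
variable {ι : Type} [Fintype ι] [DecidableEq ι]

/-- The column at `ω` of `(1 + y)^j`, `y` the paved kernel. -/
noncomputable def vec (G : PG μ) (σ : X → St ι) (ω : X) : ℕ → X → ℂ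
  | 0, p => if p = ω then 1 else 0
  | j + 1, p => vec G σ ω j p + ∑ q ∈ G.ball 1 p, yk G.a σ p q * vec G σ ω j q

/-- The diagonal entry at `ω` of `(1 + y)^k (y - c) (1 + y)^k`. -/
noncomputable def quad (G : PG μ) (σ : X → St ι) (c : ℝ) (k : ℕ) (ω : X) : ℝ :=
  (∑ p ∈ G.ball k ω, ∑ q ∈ G.ball k ω,
    (starRingEnd ℂ) (G.vec σ ω k p) * yk G.a σ p q * G.vec σ ω k q).re -
      c * ∑ p ∈ G.ball k ω, ‖G.vec σ ω k p‖ ^ 2

variable {G : PG μ}

omit [Fintype ι] in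
theorem vec_eq_zero (σ : X → St ι) (ω : X) (j : ℕ) {p : X} (h : p ∉ G.ball j ω) :
    G.vec σ ω j p = 0 := by
  induction j generalizing p with
  | zero => exact if_neg (by simpa [ball_zero] using h)
  | succ j ih =>
    rw [vec, ih fun h' => h (ball_mono (Nat.le_succ j) ω h'), zero_add]
    refine sum_eq_zero fun q hq => ?_
    rw [ih fun h' => h (ball_trans h' (ball_symm hq)), mul_zero]

omit [Fintype ι] in
/-- `Herm.norm_le`, `card_ball_le`. -/
theorem norm_vec_le (σ : X → St ι) (ω : X) (j : ℕ) (p : X) :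
    ‖G.vec σ ω j p‖ ≤ (1 + (G.W 1).card) ^ j := by
  induction j generalizing p with
  | zero => rw [vec]; split_ifs <;> simp
  | succ j ih =>
    have h1 : ‖∑ q ∈ G.ball 1 p, yk G.a σ p q * G.vec σ ω j q‖ ≤
        (G.W 1).card * (1 + (G.W 1).card) ^ j := by
      refine (norm_sum_le _ _).trans ((sum_le_card_nsmul _ _ ((1 + ((G.W 1).card : ℝ)) ^ j)
        fun q _ => ?_).trans ?_)
      · rw [norm_mul]
        refine (mul_le_of_le_one_left (norm_nonneg _) ?_).trans (ih q)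
        rw [yk]; split_ifs
        · exact G.herm.norm_le p q
        · simp
      · rw [nsmul_eq_mul]
        have : ((G.ball 1 p).card : ℝ) ≤ (G.W 1).card := by exact_mod_cast card_ball_le 1 p
        gcongr
    rw [vec, pow_succ]
    linarith [norm_add_le (G.vec σ ω j p) (∑ q ∈ G.ball 1 p, yk G.a σ p q * G.vec σ ω j q), ih p]

variable [BorelSpace X] [CompactSpace X] [IsProbabilityMeasure μ]

/-- `Apx.quad_le` pointwise (with `exists_wt_bound`), then `integral_FF_le`; if `quad` is not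
integrable its integral is `0` (and the right side is `≥ 0` by `Psi_ge`). -/
theorem exists_quad_bound (G : PG μ) [T2Space X] [TotallyDisconnectedSpace X] (k : ℕ) :
    ∃ C > 0, ∀ (ι : Type) [Fintype ι] [DecidableEq ι] [Nonempty ι] (t η ρ e : ℝ) (K N : ℕ)
      (cl : X → ℕ) (σ : X → St ι), 0 < t → 0 < η → 0 ≤ e → (G.W k).card * η ≤ t / 2 →
      G.Cls (2 * K) N cl → (∀ K ω, Nb ρ G.a (G.wt ω) (G.ball K ω)) → Apx X ι t η K ρ e →
      IsLocallyConstant σ → (∀ ω, σ ω ≠ .unc) →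
      ∫ ω, G.quad σ (240 * t) k ω ∂μ ≤ C * (G.Psi t η K cl σ + 2 * e) := by
  obtain ⟨W, W0, hW⟩ := G.exists_wt_bound k
  obtain ⟨N', cl', hcl'⟩ := G.exists_cls (2 * k + 1)
  obtain ⟨M, hM⟩ : ∃ M : ℝ, M = (G.W k).card * ((1 + (G.W 1).card) ^ k) ^ 2 := ⟨_, rfl⟩
  obtain ⟨A, hA⟩ : ∃ A : ℝ, A = (G.W k).card * W := ⟨_, rfl⟩
  have M0 : 0 ≤ M := by rw [hM]; positivity
  have A0 : 0 ≤ A := by rw [hA]; positivity
  refine ⟨240 * W * M * (N' + A) + 1, by positivity,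
    fun ι _ _ _ t η ρ e K N cl σ ht hη he hk hcl hρ hE hσ hu => ?_⟩
  have g0 := Psi_ge ht hη hcl.lc hσ hρ hE
  have g1 : 0 ≤ G.Psi t η K cl σ + e := by linarith
  by_cases hi : Integrable (G.quad σ (240 * t) k) μ
  swap
  · rw [integral_undef hi]
    exact mul_nonneg (by positivity) (by linarith)
  have hF : Integrable (fun ω => FF t η K G.a (G.wt ω) (G.ball k ω) σ) μ :=
    (continuous_FF ht hη K k (loc2_right hσ)).integrable_of_hasCompactSupport
      (HasCompactSupport.of_compactSpace _)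
  have hc : ∀ ω, ((G.ball k ω).card : ℝ) ≤ (G.W k).card := fun ω => by
    exact_mod_cast card_ball_le k ω
  have h1 : ∀ ω, G.quad σ (240 * t) k ω ≤
      240 * W * M * (FF t η K G.a (G.wt ω) (G.ball k ω) σ + e * A) := fun ω => by
    refine (hE.quad_le he (G.ok ht hη ω) (hρ k ω) (fun w _ => hu w)
      ((mul_le_mul_of_nonneg_right (hc ω) hη.le).trans hk) (G.vec σ ω k) W0.le
      (fun p hp => (hW ω p hp).2) (N := M) ?_).2.trans ?_
    · refine (sum_le_card_nsmul _ _ (((1 + ((G.W 1).card : ℝ)) ^ k) ^ 2) fun p _ => ?_).trans ?_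
      · gcongr; exact norm_vec_le σ ω k p
      · rw [nsmul_eq_mul, hM]; gcongr; exact card_ball_le k ω
    · gcongr
      refine (sum_le_card_nsmul _ _ W fun p hp => (hW ω p hp).1).trans ?_
      rw [nsmul_eq_mul, hA]; gcongr; exact card_ball_le k ω
  refine (integral_mono (g := fun ω => 240 * W * M * (FF t η K G.a (G.wt ω) (G.ball k ω) σ + e * A))
    hi ((hF.add (integrable_const _)).const_mul _) h1).trans ?_
  rw [integral_const_mul, integral_add hF (integrable_const _), integral_const, probReal_univ,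
    one_smul]
  have h2 := integral_FF_le ht hη hcl hρ hE he hσ hcl'
  calc _ ≤ 240 * W * M * ((N' + A) * (G.Psi t η K cl σ + 2 * e)) := by
        gcongr
        nlinarith [mul_nonneg A0 g1, mul_nonneg (Nat.cast_nonneg (α := ℝ) N') he]
    _ ≤ _ := by nlinarith

/-- `jE_init` and `Apx`. -/
theorem exists_init (G : PG μ) (ι : Type) [Fintype ι] [DecidableEq ι] [Nonempty ι] {t ρ e₀ : ℝ}
    (ht : t = 6 / √(Fintype.card ι)) (hρ0 : 0 < ρ) (hρ : ∀ K ω, Nb ρ G.a (G.wt ω) (G.ball K ω))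
    (he : 0 < e₀) : ∃ η₁ > 0, ∀ η e : ℝ, 0 < η → η ≤ η₁ → ∀ (K : ℕ) (cl : X → ℕ),
      IsLocallyConstant cl → Apx X ι t η K ρ e →
      G.Psi t η K cl (fun _ => (.unc : St ι)) ≤ e₀ + e := by
  obtain ⟨η₁, h0, h1⟩ := jE_init.{u} ι ht hρ0 he
  have t0 : 0 < t := by
    have : (0 : ℝ) < Fintype.card ι := by exact_mod_cast Fintype.card_pos
    rw [ht]; positivity
  refine ⟨η₁, h0, fun η e hη hη1 K cl hcl hE => ?_⟩
  have hi : Integrable (G.psi t η K cl fun _ => (.unc : St ι)) μ :=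
    (continuous_psi t0 hη hcl (IsLocallyConstant.const _)).integrable_of_hasCompactSupport
      (HasCompactSupport.of_compactSpace _)
  refine (integral_mono hi (integrable_const (e₀ + e)) fun w => ?_).trans (by simp)
  have h2 := h1 η hη1 X G.a (G.wt w) (G.ball K w) (cut cl (cl w) fun _ => (.unc : St ι)) w
    (G.ok t0 hη w) (hρ K w) fun p _ => by unfold cut; split_ifs <;> simp
  have h3 := (abs_le.1 (hE G.a (G.wt w) (G.ball K w) (cut cl (cl w) fun _ => (.unc : St ι)) w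
    (G.ok t0 hη w) (hρ K w))).2
  rw [G.wt_self] at h2 h3
  rw [psi]; linarith

/-- The main theorem of the measured part. Choose in this order: `ρ` (`exists_rho`), `C^±`
(`exists_quad_bound`), `y₀ > 0` with `C^± * 2 y₀ ≤ δ` and `y₀ ≤ δ π t / 16`,
`Λ = (2 n B + δ) / y₀` (`B ≥ 0` by `HF` for `exists_lc_fin`), `s = min y₀ (δ / Λ)`, `e₀ = s / 8`,
`e = s / 32`, `η ≤ min η₁^± (s / 64) (t / (2 (|W k| + 1)))`, `K` (`exists_apx`), `cl`
(`exists_cls (2K)`). From `inv_final` put `L κ j = {ω | T j κ (lab ω) = 0}`; by `HF` and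
`Equiv.sum_comp`, the average over `κ` of `∑_j Mom (L κ j) + Λ (Y (σ κ) + 2 e)` is at most
`2 n B + Λ s`. Take `κ` below average (`Finset.exists_le_of_sum_le`); `Psi^± + e ≥ 0`
(`Psi_ge`). -/
theorem pave [T2Space X] [TotallyDisconnectedSpace X] (G : PG μ) (n : ℕ) [NeZero n] {t : ℝ}
    (ht : t = 6 / √(2 * n)) (k : ℕ) {δ : ℝ} (hδ : 0 < δ) (Mom : Set X → ℝ)
    (hM : ∀ L, 0 ≤ Mom L) {B : ℝ} {L₀ : Type} {lab₀ : X → L₀} (hl : IsLocallyConstant lab₀)
    (HF : ∀ (Lab : Type) [Fintype Lab] (lab : X → Lab), IsLocallyConstant lab →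
      (∀ ω ω', lab ω = lab ω' → lab₀ ω = lab₀ ω') →
      ∑ κ : Lab → Fin n, Mom {ω | κ (lab ω) = 0} ≤ Fintype.card (Lab → Fin n) * B) :
    ∃ (σ : X → St (Fin (2 * n))) (L : Fin (2 * n) → Set X), IsLocallyConstant σ ∧
      (∀ ω, σ ω ≠ .unc) ∧ (∀ j, IsClopen (L j)) ∧ (∀ ω j, σ ω = .col j → ω ∈ L j) ∧
      ∑ j, Mom (L j) ≤ 2 * n * B + δ ∧ μ.real {ω | σ ω = .del} ≤ δ ∧
      ∫ ω, G.quad σ (240 * t) k ω ∂μ ≤ δ ∧ ∫ ω, G.neg.quad σ (240 * t) k ω ∂μ ≤ δ := by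
  have n0 : 0 < n := Nat.pos_of_ne_zero (NeZero.ne n)
  have : Nonempty (Fin (2 * n)) := ⟨⟨0, by omega⟩⟩
  have ht' : t = 6 / √(Fintype.card (Fin (2 * n))) := by rw [ht]; simp
  have t0 : 0 < t := by
    have : (0 : ℝ) < n := by exact_mod_cast n0
    rw [ht]; positivity
  have hπ := Real.pi_pos
  obtain ⟨ρ, ρ0, hρ⟩ := G.exists_rho
  have hρ' : ∀ K ω, Nb ρ G.neg.a (G.neg.wt ω) (G.neg.ball K ω) := fun K ω p hp q hq h =>
    hρ K ω p hp q hq (neg_ne_zero.1 h)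
  obtain ⟨C₁, C₁0, hC₁⟩ := G.exists_quad_bound k
  obtain ⟨C₂, C₂0, hC₂⟩ := G.neg.exists_quad_bound k
  obtain ⟨y₀, y0, y1, y2, y3⟩ : ∃ y₀ > 0, C₁ * (2 * y₀) ≤ δ ∧ C₂ * (2 * y₀) ≤ δ ∧
      y₀ ≤ Real.pi * t / 16 * δ := by
    refine ⟨min (min (δ / (2 * C₁)) (δ / (2 * C₂))) (Real.pi * t / 16 * δ), by positivity, ?_, ?_,
      min_le_right _ _⟩
    · have := (le_div_iff₀ (by positivity)).1 ((min_le_left _ (Real.pi * t / 16 * δ)).trans
        (min_le_left (δ / (2 * C₁)) (δ / (2 * C₂))))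
      linarith
    · have := (le_div_iff₀ (by positivity)).1 ((min_le_left _ (Real.pi * t / 16 * δ)).trans
        (min_le_right (δ / (2 * C₁)) (δ / (2 * C₂))))
      linarith
  have B0 : 0 ≤ B := by
    obtain ⟨m, lab, l1, l2⟩ := exists_lc_fin hl
    have h1 := (sum_nonneg fun _ _ => hM _).trans (HF _ lab l1 fun ω ω' h => (l2 ω ω').1 h)
    exact nonneg_of_mul_nonneg_right h1 (Nat.cast_pos.2 (@Fintype.card_pos _ (_) _))
  obtain ⟨Λ, Λ0, hΛ⟩ : ∃ Λ > 0, Λ * y₀ = 2 * n * B + δ :=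
    ⟨(2 * n * B + δ) / y₀, by positivity, by field_simp⟩
  obtain ⟨s, s0, s1, s2⟩ : ∃ s > 0, s ≤ y₀ ∧ Λ * s ≤ δ :=
    ⟨min y₀ (δ / Λ), by positivity, min_le_left _ _,
      (le_div_iff₀' Λ0).1 (min_le_right _ _)⟩
  obtain ⟨η₁, η₁0, hη₁⟩ := G.exists_init (Fin (2 * n)) ht' ρ0 hρ (e₀ := s / 8) (by positivity)
  obtain ⟨η₂, η₂0, hη₂⟩ := G.neg.exists_init (Fin (2 * n)) ht' ρ0 hρ' (e₀ := s / 8) (by positivity)
  obtain ⟨η, η0, e1, e2, e3, e4⟩ : ∃ η > 0, η ≤ η₁ ∧ η ≤ η₂ ∧ η ≤ s / 64 ∧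
      ((G.W k).card + 1) * η ≤ t / 2 :=
    ⟨min (min η₁ η₂) (min (s / 64) (t / 2 / ((G.W k).card + 1))), by positivity,
      (min_le_left _ _).trans (min_le_left _ _), (min_le_left _ _).trans (min_le_right _ _),
      (min_le_right _ _).trans (min_le_left _ _),
      (le_div_iff₀' (by positivity)).1 ((min_le_right _ _).trans (min_le_right _ _))⟩
  have e5 : ((G.W k).card : ℝ) * η ≤ t / 2 := by linarith
  have e6 : η ≤ t / 2 := by nlinarith [Nat.cast_nonneg (α := ℝ) (G.W k).card]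
  obtain ⟨K, hE⟩ := exists_apx X (Fin (2 * n)) t0 η0 ρ0 (e := s / 32) (by positivity)
  obtain ⟨N, cl, hcl⟩ := G.exists_cls (2 * K)
  obtain ⟨Lab, _, lab, σ, T, i1, i2, i3, i4, i5, i6⟩ :=
    inv_final t0 η0 e6 (by positivity) (Fintype.card_fin _) hcl hρ hE hl
  have b1 : G.Y t η K cl (fun _ => (.unc : St (Fin (2 * n)))) ≤ 2 * (s / 8 + s / 32) := by
    have h1 := hη₁ η _ η0 e1 K cl hcl.lc hE
    have h2 := hη₂ η _ η0 e2 K cl hcl.lc hE
    have h3 : {_ω : X | (.unc : St (Fin (2 * n))) = .del} = ∅ := by simp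
    rw [Y, h3, measureReal_empty]; linarith
  have b2 : ∑ κ : Lab → Fin n, ∑ j, Mom {ω | T j κ (lab ω) = 0} ≤
      Fintype.card (Lab → Fin n) * (2 * n * B) := by
    rw [sum_comm]
    refine (sum_le_card_nsmul _ _ (Fintype.card (Lab → Fin n) * B) fun j _ => ?_).trans
      (le_of_eq ?_)
    · rw [(T j).sum_comp fun κ => Mom {ω | κ (lab ω) = 0}]; exact HF Lab lab i1 i2
    · simp; ring
  obtain ⟨κ, -, hκ⟩ := exists_le_of_sum_le (s := (univ : Finset (Lab → Fin n))) univ_nonempty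
    (f := fun κ => ∑ j, Mom {ω | T j κ (lab ω) = 0} + Λ * (G.Y t η K cl (σ κ) + 2 * (s / 32)))
    (g := fun _ => 2 * n * B + δ) (by
      rw [sum_add_distrib, ← mul_sum, sum_add_distrib, sum_const, sum_const, card_univ,
        nsmul_eq_mul, nsmul_eq_mul]
      have c0 : (0 : ℝ) ≤ Fintype.card (Lab → Fin n) := Nat.cast_nonneg _
      have h1 : ∑ κ, G.Y t η K cl (σ κ) + Fintype.card (Lab → Fin n) * (2 * (s / 32)) ≤
          Fintype.card (Lab → Fin n) * s := by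
        refine (add_le_add i6 le_rfl).trans ?_
        rw [← mul_add]; gcongr; linarith
      nlinarith [mul_le_mul_of_nonneg_left h1 Λ0.le, mul_le_mul_of_nonneg_left s2 c0])
  have p1 := Psi_ge t0 η0 hcl.lc (i3 κ) hρ hE
  have p2 := Psi_ge t0 η0 hcl.lc (i3 κ) hρ' hE
  have p3 : 0 ≤ Real.pi * t / 16 * μ.real {ω | σ κ ω = .del} := by positivity
  have p4 : 0 ≤ ∑ j, Mom {ω | T j κ (lab ω) = 0} := sum_nonneg fun _ _ => hM _
  have p5 : G.Y t η K cl (σ κ) + 2 * (s / 32) ≤ y₀ :=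
    le_of_mul_le_mul_left (by linarith) Λ0
  have p6 : 0 ≤ Λ * (G.Y t η K cl (σ κ) + 2 * (s / 32)) :=
    mul_nonneg Λ0.le (by rw [Y]; linarith)
  rw [Y] at p5
  have hu : ∀ ω, σ κ ω ≠ .unc := fun ω h => absurd ((i4 κ ω).1 h) (not_le.2 (hcl.lt ω))
  refine ⟨σ κ, fun j => {ω | T j κ (lab ω) = 0}, i3 κ, hu,
    fun j => (i1.comp (T j κ)).isClopen_fiber 0, i5 κ, by linarith,
    le_of_mul_le_mul_left (by linarith) (by positivity : 0 < Real.pi * t / 16), ?_, ?_⟩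
  · refine (hC₁ _ t η ρ _ K N cl _ t0 η0 (by positivity) e5 hcl hρ hE (i3 κ) hu).trans
      (le_trans ?_ y1)
    gcongr; linarith
  · refine (hC₂ _ t η ρ _ K N cl _ t0 η0 (by positivity) e5 hcl.neg hρ' hE (i3 κ) hu).trans
      (le_trans ?_ y2)
    gcongr; linarith

end PG

end Crest.Agent.R109
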