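import Crest.Agent.R109.Kern
import Crest.Agent.R109.PaveB

/-!
# R109: the pseudogroup model of a finite combination of good normalisers
-/

set_option autoImplicit false
open Filter Topology MeasureTheory Finset
open scoped InnerProductSpace Classical

namespace Crest.Agent.R109
open Crest.Agent.R121

universe u
variable {H : Type u} [NormedAddCommGroup H] [InnerProductSpace ℂ H] [CompleteSpace H]
variable {M : VonNeumannAlgebra H} {A : StarSubalgebra ℂ (Al M)} {ξ : H}
variable {X : Type u} [TopologicalSpace X] [MeasurableSpace X] {μ : Measure X}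

/-- Kernel calculus for `x` in the pseudogroup `G`. -/
structure KC (S : Sp A ξ μ) (G : PG μ) (ker : Al M → X → X → ℂ) (x : Al M) : Prop where
  add : ∀ m n p q, ker (m + n) p q = ker m p q + ker n p q
  smul : ∀ (c : ℂ) m p q, ker (c • m) p q = c * ker m p q
  diag : ∀ m p, ker m p p = S.ev m p
  one : ∀ p q, ker 1 p q = if p = q then 1 else 0
  mul_left : ∀ a ∈ A, ∀ m p q, ker (a * m) p q = S.ev a p * ker m p q
  mul : ∀ m p q, ker (x * m) p q = ∑ r ∈ G.ball 1 p, G.a p r * ker m r q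

theorem KC.neg {S : Sp A ξ μ} {G : PG μ} {ker : Al M → X → X → ℂ} {x : Al M}
    (h : KC S G ker x) : KC S G.neg ker (-x) := by
  refine ⟨h.add, h.smul, h.diag, h.one, h.mul_left, fun m p q => ?_⟩
  rw [neg_mul, ← neg_one_smul ℂ (x * m), h.smul, h.mul, PG.neg_ball, PG.neg_a, mul_sum]
  exact sum_congr rfl fun r _ => by ring

omit [TopologicalSpace X] [MeasurableSpace X] in
theorem model_ker_sum {ker : Al M → X → X → ℂ}
    (hadd : ∀ m n p q, ker (m + n) p q = ker m p q + ker n p q)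
    (hsmul : ∀ (c : ℂ) m p q, ker (c • m) p q = c * ker m p q) {α : Type*} (s : Finset α)
    (f : α → Al M) (p q : X) : ker (∑ i ∈ s, f i) p q = ∑ i ∈ s, ker (f i) p q := by
  induction s using Finset.induction_on with
  | empty => simpa using hsmul 0 0 p q
  | insert i s hi ih => rw [sum_insert hi, sum_insert hi, hadd, ih]

theorem model_gen0 {x : Al M} (hx : FinGood A ξ x) :
    ∃ (T : Finset (Al M)) (c : Al M → Al M), (∀ g ∈ T, Good A ξ g) ∧ (∀ g, c g ∈ A) ∧
      (∀ g, g ∉ T → c g = 0) ∧ x = ∑ g ∈ T, c g * g := by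
  induction hx using Submodule.span_induction with
  | mem x hx =>
    obtain ⟨a, ha, g, hg, rfl⟩ := hx
    refine ⟨{g}, fun g' => if g' = g then a else 0, fun g' hg' => by rwa [mem_singleton.1 hg'],
      fun g' => ?_, fun g' hg' => if_neg (by simpa using hg'), by simp⟩
    beta_reduce
    split_ifs
    · exact ha
    · exact zero_mem _
  | zero => exact ⟨∅, 0, by simp, fun _ => zero_mem _, fun _ _ => rfl, by simp⟩
  | add x y _ _ hx hy =>
    obtain ⟨T, c, h1, h2, h3, rfl⟩ := hx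
    obtain ⟨T', c', h1', h2', h3', rfl⟩ := hy
    refine ⟨T ∪ T', fun g => c g + c' g, fun g hg => (mem_union.1 hg).elim (h1 g) (h1' g),
      fun g => add_mem (h2 g) (h2' g), fun g hg => ?_, ?_⟩
    · rw [mem_union, not_or] at hg
      beta_reduce
      rw [h3 g hg.1, h3' g hg.2, add_zero]
    · simp only [add_mul, sum_add_distrib]
      rw [sum_subset subset_union_left fun g _ hg => by rw [h3 g hg, zero_mul],
        sum_subset (s₁ := T') subset_union_right fun g _ hg => by rw [h3' g hg, zero_mul]]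
  | smul r x _ hx =>
    obtain ⟨T, c, h1, h2, h3, rfl⟩ := hx
    refine ⟨T, fun g => r • c g, h1, fun g => SMulMemClass.smul_mem r (h2 g),
      fun g hg => by beta_reduce; rw [h3 g hg, smul_zero], ?_⟩
    simp only [smul_sum, smul_mul_assoc]

/-- A finite symmetric set of generators containing `1`. -/
theorem FinGood.exists_gen (h : Std A ξ) {x : Al M} (hx : FinGood A ξ x) :
    ∃ (T : Finset (Al M)) (c : Al M → Al M), (∀ g ∈ T, Good A ξ g) ∧ 1 ∈ T ∧
      (∀ g ∈ T, star g ∈ T) ∧ (∀ g, c g ∈ A) ∧ x = ∑ g ∈ T, c g * g := by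
  obtain ⟨T, c, h1, h2, h3, rfl⟩ := model_gen0 hx
  refine ⟨insert 1 (T ∪ T.image star), c, fun g hg => ?_, mem_insert_self _ _, fun g hg => ?_, h2,
    sum_subset (subset_union_left.trans (subset_insert _ _)) fun g _ hg => by
      rw [h3 g hg, zero_mul]⟩
  · rcases mem_insert.1 hg with rfl | hg
    · exact Good.of_proj h (one_mem A) (.one _)
    rcases mem_union.1 hg with hg | hg
    · exact h1 g hg
    · obtain ⟨g', hg', rfl⟩ := mem_image.1 hg
      exact (h1 g' hg').star'
  · rcases mem_insert.1 hg with rfl | hg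
    · rw [star_one]
      exact mem_insert_self _ _
    refine mem_insert_of_mem ?_
    rcases mem_union.1 hg with hg | hg
    · exact mem_union_right _ (mem_image_of_mem _ hg)
    · obtain ⟨g', hg', rfl⟩ := mem_image.1 hg
      rw [star_star]
      exact mem_union_left _ hg'

/-- The monoid of good normalisers. -/
def goodMon (h : Std A ξ) : Submonoid (Al M) where
  carrier := {g | Good A ξ g}
  mul_mem' := fun ha hb => Good.mul h ha hb
  one_mem' := Good.of_proj h (one_mem A) (.one _)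

/-- The adjoint in `goodMon`. -/
noncomputable def goodInv (h : Std A ξ) (g : goodMon h) : goodMon h := ⟨star g.1, Good.star' g.2⟩

open scoped Pointwise in
theorem goodInv_mem (h : Std A ξ) {T : Finset (goodMon h)} (hT : ∀ g ∈ T, goodInv h g ∈ T)
    (K : ℕ) : ∀ g ∈ T ^ K, goodInv h g ∈ T ^ K := by
  induction K with
  | zero =>
    intro g hg
    rw [pow_zero, Finset.mem_one] at hg ⊢
    rw [hg]
    exact Subtype.ext (star_one _)
  | succ K ih =>
    intro g hg
    rw [pow_succ] at hg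
    obtain ⟨g₁, h₁, g₂, h₂, rfl⟩ := mem_mul.1 hg
    rw [pow_succ']
    exact mem_mul.2 ⟨_, hT g₂ h₂, _, ih g₁ h₁, Subtype.ext (star_mul _ _).symm⟩

open scoped Pointwise in
/-- The pseudogroup generated by `T`. -/
noncomputable def Sp.pg [CompactSpace X] [T2Space X] [BorelSpace X] [IsFiniteMeasure μ]
    (S : Sp A ξ μ) (B : S.Base) (x : Al M) (T : Finset (goodMon S.std)) (h1 : 1 ∈ T)
    (hT : ∀ g ∈ T, goodInv S.std g ∈ T) (hh : Herm (B.ker x))
    (hs : ∀ ω ω', B.ker x ω ω' ≠ 0 → ∃ g ∈ T, ω ∈ S.dom g.1 ∧ S.act g.1 ω = ω') : PG μ where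
  Γ := goodMon S.std
  dom g := S.dom g.1
  act g := S.act g.1
  inv := goodInv S.std
  W K := T ^ K
  wt := S.wt
  a := B.ker x
  kern g g' := S.ev (star g.1 * x * g'.1)
  dom_clopen g := S.dom_clopen g.2.nor
  act_cont g := S.act_cont g.2.nor
  inv_inv g := Subtype.ext (star_star _)
  inv_mem := goodInv_mem S.std hT
  act_mem g _ hω := S.act_mem g.2.nor hω
  act_inv g _ hω := S.act_inv g.2.nor hω
  coin g g' := S.coin_clopen g.2.nor g'.2.nor
  self_mem K ω := ⟨1, one_mem_pow h1, S.mem_dom_one ω, S.act_one ω⟩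
  zero g hg ω _ := by
    rw [pow_zero, Finset.mem_one] at hg
    rw [hg]
    exact S.act_one ω
  trans m n g hg g' hg' ω h2 h3 := by
    have h4 := (S.mem_dom_mul g.2.nor g'.2.nor).2 ⟨h2, h3⟩
    refine ⟨g' * g, ?_, h4, S.act_mul g.2.nor g'.2.nor h4⟩
    rw [add_comm, pow_add]
    exact mul_mem_mul hg' hg
  wt_pos := S.wt_pos
  wt_self := S.wt_self
  wt_coc g g' _ h2 h3 := S.wt_coc g.2 g'.2 h2 h3
  wt_cont g := S.wt_cont g.2
  mtp g := S.mtp g.2
  herm := hh
  supp ω ω' h := by rw [pow_one]; exact hs ω ω' h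
  kern_cont g g' := ContinuousMap.continuous _
  gauge ω := by
    obtain ⟨γ, h2, h3⟩ := B.gauge ω
    exact ⟨fun g => γ g.1, fun g => h2 _, fun g g' hg hg' => h3 x _ _ g.2 g'.2 hg hg'⟩

open scoped Pointwise in
theorem Sp.mem_pg_W [CompactSpace X] [T2Space X] [BorelSpace X] [IsFiniteMeasure μ]
    (S : Sp A ξ μ) {B : S.Base} {x : Al M} {T : Finset (goodMon S.std)} {h1 : 1 ∈ T}
    {hT : ∀ g ∈ T, goodInv S.std g ∈ T} {hh : Herm (B.ker x)}
    {hs : ∀ ω ω', B.ker x ω ω' ≠ 0 → ∃ g ∈ T, ω ∈ S.dom g.1 ∧ S.act g.1 ω = ω'}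
    {g : goodMon S.std} : g ∈ (S.pg B x T h1 hT hh hs).W 1 ↔ g ∈ T := by
  change g ∈ T ^ 1 ↔ g ∈ T
  rw [pow_one]

theorem model_good_sum [CompactSpace X] [T2Space X] {S : Sp A ξ μ} (B : S.Base) {g : Al M}
    (hg : Good A ξ g) (m : Al M) (p q : X) {s : Finset X}
    (hs : p ∈ S.dom (star g) → S.act (star g) p ∈ s) :
    B.ker (g * m) p q = ∑ r ∈ s, B.ker g p r * B.ker m r q := by
  rw [B.ker_mul_good hg]
  split_ifs with h
  · refine (sum_eq_single_of_mem (f := fun r => B.ker g p r * B.ker m r q) _ (hs h)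
      fun r _ hr => ?_).symm
    by_contra h0
    obtain ⟨h1, h2⟩ := B.ker_ne_zero hg.nor (left_ne_zero_of_mul h0)
    exact hr (by rw [← h2, S.act_inv hg.nor h1])
  · refine (sum_eq_zero fun r _ => ?_).symm
    by_contra h0
    obtain ⟨h1, h2⟩ := B.ker_ne_zero hg.nor (left_ne_zero_of_mul h0)
    exact h (h2 ▸ S.act_mem hg.nor h1)

/-- `Γ` = the submonoid of good normalisers, `W K = T ^ K` (pointwise power of the finset of
generators, `pow_add`, `Finset.mem_mul`; closed under `star` by induction with `pow_succ` and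
`pow_succ'`), `inv = star`, `a = B.ker x`, `kern g g' = ev (g* x g')`. The fields are the lemmas
of `Act` and `Kern`. For `mul`: by linearity reduce to `c g * g` (`ker_mul_left`,
`ker_mul_good`); `ker g p r ≠ 0` forces `r = act g* p ∈ ball 1 p` (`ker_ne_zero`, `act_inv`). -/
theorem Sp.exists_model [CompactSpace X] [T2Space X] [BorelSpace X] [IsFiniteMeasure μ]
    (S : Sp A ξ μ) {x : Al M} (hx : FinGood A ξ x) (hs : IsSelfAdjoint x) (h1 : ‖x‖ ≤ 1)
    (h0 : S.std.E x = 0) : ∃ (G : PG μ) (ker : Al M → X → X → ℂ), KC S G ker x := by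
  obtain ⟨T, c, hT, hT1, hTs, hc, hx'⟩ := hx.exists_gen S.std
  obtain ⟨B⟩ := S.exists_base
  have hker : ∀ m p q, B.ker (x * m) p q = ∑ g ∈ T, S.ev (c g) p * B.ker (g * m) p q := by
    intro m p q
    rw [hx', sum_mul, model_ker_sum B.ker_add B.ker_smul]
    exact sum_congr rfl fun g _ => by rw [mul_assoc, B.ker_mul_left (hc g)]
  have hker' : ∀ p q, B.ker x p q = ∑ g ∈ T, S.ev (c g) p * B.ker g p q := fun p q => by
    simpa only [mul_one] using hker 1 p q
  let T' : Finset (goodMon S.std) := T.subtype (· ∈ goodMon S.std)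
  have hmem : ∀ g : goodMon S.std, g ∈ T' ↔ g.1 ∈ T := fun g => mem_subtype
  refine ⟨S.pg B x T' ((hmem 1).2 hT1) (fun g hg => (hmem _).2 (hTs _ ((hmem g).1 hg)))
    (B.herm hs h1 h0) fun ω ω' h => ?_, B.ker, B.ker_add, B.ker_smul, B.ker_diag, B.ker_one,
    fun a ha => B.ker_mul_left ha, fun m p q => ?_⟩
  · rw [hker'] at h
    obtain ⟨g, hg, h2⟩ := exists_ne_zero_of_sum_ne_zero h
    obtain ⟨h3, h4⟩ := B.ker_ne_zero (hT g hg).nor (right_ne_zero_of_mul h2)
    refine ⟨⟨star g, (hT g hg).star'⟩, (hmem _).2 (hTs g hg), h4 ▸ S.act_mem (hT g hg).nor h3, ?_⟩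
    rw [← h4]
    exact S.act_inv (hT g hg).nor h3
  · change _ = ∑ r ∈ _, B.ker x p r * B.ker m r q
    simp only [hker', sum_mul]
    rw [hker, sum_comm]
    refine sum_congr rfl fun g hg => ?_
    rw [model_good_sum B (hT g hg) m p q, mul_sum]
    · exact sum_congr rfl fun r _ => (mul_assoc _ _ _).symm
    · intro h
      refine PG.mem_ball.2 ⟨⟨star g, (hT g hg).star'⟩, ?_, h, rfl⟩
      exact S.mem_pg_W.2 ((hmem _).2 (hTs g hg))

variable {ι : Type} [Fintype ι] [DecidableEq ι]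

/-- The paved operator without the deleted part. -/
noncomputable def Sp.pv (S : Sp A ξ μ) (σ : X → St ι) (x : Al M) : Al M :=
  ∑ j, S.ind {ω | σ ω = .col j} * x * S.ind {ω | σ ω = .col j}

variable {S : Sp A ξ μ} {G : PG μ} {ker : Al M → X → X → ℂ} {x : Al M} {σ : X → St ι}

theorem KC.pv_mul (h : KC S G ker x) (hσ : IsLocallyConstant σ) (hu : ∀ ω, σ ω ≠ .unc)
    (m : Al M) (p q : X) :
    ker (S.pv σ x * m) p q = ∑ r ∈ G.ball 1 p, yk G.a σ p r * ker m r q := by
  rw [Sp.pv, sum_mul, model_ker_sum h.add h.smul]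
  have e : ∀ j : ι, ker (S.ind {ω | σ ω = .col j} * x * S.ind {ω | σ ω = .col j} * m) p q =
      ∑ r ∈ G.ball 1 p, (if σ p = .col j ∧ σ r = .col j then G.a p r else 0) * ker m r q := by
    intro j
    have hcl : IsClopen {ω | σ ω = .col j} := hσ.isClopen_fiber _
    rw [mul_assoc, mul_assoc, h.mul_left _ (S.ind_mem _), h.mul, mul_sum, S.ev_ind hcl]
    refine sum_congr rfl fun r _ => ?_
    rw [h.mul_left _ (S.ind_mem _), S.ev_ind hcl]
    by_cases h1 : σ p = .col j <;> by_cases h2 : σ r = .col j <;> simp [h1, h2]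
  simp only [e]
  rw [sum_comm]
  refine sum_congr rfl fun r _ => ?_
  rw [← sum_mul]
  congr 1
  rw [yk]
  rcases hp : σ p with _ | i | _
  · exact absurd hp (hu p)
  · rw [sum_eq_single i (fun j _ hj => if_neg fun h' => hj (St.col.inj h'.1).symm) (by simp)]
    simp [eq_comm]
  · simp

omit [Fintype ι] in
theorem model_yk_sum {p : X} {s : Finset X} {f : X → ℂ} (hs : ∀ r ∈ G.ball 1 p, f r ≠ 0 → r ∈ s) :
    ∑ r ∈ G.ball 1 p, yk G.a σ p r * f r = ∑ r ∈ s, yk G.a σ p r * f r := by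
  have h1 : ∀ r, r ∉ G.ball 1 p → yk G.a σ p r = 0 := fun r hr => by
    rw [yk]
    split_ifs
    · by_contra h0
      exact hr (PG.mem_ball_one h0)
    · rfl
  rw [← sum_subset (inter_subset_left (s₂ := s)), sum_subset (inter_subset_right (s₂ := s))]
  · intro r hr hr'
    rw [h1 r fun h => hr' (mem_inter.2 ⟨h, hr⟩), zero_mul]
  · intro r hr hr'
    have : f r = 0 := by
      by_contra h0
      exact hr' (mem_inter.2 ⟨hr, hs r hr h0⟩)
    rw [this, mul_zero]

omit [Fintype ι] in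
theorem model_yk_herm (p r : X) : (starRingEnd ℂ) (yk G.a σ r p) = yk G.a σ p r := by
  rw [yk, yk]
  by_cases h : σ p = σ r
  · rw [h]
    split_ifs
    · exact (G.herm.herm r p).symm
    · exact map_zero _
  · rw [if_neg fun h' => h h'.1.symm, if_neg fun h' => h h'.1, map_zero]

omit [Fintype ι] in
theorem model_vec_sum (ω : X) (j : ℕ) (p : X) :
    ∑ q ∈ G.ball 1 p, yk G.a σ p q * G.vec σ ω j q =
      ∑ q ∈ G.ball j ω, yk G.a σ p q * G.vec σ ω j q :=
  model_yk_sum fun r _ h => by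
    by_contra h'
    exact h (PG.vec_eq_zero σ ω j h')

theorem KC.vec_eq (h : KC S G ker x) (hσ : IsLocallyConstant σ) (hu : ∀ ω, σ ω ≠ .unc) (j : ℕ)
    (p ω : X) : ker ((1 + S.pv σ x) ^ j) p ω = G.vec σ ω j p := by
  induction j generalizing p with
  | zero => rw [pow_zero, h.one, PG.vec]
  | succ j ih =>
    rw [pow_succ', add_mul, one_mul, h.add, h.pv_mul hσ hu, PG.vec]
    simp only [ih]

/-- Induction on `j` (generalising `m`), with `pow_succ`, `pv_mul`, exchange of the sums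
(`ball_symm`, `ball_trans`, `vec_eq_zero`; `yk` is Hermitian and supported on `ball 1`). -/
theorem KC.diag_eq (h : KC S G ker x) (hσ : IsLocallyConstant σ) (hu : ∀ ω, σ ω ≠ .unc) (j : ℕ)
    (m : Al M) (ω : X) : ker ((1 + S.pv σ x) ^ j * m) ω ω =
      ∑ p ∈ G.ball j ω, (starRingEnd ℂ) (G.vec σ ω j p) * ker m p ω := by
  induction j generalizing m with
  | zero => simp [PG.ball_zero, PG.vec]
  | succ j ih =>
    rw [pow_succ, mul_assoc, ih, add_mul, one_mul]
    simp only [h.add, h.pv_mul hσ hu, PG.vec, map_add, mul_add, add_mul, sum_add_distrib]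
    congr 1
    · exact sum_subset (PG.ball_mono j.le_succ ω) fun p _ hp => by
        rw [PG.vec_eq_zero σ ω j hp, map_zero, zero_mul]
    · simp only [model_vec_sum, map_sum, map_mul, model_yk_herm, sum_mul]
      rw [sum_comm]
      refine sum_congr rfl fun p hp => ?_
      rw [model_yk_sum (s := G.ball (j + 1) ω) fun r hr _ => PG.ball_trans hp hr, mul_sum]
      exact sum_congr rfl fun r _ => by ring

/-- `ph_eq`, `diag_eq`, `pv_mul`, `vec_eq`; the inner sums over `ball 1 p` and `ball k ω` agree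
because the summand vanishes outside their intersection. -/
theorem KC.quad_eq [CompactSpace X] [BorelSpace X] [IsFiniteMeasure μ] (h : KC S G ker x)
    (hσ : IsLocallyConstant σ) (hu : ∀ ω, σ ω ≠ .unc) (c : ℝ) (k : ℕ) :
    (ph ξ ((1 + S.pv σ x) ^ k * ((S.pv σ x - (c : ℂ) • 1) * (1 + S.pv σ x) ^ k))).re =
      ∫ ω, G.quad σ c k ω ∂μ := by
  have hi : Integrable
      (S.ev ((1 + S.pv σ x) ^ k * ((S.pv σ x - (c : ℂ) • 1) * (1 + S.pv σ x) ^ k))) μ :=
    (ContinuousMap.continuous _).integrable_of_hasCompactSupport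
      (HasCompactSupport.of_compactSpace _)
  rw [S.ph_eq]
  refine (integral_re hi).symm.trans (integral_congr_ae (Eventually.of_forall fun ω => ?_))
  have e : (S.pv σ x - (c : ℂ) • 1) * (1 + S.pv σ x) ^ k =
      S.pv σ x * (1 + S.pv σ x) ^ k + (-(c : ℂ)) • (1 + S.pv σ x) ^ k := by
    rw [sub_mul, smul_mul_assoc, one_mul, neg_smul, sub_eq_add_neg]
  have e2 : ∀ z : ℂ, (starRingEnd ℂ) z * (-(c : ℂ) * z) = ((-(c * ‖z‖ ^ 2) : ℝ) : ℂ) := fun z => by
    rw [mul_left_comm, Complex.conj_mul']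
    push_cast
    ring
  beta_reduce
  rw [← h.diag, h.diag_eq hσ hu, e]
  simp only [h.add, h.smul, h.pv_mul hσ hu, h.vec_eq hσ hu, model_vec_sum, mul_add,
    sum_add_distrib, e2]
  rw [PG.quad, ← Complex.ofReal_sum, sum_neg_distrib, ← mul_sum]
  simp only [mul_sum, mul_assoc]
  rw [RCLike.re_to_complex, Complex.add_re, Complex.ofReal_re, sub_eq_add_neg]

end Crest.Agent.R109
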