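import Crest.Agent.R109.NCut
import Crest.Agent.R109.NGns

/-!
# R109/N: normal and singular part of a central functional
-/

set_option autoImplicit false
open Filter Topology
open scoped InnerProductSpace

namespace Crest.Agent.R109
open Crest.Agent.R121

universe u
variable {H : Type u} [NormedAddCommGroup H] [InnerProductSpace ℂ H] [CompleteSpace H]
variable {M : VonNeumannAlgebra H} {A : StarSubalgebra ℂ (Al M)}
variable {K : Type*} [NormedAddCommGroup K] [InnerProductSpace ℂ K] [CompleteSpace K]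
variable {κ : Type*} [Fintype κ]

variable {ρ : Al M →⋆ₐ[ℂ] (K →L[ℂ] K)} {η ζ : K}

/-- The normal vectors form a closed subspace (`ε/3`: for `F = ⊥` trivial; otherwise
`‖y‖ ≤ r` by `WL.norm_le` and `‖⟪v - v', ρ m η⟫‖ ≤ ‖v - v'‖ r ‖η‖`). -/
theorem exists_nmlSub (ρ : Al M →⋆ₐ[ℂ] (K →L[ℂ] K)) (η : K) :
    ∃ N : Submodule ℂ K, IsClosed (N : Set K) ∧
      ∀ v, v ∈ N ↔ Nml fun m => ⟪v, ρ m η⟫_ℂ := by
  refine ⟨{ carrier := {v | Nml fun m => ⟪v, ρ m η⟫_ℂ}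
            add_mem' := fun hv hw => by simpa only [Set.mem_ofPred_eq, inner_add_left] using hv.add hw
            zero_mem' := fun F y r _ _ => by simpa only [inner_zero_left] using tendsto_const_nhds
            smul_mem' := fun c v hv => by
              simpa only [Set.mem_ofPred_eq, inner_smul_left] using hv.const_mul _ }, ?_,
    fun _ => Iff.rfl⟩
  refine isClosed_of_closure_subset fun v hv F y r hb hx => ?_
  rcases F.eq_or_neBot with rfl | hF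
  · exact tendsto_bot
  have hy : ‖y‖ ≤ r := hx.norm_le hb
  have hr : 0 ≤ r := (norm_nonneg _).trans hy
  rw [Metric.tendsto_nhds]
  intro ε hε
  obtain ⟨w, hw, hd⟩ := Metric.mem_closure_iff.1 hv (ε / 3 / (r * ‖η‖ + 1)) (by positivity)
  rw [dist_eq_norm, lt_div_iff₀ (by positivity)] at hd
  have key : ∀ m : Al M, ‖m‖ ≤ r → dist ⟪v, ρ m η⟫_ℂ ⟪w, ρ m η⟫_ℂ ≤ ε / 3 := fun m hm => by
    rw [dist_eq_norm, ← inner_sub_left]
    have h1 := (rep_norm_le ρ m η).trans (mul_le_mul_of_nonneg_right hm (norm_nonneg _))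
    have h2 := (norm_inner_le_norm (𝕜 := ℂ) (v - w) (ρ m η)).trans
      (mul_le_mul_of_nonneg_left h1 (norm_nonneg _))
    nlinarith [norm_nonneg (v - w)]
  filter_upwards [hb, Metric.tendsto_nhds.1 (hw F y r hb hx) (ε / 3) (by positivity)] with m h1 h2
  have h3 := key y hy
  rw [dist_comm] at h3
  linarith [key m h1, dist_triangle4 ⟪v, ρ m η⟫_ℂ ⟪w, ρ m η⟫_ℂ ⟪w, ρ y η⟫_ℂ ⟪v, ρ y η⟫_ℂ]

/-- Normal part.  `N` from `exists_nmlSub` is invariant under all `ρ a` (`rep_inner`, `Nml.mul`),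
so is `Nᗮ`, hence `P = N.starProjection` commutes with `ρ a`; `ζ = P η`.  For `v ∈ N`,
`⟪v, ρ m ζ⟫ = ⟪v, P (ρ m η)⟫ = ⟪v, ρ m η⟫`; in particular `ζ` is normal.  Centrality
(`Cen.of_proj`): for a projection `p ∈ A` let `s = p + p - 1`, `star s = s`, `s s = 1`;
`‖ρ (s m s) η‖ ≤ ‖ρ (m s) η‖ = ‖ρ m η‖` (`Cen.norm_sq`), so `exists_riesz` gives `v`, `‖v‖ ≤ ‖ζ‖`,
`⟪v, ρ m η⟫ = ⟪ζ, ρ (s m s) η⟫`.  Then `v ∈ N`, `⟪v, ζ⟫ = ⟪v, η⟫ = ⟪ζ, η⟫ = ‖ζ‖²`, so
`‖v - ζ‖² ≤ 0`, `v = ζ`: `φ(s m s) = φ(m)`; with `s m` for `m`: `φ(m s) = φ(s m)`. -/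
theorem exists_dec (hA : Masa A) (hη : Cen A ρ η) :
    ∃ ζ : K, (Nml fun m => ⟪ζ, ρ m ζ⟫_ℂ) ∧ Cen A ρ ζ ∧
      ∀ v : K, (Nml fun m => ⟪v, ρ m η⟫_ℂ) → ∀ m, ⟪v, ρ m η⟫_ℂ = ⟪v, ρ m ζ⟫_ℂ := by
  obtain ⟨N, hcl, hN⟩ := exists_nmlSub ρ η
  have : CompleteSpace N := hcl.completeSpace_coe
  have hinv : ∀ (a : Al M), ∀ v ∈ N, ρ a v ∈ N := fun a v hv => by
    rw [hN] at hv ⊢
    simpa only [rep_inner, ← rep_mul, mul_one] using hv.mul (star a) 1
  have hζ : N.starProjection η ∈ N := N.starProjection_apply_mem η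
  set ζ := N.starProjection η with hζd
  have key : ∀ v ∈ N, ∀ m, ⟪v, ρ m η⟫_ℂ = ⟪v, ρ m ζ⟫_ℂ := fun v hv m => by
    rw [← sub_eq_zero, ← inner_sub_right, ← map_sub, ← star_star m, ← rep_inner]
    exact Submodule.inner_right_of_mem_orthogonal (hinv _ v hv)
      (N.sub_starProjection_mem_orthogonal η)
  have hn : Nml fun m => ⟪ζ, ρ m η⟫_ℂ := (hN ζ).1 hζ
  refine ⟨ζ, by simpa only [key ζ hζ] using hn, Cen.of_proj hA fun p hpA hp m => ?_,
    fun v hv => key v ((hN v).2 hv)⟩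
  set s : Al M := p + p - 1 with hs
  have hu := proj_symm_mem hp
  have hss : star s = s := by rw [hs, star_sub, star_add, proj_star hp, star_one]
  have hs1 : s * s = 1 := by
    have := Unitary.mul_star_self_of_mem hu
    rwa [← hs, hss] at this
  have hsA : s ∈ A := sub_mem (add_mem hpA hpA) (one_mem _)
  let j : Al M →ₗ[ℂ] K :=
    { toFun := fun m => ρ m η
      map_add' := fun a b => by rw [map_add]; rfl
      map_smul' := fun c a => by rw [map_smul]; rfl }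
  let l : Al M →ₗ[ℂ] ℂ := (innerSL ℂ ζ).toLinearMap ∘ₗ j ∘ₗ LinearMap.mulRight ℂ s ∘ₗ
    LinearMap.mulLeft ℂ s
  have hl : ∀ m, l m = ⟪ζ, ρ (s * m * s) η⟫_ℂ := fun m => rfl
  obtain ⟨v, hv1, hv2⟩ := exists_riesz j l (norm_nonneg ζ) fun m => by
    rw [hl]
    refine (norm_inner_le_norm _ _).trans (mul_le_mul_of_nonneg_left ?_ (norm_nonneg _))
    have h1 : ‖ρ (m * s) η‖ = ‖ρ m η‖ := by
      have := hη.norm_sq m hsA
      rw [hss, hs1, mul_one, ← rep_norm_sq] at this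
      exact (pow_left_inj₀ (norm_nonneg _) (norm_nonneg _) two_ne_zero).1 this
    rw [mul_assoc, rep_mul]
    refine (rep_norm_le ρ s _).trans ?_
    rw [h1]
    exact mul_le_of_le_one_left (norm_nonneg _) (unitary_norm_le hu)
  have hv3 : ∀ m, ⟪v, ρ m η⟫_ℂ = ⟪ζ, ρ (s * m * s) η⟫_ℂ := hv2
  have hvN : v ∈ N := (hN v).2 (by simpa only [hv3] using hn.mul s s)
  have h2 : ⟪v, ζ⟫_ℂ = ⟪ζ, ζ⟫_ℂ := by
    have h3 := hv3 1
    rw [key v hvN, key ζ hζ, mul_one, hs1, map_one] at h3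
    exact h3
  have h4 : v = ζ := by
    rw [← sub_eq_zero, ← norm_eq_zero, ← sq_eq_zero_iff]
    refine le_antisymm ?_ (sq_nonneg _)
    rw [@norm_sub_sq ℂ, h2, inner_self_eq_norm_sq]
    nlinarith [norm_nonneg v]
  have h5 := hv3 (s * m)
  rw [h4, ← mul_assoc, hs1, one_mul, key ζ hζ, key ζ hζ, hs] at h5
  simp only [sub_mul, mul_sub, add_mul, mul_add, map_sub, map_add, one_mul, mul_one,
    sub_apply, add_apply, inner_sub_right,
    inner_add_right] at h5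
  linear_combination h5 / 2

/-- Singular part.  In `E = K × PiLp 2 (fun _ : κ => H)` let `L` be the real subspace of all
`(ρ (g f g) η, J ξ (g * star f * g))`.  If `(0, J ξ g) ∈ closure L` take `g f g`
(`g - star (g f g) = g - g f* g`).  Otherwise `RCLike.geometric_hahn_banach_closed_point` (the
closure of a convex set is convex) gives `Φ : E →L[ℂ] ℂ`, `u` with `re Φ < u` on `L` (so
`re Φ = 0` on `L` by scaling, `0 < u`) and `u < re Φ (0, J ξ g)`.  Let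
`l f = Φ (ρ (g f g) η, 0)`, `l' f = Φ (0, J ξ (g f g)) = ⟪w, J ξ (g f g)⟫` (`toDual`).  From
`re (l f + l' (star f)) = 0` for `f` and `I • f`: `l f = - conj (l' (star f))`, which is normal
(`nml_J`, `Nml.mul`, `Nml.star`, `Nml.const_mul`).  `‖l f‖ ≤ ‖Φ‖ ‖ρ (g f g) η‖ ≤ ‖Φ‖ ‖ρ f η‖`
(`Cen.norm_proj_le`), so `l f = ⟪v, ρ f η⟫` (`exists_riesz`), and
`l 1 = l g = ⟪v, ρ g η⟫ = ⟪v, ρ g ζ⟫ = 0`, whereas `re (l 1) = - re Φ (0, J ξ g) < 0`. -/
theorem exists_sing (hη : Cen A ρ η)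
    (h : ∀ v : K, (Nml fun m => ⟪v, ρ m η⟫_ℂ) → ∀ m, ⟪v, ρ m η⟫_ℂ = ⟪v, ρ m ζ⟫_ℂ)
    {g : Al M} (hgA : g ∈ A) (hg : IsStarProjection g) (hgζ : ρ g ζ = 0) (ξ : κ → H)
    {ε : ℝ} (hε : 0 < ε) :
    ∃ f : Al M, g * f = f ∧ f * g = f ∧ ‖ρ f η‖ ≤ ε ∧ ‖J ξ (g - star f)‖ ≤ ε := by
  let j : Al M →ₗ[ℂ] K :=
    { toFun := fun m => ρ m η
      map_add' := fun a b => by rw [map_add]; rfl
      map_smul' := fun c a => by rw [map_smul]; rfl }
  let c : Al M →ₗ[ℂ] Al M := LinearMap.mulRight ℂ g ∘ₗ LinearMap.mulLeft ℂ g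
  have hc : ∀ f, c f = g * f * g := fun _ => rfl
  let Λ : Al M → K × PiLp 2 (fun _ : κ => H) := fun f => (j (c f), J ξ (c (star f)))
  have hadd : ∀ f f', Λ (f + f') = Λ f + Λ f' := fun f f' => by
    simp only [Λ, star_add, map_add, Prod.mk_add_mk]
  have hsm : ∀ (t : ℝ) f, Λ ((t : ℂ) • f) = (t : ℂ) • Λ f := fun t f => by
    simp only [Λ, star_smul, map_smul, Complex.star_def, Complex.conj_ofReal, Prod.smul_mk]
  by_cases hcl : ((0 : K), J ξ g) ∈ closure (Set.range Λ)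
  · obtain ⟨_, ⟨f, rfl⟩, hd⟩ := Metric.mem_closure_iff.1 hcl ε hε
    rw [Prod.dist_eq, max_lt_iff, dist_zero_left, dist_eq_norm, ← map_sub] at hd
    refine ⟨g * f * g, by rw [← mul_assoc, ← mul_assoc, proj_mul_self hg],
      by rw [mul_assoc _ g g, proj_mul_self hg], hd.1.le, ?_⟩
    rw [star_mul, star_mul, proj_star hg, ← mul_assoc]
    exact hd.2.le
  exfalso
  have hconv : Convex ℝ (Set.range Λ) := by
    rintro _ ⟨f, rfl⟩ _ ⟨f', rfl⟩ a b - - -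
    exact ⟨(a : ℂ) • f + (b : ℂ) • f', by
      rw [hadd, hsm, hsm, Complex.coe_smul, Complex.coe_smul]⟩
  obtain ⟨Φ, u, h1, h2⟩ := RCLike.geometric_hahn_banach_closed_point (𝕜 := ℂ) hconv.closure
    isClosed_closure hcl
  have h3 : ∀ f, (Φ (Λ f)).re < u := fun f => h1 _ (subset_closure ⟨f, rfl⟩)
  have h4 : ∀ f, (Φ (Λ f)).re = 0 := fun f => by
    by_contra h0
    have := h3 (((u / (Φ (Λ f)).re : ℝ) : ℂ) • f)
    rw [hsm, map_smul, smul_eq_mul, Complex.re_ofReal_mul, div_mul_cancel₀ _ h0] at this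
    exact lt_irrefl _ this
  have hu : 0 < u := by rw [← h4 0]; exact h3 0
  let l : Al M →ₗ[ℂ] ℂ := Φ.toLinearMap ∘ₗ LinearMap.inl ℂ _ _ ∘ₗ j ∘ₗ c
  obtain ⟨w, hw⟩ := (InnerProductSpace.toDual ℂ (PiLp 2 fun _ : κ => H)).surjective
    (Φ ∘L ContinuousLinearMap.inr ℂ _ _)
  have hw' : ∀ z, Φ (0, z) = ⟪w, z⟫_ℂ := fun z =>
    (congrArg (fun T : PiLp 2 (fun _ : κ => H) →L[ℂ] ℂ => T z) hw).symm
  have h5 : ∀ f, Φ (Λ f) = l f + ⟪w, J ξ (c (star f))⟫_ℂ := fun f => by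
    rw [← hw']
    change _ = Φ (j (c f), 0) + _
    rw [← map_add, Prod.mk_add_mk, add_zero, zero_add]
  have h6 : ∀ f, l f = -1 * (starRingEnd ℂ) ⟪w, J ξ (c (star f))⟫_ℂ := fun f => by
    have e1 := h4 f
    have e2 := h4 (Complex.I • f)
    rw [h5] at e1 e2
    rw [map_smul, star_smul, map_smul, map_smul, inner_smul_right] at e2
    generalize ⟪w, J ξ (c (star f))⟫_ℂ = z at e1 e2 ⊢
    apply Complex.ext
    · simp at e1 ⊢; linarith
    · simp at e2 ⊢; linarith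
  obtain ⟨v, -, hv⟩ := exists_riesz j l (norm_nonneg Φ) fun m => by
    refine (Φ.le_opNorm (j (c m), 0)).trans (mul_le_mul_of_nonneg_left ?_ (norm_nonneg _))
    rw [Prod.norm_mk, norm_zero, max_eq_left (norm_nonneg _)]
    change ‖ρ (g * m * g) η‖ ≤ ‖ρ m η‖
    rw [mul_assoc, rep_mul]
    exact (rep_norm_le ρ g _).trans ((mul_le_of_le_one_left (norm_nonneg _)
      (proj_norm_le hg)).trans (hη.norm_proj_le m hgA hg))
  have hv' : ∀ m, ⟪v, ρ m η⟫_ℂ = l m := hv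
  have h7 := h v (by
    simp only [hv', h6, hc]
    exact (((nml_J ξ w).mul g g).star).const_mul _) g
  rw [hgζ, inner_zero_right, hv', h6, hc, proj_star hg, proj_mul_self hg, proj_mul_self hg,
    ← hw'] at h7
  have h8 := congrArg Complex.re h7
  simp at h8 h2
  linarith

/-- `re ⟪J ξ 1, J ξ (Ep s (m* m))⟫ = ∑ ‖J ξ (m * s k)‖²` (`J_adj`, `spec_J_sq`). -/
theorem Ptn.re_J_Ep {ι : Type*} [Fintype ι] {s : ι → Al M} (h : Ptn A s) (ξ : κ → H) (m : Al M) :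
    ⟪J ξ (1 : Al M), J ξ (Ep s (star m * m))⟫_ℂ = ((∑ k, ‖J ξ (m * s k)‖ ^ 2 : ℝ) : ℂ) := by
  rw [Ep, map_sum, inner_sum, Complex.ofReal_sum]
  refine Finset.sum_congr rfl fun k _ => ?_
  have e : s k * (star m * m) * s k = star (m * s k) * (m * s k) := by
    rw [star_mul, proj_star (h.proj k)]; noncomm_ring
  rw [e, ← J_adj, mul_one, inner_self_eq_norm_sq_to_K]
  norm_cast

/-- Given `γ`, let `c = min 1 (γ / 2)`-ish and `f` from `h` with tiny `ε`.  By `N.lim`,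
`WL.tendsto_inner_J` and `Ptn.re_J_Ep` some `s = N.s i` has `∑ ‖J ξ (f * s k)‖² ≤ 2 ε`.
`multi_cut` for the family `Option.elim · (g - star f) (fun k => f * s k)` (`s k` commutes with
`g ∈ A`) gives `q ≤ g` with `‖f s_k q‖ ≤ c`, `‖(g - f*) q‖ ≤ c`, `c² ‖J ξ (g - q)‖² ≤ 2 ε + ε²`.
`q s_k q = q (g - f) s_k q + q f s_k q` has norm `≤ 2 c` (`‖q (g - f)‖ = ‖star _‖`), and
`‖s_k q‖² = ‖q s_k q‖` (C*-identity).  Take `c = γ² / 2`. -/
theorem thin_of_sing (hA : Masa A) (N : Net A) (ξ : κ → H) {g : Al M} (hgA : g ∈ A)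
    (hg : IsStarProjection g) (h : ∀ ε : ℝ, 0 < ε → ∃ f : Al M, g * f = f ∧ f * g = f ∧
      (⟪J ξ (1 : Al M), J ξ (N.E (star f * f))⟫_ℂ).re ≤ ε ∧ ‖J ξ (g - star f)‖ ≤ ε) :
    Thin A ξ g := by
  intro γ hγ
  obtain ⟨c, hc⟩ : ∃ c : ℝ, c = γ ^ 2 / 2 := ⟨_, rfl⟩
  have hc0 : 0 < c := by rw [hc]; positivity
  obtain ⟨ε, hε0, hε1, hε2⟩ : ∃ ε : ℝ, 0 < ε ∧ ε ≤ 1 ∧ 3 * ε ≤ c ^ 2 * γ ^ 2 :=
    ⟨min 1 (c ^ 2 * γ ^ 2 / 3), by positivity, min_le_left _ _,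
      by linarith [min_le_right 1 (c ^ 2 * γ ^ 2 / 3)]⟩
  obtain ⟨f, hgf, hfg, h1, h2⟩ := h ε hε0
  have h3 := (Complex.continuous_re.tendsto _).comp
    ((N.lim (star f * f)).tendsto_inner_J ξ (J ξ (1 : Al M)))
  obtain ⟨i, hi⟩ := (h3.eventually (gt_mem_nhds (a := 2 * ε) (by linarith))).exists
  simp only [Function.comp_apply, (N.ptn i).re_J_Ep, Complex.ofReal_re] at hi
  have hs := N.ptn i
  set s := N.s i
  have hfg' : star f * g = star f := by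
    simpa only [star_mul, proj_star hg] using congrArg star hgf
  obtain ⟨q, hq, hgq, hq1, hq2⟩ := multi_cut
    (fun o : Option (Fin (N.n i)) => o.elim (g - star f) fun k => f * s k) hg (by
      rintro (_ | k)
      · simp only [Option.elim_none]
        rw [sub_mul, proj_mul_self hg, hfg']
      · simp only [Option.elim_some]
        rw [mul_assoc, hA.comm _ (hs.mem k) g hgA, ← mul_assoc, hfg]) hc0.le ξ
  rw [Fintype.sum_option] at hq2
  simp only [Option.elim_none, Option.elim_some] at hq2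
  refine ⟨Fin (N.n i), inferInstance, s, q, hs, hq, hgq, ?_, fun k => ?_⟩
  · have h4 : ‖J ξ (g - star f)‖ ^ 2 ≤ ε := by nlinarith [norm_nonneg (J ξ (g - star f))]
    refine (abs_le_of_sq_le_sq' (le_of_mul_le_mul_left ?_ (pow_pos hc0 2)) hγ.le).2
    linarith
  · have h4 : ‖(g - star f) * q‖ ≤ c := hq1 none
    have h5 : ‖f * s k * q‖ ≤ c := hq1 (some k)
    rw [← norm_star, star_mul, star_sub, star_star, proj_star hg, proj_star hq] at h4
    have e : star (s k * q) * (s k * q) = q * (g - f) * (s k * q) + q * (f * s k * q) := by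
      rw [star_mul, proj_star hq, proj_star (hs.proj k), mul_assoc, proj_mul_self_left (hs.proj k),
        mul_sub, proj_le_comm hg hq hgq]
      noncomm_ring
    have h6 : ‖s k * q‖ ≤ 1 := (norm_mul_le _ _).trans
      (mul_le_one₀ (proj_norm_le (hs.proj k)) (norm_nonneg _) (proj_norm_le hq))
    have h7 : ‖q * (g - f) * (s k * q)‖ ≤ c := (norm_mul_le _ _).trans
      ((mul_le_of_le_one_right (norm_nonneg _) h6).trans h4)
    have h8 : ‖q * (f * s k * q)‖ ≤ c := (norm_mul_le _ _).trans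
      ((mul_le_of_le_one_left (norm_nonneg _) (proj_norm_le hq)).trans h5)
    have h9 := CStarRing.norm_star_mul_self (x := s k * q)
    rw [e] at h9
    refine (abs_le_of_sq_le_sq' ?_ hγ.le).2
    linarith [norm_add_le (q * (g - f) * (s k * q)) (q * (f * s k * q)), sq ‖s k * q‖]

/-- The dichotomy.  `ψ m = ⟪J ξ 1, J ξ (N.E m)⟫` is positive (limit of `Ptn.re_J_Ep`) and central
(`N.cen`); `exists_gns`, `exists_dec`, `exists_supp`, `exists_sing` with `g = 1 - e`,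
`rep_norm_sq`, `thin_of_sing`. -/
theorem dichotomy (hA : Masa A) (ξ : κ → H) :
    ∃ (K : Type u) (_ : NormedAddCommGroup K) (_ : InnerProductSpace ℂ K) (_ : CompleteSpace K)
      (ρ : Al M →⋆ₐ[ℂ] (K →L[ℂ] K)) (ζ : K) (e : Al M),
      (Nml fun m => ⟪ζ, ρ m ζ⟫_ℂ) ∧ Cen A ρ ζ ∧ Supp A ρ ζ e ∧ Thin A ξ (1 - e) := by
  obtain ⟨N⟩ := exists_net hA
  let ψ : Al M →ₗ[ℂ] ℂ := (innerSL ℂ (J ξ (1 : Al M))).toLinearMap ∘ₗ J ξ ∘ₗ N.E
  have hψ : ∀ m, ψ m = ⟪J ξ (1 : Al M), J ξ (N.E m)⟫_ℂ := fun _ => rfl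
  obtain ⟨K, _, _, _, ρ, η, -, hη⟩ := exists_gns ψ fun b => by
    have h1 := (N.lim (star b * b)).tendsto_inner_J ξ (J ξ (1 : Al M))
    simp only [(N.ptn _).re_J_Ep] at h1
    refine ⟨ge_of_tendsto' ((Complex.continuous_re.tendsto _).comp h1) fun i => ?_,
      tendsto_nhds_unique ((Complex.continuous_im.tendsto _).comp h1) ?_⟩
    · simp only [Function.comp_apply, Complex.ofReal_re]
      positivity
    · simpa only [Function.comp_def, Complex.ofReal_im] using tendsto_const_nhds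
  have hc : Cen A ρ η := fun a ha m => by rw [hη, hη, hψ, hψ, N.cen a ha]
  obtain ⟨ζ, hn, hcζ, h⟩ := exists_dec hA hc
  obtain ⟨e, he⟩ := exists_supp hA hn hcζ
  have hgA : 1 - e ∈ A := sub_mem (one_mem _) he.mem
  refine ⟨K, _, _, ‹_›, ρ, ζ, e, hn, hcζ, he, thin_of_sing hA N ξ hgA he.proj.one_sub
    fun ε hε => ?_⟩
  obtain ⟨f, h1, h2, h3, h4⟩ := exists_sing hc h hgA he.proj.one_sub
    (by rw [map_sub, map_one, sub_apply, he.fix]; exact sub_self _) ξ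
    (lt_min hε one_pos)
  refine ⟨f, h1, h2, ?_, h4.trans (min_le_left _ _)⟩
  rw [← hψ, ← hη, ← rep_norm_sq]
  nlinarith [h3.trans (min_le_left _ _), h3.trans (min_le_right _ _), norm_nonneg (ρ f η)]

end Crest.Agent.R109
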