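import Crest.Agent.R109.Std

/-!
# R109, part N (owner helper25): from `ce` to the two paving theorems.  Definitions.

Plan.  `E` = weak limit of the pinchings `Ep (s i)` along an ultrafilter of finer and finer
partitions (`Net`), `ψ = ω_ξ ∘ E` is an `A`-central positive functional, `(K, ρ, η)` its GNS
triple, `ζ` the projection of `η` on the closed subspace of normal vectors, `e ∈ A` the support of
`ζ`.  On `e` there is a standard model (`exists_model`) and `ce` applies.  On `g = 1 - e` the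
functional `ψ` is singular, which gives `Thin A ξ g`; random colourings pave a thin corner.
-/

set_option autoImplicit false
open Filter Topology
open scoped InnerProductSpace

namespace Crest.Agent.R109
open Crest.Agent.R121

universe u
variable {H : Type u} [NormedAddCommGroup H] [InnerProductSpace ℂ H] [CompleteSpace H]
variable {M : VonNeumannAlgebra H}
variable {K : Type*} [NormedAddCommGroup K] [InnerProductSpace ℂ K] [CompleteSpace K]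
variable {κ : Type*} [Fintype κ]

/-- Normal functional: weakly continuous on bounded sets. -/
def Nml (φ : Al M → ℂ) : Prop :=
  ∀ (F : Filter (Al M)) (y : Al M) (r : ℝ), (∀ᶠ m in F, ‖m‖ ≤ r) → WL F id y →
    Tendsto φ F (𝓝 (φ y))

/-- The vector functional of `ζ` in the representation `ρ` is `A`-central. -/
def Cen (A : StarSubalgebra ℂ (Al M)) (ρ : Al M →⋆ₐ[ℂ] (K →L[ℂ] K)) (ζ : K) : Prop :=
  ∀ a ∈ A, ∀ m : Al M, ⟪ζ, ρ (a * m) ζ⟫_ℂ = ⟪ζ, ρ (m * a) ζ⟫_ℂ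

/-- `e ∈ A` is the support of the vector `ζ`. -/
structure Supp (A : StarSubalgebra ℂ (Al M)) (ρ : Al M →⋆ₐ[ℂ] (K →L[ℂ] K)) (ζ : K)
    (e : Al M) : Prop where
  mem : e ∈ A
  proj : IsStarProjection e
  fix : ρ e ζ = ζ
  sep : ∀ m : Al M, ρ m ζ = 0 → m * e = 0

/-- A weak limit `E` of pinchings, with values in `A` and `A`-central. -/
structure Net (A : StarSubalgebra ℂ (Al M)) where
  ι : Type u
  U : Ultrafilter ι
  n : ι → ℕ
  s : ∀ i, Fin (n i) → Al M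
  E : Al M →ₗ[ℂ] Al M
  ptn : ∀ i, Ptn A (s i)
  lim : ∀ m, WL (U : Filter ι) (fun i => Ep (s i) m) (E m)
  mem : ∀ m, E m ∈ A
  cen : ∀ a ∈ A, ∀ m, E (a * m) = E (m * a)

/-- The corner `g` is thin: all atoms of some partition are almost orthogonal to a projection
`q ≤ g` that is almost `g` on the vectors `ξ`. -/
def Thin (A : StarSubalgebra ℂ (Al M)) (ξ : κ → H) (g : Al M) : Prop :=
  ∀ γ : ℝ, 0 < γ → ∃ (σ : Type) (_ : Fintype σ) (s : σ → Al M) (q : Al M), Ptn A s ∧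
    IsStarProjection q ∧ g * q = q ∧ ‖J ξ (g - q)‖ ≤ γ ∧ ∀ k, ‖s k * q‖ ≤ γ

/-- so-paving of `x` in the corner `e`, with colours `ι`. -/
def SO (A : StarSubalgebra ℂ (Al M)) (ξ : κ → H) (x e : Al M) (ι : Type) [Fintype ι]
    (ε δ : ℝ) : Prop :=
  ∃ p : ι → Al M, Ptn A p ∧ ∃ a ∈ A, IsSelfAdjoint a ∧ ‖a‖ ≤ 1 ∧ ∃ q : Al M,
    IsStarProjection q ∧ e * q = q ∧ ‖J ξ (e - q)‖ ≤ δ ∧ ‖q * (Ep p x - a) * q‖ ≤ ε

/-- ap-paving of `x` in the corner `e`, with colours `ι` (the approximant is `x - d`). -/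
def AP (A : StarSubalgebra ℂ (Al M)) (ξ : κ → H) (x e : Al M) (ι : Type) [Fintype ι]
    (ε δ : ℝ) : Prop :=
  ∃ p : ι → Al M, Ptn A p ∧ ∃ a ∈ A, IsSelfAdjoint a ∧ ∃ d : Al M,
    IsSelfAdjoint d ∧ e * d = d ∧ ‖d‖ ≤ 2 ∧ ‖J ξ d‖ ≤ δ ∧ ‖e * (Ep p (x - d) - a) * e‖ ≤ ε

theorem J_le (ξ : κ → H) (a : Al M) : ‖J ξ a‖ ≤ ‖a‖ * ‖J (M := M) ξ 1‖ := by
  simpa using J_mul_le ξ a 1

theorem ap_le_J (ξ : κ → H) (a : Al M) (i : κ) : ‖ap a (ξ i)‖ ≤ ‖J ξ a‖ :=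
  PiLp.norm_apply_le (J ξ a) i

theorem J_proj_le (ξ : κ → H) {p : Al M} (hp : IsStarProjection p) (a : Al M) :
    ‖J ξ (p * a)‖ ≤ ‖J ξ a‖ :=
  (J_mul_le ξ p a).trans (mul_le_of_le_one_left (norm_nonneg _) (proj_norm_le hp))

/-- Pythagoras for `J`. -/
theorem Ptn.sum_J {A : StarSubalgebra ℂ (Al M)} {ι : Type*} [Fintype ι] {p : ι → Al M}
    (h : Ptn A p) (ξ : κ → H) (m : Al M) : ∑ i, ‖J ξ (p i * m)‖ ^ 2 = ‖J ξ m‖ ^ 2 := by
  simp only [norm_J_sq, ap_mul]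
  rw [Finset.sum_comm]
  exact Finset.sum_congr rfl fun k _ => h.sum_norm_sq _

theorem Nml.tendsto {φ : Al M → ℂ} (h : Nml φ) {ι : Type*} {F : Filter ι} {x : ι → Al M}
    {y : Al M} {r : ℝ} (hb : ∀ᶠ i in F, ‖x i‖ ≤ r) (hx : WL F x y) :
    Tendsto (fun i => φ (x i)) F (𝓝 (φ y)) :=
  h (F.map x) y r hb fun ξ η => hx ξ η

theorem Nml.mul {φ : Al M → ℂ} (h : Nml φ) (a b : Al M) : Nml fun m => φ (a * m * b) :=
  fun _ _ r hb hx => h.tendsto (r := ‖a‖ * r * ‖b‖) (hb.mono fun _ hm =>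
    (norm_mul_le _ _).trans (mul_le_mul_of_nonneg_right ((norm_mul_le _ _).trans
      (mul_le_mul_of_nonneg_left hm (norm_nonneg _))) (norm_nonneg _)))
    ((hx.mul_left a).mul_right b)

theorem Nml.star {φ : Al M → ℂ} (h : Nml φ) : Nml fun m => (starRingEnd ℂ) (φ (star m)) :=
  fun _ _ r hb hx => (Complex.continuous_conj.tendsto _).comp
    (h.tendsto (r := r) (hb.mono fun m hm => by rwa [norm_star]) hx.star)

theorem Nml.const_mul {φ : Al M → ℂ} (h : Nml φ) (c : ℂ) : Nml fun m => c * φ m :=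
  fun F y r hb hx => (h F y r hb hx).const_mul c

theorem Nml.add {φ φ' : Al M → ℂ} (h : Nml φ) (h' : Nml φ') : Nml fun m => φ m + φ' m :=
  fun F y r hb hx => (h F y r hb hx).add (h' F y r hb hx)

theorem nml_J (ξ : κ → H) (v : PiLp 2 (fun _ : κ => H)) :
    Nml fun m : Al M => ⟪v, J ξ m⟫_ℂ := fun _ _ _ _ hx => hx.tendsto_inner_J ξ v

theorem rep_inner (ρ : Al M →⋆ₐ[ℂ] (K →L[ℂ] K)) (a : Al M) (v w : K) :
    ⟪ρ a v, w⟫_ℂ = ⟪v, ρ (star a) w⟫_ℂ := by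
  rw [map_star]
  exact (ContinuousLinearMap.adjoint_inner_right (ρ a) v w).symm

theorem rep_mul (ρ : Al M →⋆ₐ[ℂ] (K →L[ℂ] K)) (a b : Al M) (v : K) :
    ρ (a * b) v = ρ a (ρ b v) := by rw [map_mul]; rfl

theorem rep_norm_le (ρ : Al M →⋆ₐ[ℂ] (K →L[ℂ] K)) (a : Al M) (v : K) :
    ‖ρ a v‖ ≤ ‖a‖ * ‖v‖ :=
  ((ρ a).le_opNorm v).trans
    (mul_le_mul_of_nonneg_right (NonUnitalStarAlgHom.norm_apply_le ρ a) (norm_nonneg _))

theorem rep_norm_sq (ρ : Al M →⋆ₐ[ℂ] (K →L[ℂ] K)) (a : Al M) (v : K) :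
    ‖ρ a v‖ ^ 2 = (⟪v, ρ (star a * a) v⟫_ℂ).re := by
  rw [rep_mul, ← rep_inner, inner_self_eq_norm_sq_to_K]
  norm_cast

end Crest.Agent.R109
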