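import Crest.Agent.R109.Kap

/-!
# R109: normalisers of `A`
-/

set_option autoImplicit false
open Filter Topology
open scoped InnerProductSpace

namespace Crest.Agent.R109
open Crest.Agent.R121

universe u
variable {H : Type u} [NormedAddCommGroup H] [InnerProductSpace ℂ H] [CompleteSpace H]
variable {M : VonNeumannAlgebra H} {A : StarSubalgebra ℂ (Al M)} {ξ : H}

/-- Partial isometries normalising `A`. -/
structure Nor (A : StarSubalgebra ℂ (Al M)) (g : Al M) : Prop where
  pi : PI g
  left : ∀ a ∈ A, star g * a * g ∈ A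
  right : ∀ a ∈ A, g * a * star g ∈ A

variable {g g' : Al M}

theorem Nor.init_mem (h : Nor A g) : star g * g ∈ A := by
  simpa using h.left 1 (one_mem A)

theorem Nor.fin_mem (h : Nor A g) : g * star g ∈ A := by
  simpa using h.right 1 (one_mem A)

theorem Nor.star' (h : Nor A g) : Nor A (star g) := by
  exact ⟨h.pi.star', by simpa only [star_star] using h.right, by simpa only [star_star] using h.left⟩

theorem Nor.of_proj (hA : Masa A) {e : Al M} (heA : e ∈ A) (he : IsStarProjection e) :
    Nor A e := by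
  refine ⟨PI.of_proj he, fun a ha => ?_, fun a ha => ?_⟩
  · exact mul_mem (mul_mem (star_mem heA) ha) heA
  · exact mul_mem (mul_mem heA ha) (star_mem heA)

/-- `g* g` and `g' g'*` commute. -/
theorem Nor.mul (hA : Masa A) (h : Nor A g) (h' : Nor A g') : Nor A (g * g') := by
  refine ⟨?_, fun a ha => ?_, fun a ha => ?_⟩
  · calc g * g' * star (g * g') * (g * g') = g * ((g' * star g') * (star g * g)) * g' := by
          simp only [star_mul, mul_assoc]
      _ = (g * (star g * g)) * (g' * star g' * g') := by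
          rw [hA.comm _ h'.fin_mem _ h.init_mem]
          simp only [mul_assoc]
      _ = g * g' := by rw [h.pi.mul_init, h'.pi.fin_mul]
  · simpa only [star_mul, mul_assoc] using h'.left _ (h.left a ha)
  · simpa only [star_mul, mul_assoc] using h.right _ (h'.right a ha)

theorem Nor.mul_comm (hA : Masa A) (h : Nor A g) {a : Al M} (ha : a ∈ A) :
    a * g = g * (star g * a * g) ∧ g * a = (g * a * star g) * g := by
  constructor
  · calc a * g = a * (g * star g) * g := by rw [mul_assoc, h.pi.fin_mul]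
      _ = _ := by
          rw [hA.comm a ha _ h.fin_mem]
          simp only [mul_assoc]
  · calc g * a = g * ((star g * g) * a) := by rw [← mul_assoc, h.pi.mul_init]
      _ = _ := by
          rw [hA.comm _ h.init_mem a ha]
          simp only [mul_assoc]

theorem Nor.conj_mul (hA : Masa A) (h : Nor A g) {a b : Al M} (ha : a ∈ A) (hb : b ∈ A) :
    star g * (a * b) * g = (star g * a * g) * (star g * b * g) := by
  calc star g * (a * b) * g = star g * a * (b * g) := by simp only [mul_assoc]
    _ = _ := by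
        rw [(h.mul_comm hA hb).1]
        simp only [mul_assoc]

theorem Nor.mul_comm' (hA : Masa A) (h : Nor A g) {a : Al M} (ha : a ∈ A) :
    a * star g = star g * (g * a * star g) ∧ star g * a = (star g * a * g) * star g := by
  simpa only [star_star] using h.star'.mul_comm hA ha

theorem Nor.conj_mul' (hA : Masa A) (h : Nor A g) {a b : Al M} (ha : a ∈ A) (hb : b ∈ A) :
    g * (a * b) * star g = (g * a * star g) * (g * b * star g) := by
  simpa only [star_star] using h.star'.conj_mul hA ha hb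

theorem Nor.conj_proj (hA : Masa A) (h : Nor A g) {a : Al M} (ha : a ∈ A)
    (hp : IsStarProjection a) : IsStarProjection (star g * a * g) := by
  refine ⟨?_, ?_⟩
  · change _ * _ = _
    rw [← h.conj_mul hA ha ha, proj_mul_self hp]
  · change star _ = _
    simp only [star_mul, star_star, proj_star hp, mul_assoc]

theorem Nor.conj_proj' (hA : Masa A) (h : Nor A g) {a : Al M} (ha : a ∈ A)
    (hp : IsStarProjection a) : IsStarProjection (g * a * star g) := by
  simpa only [star_star] using h.star'.conj_proj hA ha hp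

theorem nor_ph_conj (ξ : H) (g y : Al M) :
    ph ξ (star g * y * g) = ⟪ap g ξ, ap y (ap g ξ)⟫_ℂ := by
  rw [mul_assoc, ph_star_mul, ap_mul]

theorem Masa.exists_ideal (hA : Masa A) {c : Al M} (hc : c ∈ A) (h0 : c ≠ 0) :
    ∃ d ∈ A, IsStarProjection (c * d) ∧ c * d ≠ 0 := by
  have hcl := hA.isClosed
  let _ := CStarAlgebra.spectralOrder A
  have := CStarAlgebra.spectralOrderedRing A
  obtain ⟨d, hd, hd0⟩ := spec_ideal (A := A) (fun z => by
    obtain ⟨e, heA, he, h1, h2⟩ := hA.exists_supp z.2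
    exact ⟨⟨e, heA⟩, ⟨Subtype.ext he.isIdempotentElem.eq, Subtype.ext he.isSelfAdjoint.star_eq⟩,
      Subtype.ext h1, fun y hy => Subtype.ext (h2 y (congrArg Subtype.val hy))⟩)
    (b := ⟨c, hc⟩) fun h => h0 (congrArg Subtype.val h)
  exact ⟨d, d.2, ⟨congrArg Subtype.val hd.isIdempotentElem.eq,
    congrArg Subtype.val hd.isSelfAdjoint.star_eq⟩, fun h => hd0 (Subtype.ext h)⟩

theorem Masa.isSum_mem (hA : Masa A) {ι : Type*} {p : ι → Al M} {P : Al M} (h : IsSum p P)
    (hp : ∀ i, p i ∈ A) : P ∈ A :=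
  hA.mem_of_WL h (Eventually.of_forall fun _ => sum_mem fun i _ => hp i)

theorem Masa.proj_mul (hA : Masa A) {a b : Al M} (ha : a ∈ A) (hb : b ∈ A)
    (hp : IsStarProjection a) (hq : IsStarProjection b) : IsStarProjection (a * b) :=
  hp.mul hq (hA.comm a ha b hb)

theorem Masa.absorb (hA : Masa A) {x y k : Al M} (hy : y ∈ A) (hk : k ∈ A) (h : x * k = x) :
    x * y * k = x * y := by
  rw [mul_assoc, hA.comm y hy k hk, ← mul_assoc, h]

theorem nor_kill {x k z : Al M} (h : x * (1 - k) = x) (hz : k * z = z) : x * z = 0 := by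
  rw [← h, mul_assoc, sub_mul, one_mul, hz, sub_self, mul_zero]

/-- `m ↦ ⟪g ξ, m g ξ⟫` is `A`-central, so `Std.inner_E` applies; for `b ∈ A`,
`b g* = g* (g b g*)`; conclude by `E_eq`. -/
theorem Std.E_conj (h : Std A ξ) (hg : Nor A g) (m : Al M) :
    h.E (star g * m * g) = star g * h.E m * g := by
  have hA := h.toMasa
  have key := h.inner_E (ap g ξ) (ap g ξ) fun a ha m => by
    rw [← nor_ph_conj, ← nor_ph_conj]
    calc ph ξ (star g * (a * m) * g) = ph ξ ((star g * a * g) * (star g * m * g)) := by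
          conv_lhs => rw [← mul_assoc, (hg.mul_comm' hA ha).2]
          simp only [mul_assoc]
      _ = ph ξ (star g * m * (g * (star g * a * g))) := by
          rw [h.ph_comm (hg.left a ha)]
          simp only [mul_assoc]
      _ = _ := by
          rw [← (hg.mul_comm hA ha).1]
          simp only [mul_assoc]
  refine h.E_eq (hg.left _ (h.E_mem m)) fun b hb => ?_
  have e : ∀ y : Al M, b * (star g * y * g) = star g * ((g * b * star g) * y) * g := fun y => by
    rw [← mul_assoc, ← mul_assoc, (hg.mul_comm' hA hb).1]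
    simp only [mul_assoc]
  rw [e, e, ← h.E_mul_left (hg.right b hb), nor_ph_conj, nor_ph_conj, key]

/-- Let `θ a = g* a g`. Take a maximal orthogonal family of nonzero projections `f ∈ A` with
`g* g f = f`, `g f ∈ A` (`exists_maximal_pairwise`, `exists_sumProj`), `e` its sum (`e`, `g e ∈ A`
by `Masa.mem_of_WL`), `e' = g* g - e`, `c = E (g e') = E g * e'`. From `a g = g θ(a)` we get
`a c = c θ(a)`. If `c ≠ 0` there is `d ∈ A` with `f = c d` a nonzero projection (take
`d = c* * cfc φ (c* c) * q` with `q = 1 -` the projection of `exists_cut`, or `R121.spec_ideal` in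
`↥A`); `f e' = f`, `f a = f θ(a)`, so `g f` commutes with `A`: contradiction with maximality.
Hence `E g = E (g e) + E (g e') = g e`. -/
theorem Std.exists_fix (h : Std A ξ) (hg : Nor A g) : ∃ e ∈ A, IsStarProjection e ∧
    star g * g * e = e ∧ g * e ∈ A ∧ h.E g = g * e ∧
    ∀ f ∈ A, IsStarProjection f → (star g * g - e) * f = f → g * f ∈ A → f = 0 := by
  have hA := h.toMasa
  obtain ⟨S, hS, hpw, hmax⟩ := exists_maximal_pairwise
    (fun f : Al M => f ∈ A ∧ IsStarProjection f ∧ star g * g * f = f ∧ g * f ∈ A)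
    (fun x y => x * y = 0 ∧ y * x = 0) fun _ _ h => h.symm
  obtain ⟨e, he, hsum, hle⟩ := exists_sumProj (fun x : S => x.1) (fun x => (hS x x.2).2.1)
    fun x y hxy => (hpw x.2 y.2 fun h => hxy (Subtype.ext h)).1
  have heA : e ∈ A := hA.isSum_mem hsum fun x => (hS x x.2).1
  have hge : g * e ∈ A := hA.isSum_mem (hsum.mul_left g) fun x => (hS x x.2).2.2.2
  have hpe : star g * g * e = e := hsum.mul_eq fun x => (hS x x.2).2.2.1
  have hp' : IsStarProjection (star g * g - e) := proj_sub hg.pi.init he hpe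
  have he'A : star g * g - e ∈ A := sub_mem hg.init_mem heA
  have hlast : ∀ f ∈ A, IsStarProjection f → (star g * g - e) * f = f → g * f ∈ A → f = 0 := by
    intro f hfA hf h1 h2
    have h3 : e * f = 0 := by
      rw [← h1, ← mul_assoc, mul_sub, proj_le_comm hg.pi.init he hpe, proj_mul_self he, sub_self,
        zero_mul]
    have h4 : star g * g * f = f := by rwa [sub_mul, h3, sub_zero] at h1
    have h5 : f ∈ S := hmax f ⟨hfA, hf, h4, h2⟩ fun y hy => by
      have h6 : y * f = 0 := by
        rw [← proj_le_comm he (hS y hy).2.1 (hle ⟨y, hy⟩), mul_assoc, h3, mul_zero]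
      exact ⟨proj_orth_comm (hS y hy).2.1 hf h6, h6⟩
    exact (hle ⟨f, h5⟩).symm.trans h3
  refine ⟨e, heA, he, hpe, hge, ?_, hlast⟩
  have hc : h.E (g * (star g * g - e)) = 0 := by
    by_contra hc
    have hcA := h.E_mem (g * (star g * g - e))
    obtain ⟨d, hd, hf, hf0⟩ := hA.exists_ideal hcA hc
    have h1 : ∀ a ∈ A, a * h.E (g * (star g * g - e)) =
        (star g * a * g) * h.E (g * (star g * g - e)) := by
      intro a ha
      rw [hA.comm _ (hg.left a ha) _ hcA, ← h.E_mul_left ha, ← h.E_mul_right (hg.left a ha),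
        ← mul_assoc, (hg.mul_comm hA ha).1, mul_assoc, hA.comm _ (hg.left a ha) _ he'A, mul_assoc g]
    refine hf0 (hlast _ (mul_mem hcA hd) hf ?_ (hA.max _ fun a ha => ?_))
    · rw [← mul_assoc, hA.comm _ he'A _ hcA, ← h.E_mul_right he'A, mul_assoc g, proj_mul_self hp']
    · rw [mul_assoc g, ← hA.comm a ha _ (mul_mem hcA hd), ← mul_assoc a (h.E _), h1 a ha,
        ← mul_assoc a, (hg.mul_comm hA ha).1]
      simp only [mul_assoc]
  rw [mul_sub, hg.pi.mul_init, map_sub, sub_eq_zero] at hc
  rw [hc, h.E_of_mem hge]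

/-- Frolík's argument. Take a maximal family of nonzero projections `f_i ∈ A` below `e'` with
`f_i θ(f_i) = 0`, pairwise related by `f_i f_j = f_i θ(f_j) = f_j θ(f_i) = 0`; let `f` be the sum;
`f θ(f) = 0` (`IsSum.mul_eq_zero`). If `r = e' (1 - f)(1 - θ f)(1 - g f g*) ≠ 0` then `g r ∉ A`, so
(`Masa.mem_of_comm_proj`) `θ(a) r ≠ a r` for a projection `a ∈ A`; replacing `a` by `1 - a` if
necessary `r₁ = r a (1 - θ a) ≠ 0`. Then `r₁ θ(r₁) = r₁ θ(a) θ(r₁) = 0`, `r₁ θ(f_i) = 0`, and
`r₁ g f_i g* = 0` gives `θ(r₁) f_i = 0`; so `r₁` belongs to the family, but `r₁ f = 0`. -/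
theorem Masa.frolik (hA : Masa A) (hg : Nor A g) {e' : Al M} (he : e' ∈ A)
    (hp : IsStarProjection e') (hle : star g * g * e' = e')
    (hf : ∀ f ∈ A, IsStarProjection f → e' * f = f → g * f ∈ A → f = 0) :
    ∃ f ∈ A, IsStarProjection f ∧ f * (star g * f * g) = 0 ∧
      e' * (1 - f) * (1 - star g * f * g) * (1 - g * f * star g) = 0 := by
  obtain ⟨S, hS, hpw, hmax⟩ := exists_maximal_pairwise
    (fun f : Al M => f ∈ A ∧ IsStarProjection f ∧ f * (star g * f * g) = 0)
    (fun x y => (x * y = 0 ∧ x * (star g * y * g) = 0) ∧ (y * x = 0 ∧ y * (star g * x * g) = 0))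
    fun _ _ h => h.symm
  obtain ⟨f, hfp, hsum, hfle⟩ := exists_sumProj (fun x : S => x.1) (fun x => (hS x x.2).2.1)
    fun x y hxy => (hpw x.2 y.2 fun h => hxy (Subtype.ext h)).1.1
  have hfA : f ∈ A := hA.isSum_mem hsum fun x => (hS x x.2).1
  refine ⟨f, hfA, hfp, hsum.eq_zero_mul fun x =>
    ((hsum.mul_left (star g)).mul_right g).mul_eq_zero fun y => ?_, ?_⟩
  · by_cases hxy : x = y
    · rw [hxy]
      exact (hS y y.2).2.2
    · exact (hpw x.2 y.2 fun h => hxy (Subtype.ext h)).1.2
  by_contra hr0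
  have m1 : 1 - f ∈ A := sub_mem (one_mem A) hfA
  have m2 : 1 - star g * f * g ∈ A := sub_mem (one_mem A) (hg.left f hfA)
  have m3 : 1 - g * f * star g ∈ A := sub_mem (one_mem A) (hg.right f hfA)
  have p1 := hfp.one_sub
  have p2 := (hg.conj_proj hA hfA hfp).one_sub
  have p3 := (hg.conj_proj' hA hfA hfp).one_sub
  have hrA := mul_mem (mul_mem (mul_mem he m1) m2) m3
  have hrp := hA.proj_mul (mul_mem (mul_mem he m1) m2) m3
    (hA.proj_mul (mul_mem he m1) m2 (hA.proj_mul he m1 hp p1) p2) p3
  have a0 := hA.absorb m3 he (hA.absorb m2 he (hA.absorb m1 he (proj_mul_self hp)))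
  have a1 := hA.absorb m3 m1 (hA.absorb m2 m1
    (show e' * (1 - f) * (1 - f) = e' * (1 - f) by rw [mul_assoc, proj_mul_self p1]))
  have a2 := hA.absorb m3 m2 (show e' * (1 - f) * (1 - star g * f * g) * (1 - star g * f * g) =
    e' * (1 - f) * (1 - star g * f * g) by rw [mul_assoc, proj_mul_self p2])
  have a3 : e' * (1 - f) * (1 - star g * f * g) * (1 - g * f * star g) * (1 - g * f * star g) =
    e' * (1 - f) * (1 - star g * f * g) * (1 - g * f * star g) := by
      rw [mul_assoc, proj_mul_self p3]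
  generalize e' * (1 - f) * (1 - star g * f * g) * (1 - g * f * star g) = r
    at hr0 hrA hrp a0 a1 a2 a3
  have key : ∀ b ∈ A, IsStarProjection b → r * b * (1 - star g * b * g) = 0 := by
    intro b hb hbp
    have m4 : 1 - star g * b * g ∈ A := sub_mem (one_mem A) (hg.left b hb)
    have p4 := (hg.conj_proj hA hb hbp).one_sub
    have hsA := mul_mem (mul_mem hrA hb) m4
    have hsp := hA.proj_mul (mul_mem hrA hb) m4 (hA.proj_mul hrA hb hrp hbp) p4
    have b1 := hA.absorb m4 m1 (hA.absorb hb m1 a1)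
    have b2 := hA.absorb m4 m2 (hA.absorb hb m2 a2)
    have b3 := hA.absorb m4 m3 (hA.absorb hb m3 a3)
    have b4 := hA.absorb m4 hb (show r * b * b = r * b by rw [mul_assoc, proj_mul_self hbp])
    have b5 : r * b * (1 - star g * b * g) * (1 - star g * b * g) =
        r * b * (1 - star g * b * g) := by rw [mul_assoc, proj_mul_self p4]
    generalize r * b * (1 - star g * b * g) = s at hsA hsp b1 b2 b3 b4 b5
    have hs : s ∈ S := hmax s ⟨hsA, hsp, nor_kill b5 (by
      rw [← hg.conj_mul hA hb hsA, hA.comm b hb s hsA, b4])⟩ fun y hy => by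
        have hyA := (hS y hy).1
        have hy' : f * y = y := hfle ⟨y, hy⟩
        have c1 : s * y = 0 := nor_kill b1 hy'
        refine ⟨⟨c1, nor_kill b2 (by rw [← hg.conj_mul hA hfA hyA, hy'])⟩,
          (hA.comm y hyA s hsA).trans c1, ?_⟩
        have c2 : s * (g * y * star g) = 0 := nor_kill b3 (by rw [← hg.conj_mul' hA hfA hyA, hy'])
        rw [hA.comm y hyA _ (hg.left s hsA), mul_assoc, (hg.mul_comm hA hyA).2, mul_assoc,
          ← mul_assoc s, c2, zero_mul, mul_zero]
    have c3 : s * s = 0 := nor_kill b1 (hfle ⟨s, hs⟩)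
    rwa [proj_mul_self hsp] at c3
  have hrp' : r * (star g * g) = r := by
    rw [← a0, mul_assoc, proj_le_comm hg.pi.init hp hle]
  refine hr0 (hf r hrA hrp ((hA.comm _ he _ hrA).trans a0) (hA.mem_of_comm_proj fun a ha hap => ?_))
  have k1 := key a ha hap
  have k2 := key (1 - a) (sub_mem (one_mem A) ha) hap.one_sub
  have k3 : r * a = r * (star g * a * g) := by
    have k4 : r * a * (star g * g) = r * a := hA.absorb ha hg.init_mem hrp'
    have k5 : r * (1 - a) * (1 - star g * (1 - a) * g) = r - r * (star g * g) +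
      r * (star g * a * g) - r * a + r * a * (star g * g) - r * a * (star g * a * g) := by
        noncomm_ring
    rw [k5, hrp', k4] at k2
    rw [mul_sub, mul_one, sub_eq_zero] at k1
    rw [← k1] at k2
    rw [← sub_eq_zero, ← neg_eq_zero, ← k2]
    abel
  rw [← mul_assoc, (hg.mul_comm hA ha).1, mul_assoc, hA.comm _ (hg.left a ha) r hrA, ← k3,
    mul_assoc]

/-- If `e ≤ n* n` for `n = g'* g` then `g e = g' (n e)`:
`(g e - g' g'* g e)* (g e - g' g'* g e) = e g* g e - e n* n e = 0`. -/
theorem Nor.mul_eq_of_le (hA : Masa A) (h : Nor A g) (h' : Nor A g') {e : Al M} (heA : e ∈ A)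
    (he : IsStarProjection e) (hle : star (star g' * g) * (star g' * g) * e = e) :
    g * e = g' * (star g' * g * e) := by
  calc g * e = g * (star g * (g' * star g') * g) * e := by
        conv_lhs => rw [← hle]
        simp only [star_mul, star_star, mul_assoc]
    _ = _ := by
        rw [← (h.mul_comm hA h'.fin_mem).1]
        simp only [mul_assoc]

theorem nor_one_mem (hA : Masa A) :
    (1 : Al M) ∈ Submodule.span ℂ {m | ∃ a ∈ A, ∃ g, Nor A g ∧ a * g = m} :=
  Submodule.subset_span ⟨1, one_mem A, 1, Nor.of_proj hA (one_mem A) (.one _), mul_one 1⟩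

theorem nor_mul_mem (hA : Masa A) (x y : Al M)
    (hx : x ∈ Submodule.span ℂ {m | ∃ a ∈ A, ∃ g, Nor A g ∧ a * g = m})
    (hy : y ∈ Submodule.span ℂ {m | ∃ a ∈ A, ∃ g, Nor A g ∧ a * g = m}) :
    x * y ∈ Submodule.span ℂ {m | ∃ a ∈ A, ∃ g, Nor A g ∧ a * g = m} := by
  have h := Submodule.mul_mem_mul hx hy
  rw [Submodule.span_mul_span] at h
  refine Submodule.span_mono ?_ h
  rintro _ ⟨_, ⟨a, ha, g, hg, rfl⟩, _, ⟨a', ha', g', hg', rfl⟩, rfl⟩
  refine ⟨a * (g * a' * star g), mul_mem ha (hg.right a' ha'), g * g', hg.mul hA hg', ?_⟩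
  calc a * (g * a' * star g) * (g * g') = a * (g * a' * star g * g) * g' := by
        simp only [mul_assoc]
    _ = a * g * (a' * g') := by
        rw [← (hg.mul_comm hA ha').2]
        simp only [mul_assoc]

theorem nor_star_mem (hA : Masa A) {x : Al M}
    (hx : x ∈ Submodule.span ℂ {m | ∃ a ∈ A, ∃ g, Nor A g ∧ a * g = m}) :
    star x ∈ Submodule.span ℂ {m | ∃ a ∈ A, ∃ g, Nor A g ∧ a * g = m} := by
  induction hx using Submodule.span_induction with
  | mem x hx =>
    obtain ⟨a, ha, g, hg, rfl⟩ := hx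
    refine Submodule.subset_span ⟨_, hg.left _ (star_mem ha), star g, hg.star', ?_⟩
    rw [star_mul, ← (hg.mul_comm' hA (star_mem ha)).2]
  | zero =>
    rw [star_zero]
    exact zero_mem _
  | add x y _ _ hx hy =>
    rw [star_add]
    exact add_mem hx hy
  | smul c x _ hx =>
    rw [star_smul]
    exact Submodule.smul_mem _ _ hx

/-- The algebra spanned by `A` and its normalisers. -/
noncomputable def NS (hA : Masa A) : StarSubalgebra ℂ (Al M) where
  toSubalgebra := (Submodule.span ℂ {m | ∃ a ∈ A, ∃ g, Nor A g ∧ a * g = m}).toSubalgebra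
    (nor_one_mem hA) (nor_mul_mem hA)
  star_mem' := nor_star_mem hA

theorem mem_NS {hA : Masa A} {m : Al M} :
    m ∈ NS hA ↔ m ∈ Submodule.span ℂ {m | ∃ a ∈ A, ∃ g, Nor A g ∧ a * g = m} := Iff.rfl

/-- `w ξ` is orthogonal to `A g ξ` for all normalisers `g`. -/
def Diffuse (h : Std A ξ) (w : Al M) : Prop := ∀ g, Nor A g → h.E (star g * w) = 0

/-- `E (w g) = 0` iff `E (g w) = 0`: conjugate with `E_conj` and use `E_mul_left/right` with
`g g*`, `g* g`. -/
theorem Std.E_mul_comm_zero (h : Std A ξ) (hg : Nor A g) (w : Al M) :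
    h.E (g * w) = 0 ↔ h.E (w * g) = 0 := by
  have hA := h.toMasa
  constructor
  · intro h0
    have h1 := h.E_conj hg (g * w)
    rw [h0, mul_zero, zero_mul, ← mul_assoc, mul_assoc _ w, h.E_mul_left hg.init_mem,
      hA.comm _ hg.init_mem _ (h.E_mem _), ← h.E_mul_right hg.init_mem, mul_assoc,
      hg.pi.mul_init] at h1
    exact h1
  · intro h0
    have h1 := h.E_conj hg.star' (w * g)
    rw [h0, mul_zero, zero_mul, star_star, ← mul_assoc, mul_assoc _ g, h.E_mul_right hg.fin_mem,
      ← hA.comm _ hg.fin_mem _ (h.E_mem _), ← h.E_mul_left hg.fin_mem, ← mul_assoc,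
      hg.pi.fin_mul] at h1
    exact h1

theorem Diffuse.star' {h : Std A ξ} {w : Al M} (hw : Diffuse h w) : Diffuse h (star w) := by
  intro g hg
  have h1 := hw _ hg.star'
  rw [star_star, h.E_mul_comm_zero hg] at h1
  rw [← star_mul, h.E_star, h1, star_zero]

end Crest.Agent.R109
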