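import Crest.Agent.R109.JT

/-!
# R109: a pseudogroup of finite type on a compact totally disconnected space
-/

set_option autoImplicit false
open Finset Filter Topology MeasureTheory
open scoped Classical

namespace Crest.Agent.R109

universe u

/-- Partial homeomorphisms `act g : dom g → dom (inv g)`, words `W K` of length `≤ K`, a
Radon-Nikodym cocycle `wt ω ω' = "μ(ω') / μ(ω)"` and a Hermitian kernel `a` of range one that is
continuous up to a gauge. -/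
structure PG {X : Type u} [TopologicalSpace X] [MeasurableSpace X] (μ : Measure X) where
  Γ : Type u
  dom : Γ → Set X
  act : Γ → X → X
  inv : Γ → Γ
  W : ℕ → Finset Γ
  wt : X → X → ℝ
  a : X → X → ℂ
  kern : Γ → Γ → X → ℂ
  dom_clopen : ∀ g, IsClopen (dom g)
  act_cont : ∀ g, ContinuousOn (act g) (dom g)
  inv_inv : ∀ g, inv (inv g) = g
  inv_mem : ∀ K, ∀ g ∈ W K, inv g ∈ W K
  act_mem : ∀ g, ∀ ω ∈ dom g, act g ω ∈ dom (inv g)
  act_inv : ∀ g, ∀ ω ∈ dom g, act (inv g) (act g ω) = ω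
  coin : ∀ g g', IsClopen {ω | ω ∈ dom g ∧ ω ∈ dom g' ∧ act g ω = act g' ω}
  self_mem : ∀ K ω, ∃ g ∈ W K, ω ∈ dom g ∧ act g ω = ω
  zero : ∀ g ∈ W 0, ∀ ω ∈ dom g, act g ω = ω
  trans : ∀ m n, ∀ g ∈ W m, ∀ g' ∈ W n, ∀ ω ∈ dom g, act g ω ∈ dom g' →
    ∃ g'' ∈ W (m + n), ω ∈ dom g'' ∧ act g'' ω = act g' (act g ω)
  wt_pos : ∀ ω ω', 0 < wt ω ω'
  wt_self : ∀ ω, wt ω ω = 1
  wt_coc : ∀ g g', ∀ ω ∈ dom g, act g ω ∈ dom g' →
    wt ω (act g' (act g ω)) = wt ω (act g ω) * wt (act g ω) (act g' (act g ω))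
  wt_cont : ∀ g, ContinuousOn (fun ω => wt ω (act g ω)) (dom g)
  mtp : ∀ g (F : X → ℝ), Continuous F →
    ∫ ω in dom (inv g), F ω ∂μ = ∫ ω in dom g, wt ω (act g ω) * F (act g ω) ∂μ
  herm : Herm a
  supp : ∀ ω ω', a ω ω' ≠ 0 → ∃ g ∈ W 1, ω ∈ dom g ∧ act g ω = ω'
  kern_cont : ∀ g g', Continuous (kern g g')
  gauge : ∀ ω, ∃ γ : Γ → ℂ, (∀ g, ‖γ g‖ = 1) ∧ ∀ g g', ω ∈ dom g → ω ∈ dom g' →
    a (act g ω) (act g' ω) = (starRingEnd ℂ) (γ g) * γ g' * kern g g' ω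

section Top
variable {X : Type u} [TopologicalSpace X] [CompactSpace X] [T2Space X]
  [TotallyDisconnectedSpace X]

omit [CompactSpace X] [T2Space X] [TotallyDisconnectedSpace X] in
theorem pg_isClopen_iff {C : Set X} (hC : IsClopen C) (x : X) : IsClopen {y | y ∈ C ↔ x ∈ C} := by
  by_cases hx : x ∈ C
  · simpa [hx] using hC
  · simp only [hx, iff_false]
    exact hC.compl

omit [CompactSpace X] [T2Space X] [TotallyDisconnectedSpace X] in
theorem pg_ev_iff {C : Set X} (hC : IsClopen C) (x : X) : ∀ᶠ y in 𝓝 x, (y ∈ C ↔ x ∈ C) :=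
  (pg_isClopen_iff hC x).isOpen.mem_nhds Iff.rfl

/-- Locally constant selection from an open cover: refine by clopen sets
(`isTopologicalBasis_isClopen`), take a finite subcover `C_0, …, C_m` and select through the
least index `i` with `ω ∈ C_i`. -/
theorem exists_lc_select {α : Type*} (P : α → Set X) (hP : ∀ i, IsOpen (P i))
    (hc : ∀ ω, ∃ i, ω ∈ P i) : ∃ f : X → α, IsLocallyConstant f ∧ ∀ ω, ω ∈ P (f ω) := by
  choose i hi using hc
  choose C hC hxC hCP using fun ω => compact_exists_isClopen_in_isOpen (hP (i ω)) (hi ω)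
  obtain ⟨t, ht⟩ := isCompact_univ.elim_finite_subcover C (fun ω => (hC ω).isOpen)
    fun ω _ => Set.mem_iUnion.2 ⟨ω, hxC ω⟩
  have hne : ∀ ω, (t.filter fun x => ω ∈ C x).Nonempty := fun ω => by
    obtain ⟨x, hx, h⟩ := Set.mem_iUnion₂.1 (ht (Set.mem_univ ω))
    exact ⟨x, mem_filter.2 ⟨hx, h⟩⟩
  have key : ∀ (s s' : Finset X) (h : s.Nonempty) (h' : s'.Nonempty), s = s' →
      h.choose = h'.choose := by
    rintro s _ h h' rfl
    rfl
  refine ⟨fun ω => i (hne ω).choose, (IsLocallyConstant.iff_eventually_eq _).2 fun ω => ?_,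
    fun ω => hCP _ (mem_filter.1 (hne ω).choose_spec).2⟩
  filter_upwards [(eventually_all_finset t).2 fun x _ => pg_ev_iff (hC x) ω] with y hy
  exact congrArg i (key _ _ _ _ (filter_congr hy))

omit [T2Space X] [TotallyDisconnectedSpace X] in
/-- `IsLocallyConstant.range_finite`. -/
theorem exists_lc_fin {α : Type*} {f : X → α} (hf : IsLocallyConstant f) :
    ∃ (m : ℕ) (lab : X → Fin m), IsLocallyConstant lab ∧
      ∀ ω ω', lab ω = lab ω' ↔ f ω = f ω' := by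
  have := hf.range_finite.fintype
  refine ⟨_, fun ω => Fintype.equivFin (Set.range f) ⟨f ω, Set.mem_range_self ω⟩,
    (IsLocallyConstant.iff_eventually_eq _).2 fun ω => ?_, fun ω ω' => by simp⟩
  filter_upwards [hf.eventually_eq ω] with y hy
  simp [hy]

end Top

namespace PG
variable {X : Type u} [TopologicalSpace X] [MeasurableSpace X] {μ : Measure X} (G : PG μ)

/-- The ball of radius `K`. -/
noncomputable def ball (K : ℕ) (ω : X) : Finset X :=
  ((G.W K).filter fun g => ω ∈ G.dom g).image fun g => G.act g ω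

/-- The same data with kernel `-a`. -/
noncomputable def neg : PG μ :=
  { G with
    a := fun p q => -G.a p q
    kern := fun g g' ω => -G.kern g g' ω
    herm := G.herm.neg
    supp := fun ω ω' h => G.supp ω ω' (neg_ne_zero.1 h)
    kern_cont := fun g g' => (G.kern_cont g g').neg
    gauge := fun ω => by
      obtain ⟨γ, h1, h2⟩ := G.gauge ω
      exact ⟨γ, h1, fun g g' hg hg' => by rw [h2 g g' hg hg', mul_neg]⟩ }

@[simp] theorem neg_ball : G.neg.ball = G.ball := rfl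
@[simp] theorem neg_wt : G.neg.wt = G.wt := rfl
theorem neg_a : G.neg.a = fun p q => -G.a p q := rfl

/-- Graph distance from `w` (`K` if unreachable). -/
noncomputable def lay (K : ℕ) (w q : X) : ℕ :=
  if h : ∃ n, q ∈ G.ball n w then Nat.find h else K

/-- `D` is `K`-separated. -/
def Sep (K : ℕ) (D : Set X) : Prop := ∀ v ∈ D, ∀ v' ∈ D, v' ∈ G.ball K v → v' = v

/-- `cl` is a locally constant colouring with `N` classes that are `K`-separated. -/
structure Cls (K N : ℕ) (cl : X → ℕ) : Prop where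
  lc : IsLocallyConstant cl
  lt : ∀ ω, cl ω < N
  sep : ∀ v v', v' ∈ G.ball K v → cl v = cl v' → v' = v

/-- A two-point function that is locally constant along the pseudogroup. -/
def Loc2 {α : Type*} (s : X → X → α) : Prop :=
  ∀ g, ∀ ω₀ ∈ G.dom g, ∀ᶠ ω in 𝓝[G.dom g] ω₀, s ω (G.act g ω) = s ω₀ (G.act g ω₀)

variable {G} {K m n : ℕ} {ω v w : X}

theorem mem_ball : v ∈ G.ball K ω ↔ ∃ g ∈ G.W K, ω ∈ G.dom g ∧ G.act g ω = v := by
  simp only [ball, mem_image, mem_filter, and_assoc]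

theorem self_mem_ball (K : ℕ) (ω : X) : ω ∈ G.ball K ω := by
  exact mem_ball.2 (G.self_mem K ω)

theorem ball_zero (ω : X) : G.ball 0 ω = {ω} := by
  refine eq_singleton_iff_unique_mem.2 ⟨self_mem_ball 0 ω, fun v hv => ?_⟩
  obtain ⟨g, hg, h, rfl⟩ := mem_ball.1 hv
  exact G.zero g hg ω h

theorem ball_symm (h : v ∈ G.ball K ω) : ω ∈ G.ball K v := by
  obtain ⟨g, hg, h1, rfl⟩ := mem_ball.1 h
  exact mem_ball.2 ⟨G.inv g, G.inv_mem K g hg, G.act_mem g ω h1, G.act_inv g ω h1⟩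

theorem ball_trans (h : v ∈ G.ball m ω) (h' : w ∈ G.ball n v) : w ∈ G.ball (m + n) ω := by
  obtain ⟨g, hg, h1, rfl⟩ := mem_ball.1 h
  obtain ⟨g', hg', h2, rfl⟩ := mem_ball.1 h'
  exact mem_ball.2 (G.trans m n g hg g' hg' ω h1 h2)

theorem ball_mono (h : m ≤ n) (ω : X) : G.ball m ω ⊆ G.ball n ω := by
  intro v hv
  obtain ⟨k, rfl⟩ := Nat.exists_eq_add_of_le h
  exact ball_trans hv (self_mem_ball k v)

theorem card_ball_le (K : ℕ) (ω : X) : (G.ball K ω).card ≤ (G.W K).card := by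
  exact card_image_le.trans (card_filter_le _ _)

theorem mem_ball_one (h : G.a v w ≠ 0) : w ∈ G.ball 1 v := by
  exact mem_ball.2 (G.supp v w h)

theorem wt_mul (h : v ∈ G.ball m ω) (h' : w ∈ G.ball n v) : G.wt ω w = G.wt ω v * G.wt v w := by
  obtain ⟨g, -, h1, rfl⟩ := mem_ball.1 h
  obtain ⟨g', -, h2, rfl⟩ := mem_ball.1 h'
  exact G.wt_coc g g' ω h1 h2

theorem ok (G : PG μ) {t η : ℝ} (ht : 0 < t) (hη : 0 < η) (ω : X) : Ok t η G.a (G.wt ω) := by
  exact ⟨ht, hη, G.herm, G.wt_pos ω⟩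

theorem lay_self (K : ℕ) (w : X) : G.lay K w w = 0 := by
  have h : ∃ n, w ∈ G.ball n w := ⟨0, self_mem_ball 0 w⟩
  rw [lay, dif_pos h, Nat.find_eq_zero]
  exact self_mem_ball 0 w

theorem lay_le (K : ℕ) (w : X) {p q : X} (h : G.a p q ≠ 0) : G.lay K w q ≤ G.lay K w p + 1 := by
  have h1 := mem_ball_one h
  unfold lay
  by_cases hp : ∃ n, p ∈ G.ball n w
  · have h2 := ball_trans (Nat.find_spec hp) h1
    rw [dif_pos hp, dif_pos ⟨_, h2⟩]
    exact Nat.find_min' _ h2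
  · rw [dif_neg hp, dif_neg fun ⟨n, hn⟩ => hp ⟨_, ball_trans hn (ball_symm h1)⟩]
    exact Nat.le_succ K

theorem le_lay {q : X} (h : q ∉ G.ball K w) : K ≤ G.lay K w q := by
  unfold lay
  split_ifs with hq
  · by_contra hlt
    exact h (ball_mono (not_le.1 hlt).le w (Nat.find_spec hq))
  · exact le_rfl

theorem Cls.sep_fiber {N : ℕ} {cl : X → ℕ} (h : G.Cls K N cl) (j : ℕ) :
    G.Sep K {ω | cl ω = j} := by
  exact fun v hv v' hv' hb => h.sep v v' hb (hv.trans hv'.symm)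

theorem Cls.neg {N : ℕ} {cl : X → ℕ} (h : G.Cls K N cl) : G.neg.Cls K N cl := ⟨h.lc, h.lt, h.sep⟩

theorem loc2_right {α : Type*} {σ : X → α} (h : IsLocallyConstant σ) :
    G.Loc2 fun _ p => σ p := by
  exact fun g ω₀ h₀ => (G.act_cont g ω₀ h₀).tendsto.eventually (h.eventually_eq _)

theorem loc2_cut {ι : Type*} {σ : X → St ι} {cl : X → ℕ} (h : IsLocallyConstant σ)
    (hcl : IsLocallyConstant cl) : G.Loc2 fun ω => cut cl (cl ω) σ := by
  intro g ω₀ h₀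
  filter_upwards [loc2_right h g ω₀ h₀, loc2_right hcl g ω₀ h₀,
    nhdsWithin_le_nhds (hcl.eventually_eq ω₀)] with ω h1 h2 h3
  simp only [cut]
  rw [h1, h2, show cl ω = cl ω₀ from h3]

theorem ev_fix {g : G.Γ} {ω₀ : X} (h₀ : ω₀ ∈ G.dom g) :
    ∀ᶠ ω in 𝓝 ω₀, (G.act g ω = ω ↔ G.act g ω₀ = ω₀) := by
  obtain ⟨e, he, h1, -⟩ := G.self_mem 0 ω₀
  filter_upwards [(G.dom_clopen g).isOpen.mem_nhds h₀, (G.dom_clopen e).isOpen.mem_nhds h1,
    pg_ev_iff (G.coin g e) ω₀] with ω h2 h3 h4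
  simpa only [Set.mem_ofPred_eq, h₀, h1, h2, h3, true_and, G.zero e he ω h3, G.zero e he ω₀ h1]
    using h4

/-- `{ω ∈ dom g | act g ω = ω}` is open and closed near `ω₀`: compare with `e ∈ W 0`,
`ω₀ ∈ dom e` (`self_mem`, `zero`, `coin`). -/
theorem Loc2.update {α : Type*} {s : X → X → α} (h : G.Loc2 s) (b : α) :
    G.Loc2 fun ω => Function.update (s ω) ω b := by
  intro g ω₀ h₀
  filter_upwards [h g ω₀ h₀, nhdsWithin_le_nhds (ev_fix h₀)] with ω h1 h2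
  simp only [Function.update_apply]
  exact if_congr h2 rfl h1

/-- The neighbourhood of a clopen set is clopen. -/
theorem isClopen_nbhd {D : Set X} (hD : IsClopen D) (K : ℕ) :
    IsClopen {p | ∃ w ∈ D, p ∈ G.ball K w} := by
  have e : {p | ∃ w ∈ D, p ∈ G.ball K w} = ⋃ g ∈ G.W K, G.dom g ∩ G.act g ⁻¹' D := by
    ext p
    simp only [Set.mem_ofPred_eq, Set.mem_iUnion, Set.mem_inter_iff, Set.mem_preimage]
    constructor
    · rintro ⟨w, hw, h⟩
      obtain ⟨g, hg, h1, rfl⟩ := mem_ball.1 (ball_symm h)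
      exact ⟨g, hg, h1, hw⟩
    · rintro ⟨g, hg, h, hw⟩
      exact ⟨_, hw, ball_symm (mem_ball.2 ⟨g, hg, h, rfl⟩)⟩
  rw [e]
  exact isClopen_biUnion_finset fun g _ =>
    (G.act_cont g).preimage_isClopen_of_isClopen (G.dom_clopen g) hD

/-- Local parametrisation of the balls: `R` is a set of representatives at `ω₀`; `U` is the
intersection of the clopen sets (or complements) `dom g`, `coin g g'`, `g, g' ∈ W K`, that
contain `ω₀`. -/
theorem exists_chart (G : PG μ) (K : ℕ) (ω₀ : X) : ∃ (R : Finset G.Γ) (U : Set X), IsClopen U ∧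
    ω₀ ∈ U ∧ ∀ ω ∈ U, (∀ g ∈ R, ω ∈ G.dom g) ∧ Set.InjOn (fun g => G.act g ω) R ∧
      G.ball K ω = R.image fun g => G.act g ω := by
  obtain ⟨R, hR, hinj, him⟩ := Finset.exists_subset_injOn_image_eq_of_surjOn
    (f := fun g => G.act g ω₀) {g | g ∈ G.W K ∧ ω₀ ∈ G.dom g} (G.ball K ω₀) fun v hv => by
      obtain ⟨g, hg, h, rfl⟩ := mem_ball.1 hv
      exact ⟨g, ⟨hg, h⟩, rfl⟩
  refine ⟨R, ⋂ g ∈ G.W K, {ω | ω ∈ G.dom g ↔ ω₀ ∈ G.dom g} ∩ ⋂ g' ∈ G.W K,
    {ω | ω ∈ {ω | ω ∈ G.dom g ∧ ω ∈ G.dom g' ∧ G.act g ω = G.act g' ω} ↔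
      ω₀ ∈ {ω | ω ∈ G.dom g ∧ ω ∈ G.dom g' ∧ G.act g ω = G.act g' ω}},
    isClopen_biInter_finset fun g _ => (pg_isClopen_iff (G.dom_clopen g) ω₀).inter
      (isClopen_biInter_finset fun g' _ => pg_isClopen_iff (G.coin g g') ω₀), by simp,
    fun ω hω => ?_⟩
  simp only [Set.mem_iInter, Set.mem_inter_iff, Set.mem_ofPred_eq] at hω
  have h1 : ∀ g ∈ R, ω ∈ G.dom g := fun g hg => (hω g (hR hg).1).1.2 (hR hg).2
  refine ⟨h1, fun g hg g' hg' h => hinj hg hg'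
    (((hω g (hR hg).1).2 g' (hR hg').1).1 ⟨h1 g hg, h1 g' hg', h⟩).2.2, ?_⟩
  ext v
  rw [mem_ball, mem_image]
  constructor
  · rintro ⟨g, hg, h, rfl⟩
    have h2 := (hω g hg).1.1 h
    obtain ⟨g', hg', h3⟩ := mem_image.1 (him ▸ mem_ball.2 ⟨g, hg, h2, rfl⟩ :
      G.act g ω₀ ∈ R.image fun g => G.act g ω₀)
    exact ⟨g', hg', (((hω g' (hR hg').1).2 g hg).2 ⟨(hR hg').2, h2, h3⟩).2.2⟩
  · rintro ⟨g, hg, rfl⟩
    exact ⟨g, (hR hg).1, h1 g hg, rfl⟩

theorem continuous_sum_ball (K : ℕ) {F : X → X → ℝ}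
    (hF : ∀ g, ContinuousOn (fun ω => F ω (G.act g ω)) (G.dom g)) :
    Continuous fun ω => ∑ v ∈ G.ball K ω, F ω v := by
  refine continuous_iff_continuousAt.2 fun ω₀ => ?_
  obtain ⟨R, U, hU, h₀, h⟩ := G.exists_chart K ω₀
  refine ContinuousAt.congr (f := fun ω => ∑ g ∈ R, F ω (G.act g ω))
    (tendsto_finsetSum _ fun g hg => (hF g).continuousAt
      ((G.dom_clopen g).isOpen.mem_nhds ((h ω₀ h₀).1 g hg))) ?_
  filter_upwards [hU.isOpen.mem_nhds h₀] with ω hω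
  rw [(h ω hω).2.2, sum_image (h ω hω).2.1]

variable [CompactSpace X]

/-- Compactness of `dom g`. -/
theorem exists_wt_bound (G : PG μ) (K : ℕ) :
    ∃ C > 0, ∀ ω, ∀ v ∈ G.ball K ω, G.wt ω v ≤ C ∧ 1 ≤ C * G.wt ω v := by
  have key : ∀ g, ∃ C : ℝ, 0 ≤ C ∧ ∀ ω ∈ G.dom g,
      G.wt ω (G.act g ω) + (G.wt ω (G.act g ω))⁻¹ ≤ C := fun g => by
    obtain ⟨C, hC⟩ := (G.dom_clopen g).isClosed.isCompact.exists_bound_of_continuousOn
      ((G.wt_cont g).add ((G.wt_cont g).inv₀ fun ω _ => (G.wt_pos _ _).ne'))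
    exact ⟨max C 0, le_max_right _ _, fun ω hω =>
      (le_abs_self _).trans ((hC ω hω).trans (le_max_left _ _))⟩
  choose C hC0 hC using key
  have h0 : 0 ≤ ∑ g ∈ G.W K, C g := sum_nonneg fun g _ => hC0 g
  refine ⟨1 + ∑ g ∈ G.W K, C g, by linarith, fun ω v hv => ?_⟩
  obtain ⟨g, hg, h, rfl⟩ := mem_ball.1 hv
  have h1 := hC g ω h
  have h2 := single_le_sum (fun g _ => hC0 g) hg
  have h3 := G.wt_pos ω (G.act g ω)
  have h4 := inv_pos.2 h3
  refine ⟨by linarith, ?_⟩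
  rw [← div_le_iff₀ h3, one_div]
  linarith

theorem exists_rho (G : PG μ) : ∃ ρ > 0, ∀ K ω, Nb ρ G.a (G.wt ω) (G.ball K ω) := by
  obtain ⟨C, hC, h⟩ := G.exists_wt_bound 1
  refine ⟨C, hC, fun K ω p hp q _ hpq => ?_⟩
  rw [wt_mul hp (mem_ball_one hpq), mul_comm]
  exact mul_le_mul_of_nonneg_right (h p q (mem_ball_one hpq)).1 (G.wt_pos _ _).le

/-- Every point has an open `K`-separated neighbourhood: for `g ∈ W K` either `ω₀ ∉ dom g`, or `g`
fixes `ω₀` and then a neighbourhood, or `act g ω₀ ≠ ω₀` and one separates. Apply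
`exists_lc_select` to the open separated sets and `exists_lc_fin`. -/
theorem exists_cls [T2Space X] [TotallyDisconnectedSpace X] (G : PG μ) (K : ℕ) :
    ∃ N cl, G.Cls K N cl := by
  have key : ∀ ω₀ g, ∃ N ∈ 𝓝 ω₀, ∀ v ∈ N, v ∈ G.dom g → G.act g v ∈ N → G.act g v = v := by
    intro ω₀ g
    by_cases h₀ : ω₀ ∈ G.dom g
    · by_cases h1 : G.act g ω₀ = ω₀
      · exact ⟨_, ev_fix h₀, fun v hv _ _ => hv.2 h1⟩
      · obtain ⟨A, B, hA, hB, h2, h3, hAB⟩ := t2_separation h1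
        refine ⟨B ∩ G.act g ⁻¹' A, inter_mem (hB.mem_nhds h3) (((G.act_cont g).continuousAt
          ((G.dom_clopen g).isOpen.mem_nhds h₀)).preimage_mem_nhds (hA.mem_nhds h2)),
          fun v hv _ h => (Set.disjoint_left.1 hAB hv.2 h.1).elim⟩
    · exact ⟨_, (G.dom_clopen g).compl.isOpen.mem_nhds h₀, fun v hv h _ => (hv h).elim⟩
  choose N hN hN' using key
  obtain ⟨f, hf, hf'⟩ := exists_lc_select (fun ω₀ => interior (⋂ g ∈ G.W K, N ω₀ g))
    (fun _ => isOpen_interior) fun ω => ⟨ω, mem_interior_iff_mem_nhds.2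
      ((biInter_finset_mem _).2 fun g _ => hN ω g)⟩
  obtain ⟨m, lab, h1, h2⟩ := exists_lc_fin hf
  refine ⟨m, fun ω => lab ω, h1.comp _, fun ω => (lab ω).2, fun v v' hv h => ?_⟩
  obtain ⟨g, hg, h3, rfl⟩ := mem_ball.1 hv
  have h4 := Set.mem_iInter₂.1 (interior_subset (hf' v)) g hg
  have h5 := Set.mem_iInter₂.1 (interior_subset (hf' (G.act g v))) g hg
  rw [← (h2 _ _).1 (Fin.ext h)] at h5
  exact hN' _ g v h4 h3 h5

end PG

end Crest.Agent.R109
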