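import Crest.Agent.R109.MTP
import Crest.Agent.R109.J5

/-!
# R109: the global potential `Psi`
-/

set_option autoImplicit false
open Finset Filter Topology MeasureTheory
open scoped Classical

namespace Crest.Agent.R109

universe u

namespace PG
variable {X : Type u} [TopologicalSpace X] [MeasurableSpace X] {μ : Measure X}
variable {ι : Type*} [Fintype ι] [DecidableEq ι]

/-- Density of the potential. -/
noncomputable def psi (G : PG μ) (t η : ℝ) (K : ℕ) (cl : X → ℕ) (σ : X → St ι) (w : X) : ℝ :=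
  jT t η K G.a (G.wt w) (G.ball K w) (cut cl (cl w) σ) w

/-- The potential. -/
noncomputable def Psi (G : PG μ) (t η : ℝ) (K : ℕ) (cl : X → ℕ) (σ : X → St ι) : ℝ :=
  ∫ w, G.psi t η K cl σ w ∂μ

/-- Keep `σ` on the `k`-neighbourhood of `D`, delete the rest. -/
noncomputable def near (G : PG μ) (k : ℕ) (D : Set X) (σ : X → St ι) : X → St ι :=
  fun p => if ∃ w ∈ D, p ∈ G.ball k w then σ p else .del

omit [MeasurableSpace X] in
theorem psi_lc_ite {α : Type*} {S : Set X} (hS : IsClopen S) {f g : X → α}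
    (hf : IsLocallyConstant f) (hg : IsLocallyConstant g) :
    IsLocallyConstant fun p => if p ∈ S then f p else g p := by
  rw [IsLocallyConstant.iff_eventually_eq] at hf hg ⊢
  intro x
  by_cases hx : x ∈ S
  · filter_upwards [hf x, hS.isOpen.mem_nhds hx] with y h1 h2
    rw [if_pos h2, if_pos hx, h1]
  · filter_upwards [hg x, hS.compl.isOpen.mem_nhds hx] with y h1 h2
    rw [if_neg h2, if_neg hx, h1]

theorem psi_integrable [BorelSpace X] [CompactSpace X] [IsFiniteMeasure μ] {f : X → ℝ}
    (hf : Continuous f) : Integrable f μ :=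
  hf.integrable_of_hasCompactSupport (HasCompactSupport.of_compactSpace f)

/-- Mass transport to the unique point of a separated set in a ball. -/
theorem psi_mt [BorelSpace X] [CompactSpace X] [IsFiniteMeasure μ] {G : PG μ} {K : ℕ}
    {D : Set X} (hD : IsClopen D) (hs : G.Sep (2 * K) D) {δ : X → ℝ} (hδ : Continuous δ)
    (h0 : ∀ w, (∀ v ∈ G.ball K w, v ∉ D) → δ w = 0) :
    ∫ w, δ w ∂μ = ∫ v in D, ∑ w ∈ G.ball K v, G.wt v w * δ w ∂μ := by
  have hc : Continuous fun v => if v ∈ D then (1 : ℝ) else 0 :=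
    (psi_lc_ite hD (IsLocallyConstant.const _) (IsLocallyConstant.const _)).continuous
  have h1 := mass_transport (G := G) K (F := fun w v => (if v ∈ D then (1 : ℝ) else 0) * δ w)
    fun g => (hc.comp_continuousOn (G.act_cont g)).mul hδ.continuousOn
  rw [← integral_indicator hD.isOpen.measurableSet]
  refine Eq.trans ?_ (h1.trans ?_)
  · refine integral_congr_ae (Eventually.of_forall fun w => ?_)
    by_cases hw : ∀ v ∈ G.ball K w, v ∉ D
    · simp only [h0 w hw, mul_zero, sum_const_zero]
    · push Not at hw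
      obtain ⟨v, hv, hvD⟩ := hw
      beta_reduce
      rw [sum_eq_single_of_mem v hv, if_pos hvD, one_mul]
      intro v' hv' hne
      rw [if_neg, zero_mul]
      intro hv'D
      exact hne (hs v hvD v' hv'D (two_mul K ▸ ball_trans (ball_symm hv) hv'))
  · refine integral_congr_ae (Eventually.of_forall fun v => ?_)
    by_cases hv : v ∈ D
    · simp only [Set.indicator_of_mem hv, if_pos hv, one_mul]
    · simp only [Set.indicator_of_notMem hv, if_neg hv, zero_mul, mul_zero, sum_const_zero]

variable [Nonempty ι] {G : PG μ} {t η ρ e : ℝ} {K N : ℕ} {cl : X → ℕ} {σ σ' : X → St ι}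

theorem continuous_psi (ht : 0 < t) (hη : 0 < η) (hcl : IsLocallyConstant cl)
    (hσ : IsLocallyConstant σ) : Continuous (G.psi t η K cl σ) :=
  continuous_jT ht hη K K (loc2_cut hσ hcl)

/-- The finite identity behind `Psi_update`. Let `Λ = ball (2K) v`. By `wt_mul_jT` and
`jT_ball_loc`, `wt v w * psi σ w = jT Λ (cut σ) w` (weights `wt v`) for `w ∈ ball K v`. For
`w ∈ Λ \ ball K v` the terms for `σ`, `σ'` agree (`jT_ball_loc` with `Λ.erase v`, `jT_congr`).
Then `FF_tele` and `FF_update`. -/
theorem sum_psi_sub (ht : 0 < t) (hη : 0 < η) (hcl : G.Cls (2 * K) N cl) (v : X)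
    (h : ∀ p ∈ G.ball (2 * K) v, p ≠ v → σ p = σ' p) :
    ∑ w ∈ G.ball K v, G.wt v w * (G.psi t η K cl σ' w - G.psi t η K cl σ w) =
      jT t η K G.a (G.wt v) (G.ball (2 * K) v) σ' v -
        jT t η K G.a (G.wt v) (G.ball (2 * K) v) σ v := by
  have hsub : G.ball K v ⊆ G.ball (2 * K) v := ball_mono (by omega) v
  have e1 : ∀ τ : X → St ι, ∀ w ∈ G.ball K v, G.wt v w * G.psi t η K cl τ w =
      jT t η K G.a (G.wt v) (G.ball (2 * K) v) (cut cl (cl w) τ) w := by
    intro τ w hw
    rw [psi, wt_mul_jT hw]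
    refine (jT_ball_loc ht hη v (fun q hq => ?_) (self_mem_ball K w) (fun q _ hq => hq) _).symm
    rw [two_mul]
    exact ball_trans hw hq
  have e2 : ∀ w ∈ G.ball (2 * K) v, w ∉ G.ball K v →
      jT t η K G.a (G.wt v) (G.ball (2 * K) v) (cut cl (cl w) σ') w -
        jT t η K G.a (G.wt v) (G.ball (2 * K) v) (cut cl (cl w) σ) w = 0 := by
    intro w hw hw'
    have hne : w ≠ v := fun e => hw' (e ▸ self_mem_ball K w)
    have e3 : ∀ τ : X → St ι, jT t η K G.a (G.wt v) (G.ball (2 * K) v) τ w =
        jT t η K G.a (G.wt v) ((G.ball (2 * K) v).erase v) τ w := fun τ =>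
      jT_ball_loc ht hη v (erase_subset _ _) (mem_erase.2 ⟨hne, hw⟩)
        (fun q hq hq' => mem_erase.2 ⟨fun e => hw' (ball_symm (e ▸ hq')), hq⟩) τ
    rw [e3, e3, sub_eq_zero]
    refine jT_congr (fun p hp => ?_) fun _ _ => rfl
    simp only [cut, h p (mem_of_mem_erase hp) (ne_of_mem_erase hp)]
  rw [← (G.ok ht hη v).FF_update (self_mem_ball _ v) h, FF_tele ht hη (by omega) hcl,
    FF_tele ht hη (by omega) hcl, ← sum_sub_distrib, ← sum_subset hsub e2]
  refine sum_congr rfl fun w hw => ?_
  rw [mul_sub, e1 _ w hw, e1 _ w hw]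

/-- The finite identity behind `Psi_near`: for `p ∈ ball k w`, `wt_mul_jT`, enlarge
`ball K p` to `Λ = ball K p ∪ ball k w` (`jT_ball_loc`), then `jT_split` with `U = ball k w` (an
edge from a non-deleted vertex of `U` to a non-deleted vertex outside would give a second point
of `D` in `ball (2k+1) w`), `jT_congr` and `FF_tele`. -/
theorem sum_psi_near (ht : 0 < t) (hη : 0 < η) (hcl : G.Cls (2 * K) N cl) {k : ℕ} {D : Set X}
    (hD : G.Sep (2 * k + 1) D) {w : X} (hw : w ∈ D) :
    ∑ p ∈ G.ball k w, G.wt w p * G.psi t η K cl (G.near k D σ) p =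
      FF t η K G.a (G.wt w) (G.ball k w) σ := by
  rw [FF_tele ht hη (by omega) hcl]
  refine sum_congr rfl fun p hp => ?_
  rw [psi, wt_mul_jT hp, ← jT_ball_loc ht hη w (Λ := G.ball K p ∪ G.ball k w) subset_union_left
    (self_mem_ball K p) (fun q _ hq => hq), (G.ok ht hη w).jT_split hp, union_inter_cancel_right]
  · refine jT_congr (fun q hq => ?_) fun _ _ => rfl
    simp only [cut, near, if_pos (⟨w, hw, hq⟩ : ∃ w ∈ D, q ∈ G.ball k w)]
  · intro p' _ q _ hp' hq _ hq'
    by_contra ha
    have h1 : ∃ w' ∈ D, q ∈ G.ball k w' := by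
      by_contra hc
      exact hq' (by simp only [cut, near, if_neg hc, ite_self])
    obtain ⟨w', hw', hq2⟩ := h1
    have h2 := ball_trans (ball_trans hp' (mem_ball_one ha)) (ball_symm hq2)
    rw [show k + 1 + k = 2 * k + 1 by omega] at h2
    exact hq (hD w hw w' hw' h2 ▸ hq2)

variable [BorelSpace X] [CompactSpace X] [IsProbabilityMeasure μ]

/-- Parallel update on a separated set. `psi σ' w - psi σ w` vanishes unless `ball K w` meets `D`
(`jT_congr`), and then in exactly one point; so it equals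
`∑ v ∈ ball K w, 1_D v * (psi σ' w - psi σ w)`. Apply `mass_transport` and `sum_psi_sub`. -/
theorem Psi_update (ht : 0 < t) (hη : 0 < η) (hcl : G.Cls (2 * K) N cl) {D : Set X}
    (hD : IsClopen D) (hs : G.Sep (2 * K) D) (hσ : IsLocallyConstant σ)
    (hσ' : IsLocallyConstant σ') (h : ∀ p, p ∉ D → σ p = σ' p) :
    G.Psi t η K cl σ' - G.Psi t η K cl σ =
      ∫ v in D, (jT t η K G.a (G.wt v) (G.ball (2 * K) v) σ' v -
        jT t η K G.a (G.wt v) (G.ball (2 * K) v) σ v) ∂μ := by
  have c1 := continuous_psi (G := G) (K := K) ht hη hcl.lc hσ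
  have c2 := continuous_psi (G := G) (K := K) ht hη hcl.lc hσ'
  rw [Psi, Psi, ← integral_sub (psi_integrable c2) (psi_integrable c1),
    psi_mt hD hs (δ := fun w => G.psi t η K cl σ' w - G.psi t η K cl σ w) (c2.sub c1)]
  · refine setIntegral_congr_fun hD.isOpen.measurableSet fun v hv => ?_
    exact sum_psi_sub ht hη hcl v fun p hp hne => h p fun hpD => hne (hs v hv p hpD hp)
  · intro w hw
    simp only [psi, sub_eq_zero]
    refine jT_congr (fun p hp => ?_) fun _ _ => rfl
    simp only [cut, h p (hw p hp)]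

theorem Psi_ge (ht : 0 < t) (hη : 0 < η) (hcl : IsLocallyConstant cl) (hσ : IsLocallyConstant σ)
    (hρ : ∀ K ω, Nb ρ G.a (G.wt ω) (G.ball K ω)) (hE : Apx X ι t η K ρ e) :
    -e ≤ G.Psi t η K cl σ := by
  have h1 : ∫ _ : X, -e ∂μ ≤ G.Psi t η K cl σ := by
    refine integral_mono (integrable_const _) (psi_integrable (continuous_psi ht hη hcl hσ))
      fun w => ?_
    have := hE.jT_ge (σ := cut cl (cl w) σ) (v := w) (G.ok ht hη w) (hρ K w)
    rwa [G.wt_self, mul_one] at this
  simpa using h1

/-- Deleting costs at most `e`. Let `σ_n = σ'` on `{cl < n}`, `σ` elsewhere. By `Psi_update`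
with `D = {cl = n}`: at `v ∈ D` either `σ' v = σ v` (the integrand vanishes by `jT_congr` and
separation) or `σ' v = del` (`jT_del`, `Apx.jT_ge`). So
`Psi σ_n ≤ Psi σ + e μ {cl < n}`. -/
theorem Psi_del_le (ht : 0 < t) (hη : 0 < η) (hcl : G.Cls (2 * K) N cl)
    (hρ : ∀ K ω, Nb ρ G.a (G.wt ω) (G.ball K ω)) (hE : Apx X ι t η K ρ e) (he : 0 ≤ e)
    (hσ : IsLocallyConstant σ) (hσ' : IsLocallyConstant σ')
    (h : ∀ p, σ' p = σ p ∨ σ' p = .del) : G.Psi t η K cl σ' ≤ G.Psi t η K cl σ + e := by
  let s : ℕ → X → St ι := fun n p => if p ∈ {p | cl p < n} then σ' p else σ p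
  have hc : ∀ n, IsClopen {p | cl p < n} := fun n =>
    ⟨⟨hcl.lc {j | j < n}ᶜ⟩, hcl.lc {j | j < n}⟩
  have hs : ∀ n, IsLocallyConstant (s n) := fun n => by
    convert psi_lc_ite (hc n) hσ' hσ
  have key : ∀ n, G.Psi t η K cl (s n) ≤ G.Psi t η K cl σ + e * μ.real {p | cl p < n} := by
    intro n
    induction n with
    | zero => simp [s]
    | succ n ih =>
      have hD := hcl.lc.isClopen_fiber n
      have h1 : ∀ p, p ∉ {p | cl p = n} → s n p = s (n + 1) p := by
        intro p hp
        have : cl p < n ↔ cl p < n + 1 := by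
          simp only [Set.mem_ofPred_eq] at hp
          omega
        simp only [s, Set.mem_ofPred_eq, this]
      have h2 := Psi_update ht hη hcl hD (hcl.sep_fiber n) (hs n) (hs (n + 1)) h1
      have h3 : ∫ v in {p | cl p = n}, (jT t η K G.a (G.wt v) (G.ball (2 * K) v) (s (n + 1)) v -
          jT t η K G.a (G.wt v) (G.ball (2 * K) v) (s n) v) ∂μ ≤ ∫ _ in {p | cl p = n}, e ∂μ := by
        refine setIntegral_mono_on (psi_integrable ((continuous_jT ht hη K (2 * K)
          (loc2_right (hs (n + 1)))).sub (continuous_jT ht hη K (2 * K)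
            (loc2_right (hs n))))).integrableOn (integrable_const _).integrableOn
          hD.isOpen.measurableSet fun v hv => ?_
        have hv' : cl v = n := hv
        have e1 : s (n + 1) v = σ' v := if_pos (by simp [hv'])
        have e2 : s n v = σ v := if_neg (by simp [hv'])
        rcases h v with h4 | h4
        · rw [jT_congr (σ := s (n + 1)) (σ' := s n) (wt' := G.wt v) ?_ fun _ _ => rfl, sub_self]
          · exact he
          intro p hp
          by_cases hpv : p = v
          · rw [hpv, e1, e2, h4]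
          · exact (h1 p fun hpD => hpv (hcl.sep_fiber n v hv p hpD hp)).symm
        · rw [jT_del (e1.trans h4), zero_sub, neg_le]
          have := hE.jT_ge (σ := s n) (v := v) (G.ok ht hη v) (hρ (2 * K) v)
          rwa [G.wt_self, mul_one] at this
      have h4 : μ.real {p | cl p < n + 1} = μ.real {p | cl p < n} + μ.real {p | cl p = n} := by
        rw [← measureReal_union (Set.disjoint_left.2 fun p hp hp' => by
          simp only [Set.mem_ofPred_eq] at hp hp'; omega) hD.isOpen.measurableSet]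
        congr 1
        ext p
        simp only [Set.mem_ofPred_eq, Set.mem_union]
        omega
      rw [setIntegral_const, smul_eq_mul] at h3
      rw [h4]
      linarith
  have h1 : s N = σ' := funext fun p => if_pos (hcl.lt p)
  have h2 := key N
  rw [h1] at h2
  have h3 : e * μ.real {p | cl p < N} ≤ e := mul_le_of_le_one_right he measureReal_le_one
  linarith

omit [Fintype ι] [DecidableEq ι] [Nonempty ι] [BorelSpace X] [CompactSpace X]
  [IsProbabilityMeasure μ] in
theorem isLocallyConstant_near (k : ℕ) {D : Set X} (hD : IsClopen D)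
    (hσ : IsLocallyConstant σ) : IsLocallyConstant (G.near k D σ) :=
  psi_lc_ite (isClopen_nbhd hD k) hσ (IsLocallyConstant.const _)

/-- `psi (near σ) p = ∑ w ∈ ball k p, 1_D w * psi (near σ) p` (zero if `p` is deleted, otherwise
exactly one `w`); `mass_transport`, `sum_psi_near`. -/
theorem Psi_near (ht : 0 < t) (hη : 0 < η) (hcl : G.Cls (2 * K) N cl) {k : ℕ} {D : Set X}
    (hD : IsClopen D) (hs : G.Sep (2 * k + 1) D) (hσ : IsLocallyConstant σ) :
    G.Psi t η K cl (G.near k D σ) = ∫ w in D, FF t η K G.a (G.wt w) (G.ball k w) σ ∂μ := by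
  rw [Psi, psi_mt (K := k) hD (fun v hv v' hv' h => hs v hv v' hv' (ball_mono (by omega) v h))
    (continuous_psi ht hη hcl.lc (isLocallyConstant_near k hD hσ))]
  · exact setIntegral_congr_fun hD.isOpen.measurableSet fun w hw => sum_psi_near ht hη hcl hs hw
  · intro p hp
    refine jT_del ?_
    have : ¬ ∃ w ∈ D, p ∈ G.ball k w := fun ⟨w, hw, hw'⟩ => hp w (ball_symm hw') hw
    simp only [cut, near, if_neg this, ite_self]

/-- Sum `Psi_near` and `Psi_del_le` over the `N'` classes of `cl'`. -/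
theorem integral_FF_le (ht : 0 < t) (hη : 0 < η) (hcl : G.Cls (2 * K) N cl)
    (hρ : ∀ K ω, Nb ρ G.a (G.wt ω) (G.ball K ω)) (hE : Apx X ι t η K ρ e) (he : 0 ≤ e)
    (hσ : IsLocallyConstant σ) {k N' : ℕ} {cl' : X → ℕ} (hcl' : G.Cls (2 * k + 1) N' cl') :
    ∫ w, FF t η K G.a (G.wt w) (G.ball k w) σ ∂μ ≤ N' * (G.Psi t η K cl σ + e) := by
  have hF := psi_integrable (μ := μ) (continuous_FF (G := G) ht hη K k (loc2_right hσ))
  have hD := hcl'.lc.isClopen_fiber
  have h1 : ∫ w, FF t η K G.a (G.wt w) (G.ball k w) σ ∂μ = ∑ j ∈ range N',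
      ∫ w in {p | cl' p = j}, FF t η K G.a (G.wt w) (G.ball k w) σ ∂μ := by
    simp only [← integral_indicator (hD _).isOpen.measurableSet]
    rw [← integral_finsetSum _ fun j _ => hF.indicator (hD j).isOpen.measurableSet]
    refine integral_congr_ae (Eventually.of_forall fun w => ?_)
    simp only [Set.indicator, Set.mem_ofPred_eq, sum_ite_eq, mem_range, if_pos (hcl'.lt w)]
  rw [h1]
  refine (sum_le_card_nsmul _ _ (G.Psi t η K cl σ + e) fun j _ => ?_).trans_eq
    (by rw [card_range, nsmul_eq_mul])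
  rw [← Psi_near ht hη hcl (hD j) (hcl'.sep_fiber j) hσ]
  refine Psi_del_le ht hη hcl hρ hE he hσ (isLocallyConstant_near k (hD j) hσ) fun p => ?_
  unfold near
  split_ifs
  · exact Or.inl rfl
  · exact Or.inr rfl

end PG

end Crest.Agent.R109
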