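import Crest.Agent.R109.Psi

/-!
# R109: the randomised rounds
-/

set_option autoImplicit false
open Finset Filter Topology MeasureTheory
open scoped Classical

namespace Crest.Agent.R109

universe u

/-- Averaging a function of one coordinate over a product. -/
theorem sum_coord {S : Type*} [Fintype S] {n : ℕ} [NeZero n] (s : S) (f : Fin n → ℝ) :
    ∑ κ : S → Fin n, f (κ s) = (Fintype.card (S → Fin n) : ℝ) / n * ∑ k, f k := by
  have hn : (n : ℝ) ≠ 0 := by exact_mod_cast NeZero.ne n
  rw [← (Equiv.funSplitAt s (Fin n)).symm.sum_comp, Fintype.sum_prod_type,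
    Fintype.card_congr (Equiv.funSplitAt s (Fin n)), Fintype.card_prod, Fintype.card_fin,
    Nat.cast_mul, mul_div_cancel_left₀ _ hn, mul_sum]
  refine sum_congr rfl fun k _ => ?_
  simp

theorem round_lc_cont {X α : Type*} [TopologicalSpace X] {f : X → α} (hf : IsLocallyConstant f)
    {H : α → X → ℝ} (hH : ∀ a, Continuous (H a)) : Continuous fun x => H (f x) x :=
  continuous_iff_continuousAt.2 fun x => (hH (f x)).continuousAt.congr
    ((hf.eventually_eq x).mono fun y hy => by simp only [hy])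

theorem round_lc_ite {X α : Type*} [TopologicalSpace X] {D : Set X} (hD : IsClopen D)
    {f g : X → α} (hf : IsLocallyConstant f) (hg : IsLocallyConstant g) :
    IsLocallyConstant fun x => if x ∈ D then f x else g x := by
  refine (IsLocallyConstant.iff_eventually_eq _).2 fun x => ?_
  by_cases hx : x ∈ D
  · filter_upwards [hD.isOpen.mem_nhds hx, hf.eventually_eq x] with y h1 h2
    rw [if_pos h1, if_pos hx, h2]
  · filter_upwards [hD.compl.isOpen.mem_nhds hx, hg.eventually_eq x] with y h1 h2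
    rw [if_neg h1, if_neg hx, h2]

theorem round_sum_sum {A B C : Type*} {_ : Fintype (A ⊕ B → C)} [Fintype (A → C)] [Fintype (B → C)]
    (f : (A ⊕ B → C) → ℝ) : ∑ κ, f κ = ∑ κ : A → C, ∑ κ₁ : B → C, f (Sum.elim κ κ₁) := by
  rw [← Fintype.sum_prod_type', ← (Equiv.sumArrowEquivProdArrow A B C).symm.sum_comp]
  rfl

theorem round_card_sum {A B C : Type*} {_ : Fintype (A ⊕ B → C)} [Fintype (A → C)]
    [Fintype (B → C)] :
    (Fintype.card (A ⊕ B → C) : ℝ) = Fintype.card (A → C) * Fintype.card (B → C) := by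
  rw [Fintype.card_congr (Equiv.sumArrowEquivProdArrow A B C), Fintype.card_prod, Nat.cast_mul]

theorem round_lc_fin {X : Type u} [TopologicalSpace X] [CompactSpace X] {α : Type*} {f : X → α}
    (hf : IsLocallyConstant f) : ∃ (S : Type) (_ : Fintype S) (lab : X → S),
      IsLocallyConstant lab ∧ ∀ ω ω', lab ω = lab ω' → f ω = f ω' := by
  obtain ⟨m, lab, h1, h2⟩ := exists_lc_fin hf
  exact ⟨Fin m, inferInstance, lab, h1, fun ω ω' h => (h2 ω ω').1 h⟩

namespace PG
variable {X : Type u} [TopologicalSpace X] [MeasurableSpace X] {μ : Measure X}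
variable {ι : Type} [Fintype ι] [DecidableEq ι]

/-- The two-sided potential plus the penalty for deleted points. -/
noncomputable def Y (G : PG μ) (t η : ℝ) (K : ℕ) (cl : X → ℕ) (σ : X → St ι) : ℝ :=
  G.Psi t η K cl σ + G.neg.Psi t η K cl σ + Real.pi * t / 16 * μ.real {ω | σ ω = .del}

/-- The new state given an option (delete, or a list of colours) and a seed. -/
def newSt {n : ℕ} (o : Option (Fin n ↪ ι)) (k : Fin n) : St ι :=
  match o with
  | none => .del
  | some I => .col (I k)

/-- Update on `D`. -/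
noncomputable def upd {n : ℕ} (σ : X → St ι) (D : Set X) (o : X → Option (Fin n ↪ ι))
    (k : X → Fin n) : X → St ι :=
  fun ω => if ω ∈ D then newSt (o ω) (k ω) else σ ω

/-- The two-sided local increment. -/
noncomputable def roundJ (G : PG μ) (t η : ℝ) (K : ℕ) (s : X → St ι) (v : X) : ℝ :=
  jT t η K G.a (G.wt v) (G.ball (2 * K) v) s v +
    jT t η K (fun p q => -G.a p q) (G.wt v) (G.ball (2 * K) v) s v

/-- The local cost of an option. -/
noncomputable def roundG {n : ℕ} (G : PG μ) (t η : ℝ) (K : ℕ) (σ : X → St ι)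
    (p : Option (Fin n ↪ ι) × Fin n) (v : X) : ℝ :=
  G.roundJ t η K (Function.update σ v (newSt p.1 p.2)) v - G.roundJ t η K σ v +
    Real.pi * t / 16 * if p.1 = none then 1 else 0

omit [MeasurableSpace X] [Fintype ι] [DecidableEq ι] in
theorem round_upd_lc {n : ℕ} {σ : X → St ι} {D : Set X} {o : X → Option (Fin n ↪ ι)}
    {k : X → Fin n} (hD : IsClopen D) (hσ : IsLocallyConstant σ) (ho : IsLocallyConstant o)
    (hk : IsLocallyConstant k) : IsLocallyConstant (upd σ D o k) :=
  round_lc_ite hD (ho.comp₂ hk newSt) hσ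

/-- The invariant after `m` rounds. -/
def Inv (G : PG μ) (ι : Type) [Fintype ι] [DecidableEq ι] (n : ℕ) [NeZero n] (t η : ℝ) (K : ℕ)
    (cl : X → ℕ) {L₀ : Type} (lab₀ : X → L₀) (m : ℕ) (b : ℝ) : Prop :=
  ∃ (Lab : Type) (_ : Fintype Lab) (lab : X → Lab) (σ : (Lab → Fin n) → X → St ι)
    (T : ι → (Lab → Fin n) ≃ (Lab → Fin n)),
    IsLocallyConstant lab ∧ (∀ ω ω', lab ω = lab ω' → lab₀ ω = lab₀ ω') ∧
    (∀ κ, IsLocallyConstant (σ κ)) ∧ (∀ κ ω, σ κ ω = .unc ↔ m ≤ cl ω) ∧
    (∀ κ ω j, σ κ ω = .col j → T j κ (lab ω) = 0) ∧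
    ∑ κ, G.Y t η K cl (σ κ) ≤ Fintype.card (Lab → Fin n) * b

variable [Nonempty ι] [BorelSpace X] [CompactSpace X] [T2Space X] [TotallyDisconnectedSpace X]
  [IsProbabilityMeasure μ] {G : PG μ} {t η ρ e : ℝ} {K N n : ℕ} [NeZero n] {cl : X → ℕ}

omit [BorelSpace X] [CompactSpace X] [T2Space X] [TotallyDisconnectedSpace X]
  [IsProbabilityMeasure μ] in
theorem round_cont (ht : 0 < t) (hη : 0 < η) {s : X → X → St ι} (hs : G.Loc2 s) :
    Continuous fun v => G.roundJ t η K (s v) v :=
  (continuous_jT ht hη K (2 * K) hs).add (continuous_jT (G := G.neg) ht hη K (2 * K) hs)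

omit [BorelSpace X] [CompactSpace X] [T2Space X] [TotallyDisconnectedSpace X]
  [IsProbabilityMeasure μ] [NeZero n] in
theorem round_contG (ht : 0 < t) (hη : 0 < η) {σ : X → St ι} (hσ : IsLocallyConstant σ)
    (p : Option (Fin n ↪ ι) × Fin n) : Continuous (G.roundG t η K σ p) :=
  ((round_cont ht hη ((loc2_right hσ).update _)).sub (round_cont ht hη (loc2_right hσ))).add
    continuous_const

omit [T2Space X] [TotallyDisconnectedSpace X] in
theorem round_int {f : X → ℝ} (hf : Continuous f) (D : Set X) : IntegrableOn f D μ :=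
  (hf.integrable_of_hasCompactSupport (HasCompactSupport.of_compactSpace f)).integrableOn

omit [T2Space X] [TotallyDisconnectedSpace X] [NeZero n] in
theorem round_one (ht : 0 < t) (hη : 0 < η) (hcl : G.Cls (2 * K) N cl) {D : Set X}
    (hD : IsClopen D) (hs : G.Sep (2 * K) D) {σ : X → St ι} (hσ : IsLocallyConstant σ)
    {o : X → Option (Fin n ↪ ι)} (ho : IsLocallyConstant o) {k : X → Fin n}
    (hk : IsLocallyConstant k) :
    G.Y t η K cl (upd σ D o k) ≤ G.Y t η K cl σ + ∫ v in D, G.roundG t η K σ (o v, k v) v ∂μ := by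
  have hσ' := round_upd_lc hD hσ ho hk
  have hoff : ∀ p, p ∉ D → σ p = upd σ D o k p := fun p hp => by rw [upd, if_neg hp]
  have h1 := Psi_update ht hη hcl hD hs hσ hσ' hoff
  have h2 := Psi_update (G := G.neg) ht hη hcl.neg hD hs hσ hσ' hoff
  have c1 := (continuous_jT (G := G) ht hη K (2 * K) (loc2_right hσ')).sub
    (continuous_jT (G := G) ht hη K (2 * K) (loc2_right hσ))
  have c2 := (continuous_jT (G := G.neg) ht hη K (2 * K) (loc2_right hσ')).sub
    (continuous_jT (G := G.neg) ht hη K (2 * K) (loc2_right hσ))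
  have c3 : Continuous fun v => if o v = none then (1 : ℝ) else 0 :=
    (ho.comp fun p => if p = none then (1 : ℝ) else 0).continuous
  have hm := hD.isOpen.measurableSet
  have hm' : MeasurableSet {v | o v = none} := (ho.isOpen_fiber none).measurableSet
  have h3 : μ.real {ω | upd σ D o k ω = .del} ≤
      μ.real {ω | σ ω = .del} + ∫ v in D, (if o v = none then (1 : ℝ) else 0) ∂μ := by
    have e : ∫ v in D, (if o v = none then (1 : ℝ) else 0) ∂μ = μ.real (D ∩ {v | o v = none}) := by
      rw [← setIntegral_one_eq_measureReal, ← setIntegral_indicator hm']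
      refine integral_congr_ae (Eventually.of_forall fun v => ?_)
      simp only [Set.indicator_apply, Set.mem_ofPred_eq]
    rw [e]
    refine le_trans (measureReal_mono fun ω hω => ?_) (measureReal_union_le _ _)
    by_cases h : ω ∈ D
    · refine Or.inr ⟨h, ?_⟩
      simp only [Set.mem_ofPred_eq, upd, if_pos h] at hω ⊢
      cases h' : o ω with
      | none => rfl
      | some I => rw [h'] at hω; cases hω
    · exact Or.inl ((hoff ω h).trans hω)
  have h4 := integral_add (round_int (μ := μ) c1 D) (round_int (μ := μ) c2 D)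
  have h5 := integral_add (round_int (μ := μ) (c1.add c2) D)
    (round_int (μ := μ) (continuous_const.mul c3 (f := fun _ => Real.pi * t / 16)) D)
  have h6 : ∫ v in D, G.roundG t η K σ (o v, k v) v ∂μ =
      (G.Psi t η K cl (upd σ D o k) - G.Psi t η K cl σ) +
      (G.neg.Psi t η K cl (upd σ D o k) - G.neg.Psi t η K cl σ) +
        Real.pi * t / 16 * ∫ v in D, (if o v = none then (1 : ℝ) else 0) ∂μ := by
    rw [h1, h2, ← integral_const_mul]
    refine Eq.trans (setIntegral_congr_fun hm fun v hv => ?_) (h5.trans (congrArg₂ _ h4 rfl))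
    have e : ∀ p ∈ G.ball (2 * K) v,
        Function.update σ v (newSt (o v) (k v)) p = upd σ D o k p := by
      intro p hp
      by_cases hpv : p = v
      · rw [hpv, Function.update_self, upd, if_pos hv]
      · rw [Function.update_of_ne hpv]
        exact hoff p fun hpD => hpv (hs v hv p hpD hp)
    simp only [roundG, roundJ, jT_congr e fun _ _ => rfl, Pi.add_apply, Pi.sub_apply,
      Pi.mul_apply, neg_ball, neg_wt, neg_a]
    ring
  have h7 : 0 ≤ Real.pi * t / 16 := by positivity
  rw [h6, Y, Y]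
  nlinarith [mul_le_mul_of_nonneg_left h3 h7]

/-- One parallel round on a separated clopen set. Let `J s v` be the sum over `± a` of
`jT (ball (2K) v) (s v) v`. For an option `o` let `P o` be `Dᶜ` together with the set where the
corresponding strict inequality of `Apx.step` holds; it is open (`continuous_jT` with
`loc2_right`, `Loc2.update`). Select `o` by `exists_lc_select`. For each seed use `Psi_update`
for `G` and `G.neg`; at `v ∈ D` the new configuration agrees with `update σ v _` on
`ball (2K) v` (`jT_congr`, separation). Sum over the seeds inside the integral (`sum_coord`,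
`jT_del`); the deleted set grows by `D ∩ {o = none}`, which is compensated pointwise since
`- J + π t / 16 < 3 e ≤ 14 η + 5 e`. -/
theorem round (ht : 0 < t) (hη : 0 < η) (hηt : η ≤ t / 2) (he : 0 < e)
    (hcard : Fintype.card ι = 2 * n) (hcl : G.Cls (2 * K) N cl)
    (hρ : ∀ K ω, Nb ρ G.a (G.wt ω) (G.ball K ω)) (hE : Apx X ι t η K ρ e) {D : Set X}
    (hD : IsClopen D) (hs : G.Sep (2 * K) D) {σ : X → St ι} (hσ : IsLocallyConstant σ)
    (hu : ∀ ω ∈ D, σ ω = .unc) :
    ∃ o : X → Option (Fin n ↪ ι), IsLocallyConstant o ∧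
      ∀ (S : Type) [Fintype S] (lab : X → S), IsLocallyConstant lab →
        ∑ κ : S → Fin n, G.Y t η K cl (upd σ D o fun ω => κ (lab ω)) ≤
          Fintype.card (S → Fin n) * (G.Y t η K cl σ + (14 * η + 5 * e) * μ.real D) := by
  obtain ⟨o, ho, hP⟩ := exists_lc_select (X := X) (fun o : Option (Fin n ↪ ι) =>
      Dᶜ ∪ {v | ∑ k, G.roundG t η K σ (o, k) v < n * (14 * η + 5 * e)})
    (fun o => hD.compl.isOpen.union (isOpen_lt
      (continuous_finsetSum _ fun k _ => round_contG ht hη hσ _) continuous_const))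
    (fun v => by
      by_cases hv : v ∈ D
      swap
      · exact ⟨none, Or.inl hv⟩
      have hn : (0 : ℝ) < n := by exact_mod_cast Nat.pos_of_ne_zero (NeZero.ne n)
      rcases hE.step he (G.ok ht hη v) (hρ (2 * K) v) hηt hcard (self_mem_ball _ v)
        (G.wt_self v) (hu v hv) with h | ⟨I, h⟩
      · refine ⟨none, Or.inr ?_⟩
        simp only [Set.mem_ofPred_eq, roundG, roundJ, newSt, if_true, sum_const, card_univ,
          Fintype.card_fin, nsmul_eq_mul]
        rw [jT_del (Function.update_self _ _ _), jT_del (Function.update_self _ _ _)]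
        exact mul_lt_mul_of_pos_left (by linarith) hn
      · refine ⟨some I, Or.inr ?_⟩
        simp only [Set.mem_ofPred_eq, roundG, roundJ, newSt, reduceCtorEq, if_false, mul_zero,
          add_zero]
        rw [sum_sub_distrib, sum_const, card_univ, Fintype.card_fin, nsmul_eq_mul]
        linarith)
  refine ⟨o, ho, fun S _ lab hlab => ?_⟩
  have hk : ∀ κ : S → Fin n, IsLocallyConstant fun ω => κ (lab ω) := fun κ => hlab.comp κ
  have hc : ∀ κ : S → Fin n, Continuous fun v => G.roundG t η K σ (o v, κ (lab v)) v := fun κ =>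
    round_lc_cont (ho.prodMk (hk κ)) (round_contG ht hη hσ)
  refine (sum_le_sum fun κ _ => round_one ht hη hcl hD hs hσ ho (hk κ)).trans ?_
  rw [sum_add_distrib, sum_const, card_univ, nsmul_eq_mul, mul_add,
    ← integral_finsetSum _ fun κ _ => round_int (hc κ) D]
  refine add_le_add_right ?_ _
  have hn : (0 : ℝ) < n := by exact_mod_cast Nat.pos_of_ne_zero (NeZero.ne n)
  calc _ ≤ ∫ _ in D, (Fintype.card (S → Fin n) : ℝ) * (14 * η + 5 * e) ∂μ := by
        refine setIntegral_mono_on (round_int (continuous_finsetSum _ fun κ _ => hc κ) D)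
          (round_int continuous_const D) hD.isOpen.measurableSet fun v hv => ?_
        rw [sum_coord (lab v) fun k => G.roundG t η K σ (o v, k) v]
        have h1 := (hP v).resolve_left (not_not.2 hv)
        calc _ ≤ (Fintype.card (S → Fin n) : ℝ) / n * (n * (14 * η + 5 * e)) :=
              mul_le_mul_of_nonneg_left (le_of_lt h1) (by positivity)
          _ = _ := by field_simp
    _ = _ := by rw [setIntegral_const, smul_eq_mul]; ring

/-- With `D = {cl = m}` choose `o κ` by `round` for every `κ`, and `lab₁ : X → Fin m₁` by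
`exists_lc_fin` for `ω ↦ (lab₀ ω, fun κ => o κ ω)` (`lab₀` is locally constant since it factors
through `lab`). New labels `Lab ⊕ Fin m₁`, `lab' ω = if ω ∈ D then inr (lab₁ ω) else inl (lab ω)`,
`σ' κ' = upd (σ (κ' ∘ inl)) D (o (κ' ∘ inl)) (κ' ∘ inr ∘ lab₁)`, and
`T' j (κ, κ₁) = (T j κ, fun s => κ₁ s - pos j κ s)` where `pos j κ s = Function.invFun I j` if
`o κ ω = some I` for the points `ω` with `lab₁ ω = s`
(`Equiv.sumArrowEquivProdArrow`, `Equiv.prodShear`). -/
theorem Inv.succ (ht : 0 < t) (hη : 0 < η) (hηt : η ≤ t / 2) (he : 0 < e)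
    (hcard : Fintype.card ι = 2 * n) (hcl : G.Cls (2 * K) N cl)
    (hρ : ∀ K ω, Nb ρ G.a (G.wt ω) (G.ball K ω)) (hE : Apx X ι t η K ρ e) {L₀ : Type}
    {lab₀ : X → L₀} {m : ℕ} {b : ℝ} (h : G.Inv ι n t η K cl lab₀ m b) :
    G.Inv ι n t η K cl lab₀ (m + 1) (b + (14 * η + 5 * e) * μ.real {ω | cl ω = m}) := by
  obtain ⟨Lab, _, lab, σ, T, h1, h2, h3, h4, h5, h6⟩ := h
  obtain ⟨D, hDe⟩ : ∃ D : Set X, D = {ω | cl ω = m} := ⟨_, rfl⟩
  have hD : IsClopen D := hDe ▸ hcl.lc.isClopen_fiber m
  have hDm : ∀ ω, ω ∈ D ↔ cl ω = m := fun ω => by rw [hDe]; rfl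
  choose o ho hY using fun κ => round ht hη hηt he hcard hcl hρ hE hD (hDe ▸ hcl.sep_fiber m)
    (h3 κ) fun ω hω => (h4 κ ω).2 (le_of_eq ((hDm ω).1 hω).symm)
  rw [← hDe]
  have hF : IsLocallyConstant fun ω => (lab₀ ω, fun κ => o κ ω) := by
    refine (IsLocallyConstant.iff_eventually_eq _).2 fun x => ?_
    filter_upwards [h1.eventually_eq x, eventually_all.2 fun κ => (ho κ).eventually_eq x]
      with y e1 e2
    exact Prod.ext (h2 _ _ e1) (funext e2)
  obtain ⟨S, _, lab₁, hl1, hl2⟩ := round_lc_fin hF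
  obtain ⟨pos, hpos⟩ : ∃ pos : ι → (Lab → Fin n) → S → Fin n,
      ∀ j κ ω I k, o κ ω = some I → I k = j → pos j κ (lab₁ ω) = k := by
    refine ⟨fun j κ s => if h : ∃ ω, lab₁ ω = s then
      (o κ h.choose).elim 0 fun I => Function.invFun I j else 0, fun j κ ω I k e1 e2 => ?_⟩
    have h : ∃ ω', lab₁ ω' = lab₁ ω := ⟨ω, rfl⟩
    have e3 : o κ h.choose = o κ ω := congrFun (congrArg Prod.snd (hl2 _ _ h.choose_spec)) κ
    simp only [dif_pos h, e3, e1, Option.elim_some, ← e2]
    exact Function.leftInverse_invFun I.injective k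
  refine ⟨Lab ⊕ S, inferInstance,
    fun ω => if ω ∈ D then Sum.inr (lab₁ ω) else Sum.inl (lab ω),
    fun κ => upd (σ (κ ∘ Sum.inl)) D (o (κ ∘ Sum.inl)) fun ω => κ (Sum.inr (lab₁ ω)),
    fun j => (Equiv.sumArrowEquivProdArrow _ _ _).trans
      ((Equiv.prodShear (T j) fun κ => Equiv.subRight (pos j κ)).trans
        (Equiv.sumArrowEquivProdArrow _ _ _).symm),
    round_lc_ite hD (hl1.comp Sum.inr) (h1.comp Sum.inl), fun ω ω' h => ?_,
    fun κ => round_upd_lc hD (h3 _) (ho _) (hl1.comp fun s => κ (Sum.inr s)),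
    fun κ ω => ?_, fun κ ω j h => ?_, ?_⟩
  · beta_reduce at h
    split_ifs at h
    · exact congrArg Prod.fst (hl2 _ _ (Sum.inr_injective h))
    · exact h2 _ _ (Sum.inl_injective h)
  · simp only [upd]
    split_ifs with hω
    · have hω' : cl ω = m := (hDm ω).1 hω
      refine iff_of_false ?_ (by omega)
      cases o (κ ∘ Sum.inl) ω <;> simp [newSt]
    · have hω' : cl ω ≠ m := fun h => hω ((hDm ω).2 h)
      rw [h4]; omega
  · simp only [upd] at h
    beta_reduce
    split_ifs at h ⊢ with hω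
    · change κ (Sum.inr (lab₁ ω)) - pos j (κ ∘ Sum.inl) (lab₁ ω) = 0
      rw [sub_eq_zero]
      cases h' : o (κ ∘ Sum.inl) ω with
      | none => rw [h'] at h; cases h
      | some I =>
        rw [h'] at h
        exact (hpos j _ ω I _ h' (St.col.inj h)).symm
    · exact h5 _ ω j h
  · rw [round_sum_sum, round_card_sum]
    refine (sum_le_sum fun κ _ => hY κ S lab₁ hl1).trans ?_
    rw [← mul_sum, sum_add_distrib, sum_const, card_univ, nsmul_eq_mul, mul_comm
      (Fintype.card (Lab → Fin n) : ℝ) (Fintype.card (S → Fin n) : ℝ), mul_assoc]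
    exact mul_le_mul_of_nonneg_left (by linarith) (Nat.cast_nonneg _)

/-- Start with `σ = unc` (labels from `exists_lc_fin`, `T = Equiv.refl`), iterate `N` times;
`∑_{m < N} μ {cl = m} = 1`. -/
theorem inv_final (ht : 0 < t) (hη : 0 < η) (hηt : η ≤ t / 2) (he : 0 < e)
    (hcard : Fintype.card ι = 2 * n) (hcl : G.Cls (2 * K) N cl)
    (hρ : ∀ K ω, Nb ρ G.a (G.wt ω) (G.ball K ω)) (hE : Apx X ι t η K ρ e) {L₀ : Type}
    {lab₀ : X → L₀} (hl : IsLocallyConstant lab₀) :
    G.Inv ι n t η K cl lab₀ N (G.Y t η K cl (fun _ => (.unc : St ι)) + (14 * η + 5 * e)) := by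
  have key : ∀ m, G.Inv ι n t η K cl lab₀ m (G.Y t η K cl (fun _ => (.unc : St ι)) +
      (14 * η + 5 * e) * ∑ j ∈ range m, μ.real {ω | cl ω = j}) := by
    intro m
    induction m with
    | zero =>
      obtain ⟨S, _, lab, h1, h2⟩ := round_lc_fin hl
      exact ⟨S, inferInstance, lab, fun _ _ => .unc, fun _ => Equiv.refl _, h1, h2,
        fun _ => IsLocallyConstant.const _, fun _ _ => by simp, fun _ _ _ h => (by cases h),
        by simp⟩
    | succ m ih =>
      rw [sum_range_succ, mul_add, ← add_assoc]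
      exact ih.succ ht hη hηt he hcard hcl hρ hE
  have h1 : ∑ j ∈ range N, μ.real {ω | cl ω = j} = 1 := by
    have h2 := sum_measureReal_preimage_singleton (μ := μ) (range N) (f := cl)
      fun j _ => (hcl.lc.isOpen_fiber j).measurableSet
    have h3 : cl ⁻¹' (range N : Finset ℕ) = Set.univ :=
      Set.eq_univ_of_forall fun ω => by simpa using hcl.lt ω
    rw [h3, probReal_univ] at h2
    exact h2
  have h2 := key N
  rwa [h1, mul_one] at h2

end PG

end Crest.Agent.R109
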