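import Crest.Agent.R109.ZI

/-!
# R109: the single-site functional `jj` and its bounds
-/

set_option autoImplicit false
open Filter Topology MeasureTheory Set Complex

namespace Crest.Agent.R109

/-- `∫_0^∞ Im log (1 - β u / (κ (t + i η + u))) du`. -/
noncomputable def jj (κ t η : ℝ) (β : ℂ → ℂ) : ℝ := ∫ u in Ioi (0 : ℝ), dA κ t η (β u) u

variable {β : ℂ → ℂ} {κ t η : ℝ}

private theorem site_shift (f : ℝ → ℝ) (a c : ℝ) :
    ∫ u in Ioi a, f (u + c) = ∫ x in Ioi (a + c), f x := by
  have := (measurePreserving_add_right volume c).setIntegral_preimage_emb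
    (measurableEmbedding_addRight c) f (Ioi (a + c))
  rwa [preimage_add_const_Ioi, add_sub_cancel_right] at this

private theorem site_ii {f : ℝ → ℝ} {a b c : ℝ} (hf : IntegrableOn f (Ioi c)) (ha : c ≤ a)
    (hab : a ≤ b) : IntervalIntegrable f volume a b :=
  (intervalIntegrable_iff_integrableOn_Ioc_of_le hab).2
    (hf.mono_set fun _ hx => lt_of_le_of_lt ha hx.1)

private theorem site_split {f : ℝ → ℝ} {a b : ℝ} (hf : IntegrableOn f (Ioi a)) (hab : a ≤ b) :
    ∫ x in Ioi a, f x = (∫ x in a..b, f x) + ∫ x in Ioi b, f x :=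
  (intervalIntegral.integral_interval_add_Ioi hf (hf.mono_set (Ioi_subset_Ioi hab))).symm

private theorem site_le {f : ℝ → ℝ} {a b K : ℝ} (hab : a ≤ b)
    (hf : IntervalIntegrable f volume a b) (h : ∀ x ∈ Ioo a b, f x ≤ K) :
    ∫ x in a..b, f x ≤ (b - a) * K := by
  simpa using intervalIntegral.integral_mono_on_of_le_Ioo hab hf intervalIntegrable_const h

private theorem site_ge {f : ℝ → ℝ} {a b K : ℝ} (hab : a ≤ b)
    (hf : IntervalIntegrable f volume a b) (h : ∀ x ∈ Ioo a b, K ≤ f x) :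
    (b - a) * K ≤ ∫ x in a..b, f x := by
  simpa using intervalIntegral.integral_mono_on_of_le_Ioo hab intervalIntegrable_const hf h

/-- a lower bound from a window on which the shift is at least `m` -/
private theorem site_win (hη : 0 < η) {F : ℝ → ℝ} {a b m p : ℝ} (hF : IntegrableOn F (Ioi a))
    (hab : a ≤ b) (hm : 0 ≤ m) (hp : t - b + m ≤ p) (h0 : ∀ y, a < y → 0 ≤ F y)
    (h1 : ∀ y ∈ Ioo a b, ang η (t - y) - ang η (t - y + m) ≤ F y) :
    m * (ang η p - ang η (t - a)) ≤ ∫ y in Ioi a, F y := by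
  have hc := ang_continuous hη
  have h2 : 0 ≤ ∫ y in Ioi b, F y :=
    setIntegral_nonneg measurableSet_Ioi fun y hy => h0 y (lt_of_le_of_lt hab hy)
  have h3 := intervalIntegral.integral_mono_on_of_le_Ioo hab
    (Continuous.intervalIntegrable (by fun_prop) _ _) (site_ii hF le_rfl hab) h1
  have h4 := intervalIntegral.integral_comp_sub_left (a := a) (b := b)
    (fun x => ang η x - ang η (x + m)) t
  rw [ang_sub_interval hη] at h4
  have h5 := site_ge (K := ang η p) (le_add_of_nonneg_right (a := t - b) hm)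
    (hc.intervalIntegrable _ _) fun x hx => ang_anti hη (hx.2.le.trans hp)
  have h6 := site_le (K := ang η (t - a)) (le_add_of_nonneg_right (a := t - a) hm)
    (hc.intervalIntegrable _ _) fun x hx => ang_anti hη hx.1.le
  rw [add_sub_cancel_left] at h5 h6
  rw [site_split hF hab]
  linarith

private theorem site_im (h : Herg β) (hκ : 0 < κ) (hη : 0 < η) (t u p : ℝ) :
    0 < ((κ * (t + u + η * I) - (β u - p) : ℂ)).im := by
  have h1 := h.im_le u (by simp)
  have h2 := mul_pos hκ hη
  simp only [sub_im, mul_im, ofReal_re, ofReal_im, add_im, I_im, I_re, zero_mul, mul_one]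
  linarith

/-- Continuity, the bound `π` and `abs_dA_le'` for large `u`. -/
theorem Herg.jj_integrable (h : Herg β) (hκ : 0 < κ) (hη : 0 < η) (t : ℝ) :
    IntegrableOn (fun u : ℝ => dA κ t η (β u) u) (Ioi 0) := by
  have hc : Continuous fun u : ℝ => dA κ t η (β u) u := by
    have h1 := h.continuous
    refine Continuous.sub (continuous_iff_continuousAt.2 fun u => ?_)
      ((ang_continuous hη).comp (by fun_prop))
    refine ContinuousAt.comp (f := fun u : ℝ => (κ * (t + u + η * I) - β u : ℂ))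
      (Complex.continuousAt_arg (Or.inr ?_)) (Continuous.continuousAt (Continuous.sub (by fun_prop) h1))
    have := site_im h hκ hη t u 0
    simp only [ofReal_zero, sub_zero] at this
    exact this.ne'
  obtain ⟨C, hC⟩ := h.bound
  refine IntegrableOn.mono_set ?_ (Ioi_subset_Ici_self (a := (0 : ℝ)))
  refine (hc.locallyIntegrable.locallyIntegrableOn _).integrableOn_of_isBigO_atTop
    (g := fun u : ℝ => (1 + u ^ 2)⁻¹) ?_ (integrable_inv_one_add_sq.integrableAtFilter _)
  refine Asymptotics.IsBigO.of_bound (3 * C / κ) ?_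
  filter_upwards [eventually_ge_atTop 1, eventually_ge_atTop (2 * |t|),
    eventually_ge_atTop (4 * C / κ)] with u h1 h2 h3
  have h4 := hC u (by simp)
  rw [Complex.norm_real, Real.norm_of_nonneg (by linarith)] at h4
  have hC0 : 0 ≤ C := by
    have := (norm_nonneg _).trans h4
    exact (div_nonneg_iff.1 this).elim (fun h => h.1) fun h => by linarith [h.2]
  have h5 : u / 2 ≤ |t + u| := by
    have := neg_abs_le t
    exact le_trans (by linarith) (le_abs_self _)
  have h6 : C / (1 + u) ≤ C := div_le_self hC0 (by linarith)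
  rw [div_le_iff₀ hκ] at h3
  have h7 := abs_dA_le' (t := t) hκ hη (h.im_le u (by simp)) (u := u)
    (by nlinarith [mul_le_mul_of_nonneg_left h5 hκ.le])
  rw [Real.norm_eq_abs, Real.norm_of_nonneg (by positivity)]
  refine h7.trans ?_
  calc 3 / 2 * (‖β u‖ / (κ * |t + u|)) ≤ 3 / 2 * (C / (1 + u) / (κ * (u / 2))) := by gcongr
    _ = 3 * C / κ * (u + u ^ 2)⁻¹ := by field_simp
    _ ≤ _ := by gcongr

/-- If `M / (u + U) ≤ nn β u` for all `u > 0`: `arg_le_arg_sub` and `Herg.split`. -/
theorem Herg.jj_ge (h : Herg β) (hκ : 0 < κ) (hη : 0 < η) (t : ℝ) {M U : ℝ} (hM : 0 ≤ M)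
    (hU : 0 < U) (hn : ∀ u, 0 < u → M / (u + U) ≤ nn β u) :
    ∫ y in Ioi (0 : ℝ), (ang η (t - y) - ang η (t - y + (mm β y + M / (y - U)) / κ)) ≤
      jj κ t η β := by
  obtain ⟨h1, -, h3⟩ := h.split (t := t) hκ hη hM hU
  rw [← h3]
  refine setIntegral_mono_on h1 (h.jj_integrable hκ hη t) measurableSet_Ioi fun u hu => ?_
  have h4 := arg_le_arg_sub (site_im h hκ hη t u (nn β u - M / (u + U)))
    (sub_nonneg.2 (hn u hu))
  unfold dA
  refine sub_le_sub_right (le_of_eq_of_le ?_ (h4.trans_eq ?_)) _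
  · congr 1; push_cast; ring
  · congr 1; push_cast; ring

/-- `M = 0`: the integrand is nonnegative. -/
theorem Herg.jj_nonneg (h : Herg β) (hκ : 0 < κ) (hη : 0 < η) (t : ℝ) : 0 ≤ jj κ t η β := by
  refine le_trans ?_ (h.jj_ge hκ hη t le_rfl one_pos fun u hu => by simpa using h.nn_nonneg hu)
  refine setIntegral_nonneg measurableSet_Ioi fun y hy => sub_nonneg.2 (ang_anti hη ?_)
  have := h.mm_nonneg hy
  rw [zero_div, add_zero]
  exact le_add_of_nonneg_right (by positivity)

/-- `jj_nonneg` for `Herg.shift` and `t + U`. -/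
theorem Herg.tail_nonneg (h : Herg β) (hκ : 0 < κ) (hη : 0 < η) (t : ℝ) {U : ℝ} (hU : 0 ≤ U) :
    0 ≤ ∫ u in Ioi U, dA κ t η (β u) u := by
  have h1 := (h.shift U).jj_nonneg hκ hη (t + U)
  have h2 := site_shift (fun u : ℝ => dA κ t η (β u) u) 0 U
  rw [zero_add] at h2
  rw [← h2]
  refine h1.trans_eq (integral_congr_ae (Eventually.of_forall fun u => ?_))
  unfold dA
  push_cast
  rw [add_comm (u : ℂ) U, add_comm u U, add_assoc t, add_assoc (t : ℂ)]

/-- With `m = min (mm β (3t)) t`, `M = 0`: keep `y ∈ (0, 3t)` where `mm β y ≥ m`;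
`∫_0^{3t} [θ(t-y) - θ(t-y+m)] dy = ∫_{-2t}^{-2t+m} θ - ∫_t^{t+m} θ ≥ m (θ(-t) - θ t)
≥ m (π - 2η/t) ≥ m (π - 1)` (`ang_sub_interval`). -/
theorem Herg.jj_ge_mm (h : Herg β) (ht : 0 < t) (hη : 0 < η) (hηt : η ≤ t / 2) :
    Real.pi / 2 * min (mm β (3 * t)) t ≤ jj 1 t η β := by
  have h3 : 0 < 3 * t := by linarith
  have hm : 0 ≤ min (mm β (3 * t)) t := le_min (h.mm_nonneg h3) ht.le
  refine le_trans ?_ (h.jj_ge one_pos hη t le_rfl one_pos fun u hu => by simpa using h.nn_nonneg hu)
  refine le_trans ?_ (site_win (t := t) hη (h.split one_pos hη le_rfl one_pos).2.1 h3.le hm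
    (p := -t) (by linarith [min_le_right (mm β (3 * t)) t]) (fun y hy => ?_) fun y hy => ?_)
  · rw [mul_comm, sub_zero, ang_neg hη]
    refine mul_le_mul_of_nonneg_left ?_ hm
    have h4 := ang_le_div hη ht
    have h5 : η / t ≤ 1 / 2 := by rw [div_le_iff₀ ht]; linarith
    linarith [Real.pi_gt_three]
  · refine sub_nonneg.2 (ang_anti hη ?_)
    simpa using h.mm_nonneg hy
  · refine sub_le_sub_left (ang_anti hη ?_) _
    have := (min_le_left _ t).trans (h.mm_anti hy.1 hy.2.le)
    simpa using this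

/-- `M = 12 t U` is admissible in `jj_ge` (`nn_anti`, `mul_nn_le`). Drop `mm β y ≥ 0` only where
needed: on `(0, U)` the integrand is `≥ -π`; on `(U, ∞)` it is `≥ 0`; on `(U, 3t)` the shift is
`≥ M / (3t) = 4U =: m ≤ t/4`, contributing at least
`∫_{-2t}^{-2t+m} θ - ∫_{t-U}^{t-U+m} θ ≥ m (π - η/t - η/(t-U)) ≥ 4U (π - 1/2 - 8/15) ≥ 2πU`. -/
theorem Herg.jj_ge_nn (h : Herg β) (ht : 0 < t) (hη : 0 < η) (hηt : η ≤ t / 2) {U : ℝ}
    (hU : 0 < U) (hUt : U ≤ t / 16) (hn : 12 * t ≤ nn β U) : Real.pi * U ≤ jj 1 t η β := by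
  have hM : 0 ≤ 12 * t * U := by positivity
  have hF := (h.split (t := t) one_pos hη hM hU).2.1
  refine le_trans ?_ (h.jj_ge one_pos hη t hM hU fun u hu => ?_)
  · rw [site_split hF hU.le]
    have h1 := site_ge (K := -Real.pi) hU.le (site_ii hF le_rfl hU.le) fun y _ => by
      have := ang_pos hη (t - y)
      have := ang_lt_pi hη (t - y + (mm β y + 12 * t * U / (y - U)) / 1)
      linarith
    have h2 := site_win (t := t) hη (hF.mono_set (Ioi_subset_Ioi hU.le)) (b := 3 * t) (m := 4 * U)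
      (p := -t) (by linarith) (by linarith) (by linarith) (fun y hy => ?_) fun y hy => ?_
    · rw [ang_neg hη] at h2
      have h3 : 0 < t - U := by linarith
      have h4 := ang_le_div hη ht
      have h5 : η / t ≤ 1 / 2 := by rw [div_le_iff₀ ht]; linarith
      have h6 := ang_le_div hη h3
      have h7 : η / (t - U) ≤ 8 / 15 := by rw [div_le_iff₀ h3]; linarith
      have h8 : 4 * U * (Real.pi / 2) ≤ 4 * U * (Real.pi - ang η t - ang η (t - U)) :=
        mul_le_mul_of_nonneg_left (by linarith [Real.pi_gt_three]) (by linarith)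
      linarith
    · refine sub_nonneg.2 (ang_anti hη ?_)
      have := h.mm_nonneg (hU.trans hy)
      have := sub_pos.2 hy
      exact le_add_of_nonneg_right (by positivity)
    · refine sub_le_sub_left (ang_anti hη ?_) _
      have h3 := h.mm_nonneg (hU.trans hy.1)
      have h4 := sub_pos.2 hy.1
      have h5 : 4 * U ≤ 12 * t * U / (y - U) := by
        rw [le_div_iff₀ h4]
        nlinarith [hy.2]
      rw [div_one]
      linarith
  · rw [div_le_iff₀ (by linarith)]
    have h1 := h.nn_nonneg hu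
    rcases le_total u U with huU | huU
    · have := h.nn_anti hu huU
      nlinarith
    · have := h.mul_nn_le hU huU
      nlinarith

/-- Let `γ = β - nn β`, `τ' = t/2 + iη`. On `(0, u₁)` the integrand is `≤ π`. For `u > u₁`,
`nn β u ≤ 120 t` so `arg (240 (τ+u) - β) ≤ arg (240 (τ'+u) - γ)` and the integrand is at most
`dA 240 (t/2) η γ u + [θ(t/2+u) - θ(t+u)]`. The bracket integrates to at most `η`
(`ang_sub_Ioi`, `ang_le_div`). `∫_{u > u₁} dA = ∫_{u>0} - ∫_0^{u₁}`, where
`-dA ≤ θ(t/2+u) ≤ π/2`, and by `Herg.split` (`M = 0`) `∫_{u>0} = ∫_{y>0} [θ(t/2-y) -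
θ(t/2-y+mm β y/240)]`, at most `η` on `(0, t/4)` (`θ ≤ 4η/t`) and at most `π mm β (t/4) / 240`
on `(t/4, ∞)` (`mm_anti`, `ang_sub_integral_le`). Finally `3π/2 ≤ 5`. -/
theorem Herg.jj_le (h : Herg β) (ht : 0 < t) (hη : 0 < η) {u₁ : ℝ} (hu : 0 < u₁)
    (hn : nn β u₁ ≤ 120 * t) :
    jj 240 t η β ≤ 2 * η + 5 * u₁ + Real.pi * mm β (t / 4) / 240 := by
  have hκ : (0 : ℝ) < 240 := by norm_num
  have hc := ang_continuous hη
  have hf := h.jj_integrable hκ hη t
  obtain ⟨hg, hF, e⟩ := h.split (t := t / 2) hκ hη le_rfl one_pos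
  have hb := (ang_sub_integrable hη (t / 2)).comp_add_right (t / 2)
  -- the part `(0, u₁)`
  have h1 := site_le (K := Real.pi) hu.le (site_ii hf le_rfl hu.le) fun u _ =>
    (le_abs_self _).trans (abs_dA_le hκ hη (h.im_le u (by simp)) u)
  -- the part `(u₁, ∞)`
  have h2 : ∫ u in Ioi u₁, dA 240 t η (β u) u ≤
      ∫ u in Ioi u₁, (dA 240 (t / 2) η (β u - nn β u + (0 / (u + 1) : ℝ)) u +
        (ang η (u + t / 2) - ang η (u + t / 2 + t / 2))) := by
    refine setIntegral_mono_on (hf.mono_set (Ioi_subset_Ioi hu.le))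
      ((hg.mono_set (Ioi_subset_Ioi hu.le)).add hb.integrableOn) measurableSet_Ioi fun u hu' => ?_
    have h3 := arg_le_arg_sub (site_im h hκ hη t u 0)
      (sub_nonneg.2 ((h.nn_anti hu (le_of_lt hu')).trans hn))
    have h4 : arg (((240 : ℝ) : ℂ) * (t + u + η * I) - β u) ≤
        arg (((240 : ℝ) : ℂ) * ((t / 2 : ℝ) + u + η * I) - (β u - nn β u + (0 / (u + 1) : ℝ))) := by
      convert h3 using 2 <;> push_cast <;> ring
    unfold dA
    rw [show u + t / 2 + t / 2 = t + u by ring, add_comm u (t / 2)]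
    linarith
  rw [integral_add (hg.mono_set (Ioi_subset_Ioi hu.le)) hb.integrableOn,
    site_shift (fun x => ang η x - ang η (x + t / 2)), ang_sub_Ioi hη] at h2
  have h3 := site_le (K := η / (t / 2)) (le_add_of_nonneg_right (a := u₁ + t / 2) (half_pos ht).le)
    (hc.intervalIntegrable _ _) fun x hx =>
      (ang_anti hη (by linarith [hx.1])).trans (ang_le_div hη (half_pos ht))
  rw [add_sub_cancel_left, mul_div_cancel₀ _ (half_pos ht).ne'] at h3
  have h4 := site_split hg hu.le
  have h5 := site_ge (K := -(Real.pi / 2)) hu.le (site_ii hg le_rfl hu.le) fun u hu' => by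
    have h6 := ang_le_pi_div_two hη (x := t / 2 + u) (by linarith [hu'.1])
    have h7 := Complex.arg_nonneg_iff.2 (site_im h hκ hη (t / 2) u (nn β u)).le
    unfold dA
    rw [zero_div, ofReal_zero, add_zero]
    linarith
  have ht4 : 0 < t / 4 := by linarith
  have h6 := site_split hF ht4.le
  have h7 := site_le (K := η / (t / 4)) ht4.le (site_ii hF le_rfl ht4.le) fun y hy => by
    have h8 := ang_pos hη (t / 2 - y + (mm β y + 0 / (y - 1)) / 240)
    have h9 := (ang_anti hη (show t / 4 ≤ t / 2 - y by linarith [hy.2])).trans (ang_le_div hη ht4)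
    linarith
  rw [sub_zero, mul_div_cancel₀ _ ht4.ne'] at h7
  have hm : 0 ≤ mm β (t / 4) / 240 := div_nonneg (h.mm_nonneg ht4) hκ.le
  have hG := (ang_sub_integrable hη (mm β (t / 4) / 240)).comp_sub_left (t / 2)
  have h8 := setIntegral_mono_on (hF.mono_set (Ioi_subset_Ioi ht4.le)) hG.integrableOn
    measurableSet_Ioi fun y hy => by
      refine sub_le_sub_left (ang_anti hη ?_) _
      have := h.mm_anti ht4 (le_of_lt hy)
      rw [zero_div, add_zero]
      linarith
  have h9 := setIntegral_le_integral (s := Ioi (t / 4)) hG (Eventually.of_forall fun y =>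
    sub_nonneg.2 (ang_anti hη (le_add_of_nonneg_right hm)))
  rw [integral_sub_left_eq_self (fun x => ang η x - ang η (x + mm β (t / 4) / 240)) volume] at h9
  have h10 := ang_sub_integral_le hη hm
  have h11 : Real.pi * u₁ ≤ 3.15 * u₁ := mul_le_mul_of_nonneg_right Real.pi_lt_d2.le hu.le
  rw [jj, site_split hf hu.le, mul_div_assoc]
  linarith

end Crest.Agent.R109
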