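import Crest.Agent.R109.Zero

/-!
# R109: stability of the colouring polynomial
-/

set_option autoImplicit false
set_option linter.unusedSectionVars false
open Finset Polynomial

namespace Crest.Agent.R109

variable {V ι : Type*} [DecidableEq V] [Fintype ι] [DecidableEq ι]

/-- The polynomial `∑_T x^|T| c_T X^(r - |T|)`. -/
noncomputable def pM (x : ℂ) (c : Finset ι → ℂ) : ℂ[X] :=
  ∑ T : Finset ι, C (x ^ T.card * c T) * X ^ (Fintype.card ι - T.card)

theorem pM_natDegree_le (x : ℂ) (c : Finset ι → ℂ) : (pM x c).natDegree ≤ Fintype.card ι := by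
  exact natDegree_sum_le_of_forall_le _ _ fun T _ =>
    (natDegree_C_mul_X_pow_le _ _).trans (Nat.sub_le _ _)

private theorem pM_coeff (x : ℂ) (c : Finset ι → ℂ) (j : ℕ) :
    (pM x c).coeff j =
      ∑ T : Finset ι, if j = Fintype.card ι - T.card then x ^ T.card * c T else 0 := by
  simp only [pM, finsetSum_coeff, coeff_C_mul_X_pow]

theorem pM_coeff_top (x : ℂ) (c : Finset ι → ℂ) : (pM x c).coeff (Fintype.card ι) = c ∅ := by
  rw [pM_coeff, sum_eq_single ∅]
  · simp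
  · intro T _ hT
    have h1 := card_pos.2 (nonempty_iff_ne_empty.2 hT)
    have h2 := card_le_univ T
    rw [if_neg (by omega)]
  · simp

theorem pM_coeff_next [Nonempty ι] (x : ℂ) (c : Finset ι → ℂ) :
    (pM x c).coeff (Fintype.card ι - 1) = x * ∑ i, c {i} := by
  have h0 : 0 < Fintype.card ι := Fintype.card_pos
  rw [pM_coeff, ← sum_filter]
  have : (univ.filter fun T : Finset ι => Fintype.card ι - 1 = Fintype.card ι - T.card) =
      powersetCard 1 univ := by
    ext T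
    have h2 := card_le_univ T
    simp only [mem_filter, mem_univ, true_and, mem_powersetCard, subset_univ]
    omega
  rw [this, powersetCard_one, sum_map, mul_sum]
  simp

theorem pM_eval (x : ℂ) (c : Finset ι → ℂ) {ζ : ℂ} (hζ : ζ ≠ 0) :
    (pM x c).eval ζ = ζ ^ Fintype.card ι * ∑ T : Finset ι, wP (fun _ => x / ζ) T * c T := by
  rw [pM, eval_finsetSum, mul_sum]
  refine sum_congr rfl fun T _ => ?_
  obtain ⟨j, hj⟩ := Nat.exists_eq_add_of_le (card_le_univ T)
  rw [eval_mul, eval_C, eval_pow, eval_X, wP, prod_const, hj, Nat.add_sub_cancel_left, div_pow,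
    pow_add]
  field_simp

/-- Gauss-Lucas step: the mean of the roots lies in the convex set containing the roots
(`Polynomial.Splits.nextCoeff_eq_neg_sum_roots_mul_leadingCoeff`, `Convex.sum_mem` or
`Finset.centerMass_mem_convexHull`; the number of roots is `r` as `ℂ` is algebraically closed). -/
theorem mean_root_mem {p : ℂ[X]} {r : ℕ} (hr : 0 < r) (hd : p.natDegree ≤ r) (h0 : p.coeff r ≠ 0)
    {D : Set ℂ} (hD : Convex ℝ D) (hp : ∀ ζ, p.eval ζ = 0 → ζ ∈ D) :
    -p.coeff (r - 1) / (r * p.coeff r) ∈ D := by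
  have h1 : p.natDegree = r := natDegree_eq_of_le_of_coeff_ne_zero hd h0
  have h2 := (IsAlgClosed.splits p).nextCoeff_eq_neg_sum_roots_mul_leadingCoeff
  rw [nextCoeff_of_natDegree_pos (by omega), leadingCoeff, h1] at h2
  have h3 : p.roots.card = r := by rw [IsAlgClosed.card_roots_eq_natDegree, h1]
  have hr' : (r : ℝ) ≠ 0 := Nat.cast_ne_zero.2 hr.ne'
  have hr'' : (r : ℂ) ≠ 0 := Nat.cast_ne_zero.2 hr.ne'
  have h4 := hD.sum_mem (t := p.roots.toFinset) (w := fun a => (p.roots.count a : ℝ) / r)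
    (z := fun a => a) (fun _ _ => by positivity)
    (by rw [← sum_div, ← Nat.cast_sum, Multiset.toFinset_sum_count_eq, h3, div_self hr'])
    (fun a ha => hp a (isRoot_of_mem_roots (Multiset.mem_toFinset.1 ha)))
  convert h4 using 1
  rw [h2, sum_multiset_count p.roots, mul_sum, ← sum_neg_distrib, sum_div]
  refine sum_congr rfl fun a _ => ?_
  simp only [nsmul_eq_mul, Complex.real_smul, Complex.ofReal_div, Complex.ofReal_natCast]
  field_simp

private theorem Q_multi {Λ : Finset V} {v : V} (hv : v ∉ Λ) {ω ω' : V → Finset ι → ℂ}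
    (δ : Finset V → ℂ) {x ζ : ℂ} (h : ∀ w ∈ Λ, ω w = ω' w) (h' : ω' v = wP fun _ => x / ζ)
    (hζ : ζ ≠ 0) :
    (pM x (QT Λ ω δ v)).eval ζ = ζ ^ Fintype.card ι * Q (insert v Λ) ω' δ := by
  rw [pM_eval _ _ hζ, Q_lin hv, h']
  simp only [QT_congr δ v _ fun w hw _ => h w hw]

private theorem Q_avg [Nonempty ι] {Λ : Finset V} {v : V} (hv : v ∉ Λ)
    {ω ω' : V → Finset ι → ℂ} (δ : Finset V → ℂ) {x ζ : ℂ} (h : ∀ w ∈ Λ, ω w = ω' w)
    (h' : ω' v = wA 1 fun _ => x / (Fintype.card ι * ζ)) :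
    Q (insert v Λ) ω' δ = (pM x (QT Λ ω δ v)).coeff (Fintype.card ι) +
      (pM x (QT Λ ω δ v)).coeff (Fintype.card ι - 1) / (Fintype.card ι * ζ) := by
  rw [Q_wA hv δ h', pM_coeff_top, pM_coeff_next, QT_empty hv, Q_congr h fun _ _ => rfl, one_mul,
    ← mul_sum]
  simp only [Nn, QT_congr δ v _ fun w hw _ => h w hw, sum_neg_distrib]
  ring

/-- Abstract stability. Induction on `U` (generalising `Λ`, `c`). If `v ∉ Λ` use `Q_congr`.
Otherwise `Λ = insert v Λ₀`; by `Q_lin` and `pM_eval` the polynomial `pM x (QT Λ₀ ω δ v)` does not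
vanish outside `D v` (induction hypothesis with `c v` replaced by `fun _ => x / ζ`), its top
coefficient is `Q Λ₀ ω δ ≠ 0` (induction hypothesis for `Λ₀`, `QT_empty`); `mean_root_mem` and
`Q_wA` conclude. Base case: `Q_prod`. -/
theorem Q_ne_zero [Nonempty ι] (δ : Finset V → ℂ) (D : V → Set ℂ) (x : ℂ) (U : Finset V)
    (hD : ∀ w ∈ U, Convex ℝ (D w)) (h0 : ∀ w ∈ U, (0 : ℂ) ∈ D w) (z : V → ℂ)
    (hz : ∀ w ∈ U, z w ∉ D w) (Λ : Finset V) (c : V → ι → ℂ)
    (base : ∀ Λ' ⊆ Λ, ∀ ζ : V → ℂ, (∀ w ∈ U, ζ w ∉ D w) → ∀ i,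
      ∑ S ∈ Λ'.powerset, (∏ w ∈ S, if w ∈ U then x / ζ w else c w i) * δ S ≠ 0) :
    Q Λ (fun w => if w ∈ U then wA 1 fun _ => x / (Fintype.card ι * z w) else wP (c w)) δ ≠ 0 := by
  induction U using Finset.induction_on generalizing Λ c with
  | empty =>
    simp only [notMem_empty, if_false] at base ⊢
    rw [Q_prod]
    exact prod_ne_zero_iff.2 fun i _ => base Λ Subset.rfl z (fun _ h => h.elim) i
  | insert v U hvU ih =>
    have hvv := mem_insert_self v U
    set ω : V → Finset ι → ℂ := fun w =>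
      if w ∈ insert v U then wA 1 fun _ => x / (Fintype.card ι * z w) else wP (c w) with hω
    let ω' : ℂ → V → Finset ι → ℂ := fun ζ w =>
      if w ∈ U then wA 1 fun _ => x / (Fintype.card ι * z w)
      else wP (Function.update c v (fun _ => x / ζ) w)
    have hc : ∀ ζ w, w ≠ v → ω w = ω' ζ w := by
      intro ζ w hw
      simp only [hω, ω', mem_insert, hw, false_or, Function.update_of_ne hw]
    have H : ∀ ζ ∉ D v, ∀ Λ' ⊆ Λ, Q Λ' (ω' ζ) δ ≠ 0 := by
      intro ζ hζ Λ' hΛ'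
      refine ih (fun w hw => hD w (mem_insert_of_mem hw)) (fun w hw => h0 w (mem_insert_of_mem hw))
        (fun w hw => hz w (mem_insert_of_mem hw)) Λ' _ fun Λ'' hΛ'' ξ hξ i => ?_
      have h1 := base Λ'' (hΛ''.trans hΛ') (Function.update ξ v ζ) (fun w hw => by
        by_cases hwv : w = v
        · subst hwv; rwa [Function.update_self]
        · rw [Function.update_of_ne hwv]
          exact hξ w ((mem_insert.1 hw).resolve_left hwv)) i
      convert h1 using 4 with S _ w _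
      by_cases hwv : w = v
      · subst hwv
        simp only [hvU, if_false, Function.update_self, hvv, if_true]
      · simp only [mem_insert, hwv, false_or, Function.update_of_ne hwv]
    by_cases hv : v ∈ Λ
    · have hv0 := notMem_erase v Λ
      have hc' : ∀ ζ, ∀ w ∈ Λ.erase v, ω w = ω' ζ w := fun ζ w hw => hc ζ w (ne_of_mem_erase hw)
      have hz0 : z v ≠ 0 := fun e => hz v hvv (e ▸ h0 v hvv)
      have hr : (Fintype.card ι : ℂ) ≠ 0 := Nat.cast_ne_zero.2 Fintype.card_ne_zero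
      have htop : (pM x (QT (Λ.erase v) ω δ v)).coeff (Fintype.card ι) ≠ 0 := by
        rw [pM_coeff_top, QT_empty hv0, Q_congr (hc' (z v)) fun _ _ => rfl]
        exact H _ (hz v hvv) _ (erase_subset _ _)
      have hm := mean_root_mem Fintype.card_pos (pM_natDegree_le x _) htop (hD v hvv)
        fun ζ hζ => by
          by_contra hn
          have hζ0 : ζ ≠ 0 := fun e => hn (e ▸ h0 v hvv)
          rw [Q_multi hv0 δ (hc' ζ) (by simp only [ω', hvU, if_false, Function.update_self]) hζ0,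
            insert_erase hv] at hζ
          exact mul_ne_zero (pow_ne_zero _ hζ0) (H ζ hn Λ Subset.rfl) hζ
      intro hQ
      rw [← insert_erase hv, Q_avg (ω := ω) (x := x) (ζ := z v) hv0 δ (fun _ _ => rfl)
        (by simp only [hω, hvv, if_true])] at hQ
      refine hz v hvv ?_
      convert hm using 1
      field_simp at hQ ⊢
      linear_combination hQ
    · rw [Q_congr (ω' := ω' (z v)) (fun w hw => hc _ w (ne_of_mem_of_not_mem hw hv))
        fun _ _ => rfl]
      exact H _ (hz v hvv) Λ Subset.rfl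

/-- The energy identity for a kernel vector with an inhomogeneous term. -/
private theorem ker_im {a : V → V → ℂ} (ha : Herm a) (x l : ℂ) (Λ : Finset V) (ζ η e : V → ℂ)
    (h : ∀ p ∈ Λ, ζ p * ((starRingEnd ℂ) (η p) * η p) =
      x * (∑ q ∈ Λ, (starRingEnd ℂ) (η p) * a p q * η q + e p)) :
    ∑ p ∈ Λ, ((l * ζ p).im - |(l * x).im|) * ‖η p‖ ^ 2 ≤ ‖l‖ * ‖x‖ * ‖∑ p ∈ Λ, e p‖ := by
  obtain ⟨h1, h2⟩ := ha.form Λ η
  set F := ∑ p ∈ Λ, ∑ q ∈ Λ, (starRingEnd ℂ) (η p) * a p q * η q with hF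
  have h3 : ∑ p ∈ Λ, l * ζ p * ((‖η p‖ ^ 2 : ℝ) : ℂ) = l * x * F + l * x * ∑ p ∈ Λ, e p := by
    rw [hF, ← mul_add, ← sum_add_distrib, mul_sum]
    refine sum_congr rfl fun p hp => ?_
    rw [mul_assoc, mul_assoc, ← h p hp, Complex.conj_mul']
    push_cast
    rfl
  have h4 := congrArg Complex.im h3
  rw [Complex.im_sum, Complex.add_im, Complex.mul_im (l * x) F, h1, mul_zero, zero_add] at h4
  simp only [Complex.im_mul_ofReal] at h4
  have h5 : (l * x).im * F.re ≤ |(l * x).im| * ∑ p ∈ Λ, ‖η p‖ ^ 2 :=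
    (le_abs_self _).trans (by rw [abs_mul]; exact mul_le_mul_of_nonneg_left h2 (abs_nonneg _))
  have h6 : (l * x * ∑ p ∈ Λ, e p).im ≤ ‖l‖ * ‖x‖ * ‖∑ p ∈ Λ, e p‖ := by
    rw [← norm_mul, ← norm_mul]
    exact (le_abs_self _).trans (Complex.abs_im_le_norm _)
  simp only [sub_mul, sum_sub_distrib, ← mul_sum]
  linarith

private theorem ker_eq {x ζ N η s : ℂ} (hN : N = x / ζ ∨ N = 0) (hζ : ζ ≠ 0) (h : η = N * s) :
    ζ * ((starRingEnd ℂ) η * η) = x * ((starRingEnd ℂ) η * s) := by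
  rcases hN with rfl | rfl
  · rw [mul_left_comm, mul_left_comm x]
    congr 1
    rw [h]
    field_simp
  · rw [zero_mul] at h
    simp [h]

private theorem ne_zero_of_im {l x ζ : ℂ} (h : |(l * x).im| < (l * ζ).im) : ζ ≠ 0 := by
  rintro rfl
  rw [mul_zero, Complex.zero_im] at h
  exact absurd h (not_lt.2 (abs_nonneg _))

private theorem eq_zero_of_sum_le {Λ : Finset V} {y : V → ℝ} {η : V → ℂ}
    (hy : ∀ p ∈ Λ, 0 < y p) (h : ∑ p ∈ Λ, y p * ‖η p‖ ^ 2 ≤ 0) : ∀ p ∈ Λ, η p = 0 := by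
  intro p hp
  have h0 : ∀ p ∈ Λ, 0 ≤ y p * ‖η p‖ ^ 2 := fun p hp => mul_nonneg (hy p hp).le (sq_nonneg _)
  have h1 := (sum_eq_zero_iff_of_nonneg h0).1 (le_antisymm h (sum_nonneg h0)) p hp
  simpa [(hy p hp).ne'] using h1

/-- Base case, half-plane version. A kernel vector `η` (`exists_ker`) satisfies
`ζ_p η_p = x ∑_q a_{pq} η_q` if `N p = x / ζ p` and `η_p = 0` otherwise; multiply by
`l * conj η_p`, sum, take imaginary parts and use `Herm.form`. -/
theorem base_ne_zero {a : V → V → ℂ} (ha : Herm a) (x l : ℂ) (Λ : Finset V) (ζ N : V → ℂ)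
    (hN : ∀ w ∈ Λ, N w = x / ζ w ∨ N w = 0) (hζ : ∀ w ∈ Λ, |(l * x).im| < (l * ζ w).im) :
    ∑ S ∈ Λ.powerset, (∏ w ∈ S, N w) * mn a S ≠ 0 := by
  intro h
  obtain ⟨η, ⟨p, hp, hp0⟩, hη⟩ := exists_ker h
  have h1 := ker_im ha x l Λ ζ η 0 fun p hp => by
    rw [ker_eq (hN p hp) (ne_zero_of_im (hζ p hp)) (hη p hp), mul_sum]
    simp only [mul_assoc, Pi.zero_apply, add_zero]
  simp only [Pi.zero_apply, sum_const_zero, norm_zero, mul_zero] at h1
  exact hp0 (eq_zero_of_sum_le (fun p hp => sub_pos.2 (hζ p hp)) h1 p hp)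

/-- Base case, one vertex `v` of large modulus. With `y_p = Im (l ζ_p) - |Im (l x)| > 0`,
`Y = ∑_{p ≠ v} y_p |η_p|²`, `s = |∑_q a_{vq} η_q|`: summing over `p ≠ v` as above gives
`Y ≤ |l| |x| |η_v| s`, and Cauchy-Schwarz with `Herm.row` gives `s² ≤ Y / y₀`; hence
`s ≤ |l| |x| |η_v| / y₀` and `|ζ_v| |η_v| = |x| s` forces `η_v = 0`, then `Y = 0`. -/
theorem base_ne_zero' {a : V → V → ℂ} (ha : Herm a) (x l : ℂ) (Λ : Finset V) (v : V)
    (ζ N : V → ℂ) {y : ℝ} (hy : 0 < y) (hN : ∀ w ∈ Λ, N w = x / ζ w ∨ N w = 0)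
    (hζ : ∀ w ∈ Λ, w ≠ v → |(l * x).im| < (l * ζ w).im)
    (hy' : ∀ w ∈ Λ, a v w ≠ 0 → |(l * x).im| + y ≤ (l * ζ w).im)
    (hv : ‖l‖ * ‖x‖ ^ 2 / y < ‖ζ v‖) :
    ∑ S ∈ Λ.powerset, (∏ w ∈ S, N w) * mn a S ≠ 0 := by
  by_cases hvΛ : v ∈ Λ
  swap
  · exact base_ne_zero ha x l Λ ζ N hN fun w hw => hζ w hw (ne_of_mem_of_not_mem hw hvΛ)
  intro h
  obtain ⟨η, ⟨p, hp, hp0⟩, hη⟩ := exists_ker h
  have hζ' : ∀ w ∈ Λ.erase v, |(l * x).im| < (l * ζ w).im :=
    fun w hw => hζ w (mem_of_mem_erase hw) (ne_of_mem_erase hw)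
  set s := ∑ q ∈ Λ.erase v, a v q * η q with hs
  have h1 := ker_im ha x l (Λ.erase v) ζ η (fun p => (starRingEnd ℂ) (η p) * (a p v * η v))
    fun p hp => by
      rw [ker_eq (hN p (mem_of_mem_erase hp)) (ne_zero_of_im (hζ' p hp))
        (hη p (mem_of_mem_erase hp)), ← sum_erase_add _ _ hvΛ, mul_add, mul_sum]
      simp only [mul_assoc]
  have h2 : ∑ p ∈ Λ.erase v, (starRingEnd ℂ) (η p) * (a p v * η v) = (starRingEnd ℂ) s * η v := by
    rw [hs, map_sum, sum_mul]
    refine sum_congr rfl fun p _ => ?_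
    rw [ha.herm v p, map_mul]
    ring
  rw [h2, norm_mul, Complex.norm_conj] at h1
  set Y := ∑ p ∈ Λ.erase v, ((l * ζ p).im - |(l * x).im|) * ‖η p‖ ^ 2 with hY
  have h3 : y * ‖s‖ ^ 2 ≤ Y := by
    have e1 : ‖s‖ ≤ ∑ q ∈ Λ.erase v, ‖a v q‖ * (if a v q = 0 then 0 else ‖η q‖) := by
      refine (norm_sum_le _ _).trans (sum_le_sum fun q _ => ?_)
      split_ifs with h
      · simp [h]
      · rw [norm_mul]
    have e2 := sum_mul_sq_le_sq_mul_sq (Λ.erase v) (fun q => ‖a v q‖)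
      fun q => if a v q = 0 then 0 else ‖η q‖
    have e3 := ha.row v (Λ.erase v)
    have e4 : y * ∑ q ∈ Λ.erase v, (if a v q = 0 then 0 else ‖η q‖) ^ 2 ≤ Y := by
      rw [hY, mul_sum]
      refine sum_le_sum fun q hq => ?_
      split_ifs with h
      · have := mul_nonneg (sub_pos.2 (hζ' q hq)).le (sq_nonneg ‖η q‖)
        simpa using this
      · have := hy' q (mem_of_mem_erase hq) h
        exact mul_le_mul_of_nonneg_right (by linarith) (sq_nonneg _)
    refine le_trans (mul_le_mul_of_nonneg_left ?_ hy.le) e4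
    refine (pow_le_pow_left₀ (norm_nonneg _) e1 2).trans (e2.trans ?_)
    exact mul_le_of_le_one_left (sum_nonneg fun _ _ => sq_nonneg _) e3
  have h4 : y * ‖s‖ ≤ ‖l‖ * ‖x‖ * ‖η v‖ := by
    rcases (norm_nonneg s).eq_or_lt with e | e
    · rw [← e, mul_zero]; positivity
    · refine le_of_mul_le_mul_left ?_ e
      have := h3.trans h1
      linarith
  have h5 : η v = 0 := by
    have e1 := hη v hvΛ
    rw [← sum_erase_add _ _ hvΛ, ha.diag, zero_mul, add_zero, ← hs] at e1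
    rcases hN v hvΛ with e | e
    · by_contra hne
      have hζ0 : 0 < ‖ζ v‖ := lt_of_le_of_lt (by positivity) hv
      have e2 : ‖ζ v‖ * ‖η v‖ = ‖x‖ * ‖s‖ := by
        rw [← norm_mul, ← norm_mul, e1, e]
        congr 1
        have := norm_pos_iff.1 hζ0
        field_simp
      rw [div_lt_iff₀ hy] at hv
      have e3 := mul_lt_mul_of_pos_right hv (norm_pos_iff.2 hne)
      have e4 := mul_le_mul_of_nonneg_left h4 (norm_nonneg x)
      have e5 : ‖ζ v‖ * y * ‖η v‖ = ‖x‖ * (y * ‖s‖) := by linear_combination y * e2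
      linarith
    · rw [e1, e, zero_mul]
  rw [h5, norm_zero, mul_zero, mul_zero] at h1
  by_cases hpv : p = v
  · exact hp0 (hpv ▸ h5)
  · exact hp0 (eq_zero_of_sum_le (fun p hp => sub_pos.2 (hζ' p hp)) h1 p (mem_erase.2 ⟨hpv, hp⟩))

variable [Nonempty ι] {a : V → V → ℂ} {x : ℂ} {Λ : Finset V} {k : V → Option (Finset ι)}
  {z : V → ℂ} {v : V}

private theorem ZG_ne_zero_aux (l : ℂ) (h0 : ∀ w ∈ Λ, k w = none → 0 < (l * z w).im)
    (base : ∀ Λ' ⊆ Λ, ∀ ζ N : V → ℂ, (∀ w ∈ Λ', N w = x / ζ w ∨ N w = 0) →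
      (∀ w ∈ Λ, ζ w = z w ∨ (k w = none ∧ (l * z w).im ≤ (l * ζ w).im)) →
      ∑ S ∈ Λ'.powerset, (∏ w ∈ S, N w) * mn a S ≠ 0) : ZG a x Λ k z ≠ 0 := by
  let U := Λ.filter fun w => k w = none
  let c : V → ι → ℂ := fun w i => if i ∈ (k w).getD ∅ then x / z w else 0
  have h := Q_ne_zero (mn a) (fun w => {ζ | (l * ζ).im < (l * z w).im}) x U
    (fun w _ => convex_halfSpace_lt ⟨fun _ _ => by rw [mul_add, Complex.add_im],
      fun t ζ => by rw [mul_smul_comm, Complex.smul_im]⟩ _)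
    (fun w hw => by simpa using h0 w (mem_filter.1 hw).1 (mem_filter.1 hw).2) z
    (fun w _ h => lt_irrefl (l * z w).im h) Λ c fun Λ' hΛ' ζ hζ i =>
      base Λ' hΛ' (fun w => if w ∈ U then ζ w else z w) _ (fun w _ => ?_) fun w _ => ?_
  · rwa [ZG, Q_congr (fun w hw => ?_) fun _ _ => rfl]
    cases hk : k w with
    | none => rw [if_pos (mem_filter.2 ⟨hw, hk⟩), wG]
    | some P =>
      rw [if_neg fun h => by simpa [hk] using (mem_filter.1 h).2, wG]
      simp only [c, hk, Option.getD_some]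
  · simp only [c]
    split_ifs <;> simp
  · by_cases hw : w ∈ U
    · rw [if_pos hw]
      exact Or.inr ⟨(mem_filter.1 hw).2, not_lt.1 (hζ w hw)⟩
    · exact Or.inl (if_neg hw)

/-- `Q_ne_zero` with `U` the averaged vertices of `Λ`, `D w = {ζ | Im (l ζ) ≤ |Im (l x)|}`. -/
theorem ZG_ne_zero (ha : Herm a) (l : ℂ) (hz : ∀ w ∈ Λ, |(l * x).im| < (l * z w).im) :
    ZG a x Λ k z ≠ 0 := by
  refine ZG_ne_zero_aux l (fun w hw _ => (abs_nonneg _).trans_lt (hz w hw))
    fun Λ' hΛ' ζ N hN hζ => base_ne_zero ha x l Λ' ζ N hN fun w hw => ?_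
  rcases hζ w (hΛ' hw) with e | e
  · rw [e]; exact hz w (hΛ' hw)
  · exact (hz w (hΛ' hw)).trans_le e.2

omit [Nonempty ι] in
private theorem ZG_insert_bG (hv : v ∉ Λ) {i : ι} (hb : bG a x Λ k z v i ≠ 0) :
    ZG a x (insert v Λ) (Function.update k v (some {i}))
      (Function.update z v (bG a x Λ k z v i)) = 0 := by
  have hk : ∀ w ∈ Λ, Function.update k v (some {i}) w = k w :=
    fun w hw => Function.update_of_ne (ne_of_mem_of_not_mem hw hv) _ _
  have hz : ∀ w ∈ Λ, Function.update z v (bG a x Λ k z v i) w = z w :=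
    fun w hw => Function.update_of_ne (ne_of_mem_of_not_mem hw hv) _ _
  rw [ZG_insert_single hv (Function.update_self ..), ZG_congr hk hz, NG_congr hv hk hz,
    Function.update_self]
  unfold bG at hb ⊢
  obtain ⟨h1, h2⟩ := div_ne_zero_iff.1 hb
  field_simp
  ring

/-- Otherwise give `v` the kind `some {i}` and the height `b = bG ..` (`≠ 0`): by
`ZG_insert_single` (and `ZG_congr`, `NG_congr`) the polynomial on `insert v Λ` vanishes,
contradicting `ZG_ne_zero`. -/
theorem bG_im_le (ha : Herm a) (hv : v ∉ Λ) (l : ℂ)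
    (hz : ∀ w ∈ Λ, |(l * x).im| < (l * z w).im) (i : ι) :
    (l * bG a x Λ k z v i).im ≤ |(l * x).im| := by
  by_contra h
  rw [not_le] at h
  refine ZG_ne_zero ha l (fun w hw => ?_) (ZG_insert_bG hv (ne_zero_of_im h))
  rcases mem_insert.1 hw with rfl | hw
  · rwa [Function.update_self]
  · rw [Function.update_of_ne (ne_of_mem_of_not_mem hw hv)]
    exact hz w hw

/-- As above with `D w = {ζ | Im (l ζ) < Im (l z w)}` and `base_ne_zero'`. -/
theorem bG_norm_le (ha : Herm a) (hv : v ∉ Λ) (l : ℂ) {y : ℝ} (hy : 0 < y)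
    (hz : ∀ w ∈ Λ, |(l * x).im| < (l * z w).im)
    (hy' : ∀ w ∈ Λ, a v w ≠ 0 → |(l * x).im| + y ≤ (l * z w).im) (i : ι) :
    ‖bG a x Λ k z v i‖ ≤ ‖l‖ * ‖x‖ ^ 2 / y := by
  by_contra h
  rw [not_le] at h
  have hb : bG a x Λ k z v i ≠ 0 := norm_pos_iff.1 (lt_of_le_of_lt (by positivity) h)
  refine ZG_ne_zero_aux l (fun w hw hk => ?_) (fun Λ' hΛ' ζ N hN hζ => ?_) (ZG_insert_bG hv hb)
  · rcases mem_insert.1 hw with rfl | hw
    · simp at hk
    · rw [Function.update_of_ne (ne_of_mem_of_not_mem hw hv)]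
      exact (abs_nonneg _).trans_lt (hz w hw)
  · have h1 : ∀ w ∈ Λ', w ≠ v → w ∈ Λ ∧ (l * z w).im ≤ (l * ζ w).im := by
      intro w hw hwv
      refine ⟨(mem_insert.1 (hΛ' hw)).resolve_left hwv, ?_⟩
      have h2 := hζ w (hΛ' hw)
      rw [Function.update_of_ne hwv] at h2
      rcases h2 with e | e
      · rw [e]
      · exact e.2
    refine base_ne_zero' ha x l Λ' v ζ N hy hN
      (fun w hw hwv => (hz w (h1 w hw hwv).1).trans_le (h1 w hw hwv).2) (fun w hw h0 => ?_) ?_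
    · have hwv : w ≠ v := fun e => h0 (by rw [e, ha.diag])
      exact (hy' w (h1 w hw hwv).1 h0).trans (h1 w hw hwv).2
    · rcases hζ v (mem_insert_self _ _) with e | e
      · rwa [e, Function.update_self]
      · simp at e

/-- A vertex present in all copies: polynomial dependence on its height (`Q_lin`, `pM_eval`). -/
theorem ZG_multi (hv : v ∉ Λ) : ∃ q : ℂ[X], q.natDegree ≤ Fintype.card ι ∧
    q.coeff (Fintype.card ι) = ZG a x Λ k z ∧
    q.coeff (Fintype.card ι - 1) = -∑ i, NG a x Λ k z v i ∧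
    ∀ ζ ≠ 0, q.eval ζ = ζ ^ Fintype.card ι *
      ZG a x (insert v Λ) (Function.update k v (some univ)) (Function.update z v ζ) := by
  refine ⟨pM x (QT Λ (fun w => wG x (z w) (k w)) (mn a) v), pM_natDegree_le _ _, ?_, ?_,
    fun ζ hζ => Q_multi hv _ (fun w hw => ?_) ?_ hζ⟩
  · rw [pM_coeff_top, QT_empty hv, ZG]
  · rw [pM_coeff_next]
    simp only [NG, Nn, mul_neg, sum_neg_distrib, neg_neg, mul_sum]
  · simp only [Function.update_of_ne (ne_of_mem_of_not_mem hw hv)]
  · simp only [Function.update_self, wG, mem_univ, if_true]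

/-- The same for the numerator of the self-energy of another vertex `u`; the last clause says
what happens if `v` is averaged instead. Use that `Nn (insert v Λ) ω δ u i` is `-Q` of
`insert v (insert u Λ)` (`Finset.insert_comm`) for the weights updated at `u`, then `Q_lin`,
`Q_wA`. -/
theorem NG_multi {u : V} (hv : v ∉ Λ) (hu : u ∉ Λ) (huv : u ≠ v) (i : ι) :
    ∃ n : ℂ[X], n.natDegree ≤ Fintype.card ι ∧ n.coeff (Fintype.card ι) = NG a x Λ k z u i ∧
    (∀ ζ ≠ 0, n.eval ζ = ζ ^ Fintype.card ι *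
      NG a x (insert v Λ) (Function.update k v (some univ)) (Function.update z v ζ) u i) ∧
    ∀ ζ ≠ 0, NG a x (insert v Λ) (Function.update k v none) (Function.update z v ζ) u i =
      n.coeff (Fintype.card ι) + n.coeff (Fintype.card ι - 1) / (Fintype.card ι * ζ) := by
  have hv' : v ∉ insert u Λ := fun h => (mem_insert.1 h).elim (fun e => huv e.symm) hv
  have hc : ∀ (κ : Option (Finset ι)) (ζ : ℂ), ∀ w ∈ insert u Λ,
      Function.update (fun w => wG x (z w) (k w)) u (Pi.single {i} 1) w =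
        Function.update (fun w => wG x (Function.update z v ζ w) (Function.update k v κ w)) u
          (Pi.single {i} 1) w := by
    intro κ ζ w hw
    by_cases hwu : w = u
    · subst hwu
      simp only [Function.update_self]
    · simp only [Function.update_of_ne hwu, Function.update_of_ne (ne_of_mem_of_not_mem hw hv')]
  refine ⟨C (-x) * pM x (QT (insert u Λ)
    (Function.update (fun w => wG x (z w) (k w)) u (Pi.single {i} 1)) (mn a) v),
    (natDegree_C_mul_le _ _).trans (pM_natDegree_le _ _), ?_, fun ζ hζ => ?_, fun ζ hζ => ?_⟩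
  · rw [coeff_C_mul, pM_coeff_top, QT_empty hv', NG, Nn, QT]
    ring
  · rw [eval_mul, eval_C, Q_multi hv' _ (hc (some univ) ζ) (by
      simp only [Function.update_of_ne huv.symm, Function.update_self, wG, mem_univ, if_true]) hζ,
      NG, Nn, QT, insert_comm]
    ring
  · rw [coeff_C_mul, coeff_C_mul, NG, Nn, QT, insert_comm, Q_avg (x := x) (ζ := ζ) hv' _
      (hc none ζ) (by simp only [Function.update_of_ne huv.symm, Function.update_self, wG])]
    ring

end Crest.Agent.R109
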