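import Crest.Agent.R121.Spec
import Crest.Agent.R121.Polar

/-!
# R109 (Popa-Vaes paving): maximal abelian subalgebras, partitions, standard form
-/

set_option autoImplicit false
open Filter Topology
open scoped InnerProductSpace

namespace Crest.Agent.R109
open Crest.Agent.R121

universe u
variable {H : Type u} [NormedAddCommGroup H] [InnerProductSpace ℂ H] [CompleteSpace H]
variable {M : VonNeumannAlgebra H}

/-- `A` is maximal abelian in `M`. -/
structure Masa (A : StarSubalgebra ℂ (Al M)) : Prop where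
  comm : ∀ a ∈ A, ∀ b ∈ A, a * b = b * a
  max : ∀ y : Al M, (∀ a ∈ A, a * y = y * a) → y ∈ A

/-- A finite partition of unity by projections of `A` (some may vanish). -/
structure Ptn {ι : Type*} [Fintype ι] (A : StarSubalgebra ℂ (Al M)) (p : ι → Al M) : Prop where
  mem : ∀ i, p i ∈ A
  proj : ∀ i, IsStarProjection (p i)
  orth : Pairwise fun i j => p i * p j = 0
  sum : ∑ i, p i = 1

/-- The pinching `∑ p_i x p_i`. -/
noncomputable def Ep {ι : Type*} [Fintype ι] (p : ι → Al M) (x : Al M) : Al M :=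
  ∑ i, p i * x * p i

/-- Standard form: `ξ` is a cyclic and separating unit vector whose vector state is `A`-central. -/
structure Std (A : StarSubalgebra ℂ (Al M)) (ξ : H) : Prop extends Masa A where
  norm : ‖ξ‖ = 1
  cyc : Dense (Set.range fun m : Al M => ap m ξ)
  sep : ∀ m : Al M, ap m ξ = 0 → m = 0
  cen : ∀ a ∈ A, ∀ m : Al M, ⟪ξ, ap (a * m) ξ⟫_ℂ = ⟪ξ, ap (m * a) ξ⟫_ℂ

variable {A : StarSubalgebra ℂ (Al M)} {ξ : H}

theorem Masa.isClosed (h : Masa A) : IsClosed (A : Set (Al M)) := by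
  have : (A : Set (Al M)) = ⋂ a ∈ A, {y | a * y = y * a} := by
    ext y
    simp only [SetLike.mem_coe, Set.mem_iInter, Set.mem_ofPred_eq]
    exact ⟨fun hy a ha => h.comm a ha y hy, h.max y⟩
  rw [this]
  exact isClosed_biInter fun a _ => isClosed_eq (by fun_prop) (by fun_prop)

theorem Masa.mem_of_WL (h : Masa A) {ι : Type*} {F : Filter ι} [F.NeBot] {x : ι → Al M}
    {y : Al M} (hx : WL F x y) (hA : ∀ᶠ i in F, x i ∈ A) : y ∈ A := by
  exact h.max y fun a ha => (hx.mul_left a).unique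
    ((hx.mul_right a).congr' (hA.mono fun i hi => h.comm _ hi a ha))

theorem Masa.cfc_mem (h : Masa A) {a : Al M} (ha : a ∈ A) (f : ℝ → ℝ) : cfc f a ∈ A := by
  exact h.max _ fun b hb => (Commute.cfc_real (a := a) (b := b) (h.comm a ha b hb) f).eq.symm

theorem std_comm_supp {a e b : Al M} (he : IsStarProjection e) (h1 : e * a = a)
    (h2 : ∀ y : Al M, y * a = 0 → y * e = 0) (hb : b * a = a * b) (hb' : star b * a = a * star b) :
    b * e = e * b := by
  have key : ∀ c : Al M, c * a = a * c → c * e = e * c * e := fun c hc => by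
    have := h2 ((1 - e) * c) (by rw [mul_assoc, hc, ← mul_assoc, sub_mul, one_mul, h1, sub_self,
      zero_mul])
    rwa [sub_mul, one_mul, sub_mul, sub_eq_zero] at this
  have := congrArg star (key _ hb')
  simp only [star_mul, star_star, proj_star he, ← mul_assoc] at this
  rw [this, ← key b hb]

/-- The left support of an element of `A` lies in `A`: let `e` be given by `spec_supp a`; for
`b ∈ A`, `(1 - e) b a = (1 - e) a b = 0` so `(1 - e) b e = 0`; the same for `star b` gives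
`e b (1 - e) = 0`. -/
theorem Masa.exists_supp (h : Masa A) {a : Al M} (ha : a ∈ A) :
    ∃ e ∈ A, IsStarProjection e ∧ e * a = a ∧ ∀ y : Al M, y * a = 0 → y * e = 0 := by
  obtain ⟨e, he, h1, h2⟩ := spec_supp a
  exact ⟨e, h.max e fun b hb => std_comm_supp he h1 h2 (h.comm b hb a ha)
    (h.comm _ (star_mem hb) a ha), he, h1, h2⟩

theorem std_cone {B : Type*} [CStarAlgebra B] (A : StarSubalgebra ℂ B)
    (hcl : IsClosed (A : Set B))
    (hA : ∀ a ∈ A, ∃ e ∈ A, IsStarProjection e ∧ e * a = a ∧ ∀ y : B, y * a = 0 → y * e = 0)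
    (S : Submodule ℂ B) (hS : IsClosed (S : Set B))
    (hp : ∀ e ∈ A, IsStarProjection e → e ∈ S) {x : B} (hx : x ∈ A) : star x * x ∈ S := by
  let _ := CStarAlgebra.spectralOrder A
  have := CStarAlgebra.spectralOrderedRing A
  refine spec_cone (A := A) (S := {z : A | (z : B) ∈ S}) (fun z => ?_)
    (hS.preimage continuous_subtype_val) S.zero_mem (fun a ha b hb => S.add_mem ha hb)
    (fun t _ a ha => S.smul_mem _ ha) (IsStarProjection.one A) (fun e he _ => ?_)
    (star_mul_self_nonneg (⟨x, hx⟩ : A)) (one_mul _)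
  · obtain ⟨e, heA, he, h1, h2⟩ := hA z z.2
    exact ⟨⟨e, heA⟩, ⟨Subtype.ext he.isIdempotentElem.eq, Subtype.ext he.isSelfAdjoint.star_eq⟩,
      Subtype.ext h1, fun y hy => Subtype.ext (h2 y (congrArg Subtype.val hy))⟩
  · exact hp e e.2 ⟨congrArg Subtype.val he.isIdempotentElem.eq,
      congrArg Subtype.val he.isSelfAdjoint.star_eq⟩

/-- A closed subspace containing the projections of `A` contains `A`. Apply `R121.spec_cone` to
the C*-algebra `↥A` (closed star subalgebra, spectral order, `Masa.exists_supp`) with `p = 1`, then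
write `a` as a combination of four positive elements (as in `R121.span_induction`). -/
theorem Masa.span_induction (h : Masa A) (S : Submodule ℂ (Al M)) (hS : IsClosed (S : Set (Al M)))
    (hp : ∀ e ∈ A, IsStarProjection e → e ∈ S) {a : Al M} (ha : a ∈ A) : a ∈ S := by
  have cone : ∀ x ∈ A, star x * x ∈ S := fun x hx =>
    std_cone A h.isClosed (fun a ha => h.exists_supp ha) S hS hp hx
  have key : ∀ t : ℂ, 1 + t • a + ((starRingEnd ℂ) t • star a + ((starRingEnd ℂ) t * t) •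
      (star a * a)) ∈ S := fun t => by
    have := cone (1 + t • a) (add_mem (one_mem _) (SMulMemClass.smul_mem t ha))
    rw [star_add, star_smul, star_one, add_mul, one_mul, mul_add, mul_one,
      smul_mul_smul_comm] at this
    exact this
  have := S.smul_mem (1 / 4 : ℂ) (S.add_mem (S.sub_mem (key 1) (key (-1)))
    (S.smul_mem Complex.I (S.sub_mem (key (-Complex.I)) (key Complex.I))))
  convert this using 1
  simp only [map_one, map_neg, Complex.conj_I]
  match_scalars <;> ring_nf <;> norm_num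

/-- An element commuting with all projections of `A` lies in `A`. -/
theorem Masa.mem_of_comm_proj (h : Masa A) {y : Al M}
    (hy : ∀ e ∈ A, IsStarProjection e → e * y = y * e) : y ∈ A := by
  refine h.max y fun a ha => ?_
  exact h.span_induction (LinearMap.eqLocus (LinearMap.mulRight ℂ y) (LinearMap.mulLeft ℂ y))
    (isClosed_eq (f := fun a : Al M => a * y) (g := fun a : Al M => y * a) (by fun_prop)
      (by fun_prop)) hy ha

theorem std_norm_sq (a : Al M) (η : H) : ‖ap a η‖ ^ 2 = (⟪η, ap (star a * a) η⟫_ℂ).re := by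
  rw [ap_mul, ← inner_ap_left, inner_self_eq_norm_sq_to_K]
  norm_cast

theorem std_re_algebraMap (r : ℝ) (η : H) :
    (⟪η, ap (algebraMap ℝ (Al M) r) η⟫_ℂ).re = r * ‖η‖ ^ 2 := by
  rw [Algebra.algebraMap_eq_smul_one, ← Complex.coe_smul, ap_smul, ap_one, inner_smul_right,
    Complex.re_ofReal_mul, ← inner_self_eq_norm_sq (𝕜 := ℂ)]
  rfl

theorem std_proj_le {q : Al M} (hq : IsStarProjection q) (η : H) : ‖ap q η‖ ≤ ‖η‖ :=
  (norm_ap_le q η).trans (mul_le_of_le_one_left (norm_nonneg _) (proj_norm_le hq))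

/-- Spectral cut. Let `b = (w² - c²)₊` (`cfc`), `e` its left support (`spec_supp`), `q = 1 - e`.
If `y` commutes with `w` then so does `star y`, both commute with `b`, hence
`(1 - e) y e = 0 = e y (1 - e)`. `q b = 0` gives `q w² q = c² q - q (w² - c²)₋ q ≤ c² q`, and
`(w² - c²)₋ e = 0` gives `c ‖e ζ‖ ≤ ‖w e ζ‖ = ‖e w ζ‖ ≤ ‖w ζ‖`. -/
theorem exists_cut {w : Al M} (hw : IsSelfAdjoint w) {c : ℝ} (hc : 0 ≤ c) :
    ∃ q : Al M, IsStarProjection q ∧ (∀ y : Al M, y * w = w * y → y * q = q * y) ∧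
      ‖w * q‖ ≤ c ∧ ∀ ζ : H, c * ‖ap (1 - q) ζ‖ ≤ ‖ap w ζ‖ := by
  set f := cfc (fun t : ℝ => √(t ^ 2 - c ^ 2)) w with hf
  set g := cfc (fun t : ℝ => √(c ^ 2 - t ^ 2)) w with hg
  have hfs : star f = f := IsSelfAdjoint.cfc.star_eq
  have hgs : star g = g := IsSelfAdjoint.cfc.star_eq
  have hgf : g * f = 0 := by
    rw [hf, hg, ← cfc_mul .., ← cfc_zero ℝ w]
    refine cfc_congr fun t _ => ?_
    rcases le_total (t ^ 2) (c ^ 2) with h | h
    · simp only [Real.sqrt_eq_zero'.2 (sub_nonpos.2 h), mul_zero, Pi.zero_apply]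
    · simp only [Real.sqrt_eq_zero'.2 (sub_nonpos.2 h), zero_mul, Pi.zero_apply]
  have hid : w * w + g * g = algebraMap ℝ (Al M) (c ^ 2) + f * f := by
    have e : w * w = cfc (fun t : ℝ => t * t) w := by rw [cfc_mul .., cfc_id' ℝ w]
    rw [e, hf, hg, ← cfc_mul .., ← cfc_mul .., ← cfc_add .., ← cfc_const_add ..]
    refine cfc_congr fun t _ => ?_
    rcases le_total (t ^ 2) (c ^ 2) with h | h
    · simp only [Real.sqrt_eq_zero'.2 (sub_nonpos.2 h), Real.mul_self_sqrt (sub_nonneg.2 h)]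
      ring
    · simp only [Real.sqrt_eq_zero'.2 (sub_nonpos.2 h), Real.mul_self_sqrt (sub_nonneg.2 h)]
      ring
  have hnorm : ∀ η : H, ‖ap w η‖ ^ 2 + ‖ap g η‖ ^ 2 = c ^ 2 * ‖η‖ ^ 2 + ‖ap f η‖ ^ 2 := by
    intro η
    rw [std_norm_sq, std_norm_sq, std_norm_sq f, hw.star_eq, hfs, hgs, ← std_re_algebraMap (M := M),
      ← Complex.add_re, ← Complex.add_re, ← inner_add_right, ← inner_add_right, ← ap_add, ← ap_add,
      hid]
  obtain ⟨e, he, h1, h2⟩ := spec_supp f
  have hcomm : ∀ y : Al M, y * w = w * y → y * e = e * y := by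
    intro y hy
    have hy' : w * star y = star y * w := by
      simpa only [star_mul, hw.star_eq] using congrArg star hy
    exact std_comm_supp he h1 h2 (Commute.cfc_real (a := w) (b := y) hy.symm _).eq.symm
      (Commute.cfc_real (a := w) (b := star y) hy' _).eq.symm
  refine ⟨1 - e, he.one_sub, fun y hy => by rw [mul_sub, sub_mul, hcomm y hy, mul_one, one_mul],
    norm_le_of_ap _ hc fun ζ => ?_, fun ζ => ?_⟩
  · have h3 : f * (1 - e) = 0 := by
      have := congrArg star h1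
      rw [star_mul, hfs, proj_star he] at this
      rw [mul_sub, mul_one, this, sub_self]
    have h4 := hnorm (ap (1 - e) ζ)
    rw [← ap_mul f, h3, ap_zero, norm_zero] at h4
    have h5 := std_proj_le he.one_sub ζ
    refine le_trans (abs_le_of_sq_le_sq' ?_ (by positivity)).2
      (mul_le_mul_of_nonneg_left h5 hc)
    rw [mul_pow, ap_mul]
    nlinarith [sq_nonneg ‖ap g (ap (1 - e) ζ)‖]
  · rw [sub_sub_cancel]
    have h4 := hnorm (ap e ζ)
    rw [← ap_mul g, h2 g hgf, ap_zero, norm_zero, ← ap_mul w, hcomm w rfl, ap_mul] at h4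
    refine le_trans (abs_le_of_sq_le_sq' ?_ (norm_nonneg _)).2 (std_proj_le he (ap w ζ))
    rw [mul_pow]
    nlinarith [sq_nonneg ‖ap f (ap e ζ)‖]

section Ptn
variable {ι : Type*} [Fintype ι] {p : ι → Al M}

omit [CompleteSpace H] in
theorem std_pyth (v : ι → H) (h : Pairwise fun i j => ⟪v i, v j⟫_ℂ = 0) :
    ‖∑ i, v i‖ ^ 2 = ∑ i, ‖v i‖ ^ 2 := by
  classical
  rw [← inner_self_eq_norm_sq (𝕜 := ℂ), sum_inner, map_sum]
  refine Finset.sum_congr rfl fun i _ => ?_
  rw [inner_sum, Finset.sum_eq_single i (fun j _ hj => h hj.symm) (by simp),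
    inner_self_eq_norm_sq]

theorem std_norm_sum_sq (h : Ptn A p) (ζ : ι → H) :
    ‖∑ i, ap (p i) (ζ i)‖ ^ 2 = ∑ i, ‖ap (p i) (ζ i)‖ ^ 2 :=
  std_pyth _ fun i j hij => by
    beta_reduce
    rw [inner_ap_left, proj_star (h.proj i), ← ap_mul, h.orth hij, ap_zero, inner_zero_right]

theorem Ptn.sum_norm_sq (h : Ptn A p) (ζ : H) : ∑ i, ‖ap (p i) ζ‖ ^ 2 = ‖ζ‖ ^ 2 := by
  rw [← std_norm_sum_sq h fun _ => ζ, ← ap_sum, h.sum, ap_one]

theorem Ptn.norm_sum_sq (h : Ptn A p) (ζ : ι → H) :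
    ‖∑ i, ap (p i) (ζ i)‖ ^ 2 = ∑ i, ‖ap (p i) (ζ i)‖ ^ 2 := by
  exact std_norm_sum_sq h ζ

/-- `‖∑ p_i x_i p_i‖ ≤ max ‖p_i x_i p_i‖`. -/
theorem Ptn.norm_diag_le (h : Ptn A p) (x : ι → Al M) {c : ℝ} (hc : 0 ≤ c)
    (hx : ∀ i, ‖p i * x i * p i‖ ≤ c) : ‖∑ i, p i * x i * p i‖ ≤ c := by
  refine norm_le_of_ap _ hc fun ζ => (abs_le_of_sq_le_sq' ?_ (by positivity)).2
  rw [ap_sum, mul_pow, ← h.sum_norm_sq ζ, Finset.mul_sum]
  have e : ∀ i, ap (p i * x i * p i) ζ = ap (p i) (ap (x i * p i) ζ) := fun i => rfl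
  simp only [e]
  rw [h.norm_sum_sq]
  refine Finset.sum_le_sum fun i _ => ?_
  have e2 : ap (p i) (ap (x i * p i) ζ) = ap (p i * x i * p i) (ap (p i) ζ) := by
    rw [← ap_mul, ← ap_mul, mul_assoc (p i * x i), proj_mul_self (h.proj i), mul_assoc]
  rw [← mul_pow, e2]
  exact pow_le_pow_left₀ (norm_nonneg _)
    ((norm_ap_le _ _).trans (mul_le_mul_of_nonneg_right (hx i) (norm_nonneg _))) 2

theorem Ptn.norm_Ep_le (h : Ptn A p) (x : Al M) : ‖Ep p x‖ ≤ ‖x‖ := by
  refine h.norm_diag_le (fun _ => x) (norm_nonneg x) fun i => ?_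
  have hp := proj_norm_le (h.proj i)
  refine (norm_mul_le _ _).trans ((mul_le_of_le_one_right (norm_nonneg _) hp).trans ?_)
  exact (norm_mul_le _ _).trans (mul_le_of_le_one_left (norm_nonneg _) hp)

theorem Ptn.star_Ep (h : Ptn A p) (x : Al M) : star (Ep p x) = Ep p (star x) := by
  simp only [Ep, star_sum, star_mul, proj_star (h.proj _), mul_assoc]

theorem Ep_add (p : ι → Al M) (x y : Al M) : Ep p (x + y) = Ep p x + Ep p y := by
  simp only [Ep, mul_add, add_mul, Finset.sum_add_distrib]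

theorem Ep_sub (p : ι → Al M) (x y : Al M) : Ep p (x - y) = Ep p x - Ep p y := by
  simp only [Ep, mul_sub, sub_mul, Finset.sum_sub_distrib]

theorem Ep_smul (p : ι → Al M) (c : ℂ) (x : Al M) : Ep p (c • x) = c • Ep p x := by
  simp only [Ep, mul_smul_comm, smul_mul_assoc, Finset.smul_sum]

theorem Ptn.Ep_mem (h : Ptn A p) (hA : Masa A) {a : Al M} (ha : a ∈ A) : Ep p a = a := by
  have e : ∀ i, p i * a * p i = a * p i := fun i => by
    rw [hA.comm _ (h.mem i) a ha, mul_assoc, proj_mul_self (h.proj i)]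
  simp only [Ep, e]
  rw [← Finset.mul_sum, h.sum, mul_one]

theorem std_mul_Ep (h : Ptn A p) (x : Al M) (i : ι) : p i * Ep p x = p i * x * p i := by
  classical
  rw [Ep, Finset.mul_sum, Finset.sum_eq_single i (fun j _ hj => by
    rw [← mul_assoc, ← mul_assoc, h.orth hj.symm, zero_mul, zero_mul]) (by simp), ← mul_assoc,
    ← mul_assoc, proj_mul_self (h.proj i)]

theorem Ptn.Ep_Ep (h : Ptn A p) (x : Al M) : Ep p (Ep p x) = Ep p x := by
  refine Finset.sum_congr rfl fun i _ => ?_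
  rw [std_mul_Ep h, mul_assoc, proj_mul_self (h.proj i)]

theorem Ptn.mul_Ep (h : Ptn A p) (x : Al M) (i : ι) : p i * Ep p x = p i * x * p i := by
  exact std_mul_Ep h x i

theorem Ptn.Ep_mul (h : Ptn A p) (x : Al M) (i : ι) : Ep p x * p i = p i * x * p i := by
  classical
  rw [Ep, Finset.sum_mul, Finset.sum_eq_single i (fun j _ hj => by
    rw [mul_assoc, h.orth hj, mul_zero]) (by simp), mul_assoc, proj_mul_self (h.proj i)]

/-- Merging atoms along a map of index sets. -/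
theorem Ptn.fiber (h : Ptn A p) {κ : Type*} [Fintype κ] [DecidableEq κ] (c : ι → κ) :
    Ptn A fun k => ∑ i ∈ Finset.univ.filter (fun i => c i = k), p i := by
  refine ⟨fun k => sum_mem fun i _ => h.mem i, fun k => proj_finsum h.proj h.orth _,
    fun k l hkl => ?_, by rw [Finset.sum_fiberwise, h.sum]⟩
  beta_reduce
  rw [Finset.sum_mul_sum]
  refine Finset.sum_eq_zero fun i hi => Finset.sum_eq_zero fun j hj => h.orth ?_
  rintro rfl
  exact hkl ((Finset.mem_filter.1 hi).2.symm.trans (Finset.mem_filter.1 hj).2)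

/-- Common refinement. -/
theorem Ptn.prod (h : Ptn A p) (hA : Masa A) {κ : Type*} [Fintype κ] {q : κ → Al M}
    (hq : Ptn A q) : Ptn A fun ik : ι × κ => p ik.1 * q ik.2 := by
  have hc : ∀ i k, p i * q k = q k * p i := fun i k => hA.comm _ (h.mem i) _ (hq.mem k)
  refine ⟨fun ik => mul_mem (h.mem _) (hq.mem _),
    fun ik => (h.proj _).mul (hq.proj _) (hc _ _), fun ik jl hne => ?_, ?_⟩
  · have e : p ik.1 * q ik.2 * (p jl.1 * q jl.2) = (p ik.1 * p jl.1) * (q ik.2 * q jl.2) := by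
      rw [mul_assoc, ← mul_assoc (q ik.2), ← hc, mul_assoc, mul_assoc]
    change p ik.1 * q ik.2 * (p jl.1 * q jl.2) = 0
    rw [e]
    by_cases h1 : ik.1 = jl.1
    · rw [hq.orth fun h2 => hne (Prod.ext h1 h2), mul_zero]
    · rw [h.orth h1, zero_mul]
  · rw [Fintype.sum_prod_type, ← Finset.sum_mul_sum, h.sum, hq.sum, mul_one]

end Ptn

theorem std_inner (h : Std A ξ) (m n : Al M) {a : Al M} (ha : a ∈ A) :
    ⟪ap (m * a) ξ, ap n ξ⟫_ℂ = ⟪ap m ξ, ap (n * star a) ξ⟫_ℂ := by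
  rw [inner_ap_left, inner_ap_left m, ← ap_mul, ← ap_mul, star_mul, mul_assoc,
    h.cen _ (star_mem ha), mul_assoc]

theorem std_norm_sq_right (h : Std A ξ) (m : Al M) {a : Al M} (ha : a ∈ A) :
    ‖ap (m * a) ξ‖ ^ 2 = (⟪ap m ξ, ap (m * (a * star a)) ξ⟫_ℂ).re := by
  rw [← mul_assoc, ← std_inner h m _ ha, inner_self_eq_norm_sq_to_K]
  norm_cast

/-- Right multiplication by `a ∈ A` is bounded: `‖a‖² - a a* = b²` with `b = star b ∈ A` (`cfc`),
and `φ(a* m* m a) = φ(m* m a a*)`, `φ(m* m b b) = φ(b m* m b) ≥ 0`. -/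
theorem Std.norm_mul_le (h : Std A ξ) (m : Al M) {a : Al M} (ha : a ∈ A) :
    ‖ap (m * a) ξ‖ ≤ ‖a‖ * ‖ap m ξ‖ := by
  have hs : IsSelfAdjoint (a * star a) := IsSelfAdjoint.mul_star_self a
  set b := cfc (fun t : ℝ => √(‖a‖ ^ 2 - t)) (a * star a) with hb
  have hbA : b ∈ A := h.toMasa.cfc_mem (mul_mem ha (star_mem ha)) _
  have hbs : star b = b := IsSelfAdjoint.cfc.star_eq
  have hid : a * star a + b * star b = algebraMap ℝ (Al M) (‖a‖ ^ 2) := by
    rw [hbs, hb, ← cfc_mul .., ← cfc_const _ (a * star a)]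
    nth_rewrite 1 [← cfc_id' ℝ (a * star a)]
    rw [← cfc_add ..]
    refine cfc_congr fun t ht => ?_
    have h1 := norm_apply_le_norm_cfc (fun t : ℝ => t) (a * star a) ht
    rw [cfc_id' ℝ _, CStarRing.norm_self_mul_star, ← sq] at h1
    simp only [Real.mul_self_sqrt (sub_nonneg.2 ((le_abs_self t).trans h1))]
    ring
  have h1 : ‖ap (m * a) ξ‖ ^ 2 + ‖ap (m * b) ξ‖ ^ 2 = ‖a‖ ^ 2 * ‖ap m ξ‖ ^ 2 := by
    rw [std_norm_sq_right h m ha, std_norm_sq_right h m hbA, ← Complex.add_re, ← inner_add_right,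
      ← ap_add, ← mul_add, hid, ← Algebra.commutes, ap_mul, std_re_algebraMap]
  refine (abs_le_of_sq_le_sq' ?_ (by positivity)).2
  rw [mul_pow]
  nlinarith [sq_nonneg ‖ap (m * b) ξ‖]

/-- Right multiplications are adjointable. -/
theorem Std.inner_mul_right (h : Std A ξ) (m n : Al M) {a : Al M} (ha : a ∈ A) :
    ⟪ap (m * a) ξ, ap n ξ⟫_ℂ = ⟪ap m ξ, ap (n * star a) ξ⟫_ℂ := by
  exact std_inner h m n ha

theorem Std.sum_norm_sq_right (h : Std A ξ) {ι : Type*} [Fintype ι] {p : ι → Al M}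
    (hp : Ptn A p) (m : Al M) : ∑ i, ‖ap (m * p i) ξ‖ ^ 2 = ‖ap m ξ‖ ^ 2 := by
  rw [← std_pyth (fun i => ap (m * p i) ξ) fun i j hij => by
    beta_reduce
    rw [h.inner_mul_right m _ (hp.mem i), proj_star (hp.proj i), mul_assoc, hp.orth hij.symm,
      mul_zero, ap_zero, inner_zero_right], ← ap_sum, ← Finset.mul_sum, hp.sum, mul_one]

theorem Std.norm_Ep_le (h : Std A ξ) {ι : Type*} [Fintype ι] {p : ι → Al M} (hp : Ptn A p)
    (m : Al M) : ‖ap (Ep p m) ξ‖ ≤ ‖ap m ξ‖ := by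
  refine (abs_le_of_sq_le_sq' ?_ (norm_nonneg _)).2
  have e : ∀ i, ap (p i * m * p i) ξ = ap (p i) (ap (m * p i) ξ) := fun i => rfl
  rw [Ep, ap_sum, ← h.sum_norm_sq_right hp m]
  simp only [e]
  rw [hp.norm_sum_sq]
  exact Finset.sum_le_sum fun i _ =>
    pow_le_pow_left₀ (norm_nonneg _) (std_proj_le (hp.proj i) _) 2

/-- On bounded sets, small at `ξ` implies small at `ζ`: `M' ξ` is dense since `ξ` is separating
(`R121.exists_proj_span`, or `Submodule.topologicalClosure` and `orthogonal`), and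
`m t ξ = t m ξ` for `t ∈ M'`. -/
theorem Std.small (h : Std A ξ) (ζ : H) {e : ℝ} (he : 0 < e) :
    ∃ d > 0, ∀ m : Al M, ‖m‖ ≤ 1 → ‖ap m ξ‖ ≤ d → ‖ap m ζ‖ ≤ e := by
  let L : Submodule ℂ H :=
    { carrier := {v | ∃ t ∈ M.commutant, t ξ = v}
      add_mem' := by
        rintro _ _ ⟨s, hs, rfl⟩ ⟨t, ht, rfl⟩
        exact ⟨s + t, add_mem hs ht, rfl⟩
      zero_mem' := ⟨0, zero_mem _, rfl⟩
      smul_mem' := by
        rintro c _ ⟨t, ht, rfl⟩
        exact ⟨c • t, M.commutant.toStarSubalgebra.smul_mem ht c, rfl⟩ }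
  let K : Submodule ℂ H := L.topologicalClosure
  have hp : IsStarProjection K.starProjection := isStarProjection_starProjection
  have hM : K.starProjection ∈ M := by
    rw [VonNeumannAlgebra.IsStarProjection.mem_iff hp]
    intro t ht
    rw [Submodule.range_starProjection, Module.End.mem_invtSubmodule]
    refine Submodule.topologicalClosure_minimal _ ?_
      ((Submodule.isClosed_topologicalClosure L).preimage t.continuous)
    rintro _ ⟨s, hs, rfl⟩
    exact Submodule.le_topologicalClosure L ⟨t * s, mul_mem ht hs, rfl⟩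
  have h1 : (1 : Al M) - ⟨K.starProjection, hM⟩ = 0 := by
    refine h.sep _ ?_
    rw [ap_sub, ap_one, sub_eq_zero]
    exact (Submodule.starProjection_eq_self_iff.2
      (Submodule.le_topologicalClosure L ⟨1, one_mem _, rfl⟩)).symm
  have h2 : ζ ∈ closure (L : Set H) := by
    have h3 := congrArg (fun m : Al M => ap m ζ) (sub_eq_zero.1 h1)
    have h4 : K.starProjection ζ ∈ K := K.starProjection_apply_mem ζ
    change ζ = K.starProjection ζ at h3
    rw [← h3] at h4
    exact h4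
  obtain ⟨_, ⟨t, ht, rfl⟩, h5⟩ := Metric.mem_closure_iff.1 h2 (e / 2) (by positivity)
  rw [dist_eq_norm] at h5
  refine ⟨e / 2 / (‖t‖ + 1), by positivity, fun m hm hd => ?_⟩
  have h6 : t (ap m ξ) = ap m (t ξ) := congrArg (fun S : H →L[ℂ] H => S ξ) (comm_of_mem m ht)
  have h7 : ap m ζ = ap m (ζ - t ξ) + t (ap m ξ) := by
    rw [h6, ap, ap, ap, ← map_add, sub_add_cancel]
  have h8 : ‖ap m (ζ - t ξ)‖ ≤ e / 2 :=
    (norm_ap_le _ _).trans ((mul_le_of_le_one_left (norm_nonneg _) hm).trans h5.le)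
  have h9 : ‖t (ap m ξ)‖ ≤ e / 2 := by
    rw [le_div_iff₀ (by positivity)] at hd
    nlinarith [t.le_opNorm (ap m ξ), norm_nonneg (ap m ξ)]
  rw [h7]
  linarith [norm_add_le (ap m (ζ - t ξ)) (t (ap m ξ))]

end Crest.Agent.R109
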