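import Crest.Agent.R109.Herg

/-!
# R109: the whole-line identity
-/

set_option autoImplicit false
open Filter Topology MeasureTheory Set Complex

namespace Crest.Agent.R109

/-- `θ η x = arg (x + i η)`. -/
noncomputable def ang (η x : ℝ) : ℝ := arg (x + η * I)

/-- The integrand `arg (κ (τ + u) - b) - arg (τ + u)`, `τ = t + i η`. -/
noncomputable def dA (κ t η : ℝ) (b : ℂ) (u : ℝ) : ℝ :=
  arg (κ * (t + u + η * I) - b) - ang η (t + u)

variable {η : ℝ}

theorem zi_arg {w : ℂ} (hw : 0 < w.im) : arg w = Real.pi / 2 - Real.arctan (w.re / w.im) := by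
  have h1 := Real.arctan_lt_pi_div_two (w.re / w.im)
  have h2 := Real.neg_pi_div_two_lt_arctan (w.re / w.im)
  have h3 : 0 < √(1 + (w.re / w.im) ^ 2) := Real.sqrt_pos.2 (by positivity)
  have h4 := arg_mul_cos_add_sin_mul_I (r := w.im * √(1 + (w.re / w.im) ^ 2)) (mul_pos hw h3)
    (θ := Real.pi / 2 - Real.arctan (w.re / w.im)) ⟨by linarith [Real.pi_pos], by linarith⟩
  rw [← h4]
  congr 1
  rw [← ofReal_cos, ← ofReal_sin, Real.cos_pi_div_two_sub, Real.sin_pi_div_two_sub,
    Real.sin_arctan, Real.cos_arctan]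
  refine Complex.ext ?_ ?_
  · simp only [add_re, ofReal_re, mul_re, I_re, mul_zero, ofReal_im, I_im, mul_one,
      sub_self, add_zero, zero_mul, sub_zero]
    field_simp
  · simp only [add_im, ofReal_re, mul_im, I_re, mul_zero, ofReal_im, I_im, mul_one,
      zero_add, add_zero, zero_mul]
    field_simp

theorem zi_arg_pos {w : ℂ} (hw : 0 < w.im) : 0 < arg w := by
  rw [zi_arg hw]; linarith [Real.arctan_lt_pi_div_two (w.re / w.im)]

theorem zi_arg_lt {w : ℂ} (hw : 0 < w.im) : arg w < Real.pi := by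
  rw [zi_arg hw]; linarith [Real.neg_pi_div_two_lt_arctan (w.re / w.im)]

theorem zi_ne {w : ℂ} (hw : 0 < w.im) : w ≠ 0 := fun h => by rw [h] at hw; simp at hw

theorem zi_arg_div {w z : ℂ} (hw : 0 < w.im) (hz : 0 < z.im) : arg (w / z) = arg w - arg z := by
  have h1 : arg z⁻¹ = -arg z := by rw [arg_inv, if_neg (zi_arg_lt hz).ne]
  rw [div_eq_mul_inv, (arg_mul_eq_add_arg_iff (zi_ne hw) (inv_ne_zero (zi_ne hz))).2, h1,
    sub_eq_add_neg]
  rw [h1]
  exact ⟨by linarith [zi_arg_pos hw, zi_arg_lt hz], by linarith [zi_arg_lt hw, zi_arg_pos hz]⟩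

theorem zi_slit {b z : ℂ} (hz : 0 < z.im) (hb : b.im < z.im) : 1 - b / z ∈ slitPlane := by
  have hw : 0 < (z - b).im := by rw [sub_im]; linarith
  rw [one_sub_div (zi_ne hz), mem_slitPlane_iff_arg, zi_arg_div hw hz]
  exact ⟨by linarith [zi_arg_lt hw, zi_arg_pos hz], div_ne_zero (zi_ne hw) (zi_ne hz)⟩

/-- Subtracting a nonnegative real increases the argument in the upper half-plane (for example
`arg w = π/2 - arctan (Re w / Im w)` or `Complex.arg_of_im_pos`). -/
theorem arg_le_arg_sub {w : ℂ} (hw : 0 < w.im) {p : ℝ} (hp : 0 ≤ p) : arg w ≤ arg (w - p) := by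
  have hw' : 0 < (w - p).im := by simpa using hw
  rw [zi_arg hw, zi_arg hw', sub_im, ofReal_im, sub_zero, sub_re, ofReal_re]
  exact sub_le_sub_left (Real.arctan_mono (div_le_div_of_nonneg_right (by linarith) hw.le)) _

theorem ang_eq (hη : 0 < η) (x : ℝ) : ang η x = Real.pi / 2 - Real.arctan (x / η) := by
  rw [ang, zi_arg (by simpa using hη)]
  simp

theorem ang_anti (hη : 0 < η) : Antitone (ang η) := by
  intro x y hxy
  rw [ang_eq hη, ang_eq hη]
  exact sub_le_sub_left (Real.arctan_mono (div_le_div_of_nonneg_right hxy hη.le)) _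

theorem ang_continuous (hη : 0 < η) : Continuous (ang η) := by
  rw [show ang η = fun x => Real.pi / 2 - Real.arctan (x / η) from funext (ang_eq hη)]
  exact continuous_const.sub (Real.continuous_arctan.comp (continuous_id.div_const η))

theorem ang_pos (hη : 0 < η) (x : ℝ) : 0 < ang η x := by
  exact zi_arg_pos (by simpa using hη)

theorem ang_lt_pi (hη : 0 < η) (x : ℝ) : ang η x < Real.pi := by
  exact zi_arg_lt (by simpa using hη)

theorem ang_le_div (hη : 0 < η) {x : ℝ} (hx : 0 < x) : ang η x ≤ η / x := by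
  rw [ang_eq hη, ← Real.arctan_inv_of_pos (div_pos hx hη), inv_div]
  have h := Real.le_tan (Real.arctan_nonneg.2 (div_pos hη hx).le) (Real.arctan_lt_pi_div_two _)
  rwa [Real.tan_arctan] at h

theorem ang_le_pi_div_two (hη : 0 < η) {x : ℝ} (hx : 0 ≤ x) : ang η x ≤ Real.pi / 2 := by
  rw [ang_eq hη]
  linarith [Real.arctan_nonneg.2 (div_nonneg hx hη.le)]

theorem ang_neg (hη : 0 < η) (x : ℝ) : ang η (-x) = Real.pi - ang η x := by
  rw [ang_eq hη, ang_eq hη, neg_div, Real.arctan_neg]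
  ring

theorem zi_interval (hη : 0 < η) (m p q : ℝ) :
    ∫ x in p..q, (ang η x - ang η (x + m)) =
      (∫ x in p..p + m, ang η x) - ∫ x in q..q + m, ang η x := by
  have hc := ang_continuous hη
  rw [intervalIntegral.integral_sub (g := fun x => ang η (x + m)) (hc.intervalIntegrable _ _)
    ((hc.comp (continuous_add_const m)).intervalIntegrable _ _),
    intervalIntegral.integral_comp_add_right (ang η) m]
  exact intervalIntegral.integral_interval_sub_interval_comm (hc.intervalIntegrable _ _)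
    (hc.intervalIntegrable _ _) (hc.intervalIntegrable _ _)

theorem zi_interval_le (hη : 0 < η) {m : ℝ} (hm : 0 ≤ m) (p q : ℝ) :
    ∫ x in p..q, (ang η x - ang η (x + m)) ≤ Real.pi * m := by
  rw [zi_interval hη]
  have h1 : 0 ≤ ∫ x in q..q + m, ang η x :=
    intervalIntegral.integral_nonneg (by linarith) fun x _ => (ang_pos hη x).le
  have h2 := intervalIntegral.norm_integral_le_of_norm_le_const (a := p) (b := p + m)
    (f := ang η) (C := Real.pi) fun x _ => by
      rw [Real.norm_of_nonneg (ang_pos hη x).le]; exact (ang_lt_pi hη x).le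
  rw [add_sub_cancel_left, abs_of_nonneg hm] at h2
  linarith [(le_abs_self _).trans h2]

theorem zi_integrable (hη : 0 < η) {m : ℝ} (hm : 0 ≤ m) :
    Integrable fun x => ang η x - ang η (x + m) := by
  have hc := ang_continuous hη
  refine integrable_of_intervalIntegral_norm_bounded (Real.pi * m)
    (fun i => ((hc.sub (hc.comp (continuous_add_const m))).intervalIntegrable _ _).1)
    tendsto_neg_atTop_atBot tendsto_id (Eventually.of_forall fun q => ?_)
  refine le_trans (le_of_eq ?_) (zi_interval_le hη hm (-q) q)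
  refine intervalIntegral.integral_congr fun x _ => ?_
  exact Real.norm_of_nonneg (sub_nonneg.2 (ang_anti hη (by linarith)))

/-- `|θ'| = η / (x² + η²)`, so the difference is `O(1/x²)`. -/
theorem ang_sub_integrable (hη : 0 < η) (m : ℝ) :
    Integrable fun x => ang η x - ang η (x + m) := by
  rcases le_total 0 m with hm | hm
  · exact zi_integrable hη hm
  · have h := ((zi_integrable hη (neg_nonneg.2 hm)).comp_add_right m).neg
    refine h.congr (Eventually.of_forall fun x => ?_)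
    simp

theorem ang_sub_interval (hη : 0 < η) (m p q : ℝ) :
    ∫ x in p..q, (ang η x - ang η (x + m)) =
      (∫ x in p..p + m, ang η x) - ∫ x in q..q + m, ang η x := by
  exact zi_interval hη m p q

theorem ang_sub_Ioi (hη : 0 < η) (m p : ℝ) :
    ∫ x in Ioi p, (ang η x - ang η (x + m)) = ∫ x in p..p + m, ang η x := by
  have h1 := intervalIntegral_tendsto_integral_Ioi p (ang_sub_integrable hη m).integrableOn
    tendsto_id
  have h2 : Tendsto (fun q : ℝ => ∫ x in q..q + m, ang η x) atTop (𝓝 0) := by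
    have h3 : Tendsto (fun q : ℝ => η / (q - |m|) * |m|) atTop (𝓝 (0 * |m|)) :=
      (tendsto_const_nhds.div_atTop (tendsto_atTop_add_const_right _ (-|m|) tendsto_id)).mul_const _
    rw [zero_mul] at h3
    refine squeeze_zero_norm' ((eventually_gt_atTop |m|).mono fun q hq => ?_) h3
    have h4 := intervalIntegral.norm_integral_le_of_norm_le_const (a := q) (b := q + m)
      (f := ang η) (C := η / (q - |m|)) fun x hx => by
        have h5 : q - |m| ≤ x := by
          refine le_trans (le_min ?_ ?_) hx.1.le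
          · linarith [abs_nonneg m]
          · linarith [neg_abs_le m]
        rw [Real.norm_of_nonneg (ang_pos hη x).le]
        exact (ang_anti hη h5).trans (ang_le_div hη (by linarith))
    rwa [add_sub_cancel_left] at h4
  have h3 := (tendsto_const_nhds (x := ∫ x in p..p + m, ang η x)).sub h2
  rw [sub_zero] at h3
  exact tendsto_nhds_unique h1 (h3.congr fun q => (ang_sub_interval hη m p q).symm)

theorem ang_sub_integral_le (hη : 0 < η) {m : ℝ} (hm : 0 ≤ m) :
    ∫ x, (ang η x - ang η (x + m)) ≤ Real.pi * m := by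
  exact le_of_tendsto' (intervalIntegral_tendsto_integral (ang_sub_integrable hη m)
    tendsto_neg_atTop_atBot tendsto_id) fun q => zi_interval_le hη hm _ _

theorem abs_dA_le {κ t : ℝ} (hκ : 0 < κ) (hη : 0 < η) {b : ℂ} (hb : b.im ≤ 0) (u : ℝ) :
    |dA κ t η b u| ≤ Real.pi := by
  have h : 0 < (κ * (t + u + η * I) - b).im := by
    have := mul_pos hκ hη
    simp
    linarith
  rw [dA, abs_le]
  exact ⟨by linarith [zi_arg_pos h, ang_lt_pi hη (t + u)],
    by linarith [zi_arg_lt h, ang_pos hη (t + u)]⟩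

/-- `dA` is the imaginary part of `log (1 - b / z)` as soon as `z - b` is in the upper
half-plane. -/
theorem dA_eq_im_log {κ t : ℝ} (hκ : 0 < κ) (hη : 0 < η) {b : ℂ} (hb : b.im < κ * η) (u : ℝ) :
    dA κ t η b u = (log (1 - b / (κ * (t + u + η * I)))).im := by
  have hz : 0 < ((κ : ℂ) * (t + u + η * I)).im := by simpa using mul_pos hκ hη
  have h : 0 < (κ * (t + u + η * I) - b).im := by simpa using hb
  rw [log_im, one_sub_div (zi_ne hz), zi_arg_div h hz, arg_real_mul _ hκ, dA, ang, ofReal_add]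

/-- `‖log (1 - w)‖ ≤ (3/2) ‖w‖` for `‖w‖ ≤ 1/2` (`Complex.norm_log_one_add_half_le_self`). -/
theorem abs_dA_le' {κ t : ℝ} (hκ : 0 < κ) (hη : 0 < η) {b : ℂ} (hb : b.im ≤ 0) {u : ℝ}
    (h : ‖b‖ ≤ κ * |t + u| / 2) : |dA κ t η b u| ≤ 3 / 2 * (‖b‖ / (κ * |t + u|)) := by
  rw [dA_eq_im_log hκ hη (hb.trans_lt (mul_pos hκ hη))]
  have h1 : ‖-(b / (κ * (t + u + η * I)))‖ ≤ ‖b‖ / (κ * |t + u|) := by
    rcases eq_or_ne (t + u) 0 with h0 | h0
    · rw [h0, abs_zero, mul_zero, zero_div] at h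
      rw [norm_le_zero_iff.1 h]
      simp
    · rw [norm_neg, norm_div, norm_mul, norm_real, Real.norm_of_nonneg hκ.le]
      refine div_le_div_of_nonneg_left (norm_nonneg _) (by positivity)
        (mul_le_mul_of_nonneg_left ?_ hκ.le)
      simpa using abs_re_le_norm (t + u + η * I)
  have h2 : ‖b‖ / (κ * |t + u|) ≤ 1 / 2 :=
    div_le_of_le_mul₀ (by positivity) (by norm_num) (by linarith)
  refine (abs_im_le_norm _).trans ?_
  rw [sub_eq_add_neg]
  exact (norm_log_one_add_half_le_self (h1.trans h2)).trans (by linarith)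

/-- The whole-line identity. `g ζ = log (1 - c ζ / (κ (τ + ζ)))` is analytic on the open upper
half-plane (quotient of two points of the upper half-plane) and `O(1/|ζ|²)`. Apply
`integral_halfplane` to `g (· + e i)`, take imaginary parts (`dA_eq_im_log` with `η + e`) and let
`e → 0⁺` along a sequence by dominated convergence (bounds `π` and `D' / u²`; `arg` is continuous
on the upper half-plane, and `Im γ ≤ 0` a.e.). -/
theorem whole_line {c : ℂ → ℂ} {γ : ℝ → ℂ} {κ t D U : ℝ} (hκ : 0 < κ) (hη : 0 < η)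
    (hc : ∀ ζ : ℂ, 0 < ζ.im → DifferentiableAt ℂ c ζ ∧ (c ζ).im ≤ 0 ∧
      (U ≤ ‖ζ‖ → ‖c ζ‖ ≤ D / ‖ζ‖))
    (hγ : ∀ᵐ u : ℝ, Tendsto (fun e : ℝ => c (u + e * I)) (𝓝[>] 0) (𝓝 (γ u))) :
    Integrable (fun u => dA κ t η (γ u) u) ∧ ∫ u, dA κ t η (γ u) u = 0 := by
  obtain ⟨g, hg⟩ : ∃ g : ℂ → ℂ, g = fun ζ => log (1 - c ζ / (κ * (t + η * I + ζ))) := ⟨_, rfl⟩
  have hz : ∀ ζ : ℂ, 0 ≤ ζ.im → 0 < ((κ : ℂ) * (t + η * I + ζ)).im := fun ζ hζ => by
    simpa using mul_pos hκ (add_pos_of_pos_of_nonneg hη hζ)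
  have hd : ∀ ζ : ℂ, 0 < ζ.im → DifferentiableAt ℂ g ζ := fun ζ hζ => by
    rw [hg]
    refine DifferentiableAt.clog ((differentiableAt_const _).sub ((hc ζ hζ).1.div (by fun_prop)
      (zi_ne (hz ζ hζ.le)))) (zi_slit (hz ζ hζ.le) ((hc ζ hζ).2.1.trans_lt (hz ζ hζ.le)))
  obtain ⟨U', D', hU', hD', hb⟩ : ∃ U' D' : ℝ, 1 ≤ U' ∧ 0 ≤ D' ∧
      ∀ ζ : ℂ, 0 < ζ.im → U' ≤ ‖ζ‖ → ‖g ζ‖ ≤ D' / ‖ζ‖ ^ 2 := by
    refine ⟨max (max U 1) (max (2 * ‖(t : ℂ) + η * I‖) (4 * |D| / κ)), 3 * |D| / κ,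
      le_max_of_le_left (le_max_right _ _), by positivity, fun ζ hζ hU => ?_⟩
    simp only [max_le_iff] at hU
    obtain ⟨⟨h1, h2⟩, h3, h4⟩ := hU
    have h5 : ‖c ζ‖ ≤ |D| / ‖ζ‖ :=
      ((hc ζ hζ).2.2 h1).trans (div_le_div_of_nonneg_right (le_abs_self D) (norm_nonneg _))
    have h6 : ‖ζ‖ / 2 ≤ ‖(t : ℂ) + η * I + ζ‖ := by
      have := norm_sub_le ((t : ℂ) + η * I + ζ) (t + η * I)
      rw [add_sub_cancel_left] at this
      linarith
    have h0 : 0 < ‖ζ‖ := by linarith
    have h7 : ‖-(c ζ / (κ * (t + η * I + ζ)))‖ ≤ 2 * |D| / κ / ‖ζ‖ ^ 2 := by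
      rw [norm_neg, norm_div, norm_mul, norm_real, Real.norm_of_nonneg hκ.le]
      calc _ ≤ |D| / ‖ζ‖ / (κ * (‖ζ‖ / 2)) := by gcongr
        _ = _ := by field_simp
    have h8 : 2 * |D| / κ / ‖ζ‖ ^ 2 ≤ 1 / 2 := by
      rw [div_le_iff₀ (by positivity)]
      have : 4 * |D| / κ = 2 * (2 * |D| / κ) := by ring
      nlinarith
    rw [hg]
    simp only [sub_eq_add_neg]
    refine (norm_log_one_add_half_le_self (h7.trans h8)).trans
      ((mul_le_mul_of_nonneg_left h7 (by norm_num)).trans (le_of_eq (by ring)))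
  have hmono : ∀ (ζ : ℂ) (e : ℝ), 0 ≤ ζ.im → 0 < e → ‖ζ‖ ≤ ‖ζ + e * I‖ := fun ζ e hζ he => by
    rw [← sq_le_sq₀ (norm_nonneg _) (norm_nonneg _), ← normSq_eq_norm_sq, ← normSq_eq_norm_sq,
      normSq_apply, normSq_apply]
    simp only [add_re, mul_re, ofReal_re, I_re, mul_zero, ofReal_im, I_im, mul_one, sub_self,
      add_zero, add_im, mul_im]
    nlinarith
  have hb' : ∀ (ζ : ℂ) (e : ℝ), 0 ≤ ζ.im → 0 < e → U' ≤ ‖ζ‖ → ‖g (ζ + e * I)‖ ≤ D' / ‖ζ‖ ^ 2 :=
    fun ζ e hζ he hU => by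
      have h1 := hmono ζ e hζ he
      have h0 : 0 < ‖ζ‖ := by linarith
      refine (hb _ (by simpa using add_pos_of_nonneg_of_pos hζ he) (hU.trans h1)).trans ?_
      gcongr
  obtain ⟨e, he, he0⟩ : ∃ e : ℕ → ℝ, (∀ n, 0 < e n) ∧ Tendsto e atTop (𝓝[>] 0) :=
    ⟨fun n => 1 / ((n : ℝ) + 1), fun n => by positivity,
      tendsto_nhdsWithin_iff.2 ⟨tendsto_one_div_add_atTop_nhds_zero_nat,
        Eventually.of_forall fun n => mem_Ioi.2 (by positivity)⟩⟩
  have hI : ∀ n, Integrable (fun u : ℝ => (g (u + e n * I)).im) ∧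
      ∫ u : ℝ, (g (u + e n * I)).im = 0 := fun n => by
    obtain ⟨h1, h2⟩ := integral_halfplane (g := fun ζ => g (ζ + e n * I)) (D := D') (U := U')
      (fun ζ hζ => (hd _ (by simpa using add_pos_of_nonneg_of_pos hζ (he n))).comp ζ
        (f := fun ζ => ζ + e n * I) (by fun_prop)) fun ζ hζ hU => hb' ζ _ hζ (he n) hU
    refine ⟨h1.im, ?_⟩
    have h3 := integral_im h1
    rw [h2] at h3
    simpa using h3
  have hbd : ∀ n (u : ℝ), ‖(g (u + e n * I)).im‖ ≤
      (Real.pi * (1 + U' ^ 2) + 2 * D') * (1 + u ^ 2)⁻¹ := fun n u => by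
    rw [← div_eq_mul_inv, le_div_iff₀ (by positivity), Real.norm_eq_abs]
    have hπ := Real.pi_pos
    rcases le_total U' |u| with hu | hu
    · have h1 := (abs_im_le_norm _).trans (hb' u _ (by simp) (he n) (by simpa using hu))
      have h2 : 1 ≤ u ^ 2 := by rw [← sq_abs]; exact one_le_pow₀ (hU'.trans hu)
      rw [norm_real, Real.norm_eq_abs, sq_abs, le_div_iff₀ (by linarith)] at h1
      nlinarith [abs_nonneg (g (u + e n * I)).im, mul_pos hπ (by positivity : 0 < 1 + U' ^ 2)]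
    · have h1 : |(g (u + e n * I)).im| ≤ Real.pi := by
        rw [hg]; simp only [log_im]; exact abs_arg_le_pi _
      have h2 : u ^ 2 ≤ U' ^ 2 := by rw [← sq_abs]; exact pow_le_pow_left₀ (abs_nonneg _) hu 2
      have h3 := mul_le_mul h1 (by linarith : 1 + u ^ 2 ≤ 1 + U' ^ 2) (by positivity) hπ.le
      linarith
  have hlim : ∀ᵐ u : ℝ, Tendsto (fun n => (g (u + e n * I)).im) atTop (𝓝 (dA κ t η (γ u) u)) := by
    filter_upwards [hγ] with u hu
    have h1 := hu.comp he0
    have h2 : (γ u).im ≤ 0 := le_of_tendsto' ((continuous_im.tendsto _).comp h1) fun n =>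
      (hc _ (by simpa using he n)).2.1
    have h3 : Tendsto (fun n => (κ : ℂ) * (t + η * I + (u + e n * I))) atTop
        (𝓝 (κ * (t + η * I + (u + (0 : ℝ) * I)))) :=
      (Continuous.tendsto (f := fun e : ℝ => (κ : ℂ) * (t + η * I + (u + e * I))) (by fun_prop)
        0).comp (he0.mono_right nhdsWithin_le_nhds)
    have e1 : (t : ℂ) + η * I + (u + (0 : ℝ) * I) = t + u + η * I := by simp; ring
    rw [e1] at h3
    have h4 : 0 < ((κ : ℂ) * (t + u + η * I)).im := by simpa using mul_pos hκ hη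
    rw [dA_eq_im_log hκ hη (h2.trans_lt (mul_pos hκ hη)), hg]
    exact (continuous_im.tendsto _).comp
      ((tendsto_const_nhds.sub (h1.div h3 (zi_ne h4))).clog (zi_slit h4 (h2.trans_lt h4)))
  have hK : Integrable fun u : ℝ => (Real.pi * (1 + U' ^ 2) + 2 * D') * (1 + u ^ 2)⁻¹ :=
    integrable_inv_one_add_sq.const_mul _
  refine ⟨hK.mono' (aestronglyMeasurable_of_tendsto_ae atTop (fun n => (hI n).1.1) hlim)
    (hlim.mono fun u hu => le_of_tendsto' hu.norm fun n => hbd n u), ?_⟩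
  have h1 := tendsto_integral_of_dominated_convergence _ (fun n => (hI n).1.1) hK
    (fun n => Eventually.of_forall (hbd n)) hlim
  simp only [(hI _).2] at h1
  exact tendsto_nhds_unique h1 tendsto_const_nhds

/-- Splitting the poles at `0` and adding a pole of mass `M` at `-U`: `whole_line` for
`c ζ + M / (ζ + U)` with `c` from `Herg.exists_pos_part`; the part `u < 0` is rewritten with
`u = -y` (`integral_comp_neg_Iic`/`integral_comp_neg_Ioi`), and `arg (κ w) = arg w`. -/
theorem Herg.split {β : ℂ → ℂ} (h : Herg β) {κ t M U : ℝ} (hκ : 0 < κ) (hη : 0 < η) (hM : 0 ≤ M)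
    (hU : 0 < U) :
    IntegrableOn (fun u : ℝ => dA κ t η (β u - nn β u + (M / (u + U) : ℝ)) u) (Ioi 0) ∧
    IntegrableOn (fun y : ℝ => ang η (t - y) - ang η (t - y + (mm β y + M / (y - U)) / κ))
      (Ioi 0) ∧
    ∫ u in Ioi (0 : ℝ), dA κ t η (β u - nn β u + (M / (u + U) : ℝ)) u =
      ∫ y in Ioi (0 : ℝ), (ang η (t - y) - ang η (t - y + (mm β y + M / (y - U)) / κ)) := by
  obtain ⟨c, D, hc, hp, hn⟩ := h.exists_pos_part
  obtain ⟨γ, hγ⟩ : ∃ γ : ℝ → ℂ, γ = fun u : ℝ =>
      (if 0 < u then β u - nn β u else -mm β (-u)) + (M / (u + U) : ℝ) := ⟨_, rfl⟩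
  obtain ⟨h1, h2⟩ := whole_line (c := fun ζ => c ζ + M / (ζ + U)) (γ := γ) (t := t)
    (D := D + 2 * M) (U := 2 * U) hκ hη (fun ζ hζ => by
      have h0 : 0 < (ζ + U).im := by simpa using hζ
      obtain ⟨h1, h2, h3⟩ := hc ζ hζ
      refine ⟨h1.add ((differentiableAt_const _).div (by fun_prop) (zi_ne h0)), ?_, fun hU' => ?_⟩
      · rw [add_im, div_im, ofReal_im, ofReal_re, zero_mul, zero_div, zero_sub]
        have := div_nonneg (mul_nonneg hM h0.le) (normSq_nonneg (ζ + U))
        linarith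
      · have h4 : ‖ζ‖ / 2 ≤ ‖ζ + U‖ := by
          have := norm_sub_le (ζ + U) U
          rw [add_sub_cancel_right, norm_real, Real.norm_of_nonneg hU.le] at this
          linarith
        have h5 : 0 < ‖ζ‖ := by linarith
        refine (norm_add_le _ _).trans ?_
        rw [add_div, norm_div, norm_real, Real.norm_of_nonneg hM]
        refine add_le_add h3 ?_
        calc _ ≤ M / (‖ζ‖ / 2) := by gcongr
          _ = _ := by field_simp) (by
      filter_upwards [compl_mem_ae_iff.2 (measure_singleton (0 : ℝ)),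
        compl_mem_ae_iff.2 (measure_singleton (-U))] with u hu0 huU
      have hu1 : (u : ℂ) + (0 : ℝ) * I + U ≠ 0 := by
        have : u + U ≠ 0 := fun h => huU (eq_neg_of_add_eq_zero_left h)
        simp only [ofReal_zero, zero_mul, add_zero]
        exact_mod_cast this
      have h1 : Tendsto (fun e : ℝ => (M : ℂ) / (u + e * I + U)) (𝓝[>] 0)
          (𝓝 (M / (u + (0 : ℝ) * I + U))) :=
        (ContinuousAt.div (f := fun _ : ℝ => (M : ℂ)) (g := fun e : ℝ => (u : ℂ) + e * I + U)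
          continuousAt_const (by fun_prop) hu1).tendsto.mono_left nhdsWithin_le_nhds
      rw [ofReal_zero, zero_mul, add_zero, ← ofReal_add, ← ofReal_div] at h1
      rw [hγ]
      refine Tendsto.add ?_ h1
      split_ifs with hu
      · exact hp u hu
      · have h2 := hn (-u) (neg_pos.2 (lt_of_le_of_ne (not_lt.1 hu) hu0))
        rwa [ofReal_neg, neg_neg] at h2)
  have e1 : EqOn (fun u => dA κ t η (γ u) u)
      (fun u : ℝ => dA κ t η (β u - nn β u + (M / (u + U) : ℝ)) u) (Ioi 0) := fun u hu => by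
    simp only [hγ, if_pos (mem_Ioi.1 hu)]
  have e2 : EqOn (fun y => -dA κ t η (γ (-y)) (-y))
      (fun y : ℝ => ang η (t - y) - ang η (t - y + (mm β y + M / (y - U)) / κ)) (Ioi 0) := by
    intro y hy
    have h3 : ¬ 0 < -y := by simpa using (mem_Ioi.1 hy).le
    have hκ' : (κ : ℂ) ≠ 0 := by exact_mod_cast hκ.ne'
    have e3 : M / (-y + U) = -(M / (y - U)) := by rw [← div_neg, neg_sub, neg_add_eq_sub]
    simp only [hγ, if_neg h3, neg_neg, dA, neg_sub, e3]
    rw [← sub_eq_add_neg t y, ang, ang, ← arg_real_mul (((t - y + _ : ℝ) : ℂ) + η * I) hκ]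
    congr 2
    generalize M / (y - U) = p
    push_cast
    field_simp
    ring
  refine ⟨h1.integrableOn.congr_fun e1 measurableSet_Ioi,
    h1.comp_neg.neg.integrableOn.congr_fun e2 measurableSet_Ioi, ?_⟩
  rw [← setIntegral_congr_fun measurableSet_Ioi e1, ← setIntegral_congr_fun measurableSet_Ioi e2,
    integral_neg, integral_comp_neg_Ioi 0 fun u => dA κ t η (γ u) u, neg_zero]
  have h3 := intervalIntegral.integral_Iic_add_Ioi (b := 0) h1.integrableOn h1.integrableOn
  linarith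

end Crest.Agent.R109
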