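import Crest.Agent.R109.Q

/-!
# R109: zero-freeness of the colouring polynomial and bounds on the self-energy

A vertex has a kind `k : Option (Finset ι)` and a height `z`. Kind `none`: the vertex gets a
uniformly random colour (averaged vertex). Kind `some P`: the vertex is present in each copy
`i ∈ P` (`P = {i}`: coloured `i`, `P = ∅`: deleted, `P = univ`: present in all copies).
-/

set_option autoImplicit false
open Finset Polynomial

namespace Crest.Agent.R109

variable {V ι : Type*} [DecidableEq V] [Fintype ι] [DecidableEq ι]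

/-- The weight of a vertex of kind `k` at height `z` (the matrix is `x a`). -/
noncomputable def wG (x z : ℂ) : Option (Finset ι) → Finset ι → ℂ
  | none => wA 1 fun _ => x / (Fintype.card ι * z)
  | some P => wP fun i => if i ∈ P then x / z else 0

/-- Expected value of `det (1 - x Z⁻¹ a_c)`. -/
noncomputable def ZG (a : V → V → ℂ) (x : ℂ) (Λ : Finset V) (k : V → Option (Finset ι))
    (z : V → ℂ) : ℂ :=
  Q Λ (fun w => wG x (z w) (k w)) (mn a)

/-- Numerator of the self-energy of `v ∉ Λ` in copy `i`. -/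
noncomputable def NG (a : V → V → ℂ) (x : ℂ) (Λ : Finset V) (k : V → Option (Finset ι))
    (z : V → ℂ) (v : V) (i : ι) : ℂ :=
  x * Nn Λ (fun w => wG x (z w) (k w)) (mn a) v i

/-- Self-energy of `v ∉ Λ` in copy `i`. -/
noncomputable def bG (a : V → V → ℂ) (x : ℂ) (Λ : Finset V) (k : V → Option (Finset ι))
    (z : V → ℂ) (v : V) (i : ι) : ℂ :=
  NG a x Λ k z v i / ZG a x Λ k z

section Basic
variable {a : V → V → ℂ} {x : ℂ} {Λ : Finset V} {k k' : V → Option (Finset ι)} {z z' : V → ℂ}
  {v : V}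

omit [DecidableEq V] in
theorem zero_wG_zero (z : ℂ) (k : Option (Finset ι)) : wG 0 z k = wA 1 0 := by
  cases k with
  | none => simp only [wG, zero_div]; rfl
  | some P => simp only [wG, zero_div, ite_self, wA_zero]; rfl

omit [DecidableEq V] in
theorem zero_wG_del (x z : ℂ) : wG x z (some (∅ : Finset ι)) = wA 1 0 := by
  simp only [wG, notMem_empty, if_false, wA_zero]; rfl

omit [DecidableEq V] in
theorem zero_wG_single (x z : ℂ) (i : ι) :
    wG x z (some {i}) = wA 1 (Pi.single i (x / z)) := by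
  rw [wA_single, wG]
  congr 1
  funext j
  simp only [mem_singleton, Pi.single_apply]

omit [DecidableEq V] in
theorem zero_wG_conj (x z : ℂ) (k : Option (Finset ι)) (T : Finset ι) :
    (starRingEnd ℂ) (wG x z k T) = wG ((starRingEnd ℂ) x) ((starRingEnd ℂ) z) k T := by
  cases k with
  | none => simp only [wG, map_wA, map_one, map_div₀, map_mul, map_natCast]
  | some P => simp only [wG, wP, map_prod, apply_ite (starRingEnd ℂ), map_div₀, map_zero]

theorem zero_Q_sdiff (Λ D : Finset V) {ω : V → Finset ι → ℂ} (δ : Finset V → ℂ)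
    (h : ∀ w ∈ D, ω w = wA 1 0) : Q Λ ω δ = Q (Λ \ D) ω δ := by
  induction D using Finset.induction_on with
  | empty => rw [sdiff_empty]
  | insert v D _ ih =>
    rw [sdiff_insert, ← Q_erase_zero δ (h v (mem_insert_self _ _)),
      ih fun w hw => h w (mem_insert_of_mem hw)]

theorem zero_mn_conj (ha : Herm a) : (fun S => (starRingEnd ℂ) (mn a S)) = mn a :=
  funext fun S => Complex.conj_eq_iff_im.2 (mn_im ha S)

omit [DecidableEq V] in
theorem zero_prod_diff {E κ : Type*} [NormedAddCommGroup E] [NormedSpace ℂ E] {s : E}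
    (u : Finset κ) {f : κ → E → ℂ} (h : ∀ i ∈ u, DifferentiableAt ℂ (f i) s) :
    DifferentiableAt ℂ (fun s => ∏ i ∈ u, f i s) s := by
  classical
  exact (HasFDerivAt.finsetProd fun i hi => (h i hi).hasFDerivAt).differentiableAt

theorem zero_Q_diff {E : Type*} [NormedAddCommGroup E] [NormedSpace ℂ E] {s : E}
    {ω : E → V → Finset ι → ℂ} (δ : Finset V → ℂ)
    (h : ∀ w ∈ Λ, ∀ T, DifferentiableAt ℂ (fun s => ω s w T) s) :
    DifferentiableAt ℂ (fun s => Q Λ (ω s) δ) s := by
  unfold Q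
  exact DifferentiableAt.fun_sum fun S _ =>
    (zero_prod_diff _ fun w hw => h w hw _).mul_const _

omit [DecidableEq V] in
theorem zero_wG_diff {E : Type*} [NormedAddCommGroup E] [NormedSpace ℂ E] {s : E} {x z : E → ℂ}
    (hx : DifferentiableAt ℂ x s) (hz : DifferentiableAt ℂ z s) (h0 : z s ≠ 0)
    (k : Option (Finset ι)) (T : Finset ι) :
    DifferentiableAt ℂ (fun s => wG (x s) (z s) k T) s := by
  have h1 : DifferentiableAt ℂ (fun s => x s / z s) s := by
    simp only [div_eq_mul_inv]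
    exact hx.mul (hz.inv h0)
  cases k with
  | none =>
    simp only [wG, wA, div_mul_eq_div_div_swap]
    split_ifs
    · exact differentiableAt_const _
    · refine DifferentiableAt.fun_sum fun i _ => ?_
      split_ifs
      · simp only [div_eq_mul_inv _ (Fintype.card ι : ℂ)]
        exact h1.mul_const _
      · exact differentiableAt_const _
  | some P =>
    simp only [wG, wP]
    refine zero_prod_diff _ fun i _ => ?_
    split_ifs
    · exact h1
    · exact differentiableAt_const _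

theorem zero_Q_cont {E : Type*} [TopologicalSpace E] {s : E} {ω : E → V → Finset ι → ℂ}
    {δ : E → Finset V → ℂ} (h : ∀ w ∈ Λ, ∀ T, ContinuousAt (fun s => ω s w T) s)
    (h' : ∀ S ⊆ Λ, ContinuousAt (fun s => δ s S) s) :
    ContinuousAt (fun s => Q Λ (ω s) (δ s)) s := by
  unfold Q
  exact tendsto_finsetSum _ fun S hS =>
    (tendsto_finsetProd _ fun w hw => h w hw _).mul
      (tendsto_finsetProd _ fun i _ => h' _ (mem_powerset.1 (Fintype.mem_piFinset.1 hS i)))

omit [DecidableEq V] in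
theorem zero_wG_cont {E : Type*} [TopologicalSpace E] {s : E} {x z : E → ℂ}
    (hx : ContinuousAt x s) (hz : ContinuousAt z s) (h0 : z s ≠ 0)
    (k : Option (Finset ι)) (T : Finset ι) : ContinuousAt (fun s => wG (x s) (z s) k T) s := by
  have h1 : ContinuousAt (fun s => x s / z s) s := hx.div hz h0
  cases k with
  | none =>
    simp only [wG, wA, div_mul_eq_div_div_swap]
    split_ifs
    · exact continuousAt_const
    · refine tendsto_finsetSum _ fun i _ => ?_
      split_ifs
      · exact h1.div_const _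
      · exact tendsto_const_nhds
  | some P =>
    simp only [wG, wP]
    refine tendsto_finsetProd _ fun i _ => ?_
    split_ifs
    · exact h1
    · exact tendsto_const_nhds

theorem ZG_empty : ZG a x ∅ k z = 1 := by
  exact Q_empty _ (mn_empty a)

theorem ZG_congr (hk : ∀ w ∈ Λ, k w = k' w) (hz : ∀ w ∈ Λ, z w = z' w) :
    ZG a x Λ k z = ZG a x Λ k' z' := by
  exact Q_congr (fun w hw => by rw [hk w hw, hz w hw]) fun _ _ => rfl

theorem NG_congr (hv : v ∉ Λ) (hk : ∀ w ∈ Λ, k w = k' w) (hz : ∀ w ∈ Λ, z w = z' w) (i : ι) :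
    NG a x Λ k z v i = NG a x Λ k' z' v i := by
  unfold NG Nn
  rw [QT_congr _ v _ fun w hw _ => by rw [hk w hw, hz w hw]]

theorem bG_congr (hv : v ∉ Λ) (hk : ∀ w ∈ Λ, k w = k' w) (hz : ∀ w ∈ Λ, z w = z' w) (i : ι) :
    bG a x Λ k z v i = bG a x Λ k' z' v i := by
  unfold bG
  rw [NG_congr hv hk hz, ZG_congr hk hz]

/-- At `x = 0` every weight is `wA 1 0`; erase the vertices one by one. -/
theorem ZG_zero : ZG a 0 Λ k z = 1 := by
  unfold ZG
  rw [zero_Q_sdiff Λ Λ _ fun w _ => zero_wG_zero _ _, sdiff_self]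
  exact Q_empty _ (mn_empty a)

theorem ZG_insert_none (hv : v ∉ Λ) (h : k v = none) :
    ZG a x (insert v Λ) k z =
      ZG a x Λ k z - (∑ i, NG a x Λ k z v i) / (Fintype.card ι * z v) := by
  unfold ZG NG
  rw [Q_wA hv _ (z := 1) (c := fun _ => x / (Fintype.card ι * z v)) (by rw [h]; rfl), one_mul,
    sum_div]
  congr 1
  exact sum_congr rfl fun i _ => by ring

theorem ZG_insert_single (hv : v ∉ Λ) {i : ι} (h : k v = some {i}) :
    ZG a x (insert v Λ) k z = ZG a x Λ k z - NG a x Λ k z v i / z v := by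
  unfold ZG NG
  rw [Q_wA hv _ (z := 1) (c := Pi.single i (x / z v)) (by rw [h, zero_wG_single]), one_mul,
    sum_eq_single i (fun j _ hj => by rw [Pi.single_eq_of_ne hj, zero_mul]) (by simp),
    Pi.single_eq_same]
  ring

theorem ZG_erase_del (h : k v = some ∅) : ZG a x Λ k z = ZG a x (Λ.erase v) k z := by
  exact Q_erase_zero _ (by rw [h, zero_wG_del])

/-- Deleted vertices may be removed. -/
theorem ZG_filter (p : V → Prop) [DecidablePred p] (h : ∀ w ∈ Λ, ¬ p w → k w = some ∅) :
    ZG a x Λ k z = ZG a x (Λ.filter p) k z := by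
  unfold ZG
  rw [zero_Q_sdiff Λ (Λ.filter fun w => ¬ p w) _ fun w hw => by
    rw [h w (mem_filter.1 hw).1 (mem_filter.1 hw).2, zero_wG_del]]
  congr 1
  ext w
  simp only [mem_sdiff, mem_filter]
  tauto

theorem NG_filter (hv : v ∉ Λ) (p : V → Prop) [DecidablePred p]
    (h : ∀ w ∈ Λ, ¬ p w → k w = some ∅) (i : ι) :
    NG a x Λ k z v i = NG a x (Λ.filter p) k z v i := by
  unfold NG Nn QT
  rw [zero_Q_sdiff (insert v Λ) (Λ.filter fun w => ¬ p w) _ fun w hw => by
    rw [Function.update_of_ne (ne_of_mem_of_not_mem (mem_filter.1 hw).1 hv),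
      h w (mem_filter.1 hw).1 (mem_filter.1 hw).2, zero_wG_del]]
  congr 3
  ext w
  simp only [mem_sdiff, mem_filter, mem_insert]
  by_cases hw : w = v
  · subst hw
    tauto
  · tauto

/-- Factorisation when there is no edge between the non-deleted vertices in and outside `U`
(`ZG_filter`, `Q_split`, `mn_split`). -/
theorem ZG_split {U : Finset V}
    (h : ∀ p ∈ Λ, ∀ q ∈ Λ, p ∈ U → q ∉ U → k p ≠ some ∅ → k q ≠ some ∅ → a p q = 0) :
    ZG a x Λ k z = ZG a x (Λ ∩ U) k z * ZG a x (Λ \ U) k z := by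
  classical
  rw [ZG_filter (Λ := Λ) (fun w => k w ≠ some ∅) fun w _ hw => not_not.1 hw,
    ZG_filter (Λ := Λ ∩ U) (fun w => k w ≠ some ∅) fun w _ hw => not_not.1 hw,
    ZG_filter (Λ := Λ \ U) (fun w => k w ≠ some ∅) fun w _ hw => not_not.1 hw]
  have h1 : ∀ S ⊆ Λ.filter fun w => k w ≠ some ∅, mn a S = mn a (S ∩ U) * mn a (S \ U) := by
    intro S hS
    refine mn_split fun p hp q hq hpU hqU => ?_
    have h2 := mem_filter.1 (hS hp)
    have h3 := mem_filter.1 (hS hq)
    exact h p h2.1 q h3.1 hpU hqU h2.2 h3.2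
  have e1 : (Λ ∩ U).filter (fun w => k w ≠ some ∅) = Λ.filter (fun w => k w ≠ some ∅) ∩ U := by
    ext w
    simp only [mem_inter, mem_filter]
    tauto
  have e2 : (Λ \ U).filter (fun w => k w ≠ some ∅) = Λ.filter (fun w => k w ≠ some ∅) \ U := by
    ext w
    simp only [mem_sdiff, mem_filter]
    tauto
  rw [e1, e2]
  exact Q_split _ h1

theorem ZG_relabel {V' : Type*} [DecidableEq V'] (f : V' ↪ V) (Λ : Finset V') :
    ZG a x (Λ.map f) k z = ZG (fun p q => a (f p) (f q)) x Λ (fun w => k (f w)) fun w => z (f w) := by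
  unfold ZG
  rw [Q_relabel]
  exact Q_congr (fun _ _ => rfl) fun S _ => mn_relabel f a S

theorem ZG_gauge {a' : V → V → ℂ} {γ : V → ℂ} (hγ : ∀ p ∈ Λ, ‖γ p‖ = 1)
    (h : ∀ p ∈ Λ, ∀ q ∈ Λ, a p q = (starRingEnd ℂ) (γ p) * γ q * a' p q) :
    ZG a x Λ k z = ZG a' x Λ k z := by
  exact Q_congr (fun _ _ => rfl) fun S hS =>
    mn_gauge (fun p hp => hγ p (hS hp)) fun p hp q hq => h p (hS hp) q (hS hq)

/-- Real data give real values (`Q_map` with complex conjugation, `mn_im`). -/
theorem ZG_conj (ha : Herm a) :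
    (starRingEnd ℂ) (ZG a x Λ k z) =
      ZG a ((starRingEnd ℂ) x) Λ k fun w => (starRingEnd ℂ) (z w) := by
  unfold ZG
  rw [Q_map, zero_mn_conj ha]
  simp only [zero_wG_conj]

theorem NG_conj (ha : Herm a) (i : ι) :
    (starRingEnd ℂ) (NG a x Λ k z v i) =
      NG a ((starRingEnd ℂ) x) Λ k (fun w => (starRingEnd ℂ) (z w)) v i := by
  unfold NG
  rw [map_mul, Nn_map, zero_mn_conj ha]
  simp only [zero_wG_conj]

/-- Joint analyticity in `x` and the heights (finite sums of products of `x / z`). -/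
theorem ZG_differentiableAt {E : Type*} [NormedAddCommGroup E] [NormedSpace ℂ E] {x : E → ℂ}
    {z : E → V → ℂ} {s : E} (hx : DifferentiableAt ℂ x s)
    (hz : ∀ w ∈ Λ, DifferentiableAt ℂ (fun s => z s w) s) (h0 : ∀ w ∈ Λ, z s w ≠ 0) :
    DifferentiableAt ℂ (fun s => ZG a (x s) Λ k (z s)) s := by
  exact zero_Q_diff _ fun w hw T => zero_wG_diff hx (hz w hw) (h0 w hw) _ T

theorem NG_differentiableAt {E : Type*} [NormedAddCommGroup E] [NormedSpace ℂ E] {x : E → ℂ}
    {z : E → V → ℂ} {s : E} (hv : v ∉ Λ) (hx : DifferentiableAt ℂ x s)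
    (hz : ∀ w ∈ Λ, DifferentiableAt ℂ (fun s => z s w) s) (h0 : ∀ w ∈ Λ, z s w ≠ 0) (i : ι) :
    DifferentiableAt ℂ (fun s => NG a (x s) Λ k (z s) v i) s := by
  unfold NG Nn QT
  refine hx.mul (zero_Q_diff _ fun w hw T => ?_).neg
  rcases mem_insert.1 hw with rfl | hw
  · simp only [Function.update_self]
    exact differentiableAt_const _
  · simp only [Function.update_of_ne (ne_of_mem_of_not_mem hw hv)]
    exact zero_wG_diff hx (hz w hw) (h0 w hw) _ T

/-- Joint continuity, also in the matrix entries (`Continuous.matrix_det` or `det_apply`). -/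
theorem ZG_continuousAt {E : Type*} [TopologicalSpace E] {a : E → V → V → ℂ} {x : E → ℂ}
    {z : E → V → ℂ} {s : E} (ha : ∀ p ∈ Λ, ∀ q ∈ Λ, ContinuousAt (fun s => a s p q) s)
    (hx : ContinuousAt x s) (hz : ∀ w ∈ Λ, ContinuousAt (fun s => z s w) s)
    (h0 : ∀ w ∈ Λ, z s w ≠ 0) : ContinuousAt (fun s => ZG (a s) (x s) Λ k (z s)) s := by
  refine zero_Q_cont (fun w hw T => zero_wG_cont hx (hz w hw) (h0 w hw) _ T) fun S hS => ?_
  simp only [mn, Matrix.det_apply', Matrix.of_apply]
  exact tendsto_finsetSum _ fun σ _ =>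
    (tendsto_finsetProd _ fun p _ => (ha _ (hS (σ p).2) _ (hS p.2)).neg).const_mul _

theorem NG_continuousAt {E : Type*} [TopologicalSpace E] {x : E → ℂ} {z : E → V → ℂ} {s : E}
    (hv : v ∉ Λ) (hx : ContinuousAt x s) (hz : ∀ w ∈ Λ, ContinuousAt (fun s => z s w) s)
    (h0 : ∀ w ∈ Λ, z s w ≠ 0) (i : ι) : ContinuousAt (fun s => NG a (x s) Λ k (z s) v i) s := by
  unfold NG Nn QT
  refine hx.mul (ContinuousAt.neg (zero_Q_cont (δ := fun _ => mn a)
    (ω := fun s => Function.update (fun w => wG (x s) (z s w) (k w)) v (Pi.single {i} 1))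
    (fun w hw T => ?_) fun _ _ => continuousAt_const))
  rcases mem_insert.1 hw with rfl | hw
  · simp only [Function.update_self]
    exact continuousAt_const
  · simp only [Function.update_of_ne (ne_of_mem_of_not_mem hw hv)]
    exact zero_wG_cont hx (hz w hw) (h0 w hw) _ T

end Basic

end Crest.Agent.R109
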